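import Vale.Agent.Lib.P146.Main

/-! Module K2: the statement for the model without diagonal, all `n`. -/

set_option autoImplicit false
open MeasureTheory ProbabilityTheory

namespace Vale.Agent.Lib.P146

/-- Off-diagonal coordinates. -/
abbrev Od (n : ℕ) := {q : Fin n × Fin n // q.1 < q.2}

/-- Gaussian measure on the off-diagonal coordinates. -/
noncomputable def gamO (n : ℕ) : Measure (Od n → ℝ) := Measure.pi fun _ => gaussianReal 0 1

/-- The SK energy. -/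
noncomputable def HamO {n : ℕ} (g : Od n → ℝ) (σ : Sp n) : ℝ :=
  (Real.sqrt n)⁻¹ * ∑ q : Od n, g q * (sv σ q.1.1 * sv σ q.1.2)

/-- The SK free energy. -/
noncomputable def FO {n : ℕ} (β : ℝ) (g : Od n → ℝ) : ℝ :=
  Real.log (∑ σ : Sp n, Real.exp (β * HamO g σ))

instance (n : ℕ) : IsProbabilityMeasure (gamO n) := by
  unfold gamO; infer_instance

/-- Gaussian measure on the diagonal coordinates. -/
noncomputable def gamD (n : ℕ) : Measure (Fin n → ℝ) := Measure.pi fun _ => gaussianReal 0 1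

instance (n : ℕ) : IsProbabilityMeasure (gamD n) := by
  unfold gamD; infer_instance

/-! ### The splitting of the coordinates -/

/-- Coordinates of `Ed n`: the off-diagonal ones and the diagonal ones. -/
def edOf (n : ℕ) : Od n ⊕ Fin n → Ed n
  | .inl q => s(q.1.1, q.1.2)
  | .inr x => s(x, x)

theorem edOf_inj (n : ℕ) : Function.Injective (edOf n) := by
  rintro (⟨⟨x, y⟩, h⟩ | x) (⟨⟨x', y'⟩, h'⟩ | x') he
  · simp only [edOf, Sym2.eq_iff] at he
    simp only at h h'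
    rcases he with ⟨rfl, rfl⟩ | ⟨rfl, rfl⟩
    · rfl
    · exact absurd h (not_lt.mpr h'.le)
  · simp only [edOf, Sym2.eq_iff] at he
    simp only at h
    rcases he with ⟨rfl, rfl⟩ | ⟨rfl, rfl⟩ <;> exact absurd h (lt_irrefl _)
  · simp only [edOf, Sym2.eq_iff] at he
    simp only at h'
    rcases he with ⟨rfl, rfl⟩ | ⟨rfl, rfl⟩ <;> exact absurd h' (lt_irrefl _)
  · simp only [edOf, Sym2.eq_iff] at he
    rcases he with ⟨rfl, -⟩ | ⟨rfl, -⟩ <;> rfl

theorem edOf_surj (n : ℕ) : Function.Surjective (edOf n) := by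
  intro e
  induction e using Sym2.ind with
  | _ x y =>
    rcases lt_trichotomy x y with h | h | h
    · exact ⟨.inl ⟨(x, y), h⟩, rfl⟩
    · subst h; exact ⟨.inr x, rfl⟩
    · exact ⟨.inl ⟨(y, x), h⟩, Sym2.eq_swap⟩

/-- The coordinate equivalence. -/
noncomputable def edEquiv (n : ℕ) : Od n ⊕ Fin n ≃ Ed n :=
  Equiv.ofBijective _ ⟨edOf_inj n, edOf_surj n⟩

/-- The splitting map. -/
def splitP (n : ℕ) (g : Pt n) : (Od n → ℝ) × (Fin n → ℝ) :=
  (fun q => g s(q.1.1, q.1.2), fun x => g s(x, x))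

theorem measurable_splitP (n : ℕ) : Measurable (splitP n) := by
  unfold splitP
  fun_prop

theorem measurePreserving_splitP (n : ℕ) :
    MeasurePreserving (splitP n) (gam n) ((gamO n).prod (gamD n)) := by
  have h1 := (measurePreserving_piCongrLeft (α := fun _ : Ed n => ℝ)
    (fun _ : Ed n => gaussianReal 0 1) (edEquiv n)).symm
  have h2 := measurePreserving_sumPiEquivProdPi (X := fun _ : Od n ⊕ Fin n => ℝ)
    (fun _ : Od n ⊕ Fin n => gaussianReal 0 1)
  exact h2.comp h1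

/-! ### The energy -/

theorem sum_sym_split {n : ℕ} (F : Fin n → Fin n → ℝ) (hF : ∀ x y, F x y = F y x) :
    ∑ x, ∑ y, F x y = ∑ x, F x x + 2 * ∑ q : Od n, F q.1.1 q.1.2 := by
  have h1 : ∀ x y, F x y = (if x < y then F x y else 0) + (if x = y then F x y else 0)
      + (if y < x then F x y else 0) := by
    intro x y
    rcases lt_trichotomy x y with h | h | h
    · simp [h, h.ne, not_lt.mpr h.le]
    · subst h; simp
    · simp [h, h.ne', not_lt.mpr h.le]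
  have h2 : ∑ x, ∑ y, (if x < y then F x y else 0) = ∑ q : Od n, F q.1.1 q.1.2 := by
    rw [← Finset.sum_product' (f := fun x y => if x < y then F x y else 0)]
    rw [← Finset.sum_filter_add_sum_filter_not _ (fun p : Fin n × Fin n => p.1 < p.2)]
    have h3 : ∑ p ∈ (Finset.univ ×ˢ Finset.univ : Finset (Fin n × Fin n)) with ¬ p.1 < p.2,
        (if p.1 < p.2 then F p.1 p.2 else 0) = 0 := by
      apply Finset.sum_eq_zero
      intro p hp
      simp only [Finset.mem_filter] at hp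
      simp [hp.2]
    rw [h3, add_zero]
    have h4 : ∑ p ∈ (Finset.univ ×ˢ Finset.univ : Finset (Fin n × Fin n)) with p.1 < p.2,
        (if p.1 < p.2 then F p.1 p.2 else 0)
        = ∑ p ∈ (Finset.univ ×ˢ Finset.univ : Finset (Fin n × Fin n)) with p.1 < p.2, F p.1 p.2 := by
      apply Finset.sum_congr rfl
      intro p hp
      simp only [Finset.mem_filter] at hp
      simp [hp.2]
    rw [h4]
    exact (Finset.sum_subtype _ (by simp) (fun p : Fin n × Fin n => F p.1 p.2))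
  have h5 : ∑ x, ∑ y, (if y < x then F x y else 0) = ∑ x, ∑ y, (if x < y then F x y else 0) := by
    rw [Finset.sum_comm]
    apply Finset.sum_congr rfl
    intro x _
    apply Finset.sum_congr rfl
    intro y _
    rw [hF]
  calc ∑ x, ∑ y, F x y
      = ∑ x, ∑ y, ((if x < y then F x y else 0) + (if x = y then F x y else 0)
          + (if y < x then F x y else 0)) := by
        apply Finset.sum_congr rfl; intro x _
        apply Finset.sum_congr rfl; intro y _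
        exact h1 x y
    _ = ∑ x, ∑ y, (if x < y then F x y else 0) + ∑ x, ∑ y, (if x = y then F x y else 0)
          + ∑ x, ∑ y, (if y < x then F x y else 0) := by
        simp only [Finset.sum_add_distrib]
    _ = _ := by
        rw [h5, h2]
        simp only [Finset.sum_ite_eq, Finset.mem_univ, if_true]
        ring

theorem sv_mul_self {n : ℕ} (σ : Sp n) (x : Fin n) : sv σ x * sv σ x = 1 := by
  unfold sv; split_ifs <;> norm_num

theorem abs_sv_mul {n : ℕ} (σ : Sp n) (x y : Fin n) : |sv σ x * sv σ y| = 1 := by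
  unfold sv; split_ifs <;> norm_num

/-- The energy with diagonal is the energy without, plus a diagonal term that does not depend on
the spins. -/
theorem Ham_split {n : ℕ} (g : Pt n) (σ : Sp n) :
    Ham g σ = HamO (splitP n g).1 σ + (Real.sqrt 2 / 2 * (Real.sqrt n)⁻¹) * ∑ x, (splitP n g).2 x := by
  unfold Ham HamO splitP
  rw [sum_sym_split (fun x y => Jh g x y * (sv σ x * sv σ y))]
  · simp only [Jh, Matrix.of_apply, cc, if_true, sv_mul_self, mul_one]
    have h1 : ∀ q : Od n, (if q.1.1 = q.1.2 then Real.sqrt 2 else 1) * g s(q.1.1, q.1.2) / Real.sqrt n *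
        (sv σ q.1.1 * sv σ q.1.2) =
        (Real.sqrt n)⁻¹ * (g s(q.1.1, q.1.2) * (sv σ q.1.1 * sv σ q.1.2)) := by
      intro q
      rw [if_neg q.2.ne]
      ring
    rw [Finset.sum_congr rfl (fun q _ => h1 q), ← Finset.mul_sum]
    have h2 : ∑ x : Fin n, Real.sqrt 2 * g s(x, x) / Real.sqrt n =
        Real.sqrt 2 * (Real.sqrt n)⁻¹ * ∑ x : Fin n, g s(x, x) := by
      rw [Finset.mul_sum]
      apply Finset.sum_congr rfl
      intro x _
      ring
    rw [h2]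
    ring
  · intro x y
    simp only [Jh, Matrix.of_apply, cc]
    rw [Sym2.eq_swap (a := x) (b := y)]
    by_cases h : x = y
    · subst h; rfl
    · rw [if_neg h, if_neg (Ne.symm h)]; ring

/-- The diagonal part of the free energy. -/
noncomputable def diagD (n : ℕ) (β : ℝ) (b : Fin n → ℝ) : ℝ :=
  β * (Real.sqrt 2 / 2 * (Real.sqrt n)⁻¹) * ∑ x, b x

theorem Fh_split {n : ℕ} (β : ℝ) (g : Pt n) :
    Fh β g = FO β (splitP n g).1 + diagD n β (splitP n g).2 := by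
  unfold Fh Zh FO diagD
  have h1 : ∀ σ : Sp n, Real.exp (β * Ham g σ) =
      Real.exp (β * (Real.sqrt 2 / 2 * (Real.sqrt n)⁻¹) * ∑ x, (splitP n g).2 x) *
        Real.exp (β * HamO (splitP n g).1 σ) := by
    intro σ
    rw [Ham_split, ← Real.exp_add]
    congr 1
    ring
  rw [Finset.sum_congr rfl (fun σ _ => h1 σ), ← Finset.mul_sum]
  have hpos : 0 < ∑ σ : Sp n, Real.exp (β * HamO (splitP n g).1 σ) :=
    Finset.sum_pos (fun σ _ => Real.exp_pos _) ⟨fun _ => true, Finset.mem_univ _⟩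
  rw [Real.log_mul (Real.exp_pos _).ne' hpos.ne', Real.log_exp]
  ring

/-! ### Integrability -/

private theorem integrable_exp_abs' :
    Integrable (fun t : ℝ => Real.exp |t|) (gaussianReal 0 1) := by
  have h1 := integrable_exp_mul_gaussianReal (μ := 0) (v := 1) 1
  have h2 := integrable_exp_mul_gaussianReal (μ := 0) (v := 1) (-1)
  refine (h1.add h2).mono' ?_ ?_
  · exact (Real.measurable_exp.comp measurable_id.abs).aestronglyMeasurable
  · refine Filter.Eventually.of_forall fun t => ?_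
    rw [Real.norm_eq_abs, abs_of_pos (Real.exp_pos _)]
    simp only [Pi.add_apply, one_mul, neg_mul]
    rcases abs_cases t with ⟨h, _⟩ | ⟨h, _⟩
    · rw [h]
      have := Real.exp_pos (-t)
      linarith
    · rw [h]
      have := Real.exp_pos t
      linarith

/-- Polynomial growth gives integrability for a standard Gaussian on any finite index set. -/
theorem integrable_of_growth {ι : Type*} [Fintype ι] (f : (ι → ℝ) → ℝ) (hm : Measurable f)
    (C : ℝ) (N : ℕ) (hC : ∀ a, |f a| ≤ C * (1 + ∑ i, |a i|) ^ N) :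
    Integrable f (Measure.pi fun _ : ι => gaussianReal 0 1) := by
  have hprod : Integrable (fun g : ι → ℝ => ∏ e, Real.exp |g e|)
      (Measure.pi fun _ : ι => gaussianReal 0 1) :=
    Integrable.fintype_prod (fun _ => integrable_exp_abs')
  have hbd : Integrable (fun g : ι → ℝ =>
      (|C| * (N.factorial : ℝ) * Real.exp 1) * ∏ e, Real.exp |g e|)
      (Measure.pi fun _ : ι => gaussianReal 0 1) := hprod.const_mul _
  refine hbd.mono' hm.aestronglyMeasurable ?_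
  refine Filter.Eventually.of_forall fun g => ?_
  rw [Real.norm_eq_abs]
  have hb : (0 : ℝ) ≤ 1 + ∑ e, |g e| := by
    have : 0 ≤ ∑ e, |g e| := Finset.sum_nonneg fun e _ => abs_nonneg _
    linarith
  have h1 : (1 + ∑ e, |g e|) ^ N ≤ (N.factorial : ℝ) * Real.exp (1 + ∑ e, |g e|) := by
    have h := Real.pow_div_factorial_le_exp (1 + ∑ e, |g e|) hb N
    have hf : (0 : ℝ) < N.factorial := by exact_mod_cast Nat.factorial_pos N
    rw [div_le_iff₀ hf] at h
    linarith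
  have h2 : Real.exp (1 + ∑ e, |g e|) = Real.exp 1 * ∏ e, Real.exp |g e| := by
    rw [Real.exp_add, Real.exp_sum]
  have hpow : 0 ≤ (1 + ∑ e, |g e|) ^ N := by positivity
  calc |f g| ≤ C * (1 + ∑ e, |g e|) ^ N := hC g
    _ ≤ |C| * (1 + ∑ e, |g e|) ^ N := mul_le_mul_of_nonneg_right (le_abs_self C) hpow
    _ ≤ |C| * ((N.factorial : ℝ) * Real.exp (1 + ∑ e, |g e|)) :=
        mul_le_mul_of_nonneg_left h1 (abs_nonneg C)
    _ = _ := by rw [h2]; ring

theorem measurable_FO {n : ℕ} (β : ℝ) : Measurable (FO (n := n) β) := by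
  unfold FO HamO
  fun_prop

theorem measurable_diagD (n : ℕ) (β : ℝ) : Measurable (diagD n β) := by
  unfold diagD
  fun_prop

/-- Linear growth of the SK free energy. -/
theorem abs_FO_le {n : ℕ} (β : ℝ) (a : Od n → ℝ) :
    |FO β a| ≤ ((n : ℝ) * Real.log 2 + |β| * (Real.sqrt n)⁻¹) * (1 + ∑ q, |a q|) ^ 1 := by
  set M : ℝ := |β| * (Real.sqrt n)⁻¹ * ∑ q, |a q| with hM
  have hS : 0 ≤ ∑ q, |a q| := Finset.sum_nonneg fun e _ => abs_nonneg _
  have hbn : 0 ≤ |β| * (Real.sqrt n)⁻¹ := by positivity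
  have hM0 : 0 ≤ M := mul_nonneg hbn hS
  have hH : ∀ σ : Sp n, |β * HamO a σ| ≤ M := by
    intro σ
    unfold HamO
    rw [abs_mul, abs_mul, abs_of_nonneg (a := (Real.sqrt (n : ℝ))⁻¹) (by positivity), hM]
    have : |∑ q : Od n, a q * (sv σ q.1.1 * sv σ q.1.2)| ≤ ∑ q, |a q| := by
      refine (Finset.abs_sum_le_sum_abs _ _).trans (le_of_eq ?_)
      apply Finset.sum_congr rfl
      intro q _
      rw [abs_mul, abs_sv_mul, mul_one]
    calc |β| * ((Real.sqrt n)⁻¹ * |∑ q : Od n, a q * (sv σ q.1.1 * sv σ q.1.2)|)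
        ≤ |β| * ((Real.sqrt n)⁻¹ * ∑ q, |a q|) := by gcongr
      _ = _ := by ring
  have hcard : ((Finset.univ : Finset (Sp n)).card : ℝ) = 2 ^ n := by
    simp [Finset.card_univ]
  have hup : ∑ σ : Sp n, Real.exp (β * HamO a σ) ≤ 2 ^ n * Real.exp M := by
    calc ∑ σ : Sp n, Real.exp (β * HamO a σ) ≤ ∑ _σ : Sp n, Real.exp M := by
          apply Finset.sum_le_sum
          intro σ _
          exact Real.exp_le_exp.mpr ((le_abs_self _).trans (hH σ))
      _ = _ := by rw [Finset.sum_const, nsmul_eq_mul, hcard]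
  have hlow : Real.exp (-M) ≤ ∑ σ : Sp n, Real.exp (β * HamO a σ) := by
    have h1 : Real.exp (-M) ≤ Real.exp (β * HamO a (fun _ => true)) :=
      Real.exp_le_exp.mpr (by have := (abs_le.mp (hH (fun _ => true))).1; linarith)
    exact h1.trans (Finset.single_le_sum (f := fun σ : Sp n => Real.exp (β * HamO a σ))
      (fun σ _ => (Real.exp_pos _).le) (Finset.mem_univ _))
  have hpos : 0 < ∑ σ : Sp n, Real.exp (β * HamO a σ) :=
    lt_of_lt_of_le (Real.exp_pos _) hlow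
  have hl2 : 0 ≤ Real.log 2 := Real.log_nonneg (by norm_num)
  have hnl : 0 ≤ (n : ℝ) * Real.log 2 := by positivity
  have h1 : Real.log (∑ σ : Sp n, Real.exp (β * HamO a σ)) ≤ (n : ℝ) * Real.log 2 + M := by
    have := Real.log_le_log hpos hup
    rwa [Real.log_mul (by positivity) (Real.exp_pos _).ne', Real.log_exp, Real.log_pow] at this
  have h2 : -M ≤ Real.log (∑ σ : Sp n, Real.exp (β * HamO a σ)) := by
    have := Real.log_le_log (Real.exp_pos _) hlow
    rwa [Real.log_exp] at this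
  have h3 : |FO β a| ≤ (n : ℝ) * Real.log 2 + M := by
    unfold FO
    rw [abs_le]
    constructor <;> linarith
  refine h3.trans ?_
  rw [pow_one, hM]
  nlinarith [mul_nonneg hnl hS]

theorem abs_diagD_le (n : ℕ) (β : ℝ) (b : Fin n → ℝ) :
    |diagD n β b| ≤ |β * (Real.sqrt 2 / 2 * (Real.sqrt n)⁻¹)| * (1 + ∑ x, |b x|) ^ 1 := by
  unfold diagD
  rw [abs_mul, pow_one]
  have : |∑ x, b x| ≤ ∑ x, |b x| := Finset.abs_sum_le_sum_abs _ _
  gcongr
  linarith

theorem integrable_sq_of_growth {ι : Type*} [Fintype ι] (f : (ι → ℝ) → ℝ) (hm : Measurable f)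
    (C : ℝ) (hC : ∀ a, |f a| ≤ C * (1 + ∑ i, |a i|) ^ 1) :
    Integrable (fun a => f a ^ 2) (Measure.pi fun _ : ι => gaussianReal 0 1) := by
  refine integrable_of_growth _ (hm.pow_const 2) (C ^ 2) 2 fun a => ?_
  rw [abs_pow]
  have h0 : 0 ≤ |f a| := abs_nonneg _
  calc |f a| ^ 2 ≤ (C * (1 + ∑ i, |a i|) ^ 1) ^ 2 := pow_le_pow_left₀ h0 (hC a) 2
    _ = _ := by ring

/-! ### Variances -/

theorem var_prod_ge {Ω₁ Ω₂ : Type*} [MeasurableSpace Ω₁] [MeasurableSpace Ω₂] (μ : Measure Ω₁)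
    (ν : Measure Ω₂) [IsProbabilityMeasure μ] [IsProbabilityMeasure ν] (A : Ω₁ → ℝ) (B : Ω₂ → ℝ)
    (hA : Integrable A μ) (hA2 : Integrable (fun a => A a ^ 2) μ) (hB : Integrable B ν)
    (hB2 : Integrable (fun b => B b ^ 2) ν) :
    ∫ a, A a ^ 2 ∂μ - (∫ a, A a ∂μ) ^ 2 ≤
      ∫ z, (A z.1 + B z.2) ^ 2 ∂μ.prod ν - (∫ z, A z.1 + B z.2 ∂μ.prod ν) ^ 2 := by
  have iA : Integrable (fun z : Ω₁ × Ω₂ => A z.1) (μ.prod ν) := hA.comp_fst ν
  have iB : Integrable (fun z : Ω₁ × Ω₂ => B z.2) (μ.prod ν) := hB.comp_snd μ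
  have iA2 : Integrable (fun z : Ω₁ × Ω₂ => A z.1 ^ 2) (μ.prod ν) := hA2.comp_fst ν
  have iB2 : Integrable (fun z : Ω₁ × Ω₂ => B z.2 ^ 2) (μ.prod ν) := hB2.comp_snd μ
  have iAB : Integrable (fun z : Ω₁ × Ω₂ => A z.1 * B z.2) (μ.prod ν) := hA.mul_prod hB
  have e1 : ∫ z, A z.1 + B z.2 ∂μ.prod ν = ∫ a, A a ∂μ + ∫ b, B b ∂ν := by
    rw [integral_add iA iB, integral_fun_fst, integral_fun_snd]
    simp
  have e2 : ∫ z, (A z.1 + B z.2) ^ 2 ∂μ.prod ν =
      ∫ a, A a ^ 2 ∂μ + 2 * ((∫ a, A a ∂μ) * ∫ b, B b ∂ν) + ∫ b, B b ^ 2 ∂ν := by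
    have h : ∀ z : Ω₁ × Ω₂, (A z.1 + B z.2) ^ 2 = A z.1 ^ 2 + 2 * (A z.1 * B z.2) + B z.2 ^ 2 := by
      intro z; ring
    simp_rw [h]
    have i1 : Integrable (fun z : Ω₁ × Ω₂ => A z.1 ^ 2 + 2 * (A z.1 * B z.2)) (μ.prod ν) :=
      iA2.add (iAB.const_mul 2)
    have i2 : Integrable (fun z : Ω₁ × Ω₂ => 2 * (A z.1 * B z.2)) (μ.prod ν) := iAB.const_mul 2
    rw [integral_add i1 iB2, integral_add iA2 i2,
      integral_const_mul, integral_prod_mul, integral_fun_fst (f := fun a => A a ^ 2),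
      integral_fun_snd (f := fun b => B b ^ 2)]
    simp
  rw [e1, e2]
  have hvar : 0 ≤ ∫ b, (B b - ∫ b, B b ∂ν) ^ 2 ∂ν := integral_nonneg fun b => sq_nonneg _
  have e3 : ∫ b, (B b - ∫ b, B b ∂ν) ^ 2 ∂ν = ∫ b, B b ^ 2 ∂ν - (∫ b, B b ∂ν) ^ 2 := by
    set m := ∫ b, B b ∂ν with hm
    have h : ∀ b, (B b - m) ^ 2 = B b ^ 2 + ((-(2 * m)) * B b + m ^ 2) := by
      intro b; ring
    simp_rw [h]
    have i1 : Integrable (fun b => (-(2 * m)) * B b) ν := hB.const_mul _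
    have i2 : Integrable (fun _ : Ω₂ => m ^ 2) ν := integrable_const _
    have i3 : Integrable (fun b => (-(2 * m)) * B b + m ^ 2) ν := i1.add i2
    rw [integral_add hB2 i3, integral_add i1 i2, integral_const_mul, ← hm]
    simp
    ring
  rw [e3] at hvar
  nlinarith

/-- Variance with diagonal dominates variance without. -/
theorem var_FO_le {n : ℕ} (hn : 0 < n) (β : ℝ) :
    (∫ g, FO β g ^ 2 ∂gamO n - (∫ g, FO β g ∂gamO n) ^ 2) ≤ VarH (Fh (n := n) β) := by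
  have hΦ := measurePreserving_splitP n
  have iA : Integrable (FO (n := n) β) (gamO n) :=
    integrable_of_growth _ (measurable_FO β) _ 1 (abs_FO_le β)
  have iA2 : Integrable (fun a => FO (n := n) β a ^ 2) (gamO n) :=
    integrable_sq_of_growth _ (measurable_FO β) _ (abs_FO_le β)
  have iB : Integrable (diagD n β) (gamD n) :=
    integrable_of_growth _ (measurable_diagD n β) _ 1 (abs_diagD_le n β)
  have iB2 : Integrable (fun b => diagD n β b ^ 2) (gamD n) :=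
    integrable_sq_of_growth _ (measurable_diagD n β) _ (abs_diagD_le n β)
  have hmain := var_prod_ge (gamO n) (gamD n) (FO (n := n) β) (diagD n β) iA iA2 iB iB2
  have mH : Measurable (fun z : (Od n → ℝ) × (Fin n → ℝ) => FO β z.1 + diagD n β z.2) :=
    ((measurable_FO β).comp measurable_fst).add ((measurable_diagD n β).comp measurable_snd)
  have e1 : ∫ g, Fh β g ∂gam n = ∫ z, FO β z.1 + diagD n β z.2 ∂(gamO n).prod (gamD n) := by
    rw [← hΦ.map_eq, integral_map hΦ.aemeasurable mH.aestronglyMeasurable]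
    exact integral_congr_ae (Filter.Eventually.of_forall fun g => Fh_split β g)
  have e2 : ∫ g, Fh β g ^ 2 ∂gam n = ∫ z, (FO β z.1 + diagD n β z.2) ^ 2 ∂(gamO n).prod (gamD n) := by
    rw [← hΦ.map_eq, integral_map hΦ.aemeasurable (mH.pow_const 2).aestronglyMeasurable]
    exact integral_congr_ae (Filter.Eventually.of_forall fun g => by
      show Fh β g ^ 2 = _
      rw [Fh_split β g])
  unfold VarH
  rw [e1, e2]
  exact hmain

/-! ### Numerics -/

theorem succ_pow_17_le {K : ℕ} (hK : 128 ≤ K) : (K + 1) ^ 17 ≤ 2 ^ K := by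
  induction K, hK using Nat.le_induction with
  | base => norm_num
  | succ K hK ih =>
    have h1 : 129 * (K + 1 + 1) ≤ 130 * (K + 1) := by omega
    have h2 : (129 * (K + 1 + 1)) ^ 17 ≤ (130 * (K + 1)) ^ 17 := Nat.pow_le_pow_left h1 17
    rw [mul_pow, mul_pow] at h2
    have h3 : (130 : ℕ) ^ 17 ≤ 2 * 129 ^ 17 := by norm_num
    have h4 : 129 ^ 17 * (K + 1 + 1) ^ 17 ≤ 129 ^ 17 * (2 * (K + 1) ^ 17) := by
      calc 129 ^ 17 * (K + 1 + 1) ^ 17 ≤ 130 ^ 17 * (K + 1) ^ 17 := h2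
        _ ≤ (2 * 129 ^ 17) * (K + 1) ^ 17 := Nat.mul_le_mul_right _ h3
        _ = _ := by ring
    have h5 : (K + 1 + 1) ^ 17 ≤ 2 * (K + 1) ^ 17 := Nat.le_of_mul_le_mul_left h4 (by positivity)
    calc (K + 1 + 1) ^ 17 ≤ 2 * (K + 1) ^ 17 := h5
      _ ≤ 2 * 2 ^ K := Nat.mul_le_mul_left _ ih
      _ = 2 ^ (K + 1) := by ring

theorem exists_log_param {K n : ℕ} (hK128 : 128 ≤ K) (hKn : K ^ 16 ≤ n) (hnK : n ≤ (K + 1) ^ 16) :
    ∃ N : ℕ, 1 ≤ N ∧ 12 * n + 1 ≤ 2 ^ N ∧ 1000 * (K * N + 1) ^ 6 ≤ n := by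
  have hn1 : 1 ≤ n := le_trans (Nat.one_le_pow _ _ (by omega)) hKn
  refine ⟨Nat.clog 2 (12 * n + 1), Nat.clog_pos (by norm_num) (by omega),
    Nat.le_pow_clog (by norm_num) _, ?_⟩
  set N : ℕ := Nat.clog 2 (12 * n + 1) with hNdef
  have hNK : N ≤ K := by
    apply Nat.clog_le_of_le_pow
    have h1 : (K + 1) ^ 17 ≤ 2 ^ K := succ_pow_17_le hK128
    have h2 : (K + 1) ^ 17 = (K + 1) * (K + 1) ^ 16 := by ring
    have h3 : 13 * (K + 1) ^ 16 ≤ (K + 1) * (K + 1) ^ 16 :=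
      Nat.mul_le_mul_right _ (by omega)
    have h4 : 1 ≤ (K + 1) ^ 16 := Nat.one_le_pow _ _ (by omega)
    calc 12 * n + 1 ≤ 12 * (K + 1) ^ 16 + (K + 1) ^ 16 := Nat.add_le_add (Nat.mul_le_mul_left _ hnK) h4
      _ = 13 * (K + 1) ^ 16 := by ring
      _ ≤ (K + 1) * (K + 1) ^ 16 := h3
      _ = (K + 1) ^ 17 := h2.symm
      _ ≤ 2 ^ K := h1
  have h1 : K * N + 1 ≤ 2 * K ^ 2 := by
    have h2 : K * N ≤ K * K := Nat.mul_le_mul_left _ hNK
    have h3 : 1 ≤ K * K := Nat.mul_pos (by omega) (by omega)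
    calc K * N + 1 ≤ K * K + K * K := Nat.add_le_add h2 h3
      _ = 2 * K ^ 2 := by ring
  have h2 : (K * N + 1) ^ 6 ≤ (2 * K ^ 2) ^ 6 := Nat.pow_le_pow_left h1 6
  have h3 : 1000 * (2 * K ^ 2) ^ 6 ≤ K ^ 16 := by
    have h4 : 128 ^ 4 ≤ K ^ 4 := Nat.pow_le_pow_left hK128 4
    have h5 : (2 * K ^ 2) ^ 6 = 64 * K ^ 12 := by ring
    have h6 : K ^ 16 = K ^ 4 * K ^ 12 := by ring
    rw [h5, h6]
    have h7 : 64000 ≤ K ^ 4 := le_trans (by norm_num) h4
    calc 1000 * (64 * K ^ 12) = 64000 * K ^ 12 := by ring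
      _ ≤ K ^ 4 * K ^ 12 := Nat.mul_le_mul_right _ h7
  calc 1000 * (K * N + 1) ^ 6 ≤ 1000 * (2 * K ^ 2) ^ 6 := Nat.mul_le_mul_left _ h2
    _ ≤ K ^ 16 := h3
    _ ≤ n := hKn

theorem final_arith {K r b β n K₀ : ℝ} (hr1 : 1 ≤ r) (hKle : K ≤ r) (hKlt : r < K + 1) (hK1 : 1 ≤ K)
    (hr16 : r ^ 16 = n) (hK₀ : 0 ≤ K₀) :
    16 * (512 * K * b ^ 4 * (K + 1) ^ 2 + 2) + β ^ 2 * n / (2 * (K + 1)) ≤
      (β ^ 2 / 2 * K₀ + (32768 * b ^ 4 + 32 + β ^ 2 / 2)) * r ^ 15 := by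
  have hK0 : 0 ≤ K := by linarith
  have hK12 : K + 1 ≤ 2 * r := by linarith
  have hb4 : 0 ≤ b ^ 4 := by have := pow_nonneg (sq_nonneg b) 2; calc 0 ≤ (b ^ 2) ^ 2 := this
    _ = b ^ 4 := by ring
  have h1 : 512 * K * b ^ 4 * (K + 1) ^ 2 ≤ 2048 * b ^ 4 * r ^ 15 := by
    have h2 : K * (K + 1) ^ 2 ≤ r * (2 * r) ^ 2 := by gcongr
    have h3 : r * (2 * r) ^ 2 = 4 * r ^ 3 := by ring
    have h4 : r ^ 3 ≤ r ^ 15 := pow_le_pow_right₀ hr1 (by norm_num)
    have h5 : K * (K + 1) ^ 2 ≤ 4 * r ^ 15 := by linarith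
    have h6 := mul_le_mul_of_nonneg_left h5 hb4
    calc 512 * K * b ^ 4 * (K + 1) ^ 2 = 512 * (b ^ 4 * (K * (K + 1) ^ 2)) := by ring
      _ ≤ 512 * (b ^ 4 * (4 * r ^ 15)) := by linarith
      _ = _ := by ring
  have h7 : β ^ 2 * n / (2 * (K + 1)) ≤ β ^ 2 / 2 * r ^ 15 := by
    rw [div_le_iff₀ (by positivity), ← hr16]
    have h9 : r * r ^ 15 ≤ (K + 1) * r ^ 15 := by gcongr
    have h10 : 0 ≤ β ^ 2 := by positivity
    have h11 := mul_le_mul_of_nonneg_left h9 h10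
    calc β ^ 2 * r ^ 16 = β ^ 2 * (r * r ^ 15) := by ring
      _ ≤ β ^ 2 * ((K + 1) * r ^ 15) := h11
      _ = _ := by ring
  have h12 : (1 : ℝ) ≤ r ^ 15 := one_le_pow₀ hr1
  have h13 : 0 ≤ β ^ 2 / 2 * K₀ * r ^ 15 := by positivity
  have e : (β ^ 2 / 2 * K₀ + (32768 * b ^ 4 + 32 + β ^ 2 / 2)) * r ^ 15 =
      β ^ 2 / 2 * K₀ * r ^ 15 + 16 * (2048 * b ^ 4 * r ^ 15) + 32 * r ^ 15 + β ^ 2 / 2 * r ^ 15 := by
    ring
  rw [e]
  linarith

/-- Final theorem: polynomial improvement on `n / log n`. -/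
theorem var_FO_bound (β : ℝ) (hβ : 0 < β) :
    ∃ C : ℝ, ∀ n : ℕ, 1 ≤ n →
      (∫ g, FO β g ^ 2 ∂gamO n - (∫ g, FO β g ∂gamO n) ^ 2) ≤ C * (n : ℝ) ^ ((15 : ℝ) / 16) := by
  set b : ℝ := max 1 β with hb
  have hb1 : 1 ≤ b := le_max_left _ _
  set K₀ : ℕ := max 128 ⌈(2 : ℝ) ^ 37 * b ^ 8⌉₊ with hK₀
  have hbe : 0 ≤ β ^ 2 / 2 := by positivity
  refine ⟨β ^ 2 / 2 * K₀ + (32768 * b ^ 4 + 32 + β ^ 2 / 2), fun n hn => ?_⟩
  have hn0 : 0 < n := hn
  have hnR : (1 : ℝ) ≤ n := by exact_mod_cast hn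
  refine (var_FO_le hn0 β).trans ?_
  set r : ℝ := (n : ℝ) ^ ((1 : ℝ) / 16) with hr
  have hr1 : 1 ≤ r := Real.one_le_rpow hnR (by norm_num)
  have hr0 : 0 ≤ r := by linarith
  have hr16 : r ^ 16 = n := by
    rw [hr, ← Real.rpow_natCast, ← Real.rpow_mul (by linarith)]
    norm_num
  have hr15 : (n : ℝ) ^ ((15 : ℝ) / 16) = r ^ 15 := by
    rw [hr, ← Real.rpow_natCast, ← Real.rpow_mul (by linarith)]
    norm_num
  rw [hr15]
  have hr15pos : 0 < r ^ 15 := by positivity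
  set K : ℕ := ⌊r⌋₊ with hKdef
  have hKle : (K : ℝ) ≤ r := Nat.floor_le hr0
  have hKlt : r < K + 1 := Nat.lt_floor_add_one r
  have hK1 : 1 ≤ K := Nat.le_floor (by simpa using hr1)
  have hK1R : (1 : ℝ) ≤ K := by exact_mod_cast hK1
  by_cases hcase : K < K₀
  · -- Poincaré
    have hP := var_Fh_poincare hn0 β
    refine hP.trans ?_
    have h1 : β ^ 2 * n / 2 = β ^ 2 / 2 * (r * r ^ 15) := by
      rw [← hr16]; ring
    rw [h1]
    have h2 : r ≤ K₀ := by
      have : ((K + 1 : ℕ) : ℝ) ≤ K₀ := by exact_mod_cast hcase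
      push_cast at this
      linarith
    have h3 : r * r ^ 15 ≤ K₀ * r ^ 15 := by gcongr
    have h4 : 0 ≤ (32768 * b ^ 4 + 32 + β ^ 2 / 2) * r ^ 15 := by positivity
    have h5 : β ^ 2 / 2 * (r * r ^ 15) ≤ β ^ 2 / 2 * (K₀ * r ^ 15) :=
      mul_le_mul_of_nonneg_left h3 hbe
    have e : (β ^ 2 / 2 * K₀ + (32768 * b ^ 4 + 32 + β ^ 2 / 2)) * r ^ 15 =
        β ^ 2 / 2 * (K₀ * r ^ 15) + (32768 * b ^ 4 + 32 + β ^ 2 / 2) * r ^ 15 := by ring
    rw [e]
    linarith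
  · -- main case
    have hKK₀ : K₀ ≤ K := not_lt.mp hcase
    have hK128 : 128 ≤ K := (le_max_left _ _).trans hKK₀
    have hKce : (2 : ℝ) ^ 37 * b ^ 8 ≤ K := by
      have h1 : ⌈(2 : ℝ) ^ 37 * b ^ 8⌉₊ ≤ K := (le_max_right _ _).trans hKK₀
      exact (Nat.le_ceil _).trans (by exact_mod_cast h1)
    have hKn : K ^ 16 ≤ n := by
      have : ((K ^ 16 : ℕ) : ℝ) ≤ n := by
        push_cast
        rw [← hr16]
        exact pow_le_pow_left₀ (by positivity) hKle 16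
      exact_mod_cast this
    have hnK : n ≤ (K + 1) ^ 16 := by
      have : (n : ℝ) ≤ ((K + 1) ^ 16 : ℕ) := by
        push_cast
        rw [← hr16]
        exact pow_le_pow_left₀ hr0 hKlt.le 16
      exact_mod_cast this
    obtain ⟨N, hN1, hN, hp⟩ := exists_log_param hK128 hKn hnK
    have hc : 2 ^ 37 * (max 1 β) ^ 8 * (K : ℝ) ^ 15 ≤ n := by
      have h1 : ((K ^ 16 : ℕ) : ℝ) ≤ n := by exact_mod_cast hKn
      push_cast at h1
      refine le_trans ?_ h1
      have h2 : (K : ℝ) ^ 16 = K * (K : ℝ) ^ 15 := by ring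
      rw [h2]
      exact mul_le_mul_of_nonneg_right hKce (by positivity)
    have hmain := var_Fh_main hn0 (K := K) (N := N) (p := K * N) β hβ hK1 hN1 hN rfl hp hc
    refine hmain.trans ?_
    rw [← hb]
    exact final_arith hr1 hKle hKlt hK1R hr16 (by positivity)

end Vale.Agent.Lib.P146
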