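import Vale.Agent.Lib.P146.Defs

/-! Module J3: weighted count of even patterns by excess. -/

set_option autoImplicit false
open scoped Classical

namespace Vale.Agent.Lib.P146

variable {n : ℕ}

namespace CountX

/-! ### Half-edge assignments -/

section Half

variable {H : Type} [Fintype H]

/-- Fibre size of a half-edge assignment. -/
noncomputable def fibc (x : H → Fin n) (y : Fin n) : ℕ :=
  (Finset.univ.filter fun h => x h = y).card

/-- Number of labels used. -/
noncomputable def vc (x : H → Fin n) : ℕ :=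
  (Finset.univ.filter fun y => fibc x y ≠ 0).card

/-- All fibres even. -/
def EvH (x : H → Fin n) : Prop := ∀ y, Even (fibc x y)

/-- The weight. -/
noncomputable def piH (x : H → Fin n) : ℝ := ∏ y, wt1 (fibc x y)

theorem wt1_nonneg (m : ℕ) : 0 ≤ wt1 m := by
  unfold wt1; split_ifs
  · norm_num
  · positivity

theorem wt1_zero : wt1 0 = 1 := by simp [wt1]

theorem piH_nonneg (x : H → Fin n) : 0 ≤ piH x :=
  Finset.prod_nonneg fun _ _ => wt1_nonneg _

theorem sum_fibc (x : H → Fin n) : ∑ y, fibc x y = Fintype.card H := by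
  unfold fibc
  rw [← Finset.card_univ (α := H)]
  exact (Finset.card_eq_sum_card_fiberwise (f := x) (s := Finset.univ) (t := Finset.univ)
    (fun _ _ => Finset.mem_univ _)).symm

theorem vc_le {x : H → Fin n} (hev : EvH x) : 2 * vc x ≤ Fintype.card H := by
  rw [← sum_fibc x]
  unfold vc
  calc 2 * (Finset.univ.filter fun y => fibc x y ≠ 0).card
      = ∑ _y ∈ Finset.univ.filter (fun y => fibc x y ≠ 0), 2 := by
        simp [Finset.sum_const, mul_comm]
    _ ≤ ∑ y ∈ Finset.univ.filter (fun y => fibc x y ≠ 0), fibc x y := by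
        apply Finset.sum_le_sum
        intro y hy
        have h1 : fibc x y ≠ 0 := (Finset.mem_filter.mp hy).2
        obtain ⟨r, hr⟩ := hev y
        omega
    _ ≤ ∑ y, fibc x y := Finset.sum_le_sum_of_subset_of_nonneg (Finset.filter_subset _ _)
        fun _ _ _ => Nat.zero_le _

variable [DecidableEq H]

/-- The weighted count. -/
noncomputable def GG (n : ℕ) (H : Type) [Fintype H] [DecidableEq H] (k e : ℕ) : ℝ :=
  ∑ x : H → Fin n, if EvH x ∧ vc x + e = k then piH x else 0

/-- Restriction to the complement of a block. -/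
def restr (B : Finset H) (x : H → Fin n) : {h // h ∉ B} → Fin n := fun h => x h.1

section Block

variable {B : Finset H} {x : H → Fin n} {y : Fin n}

theorem fibc_self (hB : ∀ h, x h = y ↔ h ∈ B) : fibc x y = B.card := by
  unfold fibc
  congr 1
  ext h
  simp [hB]

theorem fibc_restr_self (hB : ∀ h, x h = y ↔ h ∈ B) : fibc (restr B x) y = 0 := by
  unfold fibc
  rw [Finset.card_eq_zero, Finset.filter_eq_empty_iff]
  rintro ⟨h, hh⟩ -
  exact fun h' => hh ((hB h).1 h')

theorem fibc_restr_of_ne (hB : ∀ h, x h = y ↔ h ∈ B) {z : Fin n} (hz : z ≠ y) :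
    fibc (restr B x) z = fibc x z := by
  unfold fibc
  apply Finset.card_bij (fun h _ => h.1)
  · intro h hh
    exact Finset.mem_filter.mpr ⟨Finset.mem_univ _, (Finset.mem_filter.mp hh).2⟩
  · intro a _ b _ hab
    exact Subtype.ext hab
  · intro h hh
    have h1 : x h = z := (Finset.mem_filter.mp hh).2
    have h2 : h ∉ B := fun hb => hz (h1.symm.trans ((hB h).2 hb))
    exact ⟨⟨h, h2⟩, Finset.mem_filter.mpr ⟨Finset.mem_univ _, h1⟩, rfl⟩

theorem evH_restr (hB : ∀ h, x h = y ↔ h ∈ B) (hev : EvH x) : EvH (restr B x) := by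
  intro z
  by_cases hz : z = y
  · subst hz
    rw [fibc_restr_self hB]; exact Even.zero
  · rw [fibc_restr_of_ne hB hz]; exact hev z

theorem vc_restr (hB : ∀ h, x h = y ↔ h ∈ B) (hne : B.Nonempty) :
    vc x = vc (restr B x) + 1 := by
  unfold vc
  have : (Finset.univ.filter fun z => fibc x z ≠ 0) =
      insert y (Finset.univ.filter fun z => fibc (restr B x) z ≠ 0) := by
    ext z
    simp only [Finset.mem_filter, Finset.mem_univ, true_and, Finset.mem_insert]
    by_cases hz : z = y
    · subst hz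
      simp only [true_or, iff_true]
      rw [fibc_self hB]
      exact (Finset.card_pos.mpr hne).ne'
    · simp only [hz, false_or]
      rw [fibc_restr_of_ne hB hz]
  rw [this, Finset.card_insert_of_notMem]
  simp [fibc_restr_self hB]

theorem piH_restr (hB : ∀ h, x h = y ↔ h ∈ B) :
    piH x = wt1 B.card * piH (restr B x) := by
  unfold piH
  rw [← Finset.mul_prod_erase Finset.univ _ (Finset.mem_univ y),
    ← Finset.mul_prod_erase Finset.univ (fun z => wt1 (fibc (restr B x) z)) (Finset.mem_univ y)]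
  rw [fibc_self hB, fibc_restr_self hB, wt1_zero, one_mul]
  congr 1
  apply Finset.prod_congr rfl
  intro z hz
  rw [fibc_restr_of_ne hB (Finset.ne_of_mem_erase hz)]

end Block

theorem card_restr (B : Finset H) : Fintype.card {h // h ∉ B} = Fintype.card H - B.card := by
  rw [Fintype.card_subtype_compl]
  simp

theorem restr_injOn (B : Finset H) (y : Fin n) :
    Set.InjOn (restr B (n := n)) {x : H → Fin n | ∀ h, x h = y ↔ h ∈ B} := by
  intro a ha b hb hab
  funext h
  by_cases hh : h ∈ B
  · rw [(ha h).2 hh, (hb h).2 hh]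
  · exact congrFun hab ⟨h, hh⟩

theorem GG_nonneg (n : ℕ) (H : Type) [Fintype H] [DecidableEq H] (k e : ℕ) : 0 ≤ GG n H k e := by
  unfold GG
  apply Finset.sum_nonneg
  intro x _
  split_ifs
  · exact piH_nonneg x
  · exact le_rfl

end Half

/-! ### The base case -/

theorem GG_zero (H : Type) [Fintype H] [DecidableEq H] (hc : Fintype.card H = 0) (e : ℕ) :
    GG n H 0 e ≤ if e = 0 then 1 else 0 := by
  have hemp : IsEmpty H := Fintype.card_eq_zero_iff.mp hc
  unfold GG
  rw [Fintype.sum_unique]
  by_cases he : e = 0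
  · simp only [he, if_true]
    split_ifs
    · unfold piH
      apply le_of_eq
      apply Finset.prod_eq_one
      intro y _
      have : fibc (default : H → Fin n) y = 0 := by
        unfold fibc
        simp
      rw [this, wt1_zero]
    · norm_num
  · simp only [he, if_false]
    rw [if_neg]
    rintro ⟨-, h⟩
    omega

/-! ### Counting blocks -/

theorem card_blocks {H : Type} [Fintype H] [DecidableEq H] (h0 : H) (m : ℕ) :
    (Finset.univ.filter fun B : Finset H => h0 ∈ B ∧ B.card = m + 1).card ≤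
      (Fintype.card H - 1).choose m := by
  have h1 : ((Finset.univ.erase h0).powersetCard m).card = (Fintype.card H - 1).choose m := by
    rw [Finset.card_powersetCard, Finset.card_erase_of_mem (Finset.mem_univ _), Finset.card_univ]
  rw [← h1]
  apply Finset.card_le_card_of_injOn (fun B => B.erase h0)
  · intro B hB
    have hB' := (Finset.mem_filter.mp (Finset.mem_coe.mp hB)).2
    refine Finset.mem_coe.mpr (Finset.mem_powersetCard.mpr
      ⟨Finset.erase_subset_erase _ (Finset.subset_univ _), ?_⟩)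
    rw [Finset.card_erase_of_mem hB'.1, hB'.2]
    rfl
  · intro B hB C hC hBC
    have hB' := (Finset.mem_filter.mp (Finset.mem_coe.mp hB)).2
    have hC' := (Finset.mem_filter.mp (Finset.mem_coe.mp hC)).2
    have := congrArg (insert h0) hBC
    simpa [Finset.insert_erase hB'.1, Finset.insert_erase hC'.1] using this

/-! ### The double factorial -/

/-- `(2k-1)!!`. -/
def DF : ℕ → ℕ
  | 0 => 1
  | k + 1 => (2 * k + 1) * DF k

theorem DF_pos (k : ℕ) : 0 < DF k := by
  induction k with
  | zero => simp [DF]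
  | succ k ih => simp only [DF]; positivity

theorem DF_mul (k : ℕ) : DF k * 2 ^ k * k.factorial = (2 * k).factorial := by
  induction k with
  | zero => simp [DF]
  | succ k ih =>
    have h : 2 * (k + 1) = (2 * k + 1) + 1 := by ring
    rw [h, Nat.factorial_succ (2 * k + 1), Nat.factorial_succ (2 * k), ← ih, Nat.factorial_succ k]
    simp only [DF]
    ring

theorem DF_le (k : ℕ) : DF k ≤ k.factorial * 2 ^ k := by
  induction k with
  | zero => simp [DF]
  | succ k ih =>
    simp only [DF, Nat.factorial_succ, pow_succ]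
    nlinarith [Nat.factorial_pos k, pow_pos (show 0 < 2 by norm_num) k, ih,
      Nat.mul_le_mul_left (2 * k + 1) ih]

theorem wt1_succ (i : ℕ) : wt1 (2 * i + 2) = ((i : ℝ) + 1) * ((2 * i + 1).factorial : ℝ) := by
  unfold wt1
  rw [if_neg (by omega)]
  have h : 2 * i + 2 = (2 * i + 1) + 1 := by ring
  rw [h, Nat.factorial_succ (2 * i + 1)]
  push_cast
  ring

/-- The factorial-ratio estimate behind the recursion. -/
theorem coef_le (a i K : ℕ) (hK : a + i + 1 ≤ K) :
    (((2 * a + 2 * i + 1).choose (2 * i + 1) : ℕ) : ℝ) * wt1 (2 * i + 2) * (DF a : ℝ) ≤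
      (DF (a + i + 1) : ℝ) * ((i : ℝ) + 1) * (2 * (K : ℝ)) ^ i := by
  have h1 : (((2 * a + 2 * i + 1).choose (2 * i + 1) : ℕ) : ℝ) * ((2 * a).factorial : ℝ) *
      ((2 * i + 1).factorial : ℝ) = ((2 * a + 2 * i + 1).factorial : ℝ) := by
    have := Nat.add_choose_mul_factorial_mul_factorial (2 * a) (2 * i + 1)
    have h' : 2 * a + (2 * i + 1) = 2 * a + 2 * i + 1 := by ring
    rw [h'] at this
    exact_mod_cast this
  have h2 : (DF (a + i + 1) : ℝ) * 2 ^ (a + i) * ((a + i).factorial : ℝ) =
      ((2 * a + 2 * i + 1).factorial : ℝ) := by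
    have := DF_mul (a + i)
    have h3 : DF (a + i + 1) = (2 * (a + i) + 1) * DF (a + i) := rfl
    have h4 : (2 * a + 2 * i + 1).factorial = (2 * (a + i) + 1) * (2 * (a + i)).factorial := by
      have : 2 * a + 2 * i + 1 = 2 * (a + i) + 1 := by ring
      rw [this, Nat.factorial_succ]
    rw [h3, h4, ← this]
    push_cast
    ring
  have h5 : (DF a : ℝ) * 2 ^ a * (a.factorial : ℝ) = ((2 * a).factorial : ℝ) := by
    exact_mod_cast DF_mul a
  have h6 : ((a + i).factorial : ℝ) ≤ (a.factorial : ℝ) * (K : ℝ) ^ i := by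
    have : (a + i).factorial ≤ a.factorial * K ^ i := by
      clear h1 h2 h5
      induction i with
      | zero => simp
      | succ i ih =>
        have h7 := ih (by omega)
        have h8 : a + (i + 1) = (a + i) + 1 := by ring
        rw [h8, Nat.factorial_succ, pow_succ]
        have h9 : a + i + 1 ≤ K := by omega
        calc (a + i + 1) * (a + i).factorial ≤ K * (a.factorial * K ^ i) :=
              Nat.mul_le_mul h9 h7
          _ = a.factorial * (K ^ i * K) := by ring
    exact_mod_cast this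
  have hpos : 0 < (2 : ℝ) ^ a * (a.factorial : ℝ) := by positivity
  rw [wt1_succ]
  apply le_of_mul_le_mul_right _ hpos
  have hD : 0 ≤ (DF (a + i + 1) : ℝ) := by positivity
  calc ((((2 * a + 2 * i + 1).choose (2 * i + 1) : ℕ) : ℝ) * (((i : ℝ) + 1) *
        ((2 * i + 1).factorial : ℝ)) * (DF a : ℝ)) * ((2 : ℝ) ^ a * (a.factorial : ℝ))
      = ((i : ℝ) + 1) * ((DF (a + i + 1) : ℝ) * 2 ^ (a + i) * ((a + i).factorial : ℝ)) := by
        rw [h2, ← h1, ← h5]; ring
    _ ≤ ((i : ℝ) + 1) * ((DF (a + i + 1) : ℝ) * 2 ^ (a + i) *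
          ((a.factorial : ℝ) * (K : ℝ) ^ i)) := by
        apply mul_le_mul_of_nonneg_left _ (by positivity)
        apply mul_le_mul_of_nonneg_left h6 (by positivity)
    _ = ((DF (a + i + 1) : ℝ) * ((i : ℝ) + 1) * (2 * (K : ℝ)) ^ i) *
          ((2 : ℝ) ^ a * (a.factorial : ℝ)) := by
        rw [mul_pow, pow_add]; ring

/-! ### The bound -/

/-- Relative factor of the bound. -/
noncomputable def wK (K k e : ℕ) : ℝ := if e = 0 then 1 else (k : ℝ) / K

/-- The bound. -/
noncomputable def Bd (n K k e : ℕ) : ℝ :=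
  (DF k : ℝ) * (n : ℝ) ^ k * (8 * (K : ℝ) ^ 2 / n) ^ e * wK K k e

theorem wK_nonneg (K k e : ℕ) : 0 ≤ wK K k e := by
  unfold wK; split_ifs
  · norm_num
  · positivity

theorem wK_le_one {K k : ℕ} (hK : 1 ≤ K) (hk : k ≤ K) (e : ℕ) : wK K k e ≤ 1 := by
  unfold wK; split_ifs
  · exact le_rfl
  · have : (0 : ℝ) < K := by exact_mod_cast hK
    rw [div_le_one this]
    exact_mod_cast hk

theorem Bd_nonneg (n K k e : ℕ) : 0 ≤ Bd n K k e := by
  unfold Bd
  have := wK_nonneg K k e
  positivity

/-- Geometric tail. -/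
theorem tail_le (m : ℕ) :
    ∑ i ∈ Finset.range m, ((i : ℝ) + 2) * (1 / 4 : ℝ) ^ (i + 1) =
      7 / 9 - (3 * (m : ℝ) + 7) / 9 * (1 / 4 : ℝ) ^ m := by
  induction m with
  | zero => simp
  | succ m ih =>
    rw [Finset.sum_range_succ, ih, pow_succ]
    push_cast
    ring

/-- One term of the recursion. -/
theorem term_le (hn : 0 < n) {K a i k e : ℕ} (hK : 1 ≤ K) (hk : k + 1 ≤ K) (hak : a + i = k)
    (hie : i ≤ e) :
    (n : ℝ) * (((2 * k + 1).choose (2 * i + 1) : ℕ) * wt1 (2 * i + 2) * Bd n K a (e - i)) ≤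
      ((DF (k + 1) : ℝ) * (n : ℝ) ^ (k + 1) * (8 * (K : ℝ) ^ 2 / n) ^ e) *
        (((i : ℝ) + 1) * (1 / (4 * (K : ℝ))) ^ i * wK K a (e - i)) := by
  subst hak
  have hn' : (0 : ℝ) < n := by exact_mod_cast hn
  have hK' : (0 : ℝ) < K := by exact_mod_cast hK
  have hc := coef_le a i K (by omega)
  have h2k : 2 * (a + i) + 1 = 2 * a + 2 * i + 1 := by ring
  rw [h2k]
  set r : ℝ := 8 * (K : ℝ) ^ 2 / n with hr
  have hr0 : 0 < r := by positivity
  have hw := wK_nonneg K a (e - i)
  have hre : r ^ e = r ^ (e - i) * r ^ i := by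
    rw [← pow_add, Nat.sub_add_cancel hie]
  have hrn : r ^ i * (n : ℝ) ^ i * (1 / (4 * (K : ℝ))) ^ i = (2 * (K : ℝ)) ^ i := by
    rw [← mul_pow, ← mul_pow]
    congr 1
    rw [hr]
    field_simp
    ring
  unfold Bd
  rw [← hr]
  calc (n : ℝ) * (((2 * a + 2 * i + 1).choose (2 * i + 1) : ℕ) * wt1 (2 * i + 2) *
        ((DF a : ℝ) * (n : ℝ) ^ a * r ^ (e - i) * wK K a (e - i)))
      = (((2 * a + 2 * i + 1).choose (2 * i + 1) : ℕ) * wt1 (2 * i + 2) * (DF a : ℝ)) *
        ((n : ℝ) ^ (a + 1) * r ^ (e - i) * wK K a (e - i)) := by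
        rw [pow_succ]; ring
    _ ≤ ((DF (a + i + 1) : ℝ) * ((i : ℝ) + 1) * (2 * (K : ℝ)) ^ i) *
        ((n : ℝ) ^ (a + 1) * r ^ (e - i) * wK K a (e - i)) :=
        mul_le_mul_of_nonneg_right hc (by positivity)
    _ = _ := by
        rw [hre, ← hrn]
        have : (n : ℝ) ^ (a + i + 1) = (n : ℝ) ^ (a + 1) * (n : ℝ) ^ i := by
          rw [← pow_add]; congr 1; ring
        rw [this]
        ring

/-- Numerical closure of the recursion. -/
theorem step_num (hn : 0 < n) {K k : ℕ} (hK : 1 ≤ K) (hk : k + 1 ≤ K) (e : ℕ) :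
    (n : ℝ) * ∑ i ∈ Finset.range (min (e + 1) (k + 1)),
        ((((2 * k + 1).choose (2 * i + 1) : ℕ) : ℝ) * wt1 (2 * i + 2) * Bd n K (k - i) (e - i)) ≤
      Bd n K (k + 1) e := by
  have hn' : (0 : ℝ) < n := by exact_mod_cast hn
  have hK' : (0 : ℝ) < K := by exact_mod_cast hK
  set Base : ℝ := (DF (k + 1) : ℝ) * (n : ℝ) ^ (k + 1) * (8 * (K : ℝ) ^ 2 / n) ^ e with hBase
  have hBase0 : 0 ≤ Base := by positivity
  have hterm : ∀ i ∈ Finset.range (min (e + 1) (k + 1)),
      (n : ℝ) * (((2 * k + 1).choose (2 * i + 1) : ℕ) * wt1 (2 * i + 2) * Bd n K (k - i) (e - i)) ≤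
        Base * (((i : ℝ) + 1) * (1 / (4 * (K : ℝ))) ^ i * wK K (k - i) (e - i)) := by
    intro i hi
    have hi' := Finset.mem_range.mp hi
    have h1 : i ≤ k := by omega
    have h2 : i ≤ e := by omega
    exact term_le hn hK hk (Nat.sub_add_cancel h1) h2
  rw [Finset.mul_sum]
  refine (Finset.sum_le_sum hterm).trans ?_
  obtain ⟨m, hm⟩ : ∃ m, min (e + 1) (k + 1) = m + 1 := ⟨min e k, by omega⟩
  rw [hm, Finset.sum_range_succ']
  unfold Bd
  rw [← hBase]
  simp only [Nat.cast_zero, zero_add, pow_zero, one_mul, Nat.sub_zero]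
  rw [← Finset.mul_sum, ← mul_add]
  apply mul_le_mul_of_nonneg_left _ hBase0
  by_cases he : e = 0
  · subst he
    have hm0 : m = 0 := by omega
    subst hm0
    simp [wK]
  · have hsum : ∑ i ∈ Finset.range m, (((i + 1 : ℕ) : ℝ) + 1) * (1 / (4 * (K : ℝ))) ^ (i + 1) *
        wK K (k - (i + 1)) (e - (i + 1)) ≤ 1 / (K : ℝ) := by
      calc ∑ i ∈ Finset.range m, (((i + 1 : ℕ) : ℝ) + 1) * (1 / (4 * (K : ℝ))) ^ (i + 1) *
            wK K (k - (i + 1)) (e - (i + 1))
          ≤ ∑ i ∈ Finset.range m, (1 / (K : ℝ)) * (((i : ℝ) + 2) * (1 / 4 : ℝ) ^ (i + 1)) := by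
            apply Finset.sum_le_sum
            intro i _
            have hw := wK_le_one (K := K) (k := k - (i + 1)) hK (by omega) (e - (i + 1))
            have hw0 := wK_nonneg K (k - (i + 1)) (e - (i + 1))
            have h1K : 1 / (K : ℝ) ≤ 1 := by
              rw [div_le_one hK']
              exact_mod_cast hK
            have h1K0 : 0 ≤ 1 / (K : ℝ) := by positivity
            have hp : (1 / (4 * (K : ℝ))) ^ (i + 1) ≤ (1 / (K : ℝ)) * (1 / 4 : ℝ) ^ (i + 1) := by
              have : (1 / (4 * (K : ℝ))) ^ (i + 1) =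
                  (1 / (K : ℝ)) ^ (i + 1) * (1 / 4 : ℝ) ^ (i + 1) := by
                rw [← mul_pow]; congr 1; field_simp
              rw [this]
              apply mul_le_mul_of_nonneg_right _ (by positivity)
              rw [pow_succ]
              have : (1 / (K : ℝ)) ^ i ≤ 1 := pow_le_one₀ h1K0 h1K
              nlinarith
            have hi0 : (0 : ℝ) ≤ (i : ℝ) + 2 := by positivity
            push_cast
            calc ((i : ℝ) + 1 + 1) * (1 / (4 * (K : ℝ))) ^ (i + 1) *
                  wK K (k - (i + 1)) (e - (i + 1))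
                ≤ ((i : ℝ) + 1 + 1) * (1 / (4 * (K : ℝ))) ^ (i + 1) * 1 := by
                  apply mul_le_mul_of_nonneg_left hw (by positivity)
              _ ≤ ((i : ℝ) + 1 + 1) * ((1 / (K : ℝ)) * (1 / 4 : ℝ) ^ (i + 1)) * 1 := by
                  apply mul_le_mul_of_nonneg_right _ (by norm_num)
                  apply mul_le_mul_of_nonneg_left hp (by positivity)
              _ = _ := by ring
        _ = (1 / (K : ℝ)) * (7 / 9 - (3 * (m : ℝ) + 7) / 9 * (1 / 4 : ℝ) ^ m) := by
            rw [← Finset.mul_sum, tail_le]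
        _ ≤ 1 / (K : ℝ) := by
            have h0 : 0 ≤ (3 * (m : ℝ) + 7) / 9 * (1 / 4 : ℝ) ^ m := by positivity
            have hKK : 0 ≤ 1 / (K : ℝ) := by positivity
            nlinarith
    have hw0 : wK K k e = (k : ℝ) / K := by simp [wK, he]
    have hw1 : wK K (k + 1) e = ((k : ℝ) + 1) / K := by simp [wK, he]
    rw [hw0, hw1]
    have : ((k : ℝ) + 1) / K = 1 / (K : ℝ) + (k : ℝ) / K := by ring
    rw [this]
    linarith

/-! ### The recursion -/

section Rec

variable {H : Type} [Fintype H] [DecidableEq H]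

/-- Sum over the functions with a prescribed block at a prescribed label. -/
theorem fiber_le (hn : 0 < n) (K : ℕ) (k e : ℕ) (hc : Fintype.card H = 2 * (k + 1))
    (IH : ∀ a, a ≤ k → ∀ (H' : Type) [Fintype H'] [DecidableEq H'], Fintype.card H' = 2 * a →
      ∀ e', GG n H' a e' ≤ Bd n K a e') (h0 : H) (y : Fin n) (B : Finset H) :
    ∑ x ∈ Finset.univ.filter (fun x : H → Fin n =>
        (x h0, Finset.univ.filter fun h => x h = x h0) = (y, B)),
      (if EvH x ∧ vc x + e = k + 1 then piH x else 0) ≤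
    ∑ i ∈ Finset.range (min (e + 1) (k + 1)),
      if h0 ∈ B ∧ B.card = 2 * i + 1 + 1 then wt1 (2 * i + 2) * Bd n K (k - i) (e - i) else 0 := by
  have hrhs : ∀ i ∈ Finset.range (min (e + 1) (k + 1)), 0 ≤
      (if h0 ∈ B ∧ B.card = 2 * i + 1 + 1 then wt1 (2 * i + 2) * Bd n K (k - i) (e - i) else 0) := by
    intro i _
    split_ifs
    · exact mul_nonneg (wt1_nonneg _) (Bd_nonneg _ _ _ _)
    · exact le_rfl
  by_cases hex : ∃ x : H → Fin n, (x h0, Finset.univ.filter fun h => x h = x h0) = (y, B) ∧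
      EvH x ∧ vc x + e = k + 1
  swap
  · -- no contributing function
    have : ∑ x ∈ Finset.univ.filter (fun x : H → Fin n =>
        (x h0, Finset.univ.filter fun h => x h = x h0) = (y, B)),
      (if EvH x ∧ vc x + e = k + 1 then piH x else 0) = 0 := by
      apply Finset.sum_eq_zero
      intro x hx
      rw [if_neg]
      intro hh
      exact hex ⟨x, (Finset.mem_filter.mp hx).2, hh⟩
    rw [this]
    exact Finset.sum_nonneg hrhs
  obtain ⟨x0, hkey, hev0, hvc0⟩ := hex
  have hkey1 : x0 h0 = y := (Prod.mk.inj hkey).1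
  have hkey2 : (Finset.univ.filter fun h => x0 h = x0 h0) = B := (Prod.mk.inj hkey).2
  have hB0 : ∀ h, x0 h = y ↔ h ∈ B := by
    intro h
    rw [← hkey2, ← hkey1]
    simp
  have hh0 : h0 ∈ B := (hB0 h0).1 hkey1
  have hne : B.Nonempty := ⟨h0, hh0⟩
  -- the size of the block
  have hevB : Even B.card := by
    have := hev0 y
    rwa [fibc_self hB0] at this
  obtain ⟨r, hr⟩ := hevB
  have hrpos : 0 < B.card := Finset.card_pos.mpr hne
  obtain ⟨i, hi⟩ : ∃ i, B.card = 2 * i + 1 + 1 := ⟨r - 1, by omega⟩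
  have hBle : B.card ≤ Fintype.card H := by
    rw [← Finset.card_univ]; exact Finset.card_le_card (Finset.subset_univ _)
  have hik : i ≤ k := by omega
  have hcard' : Fintype.card {h // h ∉ B} = 2 * (k - i) := by
    rw [card_restr, hc, hi]; omega
  have hvc1 := vc_restr hB0 hne
  have hvc2 := vc_le (evH_restr hB0 hev0)
  rw [hcard'] at hvc2
  have hie : i ≤ e := by omega
  have hmem : i ∈ Finset.range (min (e + 1) (k + 1)) := by
    rw [Finset.mem_range]; omega
  refine le_trans ?_ (Finset.single_le_sum hrhs hmem)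
  rw [if_pos ⟨hh0, hi⟩]
  -- compare the sum with the count on the complement of the block
  have hKI := IH (k - i) (Nat.sub_le _ _) {h // h ∉ B} hcard' (e - i)
  have hwt : 0 ≤ wt1 (2 * i + 2) := wt1_nonneg _
  refine le_trans ?_ (mul_le_mul_of_nonneg_left hKI hwt)
  unfold GG
  rw [Finset.mul_sum]
  have hinj : Set.InjOn (restr B (n := n))
      (Finset.univ.filter (fun x : H → Fin n =>
        (x h0, Finset.univ.filter fun h => x h = x h0) = (y, B)) : Finset (H → Fin n)) := by
    intro a ha b hb hab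
    have ha' := (Finset.mem_filter.mp (Finset.mem_coe.mp ha)).2
    have hb' := (Finset.mem_filter.mp (Finset.mem_coe.mp hb)).2
    have hBa : ∀ h, a h = y ↔ h ∈ B := by
      intro h
      rw [← (Prod.mk.inj ha').2, ← (Prod.mk.inj ha').1]
      simp
    have hBb : ∀ h, b h = y ↔ h ∈ B := by
      intro h
      rw [← (Prod.mk.inj hb').2, ← (Prod.mk.inj hb').1]
      simp
    exact restr_injOn B y hBa hBb hab
  calc ∑ x ∈ Finset.univ.filter (fun x : H → Fin n =>
        (x h0, Finset.univ.filter fun h => x h = x h0) = (y, B)),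
        (if EvH x ∧ vc x + e = k + 1 then piH x else 0)
      ≤ ∑ x ∈ Finset.univ.filter (fun x : H → Fin n =>
        (x h0, Finset.univ.filter fun h => x h = x h0) = (y, B)),
        wt1 (2 * i + 2) * (if EvH (restr B x) ∧ vc (restr B x) + (e - i) = k - i
          then piH (restr B x) else 0) := by
        apply Finset.sum_le_sum
        intro x hx
        have hx' := (Finset.mem_filter.mp hx).2
        have hBx : ∀ h, x h = y ↔ h ∈ B := by
          intro h
          rw [← (Prod.mk.inj hx').2, ← (Prod.mk.inj hx').1]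
          simp
        by_cases hf : EvH x ∧ vc x + e = k + 1
        · rw [if_pos hf]
          have hv := vc_restr hBx hne
          have hcond : EvH (restr B x) ∧ vc (restr B x) + (e - i) = k - i :=
            ⟨evH_restr hBx hf.1, by have := hf.2; omega⟩
          rw [if_pos hcond, piH_restr hBx, hi]
        · rw [if_neg hf]
          apply mul_nonneg hwt
          split_ifs
          · exact piH_nonneg _
          · exact le_rfl
    _ = ∑ x' ∈ (Finset.univ.filter (fun x : H → Fin n =>
        (x h0, Finset.univ.filter fun h => x h = x h0) = (y, B))).image (restr B),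
        wt1 (2 * i + 2) * (if EvH x' ∧ vc x' + (e - i) = k - i then piH x' else 0) := by
        rw [Finset.sum_image hinj]
    _ ≤ _ := by
        apply Finset.sum_le_sum_of_subset_of_nonneg (Finset.subset_univ _)
        intro x' _ _
        apply mul_nonneg hwt
        split_ifs
        · exact piH_nonneg _
        · exact le_rfl

/-- The recursion for `GG`. -/
theorem GG_step (hn : 0 < n) (K : ℕ) (k e : ℕ) (hc : Fintype.card H = 2 * (k + 1))
    (IH : ∀ a, a ≤ k → ∀ (H' : Type) [Fintype H'] [DecidableEq H'], Fintype.card H' = 2 * a →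
      ∀ e', GG n H' a e' ≤ Bd n K a e') :
    GG n H (k + 1) e ≤ (n : ℝ) * ∑ i ∈ Finset.range (min (e + 1) (k + 1)),
        ((((2 * k + 1).choose (2 * i + 1) : ℕ) : ℝ) * wt1 (2 * i + 2) * Bd n K (k - i) (e - i)) := by
  have hne : Nonempty H := by
    apply Fintype.card_pos_iff.mp
    omega
  obtain ⟨h0⟩ := hne
  unfold GG
  rw [← Finset.sum_fiberwise Finset.univ
    (fun x : H → Fin n => (x h0, Finset.univ.filter fun h => x h = x h0))]
  rw [Fintype.sum_prod_type]
  calc ∑ y : Fin n, ∑ B : Finset H, ∑ x ∈ Finset.univ.filter (fun x : H → Fin n =>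
        (x h0, Finset.univ.filter fun h => x h = x h0) = (y, B)),
        (if EvH x ∧ vc x + e = k + 1 then piH x else 0)
      ≤ ∑ _y : Fin n, ∑ B : Finset H, ∑ i ∈ Finset.range (min (e + 1) (k + 1)),
        (if h0 ∈ B ∧ B.card = 2 * i + 1 + 1 then wt1 (2 * i + 2) * Bd n K (k - i) (e - i) else 0) := by
        apply Finset.sum_le_sum
        intro y _
        apply Finset.sum_le_sum
        intro B _
        exact fiber_le hn K k e hc IH h0 y B
    _ = (n : ℝ) * ∑ B : Finset H, ∑ i ∈ Finset.range (min (e + 1) (k + 1)),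
        (if h0 ∈ B ∧ B.card = 2 * i + 1 + 1 then wt1 (2 * i + 2) * Bd n K (k - i) (e - i) else 0) := by
        simp [Finset.sum_const, Finset.card_univ]
    _ ≤ _ := by
        apply mul_le_mul_of_nonneg_left _ (by positivity)
        rw [Finset.sum_comm]
        apply Finset.sum_le_sum
        intro i _
        rw [Finset.sum_ite, Finset.sum_const_zero, add_zero, Finset.sum_const, nsmul_eq_mul]
        have hcnt := card_blocks h0 (2 * i + 1)
        have hcH : Fintype.card H - 1 = 2 * k + 1 := by omega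
        rw [hcH] at hcnt
        have hcnt' : ((Finset.univ.filter fun B : Finset H => h0 ∈ B ∧ B.card = 2 * i + 1 + 1).card : ℝ)
            ≤ (((2 * k + 1).choose (2 * i + 1) : ℕ) : ℝ) := by exact_mod_cast hcnt
        have hp : 0 ≤ wt1 (2 * i + 2) * Bd n K (k - i) (e - i) :=
          mul_nonneg (wt1_nonneg _) (Bd_nonneg _ _ _ _)
        calc _ ≤ (((2 * k + 1).choose (2 * i + 1) : ℕ) : ℝ) *
                (wt1 (2 * i + 2) * Bd n K (k - i) (e - i)) :=
              mul_le_mul_of_nonneg_right hcnt' hp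
          _ = _ := by ring

end Rec

/-- The main bound for half-edge assignments. -/
theorem GG_le (hn : 0 < n) {K : ℕ} (hK : 1 ≤ K) : ∀ k, k ≤ K → ∀ (H : Type) [Fintype H]
    [DecidableEq H], Fintype.card H = 2 * k → ∀ e, GG n H k e ≤ Bd n K k e := by
  intro k
  induction k using Nat.strong_induction_on with
  | _ k ih =>
    intro hk H _ _ hc e
    cases k with
    | zero =>
      refine (GG_zero H (by simpa using hc) e).trans ?_
      by_cases he : e = 0
      · subst he
        simp [Bd, wK, DF]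
      · simp [Bd, wK, DF, he]
    | succ k =>
      refine (GG_step hn K k e hc ?_).trans (step_num hn hK hk e)
      intro a ha H' _ _ hc' e'
      exact ih a (by omega) (by omega) H' hc' e'

/-! ### Back to tuples of pairs -/

/-- The half-edge assignment of a tuple of pairs. -/
def halfOf {k : ℕ} (l : Fin k → Pr n) : Fin k × Bool → Fin n :=
  fun p => if p.2 then (l p.1).2 else (l p.1).1

/-- The equivalence between tuples of pairs and half-edge assignments. -/
def halfEquiv (k : ℕ) : (Fin k → Pr n) ≃ (Fin k × Bool → Fin n) where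
  toFun := halfOf
  invFun x := fun i => (x (i, false), x (i, true))
  left_inv l := by
    funext i
    simp [halfOf]
  right_inv x := by
    funext p
    rcases p with ⟨i, b⟩
    cases b <;> simp [halfOf]

theorem degM_msOf {k : ℕ} (l : Fin k → Pr n) (y : Fin n) :
    degM (msOf l) y = fibc (halfOf l) y := by
  unfold degM msOf fibc
  rw [Finset.card_filter, Fintype.sum_prod_type]
  simp only [Multiset.map_map, Function.comp]
  change ∑ i, _ = _
  apply Finset.sum_congr rfl
  intro i _
  rw [Fintype.sum_bool]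
  simp only [halfOf, if_true, Bool.false_eq_true, if_false]
  exact add_comm _ _

theorem labels_msOf {k : ℕ} (l : Fin k → Pr n) :
    (labelsM (msOf l)).card = vc (halfOf l) := by
  unfold labelsM vc
  simp only [degM_msOf]

theorem card_msOf {k : ℕ} (l : Fin k → Pr n) : Multiset.card (msOf l) = k := by
  simp [msOf]

theorem excess_eq {k : ℕ} (l : Fin k → Pr n) (hev : EvH (halfOf l)) :
    vc (halfOf l) ≤ k ∧ excessM (msOf l) = k - vc (halfOf l) := by
  have := vc_le hev
  simp only [Fintype.card_prod, Fintype.card_fin, Fintype.card_bool] at this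
  constructor
  · omega
  · unfold excessM
    rw [card_msOf, labels_msOf]

theorem evenM_iff {k : ℕ} (l : Fin k → Pr n) : EvenM (msOf l) ↔ EvH (halfOf l) := by
  unfold EvenM EvH
  simp only [degM_msOf]

theorem varpi_eq {k : ℕ} (l : Fin k → Pr n) : varpi (msOf l) = piH (halfOf l) := by
  unfold varpi piH
  simp only [degM_msOf]

theorem count_eq (k e : ℕ) :
    ∑ l : Fin k → Pr n, (if EvenM (msOf l) ∧ excessM (msOf l) = e then varpi (msOf l) else 0) ≤
      GG n (Fin k × Bool) k e := by
  unfold GG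
  rw [← (halfEquiv (n := n) k).sum_comp]
  apply Finset.sum_le_sum
  intro l _
  change _ ≤ (if EvH (halfOf l) ∧ vc (halfOf l) + e = k then piH (halfOf l) else 0)
  by_cases h : EvenM (msOf l) ∧ excessM (msOf l) = e
  · have hev : EvH (halfOf l) := (evenM_iff l).1 h.1
    have hex := excess_eq l hev
    rw [if_pos h, if_pos ⟨hev, by have := h.2; omega⟩, varpi_eq]
  · rw [if_neg h]
    split_ifs
    · exact piH_nonneg _
    · exact le_rfl

/-- The sum of the degrees. -/
theorem sum_degM (M : Multiset (Pr n)) : ∑ x, degM M x = 2 * Multiset.card M := by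
  induction M using Multiset.induction_on with
  | empty => simp [degM]
  | cons p M ih =>
    have h : ∀ x, degM (p ::ₘ M) x = (if p.1 = x then 1 else 0) + (if p.2 = x then 1 else 0) +
        degM M x := by
      intro x
      simp [degM]
    simp only [h, Finset.sum_add_distrib, Finset.sum_ite_eq, Finset.mem_univ, if_true, ih,
      Multiset.card_cons]
    ring

end CountX

open CountX in
/-- Weighted count. -/
theorem count_even (hn : 0 < n) {k K e : ℕ} (hk : k ≤ K) :
    ∑ l : Fin k → Pr n, (if EvenM (msOf l) ∧ excessM (msOf l) = e then varpi (msOf l) else 0) ≤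
      (k.factorial : ℝ) * 2 ^ k * (n : ℝ) ^ k * (8 * (K : ℝ) ^ 2 / n) ^ e := by
  refine (count_eq k e).trans ?_
  have hn' : (0 : ℝ) < n := by exact_mod_cast hn
  by_cases hK : K = 0
  · subst hK
    have hk0 : k = 0 := by omega
    subst hk0
    refine (GG_zero _ (by simp) e).trans ?_
    by_cases he : e = 0
    · subst he; simp
    · simp [he]
  · have hK1 : 1 ≤ K := by omega
    refine (GG_le hn hK1 k hk _ (by simp [mul_comm]) e).trans ?_
    unfold Bd
    have hw := wK_le_one hK1 hk e
    have hw0 := wK_nonneg K k e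
    have hD : (DF k : ℝ) ≤ (k.factorial : ℝ) * 2 ^ k := by exact_mod_cast DF_le k
    have hp : 0 ≤ (n : ℝ) ^ k * (8 * (K : ℝ) ^ 2 / n) ^ e := by positivity
    calc (DF k : ℝ) * (n : ℝ) ^ k * (8 * (K : ℝ) ^ 2 / n) ^ e * wK K k e
        ≤ (DF k : ℝ) * (n : ℝ) ^ k * (8 * (K : ℝ) ^ 2 / n) ^ e * 1 :=
          mul_le_mul_of_nonneg_left hw (by positivity)
      _ = (DF k : ℝ) * ((n : ℝ) ^ k * (8 * (K : ℝ) ^ 2 / n) ^ e) := by ring
      _ ≤ ((k.factorial : ℝ) * 2 ^ k) * ((n : ℝ) ^ k * (8 * (K : ℝ) ^ 2 / n) ^ e) :=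
          mul_le_mul_of_nonneg_right hD hp
      _ = _ := by ring

open CountX in
/-- A nonempty even pattern without pure cycles has positive excess, bounded by its size. -/
theorem excess_pos (M : Multiset (Pr n)) (h0 : M ≠ 0) (he : EvenM M) (hnc : NCM M) :
    1 ≤ excessM M ∧ excessM M ≤ Multiset.card M := by
  refine ⟨?_, Nat.sub_le _ _⟩
  obtain ⟨p, hp⟩ := Multiset.exists_mem_of_ne_zero h0
  have hdeg : ∀ q ∈ M, ∀ x, (q.1 = x ∨ q.2 = x) → degM M x ≠ 0 := by
    intro q hq x hx
    unfold degM
    intro hz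
    rw [Multiset.sum_eq_zero_iff] at hz
    have := hz ((if q.1 = x then 1 else 0) + (if q.2 = x then 1 else 0))
      (Multiset.mem_map_of_mem (fun p : Pr n => (if p.1 = x then 1 else 0) +
        (if p.2 = x then 1 else 0)) hq)
    rcases hx with h | h <;> simp [h] at this
  have hS : (labelsM M).Nonempty := ⟨p.1, by
    simp only [labelsM, Finset.mem_filter, Finset.mem_univ, true_and]
    exact hdeg p hp _ (Or.inl rfl)⟩
  have hcl : ClosedM M (labelsM M) := by
    intro q hq
    simp only [labelsM, Finset.mem_filter, Finset.mem_univ, true_and]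
    exact ⟨fun _ => hdeg q hq _ (Or.inr rfl), fun _ => hdeg q hq _ (Or.inl rfl)⟩
  obtain ⟨x, hx, hx2⟩ := hnc _ hS (Finset.Subset.refl _) hcl
  have hx0 : degM M x ≠ 0 := (Finset.mem_filter.mp hx).2
  have hx4 : 4 ≤ degM M x := by
    obtain ⟨r, hr⟩ := he x
    omega
  have hsum := sum_degM M
  have hlow : 2 * (labelsM M).card + 2 ≤ ∑ y, degM M y := by
    have hsplit : ∑ y, degM M y ≥ ∑ y ∈ labelsM M, degM M y :=
      Finset.sum_le_sum_of_subset_of_nonneg (Finset.subset_univ _) fun _ _ _ => Nat.zero_le _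
    have h2 : ∑ y ∈ labelsM M, degM M y = degM M x + ∑ y ∈ (labelsM M).erase x, degM M y :=
      (Finset.add_sum_erase _ _ hx).symm
    have h3 : ∑ y ∈ (labelsM M).erase x, 2 ≤ ∑ y ∈ (labelsM M).erase x, degM M y := by
      apply Finset.sum_le_sum
      intro y hy
      have hy0 : degM M y ≠ 0 := (Finset.mem_filter.mp (Finset.mem_of_mem_erase hy)).2
      obtain ⟨r, hr⟩ := he y
      omega
    have h4 : ∑ y ∈ (labelsM M).erase x, 2 = 2 * ((labelsM M).card - 1) := by
      rw [Finset.sum_const, Finset.card_erase_of_mem hx, smul_eq_mul, mul_comm]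
    have h5 : 1 ≤ (labelsM M).card := Finset.card_pos.mpr hS
    omega
  unfold excessM
  omega

end Vale.Agent.Lib.P146
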