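import Vale.Agent.Lib.P146.CyclesB

/-! Module J2a: decomposition of even patterns. -/

set_option autoImplicit false
open scoped Classical

namespace Vale.Agent.Lib.P146

variable {n : ℕ}

/-! ### Degrees -/

theorem degM_add' (M M' : Multiset (Pr n)) (x : Fin n) :
    degM (M + M') x = degM M x + degM M' x := by
  simp [degM, Multiset.map_add, Multiset.sum_add]

theorem degM_zero' (x : Fin n) : degM (0 : Multiset (Pr n)) x = 0 := by
  simp [degM]

theorem degM_eq_zero_iff' (M : Multiset (Pr n)) (x : Fin n) :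
    degM M x = 0 ↔ ∀ p ∈ M, p.1 ≠ x ∧ p.2 ≠ x := by
  unfold degM
  rw [Multiset.sum_eq_zero_iff]
  constructor
  · intro h p hp
    have := h _ (Multiset.mem_map_of_mem _ hp)
    simp only [Nat.add_eq_zero_iff] at this
    constructor
    · intro h1
      simp [h1] at this
    · intro h1
      simp [h1] at this
  · intro h a ha
    obtain ⟨p, hp, rfl⟩ := Multiset.mem_map.1 ha
    obtain ⟨h1, h2⟩ := h p hp
    simp [h1, h2]

/-! ### The pure part of an edge multiset -/

/-- `S` is a closed set of used labels, all of degree two. -/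
def IsPure (M : Multiset (Pr n)) (S : Finset (Fin n)) : Prop :=
  S ⊆ labelsM M ∧ ClosedM M S ∧ ∀ x ∈ S, degM M x = 2

/-- The union of all closed sets of used labels of degree two. -/
noncomputable def pureU (M : Multiset (Pr n)) : Finset (Fin n) :=
  (Finset.univ.filter (IsPure M)).biUnion id

theorem subset_pureU {M : Multiset (Pr n)} {S : Finset (Fin n)} (h : IsPure M S) :
    S ⊆ pureU M := by
  intro x hx
  exact Finset.mem_biUnion.2 ⟨S, Finset.mem_filter.2 ⟨Finset.mem_univ _, h⟩, hx⟩

theorem isPure_pureU (M : Multiset (Pr n)) : IsPure M (pureU M) := by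
  refine ⟨?_, ?_, ?_⟩
  · intro x hx
    obtain ⟨S, hS, hxS⟩ := Finset.mem_biUnion.1 hx
    exact (Finset.mem_filter.1 hS).2.1 hxS
  · intro p hp
    constructor
    · intro h1
      obtain ⟨S, hS, hxS⟩ := Finset.mem_biUnion.1 h1
      have hS' := (Finset.mem_filter.1 hS).2
      exact Finset.mem_biUnion.2 ⟨S, hS, (hS'.2.1 p hp).1 hxS⟩
    · intro h1
      obtain ⟨S, hS, hxS⟩ := Finset.mem_biUnion.1 h1
      have hS' := (Finset.mem_filter.1 hS).2
      exact Finset.mem_biUnion.2 ⟨S, hS, (hS'.2.1 p hp).2 hxS⟩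
  · intro x hx
    obtain ⟨S, hS, hxS⟩ := Finset.mem_biUnion.1 hx
    exact (Finset.mem_filter.1 hS).2.2.2 x hxS

/-- Core combinatorics: if a multiset `M` even splits along its pure set `U` as `M₀ + Mc`, with edges
of `M₀` outside `U` and edges of `Mc` inside `U`, then `M₀` is even without cycle components
and `Mc` is regular of degree two, off the labels of `M₀`. -/
theorem split_props {M₀ Mc : Multiset (Pr n)} (he : EvenM (M₀ + Mc))
    (h0 : ∀ p ∈ M₀, p.1 ∉ pureU (M₀ + Mc) ∧ p.2 ∉ pureU (M₀ + Mc))
    (hc : ∀ p ∈ Mc, p.1 ∈ pureU (M₀ + Mc) ∧ p.2 ∈ pureU (M₀ + Mc)) :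
    EvenM M₀ ∧ NCM M₀ ∧ Reg2M Mc (labelsM M₀) := by
  set U := pureU (M₀ + Mc) with hU
  have hpure := isPure_pureU (M₀ + Mc)
  rw [← hU] at hpure
  -- degrees
  have d0 : ∀ x ∈ U, degM M₀ x = 0 := by
    intro x hx
    rw [degM_eq_zero_iff']
    intro p hp
    obtain ⟨h1, h2⟩ := h0 p hp
    exact ⟨fun e => h1 (e ▸ hx), fun e => h2 (e ▸ hx)⟩
  have dc : ∀ x, x ∉ U → degM Mc x = 0 := by
    intro x hx
    rw [degM_eq_zero_iff']
    intro p hp
    obtain ⟨h1, h2⟩ := hc p hp
    exact ⟨fun e => hx (e ▸ h1), fun e => hx (e ▸ h2)⟩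
  have dadd := degM_add' M₀ Mc
  refine ⟨?_, ?_, ?_, ?_⟩
  · intro x
    by_cases hx : x ∈ U
    · rw [d0 x hx]; exact Even.zero
    · have := he x
      rw [dadd, dc x hx, add_zero] at this
      exact this
  · intro S hSne hSl hScl
    by_contra hcon
    push Not at hcon
    -- `S` is a pure set of the full multiset
    have hSU : ∀ x ∈ S, x ∉ U := by
      intro x hx hxU
      have h1 := hSl hx
      simp only [labelsM, Finset.mem_filter, Finset.mem_univ, true_and] at h1
      exact h1 (d0 x hxU)
    have hS : IsPure (M₀ + Mc) S := by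
      refine ⟨?_, ?_, ?_⟩
      · intro x hx
        have h1 := hSl hx
        simp only [labelsM, Finset.mem_filter, Finset.mem_univ, true_and] at h1 ⊢
        rw [dadd]
        omega
      · intro p hp
        rcases Multiset.mem_add.1 hp with hp | hp
        · exact hScl p hp
        · obtain ⟨h1, h2⟩ := hc p hp
          constructor
          · intro h3; exact absurd h1 (hSU _ h3)
          · intro h3; exact absurd h2 (hSU _ h3)
      · intro x hx
        rw [dadd, dc x (hSU x hx), add_zero]
        exact hcon x hx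
    obtain ⟨x, hx⟩ := hSne
    exact hSU x hx (subset_pureU hS hx)
  · intro x
    by_cases hx : x ∈ U
    · right
      have := hpure.2.2 x hx
      rw [dadd, d0 x hx, zero_add] at this
      exact this
    · left; exact dc x hx
  · intro x hx
    have hxU : x ∉ U := by
      intro hxU
      simp only [labelsM, Finset.mem_filter, Finset.mem_univ, true_and] at hx
      exact hx (d0 x hxU)
    exact dc x hxU

/-! ### Splitting tuples -/

theorem msOf_comp_emb {k q : ℕ} (l : Fin k → Pr n) (T : Finset (Fin k)) (h : T.card = q) :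
    msOf (l ∘ T.orderEmbOfFin h) = T.val.map l := by
  unfold msOf
  have hT : T.val = (Finset.univ.map (T.orderEmbOfFin h).toEmbedding).val := by
    rw [Finset.map_orderEmbOfFin_univ]
  rw [hT, Finset.map_val, Multiset.map_map]
  rfl

theorem univ_val_split {k : ℕ} (T : Finset (Fin k)) :
    (Finset.univ : Finset (Fin k)).val = T.val + Tᶜ.val := by
  rw [← Finset.disjUnion_val _ _ disjoint_compl_right]
  congr 1
  ext x
  simp

theorem msOf_split {k : ℕ} (l : Fin k → Pr n) (T : Finset (Fin k)) :
    msOf l = T.val.map l + Tᶜ.val.map l := by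
  unfold msOf
  rw [univ_val_split T, Multiset.map_add]

theorem sum_le_sum_of_inj {α β : Type*} [Fintype β] (s : Finset α) (φ : α → β) (f : α → ℝ)
    (F : β → ℝ) (hF : ∀ b, 0 ≤ F b) (hinj : Set.InjOn φ s) (hfF : ∀ a ∈ s, f a ≤ F (φ a)) :
    ∑ a ∈ s, f a ≤ ∑ b, F b := by
  calc ∑ a ∈ s, f a ≤ ∑ a ∈ s, F (φ a) := Finset.sum_le_sum hfF
    _ = ∑ b ∈ s.image φ, F b := (Finset.sum_image hinj).symm
    _ ≤ ∑ b, F b := Finset.sum_le_sum_of_subset_of_nonneg (Finset.subset_univ _)
        (fun b _ _ => hF b)

/-- Positions of the non-pure part. -/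
noncomputable def posT {k : ℕ} (l : Fin k → Pr n) : Finset (Fin k) :=
  Finset.univ.filter fun i => (l i).1 ∉ pureU (msOf l)

/-- Splitting an even pattern into its part without pure cycles and a pure cycle part. -/
theorem even_decomp (k : ℕ) (h : Multiset (Pr n) → ℝ) (hh : ∀ M, 0 ≤ h M) :
    ∑ l : Fin k → Pr n, (if EvenM (msOf l) then h (msOf l) else 0) ≤
      ∑ q ∈ Finset.range (k + 1), (k.choose q : ℝ) *
        ∑ l₀ : Fin q → Pr n, (if EvenM (msOf l₀) ∧ NCM (msOf l₀) then
          ∑ lc : Fin (k - q) → Pr n, (if Reg2M (msOf lc) (labelsM (msOf l₀)) then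
            h (msOf l₀ + msOf lc) else 0) else 0) := by
  set f : (Fin k → Pr n) → ℝ := fun l => if EvenM (msOf l) then h (msOf l) else 0 with hf
  -- the inner sum for fixed `q`
  let F : (q : ℕ) → (Fin q → Pr n) × (Fin (k - q) → Pr n) → ℝ := fun q p =>
    if EvenM (msOf p.1) ∧ NCM (msOf p.1) then
      (if Reg2M (msOf p.2) (labelsM (msOf p.1)) then h (msOf p.1 + msOf p.2) else 0) else 0
  have hFnn : ∀ q p, 0 ≤ F q p := by
    intro q p
    simp only [F]
    split_ifs
    · exact hh _
    · exact le_refl _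
    · exact le_refl _
  have hX : ∀ q : ℕ, (∑ l₀ : Fin q → Pr n, (if EvenM (msOf l₀) ∧ NCM (msOf l₀) then
          ∑ lc : Fin (k - q) → Pr n, (if Reg2M (msOf lc) (labelsM (msOf l₀)) then
            h (msOf l₀ + msOf lc) else 0) else 0)) = ∑ p, F q p := by
    intro q
    rw [Fintype.sum_prod_type]
    refine Finset.sum_congr rfl fun l₀ _ => ?_
    by_cases hc : EvenM (msOf l₀) ∧ NCM (msOf l₀)
    · simp only [F, if_pos hc]
    · simp only [F, if_neg hc, Finset.sum_const_zero]
  -- the fibres
  have hfib : ∀ (T : Finset (Fin k)) (q : ℕ), T.card = q →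
      ∑ l ∈ Finset.univ.filter (fun l : Fin k → Pr n => posT l = T), f l ≤ ∑ p, F q p := by
    intro T q hq
    have hqc : Tᶜ.card = k - q := by
      rw [Finset.card_compl, Fintype.card_fin, hq]
    refine sum_le_sum_of_inj _
      (fun l => (l ∘ T.orderEmbOfFin hq, l ∘ Tᶜ.orderEmbOfFin hqc)) f (F q) (hFnn q) ?_ ?_
    · intro l _ l' _ hll
      simp only [Prod.mk.injEq] at hll
      funext i
      by_cases hi : i ∈ T
      · have : i ∈ Set.range (T.orderEmbOfFin hq) := by
          rw [Finset.range_orderEmbOfFin]; exact hi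
        obtain ⟨j, rfl⟩ := this
        exact congrFun hll.1 j
      · have : i ∈ Set.range (Tᶜ.orderEmbOfFin hqc) := by
          rw [Finset.range_orderEmbOfFin]; exact Finset.mem_compl.2 hi
        obtain ⟨j, rfl⟩ := this
        exact congrFun hll.2 j
    · intro l hl
      have hT : posT l = T := (Finset.mem_filter.1 hl).2
      by_cases he : EvenM (msOf l)
      · have hsp : msOf l = msOf (l ∘ T.orderEmbOfFin hq) + msOf (l ∘ Tᶜ.orderEmbOfFin hqc) := by
          rw [msOf_comp_emb, msOf_comp_emb]; exact msOf_split l T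
        have hpure := isPure_pureU (msOf l)
        have hcl := hpure.2.1
        have hmem : ∀ i, (l i) ∈ msOf l := by
          intro i
          exact Multiset.mem_map_of_mem _ (Finset.mem_univ_val i)
        have hprops : EvenM (msOf (l ∘ T.orderEmbOfFin hq)) ∧ NCM (msOf (l ∘ T.orderEmbOfFin hq)) ∧
            Reg2M (msOf (l ∘ Tᶜ.orderEmbOfFin hqc)) (labelsM (msOf (l ∘ T.orderEmbOfFin hq))) := by
          apply split_props
          · rw [← hsp]; exact he
          · rw [← hsp]
            intro p hp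
            rw [msOf_comp_emb] at hp
            obtain ⟨i, hi, rfl⟩ := Multiset.mem_map.1 hp
            have hiT : i ∈ posT l := by rw [hT]; exact hi
            have h1 : (l i).1 ∉ pureU (msOf l) := (Finset.mem_filter.1 hiT).2
            refine ⟨h1, fun h2 => h1 ((hcl (l i) (hmem i)).2 h2)⟩
          · rw [← hsp]
            intro p hp
            rw [msOf_comp_emb] at hp
            obtain ⟨i, hi, rfl⟩ := Multiset.mem_map.1 hp
            have hiT : i ∉ posT l := by
              rw [hT]; exact Finset.mem_compl.1 hi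
            have h1 : (l i).1 ∈ pureU (msOf l) := by
              by_contra hc
              exact hiT (Finset.mem_filter.2 ⟨Finset.mem_univ _, hc⟩)
            exact ⟨h1, (hcl (l i) (hmem i)).1 h1⟩
        simp only [f, F, if_pos he, if_pos (And.intro hprops.1 hprops.2.1), if_pos hprops.2.2]
        rw [hsp]
      · simp only [f, if_neg he]
        exact hFnn q _
  -- assemble
  have hcard : ∀ l : Fin k → Pr n, (posT l).card ∈ Finset.range (k + 1) := by
    intro l
    have : (posT l).card ≤ (Finset.univ : Finset (Fin k)).card := Finset.card_le_univ _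
    rw [Finset.card_univ, Fintype.card_fin] at this
    exact Finset.mem_range.2 (by omega)
  rw [← Finset.sum_fiberwise_of_maps_to (s := Finset.univ) (t := Finset.range (k + 1))
    (g := fun l : Fin k → Pr n => (posT l).card) (f := f) (fun l _ => hcard l)]
  refine Finset.sum_le_sum fun q _ => ?_
  rw [hX q]
  -- fibres over subsets
  have hmaps : ∀ l ∈ Finset.univ.filter (fun l : Fin k → Pr n => (posT l).card = q),
      posT l ∈ Finset.powersetCard q (Finset.univ : Finset (Fin k)) := by
    intro l hl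
    exact Finset.mem_powersetCard.2 ⟨Finset.subset_univ _, (Finset.mem_filter.1 hl).2⟩
  rw [← Finset.sum_fiberwise_of_maps_to hmaps f]
  have hcardp : ((Finset.powersetCard q (Finset.univ : Finset (Fin k))).card : ℝ) = (k.choose q : ℝ) := by
    rw [Finset.card_powersetCard, Finset.card_univ, Fintype.card_fin]
  rw [← hcardp, ← nsmul_eq_mul]
  refine Finset.sum_le_card_nsmul _ _ _ fun T hT => ?_
  have hTc := (Finset.mem_powersetCard.1 hT).2
  refine le_trans (Finset.sum_le_sum_of_subset_of_nonneg ?_ ?_) (hfib T q hTc)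
  · intro l hl
    exact Finset.mem_filter.2 ⟨Finset.mem_univ _, (Finset.mem_filter.1 hl).2⟩
  · intro l _ _
    simp only [f]
    split_ifs
    · exact hh _
    · exact le_refl _

/-- Adding a pure cycle part does not change the weight. -/
theorem varpi_add_reg2 (M M' : Multiset (Pr n)) (h : Reg2M M' (labelsM M)) :
    varpi (M + M') = varpi M := by
  unfold varpi
  refine Finset.prod_congr rfl fun x _ => ?_
  rw [degM_add']
  by_cases hx : x ∈ labelsM M
  · rw [h.2 x hx, add_zero]
  · have h0 : degM M x = 0 := by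
      simpa [labelsM] using hx
    rw [h0, zero_add]
    rcases h.1 x with h1 | h1
    · rw [h1]
    · rw [h1]
      simp [wt1, Nat.factorial]

theorem dg_cons (ℓ : ℕ) (ν : Wt) : dg (ℓ ::ₘ ν) = (ℓ + 1) + dg ν := by
  simp [dg]

theorem mem_cycT_self (ν : Wt) : ν ∈ cycT (dg ν) := by
  unfold cycT
  refine Finset.mem_image.2 ⟨⟨ν.map (· + 1), ?_, rfl⟩, Finset.mem_univ _, ?_⟩
  · intro i hi
    obtain ⟨a, _, rfl⟩ := Multiset.mem_map.1 hi
    omega
  · simp [Multiset.map_map]

theorem mem_cycT_of_isCyc {M : Multiset (Pr n)} {ν : Wt} (h : IsCyc M ν) :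
    ν ∈ cycT (dg ν) ∧ Multiset.card M = dg ν := by
  refine ⟨mem_cycT_self ν, ?_⟩
  induction h with
  | nil => simp [dg]
  | add x fl M ν hx hd hM ih =>
    rename_i ℓ
    rw [dg_cons, Multiset.card_add, ih]
    simp [cycM]

theorem dg_of_mem_cycT {C : ℕ} {ν : Wt} (h : ν ∈ cycT C) : dg ν = C := by
  unfold cycT at h
  obtain ⟨p, _, rfl⟩ := Finset.mem_image.1 h
  unfold dg
  rw [Multiset.map_map]
  have : (p.parts.map ((· + 1) ∘ (· - 1))) = p.parts := by
    conv_rhs => rw [← Multiset.map_id p.parts]
    apply Multiset.map_congr rfl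
    intro a ha
    have := p.parts_pos ha
    simp only [Function.comp, id]
    omega
  rw [this]
  exact p.parts_sum

end Vale.Agent.Lib.P146
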