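import Vale.Agent.Lib.P146.Schur
import Vale.Agent.Lib.P146.Cycles
import Vale.Agent.Lib.P146.Count

/-! Module J4: the combinatorial core, from free coefficients to the level sum. -/

set_option autoImplicit false
open scoped Classical

namespace Vale.Agent.Lib.P146

variable {n : ℕ}

theorem core_wt1_nonneg (m : ℕ) : 0 ≤ wt1 m := by
  unfold wt1
  split_ifs <;> positivity

theorem core_varpi_nonneg (M : Multiset (Pr n)) : 0 ≤ varpi M :=
  Finset.prod_nonneg fun _ _ => core_wt1_nonneg _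

theorem core_zz_pos (ν : Wt) : 0 < zz ν := by
  unfold zz
  apply mul_pos
  · apply Multiset.prod_pos
    intro x hx
    obtain ⟨ℓ, hℓ, rfl⟩ := Multiset.mem_map.1 hx
    have hℓ' : 0 ≤ ℓ := by
      change ℓ ∈ Multiset.bind ν (fun a : ℕ => ({(a : ℝ)} : Multiset ℝ)) at hℓ
      obtain ⟨a, -, ha⟩ := Multiset.mem_bind.1 hℓ
      rw [Multiset.mem_singleton] at ha
      rw [ha]
      exact Nat.cast_nonneg _
    positivity
  · exact Finset.prod_pos fun _ _ => by positivity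

theorem core_card_msOf {α : Type} {k : ℕ} (l : Fin k → α) : Multiset.card (msOf l) = k := by
  simp [msOf]

/-- The sum over the pure cycle part, for a fixed `M₀`. -/
theorem core_cyc_inner (dv : Multiset (Pr n) → ℝ) (ff : Multiset (Pr n) → Wt → ℝ)
    (hdec : ∀ M₀ Mc ν, IsCyc Mc ν → Reg2M Mc (labelsM M₀) →
      Tav dv (M₀ + Mc) ^ 2 = zz ν * ff M₀ ν ^ 2) (M₀ : Multiset (Pr n)) (C : ℕ) :
    ∑ lc : Fin C → Pr n, (if Reg2M (msOf lc) (labelsM M₀) then
        varpi (M₀ + msOf lc) * Tav dv (M₀ + msOf lc) ^ 2 else 0) ≤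
      (C.factorial : ℝ) * 2 ^ C * (n : ℝ) ^ C * (varpi M₀ * ∑ ν ∈ cycT C, ff M₀ ν ^ 2) := by
  have h1 := cycle_sum (n := n) C (labelsM M₀)
    (fun M => varpi (M₀ + M) * Tav dv (M₀ + M) ^ 2)
    (fun ν => varpi M₀ * (zz ν * ff M₀ ν ^ 2))
    (fun M => mul_nonneg (core_varpi_nonneg _) (sq_nonneg _))
    (fun ν => mul_nonneg (core_varpi_nonneg _) (mul_nonneg (core_zz_pos ν).le (sq_nonneg _)))
    (fun M ν hc hr => by
      rw [varpi_add_reg2 _ _ hr, hdec _ _ _ hc hr])
  have h2 : ∑ ν ∈ cycT C, varpi M₀ * (zz ν * ff M₀ ν ^ 2) / zz ν =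
      varpi M₀ * ∑ ν ∈ cycT C, ff M₀ ν ^ 2 := by
    rw [Finset.mul_sum]
    refine Finset.sum_congr rfl fun ν _ => ?_
    have := (core_zz_pos ν).ne'
    field_simp
  rw [h2] at h1
  exact h1

/-- The contribution of a level `q` and a cycle length `C`. -/
noncomputable def core_Fq (ff : Multiset (Pr n) → Wt → ℝ) (q C : ℕ) : ℝ :=
  ∑ l₀ : Fin q → Pr n, (if EvenM (msOf l₀) ∧ NCM (msOf l₀) then
    varpi (msOf l₀) * ∑ ν ∈ cycT C, ff (msOf l₀) ν ^ 2 else 0)

/-- One level. -/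
theorem core_level_bound (hn : 0 < n) {k : ℕ} (hk : 1000 * k ^ 3 ≤ n) (dv : Multiset (Pr n) → ℝ)
    (ff : Multiset (Pr n) → Wt → ℝ)
    (hsym : ∀ (σ : Equiv.Perm (Fin n)) M, dv (mapL σ M) = dv M)
    (heven : ∀ M, ¬ EvenM M → dv M = 0)
    (hdec : ∀ M₀ Mc ν, IsCyc Mc ν → Reg2M Mc (labelsM M₀) →
      Tav dv (M₀ + Mc) ^ 2 = zz ν * ff M₀ ν ^ 2) :
    ∑ l : Fin k → Pr n, dv (msOf l) ^ 2 ≤
      16 * ∑ q ∈ Finset.range (k + 1), (k.choose q : ℝ) *
        (((k - q).factorial : ℝ) * 2 ^ (k - q) * (n : ℝ) ^ (k - q) * core_Fq ff q (k - q)) := by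
  have h1 : ∑ l : Fin k → Pr n, dv (msOf l) ^ 2 ≤
      ∑ l : Fin k → Pr n, (if EvenM (msOf l) then varpi (msOf l) * dv (msOf l) ^ 2 else 0) := by
    refine Finset.sum_le_sum fun l _ => ?_
    split_ifs with h
    · have := varpi_ge_one _ h
      nlinarith [sq_nonneg (dv (msOf l))]
    · rw [heven _ h]; simp
  have h2 := schur_free hn hk dv hsym
  have h3 := even_decomp (n := n) k (fun M => varpi M * Tav dv M ^ 2)
    (fun M => mul_nonneg (core_varpi_nonneg _) (sq_nonneg _))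
  refine h1.trans (h2.trans ?_)
  refine mul_le_mul_of_nonneg_left (h3.trans ?_) (by norm_num)
  refine Finset.sum_le_sum fun q _ => ?_
  refine mul_le_mul_of_nonneg_left ?_ (Nat.cast_nonneg _)
  unfold core_Fq
  rw [Finset.mul_sum]
  refine Finset.sum_le_sum fun l₀ _ => ?_
  by_cases h : EvenM (msOf l₀) ∧ NCM (msOf l₀)
  · rw [if_pos h, if_pos h]
    exact core_cyc_inner dv ff hdec _ _
  · rw [if_neg h, if_neg h]; simp

/-- Normalisation of one term. -/
theorem core_norm_term (hn : 0 < n) {k q : ℕ} (hq : q ≤ k) :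
    (((k.factorial : ℝ) * 2 ^ k * (n : ℝ) ^ k)⁻¹) * ((k.choose q : ℝ) *
        (((k - q).factorial : ℝ) * 2 ^ (k - q) * (n : ℝ) ^ (k - q))) =
      ((q.factorial : ℝ) * 2 ^ q * (n : ℝ) ^ q)⁻¹ := by
  have h1 : (k.factorial : ℝ) = (k.choose q : ℝ) * (q.factorial : ℝ) * ((k - q).factorial : ℝ) := by
    exact_mod_cast (Nat.choose_mul_factorial_mul_factorial hq).symm
  have h2 : (2 : ℝ) ^ k = 2 ^ q * 2 ^ (k - q) := by
    rw [← pow_add]; congr 1; omega
  have h3 : (n : ℝ) ^ k = (n : ℝ) ^ q * (n : ℝ) ^ (k - q) := by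
    rw [← pow_add]; congr 1; omega
  have hn' : (n : ℝ) ≠ 0 := by positivity
  have h4 : (k.choose q : ℝ) ≠ 0 := by
    exact_mod_cast (Nat.choose_pos hq).ne'
  have h5 : (q.factorial : ℝ) ≠ 0 := by positivity
  have h6 : ((k - q).factorial : ℝ) ≠ 0 := by positivity
  rw [h1, h2, h3]
  field_simp

/-- One normalised level. -/
theorem core_level_norm (hn : 0 < n) {k : ℕ} (hk : 1000 * k ^ 3 ≤ n) (dv : Multiset (Pr n) → ℝ)
    (ff : Multiset (Pr n) → Wt → ℝ)
    (hsym : ∀ (σ : Equiv.Perm (Fin n)) M, dv (mapL σ M) = dv M)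
    (heven : ∀ M, ¬ EvenM M → dv M = 0)
    (hdec : ∀ M₀ Mc ν, IsCyc Mc ν → Reg2M Mc (labelsM M₀) →
      Tav dv (M₀ + Mc) ^ 2 = zz ν * ff M₀ ν ^ 2) :
    ((k.factorial : ℝ) * 2 ^ k * (n : ℝ) ^ k)⁻¹ * ∑ l : Fin k → Pr n, dv (msOf l) ^ 2 ≤
      16 * ∑ q ∈ Finset.range (k + 1), ((q.factorial : ℝ) * 2 ^ q * (n : ℝ) ^ q)⁻¹ *
        core_Fq ff q (k - q) := by
  have h := core_level_bound hn hk dv ff hsym heven hdec
  have hpos : 0 ≤ ((k.factorial : ℝ) * 2 ^ k * (n : ℝ) ^ k)⁻¹ := by positivity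
  refine (mul_le_mul_of_nonneg_left h hpos).trans (le_of_eq ?_)
  rw [mul_left_comm, Finset.mul_sum]
  congr 1
  refine Finset.sum_congr rfl fun q hq => ?_
  have hq' : q ≤ k := by
    have := Finset.mem_range.1 hq
    omega
  rw [← core_norm_term hn hq']
  ring

/-- The term with no non-cycle part. -/
theorem core_Fq_zero (ff : Multiset (Pr n) → Wt → ℝ) (C : ℕ) :
    core_Fq ff 0 C = ∑ ν ∈ cycT C, ff 0 ν ^ 2 := by
  unfold core_Fq
  have h0 : ∀ l₀ : Fin 0 → Pr n, msOf l₀ = 0 := by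
    intro l₀
    simp [msOf]
  have hE : EvenM (0 : Multiset (Pr n)) := by
    intro x
    simp [degM]
  have hN : NCM (0 : Multiset (Pr n)) := by
    intro S hS hsub _
    obtain ⟨x, hx⟩ := hS
    have := hsub hx
    simp [labelsM, degM] at this
  have hv : varpi (0 : Multiset (Pr n)) = 1 := by
    simp [varpi, degM, wt1]
  simp only [h0, Fintype.sum_unique, hE, hN, and_self, if_true, hv, one_mul]

theorem core_cyc_disj {ι : Type*} (s : Finset ι) (c : ι → ℕ) (hc : Set.InjOn c s) :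
    (s : Set ι).PairwiseDisjoint (fun i => cycT (c i)) := by
  intro i hi j hj hij
  refine Finset.disjoint_left.2 fun ν h1 h2 => hij (hc hi hj ?_)
  rw [← dg_of_mem_cycT h1, ← dg_of_mem_cycT h2]

/-- A normalised term. -/
noncomputable def core_Tq (ff : Multiset (Pr n) → Wt → ℝ) (q C : ℕ) : ℝ :=
  ((q.factorial : ℝ) * 2 ^ q * (n : ℝ) ^ q)⁻¹ * core_Fq ff q C

/-- The core. -/
theorem core_bound (hn : 0 < n) {K : ℕ} (hK : 1000 * K ^ 3 ≤ n) (dv : Multiset (Pr n) → ℝ)
    (ff : Multiset (Pr n) → Wt → ℝ) (Bd : ℕ → ℝ) (B0 : ℝ)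
    (hsym : ∀ (σ : Equiv.Perm (Fin n)) M, dv (mapL σ M) = dv M)
    (heven : ∀ M, ¬ EvenM M → dv M = 0)
    (hdec : ∀ M₀ Mc ν, IsCyc Mc ν → Reg2M Mc (labelsM M₀) →
      Tav dv (M₀ + Mc) ^ 2 = zz ν * ff M₀ ν ^ 2)
    (hB : ∀ M₀, M₀ ≠ 0 → EvenM M₀ → NCM M₀ → Multiset.card M₀ ≤ K → ∀ s : Finset Wt,
      (∀ ν ∈ s, Multiset.card M₀ + dg ν ≤ K) → ∑ ν ∈ s, ff M₀ ν ^ 2 ≤ Bd (excessM M₀) ^ 2)
    (hB0 : ∀ s : Finset Wt, (∀ ν ∈ s, ν ≠ 0 ∧ dg ν ≤ K) → ∑ ν ∈ s, ff 0 ν ^ 2 ≤ B0 ^ 2) :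
    ∑ k ∈ Finset.range K, (((k + 1).factorial : ℝ) * 2 ^ (k + 1) * (n : ℝ) ^ (k + 1))⁻¹ *
        ∑ l : Fin (k + 1) → Pr n, dv (msOf l) ^ 2 ≤
      16 * (B0 ^ 2 + K * ∑ e ∈ Finset.range K, (8 * (K : ℝ) ^ 2 / n) ^ (e + 1) * Bd (e + 1) ^ 2) := by
  -- step 1: level by level
  have h1 : ∑ k ∈ Finset.range K, (((k + 1).factorial : ℝ) * 2 ^ (k + 1) * (n : ℝ) ^ (k + 1))⁻¹ *
        ∑ l : Fin (k + 1) → Pr n, dv (msOf l) ^ 2 ≤
      ∑ k ∈ Finset.range K, (16 * ∑ q ∈ Finset.range (k + 1 + 1), core_Tq ff q (k + 1 - q)) := by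
    refine Finset.sum_le_sum fun k hk => ?_
    have hk' : k + 1 ≤ K := Finset.mem_range.1 hk
    have hk3 : 1000 * (k + 1) ^ 3 ≤ n :=
      le_trans (Nat.mul_le_mul_left _ (Nat.pow_le_pow_left hk' 3)) hK
    exact core_level_norm hn hk3 dv ff hsym heven hdec
  refine h1.trans ?_
  rw [← Finset.mul_sum]
  refine mul_le_mul_of_nonneg_left ?_ (by norm_num)
  -- step 2: split off `q = 0`
  have h2 : ∑ k ∈ Finset.range K, ∑ q ∈ Finset.range (k + 1 + 1), core_Tq ff q (k + 1 - q) =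
      ∑ k ∈ Finset.range K, core_Tq ff 0 (k + 1) +
        ∑ k ∈ Finset.range K, ∑ q ∈ Finset.range (k + 1), core_Tq ff (q + 1) (k - q) := by
    rw [← Finset.sum_add_distrib]
    refine Finset.sum_congr rfl fun k _ => ?_
    rw [Finset.sum_range_succ', add_comm]
    simp only [Nat.add_sub_add_right, Nat.sub_zero]
  rw [h2]
  refine add_le_add ?_ ?_
  · -- the term `q = 0`
    have h3 : ∀ k, core_Tq ff 0 (k + 1) = ∑ ν ∈ cycT (k + 1), ff 0 ν ^ 2 := by
      intro k
      simp [core_Tq, core_Fq_zero]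
    simp only [h3]
    rw [← Finset.sum_biUnion (core_cyc_disj _ _ (fun a _ b _ hab => by omega))]
    refine hB0 _ fun ν hν => ?_
    obtain ⟨k, hk, hνk⟩ := Finset.mem_biUnion.1 hν
    have hd := dg_of_mem_cycT hνk
    have hk' := Finset.mem_range.1 hk
    refine ⟨?_, by omega⟩
    rintro rfl
    simp [dg] at hd
  · -- the terms `q ≥ 1`
    have h4 : ∑ k ∈ Finset.range K, ∑ q ∈ Finset.range (k + 1), core_Tq ff (q + 1) (k - q) =
        ∑ q ∈ Finset.range K, ∑ k ∈ Finset.Ico q K, core_Tq ff (q + 1) (k - q) := by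
      refine Finset.sum_comm' fun k q => ?_
      simp only [Finset.mem_range, Finset.mem_Ico]
      omega
    rw [h4]
    have h5 : ∀ q ∈ Finset.range K, ∑ k ∈ Finset.Ico q K, core_Tq ff (q + 1) (k - q) ≤
        ∑ e ∈ Finset.range K, (8 * (K : ℝ) ^ 2 / n) ^ (e + 1) * Bd (e + 1) ^ 2 := by
      intro q hq
      have hqK : q + 1 ≤ K := Finset.mem_range.1 hq
      simp only [core_Tq]
      rw [← Finset.mul_sum]
      -- bound for one tuple
      have h6 : ∀ l₀ : Fin (q + 1) → Pr n,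
          ∑ k ∈ Finset.Ico q K, (if EvenM (msOf l₀) ∧ NCM (msOf l₀) then
            varpi (msOf l₀) * ∑ ν ∈ cycT (k - q), ff (msOf l₀) ν ^ 2 else 0) ≤
          ∑ e ∈ Finset.range K, Bd (e + 1) ^ 2 *
            (if EvenM (msOf l₀) ∧ excessM (msOf l₀) = e + 1 then varpi (msOf l₀) else 0) := by
        intro l₀
        by_cases h : EvenM (msOf l₀) ∧ NCM (msOf l₀)
        · simp only [if_pos h]
          rw [← Finset.mul_sum]
          rw [← Finset.sum_biUnion (core_cyc_disj _ _ (fun a ha b hb hab => by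
            have h1 := (Finset.mem_Ico.1 (Finset.mem_coe.1 ha)).1
            have h2 := (Finset.mem_Ico.1 (Finset.mem_coe.1 hb)).1
            have hab' : a - q = b - q := hab
            omega))]
          have hcard : Multiset.card (msOf l₀) = q + 1 := core_card_msOf l₀
          have hne : msOf l₀ ≠ 0 := by
            intro h0
            rw [h0] at hcard
            simp at hcard
          have h8 := hB _ hne h.1 h.2 (by omega)
            ((Finset.Ico q K).biUnion fun k => cycT (k - q)) (by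
              intro ν hν
              obtain ⟨k, hk, hνk⟩ := Finset.mem_biUnion.1 hν
              have hd := dg_of_mem_cycT hνk
              have hk' := Finset.mem_Ico.1 hk
              omega)
          obtain ⟨h9, h10⟩ := excess_pos _ hne h.1 h.2
          have he : excessM (msOf l₀) - 1 ∈ Finset.range K := by
            rw [Finset.mem_range]; omega
          have h11 : Bd (excessM (msOf l₀)) ^ 2 * varpi (msOf l₀) ≤
              ∑ e ∈ Finset.range K, Bd (e + 1) ^ 2 *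
                (if EvenM (msOf l₀) ∧ excessM (msOf l₀) = e + 1 then varpi (msOf l₀) else 0) := by
            have h12 := Finset.single_le_sum (f := fun e => Bd (e + 1) ^ 2 *
                (if EvenM (msOf l₀) ∧ excessM (msOf l₀) = e + 1 then varpi (msOf l₀) else 0))
              (fun e _ => mul_nonneg (sq_nonneg _) (by
                split_ifs
                · exact core_varpi_nonneg _
                · exact le_rfl)) he
            have h13 : excessM (msOf l₀) - 1 + 1 = excessM (msOf l₀) := by omega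
            rw [h13, if_pos ⟨h.1, rfl⟩] at h12
            exact h12
          refine le_trans ?_ h11
          rw [mul_comm]
          exact mul_le_mul_of_nonneg_right h8 (core_varpi_nonneg _)
        · simp only [if_neg h, Finset.sum_const_zero]
          refine Finset.sum_nonneg fun e _ => mul_nonneg (sq_nonneg _) ?_
          split_ifs
          · exact core_varpi_nonneg _
          · exact le_rfl
      have h14 : ∑ k ∈ Finset.Ico q K, core_Fq ff (q + 1) (k - q) ≤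
          ∑ e ∈ Finset.range K, Bd (e + 1) ^ 2 *
            ∑ l₀ : Fin (q + 1) → Pr n,
              (if EvenM (msOf l₀) ∧ excessM (msOf l₀) = e + 1 then varpi (msOf l₀) else 0) := by
        unfold core_Fq
        rw [Finset.sum_comm]
        refine (Finset.sum_le_sum fun l₀ _ => h6 l₀).trans (le_of_eq ?_)
        rw [Finset.sum_comm]
        refine Finset.sum_congr rfl fun e _ => ?_
        rw [Finset.mul_sum]
      have hnorm : 0 < ((q + 1).factorial : ℝ) * 2 ^ (q + 1) * (n : ℝ) ^ (q + 1) := by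
        have : (0 : ℝ) < n := by exact_mod_cast hn
        positivity
      refine (mul_le_mul_of_nonneg_left h14 (inv_nonneg.2 hnorm.le)).trans ?_
      rw [Finset.mul_sum]
      refine Finset.sum_le_sum fun e _ => ?_
      have h15 := count_even hn (k := q + 1) (K := K) (e := e + 1) hqK
      rw [inv_mul_le_iff₀ hnorm]
      have h16 : Bd (e + 1) ^ 2 * ∑ l₀ : Fin (q + 1) → Pr n,
            (if EvenM (msOf l₀) ∧ excessM (msOf l₀) = e + 1 then varpi (msOf l₀) else 0) ≤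
          Bd (e + 1) ^ 2 * (((q + 1).factorial : ℝ) * 2 ^ (q + 1) * (n : ℝ) ^ (q + 1) *
            (8 * (K : ℝ) ^ 2 / n) ^ (e + 1)) :=
        mul_le_mul_of_nonneg_left h15 (sq_nonneg _)
      refine h16.trans (le_of_eq ?_)
      ring
    refine (Finset.sum_le_sum h5).trans (le_of_eq ?_)
    rw [Finset.sum_const, Finset.card_range, nsmul_eq_mul]

end Vale.Agent.Lib.P146
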