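import Vale.Agent.Lib.P146.Wick

/-! Module A: the truncated Ornstein-Uhlenbeck inequality. -/

set_option autoImplicit false
open MeasureTheory MvPolynomial Filter Topology

namespace Vale.Agent.Lib.P146

/-- Calculus: the iterated derivative lemma. -/
theorem ode_ineq (K : ℕ) (f : ℕ → ℝ → ℝ)
    (hcont : ∀ j, ContinuousOn (f j) (Set.Icc 0 1))
    (hder : ∀ j ρ, 0 < ρ → ρ < 1 → HasDerivAt (f j) (f (j + 1) ρ) ρ)
    (hzero : ∀ j, j ≤ K → f j 0 = 0)
    (htop : ∀ ρ, 0 < ρ → ρ < 1 → 0 ≤ f (K + 2) ρ) :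
    ((K : ℝ) + 1) * f 0 1 ≤ f 1 1 := by
  -- L j = ρ f (j+1) - (K + 1 - j) f j
  set L : ℕ → ℝ → ℝ := fun j ρ => ρ * f (j + 1) ρ - ((K : ℝ) + 1 - j) * f j ρ with hL
  have hLcont : ∀ j, ContinuousOn (L j) (Set.Icc 0 1) := by
    intro j
    apply ContinuousOn.sub
    · exact continuousOn_id.mul (hcont _)
    · exact continuousOn_const.mul (hcont _)
  have hLder : ∀ j ρ, 0 < ρ → ρ < 1 → HasDerivAt (L j) (L (j + 1) ρ) ρ := by
    intro j ρ h0 h1
    have h2 := ((hasDerivAt_id ρ).mul (hder (j + 1) ρ h0 h1)).sub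
      ((hder j ρ h0 h1).const_mul ((K : ℝ) + 1 - j))
    refine h2.congr_deriv ?_
    simp only [hL, id, Nat.cast_add, Nat.cast_one]
    ring
  have hLzero : ∀ j, j ≤ K → L j 0 = 0 := by
    intro j hj
    simp [hL, hzero j hj]
  have hpos : ∀ i, i ≤ K + 1 → ∀ ρ, 0 < ρ → ρ < 1 → 0 ≤ L (K + 1 - i) ρ := by
    intro i
    induction i with
    | zero =>
      intro _ ρ h0 h1
      have : L (K + 1 - 0) ρ = ρ * f (K + 2) ρ := by
        simp only [hL, Nat.sub_zero, Nat.cast_add, Nat.cast_one]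
        ring
      rw [this]
      exact mul_nonneg h0.le (htop ρ h0 h1)
    | succ i ih =>
      intro hi ρ h0 h1
      have hj : K + 1 - (i + 1) ≤ K := by omega
      have hmono : MonotoneOn (L (K + 1 - (i + 1))) (Set.Icc 0 1) := by
        apply monotoneOn_of_deriv_nonneg (convex_Icc 0 1) (hLcont _)
        · intro x hx
          rw [interior_Icc] at hx
          exact (hLder _ x hx.1 hx.2).differentiableAt.differentiableWithinAt
        · intro x hx
          rw [interior_Icc] at hx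
          rw [(hLder _ x hx.1 hx.2).deriv]
          have e : K + 1 - (i + 1) + 1 = K + 1 - i := by omega
          rw [e]
          exact ih (by omega) x hx.1 hx.2
      have := hmono (Set.left_mem_Icc.mpr zero_le_one) ⟨h0.le, h1.le⟩ h0.le
      rwa [hLzero _ hj] at this
  have hmono : MonotoneOn (L 0) (Set.Icc 0 1) := by
    apply monotoneOn_of_deriv_nonneg (convex_Icc 0 1) (hLcont _)
    · intro x hx
      rw [interior_Icc] at hx
      exact (hLder _ x hx.1 hx.2).differentiableAt.differentiableWithinAt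
    · intro x hx
      rw [interior_Icc] at hx
      rw [(hLder _ x hx.1 hx.2).deriv]
      have := hpos K (by omega) x hx.1 hx.2
      have e : K + 1 - K = 0 + 1 := by omega
      rwa [e] at this
  have := hmono (Set.left_mem_Icc.mpr zero_le_one) (Set.right_mem_Icc.mpr zero_le_one) zero_le_one
  rw [hLzero 0 (Nat.zero_le _)] at this
  simp only [hL, one_mul, Nat.cast_zero, sub_zero] at this
  linarith

variable {n : ℕ}

/-- `ℓ¹` size of a configuration. -/
noncomputable def absS (g : Pt n) : ℝ := ∑ e, |g e|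

theorem absS_nonneg (g : Pt n) : 0 ≤ absS g := Finset.sum_nonneg fun _ _ => abs_nonneg _

theorem absS_add (g h : Pt n) : absS (g + h) ≤ absS g + absS h := by
  unfold absS
  rw [← Finset.sum_add_distrib]
  exact Finset.sum_le_sum fun e _ => abs_add_le _ _

theorem absS_smul (c : ℝ) (g : Pt n) : absS (c • g) = |c| * absS g := by
  unfold absS
  rw [Finset.mul_sum]
  exact Finset.sum_congr rfl fun e _ => by simp [abs_mul]

/-- Mean value along a line. -/
theorem line_mvt (F : Pt n → ℝ) (F' : Pt n → Pt n → ℝ)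
    (hline : ∀ g w, HasDerivAt (fun s : ℝ => F (g + s • w)) (F' g w) 0) (g w : Pt n) :
    ∃ τ ∈ Set.Ioo (0 : ℝ) 1, F (g + w) - F g = F' (g + τ • w) w := by
  have hd : ∀ s : ℝ, HasDerivAt (fun s : ℝ => F (g + s • w)) (F' (g + s • w) w) s := by
    intro s
    have h1 := hline (g + s • w) w
    have h2 : HasDerivAt (fun x : ℝ => F ((g + s • w) + (x - s) • w)) (F' (g + s • w) w) s := by
      have := HasDerivAt.comp_sub_const s s (f := fun x : ℝ => F ((g + s • w) + x • w))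
        (f' := F' (g + s • w) w) (by simpa using h1)
      exact this
    refine h2.congr_of_eventuallyEq (Eventually.of_forall fun x => ?_)
    show F (g + x • w) = F (g + s • w + (x - s) • w)
    congr 1
    rw [sub_smul]
    abel
  obtain ⟨τ, hτ, h⟩ := exists_deriv_eq_slope (fun s : ℝ => F (g + s • w)) (zero_lt_one)
    (continuous_iff_continuousAt.mpr fun s => (hd s).continuousAt).continuousOn
    (fun s _ => (hd s).differentiableAt.differentiableWithinAt)
  refine ⟨τ, hτ, ?_⟩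
  rw [(hd τ).deriv] at h
  simp only [one_smul, zero_smul, add_zero, sub_zero, div_one] at h
  exact h.symm

/-- Fréchet differentiability from line derivatives and a growth bound of the second derivatives. -/
theorem hasFDerivAt_of_line (F : Pt n → ℝ) (F1 : Ed n → Pt n → ℝ) (F2 : Ed n → Ed n → Pt n → ℝ)
    (h1 : ∀ g w, HasDerivAt (fun s : ℝ => F (g + s • w)) (∑ e, w e * F1 e g) 0)
    (h2 : ∀ e g w, HasDerivAt (fun s : ℝ => F1 e (g + s • w)) (∑ e', w e' * F2 e' e g) 0)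
    (hb : ∀ e' e, ∃ C : ℝ, ∀ g, |F2 e' e g| ≤ C * (1 + absS g)) (g : Pt n) :
    HasFDerivAt F (∑ e, F1 e g • (ContinuousLinearMap.proj e : Pt n →L[ℝ] ℝ)) g := by
  choose C hC using hb
  -- a global constant
  set C0 : ℝ := ∑ e', ∑ e, |C e' e| with hC0
  have hC0nn : 0 ≤ C0 := Finset.sum_nonneg fun _ _ => Finset.sum_nonneg fun _ _ => abs_nonneg _
  have hCle : ∀ e' e, |C e' e| ≤ C0 := by
    intro e' e
    calc |C e' e| ≤ ∑ e, |C e' e| := Finset.single_le_sum (f := fun e => |C e' e|)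
          (fun _ _ => abs_nonneg _) (Finset.mem_univ e)
      _ ≤ C0 := Finset.single_le_sum (f := fun e' => ∑ e, |C e' e|)
          (fun _ _ => Finset.sum_nonneg fun _ _ => abs_nonneg _) (Finset.mem_univ e')
  have hF2 : ∀ e' e h, |F2 e' e h| ≤ C0 * (1 + absS h) := by
    intro e' e h
    have h3 := hC e' e h
    have h4 : 0 ≤ 1 + absS h := by linarith [absS_nonneg h]
    calc |F2 e' e h| ≤ C e' e * (1 + absS h) := h3
      _ ≤ |C e' e| * (1 + absS h) := by gcongr; exact le_abs_self _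
      _ ≤ C0 * (1 + absS h) := by gcongr; exact hCle e' e
  have key : ∀ w : Pt n, |F (g + w) - F g - ∑ e, w e * F1 e g| ≤
      absS w * (absS w * (C0 * (1 + absS g + absS w))) := by
    intro w
    obtain ⟨τ, hτ, hmv⟩ := line_mvt F (fun g w => ∑ e, w e * F1 e g) h1 g w
    rw [hmv, ← Finset.sum_sub_distrib]
    have hterm : ∀ e, |w e * F1 e (g + τ • w) - w e * F1 e g| ≤
        |w e| * (absS w * (C0 * (1 + absS g + absS w))) := by
      intro e
      rw [← mul_sub, abs_mul]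
      apply mul_le_mul_of_nonneg_left _ (abs_nonneg _)
      obtain ⟨τ', hτ', hmv'⟩ := line_mvt (F1 e) (fun g w => ∑ e', w e' * F2 e' e g) (h2 e) g (τ • w)
      rw [hmv']
      have hsz' : ∀ (σ : ℝ) (y : Pt n), σ ∈ Set.Ioo (0 : ℝ) 1 → absS (σ • y) ≤ absS y := by
        intro σ y hσ
        rw [absS_smul, abs_of_pos hσ.1]
        have := absS_nonneg y
        nlinarith [hσ.2]
      have hsz : ∀ (σ : ℝ), σ ∈ Set.Ioo (0 : ℝ) 1 → absS (σ • w) ≤ absS w := fun σ hσ => hsz' σ w hσ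
      calc |∑ e', (τ • w) e' * F2 e' e (g + τ' • τ • w)|
          ≤ ∑ e', |(τ • w) e'| * |F2 e' e (g + τ' • τ • w)| := by
            refine (Finset.abs_sum_le_sum_abs _ _).trans (le_of_eq ?_)
            exact Finset.sum_congr rfl fun _ _ => abs_mul _ _
        _ ≤ ∑ e', |w e'| * (C0 * (1 + absS g + absS w)) := by
            apply Finset.sum_le_sum
            intro e' _
            apply mul_le_mul
            · simp only [Pi.smul_apply, smul_eq_mul, abs_mul, abs_of_pos hτ.1]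
              have := abs_nonneg (w e')
              nlinarith [hτ.2]
            · refine (hF2 _ _ _).trans ?_
              apply mul_le_mul_of_nonneg_left _ hC0nn
              have h5 := absS_add g (τ' • τ • w)
              have h6 : absS (τ' • τ • w) ≤ absS (τ • w) := hsz' τ' (τ • w) hτ'
              have h7 := hsz τ hτ
              linarith
            · exact abs_nonneg _
            · exact abs_nonneg _
        _ = absS w * (C0 * (1 + absS g + absS w)) := by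
            rw [← Finset.sum_mul]; rfl
    calc |∑ e, (w e * F1 e (g + τ • w) - w e * F1 e g)|
        ≤ ∑ e, |w e * F1 e (g + τ • w) - w e * F1 e g| := Finset.abs_sum_le_sum_abs _ _
      _ ≤ ∑ e, |w e| * (absS w * (C0 * (1 + absS g + absS w))) :=
          Finset.sum_le_sum fun e _ => hterm e
      _ = absS w * (absS w * (C0 * (1 + absS g + absS w))) := by
          rw [← Finset.sum_mul]; rfl
  rw [hasFDerivAt_iff_isLittleO_nhds_zero]
  rw [Asymptotics.isLittleO_iff]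
  intro c hc
  set N : ℝ := (Fintype.card (Ed n) : ℝ) with hN
  have hN0 : 0 ≤ N := by positivity
  have hnorm : ∀ h : Pt n, absS h ≤ N * ‖h‖ := by
    intro h
    unfold absS
    calc ∑ e, |h e| ≤ ∑ _e : Ed n, ‖h‖ := Finset.sum_le_sum fun e _ => by
          simpa using norm_le_pi_norm h e
      _ = N * ‖h‖ := by simp [hN]
  set A : ℝ := N ^ 2 * (C0 * (2 + absS g)) + 1 with hA
  have hA0 : 0 < A := by
    have := absS_nonneg g
    positivity
  have hball : Metric.ball (0 : Pt n) (min (1 / (N + 1)) (c / A)) ∈ 𝓝 (0 : Pt n) :=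
    Metric.ball_mem_nhds _ (lt_min (by positivity) (by positivity))
  filter_upwards [hball] with h hh
  rw [Metric.mem_ball, dist_zero_right] at hh
  have hh1 : ‖h‖ < 1 / (N + 1) := lt_of_lt_of_le hh (min_le_left _ _)
  have hh2 : ‖h‖ < c / A := lt_of_lt_of_le hh (min_le_right _ _)
  have hh0 : 0 ≤ ‖h‖ := norm_nonneg _
  have habs1 : absS h ≤ 1 := by
    have := hnorm h
    have h3 : N * ‖h‖ ≤ 1 := by
      rw [lt_div_iff₀ (by positivity)] at hh1
      nlinarith
    linarith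
  have hval := key h
  have hL : (∑ e, F1 e g • (ContinuousLinearMap.proj e : Pt n →L[ℝ] ℝ)) h = ∑ e, h e * F1 e g := by
    simp [mul_comm]
  rw [hL, Real.norm_eq_abs]
  have habs0 := absS_nonneg h
  have hg0 := absS_nonneg g
  calc |F (g + h) - F g - ∑ e, h e * F1 e g| ≤ absS h * (absS h * (C0 * (1 + absS g + absS h))) := hval
    _ ≤ (N * ‖h‖) * ((N * ‖h‖) * (C0 * (2 + absS g))) := by
        have h1 := hnorm h
        have h2 : C0 * (1 + absS g + absS h) ≤ C0 * (2 + absS g) := by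
          apply mul_le_mul_of_nonneg_left _ hC0nn
          linarith
        have h3 : 0 ≤ C0 * (1 + absS g + absS h) := by positivity
        have h4 : 0 ≤ C0 * (2 + absS g) := by positivity
        gcongr
    _ = ‖h‖ * (N ^ 2 * (C0 * (2 + absS g))) * ‖h‖ := by ring
    _ ≤ ‖h‖ * A * ‖h‖ := by
        gcongr
        rw [hA]
        linarith
    _ ≤ c * ‖h‖ := by
        apply mul_le_mul_of_nonneg_right _ hh0
        rw [lt_div_iff₀ hA0] at hh2
        exact hh2.le

/-! ### The family -/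

/-- Gaussian integration by parts, plain form. -/
theorem gauss_ibp (e : Ed n) {G G' : Pt n → ℝ}
    (hd : ∀ g, HasDerivAt (fun t => G (Function.update g e t)) (G' g) (g e))
    (hG : PG G) (hG' : PG G') :
    ∫ g, g e * G g ∂gam n = ∫ g, G' g ∂gam n := by
  have h := adj_ibp e hd hG hG' (1 : Rr n)
  have e1 : ∀ g, Ev (X e) g = g e := by
    intro g
    have := Ev_X_mul e (1 : Rr n) g
    rw [mul_one, Ev_one] at this
    simpa using this
  have e2 : ∀ g, Ev (1 : Rr n) g = 1 := Ev_one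
  simp only [mul_one, e1, e2] at h
  simpa [mul_comm] using h

/-- The hypotheses on the derivative family. -/
structure Fam (D : List (Ed n) → Pt n → ℝ) : Prop where
  line : ∀ t g w, HasDerivAt (fun s : ℝ => D t (g + s • w)) (∑ e, w e * D (e :: t) g) 0
  meas : ∀ t, Measurable (D t)
  growth : ∀ t, ∃ C : ℝ, ∀ g, |D t g| ≤ C * (1 + ∑ e, |g e|)

variable {D : List (Ed n) → Pt n → ℝ}

theorem Fam.bound (hD : Fam D) (t : List (Ed n)) : ∃ C : ℝ, 0 ≤ C ∧ ∀ g, |D t g| ≤ C * (1 + absS g) := by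
  obtain ⟨C, hC⟩ := hD.growth t
  refine ⟨|C|, abs_nonneg _, fun g => (hC g).trans ?_⟩
  have : 0 ≤ 1 + absS g := by linarith [absS_nonneg g]
  exact mul_le_mul_of_nonneg_right (le_abs_self _) this

theorem Fam.fderiv (hD : Fam D) (t : List (Ed n)) (g : Pt n) :
    HasFDerivAt (D t) (∑ e, D (e :: t) g • (ContinuousLinearMap.proj e : Pt n →L[ℝ] ℝ)) g := by
  refine hasFDerivAt_of_line (D t) (fun e => D (e :: t)) (fun e' e => D (e' :: e :: t))
    (hD.line t) (fun e => hD.line (e :: t)) ?_ g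
  intro e' e
  exact hD.growth (e' :: e :: t)

theorem Fam.cont (hD : Fam D) (t : List (Ed n)) : Continuous (D t) :=
  continuous_iff_continuousAt.mpr fun g => (hD.fderiv t g).continuousAt

/-- Moving one coordinate, `c • x + y`. -/
theorem Fam.upd_l (hD : Fam D) (s : List (Ed n)) (e : Ed n) (c : ℝ) (x y : Pt n) :
    HasDerivAt (fun t => D s (c • Function.update x e t + y)) (c * D (e :: s) (c • x + y)) (x e) := by
  have h1 := hD.line s (c • x + y) (c • Pi.single e (1 : ℝ))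
  have hsum : ∑ e', (c • (Pi.single e (1 : ℝ) : Pt n)) e' * D (e' :: s) (c • x + y) =
      c * D (e :: s) (c • x + y) := by
    rw [Finset.sum_eq_single e]
    · simp
    · intro b _ hb
      simp [hb]
    · simp
  rw [hsum] at h1
  have h2 := HasDerivAt.comp_sub_const (x e) (x e)
    (f := fun τ : ℝ => D s (c • x + y + τ • c • (Pi.single e (1 : ℝ) : Pt n)))
    (f' := c * D (e :: s) (c • x + y)) (by simpa using h1)
  refine h2.congr_of_eventuallyEq (Eventually.of_forall fun t => ?_)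
  show D s (c • Function.update x e t + y) = D s (c • x + y + (t - x e) • c • Pi.single e (1 : ℝ))
  congr 1
  funext e'
  by_cases he : e' = e
  · subst he
    simp
    ring
  · simp [he, Function.update_of_ne]

/-- Moving one coordinate, `y + c • x`. -/
theorem Fam.upd_r (hD : Fam D) (s : List (Ed n)) (e : Ed n) (c : ℝ) (x y : Pt n) :
    HasDerivAt (fun t => D s (y + c • Function.update x e t)) (c * D (e :: s) (y + c • x)) (x e) := by
  have := hD.upd_l s e c x y
  simpa only [add_comm] using this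

theorem PG_sq_aff_l (hD : Fam D) (s : List (Ed n)) (c : ℝ) (y : Pt n) :
    PG (fun x : Pt n => D s (c • x + y)) := by
  obtain ⟨C, hC0, hC⟩ := hD.bound s
  refine ⟨(hD.meas s).comp ((measurable_id.const_smul c).add_const y), C * ((1 + |c|) * (1 + absS y)), 1, fun x => ?_⟩
  have h1 := hC (c • x + y)
  have h2 : absS (c • x + y) ≤ |c| * absS x + absS y := by
    have := absS_add (c • x) y
    rwa [absS_smul] at this
  have hx := absS_nonneg x
  have hy := absS_nonneg y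
  have hc := abs_nonneg c
  calc |D s (c • x + y)| ≤ C * (1 + absS (c • x + y)) := h1
    _ ≤ C * ((1 + |c|) * (1 + absS y) * (1 + absS x)) := by
        apply mul_le_mul_of_nonneg_left _ hC0
        nlinarith [mul_nonneg hc hx, mul_nonneg hc hy, mul_nonneg hx hy, mul_nonneg (mul_nonneg hc hx) hy]
    _ = _ := by
        show _ = C * ((1 + |c|) * (1 + absS y)) * (1 + absS x) ^ 1
        ring

theorem PG_sq_aff_r (hD : Fam D) (s : List (Ed n)) (c : ℝ) (y : Pt n) :
    PG (fun x : Pt n => D s (y + c • x)) := by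
  have := PG_sq_aff_l hD s c y
  simpa only [add_comm] using this

/-! ### The triple product -/

/-- Three independent Gaussians. -/
noncomputable def mu3 (n : ℕ) : Measure (Pt n × Pt n × Pt n) := (gam n).prod ((gam n).prod (gam n))

instance : IsProbabilityMeasure (mu3 n) := by
  unfold mu3; infer_instance

/-- Size function on triples. -/
noncomputable def T3 (w : Pt n × Pt n × Pt n) : ℝ := 1 + absS w.1 + absS w.2.1 + absS w.2.2

theorem T3_ge_one (w : Pt n × Pt n × Pt n) : 1 ≤ T3 w := by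
  unfold T3
  linarith [absS_nonneg w.1, absS_nonneg w.2.1, absS_nonneg w.2.2]

theorem measurable_absS : Measurable (absS (n := n)) := by
  unfold absS
  exact Finset.measurable_sum _ fun e _ => (measurable_pi_apply e).abs

theorem measurable_T3 : Measurable (T3 (n := n)) := by
  unfold T3
  exact ((measurable_const.add (measurable_absS.comp measurable_fst)).add
    (measurable_absS.comp (measurable_fst.comp measurable_snd))).add
    (measurable_absS.comp (measurable_snd.comp measurable_snd))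

theorem PG_absS_pow (N : ℕ) : PG (fun g : Pt n => (1 + absS g) ^ N) := by
  refine ⟨(measurable_const.add measurable_absS).pow_const N, 1, N, fun g => ?_⟩
  have := absS_nonneg g
  rw [abs_of_nonneg (by positivity), one_mul]
  rfl

theorem integrable_T3_pow (N : ℕ) : Integrable (fun w : Pt n × Pt n × Pt n => T3 w ^ N) (mu3 n) := by
  have h1 := (PG_absS_pow (n := n) N).integrable
  have h2 : Integrable (fun w : Pt n × Pt n × Pt n =>
      (1 + absS w.1) ^ N * ((1 + absS w.2.1) ^ N * (1 + absS w.2.2) ^ N)) (mu3 n) :=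
    h1.mul_prod (h1.mul_prod h1)
  refine h2.mono' (measurable_T3.pow_const N).aestronglyMeasurable (Eventually.of_forall fun w => ?_)
  have h3 : 0 ≤ T3 w := by linarith [T3_ge_one w]
  rw [Real.norm_eq_abs, abs_of_nonneg (pow_nonneg h3 N), ← mul_pow, ← mul_pow]
  apply pow_le_pow_left₀ h3
  have a1 := absS_nonneg w.1
  have a2 := absS_nonneg w.2.1
  have a3 := absS_nonneg w.2.2
  unfold T3
  nlinarith [mul_nonneg a1 a2, mul_nonneg a1 a3, mul_nonneg a2 a3, mul_nonneg (mul_nonneg a1 a2) a3]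

/-- Integrability on the triple product from a polynomial bound. -/
theorem int3 {f : Pt n × Pt n × Pt n → ℝ} (hm : Measurable f) (C : ℝ) (N : ℕ)
    (hb : ∀ w, |f w| ≤ C * T3 w ^ N) : Integrable f (mu3 n) :=
  ((integrable_T3_pow N).const_mul C).mono' hm.aestronglyMeasurable
    (Eventually.of_forall fun w => by simpa using hb w)

/-- The first Gaussian combination. -/
noncomputable def cA (ρ : ℝ) (w : Pt n × Pt n × Pt n) : Pt n :=
  Real.sqrt ρ • w.1 + Real.sqrt (1 - ρ) • w.2.1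

/-- The second Gaussian combination. -/
noncomputable def cB (ρ : ℝ) (w : Pt n × Pt n × Pt n) : Pt n :=
  Real.sqrt ρ • w.1 + Real.sqrt (1 - ρ) • w.2.2

theorem measurable_cA (ρ : ℝ) : Measurable (cA (n := n) ρ) := by
  unfold cA
  fun_prop

theorem measurable_cB (ρ : ℝ) : Measurable (cB (n := n) ρ) := by
  unfold cB
  fun_prop

theorem sqrt_le_one_of {ρ : ℝ} (h1 : ρ ≤ 1) : Real.sqrt ρ ≤ 1 := by
  rw [Real.sqrt_le_left (by norm_num)]
  simpa using h1

theorem absS_cA_le {ρ : ℝ} (h0 : 0 ≤ ρ) (h1 : ρ ≤ 1) (w : Pt n × Pt n × Pt n) :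
    1 + absS (cA ρ w) ≤ T3 w := by
  have h := absS_add (Real.sqrt ρ • w.1) (Real.sqrt (1 - ρ) • w.2.1)
  rw [absS_smul, absS_smul, abs_of_nonneg (Real.sqrt_nonneg _), abs_of_nonneg (Real.sqrt_nonneg _)] at h
  have a1 := absS_nonneg w.1
  have a2 := absS_nonneg w.2.1
  have a3 := absS_nonneg w.2.2
  have s1 := sqrt_le_one_of h1
  have s2 : Real.sqrt (1 - ρ) ≤ 1 := sqrt_le_one_of (by linarith)
  have s3 := Real.sqrt_nonneg ρ
  have s4 := Real.sqrt_nonneg (1 - ρ)
  unfold T3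
  unfold cA
  nlinarith

theorem absS_cB_le {ρ : ℝ} (h0 : 0 ≤ ρ) (h1 : ρ ≤ 1) (w : Pt n × Pt n × Pt n) :
    1 + absS (cB ρ w) ≤ T3 w := by
  have h := absS_add (Real.sqrt ρ • w.1) (Real.sqrt (1 - ρ) • w.2.2)
  rw [absS_smul, absS_smul, abs_of_nonneg (Real.sqrt_nonneg _), abs_of_nonneg (Real.sqrt_nonneg _)] at h
  have a1 := absS_nonneg w.1
  have a2 := absS_nonneg w.2.1
  have a3 := absS_nonneg w.2.2
  have s1 := sqrt_le_one_of h1
  have s2 : Real.sqrt (1 - ρ) ≤ 1 := sqrt_le_one_of (by linarith)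
  have s3 := Real.sqrt_nonneg ρ
  have s4 := Real.sqrt_nonneg (1 - ρ)
  unfold T3
  unfold cB
  nlinarith

/-- Bound along the combinations. -/
theorem Fam.bound_cA (hD : Fam D) (t : List (Ed n)) : ∃ C : ℝ, 0 ≤ C ∧ ∀ ρ, 0 ≤ ρ → ρ ≤ 1 → ∀ w,
    |D t (cA ρ w)| ≤ C * T3 w ∧ |D t (cB ρ w)| ≤ C * T3 w := by
  obtain ⟨C, hC0, hC⟩ := hD.bound t
  refine ⟨C, hC0, fun ρ h0 h1 w => ⟨(hC _).trans ?_, (hC _).trans ?_⟩⟩
  · exact mul_le_mul_of_nonneg_left (absS_cA_le h0 h1 w) hC0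
  · exact mul_le_mul_of_nonneg_left (absS_cB_le h0 h1 w) hC0

/-- The correlation functional. -/
noncomputable def psi (H : Pt n → ℝ) (ρ : ℝ) : ℝ := ∫ w, H (cA ρ w) * H (cB ρ w) ∂mu3 n

/-- Products of two family members along the combinations are integrable. -/
theorem Fam.int_mul (hD : Fam D) (t t' : List (Ed n)) {ρ : ℝ} (h0 : 0 ≤ ρ) (h1 : ρ ≤ 1) :
    Integrable (fun w => D t (cA ρ w) * D t' (cB ρ w)) (mu3 n) := by
  obtain ⟨C, hC0, hC⟩ := hD.bound_cA t
  obtain ⟨C', hC0', hC'⟩ := hD.bound_cA t'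
  refine int3 (((hD.meas t).comp (measurable_cA ρ)).mul ((hD.meas t').comp (measurable_cB ρ))) (C * C') 2 ?_
  intro w
  rw [abs_mul]
  have h2 := (hC ρ h0 h1 w).1
  have h3 := (hC' ρ h0 h1 w).2
  calc |D t (cA ρ w)| * |D t' (cB ρ w)| ≤ (C * T3 w) * (C' * T3 w) := by
        apply mul_le_mul h2 h3 (abs_nonneg _)
        have := T3_ge_one w
        positivity
    _ = C * C' * T3 w ^ 2 := by ring

/-- A coordinate times a product of two family members. -/
theorem Fam.int_coord_mul (hD : Fam D) (t t' : List (Ed n)) {ρ : ℝ} (h0 : 0 ≤ ρ) (h1 : ρ ≤ 1)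
    (x : Pt n × Pt n × Pt n → ℝ) (hx : Measurable x) (hxb : ∀ w, |x w| ≤ T3 w) :
    Integrable (fun w => x w * (D t (cA ρ w) * D t' (cB ρ w))) (mu3 n) := by
  obtain ⟨C, hC0, hC⟩ := hD.bound_cA t
  obtain ⟨C', hC0', hC'⟩ := hD.bound_cA t'
  refine int3 (hx.mul (((hD.meas t).comp (measurable_cA ρ)).mul ((hD.meas t').comp (measurable_cB ρ))))
    (C * C') 3 ?_
  intro w
  rw [abs_mul, abs_mul]
  have h2 := (hC ρ h0 h1 w).1
  have h3 := (hC' ρ h0 h1 w).2
  have hT := T3_ge_one w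
  calc |x w| * (|D t (cA ρ w)| * |D t' (cB ρ w)|) ≤ T3 w * ((C * T3 w) * (C' * T3 w)) := by
        apply mul_le_mul (hxb w) _ (by positivity) (by positivity)
        apply mul_le_mul h2 h3 (abs_nonneg _)
        positivity
    _ = C * C' * T3 w ^ 3 := by ring

theorem abs_coord_le_absS (g : Pt n) (e : Ed n) : |g e| ≤ absS g :=
  Finset.single_le_sum (f := fun e => |g e|) (fun _ _ => abs_nonneg _) (Finset.mem_univ e)

theorem coord1_le (e : Ed n) (w : Pt n × Pt n × Pt n) : |w.1 e| ≤ T3 w := by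
  have := abs_coord_le_absS w.1 e
  unfold T3
  linarith [absS_nonneg w.2.1, absS_nonneg w.2.2]

theorem coord2_le (e : Ed n) (w : Pt n × Pt n × Pt n) : |w.2.1 e| ≤ T3 w := by
  have := abs_coord_le_absS w.2.1 e
  unfold T3
  linarith [absS_nonneg w.1, absS_nonneg w.2.2]

theorem coord3_le (e : Ed n) (w : Pt n × Pt n × Pt n) : |w.2.2 e| ≤ T3 w := by
  have := abs_coord_le_absS w.2.2 e
  unfold T3
  linarith [absS_nonneg w.1, absS_nonneg w.2.1]

theorem meas_coord1 (e : Ed n) : Measurable (fun w : Pt n × Pt n × Pt n => w.1 e) :=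
  (measurable_pi_apply e).comp measurable_fst

theorem meas_coord2 (e : Ed n) : Measurable (fun w : Pt n × Pt n × Pt n => w.2.1 e) :=
  (measurable_pi_apply e).comp (measurable_fst.comp measurable_snd)

theorem meas_coord3 (e : Ed n) : Measurable (fun w : Pt n × Pt n × Pt n => w.2.2 e) :=
  (measurable_pi_apply e).comp (measurable_snd.comp measurable_snd)


theorem slot_z {f f' : Pt n × Pt n × Pt n → ℝ} (hf : Integrable f (mu3 n)) (hf' : Integrable f' (mu3 n))
    (h : ∀ p : Pt n × Pt n, ∫ z, f (z, p) ∂gam n = ∫ z, f' (z, p) ∂gam n) :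
    ∫ w, f w ∂mu3 n = ∫ w, f' w ∂mu3 n := by
  unfold mu3 at *
  rw [integral_prod_symm f hf, integral_prod_symm f' hf']
  exact integral_congr_ae (Eventually.of_forall h)

theorem slot_u {f f' : Pt n × Pt n × Pt n → ℝ} (hf : Integrable f (mu3 n)) (hf' : Integrable f' (mu3 n))
    (h : ∀ z v, ∫ u, f (z, u, v) ∂gam n = ∫ u, f' (z, u, v) ∂gam n) :
    ∫ w, f w ∂mu3 n = ∫ w, f' w ∂mu3 n := by
  unfold mu3 at *
  rw [integral_prod f hf, integral_prod f' hf']
  refine integral_congr_ae ?_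
  filter_upwards [hf.prod_right_ae, hf'.prod_right_ae] with z h1 h2
  rw [integral_prod_symm _ h1, integral_prod_symm _ h2]
  exact integral_congr_ae (Eventually.of_forall fun v => h z v)

theorem slot_v {f f' : Pt n × Pt n × Pt n → ℝ} (hf : Integrable f (mu3 n)) (hf' : Integrable f' (mu3 n))
    (h : ∀ z u, ∫ v, f (z, u, v) ∂gam n = ∫ v, f' (z, u, v) ∂gam n) :
    ∫ w, f w ∂mu3 n = ∫ w, f' w ∂mu3 n := by
  unfold mu3 at *
  rw [integral_prod f hf, integral_prod f' hf']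
  refine integral_congr_ae ?_
  filter_upwards [hf.prod_right_ae, hf'.prod_right_ae] with z h1 h2
  rw [integral_prod _ h1, integral_prod _ h2]
  exact integral_congr_ae (Eventually.of_forall fun u => h z u)

theorem ibp_z (hD : Fam D) (p q : List (Ed n)) (e : Ed n) {ρ : ℝ} (h0 : 0 ≤ ρ) (h1 : ρ ≤ 1) :
    ∫ w, w.1 e * (D p (cA ρ w) * D q (cB ρ w)) ∂mu3 n =
      Real.sqrt ρ * (∫ w, D (e :: p) (cA ρ w) * D q (cB ρ w) ∂mu3 n +
        ∫ w, D p (cA ρ w) * D (e :: q) (cB ρ w) ∂mu3 n) := by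
  have i1 := hD.int_mul (e :: p) q h0 h1
  have i2 := hD.int_mul p (e :: q) h0 h1
  rw [← integral_add i1 i2, ← integral_const_mul]
  refine slot_z (hD.int_coord_mul p q h0 h1 _ (meas_coord1 e) (coord1_le e)) ((i1.add i2).const_mul _) ?_
  rintro ⟨u, v⟩
  simp only [cA, cB]
  refine gauss_ibp e (G := fun z => D p (Real.sqrt ρ • z + Real.sqrt (1 - ρ) • u) *
      D q (Real.sqrt ρ • z + Real.sqrt (1 - ρ) • v))
    (G' := fun z => Real.sqrt ρ * (D (e :: p) (Real.sqrt ρ • z + Real.sqrt (1 - ρ) • u) *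
      D q (Real.sqrt ρ • z + Real.sqrt (1 - ρ) • v) +
      D p (Real.sqrt ρ • z + Real.sqrt (1 - ρ) • u) *
      D (e :: q) (Real.sqrt ρ • z + Real.sqrt (1 - ρ) • v))) ?_ ?_ ?_
  · intro g
    refine ((hD.upd_l p e _ g _).mul (hD.upd_l q e _ g _)).congr_deriv ?_
    simp only [Function.update_eq_self]; ring
  · exact (PG_sq_aff_l hD p _ _).mul (PG_sq_aff_l hD q _ _)
  · exact (PG.const _).mul (((PG_sq_aff_l hD _ _ _).mul (PG_sq_aff_l hD _ _ _)).add
      ((PG_sq_aff_l hD _ _ _).mul (PG_sq_aff_l hD _ _ _)))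

theorem ibp_u (hD : Fam D) (p q : List (Ed n)) (e : Ed n) {ρ : ℝ} (h0 : 0 ≤ ρ) (h1 : ρ ≤ 1) :
    ∫ w, w.2.1 e * (D p (cA ρ w) * D q (cB ρ w)) ∂mu3 n =
      Real.sqrt (1 - ρ) * ∫ w, D (e :: p) (cA ρ w) * D q (cB ρ w) ∂mu3 n := by
  have i1 := hD.int_mul (e :: p) q h0 h1
  rw [← integral_const_mul]
  refine slot_u (hD.int_coord_mul p q h0 h1 _ (meas_coord2 e) (coord2_le e)) (i1.const_mul _) ?_
  rintro z v
  simp only [cA, cB]
  refine gauss_ibp e (G := fun u => D p (Real.sqrt ρ • z + Real.sqrt (1 - ρ) • u) *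
      D q (Real.sqrt ρ • z + Real.sqrt (1 - ρ) • v))
    (G' := fun u => Real.sqrt (1 - ρ) * (D (e :: p) (Real.sqrt ρ • z + Real.sqrt (1 - ρ) • u) *
      D q (Real.sqrt ρ • z + Real.sqrt (1 - ρ) • v))) ?_ ?_ ?_
  · intro g
    refine ((hD.upd_r p e _ g _).mul_const _).congr_deriv ?_
    try simp only [Function.update_eq_self]
    ring
  · exact (PG_sq_aff_r hD p _ _).mul (PG.const _)
  · exact (PG.const _).mul ((PG_sq_aff_r hD _ _ _).mul (PG.const _))

theorem ibp_v (hD : Fam D) (p q : List (Ed n)) (e : Ed n) {ρ : ℝ} (h0 : 0 ≤ ρ) (h1 : ρ ≤ 1) :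
    ∫ w, w.2.2 e * (D p (cA ρ w) * D q (cB ρ w)) ∂mu3 n =
      Real.sqrt (1 - ρ) * ∫ w, D p (cA ρ w) * D (e :: q) (cB ρ w) ∂mu3 n := by
  have i1 := hD.int_mul p (e :: q) h0 h1
  rw [← integral_const_mul]
  refine slot_v (hD.int_coord_mul p q h0 h1 _ (meas_coord3 e) (coord3_le e)) (i1.const_mul _) ?_
  rintro z u
  simp only [cA, cB]
  refine gauss_ibp e (G := fun v => D p (Real.sqrt ρ • z + Real.sqrt (1 - ρ) • u) *
      D q (Real.sqrt ρ • z + Real.sqrt (1 - ρ) • v))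
    (G' := fun v => Real.sqrt (1 - ρ) * (D p (Real.sqrt ρ • z + Real.sqrt (1 - ρ) • u) *
      D (e :: q) (Real.sqrt ρ • z + Real.sqrt (1 - ρ) • v))) ?_ ?_ ?_
  · intro g
    refine ((hD.upd_r q e _ g _).const_mul _).congr_deriv ?_
    try simp only [Function.update_eq_self]
    ring
  · exact (PG.const _).mul (PG_sq_aff_r hD q _ _)
  · exact (PG.const _).mul ((PG.const _).mul (PG_sq_aff_r hD _ _ _))


/-! ### The curve -/

noncomputable def rp (ρ : ℝ) : ℝ := 1 / (2 * Real.sqrt ρ)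
noncomputable def sp (ρ : ℝ) : ℝ := -(1 / (2 * Real.sqrt (1 - ρ)))

theorem rp_mul {ρ : ℝ} (h0 : 0 < ρ) : rp ρ * Real.sqrt ρ = 1 / 2 := by
  have h := Real.sqrt_pos.mpr h0
  unfold rp
  field_simp

theorem sp_mul {ρ : ℝ} (h1 : ρ < 1) : sp ρ * Real.sqrt (1 - ρ) = - (1 / 2) := by
  have h := Real.sqrt_pos.mpr (by linarith : 0 < 1 - ρ)
  unfold sp
  field_simp

noncomputable def dA (ρ : ℝ) (w : Pt n × Pt n × Pt n) : Pt n := rp ρ • w.1 + sp ρ • w.2.1
noncomputable def dB (ρ : ℝ) (w : Pt n × Pt n × Pt n) : Pt n := rp ρ • w.1 + sp ρ • w.2.2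

theorem has_rp {ρ : ℝ} (h0 : 0 < ρ) : HasDerivAt Real.sqrt (rp ρ) ρ := Real.hasDerivAt_sqrt h0.ne'

theorem has_sp {ρ : ℝ} (h1 : ρ < 1) : HasDerivAt (fun x => Real.sqrt (1 - x)) (sp ρ) ρ := by
  have h := (Real.hasDerivAt_sqrt (by linarith : (1 - ρ) ≠ 0)).comp ρ ((hasDerivAt_id ρ).const_sub 1)
  refine h.congr_deriv ?_
  simp [sp]

theorem curve_A {ρ : ℝ} (h0 : 0 < ρ) (h1 : ρ < 1) (w : Pt n × Pt n × Pt n) :
    HasDerivAt (fun x => cA x w) (dA ρ w) ρ :=
  ((has_rp h0).smul_const w.1).add ((has_sp h1).smul_const w.2.1)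

theorem curve_B {ρ : ℝ} (h0 : 0 < ρ) (h1 : ρ < 1) (w : Pt n × Pt n × Pt n) :
    HasDerivAt (fun x => cB x w) (dB ρ w) ρ :=
  ((has_rp h0).smul_const w.1).add ((has_sp h1).smul_const w.2.2)

theorem Fam.curve_A (hD : Fam D) (t : List (Ed n)) {ρ : ℝ} (h0 : 0 < ρ) (h1 : ρ < 1)
    (w : Pt n × Pt n × Pt n) :
    HasDerivAt (fun x => D t (cA x w)) (∑ e, dA ρ w e * D (e :: t) (cA ρ w)) ρ := by
  have h := (hD.fderiv t (cA ρ w)).comp_hasDerivAt ρ (Vale.Agent.Lib.P146.curve_A h0 h1 w)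
  refine h.congr_deriv ?_
  simp [mul_comm]

theorem Fam.curve_B (hD : Fam D) (t : List (Ed n)) {ρ : ℝ} (h0 : 0 < ρ) (h1 : ρ < 1)
    (w : Pt n × Pt n × Pt n) :
    HasDerivAt (fun x => D t (cB x w)) (∑ e, dB ρ w e * D (e :: t) (cB ρ w)) ρ := by
  have h := (hD.fderiv t (cB ρ w)).comp_hasDerivAt ρ (Vale.Agent.Lib.P146.curve_B h0 h1 w)
  refine h.congr_deriv ?_
  simp [mul_comm]

/-- Size of the curve velocities. -/
theorem abs_rp_le {δ ρ : ℝ} (hδ : 0 < δ) (h : δ ≤ ρ) : |rp ρ| ≤ 1 / Real.sqrt δ := by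
  have h1 := Real.sqrt_pos.mpr hδ
  have h2 : Real.sqrt δ ≤ Real.sqrt ρ := Real.sqrt_le_sqrt h
  have h3 : 0 < Real.sqrt ρ := by linarith
  unfold rp
  rw [abs_of_pos (by positivity)]
  apply one_div_le_one_div_of_le h1
  linarith

theorem abs_sp_le {δ ρ : ℝ} (hδ : 0 < δ) (h : δ ≤ 1 - ρ) : |sp ρ| ≤ 1 / Real.sqrt δ := by
  have h1 := Real.sqrt_pos.mpr hδ
  have h2 : Real.sqrt δ ≤ Real.sqrt (1 - ρ) := Real.sqrt_le_sqrt h
  have h3 : 0 < Real.sqrt (1 - ρ) := by linarith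
  unfold sp
  rw [abs_neg, abs_of_pos (by positivity)]
  apply one_div_le_one_div_of_le h1
  linarith

theorem abs_dA_le {δ ρ : ℝ} (hδ : 0 < δ) (h : δ ≤ ρ) (h' : δ ≤ 1 - ρ) (w : Pt n × Pt n × Pt n) (e : Ed n) :
    |dA ρ w e| ≤ 2 / Real.sqrt δ * T3 w := by
  have a1 := abs_rp_le hδ h
  have a2 := abs_sp_le hδ h'
  have c1 := coord1_le e w
  have c2 := coord2_le e w
  have hT := T3_ge_one w
  have s1 : 0 ≤ 1 / Real.sqrt δ := by positivity
  simp only [dA, Pi.add_apply, Pi.smul_apply, smul_eq_mul]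
  calc |rp ρ * w.1 e + sp ρ * w.2.1 e| ≤ |rp ρ| * |w.1 e| + |sp ρ| * |w.2.1 e| := by
        rw [← abs_mul, ← abs_mul]; exact abs_add_le _ _
    _ ≤ (1 / Real.sqrt δ) * T3 w + (1 / Real.sqrt δ) * T3 w := by
        apply add_le_add
        · exact mul_le_mul a1 c1 (abs_nonneg _) s1
        · exact mul_le_mul a2 c2 (abs_nonneg _) s1
    _ = _ := by ring

theorem abs_dB_le {δ ρ : ℝ} (hδ : 0 < δ) (h : δ ≤ ρ) (h' : δ ≤ 1 - ρ) (w : Pt n × Pt n × Pt n) (e : Ed n) :
    |dB ρ w e| ≤ 2 / Real.sqrt δ * T3 w := by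
  have a1 := abs_rp_le hδ h
  have a2 := abs_sp_le hδ h'
  have c1 := coord1_le e w
  have c2 := coord3_le e w
  have hT := T3_ge_one w
  have s1 : 0 ≤ 1 / Real.sqrt δ := by positivity
  simp only [dB, Pi.add_apply, Pi.smul_apply, smul_eq_mul]
  calc |rp ρ * w.1 e + sp ρ * w.2.2 e| ≤ |rp ρ| * |w.1 e| + |sp ρ| * |w.2.2 e| := by
        rw [← abs_mul, ← abs_mul]; exact abs_add_le _ _
    _ ≤ (1 / Real.sqrt δ) * T3 w + (1 / Real.sqrt δ) * T3 w := by
        apply add_le_add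
        · exact mul_le_mul a1 c1 (abs_nonneg _) s1
        · exact mul_le_mul a2 c2 (abs_nonneg _) s1
    _ = _ := by ring

/-- A single constant for the whole first level above `t`. -/
theorem Fam.bound_level (hD : Fam D) (t : List (Ed n)) : ∃ C : ℝ, 0 ≤ C ∧ ∀ e, ∀ ρ, 0 ≤ ρ → ρ ≤ 1 → ∀ w,
    |D (e :: t) (cA ρ w)| ≤ C * T3 w ∧ |D (e :: t) (cB ρ w)| ≤ C * T3 w := by
  choose C hC0 hC using fun e => hD.bound_cA (e :: t)
  refine ⟨∑ e, C e, Finset.sum_nonneg fun e _ => hC0 e, fun e ρ h0 h1 w => ?_⟩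
  have hle : C e ≤ ∑ e, C e := Finset.single_le_sum (f := C) (fun e _ => hC0 e) (Finset.mem_univ e)
  have hT := T3_ge_one w
  have hT0 : 0 ≤ T3 w := by linarith
  obtain ⟨a, b⟩ := hC e ρ h0 h1 w
  exact ⟨a.trans (mul_le_mul_of_nonneg_right hle hT0), b.trans (mul_le_mul_of_nonneg_right hle hT0)⟩


theorem psi_hasDeriv (hD : Fam D) (t : List (Ed n)) {ρ₀ : ℝ} (h0 : 0 < ρ₀) (h1 : ρ₀ < 1) :
    HasDerivAt (psi (D t)) (∑ e, psi (D (e :: t)) ρ₀) ρ₀ := by
  classical
  set δ := min ρ₀ (1 - ρ₀) / 2 with hδ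
  have hm : 0 < min ρ₀ (1 - ρ₀) := lt_min h0 (by linarith)
  have hδ0 : 0 < δ := by positivity
  have hδ1 : δ ≤ ρ₀ / 2 := by
    have := min_le_left ρ₀ (1 - ρ₀)
    rw [hδ]; linarith
  have hδ2 : δ ≤ (1 - ρ₀) / 2 := by
    have := min_le_right ρ₀ (1 - ρ₀)
    rw [hδ]; linarith
  have hball : ∀ ρ ∈ Metric.ball ρ₀ δ, δ ≤ ρ ∧ δ ≤ 1 - ρ ∧ 0 < ρ ∧ ρ < 1 := by
    intro ρ hρ
    rw [Metric.mem_ball, Real.dist_eq, abs_lt] at hρ
    refine ⟨by linarith [hρ.1], by linarith [hρ.2], by linarith [hρ.1], by linarith [hρ.2]⟩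
  obtain ⟨C0, hC00, hC0⟩ := hD.bound_cA t
  obtain ⟨C1, hC10, hC1⟩ := hD.bound_level t
  set N : ℝ := (Fintype.card (Ed n) : ℝ) with hN
  have hN0 : 0 ≤ N := by positivity
  set M : ℝ := 2 / Real.sqrt δ with hM
  have hM0 : 0 ≤ M := by positivity
  let F' : ℝ → Pt n × Pt n × Pt n → ℝ := fun ρ w =>
    (∑ e, dA ρ w e * D (e :: t) (cA ρ w)) * D t (cB ρ w) +
      D t (cA ρ w) * (∑ e, dB ρ w e * D (e :: t) (cB ρ w))
  have hsumA : ∀ ρ ∈ Metric.ball ρ₀ δ, ∀ w, |∑ e, dA ρ w e * D (e :: t) (cA ρ w)| ≤ N * (M * C1) * T3 w ^ 2 := by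
    intro ρ hρ w
    obtain ⟨h2, h3, h4, h5⟩ := hball ρ hρ
    have hT := T3_ge_one w
    calc |∑ e, dA ρ w e * D (e :: t) (cA ρ w)| ≤ ∑ e, |dA ρ w e * D (e :: t) (cA ρ w)| :=
          Finset.abs_sum_le_sum_abs _ _
      _ ≤ ∑ _e : Ed n, (M * T3 w) * (C1 * T3 w) := by
          apply Finset.sum_le_sum
          intro e _
          rw [abs_mul]
          exact mul_le_mul (abs_dA_le hδ0 h2 h3 w e) (hC1 e ρ h4.le h5.le w).1 (abs_nonneg _) (by positivity)
      _ = N * (M * C1) * T3 w ^ 2 := by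
          simp only [Finset.sum_const, Finset.card_univ, nsmul_eq_mul, hN]
          ring
  have hsumB : ∀ ρ ∈ Metric.ball ρ₀ δ, ∀ w, |∑ e, dB ρ w e * D (e :: t) (cB ρ w)| ≤ N * (M * C1) * T3 w ^ 2 := by
    intro ρ hρ w
    obtain ⟨h2, h3, h4, h5⟩ := hball ρ hρ
    have hT := T3_ge_one w
    calc |∑ e, dB ρ w e * D (e :: t) (cB ρ w)| ≤ ∑ e, |dB ρ w e * D (e :: t) (cB ρ w)| :=
          Finset.abs_sum_le_sum_abs _ _
      _ ≤ ∑ _e : Ed n, (M * T3 w) * (C1 * T3 w) := by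
          apply Finset.sum_le_sum
          intro e _
          rw [abs_mul]
          exact mul_le_mul (abs_dB_le hδ0 h2 h3 w e) (hC1 e ρ h4.le h5.le w).2 (abs_nonneg _) (by positivity)
      _ = N * (M * C1) * T3 w ^ 2 := by
          simp only [Finset.sum_const, Finset.card_univ, nsmul_eq_mul, hN]
          ring
  have hF'm : Measurable (F' ρ₀) := by
    have ma : ∀ e, Measurable (fun w : Pt n × Pt n × Pt n => dA ρ₀ w e) := fun e => by
      simp only [dA, Pi.add_apply, Pi.smul_apply, smul_eq_mul]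
      exact ((meas_coord1 e).const_mul _).add ((meas_coord2 e).const_mul _)
    have mb : ∀ e, Measurable (fun w : Pt n × Pt n × Pt n => dB ρ₀ w e) := fun e => by
      simp only [dB, Pi.add_apply, Pi.smul_apply, smul_eq_mul]
      exact ((meas_coord1 e).const_mul _).add ((meas_coord3 e).const_mul _)
    refine Measurable.add (Measurable.mul (Finset.measurable_sum _ fun e _ => (ma e).mul ?_) ?_)
      (Measurable.mul ?_ (Finset.measurable_sum _ fun e _ => (mb e).mul ?_))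
    · exact (hD.meas _).comp (measurable_cA _)
    · exact (hD.meas _).comp (measurable_cB _)
    · exact (hD.meas _).comp (measurable_cA _)
    · exact (hD.meas _).comp (measurable_cB _)
  have key := hasDerivAt_integral_of_dominated_loc_of_deriv_le (μ := mu3 n)
    (F := fun ρ w => D t (cA ρ w) * D t (cB ρ w)) (F' := F') (x₀ := ρ₀)
    (s := Metric.ball ρ₀ δ) (bound := fun w => (2 * (N * (M * C1) * C0)) * T3 w ^ 3)
    (Metric.ball_mem_nhds _ hδ0)
    (Eventually.of_forall fun ρ =>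
      (((hD.meas t).comp (measurable_cA ρ)).mul ((hD.meas t).comp (measurable_cB ρ))).aestronglyMeasurable)
    (hD.int_mul t t h0.le h1.le) hF'm.aestronglyMeasurable
    (Eventually.of_forall fun w ρ hρ => by
      obtain ⟨h2, h3, h4, h5⟩ := hball ρ hρ
      have hT := T3_ge_one w
      have a1 := hsumA ρ hρ w
      have a2 := hsumB ρ hρ w
      have a3 := hC0 ρ h4.le h5.le w
      have hpos : 0 ≤ N * (M * C1) * T3 w ^ 2 := by positivity
      rw [Real.norm_eq_abs]
      calc |F' ρ w| ≤ |(∑ e, dA ρ w e * D (e :: t) (cA ρ w)) * D t (cB ρ w)| +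
            |D t (cA ρ w) * (∑ e, dB ρ w e * D (e :: t) (cB ρ w))| := abs_add_le _ _
        _ ≤ (N * (M * C1) * T3 w ^ 2) * (C0 * T3 w) + (C0 * T3 w) * (N * (M * C1) * T3 w ^ 2) := by
            rw [abs_mul, abs_mul]
            apply add_le_add
            · exact mul_le_mul a1 a3.2 (abs_nonneg _) hpos
            · exact mul_le_mul a3.1 a2 (abs_nonneg _) (by positivity)
        _ = _ := by ring)
    ((integrable_T3_pow 3).const_mul _)
    (Eventually.of_forall fun w ρ hρ => by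
      obtain ⟨h2, h3, h4, h5⟩ := hball ρ hρ
      exact (hD.curve_A t h4 h5 w).mul (hD.curve_B t h4 h5 w))
  have hval : ∫ w, F' ρ₀ w ∂mu3 n = ∑ e, psi (D (e :: t)) ρ₀ := by
    have hform : ∀ w, F' ρ₀ w = ∑ e,
        (rp ρ₀ * (w.1 e * (D (e :: t) (cA ρ₀ w) * D t (cB ρ₀ w))) +
         sp ρ₀ * (w.2.1 e * (D (e :: t) (cA ρ₀ w) * D t (cB ρ₀ w))) +
         rp ρ₀ * (w.1 e * (D t (cA ρ₀ w) * D (e :: t) (cB ρ₀ w))) +
         sp ρ₀ * (w.2.2 e * (D t (cA ρ₀ w) * D (e :: t) (cB ρ₀ w)))) := by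
      intro w
      simp only [F']
      rw [Finset.sum_mul, Finset.mul_sum, ← Finset.sum_add_distrib]
      refine Finset.sum_congr rfl fun e _ => ?_
      simp only [dA, dB, Pi.add_apply, Pi.smul_apply, smul_eq_mul]
      ring
    simp only [hform]
    have ia := fun e => hD.int_coord_mul (e :: t) t h0.le h1.le _ (meas_coord1 e) (coord1_le e)
    have ib := fun e => hD.int_coord_mul (e :: t) t h0.le h1.le _ (meas_coord2 e) (coord2_le e)
    have ic := fun e => hD.int_coord_mul t (e :: t) h0.le h1.le _ (meas_coord1 e) (coord1_le e)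
    have id := fun e => hD.int_coord_mul t (e :: t) h0.le h1.le _ (meas_coord3 e) (coord3_le e)
    rw [integral_finsetSum _ (fun e _ =>
      ((((ia e).const_mul _).fun_add ((ib e).const_mul _)).fun_add ((ic e).const_mul _)).fun_add ((id e).const_mul _))]
    refine Finset.sum_congr rfl fun e _ => ?_
    rw [integral_add (((((ia e).const_mul _).fun_add ((ib e).const_mul _))).fun_add ((ic e).const_mul _)) ((id e).const_mul _),
      integral_add (((ia e).const_mul _).fun_add ((ib e).const_mul _)) ((ic e).const_mul _),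
      integral_add ((ia e).const_mul _) ((ib e).const_mul _),
      integral_const_mul, integral_const_mul, integral_const_mul, integral_const_mul,
      ibp_z hD (e :: t) t e h0.le h1.le, ibp_u hD (e :: t) t e h0.le h1.le,
      ibp_z hD t (e :: t) e h0.le h1.le, ibp_v hD t (e :: t) e h0.le h1.le]
    have r1 := rp_mul h0
    have s1 := sp_mul h1
    unfold psi
    generalize (∫ w, D (e :: e :: t) (cA ρ₀ w) * D t (cB ρ₀ w) ∂mu3 n) = K1
    generalize (∫ w, D t (cA ρ₀ w) * D (e :: e :: t) (cB ρ₀ w) ∂mu3 n) = K2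
    generalize (∫ w, D (e :: t) (cA ρ₀ w) * D (e :: t) (cB ρ₀ w) ∂mu3 n) = J
    calc rp ρ₀ * (Real.sqrt ρ₀ * (K1 + J)) + sp ρ₀ * (Real.sqrt (1 - ρ₀) * K1) +
        rp ρ₀ * (Real.sqrt ρ₀ * (J + K2)) + sp ρ₀ * (Real.sqrt (1 - ρ₀) * K2)
        = (rp ρ₀ * Real.sqrt ρ₀) * (K1 + J) + (sp ρ₀ * Real.sqrt (1 - ρ₀)) * K1 +
          (rp ρ₀ * Real.sqrt ρ₀) * (J + K2) + (sp ρ₀ * Real.sqrt (1 - ρ₀)) * K2 := by ring
      _ = J := by rw [r1, s1]; ring
  rw [← hval]
  exact key.2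

theorem continuous_cA (w : Pt n × Pt n × Pt n) : Continuous (fun ρ : ℝ => cA ρ w) := by
  unfold cA
  exact (Real.continuous_sqrt.smul continuous_const).add
    ((Real.continuous_sqrt.comp (continuous_const.sub continuous_id)).smul continuous_const)

theorem continuous_cB (w : Pt n × Pt n × Pt n) : Continuous (fun ρ : ℝ => cB ρ w) := by
  unfold cB
  exact (Real.continuous_sqrt.smul continuous_const).add
    ((Real.continuous_sqrt.comp (continuous_const.sub continuous_id)).smul continuous_const)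

theorem psi_cont (hD : Fam D) (t : List (Ed n)) : ContinuousOn (psi (D t)) (Set.Icc 0 1) := by
  obtain ⟨C, hC0, hC⟩ := hD.bound_cA t
  show ContinuousOn (fun ρ => ∫ w, D t (cA ρ w) * D t (cB ρ w) ∂mu3 n) _
  refine continuousOn_of_dominated (bound := fun w => C * C * T3 w ^ 2)
    (fun ρ _ => (((hD.meas t).comp (measurable_cA ρ)).mul ((hD.meas t).comp (measurable_cB ρ))).aestronglyMeasurable)
    (fun ρ hρ => Eventually.of_forall fun w => ?_) ((integrable_T3_pow 2).const_mul _)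
    (Eventually.of_forall fun w => Continuous.continuousOn ?_)
  · obtain ⟨a, b⟩ := hC ρ hρ.1 hρ.2 w
    have hT := T3_ge_one w
    rw [Real.norm_eq_abs, abs_mul]
    calc |D t (cA ρ w)| * |D t (cB ρ w)| ≤ (C * T3 w) * (C * T3 w) :=
          mul_le_mul a b (abs_nonneg _) (by positivity)
      _ = _ := by ring
  · exact ((hD.cont t).comp (continuous_cA w)).mul ((hD.cont t).comp (continuous_cB w))

theorem psi_zero (H : Pt n → ℝ) : psi H 0 = (∫ g, H g ∂gam n) ^ 2 := by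
  have e1 : ∀ w : Pt n × Pt n × Pt n, cA 0 w = w.2.1 := by
    intro w
    simp [cA]
  have e2 : ∀ w : Pt n × Pt n × Pt n, cB 0 w = w.2.2 := by
    intro w
    simp [cB]
  unfold psi mu3
  simp only [e1, e2]
  rw [integral_fun_snd (f := fun p : Pt n × Pt n => H p.1 * H p.2), integral_prod_mul]
  simp [pow_two]

theorem psi_one (H : Pt n → ℝ) : psi H 1 = ∫ g, H g ^ 2 ∂gam n := by
  have e1 : ∀ w : Pt n × Pt n × Pt n, cA 1 w = w.1 := by
    intro w
    simp [cA]
  have e2 : ∀ w : Pt n × Pt n × Pt n, cB 1 w = w.1 := by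
    intro w
    simp [cB]
  unfold psi mu3
  simp only [e1, e2]
  rw [integral_fun_fst (f := fun z : Pt n => H z * H z)]
  simp [pow_two]

theorem psi_nonneg (hD : Fam D) (t : List (Ed n)) {ρ : ℝ} (h0 : 0 ≤ ρ) (h1 : ρ ≤ 1) : 0 ≤ psi (D t) ρ := by
  have hi := hD.int_mul t t h0 h1
  unfold psi
  unfold mu3 at *
  rw [integral_prod _ hi]
  refine integral_nonneg fun z => ?_
  simp only [cA, cB]
  have := integral_prod_mul (μ := gam n) (ν := gam n)
    (fun u => D t (Real.sqrt ρ • z + Real.sqrt (1 - ρ) • u))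
    (fun u => D t (Real.sqrt ρ • z + Real.sqrt (1 - ρ) • u))
  rw [this]
  exact mul_self_nonneg _

/-! ### Assembly -/

noncomputable def hh (D : List (Ed n) → Pt n → ℝ) (j : ℕ) (ρ : ℝ) : ℝ :=
  ∑ t : Fin j → Ed n, psi (D (List.ofFn t)) ρ

theorem sum_ofFn_succ (j : ℕ) (g : List (Ed n) → ℝ) :
    ∑ t : Fin (j + 1) → Ed n, g (List.ofFn t) = ∑ e, ∑ t : Fin j → Ed n, g (e :: List.ofFn t) := by
  rw [← Fintype.sum_prod_type' (f := fun e (t : Fin j → Ed n) => g (e :: List.ofFn t))]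
  refine (Fintype.sum_equiv (Fin.consEquiv (fun _ => Ed n)) _ _ ?_).symm
  rintro ⟨e, t⟩
  simp [List.ofFn_succ, Fin.consEquiv]

theorem hh_deriv (hD : Fam D) (j : ℕ) {ρ : ℝ} (h0 : 0 < ρ) (h1 : ρ < 1) :
    HasDerivAt (hh D j) (hh D (j + 1) ρ) ρ := by
  have h := HasDerivAt.fun_sum (u := Finset.univ) (A := fun (t : Fin j → Ed n) => psi (D (List.ofFn t)))
    (A' := fun t => ∑ e, psi (D (e :: List.ofFn t)) ρ) (x := ρ)
    (fun t _ => psi_hasDeriv hD (List.ofFn t) h0 h1)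
  refine h.congr_deriv ?_
  unfold hh
  rw [sum_ofFn_succ j (fun l => psi (D l) ρ)]
  exact Finset.sum_comm

theorem hh_cont (hD : Fam D) (j : ℕ) : ContinuousOn (hh D j) (Set.Icc 0 1) := by
  unfold hh
  exact continuousOn_finsetSum _ fun _ _ => psi_cont hD _

theorem hh_nonneg (hD : Fam D) (j : ℕ) {ρ : ℝ} (h0 : 0 ≤ ρ) (h1 : ρ ≤ 1) : 0 ≤ hh D j ρ :=
  Finset.sum_nonneg fun _ _ => psi_nonneg hD _ h0 h1

noncomputable def qq (A : ℕ → ℝ) (K j : ℕ) (ρ : ℝ) : ℝ :=
  ∑ i ∈ Finset.range (K + 1), A i * (i.descFactorial j : ℝ) * ρ ^ (i - j)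

theorem qq_deriv (A : ℕ → ℝ) (K j : ℕ) (ρ : ℝ) : HasDerivAt (qq A K j) (qq A K (j + 1) ρ) ρ := by
  have h := HasDerivAt.fun_sum (u := Finset.range (K + 1))
    (A := fun i (x : ℝ) => A i * (i.descFactorial j : ℝ) * x ^ (i - j))
    (A' := fun i => A i * (i.descFactorial j : ℝ) * (((i - j : ℕ) : ℝ) * ρ ^ (i - j - 1))) (x := ρ)
    (fun i _ => (hasDerivAt_pow (i - j) ρ).const_mul _)
  refine h.congr_deriv ?_
  unfold qq
  refine Finset.sum_congr rfl fun i _ => ?_
  rw [Nat.descFactorial_succ, Nat.cast_mul, Nat.sub_sub]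
  ring

theorem qq_cont (A : ℕ → ℝ) (K j : ℕ) : Continuous (qq A K j) :=
  continuous_iff_continuousAt.mpr fun ρ => (qq_deriv A K j ρ).continuousAt

theorem qq_zero (A : ℕ → ℝ) {K j : ℕ} (hj : j ≤ K) : qq A K j 0 = A j * (j.factorial : ℝ) := by
  unfold qq
  rw [Finset.sum_eq_single j]
  · simp [Nat.descFactorial_self]
  · intro i _ hi
    rcases lt_or_gt_of_ne hi with h | h
    · rw [(Nat.descFactorial_eq_zero_iff_lt).mpr h]
      simp
    · rw [zero_pow (by omega)]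
      simp
  · intro h
    exact absurd (Finset.mem_range.mpr (by omega)) h

theorem qq_top (A : ℕ → ℝ) (K : ℕ) (ρ : ℝ) : qq A K (K + 2) ρ = 0 := by
  unfold qq
  refine Finset.sum_eq_zero fun i hi => ?_
  have : i < K + 2 := by
    have := Finset.mem_range.mp hi
    omega
  rw [(Nat.descFactorial_eq_zero_iff_lt).mpr this]
  simp

theorem ou_trunc_aux (hD : Fam D) (K : ℕ) :
    VarH (D []) ≤
      ∑ j ∈ Finset.range K, ((j + 1).factorial : ℝ)⁻¹ *
        ∑ t : Fin (j + 1) → Ed n, (∫ g, D (List.ofFn t) g ∂gam n) ^ 2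
      + ((K : ℝ) + 1)⁻¹ * ∑ e, ∫ g, (D [e] g) ^ 2 ∂gam n := by
  set A : ℕ → ℝ := fun i => hh D i 0 / (i.factorial : ℝ) with hA
  have hA0 : ∀ i, 0 ≤ A i := fun i =>
    div_nonneg (hh_nonneg hD i le_rfl zero_le_one) (Nat.cast_nonneg _)
  have hode := ode_ineq K (fun j ρ => hh D j ρ - qq A K j ρ)
    (fun j => (hh_cont hD j).sub (qq_cont A K j).continuousOn)
    (fun j ρ h0 h1 => (hh_deriv hD j h0 h1).sub (qq_deriv A K j ρ))
    (fun j hj => by
      show hh D j 0 - qq A K j 0 = 0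
      rw [qq_zero A hj]
      have : (j.factorial : ℝ) ≠ 0 := by exact_mod_cast Nat.factorial_ne_zero j
      simp only [hA]
      field_simp
      ring)
    (fun ρ h0 h1 => by
      show 0 ≤ hh D (K + 2) ρ - qq A K (K + 2) ρ
      rw [qq_top]
      simpa using hh_nonneg hD (K + 2) h0.le h1.le)
  replace hode : ((K : ℝ) + 1) * (hh D 0 1 - qq A K 0 1) ≤ hh D 1 1 - qq A K 1 1 := hode
  have e00 : hh D 0 1 = ∫ g, D [] g ^ 2 ∂gam n := by
    unfold hh
    simp [psi_one]
  have eA0 : A 0 = (∫ g, D [] g ∂gam n) ^ 2 := by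
    simp only [hA]
    unfold hh
    simp [psi_zero]
  have eAs : ∀ j, A (j + 1) = ((j + 1).factorial : ℝ)⁻¹ *
      ∑ t : Fin (j + 1) → Ed n, (∫ g, D (List.ofFn t) g ∂gam n) ^ 2 := by
    intro j
    simp only [hA]
    unfold hh
    simp only [psi_zero]
    rw [div_eq_inv_mul]
  have eq0 : qq A K 0 1 = A 0 + ∑ j ∈ Finset.range K, A (j + 1) := by
    unfold qq
    simp only [one_pow, mul_one, Nat.descFactorial_zero, Nat.cast_one]
    rw [Finset.sum_range_succ']
    ring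
  have eq1 : 0 ≤ qq A K 1 1 := by
    unfold qq
    refine Finset.sum_nonneg fun i _ => ?_
    simp only [one_pow, mul_one]
    exact mul_nonneg (hA0 i) (Nat.cast_nonneg _)
  have eh1 : hh D 1 1 = ∑ e, ∫ g, (D [e] g) ^ 2 ∂gam n := by
    unfold hh
    rw [sum_ofFn_succ 0 (fun l => psi (D l) 1)]
    simp [psi_one]
  rw [e00, eq0, eh1, eA0] at hode
  have hK : (0 : ℝ) < (K : ℝ) + 1 := by positivity
  unfold VarH
  have h3 : (K : ℝ) + 1 ≠ 0 := hK.ne'
  rw [← Finset.sum_congr rfl (fun j _ => eAs j)]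
  set S := ∑ j ∈ Finset.range K, A (j + 1)
  set T := ∑ e, ∫ g, (D [e] g) ^ 2 ∂gam n
  set V := ∫ g, D [] g ^ 2 ∂gam n
  set W := (∫ g, D [] g ∂gam n) ^ 2
  have h4 : ((K : ℝ) + 1) * (V - W - S) ≤ T := by
    have : ((K : ℝ) + 1) * (V - (W + S)) ≤ T - qq A K 1 1 := hode
    nlinarith
  have h5 : V - W - S ≤ ((K : ℝ) + 1)⁻¹ * T := by
    rw [← div_eq_inv_mul, le_div_iff₀ hK]
    linarith
  linarith

/-- For a family of iterated derivatives with linear growth:
`Var G ≤ Σ_{j=1}^K (1/j!) Σ_{t ∈ Ed^j} (E ∂_t G)² + E|∇G|²/(K+1)`. -/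
theorem ou_trunc (D : List (Ed n) → Pt n → ℝ)
    (hline : ∀ t g w, HasDerivAt (fun s : ℝ => D t (g + s • w)) (∑ e, w e * D (e :: t) g) 0)
    (hmeas : ∀ t, Measurable (D t))
    (hgrowth : ∀ t, ∃ C : ℝ, ∀ g, |D t g| ≤ C * (1 + ∑ e, |g e|))
    (K : ℕ) :
    VarH (D []) ≤
      ∑ j ∈ Finset.range K, ((j + 1).factorial : ℝ)⁻¹ *
        ∑ t : Fin (j + 1) → Ed n, (∫ g, D (List.ofFn t) g ∂gam n) ^ 2
      + ((K : ℝ) + 1)⁻¹ * ∑ e, ∫ g, (D [e] g) ^ 2 ∂gam n :=
  ou_trunc_aux ⟨hline, hmeas, hgrowth⟩ K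

end Vale.Agent.Lib.P146
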