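import Vale.Agent.Lib.P146.InterfaceB
import Vale.Agent.Lib.P146.Core
import Vale.Agent.Lib.P146.OU

/-! Module K: the variance bound for `Fh`. -/

set_option autoImplicit false
open scoped Classical
open MeasureTheory MvPolynomial

namespace Vale.Agent.Lib.P146

variable {n : ℕ}

theorem PG_DF (β : ℝ) (t : List (Ed n)) : PG (DF β t) := by
  obtain ⟨C, hC⟩ := DF_growth β t
  exact ⟨DF_meas β t, C, 1, fun g => by simpa using hC g⟩

theorem sum_grad_le (hn : 0 < n) (β : ℝ) :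
    ∑ e, ∫ g, (DF β [e] g) ^ 2 ∂gam n ≤ β ^ 2 * n / 2 := by
  have hint : ∀ e : Ed n, Integrable (fun g => (DF β [e] g) ^ 2) (gam n) := fun e =>
    ((PG_DF β [e]).pow 2).integrable
  rw [← integral_finsetSum _ (fun e _ => hint e)]
  calc ∫ g, ∑ e, (DF β [e] g) ^ 2 ∂gam n ≤ ∫ _ : Pt n, β ^ 2 * n / 2 ∂gam n := by
        apply integral_mono (integrable_finsetSum _ fun e _ => hint e) (integrable_const _)
        intro g
        exact DF_grad hn β g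
    _ = β ^ 2 * n / 2 := by simp

/-- Poincaré case. -/
theorem var_Fh_poincare (hn : 0 < n) (β : ℝ) : VarH (Fh (n := n) β) ≤ β ^ 2 * n / 2 := by
  have h := ou_trunc (DF (n := n) β) (DF_line hn β) (DF_meas β) (DF_growth β) 0
  have h2 := sum_grad_le hn β
  simp only [Finset.range_zero, Finset.sum_empty, zero_add, Nat.cast_zero, inv_one, one_mul] at h
  exact h.trans h2

theorem Cg_bound {E K : ℕ} (hE : 1 ≤ E) (hEK : E ≤ K) :
    Cg (4 * E) ≤ (8 * (K : ℝ)) ^ (4 * E) / 2 := by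
  unfold Cg
  have h1 : 4 * E - 1 + 1 = 4 * E := by omega
  have hK : (1 : ℝ) ≤ K := by exact_mod_cast hE.trans hEK
  have hfac : (((4 * E - 1).factorial : ℕ) : ℝ) ≤ (4 * (K : ℝ)) ^ (4 * E - 1) := by
    have := Nat.factorial_le_pow (4 * E - 1)
    have h2 : ((4 * E - 1).factorial : ℝ) ≤ ((4 * E - 1 : ℕ) : ℝ) ^ (4 * E - 1) := by exact_mod_cast this
    refine h2.trans ?_
    gcongr
    have : ((4 * E - 1 : ℕ) : ℝ) ≤ ((4 * K : ℕ) : ℝ) := by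
      exact_mod_cast (by omega : 4 * E - 1 ≤ 4 * K)
    simpa using this
  have h3 : (4 * (K : ℝ)) ^ (4 * E - 1) ≤ (4 * (K : ℝ)) ^ (4 * E) := by
    apply pow_le_pow_right₀ _ (by omega)
    nlinarith
  have h4 : (8 * (K : ℝ)) ^ (4 * E) = (2 : ℝ) ^ (4 * E) * (4 * (K : ℝ)) ^ (4 * E) := by
    rw [← mul_pow]; ring_nf
  have h5 : (2 : ℝ) ^ (4 * E) = 2 * 2 ^ (4 * E - 1) := by
    conv_lhs => rw [← h1, pow_succ]
    ring
  rw [h4, h5]
  have h6 : (0 : ℝ) ≤ 2 ^ (4 * E - 1) := by positivity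
  have h7 := mul_le_mul_of_nonneg_left (hfac.trans h3) h6
  linarith

/-- The numerics of the excess terms. -/
theorem term_bound (hn : 0 < n) {K E : ℕ} (β R : ℝ) (hE : 1 ≤ E) (hEK : E ≤ K)
    (hR : R ^ 2 ≤ 4) (hc : 2 ^ 37 * (max 1 β) ^ 8 * (K : ℝ) ^ 15 ≤ n) :
    (8 * (K : ℝ) ^ 2 / n) ^ E * (Fb β K (2 * E) * R) ^ 2 ≤ 4 * (1 / (4 * (K : ℝ))) ^ E := by
  set b := max 1 β with hb
  have hb1 : 1 ≤ b := le_max_left _ _
  have hK1 : (1 : ℝ) ≤ K := by exact_mod_cast hE.trans hEK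
  have hK0 : (0 : ℝ) < K := by linarith
  have hnpos : (0 : ℝ) < n := by exact_mod_cast hn
  have hCg := Cg_bound hE hEK
  have hCg0 : 0 ≤ Cg (4 * E) := by unfold Cg; positivity
  have hfb : Fb β K (2 * E) ^ 2 ≤ ((2 : ℝ) ^ 32 * b ^ 8 * (K : ℝ) ^ 12) ^ E := by
    unfold Fb
    have e1 : 2 * (2 * E) = 4 * E := by ring
    rw [e1, ← hb]
    have hKp : (K : ℝ) + 1 ≤ 2 * K := by linarith
    have hp1 : ((K : ℝ) + 1) ^ (2 * E) ≤ (2 * (K : ℝ)) ^ (2 * E) := by gcongr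
    have hCg2 : Cg (4 * E) ≤ (8 * (K : ℝ)) ^ (4 * E) / 2 := hCg
    have h0 : b ^ (4 * E) * Cg (4 * E) * 2 ^ (2 * E + 1) * ((K : ℝ) + 1) ^ (2 * E) ≤
        b ^ (4 * E) * ((8 * (K : ℝ)) ^ (4 * E) / 2) * 2 ^ (2 * E + 1) * (2 * (K : ℝ)) ^ (2 * E) := by
      gcongr
    have h00 : 0 ≤ b ^ (4 * E) * Cg (4 * E) * 2 ^ (2 * E + 1) * ((K : ℝ) + 1) ^ (2 * E) := by positivity
    have h1 : (b ^ (4 * E) * ((8 * (K : ℝ)) ^ (4 * E) / 2) * 2 ^ (2 * E + 1) * (2 * (K : ℝ)) ^ (2 * E)) ^ 2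
        = ((2 : ℝ) ^ 32 * b ^ 8 * (K : ℝ) ^ 12) ^ E := by
      have : b ^ (4 * E) * ((8 * (K : ℝ)) ^ (4 * E) / 2) * 2 ^ (2 * E + 1) * (2 * (K : ℝ)) ^ (2 * E)
          = (b ^ 4 * (8 * (K : ℝ)) ^ 4 * 2 ^ 2 * (2 * (K : ℝ)) ^ 2) ^ E := by
        rw [pow_succ (2 : ℝ) (2 * E), pow_mul b 4 E, pow_mul (8 * (K : ℝ)) 4 E, pow_mul (2 : ℝ) 2 E,
          pow_mul (2 * (K : ℝ)) 2 E]
        generalize (b ^ 4) = B1
        generalize ((8 * (K : ℝ)) ^ 4) = A1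
        generalize ((2 : ℝ) ^ 2) = C1
        generalize ((2 * (K : ℝ)) ^ 2) = D1
        rw [mul_pow, mul_pow, mul_pow]
        ring
      rw [this, ← pow_mul, mul_comm E 2, pow_mul]
      congr 1
      ring
    calc _ ≤ (b ^ (4 * E) * ((8 * (K : ℝ)) ^ (4 * E) / 2) * 2 ^ (2 * E + 1) * (2 * (K : ℝ)) ^ (2 * E)) ^ 2 :=
          pow_le_pow_left₀ h00 h0 2
      _ = _ := h1
  have h2 : (Fb β K (2 * E) * R) ^ 2 ≤ 4 * ((2 : ℝ) ^ 32 * b ^ 8 * (K : ℝ) ^ 12) ^ E := by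
    rw [mul_pow]
    have : 0 ≤ Fb β K (2 * E) ^ 2 := by positivity
    nlinarith
  have h3 : 8 * (K : ℝ) ^ 2 / n * ((2 : ℝ) ^ 32 * b ^ 8 * (K : ℝ) ^ 12) ≤ 1 / (4 * (K : ℝ)) := by
    rw [div_mul_eq_mul_div, div_le_div_iff₀ hnpos (by positivity)]
    nlinarith [hc, pow_pos hK0 15]
  have hA : 0 ≤ 8 * (K : ℝ) ^ 2 / n := by positivity
  calc (8 * (K : ℝ) ^ 2 / n) ^ E * (Fb β K (2 * E) * R) ^ 2
      ≤ (8 * (K : ℝ) ^ 2 / n) ^ E * (4 * ((2 : ℝ) ^ 32 * b ^ 8 * (K : ℝ) ^ 12) ^ E) := by gcongr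
    _ = 4 * (8 * (K : ℝ) ^ 2 / n * ((2 : ℝ) ^ 32 * b ^ 8 * (K : ℝ) ^ 12)) ^ E := by
        have key : ∀ x A : ℝ, x ^ E * (4 * A ^ E) = 4 * (x * A) ^ E := fun x A => by
          rw [mul_pow]; ring
        exact key _ _
    _ ≤ 4 * (1 / (4 * (K : ℝ))) ^ E := by
        gcongr

theorem sum_geom_bound {K : ℕ} (hK : 1 ≤ K) :
    (K : ℝ) * ∑ e ∈ Finset.range K, (4 * (1 / (4 * (K : ℝ))) ^ (e + 1)) ≤ 2 := by
  have hK1 : (1 : ℝ) ≤ K := by exact_mod_cast hK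
  have hK0 : (0 : ℝ) < K := by linarith
  set x : ℝ := 1 / (4 * (K : ℝ)) with hx
  have hx0 : 0 ≤ x := by positivity
  have hx1 : x ≤ 1 / 4 := by
    rw [hx]
    apply one_div_le_one_div_of_le (by norm_num)
    linarith
  have hgeom : (1 - x) * ∑ e ∈ Finset.range K, x ^ e = 1 - x ^ K := mul_neg_geom_sum x K
  have hsum0 : 0 ≤ ∑ e ∈ Finset.range K, x ^ e := Finset.sum_nonneg fun e _ => by positivity
  have hsum : ∑ e ∈ Finset.range K, x ^ e ≤ 4 / 3 := by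
    have h1 : (3 / 4) * ∑ e ∈ Finset.range K, x ^ e ≤ (1 - x) * ∑ e ∈ Finset.range K, x ^ e := by
      apply mul_le_mul_of_nonneg_right _ hsum0
      linarith
    have h2 : 0 ≤ x ^ K := by positivity
    linarith
  have h3 : ∑ e ∈ Finset.range K, (4 * x ^ (e + 1)) = 4 * x * ∑ e ∈ Finset.range K, x ^ e := by
    rw [Finset.mul_sum]
    apply Finset.sum_congr rfl
    intro e _
    ring
  have h4 : (K : ℝ) * x = 1 / 4 := by
    rw [hx]; field_simp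
  rw [h3]
  have h5 : (K : ℝ) * (4 * x * ∑ e ∈ Finset.range K, x ^ e) =
      4 * ((K : ℝ) * x) * ∑ e ∈ Finset.range K, x ^ e := by ring
  rw [h5, h4]
  linarith

/-- The variance bound, with all hypotheses on the parameters. -/
theorem var_Fh_main (hn : 0 < n) {K N p : ℕ} (β : ℝ) (hβ : 0 < β) (hK : 1 ≤ K) (hN1 : 1 ≤ N)
    (hN : 12 * n + 1 ≤ 2 ^ N) (hpe : p = K * N) (hp : 1000 * (p + 1) ^ 6 ≤ n)
    (hc : 2 ^ 37 * (max 1 β) ^ 8 * (K : ℝ) ^ 15 ≤ n) :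
    VarH (Fh (n := n) β) ≤
      16 * (512 * K * (max 1 β) ^ 4 * ((K : ℝ) + 1) ^ 2 + 2) + β ^ 2 * n / (2 * ((K : ℝ) + 1)) := by
  have hp1 : 1 ≤ p := by rw [hpe]; exact Nat.mul_pos hK hN1
  have hKp : K ≤ p := by rw [hpe]; exact Nat.le_mul_of_pos_right K hN1
  set R : ℝ := Real.sqrt (∫ g, rhoH p g ^ (2 * K) ∂gam n) with hRdef
  have hmom := rho_moment hn hK hN1 hN hpe hp
  have hR0 : 0 ≤ R := Real.sqrt_nonneg _
  have hmom0 : 0 ≤ ∫ g, rhoH p g ^ (2 * K) ∂gam n := by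
    apply integral_nonneg
    intro g
    have := rhoH_ge_one p g
    positivity
  have hR2 : R ^ 2 ≤ 4 := by
    rw [hRdef, Real.sq_sqrt hmom0]; exact hmom
  -- the condition for the Schur test
  have hK3 : 1000 * K ^ 3 ≤ n := by
    have h1 : K ≤ (p + 1) := by omega
    have h2 : K ^ 3 ≤ (p + 1) ^ 6 := by
      calc K ^ 3 ≤ (p + 1) ^ 3 := Nat.pow_le_pow_left h1 3
        _ ≤ (p + 1) ^ 6 := Nat.pow_le_pow_right (by omega) (by norm_num)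
    omega
  have hcore := core_bound hn hK3 (dval (n := n) β) (ffv β)
    (fun e => Fb β K (2 * e) * R) (Real.sqrt (2 * K) * (Fb β K 1 * R))
    (dval_perm hn β) (dval_even hn β) (fun M₀ Mc ν h hr => Tav_dval_decomp hn β M₀ Mc ν h hr)
    (fun M₀ h0 he hnc _ s hs => ffv_bound hn hp1 hKp hp β hβ M₀ h0 he hnc s hs)
    (fun s hs => by
      have := ffv_zero_bound hn hp1 hKp hp β hβ s hs
      refine this.trans (le_of_eq ?_)
      have e : (Real.sqrt (2 * K) * (Fb β K 1 * R)) ^ 2 = 2 * K * (Fb β K 1 * R) ^ 2 := by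
        rw [mul_pow, Real.sq_sqrt (by positivity)]
      rw [e])
  have hou := ou_trunc (DF (n := n) β) (DF_line hn β) (DF_meas β) (DF_growth β) K
  have hgrad := sum_grad_le hn β
  -- rewrite the level sum
  have hlev : ∑ j ∈ Finset.range K, ((j + 1).factorial : ℝ)⁻¹ *
        ∑ t : Fin (j + 1) → Ed n, (∫ g, DF β (List.ofFn t) g ∂gam n) ^ 2 =
      ∑ k ∈ Finset.range K, (((k + 1).factorial : ℝ) * 2 ^ (k + 1) * (n : ℝ) ^ (k + 1))⁻¹ *
        ∑ l : Fin (k + 1) → Pr n, dval β (msOf l) ^ 2 := by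
    apply Finset.sum_congr rfl
    intro j _
    rw [← Wlev_eq hn β (j + 1)]
    unfold Wlev
    congr 1
    apply Finset.sum_congr rfl
    intro t _
    rw [DF_adj hn β t]
  rw [hlev] at hou
  have hb1 : (1 : ℝ) ≤ max 1 β := le_max_left _ _
  have hK1 : (1 : ℝ) ≤ K := by exact_mod_cast hK
  have hFb1 : Fb β K 1 = 8 * (max 1 β) ^ 2 * ((K : ℝ) + 1) := by
    have h2 : Cg (2 * 1) = 2 := by norm_num [Cg]
    unfold Fb
    rw [h2]
    simp only [mul_one, pow_one]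
    ring
  have hB0 : (Real.sqrt (2 * K) * (Fb β K 1 * R)) ^ 2 ≤ 512 * K * (max 1 β) ^ 4 * ((K : ℝ) + 1) ^ 2 := by
    rw [mul_pow, Real.sq_sqrt (by positivity), mul_pow, hFb1]
    have : (8 * (max 1 β) ^ 2 * ((K : ℝ) + 1)) ^ 2 * R ^ 2 ≤
        (8 * (max 1 β) ^ 2 * ((K : ℝ) + 1)) ^ 2 * 4 := by gcongr
    nlinarith [this, (by positivity : (0 : ℝ) ≤ 2 * K)]
  have hsum : (K : ℝ) * ∑ e ∈ Finset.range K,
      (8 * (K : ℝ) ^ 2 / n) ^ (e + 1) * (Fb β K (2 * (e + 1)) * R) ^ 2 ≤ 2 := by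
    refine le_trans ?_ (sum_geom_bound hK)
    apply mul_le_mul_of_nonneg_left _ (by positivity)
    apply Finset.sum_le_sum
    intro e he
    exact term_bound hn β R (by omega) (by simpa using Finset.mem_range.mp he) hR2 hc
  have hgr : ((K : ℝ) + 1)⁻¹ * ∑ e, ∫ g, (DF β [e] g) ^ 2 ∂gam n ≤ β ^ 2 * n / (2 * ((K : ℝ) + 1)) := by
    have : (0 : ℝ) < (K : ℝ) + 1 := by linarith
    rw [inv_mul_le_iff₀ this]
    field_simp
    nlinarith [hgrad]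
  have hF : VarH (Fh (n := n) β) = VarH (DF (n := n) β []) := rfl
  rw [hF]
  linarith

end Vale.Agent.Lib.P146
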