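import Vale.Agent.Lib.P146.InterfaceC
import Vale.Agent.Lib.P146.Core2
import Vale.Agent.Lib.P146.Main

/-! Upgrade, module V5: the variance bound for `Fh` with the improved free bound. -/

set_option autoImplicit false
open scoped Classical
open MeasureTheory MvPolynomial

namespace Vale.Agent.Lib.P146

variable {n : ℕ}

theorem Fc_le {K e : ℕ} (β : ℝ) (he : 1 ≤ e) (heK : e ≤ K) :
    Fc β K e ≤ (1944 * (max 1 β) ^ 3 * e * (K : ℝ) ^ 2) ^ e := by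
  set b := max 1 β with hb
  have hb1 : 1 ≤ b := le_max_left _ _
  have heR : (1 : ℝ) ≤ e := by exact_mod_cast he
  have hKe : (e : ℝ) ≤ K := by exact_mod_cast heK
  have hK1 : (1 : ℝ) ≤ K := heR.trans hKe
  have hCg : Cg (3 * e) * 2 ^ (2 * e + 1) ≤ (864 * (e : ℝ) ^ 3) ^ e := by
    unfold Cg
    have h1 : 3 * e - 1 + 1 = 3 * e := by omega
    have hfac : (((3 * e - 1).factorial : ℕ) : ℝ) ≤ (3 * (e : ℝ)) ^ (3 * e) := by
      have h2 : ((3 * e - 1).factorial : ℝ) ≤ ((3 * e - 1 : ℕ) : ℝ) ^ (3 * e - 1) := by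
        exact_mod_cast Nat.factorial_le_pow (3 * e - 1)
      refine h2.trans ?_
      have h3 : ((3 * e - 1 : ℕ) : ℝ) ≤ 3 * (e : ℝ) := by
        have : 3 * e - 1 ≤ 3 * e := Nat.sub_le _ _
        exact_mod_cast this
      calc ((3 * e - 1 : ℕ) : ℝ) ^ (3 * e - 1) ≤ (3 * (e : ℝ)) ^ (3 * e - 1) := by gcongr
        _ ≤ (3 * (e : ℝ)) ^ (3 * e) := by
            apply pow_le_pow_right₀ _ (Nat.sub_le _ _)
            nlinarith
    have h4 : (2 : ℝ) ^ (3 * e - 1) * 2 ^ (2 * e + 1) = 32 ^ e := by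
      rw [← pow_add]
      have : 3 * e - 1 + (2 * e + 1) = 5 * e := by omega
      rw [this, pow_mul]
      norm_num
    calc (2 : ℝ) ^ (3 * e - 1) * ((3 * e - 1).factorial : ℝ) * 2 ^ (2 * e + 1)
        = ((2 : ℝ) ^ (3 * e - 1) * 2 ^ (2 * e + 1)) * ((3 * e - 1).factorial : ℝ) := by ring
      _ ≤ 32 ^ e * (3 * (e : ℝ)) ^ (3 * e) := by
          rw [h4]
          gcongr
      _ = (864 * (e : ℝ) ^ 3) ^ e := by
          rw [pow_mul (3 * (e : ℝ)) 3 e, ← mul_pow]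
          congr 1
          ring
  have hpow : (1 + (K : ℝ) / (2 * e)) ^ (2 * e) ≤ (9 * (K : ℝ) ^ 2 / (4 * (e : ℝ) ^ 2)) ^ e := by
    rw [pow_mul]
    apply pow_le_pow_left₀ (by positivity)
    have h5 : 1 + (K : ℝ) / (2 * e) ≤ 3 * K / (2 * e) := by
      rw [le_div_iff₀ (by positivity)]
      have : (1 + (K : ℝ) / (2 * e)) * (2 * e) = 2 * e + K := by
        field_simp
      rw [this]
      linarith
    have h6 : 0 ≤ 1 + (K : ℝ) / (2 * e) := by positivity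
    calc (1 + (K : ℝ) / (2 * e)) ^ 2 ≤ (3 * K / (2 * e)) ^ 2 := pow_le_pow_left₀ h6 h5 2
      _ = _ := by field_simp; ring
  have hb3 : 0 ≤ b ^ (3 * e) := by positivity
  have hA : 0 ≤ (864 * (e : ℝ) ^ 3) ^ e := by positivity
  have hB : 0 ≤ (1 + (K : ℝ) / (2 * e)) ^ (2 * e) := by positivity
  unfold Fc
  rw [← hb]
  calc b ^ (3 * e) * Cg (3 * e) * 2 ^ (2 * e + 1) * (1 + (K : ℝ) / (2 * e)) ^ (2 * e)
      = b ^ (3 * e) * (Cg (3 * e) * 2 ^ (2 * e + 1)) * (1 + (K : ℝ) / (2 * e)) ^ (2 * e) := by ring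
    _ ≤ b ^ (3 * e) * (864 * (e : ℝ) ^ 3) ^ e * (9 * (K : ℝ) ^ 2 / (4 * (e : ℝ) ^ 2)) ^ e := by
        gcongr
    _ = _ := by
        rw [pow_mul b 3 e, ← mul_pow, ← mul_pow]
        congr 1
        field_simp
        ring

theorem pow_self_div_factorial_le (e : ℕ) : (e : ℝ) ^ e / (e.factorial : ℝ) ≤ 3 ^ e := by
  have h := Real.pow_div_factorial_le_exp (e : ℝ) (Nat.cast_nonneg e) e
  refine h.trans ?_
  have h2 : Real.exp (e : ℝ) = Real.exp 1 ^ e := by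
    rw [← Real.exp_nat_mul]
    simp
  rw [h2]
  apply pow_le_pow_left₀ (Real.exp_pos 1).le
  have := Real.exp_one_lt_d9
  linarith

/-- The numerics of the excess terms. -/
theorem term_bound2 (hn : 0 < n) {K e : ℕ} (β R : ℝ) (he : 1 ≤ e) (heK : e ≤ K)
    (hR : R ^ 2 ≤ 4) (hc : 2 ^ 26 * (max 1 β) ^ 6 * (K : ℝ) ^ 7 ≤ n) :
    ((2 * (K : ℝ) ^ 2 / n) ^ e / (e.factorial : ℝ)) * (Fc β K e * R) ^ 2 ≤ 4 * (1 / 2 : ℝ) ^ e := by
  set b := max 1 β with hb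
  have hb1 : 1 ≤ b := le_max_left _ _
  have heR : (1 : ℝ) ≤ e := by exact_mod_cast he
  have hKe : (e : ℝ) ≤ K := by exact_mod_cast heK
  have hK1 : (1 : ℝ) ≤ K := heR.trans hKe
  have hnpos : (0 : ℝ) < n := by exact_mod_cast hn
  have hFc0 : 0 ≤ Fc β K e := Fc_nonneg β K e
  have hFc := Fc_le (K := K) (e := e) β he heK
  rw [← hb] at hFc
  have hFc2 : Fc β K e ^ 2 ≤ ((1944 * b ^ 3 * e * (K : ℝ) ^ 2) ^ e) ^ 2 :=
    pow_le_pow_left₀ hFc0 hFc 2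
  have hfac : (0 : ℝ) < e.factorial := by exact_mod_cast Nat.factorial_pos e
  have hpd := pow_self_div_factorial_le e
  have hkey : ((2 * (K : ℝ) ^ 2 / n) ^ e / (e.factorial : ℝ)) * ((1944 * b ^ 3 * e * (K : ℝ) ^ 2) ^ e) ^ 2 ≤
      (1 / 2 : ℝ) ^ e := by
    have e1 : ((2 * (K : ℝ) ^ 2 / n) ^ e / (e.factorial : ℝ)) * ((1944 * b ^ 3 * e * (K : ℝ) ^ 2) ^ e) ^ 2 =
        ((e : ℝ) ^ e / (e.factorial : ℝ)) * (2 * 1944 ^ 2 * b ^ 6 * e * (K : ℝ) ^ 6 / n) ^ e := by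
      have hz : (e : ℝ) * (2 * 1944 ^ 2 * b ^ 6 * e * (K : ℝ) ^ 6 / n) =
          (2 * (K : ℝ) ^ 2 / n) * (1944 * b ^ 3 * e * (K : ℝ) ^ 2) ^ 2 := by
        field_simp
      have hz2 : (e : ℝ) ^ e * (2 * 1944 ^ 2 * b ^ 6 * e * (K : ℝ) ^ 6 / n) ^ e =
          (2 * (K : ℝ) ^ 2 / n) ^ e * ((1944 * b ^ 3 * e * (K : ℝ) ^ 2) ^ e) ^ 2 := by
        rw [← mul_pow, hz, mul_pow, ← pow_mul, ← pow_mul, mul_comm 2 e]
      rw [div_mul_eq_mul_div, div_mul_eq_mul_div, hz2]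
    rw [e1]
    have h3 : 0 ≤ 2 * 1944 ^ 2 * b ^ 6 * e * (K : ℝ) ^ 6 / n := by positivity
    have h4 : 3 * (2 * 1944 ^ 2 * b ^ 6 * e * (K : ℝ) ^ 6 / n) ≤ 1 / 2 := by
      rw [← mul_div_assoc, div_le_iff₀ hnpos]
      have h5 : (e : ℝ) * (K : ℝ) ^ 6 ≤ (K : ℝ) ^ 7 := by
        calc (e : ℝ) * (K : ℝ) ^ 6 ≤ K * (K : ℝ) ^ 6 := by gcongr
          _ = _ := by ring
      have h6 : (0 : ℝ) ≤ b ^ 6 := by positivity
      have h7 : b ^ 6 * ((e : ℝ) * (K : ℝ) ^ 6) ≤ b ^ 6 * (K : ℝ) ^ 7 := mul_le_mul_of_nonneg_left h5 h6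
      nlinarith
    calc ((e : ℝ) ^ e / (e.factorial : ℝ)) * (2 * 1944 ^ 2 * b ^ 6 * e * (K : ℝ) ^ 6 / n) ^ e
        ≤ 3 ^ e * (2 * 1944 ^ 2 * b ^ 6 * e * (K : ℝ) ^ 6 / n) ^ e := by gcongr
      _ = (3 * (2 * 1944 ^ 2 * b ^ 6 * e * (K : ℝ) ^ 6 / n)) ^ e := (mul_pow _ _ _).symm
      _ ≤ (1 / 2 : ℝ) ^ e := by
          apply pow_le_pow_left₀ (by positivity) h4
  have hX0 : 0 ≤ (2 * (K : ℝ) ^ 2 / n) ^ e / (e.factorial : ℝ) := by positivity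
  calc ((2 * (K : ℝ) ^ 2 / n) ^ e / (e.factorial : ℝ)) * (Fc β K e * R) ^ 2
      = ((2 * (K : ℝ) ^ 2 / n) ^ e / (e.factorial : ℝ)) * Fc β K e ^ 2 * R ^ 2 := by ring
    _ ≤ ((2 * (K : ℝ) ^ 2 / n) ^ e / (e.factorial : ℝ)) * ((1944 * b ^ 3 * e * (K : ℝ) ^ 2) ^ e) ^ 2 * 4 := by
        gcongr
    _ ≤ (1 / 2 : ℝ) ^ e * 4 := by gcongr
    _ = _ := by ring

theorem sum_half_le (K : ℕ) : ∑ e ∈ Finset.range K, (4 * (1 / 2 : ℝ) ^ (e + 1)) ≤ 4 := by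
  have h : ∀ K : ℕ, ∑ e ∈ Finset.range K, (4 * (1 / 2 : ℝ) ^ (e + 1)) = 4 - 4 * (1 / 2 : ℝ) ^ K := by
    intro K
    induction K with
    | zero => simp
    | succ K ih =>
      rw [Finset.sum_range_succ, ih, pow_succ]
      ring
  rw [h]
  have : (0 : ℝ) ≤ (1 / 2 : ℝ) ^ K := by positivity
  linarith

/-- The variance bound, with all hypotheses on the parameters. -/
theorem var_Fh_main2 (hn : 0 < n) {K N p : ℕ} (β : ℝ) (hβ : 0 < β) (hK : 1 ≤ K) (hN1 : 1 ≤ N)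
    (hN : 12 * n + 1 ≤ 2 ^ N) (hpe : p = K * N) (hp : 1000 * (p + 1) ^ 6 ≤ n)
    (hc : 2 ^ 26 * (max 1 β) ^ 6 * (K : ℝ) ^ 7 ≤ n) :
    VarH (Fh (n := n) β) ≤
      16 * (512 * K * (max 1 β) ^ 4 * ((K : ℝ) + 1) ^ 2 + 4 * K) + β ^ 2 * n / (2 * ((K : ℝ) + 1)) := by
  have hp1 : 1 ≤ p := by rw [hpe]; exact Nat.mul_pos hK hN1
  have hKp : K ≤ p := by rw [hpe]; exact Nat.le_mul_of_pos_right K hN1
  set R : ℝ := Real.sqrt (∫ g, rhoH p g ^ (2 * K) ∂gam n) with hRdef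
  have hmom := rho_moment hn hK hN1 hN hpe hp
  have hR0 : 0 ≤ R := Real.sqrt_nonneg _
  have hmom0 : 0 ≤ ∫ g, rhoH p g ^ (2 * K) ∂gam n := by
    apply integral_nonneg
    intro g
    have := rhoH_ge_one p g
    positivity
  have hR2 : R ^ 2 ≤ 4 := by
    rw [hRdef, Real.sq_sqrt hmom0]; exact hmom
  -- the condition for the Schur test
  have hK3 : 1000 * K ^ 3 ≤ n := by
    have h1 : K ≤ (p + 1) := by omega
    have h2 : K ^ 3 ≤ (p + 1) ^ 6 := by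
      calc K ^ 3 ≤ (p + 1) ^ 3 := Nat.pow_le_pow_left h1 3
        _ ≤ (p + 1) ^ 6 := Nat.pow_le_pow_right (by omega) (by norm_num)
    omega
  have hcore := core_bound2 hn hK3 (dval (n := n) β) (ffv β)
    (fun e => Fc β K e * R) (Real.sqrt (2 * K) * (Fb β K 1 * R))
    (dval_perm hn β) (dval_even hn β) (fun M₀ Mc ν h hr => Tav_dval_decomp hn β M₀ Mc ν h hr)
    (fun M₀ h0 he hnc _ s hs => ffv_bound2 hn hp1 hKp hp β hβ M₀ h0 he hnc s hs)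
    (fun s hs => by
      have := ffv_zero_bound hn hp1 hKp hp β hβ s hs
      refine this.trans (le_of_eq ?_)
      have e : (Real.sqrt (2 * K) * (Fb β K 1 * R)) ^ 2 = 2 * K * (Fb β K 1 * R) ^ 2 := by
        rw [mul_pow, Real.sq_sqrt (by positivity)]
      rw [e])
  have hou := ou_trunc (DF (n := n) β) (DF_line hn β) (DF_meas β) (DF_growth β) K
  have hgrad := sum_grad_le hn β
  -- rewrite the level sum
  have hlev : ∑ j ∈ Finset.range K, ((j + 1).factorial : ℝ)⁻¹ *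
        ∑ t : Fin (j + 1) → Ed n, (∫ g, DF β (List.ofFn t) g ∂gam n) ^ 2 =
      ∑ k ∈ Finset.range K, (((k + 1).factorial : ℝ) * 2 ^ (k + 1) * (n : ℝ) ^ (k + 1))⁻¹ *
        ∑ l : Fin (k + 1) → Pr n, dval β (msOf l) ^ 2 := by
    apply Finset.sum_congr rfl
    intro j _
    rw [← Wlev_eq hn β (j + 1)]
    unfold Wlev
    congr 1
    apply Finset.sum_congr rfl
    intro t _
    rw [DF_adj hn β t]
  rw [hlev] at hou
  have hb1 : (1 : ℝ) ≤ max 1 β := le_max_left _ _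
  have hK1 : (1 : ℝ) ≤ K := by exact_mod_cast hK
  have hFb1 : Fb β K 1 = 8 * (max 1 β) ^ 2 * ((K : ℝ) + 1) := by
    have h2 : Cg (2 * 1) = 2 := by norm_num [Cg]
    unfold Fb
    rw [h2]
    simp only [mul_one, pow_one]
    ring
  have hB0 : (Real.sqrt (2 * K) * (Fb β K 1 * R)) ^ 2 ≤ 512 * K * (max 1 β) ^ 4 * ((K : ℝ) + 1) ^ 2 := by
    rw [mul_pow, Real.sq_sqrt (by positivity), mul_pow, hFb1]
    have : (8 * (max 1 β) ^ 2 * ((K : ℝ) + 1)) ^ 2 * R ^ 2 ≤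
        (8 * (max 1 β) ^ 2 * ((K : ℝ) + 1)) ^ 2 * 4 := by gcongr
    nlinarith [this, (by positivity : (0 : ℝ) ≤ 2 * K)]
  have hsum : (K : ℝ) * ∑ e ∈ Finset.range K,
      ((2 * (K : ℝ) ^ 2 / n) ^ (e + 1) / ((e + 1).factorial : ℝ)) * (Fc β K (e + 1) * R) ^ 2 ≤ 4 * K := by
    have h1 : ∑ e ∈ Finset.range K,
        ((2 * (K : ℝ) ^ 2 / n) ^ (e + 1) / ((e + 1).factorial : ℝ)) * (Fc β K (e + 1) * R) ^ 2 ≤ 4 := by
      refine le_trans ?_ (sum_half_le K)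
      apply Finset.sum_le_sum
      intro e he
      exact term_bound2 hn β R (by omega) (by simpa using Finset.mem_range.mp he) hR2 hc
    calc (K : ℝ) * _ ≤ (K : ℝ) * 4 := by gcongr
      _ = _ := by ring
  have hgr : ((K : ℝ) + 1)⁻¹ * ∑ e, ∫ g, (DF β [e] g) ^ 2 ∂gam n ≤ β ^ 2 * n / (2 * ((K : ℝ) + 1)) := by
    have : (0 : ℝ) < (K : ℝ) + 1 := by linarith
    rw [inv_mul_le_iff₀ this]
    field_simp
    nlinarith [hgrad]
  have hF : VarH (Fh (n := n) β) = VarH (DF (n := n) β []) := rfl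
  rw [hF]
  linarith

end Vale.Agent.Lib.P146
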