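import Vale.Agent.Lib.P146.Bridge
import Vale.Agent.Lib.P146.Main2

/-! Upgrade, module V6: `Var F_n ≤ C n^{6/7}`. -/

set_option autoImplicit false
open MeasureTheory ProbabilityTheory

namespace Vale.Agent.Lib.P146

theorem log_param_aux (L : ℕ) (hL : 80 ≤ L) : 1000 * (14 * L + 12) ^ 6 ≤ 2 ^ (L - 1) := by
  induction L, hL using Nat.le_induction with
  | base => norm_num
  | succ L hL ih =>
    have e : L + 1 - 1 = (L - 1) + 1 := by omega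
    rw [e, pow_succ]
    set x := 14 * L + 12 with hx
    have h1 : 14 * (L + 1) + 12 = x + 14 := by omega
    rw [h1]
    have h2 : (x + 14) * 80 ≤ 81 * x := by omega
    have h3 : ((x + 14) * 80) ^ 6 ≤ (81 * x) ^ 6 := Nat.pow_le_pow_left h2 6
    rw [mul_pow, mul_pow] at h3
    have h4 : (x + 14) ^ 6 ≤ 2 * x ^ 6 := by
      have h5 : 81 ^ 6 * x ^ 6 ≤ 2 * 80 ^ 6 * x ^ 6 := by
        apply Nat.mul_le_mul_right
        norm_num
      have h6 : (x + 14) ^ 6 * 80 ^ 6 ≤ (2 * x ^ 6) * 80 ^ 6 := by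
        calc _ ≤ 81 ^ 6 * x ^ 6 := h3
          _ ≤ 2 * 80 ^ 6 * x ^ 6 := h5
          _ = _ := by ring
      exact Nat.le_of_mul_le_mul_right h6 (by norm_num)
    calc 1000 * (x + 14) ^ 6 ≤ 1000 * (2 * x ^ 6) := Nat.mul_le_mul_left _ h4
      _ = (1000 * x ^ 6) * 2 := by ring
      _ ≤ 2 ^ (L - 1) * 2 := Nat.mul_le_mul_right _ ih

/-- The logarithmic parameter for `K^7 ≤ n ≤ (A (K+1))^7`, `K` large. -/
theorem exists_log_param2 {K A n : ℕ} (hK : 2 ^ 80 ≤ K) (hA : A ≤ K) (hKn : K ^ 7 ≤ n)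
    (hnK : n ≤ (A * (K + 1)) ^ 7) :
    ∃ N, 1 ≤ N ∧ 12 * n + 1 ≤ 2 ^ N ∧ 1000 * (K * N + 1) ^ 6 ≤ n := by
  set L := Nat.log 2 K + 1 with hLdef
  have hK0 : K ≠ 0 := by
    intro h
    rw [h] at hK
    norm_num at hK
  have hKlt : K < 2 ^ L := Nat.lt_pow_succ_log_self (by norm_num) K
  have hKge : 2 ^ (L - 1) ≤ K := by
    have : L - 1 = Nat.log 2 K := by omega
    rw [this]
    exact Nat.pow_log_le_self 2 hK0
  have hL80 : 80 ≤ L := by
    have : 80 ≤ Nat.log 2 K := Nat.le_log_of_pow_le (by norm_num) hK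
    omega
  refine ⟨14 * L + 11, by omega, ?_, ?_⟩
  · have hn0 : 1 ≤ n := by
      have : 1 ≤ K ^ 7 := Nat.one_le_pow _ _ (by omega)
      omega
    have h1 : A * (K + 1) ≤ 2 * K * K := by
      calc A * (K + 1) ≤ K * (2 * K) := Nat.mul_le_mul hA (by omega)
        _ = _ := by ring
    have h2 : n ≤ (2 * K * K) ^ 7 := hnK.trans (Nat.pow_le_pow_left h1 7)
    have h3 : 2 * K * K ≤ 2 * 2 ^ L * 2 ^ L := by
      apply Nat.mul_le_mul (Nat.mul_le_mul_left _ hKlt.le) hKlt.le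
    have h4 : (2 * K * K) ^ 7 ≤ (2 * 2 ^ L * 2 ^ L) ^ 7 := Nat.pow_le_pow_left h3 7
    have h5 : (2 * 2 ^ L * 2 ^ L) ^ 7 = 2 ^ (14 * L + 7) := by
      have : 2 * 2 ^ L * 2 ^ L = 2 ^ (2 * L + 1) := by
        rw [pow_succ, two_mul, pow_add]
        ring
      rw [this, ← pow_mul]
      congr 1
      ring
    have h6 : n ≤ 2 ^ (14 * L + 7) := by
      rw [← h5]
      exact h2.trans h4
    have h7 : 2 ^ (14 * L + 11) = 2 ^ (14 * L + 7) * 16 := by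
      rw [show 14 * L + 11 = (14 * L + 7) + 4 by ring, pow_add]
      norm_num
    rw [h7]
    omega
  · have h1 : 1000 * (14 * L + 12) ^ 6 ≤ K := (log_param_aux L hL80).trans hKge
    have hK1 : 1 ≤ K := by omega
    have h2 : K * (14 * L + 11) + 1 ≤ K * (14 * L + 12) := by
      have : K * (14 * L + 12) = K * (14 * L + 11) + K := by ring
      omega
    have h3 : (K * (14 * L + 11) + 1) ^ 6 ≤ (K * (14 * L + 12)) ^ 6 := Nat.pow_le_pow_left h2 6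
    calc 1000 * (K * (14 * L + 11) + 1) ^ 6 ≤ 1000 * (K * (14 * L + 12)) ^ 6 :=
          Nat.mul_le_mul_left _ h3
      _ = K ^ 6 * (1000 * (14 * L + 12) ^ 6) := by ring
      _ ≤ K ^ 6 * K := Nat.mul_le_mul_left _ h1
      _ = K ^ 7 := by ring
      _ ≤ n := hKn

theorem final_arith2 {K r b β n A K₀ : ℝ} (hr1 : 1 ≤ r) (hA1 : 1 ≤ A) (hKle : A * K ≤ r)
    (hKlt : r < A * (K + 1)) (hK1 : 1 ≤ K) (hr7 : r ^ 7 = n) (hK₀ : 0 ≤ K₀) :
    16 * (512 * K * b ^ 4 * (K + 1) ^ 2 + 4 * K) + β ^ 2 * n / (2 * (K + 1)) ≤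
      (β ^ 2 / 2 * (A * K₀) + (32768 * b ^ 4 + 64 + β ^ 2 / 2 * A)) * r ^ 6 := by
  have hK0 : 0 ≤ K := by linarith
  have hKr : K ≤ r := by nlinarith
  have hK12 : K + 1 ≤ 2 * r := by linarith
  have hb4 : 0 ≤ b ^ 4 := by
    have := pow_nonneg (sq_nonneg b) 2
    calc 0 ≤ (b ^ 2) ^ 2 := this
      _ = b ^ 4 := by ring
  have h1 : 512 * K * b ^ 4 * (K + 1) ^ 2 ≤ 2048 * b ^ 4 * r ^ 6 := by
    have h2 : K * (K + 1) ^ 2 ≤ r * (2 * r) ^ 2 := by gcongr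
    have h3 : r * (2 * r) ^ 2 = 4 * r ^ 3 := by ring
    have h4 : r ^ 3 ≤ r ^ 6 := pow_le_pow_right₀ hr1 (by norm_num)
    have h5 : K * (K + 1) ^ 2 ≤ 4 * r ^ 6 := by linarith
    have h6 := mul_le_mul_of_nonneg_left h5 hb4
    calc 512 * K * b ^ 4 * (K + 1) ^ 2 = 512 * (b ^ 4 * (K * (K + 1) ^ 2)) := by ring
      _ ≤ 512 * (b ^ 4 * (4 * r ^ 6)) := by linarith
      _ = _ := by ring
  have h7 : β ^ 2 * n / (2 * (K + 1)) ≤ β ^ 2 / 2 * A * r ^ 6 := by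
    rw [div_le_iff₀ (by positivity), ← hr7]
    have h9 : r * r ^ 6 ≤ (A * (K + 1)) * r ^ 6 := by gcongr
    have h10 : 0 ≤ β ^ 2 := by positivity
    have h11 := mul_le_mul_of_nonneg_left h9 h10
    calc β ^ 2 * r ^ 7 = β ^ 2 * (r * r ^ 6) := by ring
      _ ≤ β ^ 2 * ((A * (K + 1)) * r ^ 6) := h11
      _ = _ := by ring
  have h12 : (1 : ℝ) ≤ r ^ 6 := one_le_pow₀ hr1
  have h13 : r ≤ r ^ 6 := by
    calc r = r ^ 1 := (pow_one r).symm
      _ ≤ r ^ 6 := pow_le_pow_right₀ hr1 (by norm_num)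
  have h14 : 4 * K ≤ 4 * r ^ 6 := by linarith
  have h15 : 0 ≤ β ^ 2 / 2 * (A * K₀) * r ^ 6 := by positivity
  have e : (β ^ 2 / 2 * (A * K₀) + (32768 * b ^ 4 + 64 + β ^ 2 / 2 * A)) * r ^ 6 =
      β ^ 2 / 2 * (A * K₀) * r ^ 6 + 16 * (2048 * b ^ 4 * r ^ 6) + 16 * (4 * r ^ 6) +
        β ^ 2 / 2 * A * r ^ 6 := by
    ring
  rw [e]
  linarith

/-- Final theorem, upgraded: `Var F_n ≤ C n^{6/7}`. -/
theorem var_FO_bound2 (β : ℝ) (hβ : 0 < β) :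
    ∃ C : ℝ, ∀ n : ℕ, 1 ≤ n →
      (∫ g, FO β g ^ 2 ∂gamO n - (∫ g, FO β g ∂gamO n) ^ 2) ≤ C * (n : ℝ) ^ ((6 : ℝ) / 7) := by
  set b : ℝ := max 1 β with hb
  have hb1 : 1 ≤ b := le_max_left _ _
  set A : ℕ := ⌈16 * b⌉₊ with hA
  have hAb : 16 * b ≤ A := Nat.le_ceil _
  have hA1R : (1 : ℝ) ≤ A := by linarith
  have hA1 : 1 ≤ A := by exact_mod_cast hA1R
  set K₀ : ℕ := max A (2 ^ 80) with hK₀
  have hbe : 0 ≤ β ^ 2 / 2 := by positivity
  refine ⟨β ^ 2 / 2 * ((A : ℝ) * K₀) + (32768 * b ^ 4 + 64 + β ^ 2 / 2 * A), fun n hn => ?_⟩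
  have hn0 : 0 < n := hn
  have hnR : (1 : ℝ) ≤ n := by exact_mod_cast hn
  refine (var_FO_le hn0 β).trans ?_
  set r : ℝ := (n : ℝ) ^ ((1 : ℝ) / 7) with hr
  have hr1 : 1 ≤ r := Real.one_le_rpow hnR (by norm_num)
  have hr0 : 0 ≤ r := by linarith
  have hr7 : r ^ 7 = n := by
    rw [hr, ← Real.rpow_natCast, ← Real.rpow_mul (by linarith)]
    norm_num
  have hr6 : (n : ℝ) ^ ((6 : ℝ) / 7) = r ^ 6 := by
    rw [hr, ← Real.rpow_natCast, ← Real.rpow_mul (by linarith)]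
    norm_num
  rw [hr6]
  have hr6pos : 0 < r ^ 6 := by positivity
  have hApos : (0 : ℝ) < A := by linarith
  set K : ℕ := ⌊r / A⌋₊ with hKdef
  have hdiv0 : 0 ≤ r / A := by positivity
  have hKle : (A : ℝ) * K ≤ r := by
    have := Nat.floor_le hdiv0
    rw [le_div_iff₀ hApos] at this
    linarith
  have hKlt : r < (A : ℝ) * (K + 1) := by
    have := Nat.lt_floor_add_one (r / A)
    rw [div_lt_iff₀ hApos] at this
    linarith
  by_cases hcase : K < K₀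
  · -- Poincaré
    have hP := var_Fh_poincare hn0 β
    refine hP.trans ?_
    have h1 : β ^ 2 * n / 2 = β ^ 2 / 2 * (r * r ^ 6) := by
      rw [← hr7]; ring
    rw [h1]
    have h2 : r ≤ (A : ℝ) * K₀ := by
      have h3 : ((K + 1 : ℕ) : ℝ) ≤ K₀ := by exact_mod_cast hcase
      push_cast at h3
      nlinarith
    have h3 : r * r ^ 6 ≤ ((A : ℝ) * K₀) * r ^ 6 := by gcongr
    have h4 : 0 ≤ (32768 * b ^ 4 + 64 + β ^ 2 / 2 * A) * r ^ 6 := by positivity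
    have h5 : β ^ 2 / 2 * (r * r ^ 6) ≤ β ^ 2 / 2 * (((A : ℝ) * K₀) * r ^ 6) :=
      mul_le_mul_of_nonneg_left h3 hbe
    have e : (β ^ 2 / 2 * ((A : ℝ) * K₀) + (32768 * b ^ 4 + 64 + β ^ 2 / 2 * A)) * r ^ 6 =
        β ^ 2 / 2 * (((A : ℝ) * K₀) * r ^ 6) + (32768 * b ^ 4 + 64 + β ^ 2 / 2 * A) * r ^ 6 := by ring
    rw [e]
    linarith
  · -- main case
    have hKK₀ : K₀ ≤ K := not_lt.mp hcase
    have hKA : A ≤ K := (le_max_left _ _).trans hKK₀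
    have hK80 : 2 ^ 80 ≤ K := (le_max_right _ _).trans hKK₀
    have hK1 : 1 ≤ K := le_trans (by norm_num) hK80
    have hK1R : (1 : ℝ) ≤ K := by exact_mod_cast hK1
    have hrK : (A : ℝ) ^ 7 * (K : ℝ) ^ 7 ≤ n := by
      rw [← hr7, ← mul_pow]
      exact pow_le_pow_left₀ (by positivity) hKle 7
    have hKn : K ^ 7 ≤ n := by
      have h1 : (1 : ℝ) ≤ (A : ℝ) ^ 7 := one_le_pow₀ hA1R
      have h2 : ((K ^ 7 : ℕ) : ℝ) ≤ n := by
        push_cast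
        have h3 : (0 : ℝ) ≤ (K : ℝ) ^ 7 := by positivity
        nlinarith
      exact_mod_cast h2
    have hnK : n ≤ (A * (K + 1)) ^ 7 := by
      have h2 : (n : ℝ) ≤ ((A * (K + 1)) ^ 7 : ℕ) := by
        push_cast
        rw [← hr7]
        exact pow_le_pow_left₀ hr0 hKlt.le 7
      exact_mod_cast h2
    obtain ⟨N, hN1, hN, hp⟩ := exists_log_param2 hK80 hKA hKn hnK
    have hc : 2 ^ 26 * (max 1 β) ^ 6 * (K : ℝ) ^ 7 ≤ n := by
      refine le_trans ?_ hrK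
      rw [← hb]
      apply mul_le_mul_of_nonneg_right _ (by positivity)
      calc (2 : ℝ) ^ 26 * b ^ 6 ≤ (16 * b) ^ 7 := by
            have h0 : (0 : ℝ) ≤ b ^ 6 := by positivity
            have h1 : (16 * b) ^ 7 = 2 ^ 28 * b ^ 6 * b := by ring
            rw [h1]
            nlinarith
        _ ≤ (A : ℝ) ^ 7 := pow_le_pow_left₀ (by positivity) hAb 7
    have hmain := var_Fh_main2 hn0 (K := K) (N := N) (p := K * N) β hβ hK1 hN1 hN rfl hp hc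
    refine hmain.trans ?_
    rw [← hb]
    exact final_arith2 hr1 hA1R hKle hKlt hK1R hr7 (by positivity)

end Vale.Agent.Lib.P146
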