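import Vale.Agent.Lib.P146.Growth

/-! Module E2: Chebyshev matrices, spectral control. -/

set_option autoImplicit false
open MeasureTheory

namespace Vale.Agent.Lib.P146

variable {n : ℕ}

/-! ### Scalar Chebyshev polynomials -/

/-- The scalar recursion of `chebM`. -/
noncomputable def chebS (x : ℝ) : ℕ → ℝ
  | 0 => 1
  | 1 => x
  | (a + 2) => x * chebS x (a + 1) - chebS x a

theorem chebS_neg (x : ℝ) : ∀ a, chebS (-x) a = (-1) ^ a * chebS x a
  | 0 => by simp [chebS]
  | 1 => by simp [chebS]
  | (a + 2) => by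
    simp only [chebS]
    rw [chebS_neg x (a + 1), chebS_neg x a]
    ring

/-- The conserved quantity. -/
theorem chebS_conserved (x : ℝ) (a : ℕ) :
    chebS x (a + 1) ^ 2 - x * chebS x (a + 1) * chebS x a + chebS x a ^ 2 = 1 := by
  induction a with
  | zero => simp [chebS]; ring
  | succ a ih =>
    have h : chebS x (a + 1 + 1) = x * chebS x (a + 1) - chebS x a := rfl
    rw [h]
    nlinarith [ih]

theorem chebS_abs_le {x : ℝ} (hx : |x| ≤ 2) (a : ℕ) : |chebS x a| ≤ (a : ℝ) + 1 := by
  induction a with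
  | zero => simp [chebS]
  | succ a ih =>
    have h := chebS_conserved x a
    have hx2 : x ^ 2 ≤ 4 := by
      have := abs_le.1 hx
      nlinarith
    have hsq : (chebS x (a + 1) - (x / 2) * chebS x a) ^ 2 ≤ 1 := by
      have : (chebS x (a + 1) - (x / 2) * chebS x a) ^ 2
          = 1 - (1 - x ^ 2 / 4) * chebS x a ^ 2 := by
        nlinarith [h]
      rw [this]
      have h3 : 0 ≤ (1 - x ^ 2 / 4) * chebS x a ^ 2 :=
        mul_nonneg (by linarith) (sq_nonneg _)
      linarith
    have h1 : |chebS x (a + 1) - (x / 2) * chebS x a| ≤ 1 := by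
      rw [← abs_one]
      exact sq_le_sq.1 (by simpa using hsq)
    have h2 : |(x / 2) * chebS x a| ≤ |chebS x a| := by
      rw [abs_mul]
      have : |x / 2| ≤ 1 := by
        rw [abs_div]
        norm_num
        linarith
      nlinarith [abs_nonneg (chebS x a)]
    have h3 : |chebS x (a + 1)| ≤ |chebS x (a + 1) - (x / 2) * chebS x a| + |(x / 2) * chebS x a| := by
      have := abs_add_le (chebS x (a + 1) - (x / 2) * chebS x a) ((x / 2) * chebS x a)
      simpa using this
    push_cast
    linarith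

/-- With `x = r + s`, `r s = 1`. -/
theorem chebS_succ_of_prod {r s : ℝ} (hrs : r * s = 1) (a : ℕ) :
    chebS (r + s) (a + 1) = r * chebS (r + s) a + s ^ (a + 1) := by
  induction a with
  | zero => simp [chebS]
  | succ a ih =>
    have h : chebS (r + s) (a + 1 + 1) = (r + s) * chebS (r + s) (a + 1) - chebS (r + s) a := rfl
    rw [h, ih]
    have e1 : r * s ^ (a + 1) = s ^ a := by
      rw [pow_succ]
      calc r * (s ^ a * s) = s ^ a * (r * s) := by ring
        _ = s ^ a := by rw [hrs, mul_one]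
    have e2 : s * (r * chebS (r + s) a) = chebS (r + s) a := by
      calc s * (r * chebS (r + s) a) = (r * s) * chebS (r + s) a := by ring
        _ = _ := by rw [hrs, one_mul]
    calc (r + s) * (r * chebS (r + s) a + s ^ (a + 1)) - chebS (r + s) a
        = r * (r * chebS (r + s) a + s ^ (a + 1)) + (s * (r * chebS (r + s) a) - chebS (r + s) a)
          + s ^ (a + 1 + 1) := by ring
      _ = _ := by rw [e2]; ring

theorem chebS_bounds {r s : ℝ} (hr : 1 ≤ r) (hs : 0 < s) (hrs : r * s = 1) (hsr : s ≤ r) (a : ℕ) :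
    r ^ a ≤ chebS (r + s) a ∧ chebS (r + s) a ≤ ((a : ℝ) + 1) * r ^ a := by
  induction a with
  | zero => simp [chebS]
  | succ a ih =>
    rw [chebS_succ_of_prod hrs]
    have h0 : 0 < r := by linarith
    have hp : s ^ (a + 1) ≤ r ^ (a + 1) := pow_le_pow_left₀ hs.le hsr _
    have hp0 : 0 < s ^ (a + 1) := pow_pos hs _
    constructor
    · have := mul_le_mul_of_nonneg_left ih.1 h0.le
      rw [pow_succ]
      nlinarith
    · have := mul_le_mul_of_nonneg_left ih.2 h0.le
      push_cast
      have e : r * (((a : ℝ) + 1) * r ^ a) = ((a : ℝ) + 1) * r ^ (a + 1) := by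
        rw [pow_succ]; ring
      rw [e] at this
      nlinarith

/-- The scalar inversion: a bound at `p` gives a bound for `a ≤ p`. -/
theorem chebS_sq_le {x R : ℝ} {p a : ℕ} (hp : 1 ≤ p) (hR : 1 ≤ R)
    (h : chebS x p ^ 2 ≤ R ^ (2 * p)) : chebS x a ^ 2 ≤ (((a : ℝ) + 1) * R ^ a) ^ 2 := by
  -- reduce to `x ≥ 0`
  have hreduce : ∀ b, chebS x b ^ 2 = chebS |x| b ^ 2 := by
    intro b
    rcases abs_cases x with ⟨h1, _⟩ | ⟨h1, _⟩
    · rw [h1]
    · rw [h1, chebS_neg, mul_pow, ← pow_mul, mul_comm b 2, pow_mul]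
      simp
  rw [hreduce a]
  rw [hreduce p] at h
  set y := |x| with hy
  have hy0 : 0 ≤ y := abs_nonneg x
  have hRa : 1 ≤ R ^ a := one_le_pow₀ hR
  have ha0 : (0 : ℝ) ≤ (a : ℝ) + 1 := by positivity
  by_cases h2 : y ≤ 2
  · have h3 := chebS_abs_le (x := y) (by rw [abs_of_nonneg hy0]; exact h2) a
    refine sq_le_sq.2 ?_
    rw [abs_of_nonneg (mul_nonneg ha0 (by linarith))]
    calc |chebS y a| ≤ (a : ℝ) + 1 := h3
      _ ≤ _ := le_mul_of_one_le_right ha0 hRa
  · push Not at h2
    set d := Real.sqrt (y ^ 2 - 4) with hd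
    have hd0 : 0 ≤ d := Real.sqrt_nonneg _
    have hd2 : d ^ 2 = y ^ 2 - 4 := Real.sq_sqrt (by nlinarith)
    have hdy : d < y := by
      by_contra hc
      push Not at hc
      nlinarith
    set r := (y + d) / 2 with hr
    set s := (y - d) / 2 with hs
    have hrs : r * s = 1 := by
      simp only [hr, hs]
      nlinarith
    have hsum : r + s = y := by simp only [hr, hs]; ring
    have hs0 : 0 < s := by simp only [hs]; linarith
    have hr1 : 1 ≤ r := by simp only [hr]; linarith
    have hsr : s ≤ r := by simp only [hr, hs]; linarith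
    have hb := chebS_bounds hr1 hs0 hrs hsr
    rw [← hsum] at h ⊢
    -- `r ≤ R`
    have hrR : r ≤ R := by
      have h5 := (hb p).1
      have hrp : 0 ≤ r ^ p := by positivity
      have h6 : (r ^ p) ^ 2 ≤ R ^ (2 * p) :=
        (pow_le_pow_left₀ hrp h5 2).trans h
      have h7 : (r ^ p) ^ 2 = (r ^ 2) ^ p := by rw [← pow_mul, ← pow_mul, mul_comm]
      rw [h7, pow_mul] at h6
      have h8 := (pow_le_pow_iff_left₀ (by positivity) (by positivity) (by omega)).1 h6
      exact (pow_le_pow_iff_left₀ (by linarith) (by linarith) (by norm_num)).1 h8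
    have h9 := hb a
    have h10 : 0 ≤ chebS (r + s) a := (pow_nonneg (by linarith) a).trans h9.1
    refine pow_le_pow_left₀ h10 ?_ 2
    refine h9.2.trans (mul_le_mul_of_nonneg_left ?_ ha0)
    exact pow_le_pow_left₀ (by linarith) hrR a

/-! ### Symmetry and diagonalisation -/

theorem cc_symm (x y : Fin n) : cc x y = cc y x := by
  unfold cc
  by_cases h : x = y
  · simp [h]
  · simp [h, Ne.symm h]

theorem Jh_symm (g : Pt n) : (Jh g).IsSymm := by
  refine Matrix.IsSymm.ext fun x y => ?_
  simp only [Jh, Matrix.of_apply]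
  rw [cc_symm y x, Sym2.eq_swap]

theorem chebM_commute (J : Matrix (Fin n) (Fin n) ℝ) : ∀ a, Commute J (chebM J a)
  | 0 => by simp [chebM]
  | 1 => by simp [chebM]
  | (a + 2) => by
    simp only [chebM]
    exact ((Commute.refl J).mul_right (chebM_commute J (a + 1))).sub_right (chebM_commute J a)

theorem chebM_symm' {J : Matrix (Fin n) (Fin n) ℝ} (hJ : J.IsSymm) : ∀ a, (chebM J a).IsSymm
  | 0 => by simp [chebM, Matrix.IsSymm]
  | 1 => by simpa [chebM] using hJ
  | (a + 2) => by
    simp only [chebM]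
    have h1 := chebM_symm' hJ (a + 1)
    have h2 := chebM_symm' hJ a
    unfold Matrix.IsSymm at *
    rw [Matrix.transpose_sub, Matrix.transpose_mul, h1, h2, hJ]
    rw [(chebM_commute J (a + 1)).eq]

theorem chebM_symm (g : Pt n) (a : ℕ) : (chebM (Jh g) a).IsSymm := chebM_symm' (Jh_symm g) a

theorem trace_mul_self_eq {M : Matrix (Fin n) (Fin n) ℝ} (hM : M.IsSymm) :
    Matrix.trace (M * M) = ∑ x, ∑ y, M x y ^ 2 := by
  simp only [Matrix.trace, Matrix.diag_apply, Matrix.mul_apply]
  refine Finset.sum_congr rfl fun x _ => Finset.sum_congr rfl fun y _ => ?_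
  rw [hM.apply x y, sq]

theorem trace_cheb_nonneg (p : ℕ) (g : Pt n) :
    0 ≤ Matrix.trace (chebM (Jh g) p * chebM (Jh g) p) := by
  rw [trace_mul_self_eq (chebM_symm g p)]
  exact Finset.sum_nonneg fun x _ => Finset.sum_nonneg fun y _ => sq_nonneg _

theorem rhoH_ge_one (p : ℕ) (g : Pt n) : 1 ≤ rhoH p g := by
  unfold rhoH
  exact Real.one_le_rpow (by linarith [trace_cheb_nonneg p g]) (by positivity)

theorem PG_Jh_entry (x y : Fin n) : PG (fun g : Pt n => Jh g x y) := by
  have : (fun g : Pt n => Jh g x y) = fun g => (cc x y / Real.sqrt n) * g s(x, y) := by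
    funext g
    simp only [Jh, Matrix.of_apply]
    ring
  rw [this]
  exact (PG.const _).mul (PG.coord _)

theorem PG_chebM_entry (a : ℕ) (x y : Fin n) : PG (fun g : Pt n => chebM (Jh g) a x y) := by
  induction a using Nat.strong_induction_on generalizing x y with
  | _ a ih =>
    match a, ih with
    | 0, _ =>
      have : (fun g : Pt n => chebM (Jh g) 0 x y) = fun _ => (1 : Matrix (Fin n) (Fin n) ℝ) x y := by
        funext g
        simp [chebM]
      rw [this]
      exact PG.const _
    | 1, _ =>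
      simpa [chebM] using PG_Jh_entry x y
    | (a + 2), ih =>
      have : (fun g : Pt n => chebM (Jh g) (a + 2) x y)
          = fun g => (∑ z, Jh g x z * chebM (Jh g) (a + 1) z y) - chebM (Jh g) a x y := by
        funext g
        simp [chebM, Matrix.sub_apply, Matrix.mul_apply]
      rw [this]
      refine PG.sub (PG.finset_sum _ fun z _ => (PG_Jh_entry x z).mul (ih _ (by omega) z y))
        (ih _ (by omega) x y)

theorem PG_trace_cheb (p : ℕ) :
    PG (fun g : Pt n => Matrix.trace (chebM (Jh g) p * chebM (Jh g) p)) := by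
  have : (fun g : Pt n => Matrix.trace (chebM (Jh g) p * chebM (Jh g) p))
      = fun g => ∑ x, ∑ y, chebM (Jh g) p x y ^ 2 := by
    funext g
    exact trace_mul_self_eq (chebM_symm g p)
  rw [this]
  exact PG.finset_sum _ fun x _ => PG.finset_sum _ fun y _ => (PG_chebM_entry p x y).pow 2

theorem PG_rhoH {p : ℕ} (hp : 1 ≤ p) : PG (rhoH (n := n) p) := by
  have hT := PG_trace_cheb (n := n) p
  have h1 : PG (fun g : Pt n => 1 + Matrix.trace (chebM (Jh g) p * chebM (Jh g) p)) :=
    (PG.const 1).add hT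
  refine PG.of_le (h1.1.pow_const _) h1 fun g => ?_
  have h0 := trace_cheb_nonneg p g
  have hb : (1 : ℝ) ≤ 1 + Matrix.trace (chebM (Jh g) p * chebM (Jh g) p) := by linarith
  have hp' : (1 : ℝ) ≤ p := by exact_mod_cast hp
  have he : (1 : ℝ) / (2 * p) ≤ 1 := by
    rw [div_le_one (by positivity)]
    linarith
  have h2 := Real.rpow_le_rpow_of_exponent_le hb he
  rw [Real.rpow_one] at h2
  have h3 : 0 ≤ rhoH p g := by linarith [rhoH_ge_one p g]
  rw [abs_of_nonneg h3, abs_of_nonneg (by linarith)]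
  exact h2

/-- Orthogonal diagonalisation of a real symmetric matrix. -/
theorem exists_diag {J : Matrix (Fin n) (Fin n) ℝ} (hJ : J.IsSymm) :
    ∃ (Q : Matrix (Fin n) (Fin n) ℝ) (l : Fin n → ℝ),
      Q.transpose * Q = 1 ∧ Q * Q.transpose = 1 ∧
        J = Q * Matrix.diagonal l * Q.transpose := by
  have hH : J.IsHermitian := by
    unfold Matrix.IsHermitian
    rw [Matrix.conjTranspose_eq_transpose_of_trivial]
    exact hJ
  refine ⟨(hH.eigenvectorUnitary : Matrix (Fin n) (Fin n) ℝ), hH.eigenvalues, ?_, ?_, ?_⟩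
  · have := Unitary.coe_star_mul_self hH.eigenvectorUnitary
    simpa [Matrix.star_eq_conjTranspose, Matrix.conjTranspose_eq_transpose_of_trivial] using this
  · have := Unitary.coe_mul_star_self hH.eigenvectorUnitary
    simpa [Matrix.star_eq_conjTranspose, Matrix.conjTranspose_eq_transpose_of_trivial] using this
  · have h := hH.spectral_theorem
    rw [Unitary.conjStarAlgAut_apply] at h
    simpa [Matrix.star_eq_conjTranspose, Matrix.conjTranspose_eq_transpose_of_trivial,
      Function.comp_def] using h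

theorem chebM_diag {J Q : Matrix (Fin n) (Fin n) ℝ} {l : Fin n → ℝ}
    (h1 : Q.transpose * Q = 1) (h2 : Q * Q.transpose = 1)
    (hJ : J = Q * Matrix.diagonal l * Q.transpose) :
    ∀ a, chebM J a = Q * Matrix.diagonal (fun i => chebS (l i) a) * Q.transpose
  | 0 => by simp [chebM, chebS, h2]
  | 1 => by simpa [chebM, chebS] using hJ
  | (a + 2) => by
    simp only [chebM]
    rw [chebM_diag h1 h2 hJ (a + 1), chebM_diag h1 h2 hJ a]
    have e : Matrix.diagonal (fun i => chebS (l i) (a + 2))
        = Matrix.diagonal l * Matrix.diagonal (fun i => chebS (l i) (a + 1))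
          - Matrix.diagonal (fun i => chebS (l i) a) := by
      rw [Matrix.diagonal_mul_diagonal]
      ext i j
      by_cases hij : i = j
      · subst hij
        simp [chebS]
      · simp [Matrix.diagonal_apply_ne, hij]
    rw [e, hJ]
    have e2 : Q * Matrix.diagonal l * Q.transpose *
        (Q * Matrix.diagonal (fun i => chebS (l i) (a + 1)) * Q.transpose)
        = Q * (Matrix.diagonal l * (Q.transpose * Q) *
          Matrix.diagonal (fun i => chebS (l i) (a + 1))) * Q.transpose := by
      simp only [Matrix.mul_assoc]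
    rw [e2, h1, Matrix.mul_one, Matrix.mul_sub, Matrix.sub_mul]

/-- Isometry. -/
theorem dot_isometry {Q : Matrix (Fin n) (Fin n) ℝ} (h1 : Q.transpose * Q = 1) (z : Fin n → ℝ) :
    dotProduct (Q.mulVec z) (Q.mulVec z) = dotProduct z z := by
  rw [Matrix.dotProduct_mulVec, ← Matrix.vecMul_transpose, Matrix.vecMul_vecMul, h1,
    Matrix.vecMul_one]

/-- Operator bound: `‖U_a v‖ ≤ (a+1) ρ^a ‖v‖` for `a ≤ p`. -/
theorem spectral_bound {p a : ℕ} (hp : 1 ≤ p) (ha : a ≤ p) (g : Pt n) (v : Fin n → ℝ) :
    ∑ x, ((chebM (Jh g) a).mulVec v x) ^ 2 ≤ (((a : ℝ) + 1) * rhoH p g ^ a) ^ 2 * ∑ x, v x ^ 2 := by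
  obtain ⟨Q, l, h1, h2, hJ⟩ := exists_diag (Jh_symm g)
  set R := rhoH p g with hR
  have hR1 : 1 ≤ R := rhoH_ge_one p g
  have hT := trace_cheb_nonneg p g
  have hdiag := chebM_diag h1 h2 hJ
  -- the trace in the eigenbasis
  have htr : Matrix.trace (chebM (Jh g) p * chebM (Jh g) p) = ∑ i, chebS (l i) p ^ 2 := by
    rw [hdiag p]
    have e : Q * Matrix.diagonal (fun i => chebS (l i) p) * Q.transpose *
        (Q * Matrix.diagonal (fun i => chebS (l i) p) * Q.transpose)
        = Q * (Matrix.diagonal (fun i => chebS (l i) p) * (Q.transpose * Q) *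
          Matrix.diagonal (fun i => chebS (l i) p)) * Q.transpose := by
      simp only [Matrix.mul_assoc]
    rw [e, h1, Matrix.mul_one, Matrix.trace_mul_comm, ← Matrix.mul_assoc, h1, Matrix.one_mul,
      Matrix.diagonal_mul_diagonal, Matrix.trace_diagonal]
    exact Finset.sum_congr rfl fun i _ => (sq _).symm
  -- the scalar bound at `p`
  have hRp : R ^ (2 * p) = 1 + Matrix.trace (chebM (Jh g) p * chebM (Jh g) p) := by
    rw [hR]
    unfold rhoH
    have hp' : (p : ℝ) ≠ 0 := by
      have : (1 : ℝ) ≤ p := by exact_mod_cast hp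
      linarith
    rw [← Real.rpow_natCast, ← Real.rpow_mul (by linarith)]
    have : (1 : ℝ) / (2 * p) * ((2 * p : ℕ) : ℝ) = 1 := by
      push_cast
      field_simp
    rw [this, Real.rpow_one]
  have hscalar : ∀ i, chebS (l i) a ^ 2 ≤ (((a : ℝ) + 1) * R ^ a) ^ 2 := by
    intro i
    refine chebS_sq_le hp hR1 ?_
    rw [hRp, htr]
    have := Finset.single_le_sum (f := fun i => chebS (l i) p ^ 2) (fun j _ => sq_nonneg _)
      (Finset.mem_univ i)
    linarith
  -- now the vector
  set w := Q.transpose.mulVec v with hw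
  have hUv : (chebM (Jh g) a).mulVec v
      = Q.mulVec ((Matrix.diagonal fun i => chebS (l i) a).mulVec w) := by
    rw [hdiag a, hw, Matrix.mulVec_mulVec, Matrix.mulVec_mulVec, Matrix.mul_assoc]
  have hnorm1 : ∑ x, ((chebM (Jh g) a).mulVec v x) ^ 2
      = ∑ i, (chebS (l i) a * w i) ^ 2 := by
    have h3 := dot_isometry h1 ((Matrix.diagonal fun i => chebS (l i) a).mulVec w)
    rw [← hUv] at h3
    simp only [dotProduct, ← sq, Matrix.mulVec_diagonal] at h3
    exact h3
  have hnorm2 : ∑ i, w i ^ 2 = ∑ x, v x ^ 2 := by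
    have h4 : Q.transpose.transpose * Q.transpose = 1 := by
      rw [Matrix.transpose_transpose]
      exact h2
    have h3 := dot_isometry h4 v
    simpa only [dotProduct, ← sq, hw] using h3
  rw [hnorm1, ← hnorm2, Finset.mul_sum]
  refine Finset.sum_le_sum fun i _ => ?_
  rw [mul_pow]
  exact mul_le_mul_of_nonneg_right (hscalar i) (sq_nonneg _)

end Vale.Agent.Lib.P146
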