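import Vale.Agent.Lib.P146.Defs

/-! Helper for module E1: `ℓ²` calculus on finitely supported sequences and weighted partial shifts. -/

set_option autoImplicit false

namespace Vale.Agent.Lib.P146.ChebX

open Finsupp

variable {A B : Type*}

theorem nrm2_eq_sum (c : A →₀ ℝ) (T : Finset A) (h : c.support ⊆ T) :
    nrm2 c = ∑ b ∈ T, c b ^ 2 := by
  unfold nrm2
  exact Finsupp.sum_of_support_subset _ h _ (by simp)

theorem nrm2_nonneg (c : A →₀ ℝ) : 0 ≤ nrm2 c := by
  unfold nrm2 Finsupp.sum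
  exact Finset.sum_nonneg fun _ _ => sq_nonneg _

theorem nrm_nonneg (c : A →₀ ℝ) : 0 ≤ nrm c := Real.sqrt_nonneg _

theorem nrm_sq (c : A →₀ ℝ) : nrm c ^ 2 = nrm2 c := Real.sq_sqrt (nrm2_nonneg c)

theorem nrm_zero : nrm (0 : A →₀ ℝ) = 0 := by
  simp [nrm, nrm2]

theorem nrm2_single [DecidableEq A] (a : A) (r : ℝ) : nrm2 (Finsupp.single a r) = r ^ 2 := by
  unfold nrm2
  exact Finsupp.sum_single_index (by simp)

theorem nrm_single [DecidableEq A] (a : A) (r : ℝ) : nrm (Finsupp.single a r) = |r| := by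
  unfold nrm
  rw [nrm2_single, Real.sqrt_sq_eq_abs]

theorem nrm_add_le (c d : A →₀ ℝ) : nrm (c + d) ≤ nrm c + nrm d := by
  classical
  set T := c.support ∪ d.support with hT
  have h1 : nrm2 c = ∑ b ∈ T, c b ^ 2 := nrm2_eq_sum c T Finset.subset_union_left
  have h2 : nrm2 d = ∑ b ∈ T, d b ^ 2 := nrm2_eq_sum d T Finset.subset_union_right
  have h3 : nrm2 (c + d) = ∑ b ∈ T, (c b + d b) ^ 2 := by
    have := nrm2_eq_sum (c + d) T Finsupp.support_add
    simpa using this
  have hcs : (∑ b ∈ T, c b * d b) ^ 2 ≤ (∑ b ∈ T, c b ^ 2) * (∑ b ∈ T, d b ^ 2) :=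
    Finset.sum_mul_sq_le_sq_mul_sq _ _ _
  have hc := nrm_nonneg c
  have hd := nrm_nonneg d
  have hcd : ∑ b ∈ T, c b * d b ≤ nrm c * nrm d := by
    have : (∑ b ∈ T, c b * d b) ^ 2 ≤ (nrm c * nrm d) ^ 2 := by
      rw [mul_pow, nrm_sq, nrm_sq, h1, h2]
      exact hcs
    exact abs_le_of_sq_le_sq' this (mul_nonneg hc hd) |>.2
  unfold nrm at *
  apply Real.sqrt_le_iff.mpr
  refine ⟨add_nonneg hc hd, ?_⟩
  have e : ∑ b ∈ T, (c b + d b) ^ 2 =
      ∑ b ∈ T, c b ^ 2 + 2 * ∑ b ∈ T, c b * d b + ∑ b ∈ T, d b ^ 2 := by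
    rw [Finset.mul_sum, ← Finset.sum_add_distrib, ← Finset.sum_add_distrib]
    exact Finset.sum_congr rfl fun b _ => by ring
  rw [h3, e, ← h1, ← h2]
  have s1 := Real.sq_sqrt (nrm2_nonneg c)
  have s2 := Real.sq_sqrt (nrm2_nonneg d)
  nlinarith

theorem nrm_sum_le {ι : Type*} (s : Finset ι) (f : ι → A →₀ ℝ) :
    nrm (∑ i ∈ s, f i) ≤ ∑ i ∈ s, nrm (f i) := by
  classical
  induction s using Finset.induction_on with
  | empty => simp [nrm_zero]
  | insert a s ha ih =>
    rw [Finset.sum_insert ha, Finset.sum_insert ha]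
    exact (nrm_add_le _ _).trans (by linarith)

/-- A weighted map of sequences. -/
noncomputable def wop (φ : A → B) (w : A → ℝ) (ξ : A →₀ ℝ) : B →₀ ℝ :=
  ξ.sum fun q r => Finsupp.single (φ q) (r * w q)

theorem wop_add (φ : A → B) (w : A → ℝ) (ξ ξ' : A →₀ ℝ) :
    wop φ w (ξ + ξ') = wop φ w ξ + wop φ w ξ' := by
  classical
  unfold wop
  exact Finsupp.sum_add_index' (by simp) (by intros; simp [add_mul, Finsupp.single_add])

theorem wop_zero (φ : A → B) (w : A → ℝ) : wop φ w 0 = 0 := by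
  simp [wop]

theorem wop_single (φ : A → B) (w : A → ℝ) (q : A) (r : ℝ) :
    wop φ w (Finsupp.single q r) = Finsupp.single (φ q) (r * w q) := by
  classical
  unfold wop
  exact Finsupp.sum_single_index (by simp)

theorem mem_support_wop (φ : A → B) (w : A → ℝ) (ξ : A →₀ ℝ) {b : B}
    (hb : b ∈ (wop φ w ξ).support) : ∃ q ∈ ξ.support, w q ≠ 0 ∧ φ q = b := by
  classical
  unfold wop at hb
  have := Finsupp.support_sum hb
  simp only [Finset.mem_biUnion] at this
  obtain ⟨q, hq, hb'⟩ := this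
  by_cases hw : w q = 0
  · simp [hw] at hb'
  · refine ⟨q, hq, hw, ?_⟩
    have := Finsupp.support_single_subset hb'
    simpa using (Finset.mem_singleton.mp this).symm

/-- Norm of a sum of singletons with distinct positions. -/
theorem nrm2_sum_single {I : Type*} (s : Finset I) (φ : I → B) (a : I → ℝ)
    (hinj : ∀ q ∈ s, ∀ q' ∈ s, a q ≠ 0 → a q' ≠ 0 → φ q = φ q' → q = q') :
    nrm2 (∑ q ∈ s, Finsupp.single (φ q) (a q)) = ∑ q ∈ s, a q ^ 2 := by
  classical
  induction s using Finset.induction_on with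
  | empty => simp [nrm2]
  | insert q₀ s hq₀ ih =>
    have ih' := ih fun q hq q' hq' => hinj q (Finset.mem_insert_of_mem hq) q'
      (Finset.mem_insert_of_mem hq')
    rw [Finset.sum_insert hq₀, Finset.sum_insert hq₀, ← ih']
    by_cases ha : a q₀ = 0
    · simp [ha]
    set R := ∑ q ∈ s, Finsupp.single (φ q) (a q) with hR
    have hR0 : R (φ q₀) = 0 := by
      rw [hR, Finsupp.finsetSum_apply]
      refine Finset.sum_eq_zero fun q hq => ?_
      rw [Finsupp.single_apply]
      split_ifs with h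
      · by_contra hne
        have := hinj q (Finset.mem_insert_of_mem hq) q₀ (Finset.mem_insert_self _ _) hne ha h
        exact hq₀ (this ▸ hq)
      · rfl
    set T := insert (φ q₀) R.support with hT
    have hnot : φ q₀ ∉ R.support := by simpa using hR0
    rw [nrm2_eq_sum R T (Finset.subset_insert _ _), nrm2_eq_sum _ T ?_]
    · rw [hT, Finset.sum_insert hnot, Finset.sum_insert hnot]
      simp only [Finsupp.add_apply, Finsupp.single_eq_same, hR0, add_zero]
      congr 1
      rw [zero_pow two_ne_zero, zero_add]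
      apply Finset.sum_congr rfl
      intro b hb
      have hb' : φ q₀ ≠ b := by
        rintro rfl; exact hnot hb
      simp [Finsupp.single_eq_of_ne hb'.symm]
    · refine Finsupp.support_add.trans ?_
      refine Finset.union_subset ?_ (Finset.subset_insert _ _)
      refine (Finsupp.support_single_subset).trans ?_
      simp [hT]

theorem wop_eq_sum [DecidableEq A] (φ : A → B) (w : A → ℝ) (ξ : A →₀ ℝ) :
    wop φ w ξ = ∑ q ∈ ξ.support, Finsupp.single (φ q) (ξ q * w q) := rfl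

/-- A weighted map, injective where the weight does not vanish, bounded by the sup of the weight. -/
theorem nrm_wop_le (φ : A → B) (w : A → ℝ) (ξ : A →₀ ℝ) (W : ℝ) (hW : 0 ≤ W)
    (hinj : ∀ q ∈ ξ.support, ∀ q' ∈ ξ.support, w q ≠ 0 → w q' ≠ 0 → φ q = φ q' → q = q')
    (hw : ∀ q ∈ ξ.support, |w q| ≤ W) : nrm (wop φ w ξ) ≤ W * nrm ξ := by
  classical
  have h1 : nrm2 (wop φ w ξ) = ∑ q ∈ ξ.support, (ξ q * w q) ^ 2 := by
    unfold wop Finsupp.sum
    apply nrm2_sum_single
    intro q hq q' hq' h h' hφ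
    refine hinj q hq q' hq' (right_ne_zero_of_mul h) (right_ne_zero_of_mul h') hφ
  have h2 : nrm2 ξ = ∑ q ∈ ξ.support, ξ q ^ 2 := nrm2_eq_sum ξ _ (Finset.Subset.refl _)
  have h3 : nrm2 (wop φ w ξ) ≤ W ^ 2 * nrm2 ξ := by
    rw [h1, h2, Finset.mul_sum]
    refine Finset.sum_le_sum fun q hq => ?_
    rw [mul_pow, mul_comm]
    apply mul_le_mul_of_nonneg_right _ (sq_nonneg _)
    exact sq_le_sq' (by linarith [neg_abs_le (w q), hw q hq]) (by linarith [le_abs_self (w q), hw q hq])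
  unfold nrm
  rw [← Real.sqrt_sq hW, ← Real.sqrt_mul (sq_nonneg _)]
  exact Real.sqrt_le_sqrt h3

end Vale.Agent.Lib.P146.ChebX
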