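import Vale.Agent.Lib.P146.Growth

/-! Module B2: the Wick realisation `Ev`. -/

set_option autoImplicit false
open MeasureTheory ProbabilityTheory MvPolynomial

namespace Vale.Agent.Lib.P146

variable {n : ℕ}

/-! ### Hermite polynomials -/

theorem hermite_derivative (k : ℕ) :
    Polynomial.derivative (Polynomial.hermite (k + 1)) = ((k : ℤ) + 1) • Polynomial.hermite k := by
  induction k with
  | zero => simp [Polynomial.hermite_zero]
  | succ k ih =>
    have h1 := Polynomial.hermite_succ (k + 1)
    have h2 := Polynomial.hermite_succ k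
    rw [h1]
    simp only [Polynomial.derivative_sub, Polynomial.derivative_mul, Polynomial.derivative_X, one_mul]
    rw [ih, Polynomial.derivative_smul, h2]
    simp only [smul_sub, zsmul_eq_mul, add_smul, one_smul]
    push_cast
    ring

theorem He_zero (t : ℝ) : He 0 t = 1 := by
  simp [He, Polynomial.hermite_zero]

theorem He_deriv (k : ℕ) (t : ℝ) :
    Polynomial.aeval t (Polynomial.derivative (Polynomial.hermite k)) = (k : ℝ) * He (k - 1) t := by
  cases k with
  | zero => simp [Polynomial.hermite_zero]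
  | succ k =>
    rw [hermite_derivative]
    simp [He, zsmul_eq_mul]

theorem He_succ (k : ℕ) (t : ℝ) : He (k + 1) t = t * He k t - (k : ℝ) * He (k - 1) t := by
  rw [← He_deriv]
  simp [He, Polynomial.hermite_succ, map_sub, map_mul]

theorem He_hasDerivAt (k : ℕ) (t : ℝ) : HasDerivAt (He k) ((k : ℝ) * He (k - 1) t) t := by
  have := Polynomial.hasDerivAt_aeval (𝕜 := ℝ) (Polynomial.hermite k) t
  rwa [He_deriv] at this

/-! ### `Ev` on monomials -/

theorem Ev_monomial (α : Ed n →₀ ℕ) (a : ℝ) (g : Pt n) :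
    Ev (monomial α a) g = a * ∏ e, He (α e) (g e) := by
  have h1 : monomial α a = a • monomial α (1 : ℝ) := by simp [MvPolynomial.smul_monomial]
  have h2 : (Ev (monomial α (1 : ℝ)) : Pt n → ℝ) = fun g => ∏ e, He (α e) (g e) := by
    have := (basisMonomials (Ed n) ℝ).constr_basis ℝ (fun α (g : Pt n) => ∏ e, He (α e) (g e)) α
    simpa [Ev, coe_basisMonomials] using this
  rw [h1, map_smul, Pi.smul_apply, h2, smul_eq_mul]

theorem Ev_one (g : Pt n) : Ev (1 : Rr n) g = 1 := by
  have h : (1 : Rr n) = monomial 0 1 := rfl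
  rw [h, Ev_monomial]
  simp [He_zero]

theorem Ev_C_mul (a : ℝ) (p : Rr n) (g : Pt n) : Ev (C a * p) g = a * Ev p g := by
  rw [MvPolynomial.C_mul', map_smul, Pi.smul_apply, smul_eq_mul]

theorem Ev_add (p q : Rr n) (g : Pt n) : Ev (p + q) g = Ev p g + Ev q g := by
  simp

theorem Ev_sum {ι : Type*} (s : Finset ι) (p : ι → Rr n) (g : Pt n) :
    Ev (∑ i ∈ s, p i) g = ∑ i ∈ s, Ev (p i) g := by
  simp [map_sum, Finset.sum_apply]

/-- Split a product at `e`. -/
theorem He_prod_split (e : Ed n) (β α : Ed n →₀ ℕ) (g : Pt n) (h : ∀ e', e' ≠ e → β e' = α e') :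
    ∏ e', He (β e') (g e') = He (β e) (g e) * ∏ e' ∈ Finset.univ.erase e, He (α e') (g e') := by
  rw [← Finset.mul_prod_erase Finset.univ _ (Finset.mem_univ e)]
  congr 1
  refine Finset.prod_congr rfl fun e' he' => ?_
  rw [h e' (Finset.ne_of_mem_erase he')]

/-- (W1) -/
theorem Ev_X_mul (e : Ed n) (p : Rr n) (g : Pt n) :
    Ev (X e * p) g = g e * Ev p g - Ev (pderiv e p) g := by
  induction p using MvPolynomial.induction_on' with
  | monomial α a =>
    have h1 : (X e : Rr n) * monomial α a = monomial (Finsupp.single e 1 + α) a := by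
      rw [X, monomial_mul, one_mul]
    rw [h1, pderiv_monomial, Ev_monomial, Ev_monomial, Ev_monomial]
    rw [He_prod_split e (Finsupp.single e 1 + α) α g (fun e' he' => by simp [he'.symm]),
      He_prod_split e α α g (fun _ _ => rfl),
      He_prod_split e (α - Finsupp.single e 1) α g (fun e' he' => by simp [he'.symm])]
    simp only [Finsupp.coe_add, Pi.add_apply, Finsupp.single_eq_same, Finsupp.coe_tsub, Pi.sub_apply]
    rw [add_comm 1 (α e), He_succ]
    ring
  | add p q hp hq =>
    simp only [mul_add, map_add, Pi.add_apply]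
    rw [hp, hq]
    ring

/-- (W2) -/
theorem Ev_hasDerivAt (e : Ed n) (p : Rr n) (g : Pt n) :
    HasDerivAt (fun t => Ev p (Function.update g e t)) (Ev (pderiv e p) g) (g e) := by
  induction p using MvPolynomial.induction_on' with
  | monomial α a =>
    rw [pderiv_monomial, Ev_monomial]
    have h1 : (fun t => Ev (monomial α a) (Function.update g e t)) =
        fun t => (a * (∏ e' ∈ Finset.univ.erase e, He (α e') (g e'))) * He (α e) t := by
      funext t
      rw [Ev_monomial, He_prod_split e α α _ (fun _ _ => rfl)]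
      simp only [Function.update_self]
      have : ∀ e' ∈ Finset.univ.erase e, He (α e') (Function.update g e t e') = He (α e') (g e') := by
        intro e' he'
        rw [Function.update_of_ne (Finset.ne_of_mem_erase he')]
      rw [Finset.prod_congr rfl this]
      ring
    rw [h1]
    have h2 := (He_hasDerivAt (α e) (g e)).const_mul (a * (∏ e' ∈ Finset.univ.erase e, He (α e') (g e')))
    refine h2.congr_deriv ?_
    rw [He_prod_split e (α - Finsupp.single e 1) α g (fun e' he' => by simp [he'.symm])]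
    simp only [Finsupp.coe_tsub, Pi.sub_apply, Finsupp.single_eq_same]
    ring
  | add p q hp hq =>
    simp only [map_add, Pi.add_apply]
    exact hp.add hq

theorem PG_aeval (e : Ed n) (P : Polynomial ℤ) : PG (fun g : Pt n => Polynomial.aeval (g e) P) := by
  induction P using Polynomial.induction_on' with
  | add p q hp hq =>
    simp only [map_add]
    exact hp.add hq
  | monomial m c =>
    simp only [Polynomial.aeval_monomial]
    exact (PG.const _).mul ((PG.coord e).pow m)

theorem PG_Ev (p : Rr n) : PG (Ev p) := by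
  induction p using MvPolynomial.induction_on' with
  | monomial α a =>
    have : (Ev (monomial α a) : Pt n → ℝ) = fun g => a * ∏ e, He (α e) (g e) := by
      funext g; exact Ev_monomial α a g
    rw [this]
    exact (PG.const a).mul (PG.finset_prod _ fun e _ => PG_aeval e (Polynomial.hermite (α e)))
  | add p q hp hq =>
    rw [map_add]
    exact hp.add hq

/-! ### One dimensional integration by parts with polynomial growth -/

open scoped NNReal

theorem hasDerivAt_pdf (v : ℝ) :
    HasDerivAt (gaussianPDFReal 0 1) (-v * gaussianPDFReal 0 1 v) v := by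
  have h1 : gaussianPDFReal 0 1 = fun x => (Real.sqrt (2 * Real.pi * (1 : ℝ≥0)))⁻¹ *
      Real.exp (-(x - 0) ^ 2 / (2 * (1 : ℝ≥0))) := rfl
  rw [h1]
  have h2 : HasDerivAt (fun x : ℝ => -(x - 0) ^ 2 / (2 * ((1 : ℝ≥0) : ℝ))) (-v) v := by
    have h3 : HasDerivAt (fun x : ℝ => (x - 0) ^ 2) (2 * (v - 0) ^ 1 * 1) v :=
      ((hasDerivAt_id' v).sub_const 0).fun_pow 2
    have h4 := (h3.neg).div_const (2 * ((1 : ℝ≥0) : ℝ))
    refine h4.congr_deriv ?_
    simp
    ring
  have h5 := (h2.exp).const_mul ((Real.sqrt (2 * Real.pi * ((1 : ℝ≥0) : ℝ)))⁻¹)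
  refine h5.congr_deriv ?_
  ring

theorem integrable_pow_pdf (k : ℕ) : Integrable (fun v : ℝ => |v| ^ k * gaussianPDFReal 0 1 v) := by
  have h0 : Integrable (fun v : ℝ => v ^ ((k : ℕ) : ℝ) * Real.exp (-(1 / 2) * v ^ 2)) :=
    integrable_rpow_mul_exp_neg_mul_sq (by norm_num) (by have : (0 : ℝ) ≤ k := Nat.cast_nonneg k; linarith)
  have h1 := (h0.abs).const_mul ((Real.sqrt (2 * Real.pi * ((1 : ℝ≥0) : ℝ)))⁻¹)
  refine h1.congr (Filter.Eventually.of_forall fun v => ?_)
  have h2 : gaussianPDFReal 0 1 v = (Real.sqrt (2 * Real.pi * ((1 : ℝ≥0) : ℝ)))⁻¹ *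
      Real.exp (-(v - 0) ^ 2 / (2 * ((1 : ℝ≥0) : ℝ))) := rfl
  have h3 : -(v - 0) ^ 2 / (2 * ((1 : ℝ≥0) : ℝ)) = -(1 / 2) * v ^ 2 := by
    simp
    ring
  simp only []
  rw [h2, h3, Real.rpow_natCast, abs_mul, abs_pow, abs_of_pos (Real.exp_pos _)]
  ring

theorem integrable_growth_pdf (N : ℕ) :
    Integrable (fun v : ℝ => (1 + |v|) ^ N * gaussianPDFReal 0 1 v) := by
  have h : (fun v : ℝ => (1 + |v|) ^ N * gaussianPDFReal 0 1 v) =
      fun v => ∑ m ∈ Finset.range (N + 1), (N.choose m : ℝ) * (|v| ^ m * gaussianPDFReal 0 1 v) := by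
    funext v
    rw [add_comm 1 |v|, add_pow, Finset.sum_mul]
    refine Finset.sum_congr rfl fun m _ => ?_
    simp only [one_pow]
    ring
  rw [h]
  exact integrable_finsetSum _ fun m _ => (integrable_pow_pdf m).const_mul _

theorem abs_pdf (v : ℝ) : |gaussianPDFReal 0 1 v| = gaussianPDFReal 0 1 v :=
  abs_of_nonneg (gaussianPDFReal_nonneg 0 1 v)

/-- One-dimensional Gaussian integration by parts with polynomial growth. -/
theorem gaussian_ibp_growth {h h' : ℝ → ℝ} (hd : ∀ v, HasDerivAt h (h' v) v) (hm' : Measurable h')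
    {C C' : ℝ} {N N' : ℕ} (hb : ∀ v, |h v| ≤ C * (1 + |v|) ^ N)
    (hb' : ∀ v, |h' v| ≤ C' * (1 + |v|) ^ N') :
    ∫ v, v * h v ∂(gaussianReal 0 1) = ∫ v, h' v ∂(gaussianReal 0 1) := by
  have hne : (1 : ℝ≥0) ≠ 0 := one_ne_zero
  rw [integral_gaussianReal_eq_integral_smul hne, integral_gaussianReal_eq_integral_smul hne]
  set P := gaussianPDFReal 0 1 with hP
  have hcont : Continuous h := continuous_iff_continuousAt.mpr fun v => (hd v).continuousAt
  have hPm : Measurable P := measurable_gaussianPDFReal 0 1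
  have huv' : Integrable (h * fun v => -v * P v) := by
    have h1 : Integrable (fun v => C * ((1 + |v|) ^ (N + 1) * P v)) :=
      (integrable_growth_pdf (N + 1)).const_mul C
    refine h1.mono' (hcont.measurable.mul
      (((measurable_id.neg).mul hPm))).aestronglyMeasurable ?_
    refine Filter.Eventually.of_forall fun v => ?_
    simp only [Pi.mul_apply, Real.norm_eq_abs, abs_mul, abs_neg]
    have h2 := hb v
    have hC : 0 ≤ C * (1 + |v|) ^ N := le_trans (abs_nonneg _) h2
    have h3 : |P v| = P v := abs_pdf v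
    have h4 : 0 ≤ P v := gaussianPDFReal_nonneg 0 1 v
    rw [h3]
    calc |h v| * (|v| * P v) ≤ (C * (1 + |v|) ^ N) * ((1 + |v|) * P v) := by
          apply mul_le_mul h2 _ (by positivity) hC
          exact mul_le_mul_of_nonneg_right (by linarith) h4
      _ = _ := by ring
  have hu'v : Integrable (h' * P) := by
    have h1 : Integrable (fun v => C' * ((1 + |v|) ^ N' * P v)) :=
      (integrable_growth_pdf N').const_mul C'
    refine h1.mono' (hm'.mul hPm).aestronglyMeasurable ?_
    refine Filter.Eventually.of_forall fun v => ?_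
    simp only [Pi.mul_apply, Real.norm_eq_abs, abs_mul]
    have h3 : |P v| = P v := abs_pdf v
    rw [h3]
    calc |h' v| * P v ≤ (C' * (1 + |v|) ^ N') * P v :=
          mul_le_mul_of_nonneg_right (hb' v) (gaussianPDFReal_nonneg 0 1 v)
      _ = _ := by ring
  have huv : Integrable (h * P) := by
    have h1 : Integrable (fun v => C * ((1 + |v|) ^ N * P v)) :=
      (integrable_growth_pdf N).const_mul C
    refine h1.mono' (hcont.measurable.mul hPm).aestronglyMeasurable ?_
    refine Filter.Eventually.of_forall fun v => ?_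
    simp only [Pi.mul_apply, Real.norm_eq_abs, abs_mul]
    have h3 : |P v| = P v := abs_pdf v
    rw [h3]
    calc |h v| * P v ≤ (C * (1 + |v|) ^ N) * P v :=
          mul_le_mul_of_nonneg_right (hb v) (gaussianPDFReal_nonneg 0 1 v)
      _ = _ := by ring
  have key := integral_mul_deriv_eq_deriv_mul_of_integrable (u := h) (v := P) (u' := h')
    (v' := fun v => -v * P v) (fun x _ => hd x) (fun x _ => hasDerivAt_pdf x)
    huv' hu'v huv
  have e1 : ∫ x, P x • (x * h x) = -∫ x, h x * (-x * P x) := by
    rw [← integral_neg]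
    congr 1
    ext x
    simp only [smul_eq_mul]
    ring
  have e2 : ∫ x, P x • h' x = ∫ x, h' x * P x := by
    congr 1
    ext x
    simp only [smul_eq_mul]
    ring
  rw [e1, e2, key, neg_neg]

/-! ### Fubini along one coordinate -/

/-- Insert a value at coordinate `e`. -/
noncomputable def insC (e : Ed n) (y : {i : Ed n // i ≠ e} → ℝ) (t : ℝ) : Pt n :=
  fun i => if h : i = e then t else y ⟨i, h⟩

theorem insC_same (e : Ed n) (y : {i : Ed n // i ≠ e} → ℝ) (t : ℝ) : insC e y t e = t := by
  simp [insC]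

theorem update_insC (e : Ed n) (y : {i : Ed n // i ≠ e} → ℝ) (t s : ℝ) :
    Function.update (insC e y t) e s = insC e y s := by
  funext i
  by_cases h : i = e
  · subst h; simp [insC]
  · simp [insC, h]

theorem measurable_insC (e : Ed n) (y : {i : Ed n // i ≠ e} → ℝ) : Measurable (insC e y) := by
  refine measurable_pi_lambda _ fun i => ?_
  by_cases h : i = e
  · simp only [insC, h, dite_true]; exact measurable_id
  · simp only [insC, h, dite_false]; exact measurable_const

theorem integral_coord (e : Ed n) (F : Pt n → ℝ) (hF : Integrable F (gam n)) :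
    ∫ g, F g ∂gam n = ∫ y, ∫ t, F (insC e y t) ∂(gaussianReal 0 1)
      ∂(Measure.pi fun _ : {i : Ed n // i ≠ e} => gaussianReal 0 1) := by
  classical
  let μ : Ed n → Measure ℝ := fun _ => gaussianReal 0 1
  have hmp := measurePreserving_piEquivPiSubtypeProd (α := fun _ : Ed n => ℝ) μ (fun i => i ≠ e)
  set E := MeasurableEquiv.piEquivPiSubtypeProd (fun _ : Ed n => ℝ) (fun i => i ≠ e) with hE
  let _ : Unique {i : Ed n // ¬ i ≠ e} :=
    { default := ⟨e, by simp⟩
      uniq := fun i => Subtype.ext (by simpa using i.2) }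
  have hsymm : ∀ (y : {i : Ed n // i ≠ e} → ℝ) (z : {i : Ed n // ¬ i ≠ e} → ℝ),
      E.symm (y, z) = insC e y (z default) := by
    intro y z
    funext i
    by_cases h : i = e
    · subst h
      have : (default : {i' : Ed n // ¬ i' ≠ i}) = ⟨i, by simp⟩ := rfl
      simp [hE, MeasurableEquiv.piEquivPiSubtypeProd, Equiv.piEquivPiSubtypeProd, insC, this]
    · simp [hE, MeasurableEquiv.piEquivPiSubtypeProd, Equiv.piEquivPiSubtypeProd, insC, h]
  have h1 : ∫ g, F g ∂gam n = ∫ p, F (E.symm p) ∂((Measure.pi fun i : {i : Ed n // i ≠ e} => μ i).prod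
      (Measure.pi fun i : {i : Ed n // ¬ i ≠ e} => μ i)) := by
    rw [← hmp.integral_comp' (fun p => F (E.symm p))]
    simp [gam, μ]
  have hint : Integrable (fun p => F (E.symm p)) ((Measure.pi fun i : {i : Ed n // i ≠ e} => μ i).prod
      (Measure.pi fun i : {i : Ed n // ¬ i ≠ e} => μ i)) :=
    (hmp.symm E).integrable_comp_of_integrable (g := F) hF
  rw [h1, integral_prod _ hint]
  refine integral_congr_ae (Filter.Eventually.of_forall fun y => ?_)
  have hu := measurePreserving_funUnique (gaussianReal (0 : ℝ) 1) {i : Ed n // ¬ i ≠ e}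
  have := hu.integral_comp' (fun t => F (insC e y t))
  simp only [hsymm]
  have hi : (Subtype.fintype fun i : Ed n => ¬ i ≠ e) = Unique.fintype := Subsingleton.elim _ _
  rw [hi]
  simpa [μ, MeasurableEquiv.funUnique] using this

/-- Multi-dimensional Gaussian integration by parts along a coordinate. -/
theorem coord_ibp (e : Ed n) {H H' : Pt n → ℝ}
    (hd : ∀ g, HasDerivAt (fun t => H (Function.update g e t)) (H' g) (g e))
    (hH : PG H) (hH' : PG H') :
    ∫ g, g e * H g ∂gam n = ∫ g, H' g ∂gam n := by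
  have i1 : Integrable (fun g => g e * H g) (gam n) := ((PG.coord e).mul hH).integrable
  rw [integral_coord e _ i1, integral_coord e _ hH'.integrable]
  refine integral_congr_ae (Filter.Eventually.of_forall fun y => ?_)
  simp only [insC_same]
  have growth : ∀ {f : Pt n → ℝ}, PG f → ∃ (C : ℝ) (N : ℕ), ∀ t, |f (insC e y t)| ≤ C * (1 + |t|) ^ N := by
    rintro f ⟨-, C, N, hC⟩
    refine ⟨|C| * (1 + ∑ i, |insC e y 0 i|) ^ N, N, fun t => ?_⟩
    have hA : 0 ≤ ∑ i, |insC e y 0 i| := Finset.sum_nonneg fun _ _ => abs_nonneg _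
    have hS : ∑ i, |insC e y t i| ≤ ∑ i, |insC e y 0 i| + |t| := by
      have : ∑ i, |insC e y t i| ≤ ∑ i, (|insC e y 0 i| + if i = e then |t| else 0) := by
        refine Finset.sum_le_sum fun i _ => ?_
        by_cases h : i = e
        · subst h; simp [insC]
        · simp [insC, h]
      refine this.trans (le_of_eq ?_)
      rw [Finset.sum_add_distrib]
      simp
    have hS0 : 0 ≤ ∑ i, |insC e y t i| := Finset.sum_nonneg fun _ _ => abs_nonneg _
    have ht := abs_nonneg t
    calc |f (insC e y t)| ≤ C * (1 + ∑ i, |insC e y t i|) ^ N := hC _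
      _ ≤ |C| * (1 + ∑ i, |insC e y t i|) ^ N :=
          mul_le_mul_of_nonneg_right (le_abs_self C) (by positivity)
      _ ≤ |C| * ((1 + ∑ i, |insC e y 0 i|) * (1 + |t|)) ^ N := by
          apply mul_le_mul_of_nonneg_left _ (abs_nonneg C)
          apply pow_le_pow_left₀ (by positivity)
          nlinarith [mul_nonneg hA ht]
      _ = _ := by rw [mul_pow]; ring
  obtain ⟨C, N, hC⟩ := growth hH
  obtain ⟨C', N', hC'⟩ := growth hH'
  refine gaussian_ibp_growth (h := fun t => H (insC e y t)) (h' := fun t => H' (insC e y t))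
    (fun v => ?_) (hH'.1.comp (measurable_insC e y)) hC hC'
  have := hd (insC e y v)
  simpa only [update_insC, insC_same] using this

/-- (W3) Gaussian integration by parts against a Wick polynomial. -/
theorem adj_ibp (e : Ed n) {G G' : Pt n → ℝ}
    (hd : ∀ g, HasDerivAt (fun t => G (Function.update g e t)) (G' g) (g e))
    (hG : PG G) (hG' : PG G') (p : Rr n) :
    ∫ g, G g * Ev (X e * p) g ∂gam n = ∫ g, G' g * Ev p g ∂gam n := by
  have hH : PG (fun g => G g * Ev p g) := hG.mul (PG_Ev p)
  have hH1 : PG (fun g => G' g * Ev p g) := hG'.mul (PG_Ev p)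
  have hH2 : PG (fun g => G g * Ev (pderiv e p) g) := hG.mul (PG_Ev _)
  have key := coord_ibp e (H := fun g => G g * Ev p g)
    (H' := fun g => G' g * Ev p g + G g * Ev (pderiv e p) g)
    (fun g => by
      refine ((hd g).fun_mul (Ev_hasDerivAt e p g)).congr_deriv ?_
      simp only [Function.update_eq_self]) hH (hH1.add hH2)
  have h1 : ∀ g, G g * Ev (X e * p) g = g e * (G g * Ev p g) - G g * Ev (pderiv e p) g := by
    intro g
    rw [Ev_X_mul]
    ring
  simp only [h1]
  rw [integral_sub ((PG.coord e).mul hH).integrable hH2.integrable, key,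
    integral_add hH1.integrable hH2.integrable]
  ring

/-- The Gaussian form. -/
noncomputable def gaussWF (n : ℕ) : WForm n where
  B := LinearMap.mk₂ ℝ (fun p q => ∫ g, Ev p g * Ev q g ∂gam n)
    (by
      intro p p' q
      simp only [map_add, Pi.add_apply, add_mul]
      exact integral_add ((PG_Ev p).mul (PG_Ev q)).integrable ((PG_Ev p').mul (PG_Ev q)).integrable)
    (by
      intro a p q
      simp only [map_smul, Pi.smul_apply, smul_eq_mul, mul_assoc]
      exact integral_const_mul _ _)
    (by
      intro p q q'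
      simp only [map_add, Pi.add_apply, mul_add]
      exact integral_add ((PG_Ev p).mul (PG_Ev q)).integrable ((PG_Ev p).mul (PG_Ev q')).integrable)
    (by
      intro a p q
      simp only [map_smul, Pi.smul_apply, smul_eq_mul, mul_left_comm]
      exact integral_const_mul _ _)
  symm := by
    intro p q
    simp only [LinearMap.mk₂_apply, mul_comm]
  adj := by
    intro e p q
    simp only [LinearMap.mk₂_apply]
    have := adj_ibp e (G := Ev q) (G' := Ev (pderiv e q)) (Ev_hasDerivAt e q) (PG_Ev q)
      (PG_Ev _) p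
    simpa [mul_comm] using this
  one := by
    simp [LinearMap.mk₂_apply, Ev_one]

theorem gaussWF_apply (p q : Rr n) : (gaussWF n).B p q = ∫ g, Ev p g * Ev q g ∂gam n := rfl

theorem Ev_TT_mul (x y : Fin n) (p : Rr n) (g : Pt n) :
    Ev (TT n x y * p) g = Jh g x y * Ev p g - (Real.sqrt n)⁻¹ * Ev (DD x y p) g := by
  have h1 : TT n x y * p = C (cc x y / Real.sqrt n) * (X s(x, y) * p) := by
    simp [TT, mul_assoc]
  have h2 : DD x y p = C (cc x y) * pderiv s(x, y) p := by
    simp [DD, MvPolynomial.C_mul']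
  rw [h1, Ev_C_mul, Ev_X_mul, h2, Ev_C_mul]
  simp only [Jh, Matrix.of_apply]
  ring

end Vale.Agent.Lib.P146
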