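import Vale.Agent.Lib.P146.Gram
import Vale.Agent.Lib.P146.Wick
import Vale.Agent.Lib.P146.ChebS
import Vale.Agent.Lib.P146.Cheb_x

/-! Module E1: Chebyshev moment. -/

set_option autoImplicit false
open MeasureTheory MvPolynomial

namespace Vale.Agent.Lib.P146

variable {n : ℕ}

namespace ChebX

/-- Index set of the basis `𝐓^a Snu ν`. -/
abbrev Ix := ℕ × Wt

/-- The shift `S⁺`. -/
noncomputable def Sp : (Ix →₀ ℝ) → (Ix →₀ ℝ) := wop (fun q : Ix => ((q.1 + 1, q.2) : Ix)) (fun _ => 1)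

/-- The shift `S⁻`. -/
noncomputable def Sm : (Ix →₀ ℝ) → (Ix →₀ ℝ) :=
  wop (fun q : Ix => ((q.1 - 1, q.2) : Ix)) (fun q => if q.1 = 0 then 0 else 1)

/-- The part `(a/n) e_{a-1,ν}` of the error. -/
noncomputable def E0 (n : ℕ) : (Ix →₀ ℝ) → (Ix →₀ ℝ) :=
  wop (fun q : Ix => ((q.1 - 1, q.2) : Ix)) (fun q => (q.1 : ℝ) / n)

/-- Weight of the trace creation part. -/
noncomputable def wE1 (n j : ℕ) (q : Ix) : ℝ :=
  if j + 2 ≤ q.1 then Real.sqrt (2 * ((j : ℝ) + 1) * ((q.2.count j : ℝ) + 1)) / n else 0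

/-- The trace creation part of the error. -/
noncomputable def E1 (n j : ℕ) : (Ix →₀ ℝ) → (Ix →₀ ℝ) :=
  wop (fun q : Ix => ((q.1 - 2 - j, j ::ₘ q.2) : Ix)) (wE1 n j)

/-- Weight of the trace annihilation part. -/
noncomputable def wE2 (n l : ℕ) (q : Ix) : ℝ :=
  Real.sqrt (2 * ((l : ℝ) + 1) * (q.2.count l : ℝ)) / n

/-- The trace annihilation part of the error. -/
noncomputable def E2 (n l : ℕ) : (Ix →₀ ℝ) → (Ix →₀ ℝ) :=
  wop (fun q : Ix => ((q.1 + l, q.2.erase l) : Ix)) (wE2 n l)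

/-- The whole error operator, for degrees below `L`. -/
noncomputable def Er (n L : ℕ) (ξ : Ix →₀ ℝ) : Ix →₀ ℝ :=
  E0 n ξ + ∑ j ∈ Finset.range L, E1 n j ξ + ∑ l ∈ Finset.range L, E2 n l ξ

/-- First-order form of the Chebyshev recursion: the pair `(ξ_i, w_i)` with `w_i = S⁻ξ_i - ξ_{i-1}`. -/
noncomputable def seqXW (n L : ℕ) : ℕ → (Ix →₀ ℝ) × (Ix →₀ ℝ)
  | 0 => (Finsupp.single ((0, 0) : Ix) 1, 0)
  | i + 1 => (Sp (seqXW n L i).1 + ((seqXW n L i).2 + Er n L (seqXW n L i).1),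
      Sm ((seqXW n L i).2 + Er n L (seqXW n L i).1))

theorem Sm_Sp (ξ : Ix →₀ ℝ) : Sm (Sp ξ) = ξ := by
  induction ξ using Finsupp.induction_linear with
  | zero => simp [Sm, Sp, wop_zero]
  | add f g hf hg =>
    have h1 : Sp (f + g) = Sp f + Sp g := wop_add _ _ _ _
    have h2 : Sm (Sp f + Sp g) = Sm (Sp f) + Sm (Sp g) := wop_add _ _ _ _
    rw [h1, h2, hf, hg]
  | single q r =>
    simp [Sm, Sp, wop_single]

theorem seq_one (n L : ℕ) :
    (seqXW n L 1).1 = Sp (seqXW n L 0).1 + Sm (seqXW n L 0).1 + Er n L (seqXW n L 0).1 := by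
  have : Sm (seqXW n L 0).1 = 0 := by
    simp [seqXW, Sm, wop_single]
  rw [this]
  simp [seqXW]

theorem seq_two (n L i : ℕ) :
    (seqXW n L (i + 2)).1 = Sp (seqXW n L (i + 1)).1 + Sm (seqXW n L (i + 1)).1
      + Er n L (seqXW n L (i + 1)).1 - (seqXW n L i).1 := by
  have h : Sm (seqXW n L (i + 1)).1 = (seqXW n L i).1 + (seqXW n L (i + 1)).2 := by
    conv_lhs => rw [seqXW]
    have h1 : ∀ a b : Ix →₀ ℝ, Sm (a + b) = Sm a + Sm b := fun a b => wop_add _ _ _ _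
    simp only [h1, Sm_Sp]
    simp only [seqXW, h1]
  rw [h, seqXW]
  abel_nf

/-! ### Degrees -/

/-- All indices in the support have degree at most `D`. -/
def Deg (ξ : Ix →₀ ℝ) (D : ℕ) : Prop := ∀ q ∈ ξ.support, q.1 + dg q.2 ≤ D

theorem Deg.mono {ξ : Ix →₀ ℝ} {D D' : ℕ} (h : Deg ξ D) (hD : D ≤ D') : Deg ξ D' :=
  fun q hq => (h q hq).trans hD

theorem Deg.add {ξ ξ' : Ix →₀ ℝ} {D : ℕ} (h : Deg ξ D) (h' : Deg ξ' D) : Deg (ξ + ξ') D := by
  classical
  intro q hq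
  rcases Finset.mem_union.mp (Finsupp.support_add hq) with hq | hq
  · exact h q hq
  · exact h' q hq

theorem Deg.sum {ι : Type*} (s : Finset ι) (f : ι → Ix →₀ ℝ) {D : ℕ} (h : ∀ i ∈ s, Deg (f i) D) :
    Deg (∑ i ∈ s, f i) D := by
  classical
  intro q hq
  have := Finsupp.support_finsetSum hq
  simp only [Finset.mem_biUnion] at this
  obtain ⟨i, hi, hq'⟩ := this
  exact h i hi q hq'

theorem Deg_Sp {ξ : Ix →₀ ℝ} {D : ℕ} (h : Deg ξ D) : Deg (Sp ξ) (D + 1) := by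
  intro q hq
  obtain ⟨q', hq', _, rfl⟩ := mem_support_wop _ _ _ hq
  have := h q' hq'
  simp only
  omega

theorem Deg_Sm {ξ : Ix →₀ ℝ} {D : ℕ} (h : Deg ξ D) : Deg (Sm ξ) D := by
  intro q hq
  obtain ⟨q', hq', _, rfl⟩ := mem_support_wop _ _ _ hq
  have := h q' hq'
  simp only
  omega

theorem Deg_E0 {ξ : Ix →₀ ℝ} {D : ℕ} (h : Deg ξ D) : Deg (E0 n ξ) D := by
  intro q hq
  obtain ⟨q', hq', _, rfl⟩ := mem_support_wop _ _ _ hq
  have := h q' hq'
  simp only
  omega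

theorem Deg_E1 {ξ : Ix →₀ ℝ} {D : ℕ} (j : ℕ) (h : Deg ξ D) : Deg (E1 n j ξ) D := by
  intro q hq
  obtain ⟨q', hq', hw, rfl⟩ := mem_support_wop _ _ _ hq
  have := h q' hq'
  have hj : j + 2 ≤ q'.1 := by
    by_contra hj
    exact hw (by simp [wE1, hj])
  simp only [dg_cons]
  omega

theorem dg_erase {l : ℕ} {ν : Wt} (h : l ∈ ν) : l + 1 + dg (ν.erase l) = dg ν := by
  conv_rhs => rw [← Multiset.cons_erase h]
  rw [dg_cons]

theorem Deg_E2 {ξ : Ix →₀ ℝ} {D : ℕ} (l : ℕ) (h : Deg ξ D) : Deg (E2 n l ξ) D := by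
  intro q hq
  obtain ⟨q', hq', hw, rfl⟩ := mem_support_wop _ _ _ hq
  have := h q' hq'
  have hl : l ∈ q'.2 := by
    by_contra hl
    exact hw (by simp [wE2, Multiset.count_eq_zero_of_notMem hl])
  have := dg_erase hl
  simp only
  omega

theorem Deg_Er {ξ : Ix →₀ ℝ} {D : ℕ} (L : ℕ) (h : Deg ξ D) : Deg (Er n L ξ) D :=
  ((Deg_E0 h).add (Deg.sum _ _ fun j _ => Deg_E1 j h)).add (Deg.sum _ _ fun l _ => Deg_E2 l h)

/-! ### Norms -/

theorem count_mul_le_dg (j : ℕ) (ν : Wt) : (j + 1) * ν.count j ≤ dg ν := by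
  induction ν using Multiset.induction_on with
  | empty => simp [dg]
  | cons a s ih =>
    rw [dg_cons, Multiset.count_cons]
    by_cases h : j = a
    · subst h
      simp only [if_true]
      rw [mul_add]
      omega
    · simp only [if_neg h, add_zero]
      omega

theorem nrm_Sp_le (ξ : Ix →₀ ℝ) : nrm (Sp ξ) ≤ nrm ξ := by
  have := nrm_wop_le (fun q : Ix => ((q.1 + 1, q.2) : Ix)) (fun _ => 1) ξ 1 zero_le_one
    (by
      rintro ⟨a, ν⟩ _ ⟨a', ν'⟩ _ _ _ h
      simp only [Prod.mk.injEq, add_left_inj] at h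
      simp [h.1, h.2])
    (by simp)
  simpa [Sp] using this

/-- Injectivity on the non-vanishing set of the weight, for a decrement in the first slot. -/
theorem inj_pred {w : Ix → ℝ} (hw : ∀ q : Ix, q.1 = 0 → w q = 0) (q q' : Ix) (h : w q ≠ 0)
    (h' : w q' ≠ 0) (he : ((q.1 - 1, q.2) : Ix) = (q'.1 - 1, q'.2)) : q = q' := by
  have h1 : q.1 ≠ 0 := fun h0 => h (hw q h0)
  have h2 : q'.1 ≠ 0 := fun h0 => h' (hw q' h0)
  simp only [Prod.mk.injEq] at he
  refine Prod.ext ?_ he.2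
  omega

theorem nrm_Sm_le (ξ : Ix →₀ ℝ) : nrm (Sm ξ) ≤ nrm ξ := by
  have := nrm_wop_le (fun q : Ix => ((q.1 - 1, q.2) : Ix)) (fun q => if q.1 = 0 then 0 else 1) ξ 1
    zero_le_one
    (fun q _ q' _ h h' he => inj_pred (w := fun q => if q.1 = 0 then (0 : ℝ) else 1)
      (fun q hq => by simp [hq]) q q' h h' he)
    (by
      intro q _
      split_ifs <;> simp)
  simpa [Sm] using this

theorem nrm_E0_le (ξ : Ix →₀ ℝ) {D : ℕ} (h : Deg ξ D) : nrm (E0 n ξ) ≤ ((D : ℝ) / n) * nrm ξ := by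
  refine nrm_wop_le _ _ ξ _ (by positivity)
    (fun q _ q' _ h h' he => inj_pred (w := fun q => (q.1 : ℝ) / n)
      (fun q hq => by simp [hq]) q q' h h' he) ?_
  intro q hq
  have h1 : q.1 ≤ D := by have := h q hq; omega
  have h2 : (q.1 : ℝ) ≤ D := by exact_mod_cast h1
  rw [abs_of_nonneg (by positivity)]
  exact div_le_div_of_nonneg_right h2 (by positivity)

theorem nrm_E1_le (ξ : Ix →₀ ℝ) {D : ℕ} (j : ℕ) (h : Deg ξ D) :
    nrm (E1 n j ξ) ≤ (Real.sqrt (2 * D) / n) * nrm ξ := by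
  refine nrm_wop_le _ _ ξ _ (by positivity) ?_ ?_
  · intro q _ q' _ hw hw' he
    have h1 : j + 2 ≤ q.1 := by
      by_contra hj
      exact hw (by simp [wE1, hj])
    have h2 : j + 2 ≤ q'.1 := by
      by_contra hj
      exact hw' (by simp [wE1, hj])
    simp only [Prod.mk.injEq, Multiset.cons_inj_right] at he
    refine Prod.ext ?_ he.2
    omega
  · intro q hq
    have hd := h q hq
    unfold wE1
    split_ifs with hj
    · rw [abs_of_nonneg (by positivity)]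
      apply div_le_div_of_nonneg_right _ (by positivity)
      apply Real.sqrt_le_sqrt
      have h3 := count_mul_le_dg j q.2
      have h4 : (j + 1) * (q.2.count j + 1) ≤ D := by
        rw [mul_add]
        omega
      have h5 : ((j : ℝ) + 1) * ((q.2.count j : ℝ) + 1) ≤ D := by exact_mod_cast h4
      nlinarith
    · simp only [abs_zero]
      positivity

theorem nrm_E2_le (ξ : Ix →₀ ℝ) {D : ℕ} (l : ℕ) (h : Deg ξ D) :
    nrm (E2 n l ξ) ≤ (Real.sqrt (2 * D) / n) * nrm ξ := by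
  refine nrm_wop_le _ _ ξ _ (by positivity) ?_ ?_
  · intro q _ q' _ hw hw' he
    have h1 : l ∈ q.2 := by
      by_contra hl
      exact hw (by simp [wE2, Multiset.count_eq_zero_of_notMem hl])
    have h2 : l ∈ q'.2 := by
      by_contra hl
      exact hw' (by simp [wE2, Multiset.count_eq_zero_of_notMem hl])
    simp only [Prod.mk.injEq, add_left_inj] at he
    refine Prod.ext he.1 ?_
    rw [← Multiset.cons_erase h1, ← Multiset.cons_erase h2, he.2]
  · intro q hq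
    have hd := h q hq
    unfold wE2
    rw [abs_of_nonneg (by positivity)]
    apply div_le_div_of_nonneg_right _ (by positivity)
    apply Real.sqrt_le_sqrt
    have h3 := count_mul_le_dg l q.2
    have h4 : (l + 1) * (q.2.count l) ≤ D := by omega
    have h5 : ((l : ℝ) + 1) * (q.2.count l : ℝ) ≤ D := by exact_mod_cast h4
    nlinarith

theorem nrm_Er_le (hn : 0 < n) (ξ : Ix →₀ ℝ) {p : ℕ} (h : Deg ξ p) :
    nrm (Er n (p + 1) ξ) ≤ (4 * ((p : ℝ) + 1) ^ 2 / n) * nrm ξ := by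
  have hn' : (0 : ℝ) < n := by exact_mod_cast hn
  have h0 := nrm_E0_le (n := n) ξ h
  have hs : Real.sqrt (2 * (p : ℝ)) ≤ (p : ℝ) + 1 := by
    apply Real.sqrt_le_iff.mpr
    refine ⟨by positivity, ?_⟩
    nlinarith [sq_nonneg ((p : ℝ))]
  have hx := nrm_nonneg ξ
  have h1 : nrm (∑ j ∈ Finset.range (p + 1), E1 n j ξ) ≤ ((p : ℝ) + 1) * ((p + 1) / n * nrm ξ) := by
    refine (nrm_sum_le _ _).trans ?_
    have : ∀ j ∈ Finset.range (p + 1), nrm (E1 n j ξ) ≤ (((p : ℝ) + 1) / n * nrm ξ) := fun j _ =>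
      (nrm_E1_le ξ j h).trans (mul_le_mul_of_nonneg_right
        (div_le_div_of_nonneg_right hs hn'.le) hx)
    refine (Finset.sum_le_sum this).trans ?_
    simp
  have h2 : nrm (∑ l ∈ Finset.range (p + 1), E2 n l ξ) ≤ ((p : ℝ) + 1) * ((p + 1) / n * nrm ξ) := by
    refine (nrm_sum_le _ _).trans ?_
    have : ∀ j ∈ Finset.range (p + 1), nrm (E2 n j ξ) ≤ (((p : ℝ) + 1) / n * nrm ξ) := fun j _ =>
      (nrm_E2_le ξ j h).trans (mul_le_mul_of_nonneg_right
        (div_le_div_of_nonneg_right hs hn'.le) hx)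
    refine (Finset.sum_le_sum this).trans ?_
    simp
  unfold Er
  refine (nrm_add_le _ _).trans ?_
  refine (add_le_add (nrm_add_le _ _) h2).trans ?_
  have key : ((p : ℝ) / n * nrm ξ) + ((p : ℝ) + 1) * ((p + 1) / n * nrm ξ)
      + ((p : ℝ) + 1) * ((p + 1) / n * nrm ξ) ≤ (4 * ((p : ℝ) + 1) ^ 2 / n) * nrm ξ := by
    have : (p : ℝ) / n + ((p : ℝ) + 1) * ((p + 1) / n) + ((p : ℝ) + 1) * ((p + 1) / n)
        ≤ (4 * ((p : ℝ) + 1) ^ 2 / n) := by
      have e : (p : ℝ) / n + ((p : ℝ) + 1) * ((p + 1) / n) + ((p : ℝ) + 1) * ((p + 1) / n)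
          = ((p : ℝ) + 2 * ((p : ℝ) + 1) ^ 2) / n := by
        ring
      rw [e]
      apply div_le_div_of_nonneg_right _ hn'.le
      have : (0 : ℝ) ≤ p := Nat.cast_nonneg p
      nlinarith
    have e2 : ((p : ℝ) / n * nrm ξ) + ((p : ℝ) + 1) * ((p + 1) / n * nrm ξ)
      + ((p : ℝ) + 1) * ((p + 1) / n * nrm ξ) =
        ((p : ℝ) / n + ((p : ℝ) + 1) * ((p + 1) / n) + ((p : ℝ) + 1) * ((p + 1) / n)) * nrm ξ := by
      ring
    rw [e2]
    exact mul_le_mul_of_nonneg_right this hx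
  linarith [h0, h1]

/-- Norm and degree bounds along the recursion. -/
theorem seq_bounds (hn : 0 < n) {p : ℕ} (hp : 100 * (p + 1) ^ 6 ≤ n) (i : ℕ) (hi : i ≤ p) :
    nrm (seqXW n (p + 1) i).1 ≤ 1 + (i : ℝ) ^ 2 * (8 * ((p : ℝ) + 1) ^ 2 / n) ∧
    nrm (seqXW n (p + 1) i).2 ≤ (i : ℝ) * (8 * ((p : ℝ) + 1) ^ 2 / n) ∧
    Deg (seqXW n (p + 1) i).1 i ∧ Deg (seqXW n (p + 1) i).2 i := by
  have hn' : (0 : ℝ) < n := by exact_mod_cast hn
  set ε : ℝ := 8 * ((p : ℝ) + 1) ^ 2 / n with hε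
  have hε0 : 0 ≤ ε := by positivity
  have hp' : (100 : ℝ) * ((p : ℝ) + 1) ^ 6 ≤ n := by exact_mod_cast hp
  have hpos : (1 : ℝ) ≤ (p : ℝ) + 1 := by
    have : (0 : ℝ) ≤ p := Nat.cast_nonneg p
    linarith
  have hsmall : (p : ℝ) ^ 2 * ε ≤ 1 := by
    rw [hε, mul_div_assoc', div_le_one hn']
    have : (0 : ℝ) ≤ p := Nat.cast_nonneg p
    have h1 : ((p : ℝ) + 1) ^ 4 ≤ ((p : ℝ) + 1) ^ 6 :=
      pow_le_pow_right₀ hpos (by norm_num)
    have h2 : (p : ℝ) ^ 2 ≤ ((p : ℝ) + 1) ^ 2 := by nlinarith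
    have h3 : (p : ℝ) ^ 2 * (8 * ((p : ℝ) + 1) ^ 2) ≤ 8 * ((p : ℝ) + 1) ^ 4 := by
      have : ((p : ℝ) + 1) ^ 4 = ((p : ℝ) + 1) ^ 2 * ((p : ℝ) + 1) ^ 2 := by ring
      rw [this]
      nlinarith [sq_nonneg ((p : ℝ) + 1)]
    have h4 : (0 : ℝ) ≤ ((p : ℝ) + 1) ^ 6 := by positivity
    linarith
  induction i with
  | zero =>
    refine ⟨?_, ?_, ?_, ?_⟩
    · simp [seqXW, nrm_single]
    · simp [seqXW, nrm_zero]
    · intro q hq
      have := Finsupp.support_single_subset hq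
      simp only [Finset.mem_singleton] at this
      subst this
      simp [dg]
    · intro q hq
      simp [seqXW] at hq
  | succ i ih =>
    obtain ⟨h1, h2, h3, h4⟩ := ih (by omega)
    have hip : (i : ℝ) ≤ p := by
      have : i ≤ p := by omega
      exact_mod_cast this
    have hi0 : (0 : ℝ) ≤ i := Nat.cast_nonneg i
    have hle : (i : ℝ) ^ 2 * ε ≤ (p : ℝ) ^ 2 * ε :=
      mul_le_mul_of_nonneg_right (pow_le_pow_left₀ hi0 hip 2) hε0
    have hx2 : nrm (seqXW n (p + 1) i).1 ≤ 2 := by linarith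
    have hdeg : Deg (seqXW n (p + 1) i).1 p := h3.mono (by omega)
    have hE : nrm (Er n (p + 1) (seqXW n (p + 1) i).1) ≤ ε := by
      refine (nrm_Er_le hn _ hdeg).trans ?_
      have : 0 ≤ 4 * ((p : ℝ) + 1) ^ 2 / n := by positivity
      calc _ ≤ (4 * ((p : ℝ) + 1) ^ 2 / n) * 2 := mul_le_mul_of_nonneg_left hx2 this
        _ = ε := by rw [hε]; ring
    have hS := nrm_Sp_le (seqXW n (p + 1) i).1
    have hwE := nrm_add_le (seqXW n (p + 1) i).2 (Er n (p + 1) (seqXW n (p + 1) i).1)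
    refine ⟨?_, ?_, ?_, ?_⟩
    · simp only [seqXW]
      refine (nrm_add_le _ _).trans ?_
      push_cast
      nlinarith
    · simp only [seqXW]
      refine (nrm_Sm_le _).trans ?_
      push_cast
      nlinarith
    · simp only [seqXW]
      refine (Deg_Sp h3).add ((h4.mono (by omega)).add ((Deg_Er _ h3).mono (by omega)))
    · simp only [seqXW]
      refine (Deg_Sm (h4.add (Deg_Er _ h3))).mono (by omega)

/-! ### The realisation of the recursion -/

theorem Psi_apply (ξ : Ix →₀ ℝ) (x y : Fin n) :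
    Psi n ξ x y = ∑ q ∈ ξ.support, C (ξ q) * ((TT n ^ q.1) x y * Snu n q.2) := rfl

theorem Psi_add (ξ ξ' : Ix →₀ ℝ) (x y : Fin n) :
    Psi n (ξ + ξ') x y = Psi n ξ x y + Psi n ξ' x y := by
  classical
  simp only [Psi, Matrix.of_apply]
  exact Finsupp.sum_add_index' (by simp) (by intros; simp [add_mul])

theorem Psi_zero (x y : Fin n) : Psi n 0 x y = 0 := by
  simp [Psi]

theorem Psi_sub (ξ ξ' : Ix →₀ ℝ) (x y : Fin n) :
    Psi n (ξ - ξ') x y = Psi n ξ x y - Psi n ξ' x y := by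
  classical
  simp only [Psi, Matrix.of_apply]
  exact Finsupp.sum_sub_index (by intros; simp [sub_mul])

theorem Psi_sum {ι : Type*} (s : Finset ι) (f : ι → Ix →₀ ℝ) (x y : Fin n) :
    Psi n (∑ i ∈ s, f i) x y = ∑ i ∈ s, Psi n (f i) x y := by
  classical
  induction s using Finset.induction_on with
  | empty => simp [Psi_zero]
  | insert a s ha ih => rw [Finset.sum_insert ha, Finset.sum_insert ha, Psi_add, ih]

theorem Psi_single (q : Ix) (r : ℝ) (x y : Fin n) :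
    Psi n (Finsupp.single q r) x y = C r * ((TT n ^ q.1) x y * Snu n q.2) := by
  classical
  simp only [Psi, Matrix.of_apply]
  exact Finsupp.sum_single_index (by simp)

theorem Psi_wop (φ : Ix → Ix) (w : Ix → ℝ) (ξ : Ix →₀ ℝ) (x y : Fin n) :
    Psi n (wop φ w ξ) x y =
      ∑ q ∈ ξ.support, C (ξ q) * (C (w q) * ((TT n ^ (φ q).1) x y * Snu n (φ q).2)) := by
  classical
  unfold wop Finsupp.sum
  rw [Psi_sum]
  refine Finset.sum_congr rfl fun q _ => ?_
  rw [Psi_single, map_mul, mul_assoc]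

/-- The image of a basis element under the recursion operator. -/
noncomputable def Th (n L : ℕ) (q : Ix) (x y : Fin n) : Rr n :=
  (TT n ^ (q.1 + 1)) x y * Snu n q.2
    + C (if q.1 = 0 then (0 : ℝ) else 1) * ((TT n ^ (q.1 - 1)) x y * Snu n q.2)
    + C ((q.1 : ℝ) / n) * ((TT n ^ (q.1 - 1)) x y * Snu n q.2)
    + ∑ j ∈ Finset.range L, C (wE1 n j q) * ((TT n ^ (q.1 - 2 - j)) x y * Snu n (j ::ₘ q.2))
    + ∑ l ∈ Finset.range L, C (wE2 n l q) * ((TT n ^ (q.1 + l)) x y * Snu n (q.2.erase l))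

theorem Psi_op (L : ℕ) (ξ : Ix →₀ ℝ) (x y : Fin n) :
    Psi n (Sp ξ + Sm ξ + Er n L ξ) x y = ∑ q ∈ ξ.support, C (ξ q) * Th n L q x y := by
  classical
  unfold Er
  simp only [Psi_add, Psi_sum, Sp, Sm, E0, E1, E2, Psi_wop, Th]
  have e1 : ∑ j ∈ Finset.range L, ∑ q ∈ ξ.support, C (ξ q) * (C (wE1 n j q) *
        ((TT n ^ (q.1 - 2 - j)) x y * Snu n (j ::ₘ q.2))) =
      ∑ q ∈ ξ.support, C (ξ q) * ∑ j ∈ Finset.range L, C (wE1 n j q) *
        ((TT n ^ (q.1 - 2 - j)) x y * Snu n (j ::ₘ q.2)) := by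
    rw [Finset.sum_comm]
    exact Finset.sum_congr rfl fun q _ => (Finset.mul_sum _ _ _).symm
  have e2 : ∑ j ∈ Finset.range L, ∑ q ∈ ξ.support, C (ξ q) * (C (wE2 n j q) *
        ((TT n ^ (q.1 + j)) x y * Snu n (q.2.erase j))) =
      ∑ q ∈ ξ.support, C (ξ q) * ∑ j ∈ Finset.range L, C (wE2 n j q) *
        ((TT n ^ (q.1 + j)) x y * Snu n (q.2.erase j)) := by
    rw [Finset.sum_comm]
    exact Finset.sum_congr rfl fun q _ => (Finset.mul_sum _ _ _).symm
  rw [e1, e2]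
  simp only [← Finset.sum_add_distrib, mul_add]
  refine Finset.sum_congr rfl fun q _ => ?_
  simp
  abel_nf

theorem Snu_eq_Sc (ν : Wt) : Snu n ν = Sc n (Finsupp.single ν 1) := by
  rw [Sc_single, map_one, one_mul]

theorem down_single (l : ℕ) (ν : Wt) :
    down l (Finsupp.single ν 1) =
      Finsupp.single (ν.erase l) (Real.sqrt (2 * ((l : ℝ) + 1) * (ν.count l : ℝ))) := by
  classical
  unfold down
  rw [Finsupp.sum_single_index (by simp), one_mul]

theorem DD_Snu (hn : 0 < n) (x z : Fin n) (ν : Wt) (L : ℕ) (hν : ∀ l ∈ ν, l < L) :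
    DD x z (Snu n ν) = C (Real.sqrt n)⁻¹ * ∑ l ∈ Finset.range L, (TT n ^ l) x z *
      (C (Real.sqrt (2 * ((l : ℝ) + 1) * (ν.count l : ℝ))) * Snu n (ν.erase l)) := by
  classical
  rw [Snu_eq_Sc, DD_Sc hn x z _ L]
  · simp only [down_single, Sc_single]
  · intro μ hμ l hl
    have : μ = ν := by
      have := Finsupp.support_single_subset hμ
      simpa using this
    exact hν l (this ▸ hl)

theorem C_inv_sqrt (hn : 0 < n) :
    (C (Real.sqrt n)⁻¹ : Rr n) * C (Real.sqrt n)⁻¹ = C (1 / (n : ℝ)) := by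
  rw [← map_mul]
  congr 1
  have hn' : (0 : ℝ) < n := by exact_mod_cast hn
  have h := Real.mul_self_sqrt hn'.le
  have hs : Real.sqrt n ≠ 0 := (Real.sqrt_pos.mpr hn').ne'
  field_simp
  rw [Real.sq_sqrt hn'.le]

/-- The contraction term. -/
theorem sum_TT_DD (hn : 0 < n) (a : ℕ) (x y : Fin n) (ν : Wt) (L : ℕ) (hν : ∀ l ∈ ν, l < L) :
    C (Real.sqrt n)⁻¹ * ∑ z, (TT n ^ a) z y * DD x z (Snu n ν) =
      ∑ l ∈ Finset.range L, C (wE2 n l (a, ν)) * ((TT n ^ (a + l)) x y * Snu n (ν.erase l)) := by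
  classical
  have hsplit : ∀ l, (C (wE2 n l (a, ν)) : Rr n) =
      C (1 / (n : ℝ)) * C (Real.sqrt (2 * ((l : ℝ) + 1) * (ν.count l : ℝ))) := by
    intro l
    rw [← map_mul]
    congr 1
    simp only [wE2]
    ring
  simp only [DD_Snu hn x _ ν L hν]
  have e : ∀ l, (TT n ^ (a + l)) x y = ∑ z, (TT n ^ l) x z * (TT n ^ a) z y := by
    intro l
    rw [add_comm, pow_add, Matrix.mul_apply]
  simp only [e, hsplit, ← C_inv_sqrt hn]
  simp only [Finset.mul_sum, Finset.sum_mul]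
  rw [Finset.sum_comm]
  refine Finset.sum_congr rfl fun l _ => Finset.sum_congr rfl fun z _ => ?_
  ring

/-- Polynomial form of the contraction identity. -/
theorem contr (hn : 0 < n) (a : ℕ) (ν : Wt) (L : ℕ) (ha : a < L) (hν : ∀ l ∈ ν, l < L)
    (x y : Fin n) :
    C (Real.sqrt n)⁻¹ * ∑ z, DD x z ((TT n ^ a) z y * Snu n ν) =
      C (if a = 0 then (0 : ℝ) else 1) * ((TT n ^ (a - 1)) x y * Snu n ν)
      + C ((a : ℝ) / n) * ((TT n ^ (a - 1)) x y * Snu n ν)
      + ∑ j ∈ Finset.range L, C (wE1 n j (a, ν)) * ((TT n ^ (a - 2 - j)) x y * Snu n (j ::ₘ ν))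
      + ∑ l ∈ Finset.range L, C (wE2 n l (a, ν)) * ((TT n ^ (a + l)) x y * Snu n (ν.erase l)) := by
  classical
  cases a with
  | zero =>
    have h0 : ∑ j ∈ Finset.range L, C (wE1 n j ((0 : ℕ), ν)) *
        ((TT n ^ (0 - 2 - j)) x y * Snu n (j ::ₘ ν)) = 0 := by
      refine Finset.sum_eq_zero fun j _ => ?_
      simp [wE1]
    rw [h0, DD_contract_zero]
    have h1 := sum_TT_DD hn 0 x y ν L hν
    simp only [pow_zero, Matrix.one_apply, ite_mul, one_mul, zero_mul, Finset.sum_ite_eq',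
      Finset.mem_univ, if_true] at h1
    rw [h1]
    simp
  | succ a =>
    rw [DD_contract hn a x y (Snu n ν), sum_TT_DD hn (a + 1) x y ν L hν]
    have h1 : (C (1 + ((a : ℝ) + 1) / n) : Rr n) =
        C (if a + 1 = 0 then (0 : ℝ) else 1) + C (((a + 1 : ℕ) : ℝ) / n) := by
      rw [← map_add]
      simp
    have h2 : ∑ j ∈ Finset.range L, C (wE1 n j (a + 1, ν)) *
          ((TT n ^ (a + 1 - 2 - j)) x y * Snu n (j ::ₘ ν)) =
        C (1 / (n : ℝ)) * ∑ j ∈ Finset.range a, (TT n ^ (a - 1 - j)) x y * (Trc n j * Snu n ν) := by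
      have hsub : Finset.range a ⊆ Finset.range L := by
        intro j hj
        simp only [Finset.mem_range] at hj ⊢
        omega
      rw [← Finset.sum_subset hsub, Finset.mul_sum]
      · refine Finset.sum_congr rfl fun j hj => ?_
        have hj' : j < a := Finset.mem_range.mp hj
        have h3 : j + 2 ≤ a + 1 := by omega
        have h4 : a + 1 - 2 - j = a - 1 - j := by omega
        rw [Trc_mul_Snu, h4]
        simp only [wE1, h3, if_true]
        have h5 : (C (Real.sqrt (2 * ((j : ℝ) + 1) * ((ν.count j : ℝ) + 1)) / (n : ℝ)) : Rr n) =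
            C (1 / (n : ℝ)) * C (Real.sqrt (2 * ((j : ℝ) + 1) * ((ν.count j : ℝ) + 1))) := by
          rw [← map_mul]
          congr 1
          ring
        rw [h5]
        ring
      · intro j _ hj
        have hj' : ¬ j < a := fun h => hj (Finset.mem_range.mpr h)
        have h3 : ¬ j + 2 ≤ a + 1 := by omega
        simp [wE1, h3]
    rw [h1, h2, add_mul, Nat.add_sub_cancel]

/-- The key identity on basis elements. -/
theorem key_basis (hn : 0 < n) (a : ℕ) (ν : Wt) (L : ℕ) (ha : a < L) (hν : ∀ l ∈ ν, l < L)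
    (g : Pt n) (x y : Fin n) :
    ∑ z, Jh g x z * Ev ((TT n ^ a) z y * Snu n ν) g = Ev (Th n L (a, ν) x y) g := by
  classical
  have h1 : ∀ z, Jh g x z * Ev ((TT n ^ a) z y * Snu n ν) g =
      Ev (TT n x z * ((TT n ^ a) z y * Snu n ν)
        + C (Real.sqrt n)⁻¹ * DD x z ((TT n ^ a) z y * Snu n ν)) g := by
    intro z
    rw [Ev_add, Ev_C_mul, Ev_TT_mul]
    ring
  simp only [h1]
  rw [← Ev_sum]
  have h2 : (TT n ^ (a + 1)) x y = ∑ z, TT n x z * (TT n ^ a) z y := by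
    rw [pow_succ', Matrix.mul_apply]
  rw [Finset.sum_add_distrib, ← Finset.mul_sum]
  have := contr hn a ν L ha hν x y
  rw [this]
  simp only [Th]
  have h3 : ∑ z, TT n x z * ((TT n ^ a) z y * Snu n ν) = (TT n ^ (a + 1)) x y * Snu n ν := by
    rw [h2, Finset.sum_mul]
    exact Finset.sum_congr rfl fun z _ => by ring
  rw [h3]
  abel_nf

theorem mem_lt_of_dg (ν : Wt) (l : ℕ) (hl : l ∈ ν) : l + 1 ≤ dg ν := by
  have h1 := count_mul_le_dg l ν
  have h2 : 1 ≤ ν.count l := Multiset.one_le_count_iff_mem.mpr hl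
  nlinarith

/-- The recursion operator realises left multiplication by `Jh`. -/
theorem key (hn : 0 < n) (L : ℕ) (ξ : Ix →₀ ℝ) (hξ : ∀ q ∈ ξ.support, q.1 + dg q.2 < L)
    (g : Pt n) (x y : Fin n) :
    ∑ z, Jh g x z * Ev (Psi n ξ z y) g = Ev (Psi n (Sp ξ + Sm ξ + Er n L ξ) x y) g := by
  classical
  rw [Psi_op, Ev_sum]
  simp only [Psi_apply, Ev_sum, Ev_C_mul, Finset.mul_sum]
  rw [Finset.sum_comm]
  refine Finset.sum_congr rfl fun q hq => ?_
  have hd := hξ q hq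
  have := key_basis hn q.1 q.2 L (by omega)
    (fun l hl => by have := mem_lt_of_dg q.2 l hl; omega) g x y
  rw [← this, Finset.mul_sum]
  refine Finset.sum_congr rfl fun z _ => ?_
  ring

/-- The realisation of the Chebyshev matrices. -/
theorem rep_seq (hn : 0 < n) {p : ℕ} (hp : 100 * (p + 1) ^ 6 ≤ n) (i : ℕ) (hi : i ≤ p)
    (g : Pt n) (x y : Fin n) :
    chebM (Jh g) i x y = Ev (Psi n (seqXW n (p + 1) i).1 x y) g := by
  classical
  induction i using Nat.twoStepInduction generalizing x y with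
  | zero =>
    simp only [chebM, seqXW]
    rw [Psi_single]
    have hS : Snu n (0 : Wt) = 1 := by
      simp [Snu, zz]
    simp only [pow_zero, hS, mul_one, map_one, one_mul, Matrix.one_apply]
    split_ifs
    · simp [Ev_one]
    · simp
  | one =>
    have h0 : ∀ z, (1 : Matrix (Fin n) (Fin n) ℝ) z y = Ev (Psi n (seqXW n (p + 1) 0).1 z y) g := by
      intro z
      simp only [seqXW]
      rw [Psi_single]
      have hS : Snu n (0 : Wt) = 1 := by
        simp [Snu, zz]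
      simp only [pow_zero, hS, mul_one, map_one, one_mul, Matrix.one_apply]
      split_ifs
      · simp [Ev_one]
      · simp
    have hd : ∀ q ∈ (seqXW n (p + 1) 0).1.support, q.1 + dg q.2 < p + 1 := by
      intro q hq
      have := (seq_bounds hn hp 0 (by omega)).2.2.1 q hq
      omega
    rw [seq_one, ← key hn (p + 1) _ hd g x y]
    simp only [← h0]
    simp [chebM, Matrix.one_apply]
  | more i h1 h2 =>
    have hd : ∀ q ∈ (seqXW n (p + 1) (i + 1)).1.support, q.1 + dg q.2 < p + 1 := by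
      intro q hq
      have := (seq_bounds hn hp (i + 1) (by omega)).2.2.1 q hq
      omega
    rw [seq_two, Psi_sub, map_sub, Pi.sub_apply, ← key hn (p + 1) _ hd g x y]
    simp only [chebM, Matrix.sub_apply, Matrix.mul_apply]
    rw [h1 (by omega)]
    congr 1
    exact Finset.sum_congr rfl fun z _ => by rw [h2 (by omega)]

end ChebX

open ChebX in
/-- The Chebyshev matrix is the realisation of a low-norm combination of the `𝐓^a Snu ν`. -/
theorem cheb_repr (hn : 0 < n) {p : ℕ} (hp : 100 * (p + 1) ^ 6 ≤ n) :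
    ∃ ξ : ℕ × Wt →₀ ℝ, (∀ q ∈ ξ.support, q.1 + dg q.2 ≤ p) ∧ nrm ξ ≤ 2 ∧
      ∀ (g : Pt n) (x y : Fin n), chebM (Jh g) p x y = Ev (Psi n ξ x y) g := by
  have hn' : (0 : ℝ) < n := by exact_mod_cast hn
  obtain ⟨h1, -, h3, -⟩ := seq_bounds hn hp p le_rfl
  refine ⟨(seqXW n (p + 1) p).1, h3, ?_, fun g x y => rep_seq hn hp p le_rfl g x y⟩
  refine h1.trans ?_
  have hp' : (100 : ℝ) * ((p : ℝ) + 1) ^ 6 ≤ n := by exact_mod_cast hp
  have hpos : (1 : ℝ) ≤ (p : ℝ) + 1 := by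
    have : (0 : ℝ) ≤ p := Nat.cast_nonneg p
    linarith
  have hsmall : (p : ℝ) ^ 2 * (8 * ((p : ℝ) + 1) ^ 2 / n) ≤ 1 := by
    rw [mul_div_assoc', div_le_one hn']
    have : (0 : ℝ) ≤ p := Nat.cast_nonneg p
    have h1 : ((p : ℝ) + 1) ^ 4 ≤ ((p : ℝ) + 1) ^ 6 :=
      pow_le_pow_right₀ hpos (by norm_num)
    have h3 : (p : ℝ) ^ 2 * (8 * ((p : ℝ) + 1) ^ 2) ≤ 8 * ((p : ℝ) + 1) ^ 4 := by
      have : ((p : ℝ) + 1) ^ 4 = ((p : ℝ) + 1) ^ 2 * ((p : ℝ) + 1) ^ 2 := by ring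
      rw [this]
      nlinarith [sq_nonneg ((p : ℝ) + 1)]
    have h4 : (0 : ℝ) ≤ ((p : ℝ) + 1) ^ 6 := by positivity
    linarith
  linarith

/-- The Chebyshev moment: `E Tr U_p² ≤ 12 n`. -/
theorem cheb_moment (hn : 0 < n) {p : ℕ} (hp : 1000 * (p + 1) ^ 6 ≤ n) :
    ∫ g, Matrix.trace (chebM (Jh g) p * chebM (Jh g) p) ∂gam n ≤ 12 * n := by
  have hn' : (0 : ℝ) < n := by exact_mod_cast hn
  obtain ⟨ξ, hd, hnorm, hrep⟩ := cheb_repr hn (p := p) (by omega)
  have h1 : ∀ g : Pt n, Matrix.trace (chebM (Jh g) p * chebM (Jh g) p) =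
      ∑ x, ∑ y, Ev (Psi n ξ x y) g * Ev (Psi n ξ x y) g := by
    intro g
    simp only [Matrix.trace, Matrix.diag_apply, Matrix.mul_apply]
    refine Finset.sum_congr rfl fun x _ => Finset.sum_congr rfl fun y _ => ?_
    rw [(chebM_symm g p).apply x y, hrep]
  simp only [h1]
  have hint : ∀ x y, Integrable (fun g => Ev (Psi n ξ x y) g * Ev (Psi n ξ x y) g) (gam n) :=
    fun x y => ((PG_Ev _).mul (PG_Ev _)).integrable
  rw [integral_finsetSum _ fun x _ => integrable_finsetSum _ fun y _ => hint x y]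
  simp only [integral_finsetSum _ fun y _ => hint _ y]
  have hQ := gram_bound hn hp (gaussWF n) ξ ξ hd hd
  have hQ' : ∑ x, ∑ y, ∫ g, Ev (Psi n ξ x y) g * Ev (Psi n ξ x y) g ∂gam n =
      n * Qf (gaussWF n) ξ ξ := by
    simp only [Qf, gaussWF_apply]
    field_simp
  rw [hQ']
  have hnn := ChebX.nrm_nonneg ξ
  have h2 : Qf (gaussWF n) ξ ξ ≤ 12 := by
    refine (le_abs_self _).trans (hQ.trans ?_)
    nlinarith
  nlinarith

/-- For `Y ≥ 0`, `Y^{1/N} ≤ 1 + Y/N`. -/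
theorem rpow_inv_le (Y : ℝ) (hY : 0 ≤ Y) (N : ℕ) (hN : 1 ≤ N) :
    Y ^ ((1 : ℝ) / N) ≤ 1 + Y / N := by
  have hN' : (0 : ℝ) < N := by exact_mod_cast hN
  have h1 : 1 + (N : ℝ) * (Y / N) ≤ (1 + Y / N) ^ N :=
    one_add_mul_le_pow (by have : 0 ≤ Y / N := by positivity
                           linarith) N
  have h2 : (N : ℝ) * (Y / N) = Y := by field_simp
  have h3 : Y ≤ (1 + Y / N) ^ N := by linarith
  have h4 : (0 : ℝ) ≤ 1 + Y / N := by positivity
  calc Y ^ ((1 : ℝ) / N) ≤ ((1 + Y / N) ^ N) ^ ((1 : ℝ) / N) :=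
        Real.rpow_le_rpow hY h3 (by positivity)
    _ = 1 + Y / N := by
        rw [one_div]
        exact Real.pow_rpow_inv_natCast h4 (by omega)

theorem PG_trace (p : ℕ) : PG (fun g : Pt n => Matrix.trace (chebM (Jh g) p * chebM (Jh g) p)) := by
  simp only [Matrix.trace, Matrix.diag_apply, Matrix.mul_apply]
  exact PG.finset_sum _ fun x _ => PG.finset_sum _ fun y _ =>
    (PG_chebM_entry p x y).mul (PG_chebM_entry p y x)

/-- Moment of the spectral control variable. -/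
theorem rho_moment (hn : 0 < n) {K N p : ℕ} (hK : 1 ≤ K) (hN1 : 1 ≤ N) (hN : 12 * n + 1 ≤ 2 ^ N)
    (hpe : p = K * N) (hp : 1000 * (p + 1) ^ 6 ≤ n) :
    ∫ g, rhoH p g ^ (2 * K) ∂gam n ≤ 4 := by
  have hn' : (0 : ℝ) < n := by exact_mod_cast hn
  have hN' : (1 : ℝ) ≤ N := by exact_mod_cast hN1
  have hK' : (1 : ℝ) ≤ K := by exact_mod_cast hK
  have hp1 : 1 ≤ p := by
    rw [hpe]
    exact Nat.mul_pos hK hN1
  set M : ℝ := 12 * n + 1 with hM
  have hMpos : 0 < M := by positivity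
  have hM2 : M ≤ 2 ^ N := by
    rw [hM]
    exact_mod_cast hN
  have hpt : ∀ g : Pt n, rhoH p g ^ (2 * K) ≤
      2 * (1 + (1 + Matrix.trace (chebM (Jh g) p * chebM (Jh g) p)) / (M * N)) := by
    intro g
    set X := Matrix.trace (chebM (Jh g) p * chebM (Jh g) p) with hX
    have hX0 : 0 ≤ X := trace_cheb_nonneg p g
    have h1X : 0 ≤ 1 + X := by linarith
    have e1 : rhoH p g ^ (2 * K) = (1 + X) ^ ((1 : ℝ) / N) := by
      unfold rhoH
      rw [← hX, ← Real.rpow_natCast, ← Real.rpow_mul h1X]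
      congr 1
      rw [hpe]
      push_cast
      have hK0 : (K : ℝ) ≠ 0 := by positivity
      have hN0 : (N : ℝ) ≠ 0 := by positivity
      field_simp
    have e2 : (1 + X) ^ ((1 : ℝ) / N) = M ^ ((1 : ℝ) / N) * ((1 + X) / M) ^ ((1 : ℝ) / N) := by
      rw [← Real.mul_rpow hMpos.le (by positivity)]
      congr 1
      field_simp
    have e3 : M ^ ((1 : ℝ) / N) ≤ 2 := by
      calc M ^ ((1 : ℝ) / N) ≤ ((2 : ℝ) ^ N) ^ ((1 : ℝ) / N) :=
            Real.rpow_le_rpow hMpos.le hM2 (by positivity)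
        _ = 2 := by
            rw [one_div]
            exact Real.pow_rpow_inv_natCast (by norm_num) (by positivity)
    have e4 := rpow_inv_le ((1 + X) / M) (by positivity) N hN1
    rw [e1, e2]
    have e5 : (1 + X) / M / N = (1 + X) / (M * N) := by
      field_simp
    rw [e5] at e4
    have e6 : 0 ≤ ((1 + X) / M) ^ ((1 : ℝ) / N) := by positivity
    have e7 : 0 ≤ M ^ ((1 : ℝ) / N) := by positivity
    calc M ^ ((1 : ℝ) / N) * ((1 + X) / M) ^ ((1 : ℝ) / N)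
        ≤ 2 * ((1 + X) / M) ^ ((1 : ℝ) / N) := mul_le_mul_of_nonneg_right e3 e6
      _ ≤ 2 * (1 + (1 + X) / (M * N)) := by linarith
  have hint1 : Integrable (fun g : Pt n => rhoH p g ^ (2 * K)) (gam n) :=
    ((PG_rhoH hp1).pow _).integrable
  have hintX : Integrable (fun g : Pt n => Matrix.trace (chebM (Jh g) p * chebM (Jh g) p)) (gam n) :=
    (PG_trace p).integrable
  have hint2 : Integrable (fun g : Pt n =>
      2 * (1 + (1 + Matrix.trace (chebM (Jh g) p * chebM (Jh g) p)) / (M * N))) (gam n) := by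
    have : Integrable (fun g : Pt n =>
        (2 + 2 / (M * N)) + (2 / (M * N)) * Matrix.trace (chebM (Jh g) p * chebM (Jh g) p)) (gam n) :=
      (integrable_const _).add (hintX.const_mul _)
    refine this.congr (Filter.Eventually.of_forall fun g => ?_)
    simp only
    ring
  have hmain := integral_mono hint1 hint2 hpt
  refine hmain.trans ?_
  have hX := cheb_moment hn hp
  have e : ∫ g, 2 * (1 + (1 + Matrix.trace (chebM (Jh g) p * chebM (Jh g) p)) / (M * N)) ∂gam n =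
      2 + 2 / (M * N) + 2 / (M * N) * ∫ g, Matrix.trace (chebM (Jh g) p * chebM (Jh g) p) ∂gam n := by
    have : ∀ g : Pt n, 2 * (1 + (1 + Matrix.trace (chebM (Jh g) p * chebM (Jh g) p)) / (M * N)) =
        (2 + 2 / (M * N)) + (2 / (M * N)) * Matrix.trace (chebM (Jh g) p * chebM (Jh g) p) := by
      intro g
      ring
    simp only [this]
    rw [integral_add (integrable_const _) (hintX.const_mul _), integral_const_mul]
    simp
  rw [e]
  have hMN : 0 < M * N := by positivity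
  have h5 : 2 / (M * N) * ∫ g, Matrix.trace (chebM (Jh g) p * chebM (Jh g) p) ∂gam n
      ≤ 2 / (M * N) * (12 * n) := mul_le_mul_of_nonneg_left hX (by positivity)
  have h6 : 2 + 2 / (M * N) + 2 / (M * N) * (12 * n) ≤ 4 := by
    have : 2 + 2 / (M * N) + 2 / (M * N) * (12 * n) = 2 + 2 / N := by
      rw [hM]
      field_simp
      ring
    rw [this]
    have : 2 / (N : ℝ) ≤ 2 := by
      rw [div_le_iff₀ (by linarith)]
      linarith
    linarith
  linarith

end Vale.Agent.Lib.P146
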