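import Vale.Agent.Lib.P146.Count

/-! Module V3: weighted count with the factorial gain (exact solution of the peeling recursion). -/

set_option autoImplicit false
open scoped Classical

namespace Vale.Agent.Lib.P146

variable {n : ℕ}

namespace CountY

open CountX

section Rec

variable {H : Type} [Fintype H] [DecidableEq H]

/-- Sum over the functions with a prescribed block at a prescribed label, general bound. -/
theorem fiber_le' (Bo : ℕ → ℕ → ℝ) (hBo : ∀ k e, 0 ≤ Bo k e) (k e : ℕ)
    (hc : Fintype.card H = 2 * (k + 1))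
    (IH : ∀ a, a ≤ k → ∀ (H' : Type) [Fintype H'] [DecidableEq H'], Fintype.card H' = 2 * a →
      ∀ e', GG n H' a e' ≤ Bo a e') (h0 : H) (y : Fin n) (B : Finset H) :
    ∑ x ∈ Finset.univ.filter (fun x : H → Fin n =>
        (x h0, Finset.univ.filter fun h => x h = x h0) = (y, B)),
      (if EvH x ∧ vc x + e = k + 1 then piH x else 0) ≤
    ∑ i ∈ Finset.range (min (e + 1) (k + 1)),
      if h0 ∈ B ∧ B.card = 2 * i + 1 + 1 then wt1 (2 * i + 2) * Bo (k - i) (e - i) else 0 := by
  have hrhs : ∀ i ∈ Finset.range (min (e + 1) (k + 1)), 0 ≤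
      (if h0 ∈ B ∧ B.card = 2 * i + 1 + 1 then wt1 (2 * i + 2) * Bo (k - i) (e - i) else 0) := by
    intro i _
    split_ifs
    · exact mul_nonneg (wt1_nonneg _) (hBo _ _)
    · exact le_rfl
  by_cases hex : ∃ x : H → Fin n, (x h0, Finset.univ.filter fun h => x h = x h0) = (y, B) ∧
      EvH x ∧ vc x + e = k + 1
  swap
  · -- no contributing function
    have : ∑ x ∈ Finset.univ.filter (fun x : H → Fin n =>
        (x h0, Finset.univ.filter fun h => x h = x h0) = (y, B)),
      (if EvH x ∧ vc x + e = k + 1 then piH x else 0) = 0 := by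
      apply Finset.sum_eq_zero
      intro x hx
      rw [if_neg]
      intro hh
      exact hex ⟨x, (Finset.mem_filter.mp hx).2, hh⟩
    rw [this]
    exact Finset.sum_nonneg hrhs
  obtain ⟨x0, hkey, hev0, hvc0⟩ := hex
  have hkey1 : x0 h0 = y := (Prod.mk.inj hkey).1
  have hkey2 : (Finset.univ.filter fun h => x0 h = x0 h0) = B := (Prod.mk.inj hkey).2
  have hB0 : ∀ h, x0 h = y ↔ h ∈ B := by
    intro h
    rw [← hkey2, ← hkey1]
    simp
  have hh0 : h0 ∈ B := (hB0 h0).1 hkey1
  have hne : B.Nonempty := ⟨h0, hh0⟩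
  -- the size of the block
  have hevB : Even B.card := by
    have := hev0 y
    rwa [fibc_self hB0] at this
  obtain ⟨r, hr⟩ := hevB
  have hrpos : 0 < B.card := Finset.card_pos.mpr hne
  obtain ⟨i, hi⟩ : ∃ i, B.card = 2 * i + 1 + 1 := ⟨r - 1, by omega⟩
  have hBle : B.card ≤ Fintype.card H := by
    rw [← Finset.card_univ]; exact Finset.card_le_card (Finset.subset_univ _)
  have hik : i ≤ k := by omega
  have hcard' : Fintype.card {h // h ∉ B} = 2 * (k - i) := by
    rw [card_restr, hc, hi]; omega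
  have hvc1 := vc_restr hB0 hne
  have hvc2 := vc_le (evH_restr hB0 hev0)
  rw [hcard'] at hvc2
  have hie : i ≤ e := by omega
  have hmem : i ∈ Finset.range (min (e + 1) (k + 1)) := by
    rw [Finset.mem_range]; omega
  refine le_trans ?_ (Finset.single_le_sum hrhs hmem)
  rw [if_pos ⟨hh0, hi⟩]
  -- compare the sum with the count on the complement of the block
  have hKI := IH (k - i) (Nat.sub_le _ _) {h // h ∉ B} hcard' (e - i)
  have hwt : 0 ≤ wt1 (2 * i + 2) := wt1_nonneg _
  refine le_trans ?_ (mul_le_mul_of_nonneg_left hKI hwt)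
  unfold GG
  rw [Finset.mul_sum]
  have hinj : Set.InjOn (restr B (n := n))
      (Finset.univ.filter (fun x : H → Fin n =>
        (x h0, Finset.univ.filter fun h => x h = x h0) = (y, B)) : Finset (H → Fin n)) := by
    intro a ha b hb hab
    have ha' := (Finset.mem_filter.mp (Finset.mem_coe.mp ha)).2
    have hb' := (Finset.mem_filter.mp (Finset.mem_coe.mp hb)).2
    have hBa : ∀ h, a h = y ↔ h ∈ B := by
      intro h
      rw [← (Prod.mk.inj ha').2, ← (Prod.mk.inj ha').1]
      simp
    have hBb : ∀ h, b h = y ↔ h ∈ B := by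
      intro h
      rw [← (Prod.mk.inj hb').2, ← (Prod.mk.inj hb').1]
      simp
    exact restr_injOn B y hBa hBb hab
  calc ∑ x ∈ Finset.univ.filter (fun x : H → Fin n =>
        (x h0, Finset.univ.filter fun h => x h = x h0) = (y, B)),
        (if EvH x ∧ vc x + e = k + 1 then piH x else 0)
      ≤ ∑ x ∈ Finset.univ.filter (fun x : H → Fin n =>
        (x h0, Finset.univ.filter fun h => x h = x h0) = (y, B)),
        wt1 (2 * i + 2) * (if EvH (restr B x) ∧ vc (restr B x) + (e - i) = k - i
          then piH (restr B x) else 0) := by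
        apply Finset.sum_le_sum
        intro x hx
        have hx' := (Finset.mem_filter.mp hx).2
        have hBx : ∀ h, x h = y ↔ h ∈ B := by
          intro h
          rw [← (Prod.mk.inj hx').2, ← (Prod.mk.inj hx').1]
          simp
        by_cases hf : EvH x ∧ vc x + e = k + 1
        · rw [if_pos hf]
          have hv := vc_restr hBx hne
          have hcond : EvH (restr B x) ∧ vc (restr B x) + (e - i) = k - i :=
            ⟨evH_restr hBx hf.1, by have := hf.2; omega⟩
          rw [if_pos hcond, piH_restr hBx, hi]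
        · rw [if_neg hf]
          apply mul_nonneg hwt
          split_ifs
          · exact piH_nonneg _
          · exact le_rfl
    _ = ∑ x' ∈ (Finset.univ.filter (fun x : H → Fin n =>
        (x h0, Finset.univ.filter fun h => x h = x h0) = (y, B))).image (restr B),
        wt1 (2 * i + 2) * (if EvH x' ∧ vc x' + (e - i) = k - i then piH x' else 0) := by
        rw [Finset.sum_image hinj]
    _ ≤ _ := by
        apply Finset.sum_le_sum_of_subset_of_nonneg (Finset.subset_univ _)
        intro x' _ _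
        apply mul_nonneg hwt
        split_ifs
        · exact piH_nonneg _
        · exact le_rfl

/-- The recursion for `GG`, general bound. -/
theorem GG_step' (Bo : ℕ → ℕ → ℝ) (hBo : ∀ k e, 0 ≤ Bo k e) (k e : ℕ)
    (hc : Fintype.card H = 2 * (k + 1))
    (IH : ∀ a, a ≤ k → ∀ (H' : Type) [Fintype H'] [DecidableEq H'], Fintype.card H' = 2 * a →
      ∀ e', GG n H' a e' ≤ Bo a e') :
    GG n H (k + 1) e ≤ (n : ℝ) * ∑ i ∈ Finset.range (min (e + 1) (k + 1)),
        ((((2 * k + 1).choose (2 * i + 1) : ℕ) : ℝ) * wt1 (2 * i + 2) * Bo (k - i) (e - i)) := by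
  have hne : Nonempty H := by
    apply Fintype.card_pos_iff.mp
    omega
  obtain ⟨h0⟩ := hne
  unfold GG
  rw [← Finset.sum_fiberwise Finset.univ
    (fun x : H → Fin n => (x h0, Finset.univ.filter fun h => x h = x h0))]
  rw [Fintype.sum_prod_type]
  calc ∑ y : Fin n, ∑ B : Finset H, ∑ x ∈ Finset.univ.filter (fun x : H → Fin n =>
        (x h0, Finset.univ.filter fun h => x h = x h0) = (y, B)),
        (if EvH x ∧ vc x + e = k + 1 then piH x else 0)
      ≤ ∑ _y : Fin n, ∑ B : Finset H, ∑ i ∈ Finset.range (min (e + 1) (k + 1)),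
        (if h0 ∈ B ∧ B.card = 2 * i + 1 + 1 then wt1 (2 * i + 2) * Bo (k - i) (e - i) else 0) := by
        apply Finset.sum_le_sum
        intro y _
        apply Finset.sum_le_sum
        intro B _
        exact fiber_le' Bo hBo k e hc IH h0 y B
    _ = (n : ℝ) * ∑ B : Finset H, ∑ i ∈ Finset.range (min (e + 1) (k + 1)),
        (if h0 ∈ B ∧ B.card = 2 * i + 1 + 1 then wt1 (2 * i + 2) * Bo (k - i) (e - i) else 0) := by
        simp [Finset.sum_const, Finset.card_univ]
    _ ≤ _ := by
        apply mul_le_mul_of_nonneg_left _ (by positivity)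
        rw [Finset.sum_comm]
        apply Finset.sum_le_sum
        intro i _
        rw [Finset.sum_ite, Finset.sum_const_zero, add_zero, Finset.sum_const, nsmul_eq_mul]
        have hcnt := card_blocks h0 (2 * i + 1)
        have hcH : Fintype.card H - 1 = 2 * k + 1 := by omega
        rw [hcH] at hcnt
        have hcnt' : ((Finset.univ.filter fun B : Finset H => h0 ∈ B ∧ B.card = 2 * i + 1 + 1).card : ℝ)
            ≤ (((2 * k + 1).choose (2 * i + 1) : ℕ) : ℝ) := by exact_mod_cast hcnt
        have hp : 0 ≤ wt1 (2 * i + 2) * Bo (k - i) (e - i) :=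
          mul_nonneg (wt1_nonneg _) (hBo _ _)
        calc _ ≤ (((2 * k + 1).choose (2 * i + 1) : ℕ) : ℝ) *
                (wt1 (2 * i + 2) * Bo (k - i) (e - i)) :=
              mul_le_mul_of_nonneg_right hcnt' hp
          _ = _ := by ring

end Rec

/-! ### The exact solution -/

/-- The exact bound. -/
noncomputable def Bx (n k e : ℕ) : ℝ :=
  (DF k : ℝ) * ((n : ℝ) ^ k / (n : ℝ) ^ e) * 2 ^ e * (k.descFactorial e : ℝ) *
    ((k - 1).choose e : ℝ)

theorem Bx_nonneg (n k e : ℕ) : 0 ≤ Bx n k e := by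
  unfold Bx
  positivity

/-- Coefficient identity. -/
theorem coef_eq (a i : ℕ) :
    (((2 * a + 2 * i + 1).choose (2 * i + 1) : ℕ) : ℝ) * wt1 (2 * i + 2) * (DF a : ℝ) =
      (DF (a + i + 1) : ℝ) * ((i : ℝ) + 1) * 2 ^ i * ((a + i).descFactorial i : ℝ) := by
  have h1 : (((2 * a + 2 * i + 1).choose (2 * i + 1) : ℕ) : ℝ) * ((2 * a).factorial : ℝ) *
      ((2 * i + 1).factorial : ℝ) = ((2 * a + 2 * i + 1).factorial : ℝ) := by
    have := Nat.add_choose_mul_factorial_mul_factorial (2 * a) (2 * i + 1)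
    have h' : 2 * a + (2 * i + 1) = 2 * a + 2 * i + 1 := by ring
    rw [h'] at this
    exact_mod_cast this
  have h2 : (DF (a + i + 1) : ℝ) * 2 ^ (a + i) * ((a + i).factorial : ℝ) =
      ((2 * a + 2 * i + 1).factorial : ℝ) := by
    have := DF_mul (a + i)
    have h3 : DF (a + i + 1) = (2 * (a + i) + 1) * DF (a + i) := rfl
    have h4 : (2 * a + 2 * i + 1).factorial = (2 * (a + i) + 1) * (2 * (a + i)).factorial := by
      have : 2 * a + 2 * i + 1 = 2 * (a + i) + 1 := by ring
      rw [this, Nat.factorial_succ]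
    rw [h3, h4, ← this]
    push_cast
    ring
  have h5 : (DF a : ℝ) * 2 ^ a * (a.factorial : ℝ) = ((2 * a).factorial : ℝ) := by
    exact_mod_cast DF_mul a
  have h6 : ((a + i).factorial : ℝ) = (a.factorial : ℝ) * ((a + i).descFactorial i : ℝ) := by
    have := Nat.factorial_mul_descFactorial (n := a + i) (k := i) (by omega)
    rw [Nat.add_sub_cancel] at this
    exact_mod_cast this.symm
  have hpos : (2 : ℝ) ^ a * (a.factorial : ℝ) ≠ 0 := by positivity
  rw [wt1_succ]
  apply mul_right_cancel₀ hpos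
  calc ((((2 * a + 2 * i + 1).choose (2 * i + 1) : ℕ) : ℝ) * (((i : ℝ) + 1) *
        ((2 * i + 1).factorial : ℝ)) * (DF a : ℝ)) * ((2 : ℝ) ^ a * (a.factorial : ℝ))
      = ((i : ℝ) + 1) * ((DF (a + i + 1) : ℝ) * 2 ^ (a + i) * ((a + i).factorial : ℝ)) := by
        rw [h2, ← h1, ← h5]; ring
    _ = _ := by
        rw [h6, pow_add]; ring

/-- Descending factorials multiply. -/
theorem desc_mul (a i j : ℕ) :
    (a + i).descFactorial i * a.descFactorial j = (a + i).descFactorial (i + j) := by
  induction j with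
  | zero => simp
  | succ j ih =>
    rw [Nat.descFactorial_succ, ← Nat.add_assoc, Nat.descFactorial_succ, ← ih]
    have : a + i - (i + j) = a - j := by omega
    rw [this]
    ring

/-- First hockey stick. -/
theorem hockeyA (m e : ℕ) :
    ∑ j ∈ Finset.range (e + 1), (m + j - 1).choose j = (m + e).choose e := by
  induction e with
  | zero => simp
  | succ e ih =>
    rw [Finset.sum_range_succ, ih]
    have h1 : m + (e + 1) - 1 = m + e := by omega
    rw [h1]
    have h2 : m + (e + 1) = (m + e) + 1 := by ring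
    rw [h2, Nat.choose_succ_succ]

/-- Second hockey stick. -/
theorem hockeyT (m e : ℕ) :
    ∑ j ∈ Finset.range (e + 1), (e - j + 1) * (m + j - 1).choose j = (m + e + 1).choose e := by
  induction e with
  | zero => simp
  | succ e ih =>
    rw [Finset.sum_range_succ]
    have h0 : ∀ j ∈ Finset.range (e + 1),
        (e + 1 - j + 1) * (m + j - 1).choose j =
          (e - j + 1) * (m + j - 1).choose j + (m + j - 1).choose j := by
      intro j hj
      have hj' := Finset.mem_range.1 hj
      have : e + 1 - j + 1 = (e - j + 1) + 1 := by omega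
      rw [this]; ring
    rw [Finset.sum_congr rfl h0, Finset.sum_add_distrib, ih, hockeyA]
    have h1 : e + 1 - (e + 1) + 1 = 1 := by omega
    rw [h1, one_mul]
    have h2 : m + (e + 1) - 1 = m + e := by omega
    rw [h2]
    have h3 : m + (e + 1) + 1 = (m + e + 1) + 1 := by ring
    rw [h3, Nat.choose_succ_succ (m + e + 1) e]
    have h4 : (m + e + 1).choose (e + 1) = (m + e).choose e + (m + e).choose (e + 1) := by
      rw [Nat.choose_succ_succ (m + e) e]
    rw [h4]
    ring

/-- The binomial identity behind the recursion. -/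
theorem sum_choose (k e : ℕ) (hek : e ≤ k) :
    ∑ i ∈ Finset.range (e + 1), (i + 1) * (k - 1 - i).choose (e - i) = (k + 1).choose e := by
  have h := hockeyT (k - e) e
  have h' : k - e + e + 1 = k + 1 := by omega
  rw [h'] at h
  rw [← h, ← Finset.sum_range_reflect]
  apply Finset.sum_congr rfl
  intro j hj
  have hj' := Finset.mem_range.1 hj
  have h1 : e + 1 - 1 - j = e - j := by omega
  rw [h1]
  have h2 : e - (e - j) = j := by omega
  rw [h2]
  have h3 : k - 1 - (e - j) = k - e + j - 1 := by omega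
  rw [h3]

/-- One term of the recursion. -/
theorem term_eq (hn : 0 < n) {i k e : ℕ} (hik : i ≤ k) (hie : i ≤ e) :
    (n : ℝ) * (((2 * k + 1).choose (2 * i + 1) : ℝ) * wt1 (2 * i + 2) * Bx n (k - i) (e - i)) =
      ((DF (k + 1) : ℝ) * ((n : ℝ) ^ (k + 1) / (n : ℝ) ^ e) * 2 ^ e * (k.descFactorial e : ℝ)) *
        (((i : ℝ) + 1) * ((k - 1 - i).choose (e - i) : ℝ)) := by
  obtain ⟨a, rfl⟩ : ∃ a, k = a + i := ⟨k - i, by omega⟩
  obtain ⟨j, rfl⟩ : ∃ j, e = i + j := ⟨e - i, by omega⟩
  have hn' : (n : ℝ) ≠ 0 := by positivity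
  have hc := coef_eq a i
  have h2k : 2 * (a + i) + 1 = 2 * a + 2 * i + 1 := by ring
  have hsub : a + i - i = a := by omega
  have hsub2 : i + j - i = j := by omega
  have hd : ((a + i).descFactorial (i + j) : ℝ) =
      ((a + i).descFactorial i : ℝ) * (a.descFactorial j : ℝ) := by
    rw [← desc_mul]; push_cast; ring
  have h3 : a + i - 1 - i = a - 1 := by omega
  unfold Bx
  rw [h2k, hsub, hsub2, hd, h3]
  have hpow : (n : ℝ) * ((n : ℝ) ^ a / (n : ℝ) ^ j) =
      ((n : ℝ) ^ (a + i + 1) / (n : ℝ) ^ (i + j)) := by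
    field_simp
    ring
  calc (n : ℝ) * ((((2 * a + 2 * i + 1).choose (2 * i + 1) : ℕ) : ℝ) * wt1 (2 * i + 2) *
        ((DF a : ℝ) * ((n : ℝ) ^ a / (n : ℝ) ^ j) * 2 ^ j * (a.descFactorial j : ℝ) *
          ((a - 1).choose j : ℝ)))
      = (((((2 * a + 2 * i + 1).choose (2 * i + 1) : ℕ) : ℝ) * wt1 (2 * i + 2) * (DF a : ℝ))) *
        (((n : ℝ) * ((n : ℝ) ^ a / (n : ℝ) ^ j)) * 2 ^ j * (a.descFactorial j : ℝ) *
          ((a - 1).choose j : ℝ)) := by ring
    _ = _ := by
        rw [hc, hpow, pow_add (2 : ℝ) i j]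
        ring

/-- Closure of the recursion. -/
theorem step_num2 (hn : 0 < n) (k e : ℕ) :
    (n : ℝ) * ∑ i ∈ Finset.range (min (e + 1) (k + 1)),
        ((((2 * k + 1).choose (2 * i + 1) : ℕ) : ℝ) * wt1 (2 * i + 2) * Bx n (k - i) (e - i)) ≤
      Bx n (k + 1) e := by
  have hterm : ∀ i ∈ Finset.range (min (e + 1) (k + 1)),
      (n : ℝ) * (((2 * k + 1).choose (2 * i + 1) : ℝ) * wt1 (2 * i + 2) * Bx n (k - i) (e - i)) =
      ((DF (k + 1) : ℝ) * ((n : ℝ) ^ (k + 1) / (n : ℝ) ^ e) * 2 ^ e * (k.descFactorial e : ℝ)) *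
        (((i : ℝ) + 1) * ((k - 1 - i).choose (e - i) : ℝ)) := by
    intro i hi
    have hi' := Finset.mem_range.1 hi
    exact term_eq hn (by omega) (by omega)
  rw [Finset.mul_sum, Finset.sum_congr rfl hterm, ← Finset.mul_sum]
  by_cases hek : e ≤ k
  · have hmin : min (e + 1) (k + 1) = e + 1 := by omega
    rw [hmin]
    have hs := sum_choose k e hek
    have hs' : ∑ i ∈ Finset.range (e + 1), (((i : ℝ) + 1) * ((k - 1 - i).choose (e - i) : ℝ)) =
        ((k + 1).choose e : ℝ) := by
      rw [← hs]; push_cast; rfl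
    rw [hs']
    have hd1 : (k.descFactorial e : ℝ) = (e.factorial : ℝ) * (k.choose e : ℝ) := by
      rw [Nat.descFactorial_eq_factorial_mul_choose]; push_cast; ring
    have hd2 : ((k + 1).descFactorial e : ℝ) = (e.factorial : ℝ) * ((k + 1).choose e : ℝ) := by
      rw [Nat.descFactorial_eq_factorial_mul_choose]; push_cast; ring
    unfold Bx
    rw [hd1, hd2]
    have h3 : k + 1 - 1 = k := by omega
    rw [h3]
    apply le_of_eq
    ring
  · have h0 : k.descFactorial e = 0 := Nat.descFactorial_eq_zero_iff_lt.2 (by omega)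
    rw [h0]
    simp only [Nat.cast_zero, mul_zero, zero_mul]
    exact Bx_nonneg _ _ _

/-- The main bound for half-edge assignments. -/
theorem GG_le2 (hn : 0 < n) : ∀ k, ∀ (H : Type) [Fintype H]
    [DecidableEq H], Fintype.card H = 2 * k → ∀ e, GG n H k e ≤ Bx n k e := by
  intro k
  induction k using Nat.strong_induction_on with
  | _ k ih =>
    intro H _ _ hc e
    cases k with
    | zero =>
      refine (GG_zero H (by simpa using hc) e).trans ?_
      by_cases he : e = 0
      · subst he
        simp [Bx, DF]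
      · rw [if_neg he]
        exact Bx_nonneg _ _ _
    | succ k =>
      refine (GG_step' (Bx n) (Bx_nonneg n) k e hc ?_).trans (step_num2 hn k e)
      intro a ha H' _ _ hc' e'
      exact ih a (by omega) H' hc' e'

end CountY

open CountX CountY in
/-- Weighted count with the factorial gain. -/
theorem count_even2_aux (hn : 0 < n) {k K e : ℕ} (hk : k ≤ K) :
    ∑ l : Fin k → Pr n, (if EvenM (msOf l) ∧ excessM (msOf l) = e then varpi (msOf l) else 0) ≤
      (k.factorial : ℝ) * 2 ^ k * (n : ℝ) ^ k * ((2 * (K : ℝ) ^ 2 / n) ^ e / (e.factorial : ℝ)) := by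
  refine (count_eq k e).trans ?_
  have hn' : (0 : ℝ) < n := by exact_mod_cast hn
  refine (GG_le2 hn k _ (by simp [mul_comm]) e).trans ?_
  unfold Bx
  have hD : (DF k : ℝ) ≤ (k.factorial : ℝ) * 2 ^ k := by exact_mod_cast DF_le k
  have hdesc : (k.descFactorial e : ℝ) ≤ (K : ℝ) ^ e := by
    have h1 : k.descFactorial e ≤ k ^ e := Nat.descFactorial_le_pow k e
    have h2 : k ^ e ≤ K ^ e := Nat.pow_le_pow_left hk e
    exact_mod_cast h1.trans h2
  have hch : ((k - 1).choose e : ℝ) ≤ (K : ℝ) ^ e / (e.factorial : ℝ) := by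
    have h1 : ((k - 1).choose e : ℝ) ≤ ((k - 1 : ℕ) : ℝ) ^ e / (e.factorial : ℝ) :=
      Nat.choose_le_pow_div e (k - 1)
    refine h1.trans ?_
    apply div_le_div_of_nonneg_right _ (by positivity)
    have h2 : ((k - 1 : ℕ) : ℝ) ≤ K := by
      have : k - 1 ≤ K := by omega
      exact_mod_cast this
    exact pow_le_pow_left₀ (by positivity) h2 e
  have hA : 0 ≤ (n : ℝ) ^ k / (n : ℝ) ^ e * 2 ^ e := by positivity
  calc (DF k : ℝ) * ((n : ℝ) ^ k / (n : ℝ) ^ e) * 2 ^ e * (k.descFactorial e : ℝ) *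
        ((k - 1).choose e : ℝ)
      = (DF k : ℝ) * ((n : ℝ) ^ k / (n : ℝ) ^ e * 2 ^ e) * ((k.descFactorial e : ℝ) *
        ((k - 1).choose e : ℝ)) := by ring
    _ ≤ ((k.factorial : ℝ) * 2 ^ k) * ((n : ℝ) ^ k / (n : ℝ) ^ e * 2 ^ e) *
        ((K : ℝ) ^ e * ((K : ℝ) ^ e / (e.factorial : ℝ))) := by
        apply mul_le_mul
        · exact mul_le_mul_of_nonneg_right hD hA
        · exact mul_le_mul hdesc hch (by positivity) (by positivity)
        · positivity
        · positivity
    _ = _ := by
        rw [div_pow, mul_pow, ← pow_mul]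
        have h2e : (K : ℝ) ^ (2 * e) = (K : ℝ) ^ e * (K : ℝ) ^ e := by
          rw [two_mul, pow_add]
        rw [h2e]
        field_simp

end Vale.Agent.Lib.P146
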