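import Vale.Agent.Lib.P146.Defs

/-! Module J2b: summation over pure cycle parts.

By induction on the number of edges: the edge number `0` is either a loop, or the label of its
second end can be contracted. There is no explicit walk: `PP` records the cycle through the edge
number `0`, `QQ` is the plain statement (for sequences). Helpers live in the namespace `Cy`. -/

set_option autoImplicit false
open scoped Classical

namespace Vale.Agent.Lib.P146

variable {n : ℕ}

namespace Cy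

/-! ### Degrees -/

/-- Contribution of one pair to the degree of a label. -/
def ctP (p : Pr n) (x : Fin n) : ℕ := (if p.1 = x then 1 else 0) + (if p.2 = x then 1 else 0)

theorem degM_zero (x : Fin n) : degM (0 : Multiset (Pr n)) x = 0 := by simp [degM]

theorem degM_add (M M' : Multiset (Pr n)) (x : Fin n) :
    degM (M + M') x = degM M x + degM M' x := by simp [degM]

theorem degM_cons (p : Pr n) (M : Multiset (Pr n)) (x : Fin n) :
    degM (p ::ₘ M) x = ctP p x + degM M x := by simp [degM, ctP]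

theorem degM_eq_sum {ι : Type} (s : Finset ι) (l : ι → Pr n) (x : Fin n) :
    degM (s.val.map l) x = ∑ i ∈ s, ctP (l i) x := by
  simp only [degM, Multiset.map_map]
  rfl

theorem mem_labelsM {M : Multiset (Pr n)} {x : Fin n} : x ∈ labelsM M ↔ degM M x ≠ 0 := by
  simp [labelsM]

theorem ctP_le_degM {M : Multiset (Pr n)} {p : Pr n} (hp : p ∈ M) (x : Fin n) :
    ctP p x ≤ degM M x := by
  obtain ⟨M', rfl⟩ := Multiset.exists_cons_of_mem hp
  rw [degM_cons]; omega

/-! ### A section lemma for sums -/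

theorem sum_le_of_surj {α β : Type} (s : Finset α) (t : Finset β) (E : β → α) (F : α → ℝ)
    (hF : ∀ a, 0 ≤ F a) (h : ∀ a ∈ s, ∃ b ∈ t, E b = a) :
    ∑ a ∈ s, F a ≤ ∑ b ∈ t, F (E b) := by
  rw [Finset.sum_comp F E]
  calc ∑ a ∈ s, F a ≤ ∑ a ∈ t.image E, F a := by
        refine Finset.sum_le_sum_of_subset_of_nonneg ?_ (fun _ _ _ => hF _)
        intro a ha
        obtain ⟨b, hb, rfl⟩ := h a ha
        exact Finset.mem_image_of_mem E hb
    _ ≤ _ := by
        refine Finset.sum_le_sum fun a ha => ?_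
        obtain ⟨b, hb, rfl⟩ := Finset.mem_image.mp ha
        have hc : 1 ≤ (t.filter fun b' => E b' = E b).card :=
          Finset.card_pos.mpr ⟨b, Finset.mem_filter.mpr ⟨hb, rfl⟩⟩
        rw [nsmul_eq_mul]
        have : (1 : ℝ) ≤ ((t.filter fun b' => E b' = E b).card : ℝ) := by exact_mod_cast hc
        nlinarith [hF (E b)]


/-! ### Cycle types -/

theorem mem_cycT {C : ℕ} {ν : Wt} : ν ∈ cycT C ↔ dg ν = C := by
  unfold cycT
  simp only [Finset.mem_image, Finset.mem_univ, true_and]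
  constructor
  · rintro ⟨p, rfl⟩
    have : ((p.parts.map (· - 1)).map (· + 1)) = p.parts := by
      rw [Multiset.map_map]
      conv_rhs => rw [← Multiset.map_id p.parts]
      refine Multiset.map_congr rfl fun i hi => ?_
      have := p.parts_pos hi
      simp only [Function.comp_apply, id]
      omega
    simp only [dg]
    rw [this, p.parts_sum]
  · intro h
    refine ⟨⟨ν.map (· + 1), ?_, ?_⟩, ?_⟩
    · intro i hi
      obtain ⟨j, _, rfl⟩ := Multiset.mem_map.mp hi
      omega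
    · exact h
    · simp [Multiset.map_map]


theorem zz_eq (ν : Wt) :
    zz ν = (ν.map fun ℓ : ℕ => 2 * ((ℓ : ℝ) + 1)).prod *
      ∏ ℓ ∈ ν.toFinset, ((ν.count ℓ).factorial : ℝ) := by
  unfold zz
  congr 2
  simp only [Multiset.bind_def, Multiset.pure_def, Multiset.bind_singleton, Multiset.map_map]
  rfl

theorem zz_cons (ℓ : ℕ) (μ : Wt) :
    zz (ℓ ::ₘ μ) = zz μ * (2 * ((ℓ : ℝ) + 1) * ((μ.count ℓ : ℝ) + 1)) := by
  rw [zz_eq, zz_eq]
  have hpart : ∏ a ∈ (ℓ ::ₘ μ).toFinset, (((ℓ ::ₘ μ).count a).factorial : ℝ) =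
      (∏ a ∈ μ.toFinset, ((μ.count a).factorial : ℝ)) * ((μ.count ℓ : ℝ) + 1) := by
    by_cases hℓ : ℓ ∈ μ
    · have h1 : (ℓ ::ₘ μ).toFinset = μ.toFinset := by
        ext a; simp only [Multiset.mem_toFinset, Multiset.mem_cons]
        constructor
        · rintro (rfl | h)
          · exact hℓ
          · exact h
        · exact Or.inr
      rw [h1]
      have hmem : ℓ ∈ μ.toFinset := Multiset.mem_toFinset.mpr hℓ
      rw [← Finset.mul_prod_erase _ _ hmem, ← Finset.mul_prod_erase μ.toFinset _ hmem]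
      have h2 : ∏ a ∈ μ.toFinset.erase ℓ, (((ℓ ::ₘ μ).count a).factorial : ℝ) =
          ∏ a ∈ μ.toFinset.erase ℓ, ((μ.count a).factorial : ℝ) := by
        refine Finset.prod_congr rfl fun a ha => ?_
        rw [Multiset.count_cons_of_ne (Finset.ne_of_mem_erase ha)]
      rw [h2, Multiset.count_cons_self, Nat.factorial_succ]
      push_cast
      ring
    · have h1 : (ℓ ::ₘ μ).toFinset = insert ℓ μ.toFinset := by
        ext a; simp
      have hmem : ℓ ∉ μ.toFinset := fun h => hℓ (Multiset.mem_toFinset.mp h)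
      rw [h1, Finset.prod_insert hmem]
      have h2 : ∏ a ∈ μ.toFinset, (((ℓ ::ₘ μ).count a).factorial : ℝ) =
          ∏ a ∈ μ.toFinset, ((μ.count a).factorial : ℝ) := by
        refine Finset.prod_congr rfl fun a ha => ?_
        rw [Multiset.count_cons_of_ne]
        rintro rfl
        exact hmem ha
      rw [h2, Multiset.count_cons_self, Multiset.count_eq_zero_of_notMem hℓ]
      simp
  rw [hpart, Multiset.map_cons, Multiset.prod_cons]
  ring

theorem zz_pos' (ν : Wt) : 0 < zz ν := by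
  rw [zz_eq]
  refine mul_pos ?_ ?_
  · refine Multiset.prod_pos ?_
    intro a ha
    obtain ⟨b, _, rfl⟩ := Multiset.mem_map.mp ha
    positivity
  · refine Finset.prod_pos fun a _ => ?_
    exact_mod_cast Nat.factorial_pos _

theorem cyc_identity (C : ℕ) (g : Wt → ℝ) :
    ∑ ℓ ∈ Finset.range (C + 1), ∑ μ ∈ cycT (C - ℓ), g (ℓ ::ₘ μ) / zz μ =
      2 * ((C : ℝ) + 1) * ∑ ν ∈ cycT (C + 1), g ν / zz ν := by
  have h1 : ∑ ℓ ∈ Finset.range (C + 1), ∑ μ ∈ cycT (C - ℓ), g (ℓ ::ₘ μ) / zz μ =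
      ∑ ν ∈ cycT (C + 1), ∑ ℓ ∈ ν.toFinset, g ν / zz (ν.erase ℓ) := by
    rw [Finset.sum_sigma', Finset.sum_sigma']
    refine Finset.sum_bij' (fun x _ => ⟨x.1 ::ₘ x.2, x.1⟩) (fun y _ => ⟨y.2, y.1.erase y.2⟩)
      ?_ ?_ ?_ ?_ ?_
    · rintro ⟨ℓ, μ⟩ h
      simp only [Finset.mem_sigma, Finset.mem_range, mem_cycT] at h
      simp only [Finset.mem_sigma, mem_cycT, Multiset.mem_toFinset, Multiset.mem_cons, true_or,
        and_true]
      have : dg (ℓ ::ₘ μ) = ℓ + 1 + dg μ := by simp [dg]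
      rw [this]; omega
    · rintro ⟨ν, ℓ⟩ h
      simp only [Finset.mem_sigma, mem_cycT, Multiset.mem_toFinset] at h
      simp only [Finset.mem_sigma, Finset.mem_range, mem_cycT]
      have h2 : ℓ ::ₘ ν.erase ℓ = ν := Multiset.cons_erase h.2
      have : dg (ℓ ::ₘ ν.erase ℓ) = ℓ + 1 + dg (ν.erase ℓ) := by simp [dg]
      rw [h2, h.1] at this
      omega
    · rintro ⟨ℓ, μ⟩ _
      simp
    · rintro ⟨ν, ℓ⟩ h
      simp only [Finset.mem_sigma, mem_cycT, Multiset.mem_toFinset] at h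
      simp [Multiset.cons_erase h.2]
    · rintro ⟨ℓ, μ⟩ _
      simp
  rw [h1, Finset.mul_sum]
  refine Finset.sum_congr rfl fun ν hν => ?_
  have hdg : dg ν = C + 1 := mem_cycT.mp hν
  have h2 : ∀ ℓ ∈ ν.toFinset, g ν / zz (ν.erase ℓ) =
      (g ν / zz ν) * (2 * (((ν.count ℓ : ℝ)) * ((ℓ : ℝ) + 1))) := by
    intro ℓ hℓ
    have hmem : ℓ ∈ ν := Multiset.mem_toFinset.mp hℓ
    have hc := zz_cons ℓ (ν.erase ℓ)
    rw [Multiset.cons_erase hmem] at hc
    have hcnt : (((ν.erase ℓ).count ℓ : ℕ) : ℝ) + 1 = (ν.count ℓ : ℝ) := by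
      have := Multiset.count_erase_self ℓ ν
      have hp : 0 < ν.count ℓ := Multiset.count_pos.mpr hmem
      rw [this]
      rw [Nat.cast_pred hp]
      ring
    rw [hcnt] at hc
    have hz := zz_pos' (ν.erase ℓ)
    have hz2 := zz_pos' ν
    have hc0 : (ν.count ℓ : ℝ) ≠ 0 := by
      exact_mod_cast (Multiset.count_pos.mpr hmem).ne'
    rw [hc]
    field_simp
  rw [Finset.sum_congr rfl h2, ← Finset.mul_sum, ← Finset.mul_sum]
  have h3 : ∑ ℓ ∈ ν.toFinset, ((ν.count ℓ : ℝ)) * ((ℓ : ℝ) + 1) = (C : ℝ) + 1 := by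
    have := Finset.sum_multiset_map_count ν (fun ℓ : ℕ => ℓ + 1)
    have h4 : dg ν = ∑ m ∈ ν.toFinset, ν.count m • (m + 1) := this
    rw [hdg] at h4
    have h5 : ((C + 1 : ℕ) : ℝ) = ∑ m ∈ ν.toFinset, ((ν.count m : ℝ)) * ((m : ℝ) + 1) := by
      rw [h4]; push_cast; simp
    push_cast at h5
    linarith
  rw [h3]
  ring


/-! ### `msOf` of `Fin.cons` and `Fin.insertNth` -/

theorem mem_msOf {α : Type} {m : ℕ} (l : Fin m → α) (i : Fin m) : l i ∈ msOf l :=
  Multiset.mem_map.mpr ⟨i, Finset.mem_univ i, rfl⟩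

theorem msOf_succAbove {α : Type} {m : ℕ} (p : Fin (m + 1)) (l : Fin (m + 1) → α) :
    msOf l = l p ::ₘ msOf (fun i => l (p.succAbove i)) := by
  unfold msOf
  rw [Fin.univ_succAbove _ p]
  simp [Finset.map_val, Function.comp_def]

theorem msOf_cons {α : Type} {m : ℕ} (e : α) (f : Fin m → α) :
    msOf (Fin.cons e f : Fin (m + 1) → α) = e ::ₘ msOf f := by
  rw [msOf_succAbove 0]
  simp

theorem msOf_insertNth {α : Type} {m : ℕ} (p : Fin (m + 1)) (e : α) (f : Fin m → α) :
    msOf (Fin.insertNth (α := fun _ => α) p e f) = e ::ₘ msOf f := by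
  rw [msOf_succAbove p]
  simp

theorem msOf_tail {α : Type} {m : ℕ} (l : Fin (m + 1) → α) :
    msOf l = l 0 ::ₘ msOf (Fin.tail l) := by
  rw [msOf_succAbove 0]
  simp [Fin.tail_def]

/-! ### The edge function of a cycle -/

/-- The edges of a labelled cycle. -/
def edgeOf {ℓ : ℕ} (x : Fin (ℓ + 1) → Fin n) (fl : Fin (ℓ + 1) → Bool) : Fin (ℓ + 1) → Pr n :=
  fun i => if fl i then (x (i + 1), x i) else (x i, x (i + 1))

theorem cycM_eq {ℓ : ℕ} (x : Fin (ℓ + 1) → Fin n) (fl : Fin (ℓ + 1) → Bool) :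
    cycM x fl = msOf (edgeOf x fl) := rfl

theorem cycM_split_last {ℓ : ℕ} (x : Fin (ℓ + 1) → Fin n) (fl : Fin (ℓ + 1) → Bool)
    (h : fl (Fin.last ℓ) = false) :
    cycM x fl = (x (Fin.last ℓ), x 0) ::ₘ msOf (fun j : Fin ℓ => edgeOf x fl j.castSucc) := by
  rw [cycM_eq, msOf_succAbove (Fin.last ℓ)]
  simp only [Fin.succAbove_last]
  congr 1
  simp [edgeOf, h, Fin.last_add_one]

theorem succ_castSucc_add_one {ℓ : ℕ} (j : Fin ℓ) :
    (j.castSucc.succ : Fin (ℓ + 2)) + 1 = (j.castSucc + 1).succ := by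
  apply Fin.ext
  have hj := j.isLt
  simp only [Fin.val_add, Fin.val_succ, Fin.val_castSucc]
  have h1 : ((1 : Fin (ℓ + 2)) : ℕ) = 1 := rfl
  by_cases hℓ : ℓ = 0
  · omega
  · have h2 : ((1 : Fin (ℓ + 1)) : ℕ) = 1 := by
      rw [Fin.val_one']
      exact Nat.mod_eq_of_lt (by omega)
    rw [h1, h2, Nat.mod_eq_of_lt (by omega), Nat.mod_eq_of_lt (by omega)]

/-- Expanding the closing edge of a cycle by a new label. -/
theorem cycM_expand {ℓ : ℕ} (x : Fin (ℓ + 1) → Fin n) (fl : Fin (ℓ + 1) → Bool)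
    (h : fl (Fin.last ℓ) = false) (b : Fin n) (flip : Bool) (R : Multiset (Pr n))
    (hR : cycM x fl = (x (Fin.last ℓ), x 0) ::ₘ R) :
    cycM (Fin.cons b x : Fin (ℓ + 2) → Fin n) (Fin.cons flip fl : Fin (ℓ + 2) → Bool) =
      (if flip then (x 0, b) else (b, x 0)) ::ₘ (x (Fin.last ℓ), b) ::ₘ R := by
  have hR' : R = msOf (fun j : Fin ℓ => edgeOf x fl j.castSucc) := by
    have := cycM_split_last x fl h
    rw [hR] at this
    exact (Multiset.cons_inj_right _).mp this
  rw [cycM_eq, msOf_succAbove 0]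
  simp only [Fin.succAbove_zero]
  have h0 : edgeOf (Fin.cons b x : Fin (ℓ + 2) → Fin n) (Fin.cons flip fl : Fin (ℓ + 2) → Bool) 0 =
      (if flip then (x 0, b) else (b, x 0)) := by
    have h01 : (0 : Fin (ℓ + 2)) + 1 = Fin.succ 0 := by
      apply Fin.ext; simp
    simp [edgeOf, h01]
  rw [h0]
  congr 1
  rw [msOf_succAbove (Fin.last ℓ)]
  simp only [Fin.succAbove_last]
  have h1 : edgeOf (Fin.cons b x : Fin (ℓ + 2) → Fin n) (Fin.cons flip fl : Fin (ℓ + 2) → Bool)
      (Fin.last ℓ).succ = (x (Fin.last ℓ), b) := by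
    have h11 : (Fin.last ℓ).succ + 1 = (0 : Fin (ℓ + 2)) := by
      rw [Fin.succ_last]; exact Fin.last_add_one _
    simp [edgeOf, h]
  rw [h1, hR']
  congr 2
  funext j
  simp only [edgeOf, Fin.cons_succ, succ_castSucc_add_one]

/-! ### The statements to be proved by induction -/

/-- The sum over sequences. -/
def QQ (n C : ℕ) : Prop :=
  ∀ (S : Finset (Fin n)) (H : (Fin C → Pr n) → ℝ) (g : Wt → ℝ), (∀ l, 0 ≤ H l) → (∀ ν, 0 ≤ g ν) →
    (∀ l ν, Reg2M (msOf l) S → IsCyc (msOf l) ν → H l ≤ g ν) →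
    ∑ l, (if Reg2M (msOf l) S then H l else 0) ≤
      (C.factorial : ℝ) * 2 ^ C * (n : ℝ) ^ C * ∑ ν ∈ cycT C, g ν / zz ν

/-- The hypothesis of the refined statement. -/
def PH {C : ℕ} (S : Finset (Fin n)) (H : (Fin (C + 1) → Pr n) → ℝ) (g : ℕ → Wt → ℝ) : Prop :=
  ∀ (l : Fin (C + 1) → Pr n) (ℓ : ℕ) (x : Fin (ℓ + 1) → Fin n) (fl : Fin (ℓ + 1) → Bool)
      (M : Multiset (Pr n)) (μ : Wt),
      Reg2M (msOf l) S → Function.Injective x → fl (Fin.last ℓ) = false →
      l 0 = (x (Fin.last ℓ), x 0) → msOf l = cycM x fl + M →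
      (∀ i, degM M (x i) = 0) → IsCyc M μ → H l ≤ g ℓ μ

/-- The refined statement: the cycle through the edge number `0` is recorded. -/
def PP (n C : ℕ) : Prop :=
  ∀ (S : Finset (Fin n)) (H : (Fin (C + 1) → Pr n) → ℝ) (g : ℕ → Wt → ℝ),
    (∀ l, 0 ≤ H l) → (∀ ℓ μ, 0 ≤ g ℓ μ) → PH S H g →
    ∑ l, (if Reg2M (msOf l) S then H l else 0) ≤
      (C.factorial : ℝ) * 2 ^ C * (n : ℝ) ^ (C + 1) *
        ∑ ℓ ∈ Finset.range (C + 1), ∑ μ ∈ cycT (C - ℓ), g ℓ μ / zz μ

theorem QQ_zero (n : ℕ) : QQ n 0 := by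
  intro S H g hH hg hyp
  have h0 : ∀ l : Fin 0 → Pr n, msOf l = 0 := fun l => by simp [msOf]
  have hm : (0 : Wt) ∈ cycT 0 := mem_cycT.mpr (by simp [dg])
  have hz : zz (0 : Wt) = 1 := by simp [zz]
  have hsum : g 0 ≤ ∑ ν ∈ cycT 0, g ν / zz ν := by
    have := Finset.single_le_sum (f := fun ν => g ν / zz ν)
      (fun ν _ => div_nonneg (hg ν) (zz_pos' ν).le) hm
    simpa [hz] using this
  simp only [Nat.factorial_zero, Nat.cast_one, pow_zero, mul_one, one_mul]
  rw [Fintype.sum_unique]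
  split_ifs with hr
  · have hc : IsCyc (msOf (default : Fin 0 → Pr n)) 0 := by
      rw [h0]; exact IsCyc.nil
    exact (hyp _ 0 hr hc).trans hsum
  · exact le_trans (hg 0) hsum

/-- From the refined statement to the plain one. -/
theorem QQ_of_PP {C : ℕ} (hP : PP n C) : QQ n (C + 1) := by
  intro S H g hH hg hyp
  have := hP S H (fun ℓ μ => g (ℓ ::ₘ μ)) hH (fun _ _ => hg _) ?_
  · refine this.trans (le_of_eq ?_)
    rw [cyc_identity C g, Nat.factorial_succ]
    push_cast
    ring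
  · intro l ℓ x fl M μ hr hx _ _ hms hd hM
    exact hyp l _ hr (by rw [hms]; exact IsCyc.add x fl M μ hx hd hM)

/-! ### The loop part -/

theorem deg_cons_loop {m : ℕ} (a : Fin n) (f : Fin m → Pr n) (x : Fin n) :
    degM (msOf (Fin.cons (a, a) f : Fin (m + 1) → Pr n)) x =
      (if a = x then 2 else 0) + degM (msOf f) x := by
  rw [msOf_cons, degM_cons]
  simp only [ctP]
  split_ifs <;> omega

theorem loop_part {C : ℕ} (hQ : QQ n C) (S : Finset (Fin n)) (H : (Fin (C + 1) → Pr n) → ℝ)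
    (g : ℕ → Wt → ℝ) (hH : ∀ l, 0 ≤ H l) (hg : ∀ ℓ μ, 0 ≤ g ℓ μ) (hyp : PH S H g) :
    ∑ l ∈ Finset.univ.filter (fun l : Fin (C + 1) → Pr n => Reg2M (msOf l) S ∧ (l 0).1 = (l 0).2),
        H l ≤
      (n : ℝ) * ((C.factorial : ℝ) * 2 ^ C * (n : ℝ) ^ C * ∑ μ ∈ cycT C, g 0 μ / zz μ) := by
  -- codes: the label and the rest
  set t : Finset (Fin n × (Fin C → Pr n)) := Finset.univ.filter fun c =>
    Reg2M (msOf c.2) (insert c.1 S) ∧ Reg2M (msOf (Fin.cons (c.1, c.1) c.2 : Fin (C + 1) → Pr n)) S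
    with ht
  have h1 := sum_le_of_surj
    (Finset.univ.filter (fun l : Fin (C + 1) → Pr n => Reg2M (msOf l) S ∧ (l 0).1 = (l 0).2)) t
    (fun c => (Fin.cons (c.1, c.1) c.2 : Fin (C + 1) → Pr n)) H hH ?_
  · refine h1.trans ?_
    have h2 : ∑ c ∈ t, H (Fin.cons (c.1, c.1) c.2) =
        ∑ a : Fin n, ∑ f : Fin C → Pr n, (if Reg2M (msOf f) (insert a S) then
          (if Reg2M (msOf (Fin.cons (a, a) f : Fin (C + 1) → Pr n)) S then
            H (Fin.cons (a, a) f) else 0) else 0) := by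
      rw [ht, Finset.sum_filter, Fintype.sum_prod_type]
      refine Finset.sum_congr rfl fun a _ => Finset.sum_congr rfl fun f _ => ?_
      by_cases h3 : Reg2M (msOf f) (insert a S) <;>
        by_cases h4 : Reg2M (msOf (Fin.cons (a, a) f : Fin (C + 1) → Pr n)) S <;>
        simp [h3, h4]
    rw [h2]
    have h3 : ∀ a : Fin n, ∑ f : Fin C → Pr n, (if Reg2M (msOf f) (insert a S) then
          (if Reg2M (msOf (Fin.cons (a, a) f : Fin (C + 1) → Pr n)) S then
            H (Fin.cons (a, a) f) else 0) else 0) ≤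
        (C.factorial : ℝ) * 2 ^ C * (n : ℝ) ^ C * ∑ μ ∈ cycT C, g 0 μ / zz μ := by
      intro a
      refine hQ (insert a S) (fun f => if Reg2M (msOf (Fin.cons (a, a) f : Fin (C + 1) → Pr n)) S then
            H (Fin.cons (a, a) f) else 0) (fun μ => g 0 μ) ?_ (fun μ => hg 0 μ) ?_
      · intro f
        split_ifs
        · exact hH _
        · exact le_rfl
      · intro f μ hr hc
        split_ifs with h5
        · refine hyp _ 0 (fun _ => a) (fun _ => false) (msOf f) μ h5 ?_ rfl rfl ?_ ?_ hc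
          · intro i j _
            exact Fin.ext (by have := i.isLt; have := j.isLt; omega)
          · rw [msOf_cons]
            have : cycM (fun _ : Fin 1 => a) (fun _ => false) = {(a, a)} := by
              simp [cycM]
            rw [this]
            rfl
          · intro _
            exact hr.2 a (Finset.mem_insert_self _ _)
        · exact hg 0 μ
    calc _ ≤ ∑ _a : Fin n, ((C.factorial : ℝ) * 2 ^ C * (n : ℝ) ^ C * ∑ μ ∈ cycT C, g 0 μ / zz μ) :=
          Finset.sum_le_sum fun a _ => h3 a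
      _ = _ := by simp
  · intro l hl
    obtain ⟨hr, hloop⟩ := (Finset.mem_filter.mp hl).2
    -- decode
    set a := (l 0).1 with ha
    have hl0 : l 0 = (a, a) := by
      apply Prod.ext
      · rfl
      · exact hloop.symm
    have hlc : (Fin.cons (a, a) (Fin.tail l) : Fin (C + 1) → Pr n) = l := by
      rw [← hl0]; exact Fin.cons_self_tail l
    refine ⟨(a, Fin.tail l), ?_, hlc⟩
    rw [ht]
    refine Finset.mem_filter.mpr ⟨Finset.mem_univ _, ?_, ?_⟩
    · show Reg2M (msOf (Fin.tail l)) (insert a S)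
      have hdeg : ∀ x, degM (msOf l) x = (if a = x then 2 else 0) + degM (msOf (Fin.tail l)) x := by
        intro x
        conv_lhs => rw [← hlc]
        exact deg_cons_loop a _ x
      constructor
      · intro x
        rcases hr.1 x with h0 | h2
        · left
          rw [hdeg] at h0
          omega
        · rw [hdeg] at h2
          by_cases hax : a = x
          · left; simp [hax] at h2; exact h2
          · right; simpa [hax] using h2
      · intro x hx
        rcases Finset.mem_insert.mp hx with hxa | hx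
        · have := hdeg x
          rw [if_pos hxa.symm] at this
          rcases hr.1 x with h0 | h2 <;> omega
        · have h0 := hr.2 x hx
          rw [hdeg] at h0
          omega
    · show Reg2M (msOf (Fin.cons (a, a) (Fin.tail l) : Fin (C + 1) → Pr n)) S
      rw [hlc]; exact hr

/-! ### The non-loop part -/

/-- Expansion: insert a new label `b` in the edge number `0`. -/
noncomputable def expandL {C : ℕ} (l' : Fin (C + 1) → Pr n) (p : Fin (C + 1)) (flip : Bool)
    (b : Fin n) : Fin (C + 2) → Pr n :=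
  Fin.cons ((l' 0).1, b) (Fin.insertNth (α := fun _ => Pr n) p
    (if flip then ((l' 0).2, b) else (b, (l' 0).2)) (Fin.tail l'))

theorem msOf_expandL {C : ℕ} (l' : Fin (C + 1) → Pr n) (p : Fin (C + 1)) (flip : Bool)
    (b : Fin n) :
    msOf (expandL l' p flip b) = ((l' 0).1, b) ::ₘ
      (if flip then ((l' 0).2, b) else (b, (l' 0).2)) ::ₘ msOf (Fin.tail l') := by
  unfold expandL
  rw [msOf_cons, msOf_insertNth]

theorem deg_expandL {C : ℕ} (l' : Fin (C + 1) → Pr n) (p : Fin (C + 1)) (flip : Bool)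
    (b x : Fin n) :
    degM (msOf (expandL l' p flip b)) x = (if b = x then 2 else 0) + degM (msOf l') x := by
  rw [msOf_expandL, degM_cons, degM_cons]
  conv_rhs => rw [msOf_tail l', degM_cons]
  cases flip <;> simp only [ctP, Bool.false_eq_true, if_true, if_false] <;> split_ifs <;> omega

/-- The transfer of the Reg2 property along an expansion. -/
theorem reg2_of_expand {C : ℕ} {l' : Fin (C + 1) → Pr n} {p : Fin (C + 1)} {flip : Bool}
    {b : Fin n} {S : Finset (Fin n)} (hr : Reg2M (msOf (expandL l' p flip b)) S) :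
    Reg2M (msOf l') (insert b S) := by
  have hdeg := deg_expandL l' p flip b
  constructor
  · intro x
    rcases hr.1 x with h0 | h2
    · left
      rw [hdeg] at h0
      omega
    · rw [hdeg] at h2
      by_cases hax : b = x
      · left; simp [hax] at h2; exact h2
      · right; simpa [hax] using h2
  · intro x hx
    rcases Finset.mem_insert.mp hx with hxa | hx
    · have := hdeg x
      rw [if_pos hxa.symm] at this
      rcases hr.1 x with h0 | h2 <;> omega
    · have h0 := hr.2 x hx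
      rw [hdeg] at h0
      omega

/-- Every Reg2 sequence whose edge number `0` is not a loop comes from an expansion. -/
theorem exists_expand {C : ℕ} {l : Fin (C + 2) → Pr n} {S : Finset (Fin n)}
    (hr : Reg2M (msOf l) S) (hne : (l 0).1 ≠ (l 0).2) :
    ∃ (p : Fin (C + 1)) (flip : Bool) (l' : Fin (C + 1) → Pr n),
      expandL l' p flip (l 0).2 = l := by
  set b := (l 0).2 with hb
  set a := (l 0).1 with ha
  have h1 : degM (msOf l) b = ctP (l 0) b + degM (msOf (Fin.tail l)) b := by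
    conv_lhs => rw [msOf_tail l]
    rw [degM_cons]
  have h2 : ctP (l 0) b = 1 := by
    simp only [ctP]
    rw [if_neg hne, if_pos rfl]
  have h3 : degM (msOf (Fin.tail l)) b = 1 := by
    rcases hr.1 b with h | h <;> omega
  have h4 : ∑ i, ctP (Fin.tail l i) b = 1 := by
    exact (degM_eq_sum (Finset.univ) (Fin.tail l) b).symm.trans h3
  obtain ⟨p, -, hp⟩ : ∃ p ∈ (Finset.univ : Finset (Fin (C + 1))), ctP (Fin.tail l p) b ≠ 0 := by
    apply Finset.exists_ne_zero_of_sum_ne_zero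
    rw [h4]; exact one_ne_zero
  have hle : ctP (Fin.tail l p) b ≤ 1 := by
    have := ctP_le_degM (M := msOf (Fin.tail l)) (p := Fin.tail l p) (mem_msOf _ p) b
    omega
  set e := Fin.tail l p with he
  have hins : Fin.insertNth (α := fun _ => Pr n) p e (fun i => Fin.tail l (p.succAbove i)) =
      Fin.tail l := by
    funext i
    rcases Fin.eq_self_or_eq_succAbove p i with rfl | ⟨j, rfl⟩
    · simp [he]
    · simp
  simp only [ctP] at hp hle
  by_cases he2 : e.2 = b
  · -- `e = (y, b)`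
    refine ⟨p, true, Fin.cons (a, e.1) (fun i => Fin.tail l (p.succAbove i)), ?_⟩
    unfold expandL
    simp only [Fin.cons_zero, if_true, Fin.tail_cons]
    have h5 : (e.1, b) = e := Prod.ext rfl he2.symm
    rw [h5, hins]
    have h6 : (a, b) = l 0 := rfl
    rw [h6]
    exact Fin.cons_self_tail l
  · have he1 : e.1 = b := by
      by_contra h
      simp [h, he2] at hp
    refine ⟨p, false, Fin.cons (a, e.2) (fun i => Fin.tail l (p.succAbove i)), ?_⟩
    unfold expandL
    simp only [Fin.cons_zero, Bool.false_eq_true, if_false, Fin.tail_cons]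
    have h5 : (b, e.2) = e := Prod.ext he1.symm rfl
    rw [h5, hins]
    have h6 : (a, b) = l 0 := rfl
    rw [h6]
    exact Fin.cons_self_tail l

/-- The hypothesis `PH` transfers along an expansion. -/
theorem PH_expand {C : ℕ} {S : Finset (Fin n)} {H : (Fin (C + 2) → Pr n) → ℝ} {g : ℕ → Wt → ℝ}
    (hg : ∀ ℓ μ, 0 ≤ g ℓ μ) (hyp : PH S H g) (p : Fin (C + 1)) (flip : Bool) (b : Fin n) :
    PH (insert b S) (fun l' : Fin (C + 1) → Pr n =>
        if Reg2M (msOf (expandL l' p flip b)) S then H (expandL l' p flip b) else 0)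
      (fun ℓ μ => g (ℓ + 1) μ) := by
  intro l' ℓ x fl M μ hr hx hfl hl0 hms hd hM
  show (if Reg2M (msOf (expandL l' p flip b)) S then H (expandL l' p flip b) else 0) ≤ g (ℓ + 1) μ
  split_ifs with h5
  swap
  · exact hg _ _
  have hb0 : degM (msOf l') b = 0 := hr.2 b (Finset.mem_insert_self _ _)
  have hbM : degM M b = 0 := by
    rw [hms, degM_add] at hb0
    omega
  have hbx : b ∉ Set.range x := by
    rintro ⟨i, rfl⟩
    have hmem : edgeOf x fl i ∈ msOf l' := by
      rw [hms, cycM_eq]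
      exact Multiset.mem_add.mpr (Or.inl (mem_msOf _ i))
    have h6 := ctP_le_degM hmem (x i)
    rw [hb0] at h6
    have h7 : 1 ≤ ctP (edgeOf x fl i) (x i) := by
      simp only [edgeOf, ctP]
      by_cases hfi : fl i = true <;> simp [hfi]
    omega
  have hR := cycM_split_last x fl hfl
  set R := msOf (fun j : Fin ℓ => edgeOf x fl j.castSucc) with hRdef
  have htail : msOf (Fin.tail l') = R + M := by
    have h7 := msOf_tail l'
    rw [hms, hR, hl0, Multiset.cons_add] at h7
    exact ((Multiset.cons_inj_right _).mp h7).symm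
  refine hyp _ (ℓ + 1) (Fin.cons b x) (Fin.cons flip fl) M μ h5 ?_ ?_ ?_ ?_ ?_ hM
  · exact Fin.cons_injective_iff.mpr ⟨hbx, hx⟩
  · rw [← Fin.succ_last, Fin.cons_succ]; exact hfl
  · simp only [expandL, Fin.cons_zero, hl0]
    rw [← Fin.succ_last, Fin.cons_succ]
  · rw [msOf_expandL, htail, hl0, cycM_expand x fl hfl b flip R hR]
    simp only [Multiset.cons_add]
    rw [Multiset.cons_swap]
  · intro i
    refine Fin.cases ?_ (fun j => ?_) i
    · simpa using hbM
    · simpa using hd j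

theorem nonloop_part {C : ℕ} (hP : PP n C) (S : Finset (Fin n)) (H : (Fin (C + 2) → Pr n) → ℝ)
    (g : ℕ → Wt → ℝ) (hH : ∀ l, 0 ≤ H l) (hg : ∀ ℓ μ, 0 ≤ g ℓ μ) (hyp : PH S H g) :
    ∑ l ∈ Finset.univ.filter (fun l : Fin (C + 2) → Pr n => Reg2M (msOf l) S ∧ (l 0).1 ≠ (l 0).2),
        H l ≤
      ((C : ℝ) + 1) * (2 * ((n : ℝ) * ((C.factorial : ℝ) * 2 ^ C * (n : ℝ) ^ (C + 1) *
        ∑ ℓ ∈ Finset.range (C + 1), ∑ μ ∈ cycT (C - ℓ), g (ℓ + 1) μ / zz μ))) := by
  set B := (C.factorial : ℝ) * 2 ^ C * (n : ℝ) ^ (C + 1) *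
        ∑ ℓ ∈ Finset.range (C + 1), ∑ μ ∈ cycT (C - ℓ), g (ℓ + 1) μ / zz μ with hB
  set t : Finset (Fin (C + 1) × Bool × Fin n × (Fin (C + 1) → Pr n)) :=
    Finset.univ.filter fun c => Reg2M (msOf c.2.2.2) (insert c.2.2.1 S) ∧
      Reg2M (msOf (expandL c.2.2.2 c.1 c.2.1 c.2.2.1)) S with ht
  have h1 := sum_le_of_surj
    (Finset.univ.filter (fun l : Fin (C + 2) → Pr n => Reg2M (msOf l) S ∧ (l 0).1 ≠ (l 0).2)) t
    (fun c => expandL c.2.2.2 c.1 c.2.1 c.2.2.1) H hH ?_
  · refine h1.trans ?_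
    have h2 : ∑ c ∈ t, H (expandL c.2.2.2 c.1 c.2.1 c.2.2.1) =
        ∑ p : Fin (C + 1), ∑ flip : Bool, ∑ b : Fin n, ∑ f : Fin (C + 1) → Pr n,
          (if Reg2M (msOf f) (insert b S) then
            (if Reg2M (msOf (expandL f p flip b)) S then H (expandL f p flip b) else 0) else 0) := by
      rw [ht, Finset.sum_filter, Fintype.sum_prod_type]
      refine Finset.sum_congr rfl fun p _ => ?_
      rw [Fintype.sum_prod_type]
      refine Finset.sum_congr rfl fun fl _ => ?_
      rw [Fintype.sum_prod_type]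
      refine Finset.sum_congr rfl fun b _ => Finset.sum_congr rfl fun f _ => ?_
      by_cases h3 : Reg2M (msOf f) (insert b S) <;>
        by_cases h4 : Reg2M (msOf (expandL f p fl b)) S <;>
        simp [h3, h4]
    rw [h2]
    have h3 : ∀ (p : Fin (C + 1)) (flip : Bool) (b : Fin n),
        ∑ f : Fin (C + 1) → Pr n, (if Reg2M (msOf f) (insert b S) then
            (if Reg2M (msOf (expandL f p flip b)) S then H (expandL f p flip b) else 0) else 0) ≤ B := by
      intro p flip b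
      refine hP (insert b S) (fun f => if Reg2M (msOf (expandL f p flip b)) S then
        H (expandL f p flip b) else 0) (fun ℓ μ => g (ℓ + 1) μ) ?_ (fun ℓ μ => hg _ _)
        (PH_expand hg hyp p flip b)
      intro f
      split_ifs
      · exact hH _
      · exact le_rfl
    calc _ ≤ ∑ _p : Fin (C + 1), ∑ _flip : Bool, ∑ _b : Fin n, B :=
          Finset.sum_le_sum fun p _ => Finset.sum_le_sum fun fl _ =>
            Finset.sum_le_sum fun b _ => h3 p fl b
      _ = _ := by
          simp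
  · intro l hl
    obtain ⟨hr, hne⟩ := (Finset.mem_filter.mp hl).2
    obtain ⟨p, flip, l', hE⟩ := exists_expand hr hne
    refine ⟨(p, flip, (l 0).2, l'), ?_, hE⟩
    rw [ht]
    refine Finset.mem_filter.mpr ⟨Finset.mem_univ _, ?_, ?_⟩
    · apply reg2_of_expand (p := p) (flip := flip)
      show Reg2M (msOf (expandL l' p flip (l 0).2)) S
      rw [hE]; exact hr
    · show Reg2M (msOf (expandL l' p flip (l 0).2)) S
      rw [hE]; exact hr

theorem split_loop {C : ℕ} (S : Finset (Fin n)) (H : (Fin (C + 1) → Pr n) → ℝ) :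
    ∑ l, (if Reg2M (msOf l) S then H l else 0) =
      ∑ l ∈ Finset.univ.filter (fun l : Fin (C + 1) → Pr n => Reg2M (msOf l) S ∧ (l 0).1 = (l 0).2),
        H l +
      ∑ l ∈ Finset.univ.filter (fun l : Fin (C + 1) → Pr n => Reg2M (msOf l) S ∧ (l 0).1 ≠ (l 0).2),
        H l := by
  rw [Finset.sum_filter, Finset.sum_filter, ← Finset.sum_add_distrib]
  refine Finset.sum_congr rfl fun l _ => ?_
  by_cases h1 : Reg2M (msOf l) S <;> by_cases h2 : (l 0).1 = (l 0).2 <;> simp [h1, h2]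

theorem PP_zero (n : ℕ) : PP n 0 := by
  intro S H g hH hg hyp
  rw [split_loop]
  have h1 := loop_part (QQ_zero n) S H g hH hg hyp
  have h2 : ∑ l ∈ Finset.univ.filter
      (fun l : Fin (0 + 1) → Pr n => Reg2M (msOf l) S ∧ (l 0).1 ≠ (l 0).2), H l = 0 := by
    refine Finset.sum_eq_zero fun l hl => ?_
    obtain ⟨hr, hne⟩ := (Finset.mem_filter.mp hl).2
    exfalso
    have hd := hr.1 (l 0).1
    rw [msOf_tail l, degM_cons] at hd
    have h3 : ctP (l 0) (l 0).1 = 1 := by
      simp only [ctP]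
      rw [if_pos trivial, if_neg (Ne.symm hne)]
    have h4 : degM (msOf (Fin.tail l)) (l 0).1 = 0 := by
      have : msOf (Fin.tail l) = 0 := by simp [msOf]
      rw [this]; exact degM_zero _
    omega
  rw [h2, add_zero]
  refine h1.trans (le_of_eq ?_)
  simp

theorem PP_succ {C : ℕ} (hQ : QQ n (C + 1)) (hP : PP n C) : PP n (C + 1) := by
  intro S H g hH hg hyp
  rw [split_loop]
  have h1 := loop_part hQ S H g hH hg hyp
  have h2 := nonloop_part hP S H g hH hg hyp
  refine (add_le_add h1 h2).trans (le_of_eq ?_)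
  rw [Finset.sum_range_succ' _ (C + 1), Nat.factorial_succ]
  have h3 : ∀ ℓ, C + 1 - (ℓ + 1) = C - ℓ := fun ℓ => by omega
  simp only [h3, Nat.sub_zero]
  push_cast
  ring

theorem QQ_PP_all (n C : ℕ) : QQ n C ∧ PP n C := by
  induction C with
  | zero => exact ⟨QQ_zero n, PP_zero n⟩
  | succ C ih =>
    have hQ := QQ_of_PP ih.2
    exact ⟨hQ, PP_succ hQ ih.2⟩


end Cy

open Cy

/-- Summation over the pure cycle part: `Σ_{lc} h(lc) ≤ C! 2^C n^C Σ_{dg ν = C} g(ν)/z_ν`
if `h ≤ g(type)`. -/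
theorem cycle_sum (C : ℕ) (S : Finset (Fin n)) (h : Multiset (Pr n) → ℝ) (g : Wt → ℝ)
    (hh : ∀ M, 0 ≤ h M) (hg : ∀ ν, 0 ≤ g ν)
    (hhg : ∀ M ν, IsCyc M ν → Reg2M M S → h M ≤ g ν) :
    ∑ lc : Fin C → Pr n, (if Reg2M (msOf lc) S then h (msOf lc) else 0) ≤
      (C.factorial : ℝ) * 2 ^ C * (n : ℝ) ^ C * ∑ ν ∈ cycT C, g ν / zz ν :=
  (QQ_PP_all n C).1 S (fun l => h (msOf l)) g (fun _ => hh _) hg
    (fun _ ν hr hc => hhg _ ν hc hr)


end Vale.Agent.Lib.P146
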