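import Mathlib

/-!
P146: definitions for the proof of `Var F_n(β) ≤ C n^{19/20}` (SK model, zero field).
See notes/P146_blueprint.md.
-/

set_option autoImplicit false

open MeasureTheory ProbabilityTheory

namespace Vale.Agent.Lib.P146

/-! ### Coordinates, Gaussian measure, the matrix `Jh` -/

/-- Coordinates: unordered pairs, diagonal included. -/
abbrev Ed (n : ℕ) := Sym2 (Fin n)

/-- Configuration space. -/
abbrev Pt (n : ℕ) := Ed n → ℝ

/-- Standard Gaussian measure on the configuration space. -/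
noncomputable def gam (n : ℕ) : Measure (Pt n) := Measure.pi fun _ => gaussianReal 0 1

instance (n : ℕ) : IsProbabilityMeasure (gam n) := by
  unfold gam; infer_instance

/-- `cc x y = √2` on the diagonal and `1` off it. -/
noncomputable def cc {n : ℕ} (x y : Fin n) : ℝ := if x = y then Real.sqrt 2 else 1

/-- The GOE matrix normalised to have spectrum about `[-2,2]`. -/
noncomputable def Jh {n : ℕ} (g : Pt n) : Matrix (Fin n) (Fin n) ℝ :=
  Matrix.of fun x y => cc x y * g s(x, y) / Real.sqrt n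

/-! ### Spins and the free energy with diagonal -/

/-- Spin configurations. -/
abbrev Sp (n : ℕ) := Fin n → Bool

/-- The value `±1` of a spin. -/
def sv {n : ℕ} (σ : Sp n) (x : Fin n) : ℝ := if σ x then 1 else -1

/-- Energy, diagonal included: `(1/2) Σ_{x,y} Jh_xy σ_x σ_y`. -/
noncomputable def Ham {n : ℕ} (g : Pt n) (σ : Sp n) : ℝ :=
  (1 / 2) * ∑ x, ∑ y, Jh g x y * (sv σ x * sv σ y)

/-- Partition function, diagonal included. -/
noncomputable def Zh {n : ℕ} (β : ℝ) (g : Pt n) : ℝ := ∑ σ : Sp n, Real.exp (β * Ham g σ)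

/-- Free energy, diagonal included. -/
noncomputable def Fh {n : ℕ} (β : ℝ) (g : Pt n) : ℝ := Real.log (Zh β g)

/-- Gibbs weight. -/
noncomputable def gw {n : ℕ} (β : ℝ) (g : Pt n) (σ : Sp n) : ℝ :=
  Real.exp (β * Ham g σ) / Zh β g

/-! ### Wick calculus -/

/-- Polynomials in the formal Wick variables `τ_e = X e`; the product of `Rr n` is the Wick product. -/
abbrev Rr (n : ℕ) := MvPolynomial (Ed n) ℝ

/-- Probabilists' Hermite polynomial as a function. -/
noncomputable def He (k : ℕ) (t : ℝ) : ℝ := Polynomial.aeval t (Polynomial.hermite k)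

/-- The Wick realisation: the monomial `τ^α` goes to `∏_e He_{α e}(g e)`. -/
noncomputable def Ev {n : ℕ} : Rr n →ₗ[ℝ] (Pt n → ℝ) :=
  (MvPolynomial.basisMonomials (Ed n) ℝ).constr ℝ fun α g => ∏ e, He (α e) (g e)

/-- Abstract form of `(p,q) ↦ E[Ev p Ev q]`: only adjointness is used in the Gram bound. -/
structure WForm (n : ℕ) where
  B : Rr n →ₗ[ℝ] Rr n →ₗ[ℝ] ℝ
  symm : ∀ p q, B p q = B q p
  adj : ∀ (e : Ed n) (p q : Rr n),
    B (MvPolynomial.X e * p) q = B p (MvPolynomial.pderiv e q)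
  one : B 1 1 = 1

/-- The formal matrix `𝐓`, `𝐓_xy = (cc x y/√n) τ_{xy}`. -/
noncomputable def TT (n : ℕ) : Matrix (Fin n) (Fin n) (Rr n) :=
  Matrix.of fun x y => MvPolynomial.C (cc x y / Real.sqrt n) * MvPolynomial.X s(x, y)

/-- The derivation `D_xy = (cc x y) ∂/∂τ_{xy}`. -/
noncomputable def DD {n : ℕ} (x y : Fin n) : Derivation ℝ (Rr n) (Rr n) :=
  cc x y • MvPolynomial.pderiv s(x, y)

/-- Wick trace `T_{ℓ+1} = Tr 𝐓^{ℓ+1}`; index `ℓ` means a cycle of length `ℓ+1`. -/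
noncomputable def Trc (n : ℕ) (ℓ : ℕ) : Rr n := Matrix.trace (TT n ^ (ℓ + 1))

/-- Cycle types; `ℓ ∈ ν` stands for a cycle of length `ℓ+1`. -/
abbrev Wt := Multiset ℕ

/-- Total length of a cycle type. -/
def dg (ν : Wt) : ℕ := (ν.map (· + 1)).sum

/-- The normalising constant `z_ν = ∏_ℓ (2(ℓ+1))^{m_ℓ} m_ℓ!`. -/
noncomputable def zz (ν : Wt) : ℝ :=
  (ν.map fun ℓ => (2 * ((ℓ : ℝ) + 1))).prod * ∏ ℓ ∈ ν.toFinset, ((ν.count ℓ).factorial : ℝ)

/-- Normalised Wick trace monomial. -/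
noncomputable def Snu (n : ℕ) (ν : Wt) : Rr n :=
  MvPolynomial.C (Real.sqrt (zz ν))⁻¹ * (ν.map (Trc n)).prod

/-- Linear combinations of the `Snu`. -/
noncomputable def Sc (n : ℕ) (c : Wt →₀ ℝ) : Rr n :=
  c.sum fun ν r => MvPolynomial.C r * Snu n ν

/-- Squared `ℓ²` norm of a finitely supported sequence. -/
noncomputable def nrm2 {A : Type*} (c : A →₀ ℝ) : ℝ := c.sum fun _ r => r ^ 2

/-- `ℓ²` norm of a finitely supported sequence. -/
noncomputable def nrm {A : Type*} (c : A →₀ ℝ) : ℝ := Real.sqrt (nrm2 c)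

/-- `Trc n j * Sc n c = Sc n (up j c)`. -/
noncomputable def up (j : ℕ) (c : Wt →₀ ℝ) : Wt →₀ ℝ :=
  c.sum fun ν r => Finsupp.single (j ::ₘ ν) (r * Real.sqrt (2 * ((j : ℝ) + 1) * ((ν.count j : ℝ) + 1)))

/-- `D_xy (Sc n c) = n^{-1/2} Σ_ℓ (𝐓^ℓ)_xy Sc n (down ℓ c)`. -/
noncomputable def down (ℓ : ℕ) (c : Wt →₀ ℝ) : Wt →₀ ℝ :=
  c.sum fun ν r => Finsupp.single (ν.erase ℓ) (r * Real.sqrt (2 * ((ℓ : ℝ) + 1) * (ν.count ℓ : ℝ)))

/-- The matrix `Σ ξ_{a,ν} 𝐓^a Snu ν`. -/
noncomputable def Psi (n : ℕ) (ξ : ℕ × Wt →₀ ℝ) : Matrix (Fin n) (Fin n) (Rr n) :=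
  Matrix.of fun x y => ξ.sum fun q r => MvPolynomial.C r * ((TT n ^ q.1) x y * Snu n q.2)

/-- The Gram form on the `Psi`. -/
noncomputable def Qf {n : ℕ} (W : WForm n) (ξ ξ' : ℕ × Wt →₀ ℝ) : ℝ :=
  (1 / (n : ℝ)) * ∑ x, ∑ y, W.B (Psi n ξ x y) (Psi n ξ' x y)

/-- The form `(1/n) u^T 𝐓^a v`. -/
noncomputable def Xf {n : ℕ} (u v : Fin n → ℝ) (a : ℕ) : Rr n :=
  MvPolynomial.C (1 / (n : ℝ)) * ∑ x, ∑ y, MvPolynomial.C (u x * v y) * (TT n ^ a) x y

/-! ### Chebyshev -/

/-- Chebyshev polynomials (second kind, rescaled) of a matrix: `U₀ = 1`, `U₁ = J`,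
`U_{a+2} = J U_{a+1} - U_a`. -/
noncomputable def chebM {n : ℕ} (J : Matrix (Fin n) (Fin n) ℝ) : ℕ → Matrix (Fin n) (Fin n) ℝ
  | 0 => 1
  | 1 => J
  | (a + 2) => J * chebM J (a + 1) - chebM J a

/-- The spectral control variable: `(1 + Tr U_p²)^{1/(2p)}`. -/
noncomputable def rhoH {n : ℕ} (p : ℕ) (g : Pt n) : ℝ :=
  (1 + Matrix.trace (chebM (Jh g) p * chebM (Jh g) p)) ^ ((1 : ℝ) / (2 * p))

/-! ### Growth class -/

/-- Measurable with polynomial growth: everything we integrate is of this kind. -/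
def PG {n : ℕ} (f : Pt n → ℝ) : Prop :=
  Measurable f ∧ ∃ (C : ℝ) (N : ℕ), ∀ g, |f g| ≤ C * (1 + ∑ e, |g e|) ^ N

/-! ### Chain patterns -/

/-- Free sum of a chain pattern: `(a,b,ℓ)` stands for `(𝐓^{ℓ+1})_{λ a, λ b}`. -/
noncomputable def Pc (n : ℕ) (V : Type) [Fintype V] [DecidableEq V] (E : List (V × V × ℕ)) : Rr n :=
  ∑ lam : V → Fin n, (E.map fun e => (TT n ^ (e.2.2 + 1)) (lam e.1) (lam e.2.1)).prod

/-- Degree of a vertex in a chain pattern (a loop counts twice). -/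
def degC {V : Type} [DecidableEq V] (E : List (V × V × ℕ)) (v : V) : ℕ :=
  (E.map fun e => (if e.1 = v then 1 else 0) + (if e.2.1 = v then 1 else 0)).sum

end Vale.Agent.Lib.P146

namespace Vale.Agent.Lib.P146

/-! ### Labelled edge multisets (combinatorial core) -/

/-- Ordered pairs of labels. -/
abbrev Pr (n : ℕ) := Fin n × Fin n

/-- The multiset of values of a tuple. -/
def msOf {α : Type} {k : ℕ} (l : Fin k → α) : Multiset α := Finset.univ.val.map l

/-- Degree of a label in a multiset of pairs (a loop counts twice). -/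
def degM {n : ℕ} (M : Multiset (Pr n)) (x : Fin n) : ℕ :=
  (M.map fun p => (if p.1 = x then 1 else 0) + (if p.2 = x then 1 else 0)).sum

/-- Labels used. -/
def labelsM {n : ℕ} (M : Multiset (Pr n)) : Finset (Fin n) :=
  Finset.univ.filter fun x => degM M x ≠ 0

/-- All degrees even. -/
def EvenM {n : ℕ} (M : Multiset (Pr n)) : Prop := ∀ x, Even (degM M x)

/-- Excess: number of edges minus number of labels. -/
def excessM {n : ℕ} (M : Multiset (Pr n)) : ℕ := Multiset.card M - (labelsM M).card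

/-- Closed label set: no edge leaves it. -/
def ClosedM {n : ℕ} (M : Multiset (Pr n)) (S : Finset (Fin n)) : Prop :=
  ∀ p ∈ M, p.1 ∈ S ↔ p.2 ∈ S

/-- No pure cycle component: every nonempty closed set of used labels has a label of degree `≠ 2`. -/
def NCM {n : ℕ} (M : Multiset (Pr n)) : Prop :=
  ∀ S : Finset (Fin n), S.Nonempty → S ⊆ labelsM M → ClosedM M S → ∃ x ∈ S, degM M x ≠ 2

/-- Every label has degree `0` or `2` and labels of `S` are not used. -/
def Reg2M {n : ℕ} (M : Multiset (Pr n)) (S : Finset (Fin n)) : Prop :=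
  (∀ x, degM M x = 0 ∨ degM M x = 2) ∧ ∀ x ∈ S, degM M x = 0

/-- One factor of the weight: `1` for `m = 0`, `m!/2` otherwise (so `1` for `m = 2`). -/
noncomputable def wt1 (m : ℕ) : ℝ := if m = 0 then 1 else (m.factorial : ℝ) / 2

/-- The weight of the Schur estimate. -/
noncomputable def varpi {n : ℕ} (M : Multiset (Pr n)) : ℝ := ∏ x, wt1 (degM M x)

/-- Relabelling of a multiset of pairs. -/
def mapL {n : ℕ} (f : Fin n → Fin n) (M : Multiset (Pr n)) : Multiset (Pr n) :=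
  M.map (Prod.map f f)

/-- Free averaging of a function on edge multisets over all maps of the label set. -/
noncomputable def Tav {n : ℕ} (dv : Multiset (Pr n) → ℝ) (M : Multiset (Pr n)) : ℝ :=
  ((n : ℝ) ^ n)⁻¹ * ∑ f : Fin n → Fin n, dv (mapL f M)

/-- The labelled cycle on `x 0, …, x ℓ`, with orientation bits (`x (ℓ+1) := x 0`). -/
noncomputable def cycM {n ℓ : ℕ} (x : Fin (ℓ + 1) → Fin n) (fl : Fin (ℓ + 1) → Bool) :
    Multiset (Pr n) :=
  Finset.univ.val.map fun i : Fin (ℓ + 1) =>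
    if fl i then (x (i + 1), x i) else (x i, x (i + 1))

/-- `M` is a disjoint union of labelled cycles of type `ν`. -/
inductive IsCyc {n : ℕ} : Multiset (Pr n) → Wt → Prop
  | nil : IsCyc 0 0
  | add {ℓ : ℕ} (x : Fin (ℓ + 1) → Fin n) (fl : Fin (ℓ + 1) → Bool) (M : Multiset (Pr n)) (ν : Wt)
      (hx : Function.Injective x) (hd : ∀ i, degM M (x i) = 0) (hM : IsCyc M ν) :
      IsCyc (cycM x fl + M) (ℓ ::ₘ ν)

/-- All cycle types of total length `C`. -/
noncomputable def cycT (C : ℕ) : Finset Wt :=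
  Finset.univ.image fun p : Nat.Partition C => p.parts.map (· - 1)

/-! ### The concrete functions of the core -/

/-- The monomial of an edge multiset. -/
noncomputable def monoM {n : ℕ} (M : Multiset (Pr n)) : Rr n :=
  (M.map fun p => TT n p.1 p.2).prod

/-- The Hermite coefficient, normalised: `n^k E[Fh Ev(∏ 𝐓_e)]`. -/
noncomputable def dval {n : ℕ} (β : ℝ) (M : Multiset (Pr n)) : ℝ :=
  (n : ℝ) ^ Multiset.card M * ∫ g, Fh β g * Ev (monoM M) g ∂gam n

/-- Free average of the monomial over all label maps. -/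
noncomputable def freeM {n : ℕ} (M : Multiset (Pr n)) : Rr n :=
  MvPolynomial.C ((n : ℝ) ^ n)⁻¹ * ∑ f : Fin n → Fin n, monoM (mapL f M)

/-- The free coefficient against a cycle polynomial. -/
noncomputable def ffv {n : ℕ} (β : ℝ) (M : Multiset (Pr n)) (ν : Wt) : ℝ :=
  (n : ℝ) ^ Multiset.card M * ∫ g, Fh β g * Ev (freeM M * Snu n ν) g ∂gam n

/-- The replica coefficient bound `2^{r-1} (r-1)!`. -/
noncomputable def Cg (r : ℕ) : ℝ := 2 ^ (r - 1) * ((r - 1).factorial : ℝ)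

/-- The bound of the free-pattern estimate. -/
noncomputable def Fb (β : ℝ) (K m : ℕ) : ℝ :=
  (max 1 β) ^ (2 * m) * Cg (2 * m) * 2 ^ (m + 1) * ((K : ℝ) + 1) ^ m

/-- The Wick monomial of a tuple of coordinates. -/
noncomputable def monoT {n k : ℕ} (t : Fin k → Ed n) : Rr n := ∏ i, MvPolynomial.X (t i)

/-- The level sum, in terms of tuples of coordinates. -/
noncomputable def Wlev {n : ℕ} (β : ℝ) (k : ℕ) : ℝ :=
  ((k.factorial : ℝ))⁻¹ * ∑ t : Fin k → Ed n, (∫ g, Fh β g * Ev (monoT t) g ∂gam n) ^ 2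

/-- Variance, as a difference of integrals. -/
noncomputable def VarH {n : ℕ} (G : Pt n → ℝ) : ℝ :=
  ∫ g, G g ^ 2 ∂gam n - (∫ g, G g ∂gam n) ^ 2

end Vale.Agent.Lib.P146
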