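import Vale.Agent.Lib.P146.Wick

/-! Module G1: derivatives of the free energy, Gibbs weights. -/

set_option autoImplicit false
open MeasureTheory MvPolynomial

namespace Vale.Agent.Lib.P146

variable {n : ℕ}

/-- Iterated coordinate derivatives of `Fh`. -/
noncomputable def DF (β : ℝ) : List (Ed n) → Pt n → ℝ
  | [] => Fh β
  | e :: t => fun g => deriv (fun s => DF β t (Function.update g e s)) (g e)

/-! ### Sums over unordered pairs -/

theorem cc_pos (x y : Fin n) : 0 < cc x y := by
  unfold cc; split_ifs <;> positivity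

theorem one_le_cc (x y : Fin n) : 1 ≤ cc x y := by
  unfold cc
  split_ifs
  · exact Real.one_le_sqrt.mpr (by norm_num)
  · exact le_rfl

theorem cc_symm_gd (x y : Fin n) : cc x y = cc y x := by
  unfold cc; simp only [eq_comm]

theorem cc_sq_self (x : Fin n) : cc x x ^ 2 = 2 := by
  unfold cc; simp

theorem cc_sq_of_ne {x y : Fin n} (h : x ≠ y) : cc x y ^ 2 = 1 := by
  unfold cc; simp [h]

theorem sum_fiber_cc (a b : Fin n) (F : ℝ) :
    ∑ p ∈ Finset.univ.filter (fun p : Fin n × Fin n => s(p.1, p.2) = s(a, b)),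
      cc p.1 p.2 ^ 2 * F = 2 * F := by
  classical
  by_cases hab : a = b
  · subst hab
    have : Finset.univ.filter (fun p : Fin n × Fin n => s(p.1, p.2) = s(a, a)) = {(a, a)} := by
      ext ⟨x, y⟩
      simp only [Finset.mem_filter, Finset.mem_univ, true_and, Finset.mem_singleton,
        Sym2.eq_iff, Prod.mk.injEq]
      tauto
    rw [this, Finset.sum_singleton, cc_sq_self]
  · have : Finset.univ.filter (fun p : Fin n × Fin n => s(p.1, p.2) = s(a, b)) =
        {(a, b), (b, a)} := by
      ext ⟨x, y⟩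
      simp only [Finset.mem_filter, Finset.mem_univ, true_and, Finset.mem_insert,
        Finset.mem_singleton, Sym2.eq_iff, Prod.mk.injEq]
    rw [this, Finset.sum_pair (by simpa [Prod.ext_iff] using fun h _ => hab h),
      cc_sq_of_ne hab, cc_sq_of_ne (Ne.symm hab)]
    ring

/-- Sum over unordered pairs in terms of a double sum. -/
theorem sum_sym2 (F : Ed n → ℝ) :
    ∑ e, F e = (1 / 2) * ∑ x, ∑ y, cc x y ^ 2 * F s(x, y) := by
  classical
  have h1 : ∑ x, ∑ y, cc x y ^ 2 * F s(x, y) =
      ∑ e : Ed n, ∑ p ∈ Finset.univ.filter (fun p : Fin n × Fin n => s(p.1, p.2) = e),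
        cc p.1 p.2 ^ 2 * F s(p.1, p.2) := by
    rw [← Fintype.sum_prod_type' (f := fun x y => cc x y ^ 2 * F s(x, y))]
    exact (Finset.sum_fiberwise _ _ _).symm
  rw [h1, Finset.mul_sum]
  refine Finset.sum_congr rfl fun e _ => ?_
  induction e using Sym2.ind with
  | _ a b =>
    have h2 : ∑ p ∈ Finset.univ.filter (fun p : Fin n × Fin n => s(p.1, p.2) = s(a, b)),
        cc p.1 p.2 ^ 2 * F s(p.1, p.2) =
        ∑ p ∈ Finset.univ.filter (fun p : Fin n × Fin n => s(p.1, p.2) = s(a, b)),
        cc p.1 p.2 ^ 2 * F s(a, b) := by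
      refine Finset.sum_congr rfl fun p hp => ?_
      rw [(Finset.mem_filter.mp hp).2]
    rw [h2, sum_fiber_cc]
    ring

/-! ### The linear form of the Hamiltonian -/

/-- The coefficient of the coordinate `e` in the Hamiltonian. -/
noncomputable def hE (σ : Sp n) (e : Ed n) : ℝ :=
  Sym2.lift ⟨fun x y => sv σ x * sv σ y / (cc x y * Real.sqrt n), by
    intro x y
    show sv σ x * sv σ y / (cc x y * Real.sqrt n) = sv σ y * sv σ x / (cc y x * Real.sqrt n)
    rw [cc_symm_gd x y, mul_comm (sv σ x)]⟩ e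

theorem hE_mk (σ : Sp n) (x y : Fin n) :
    hE σ s(x, y) = sv σ x * sv σ y / (cc x y * Real.sqrt n) := rfl

theorem sv_sq (σ : Sp n) (x : Fin n) : sv σ x ^ 2 = 1 := by
  unfold sv; split_ifs <;> norm_num

theorem abs_sv (σ : Sp n) (x : Fin n) : |sv σ x| = 1 := by
  unfold sv; split_ifs <;> simp

theorem Ham_eq (g : Pt n) (σ : Sp n) : Ham g σ = ∑ e, g e * hE σ e := by
  rw [sum_sym2]
  unfold Ham
  congr 1
  refine Finset.sum_congr rfl fun x _ => Finset.sum_congr rfl fun y _ => ?_
  have hn : 0 < (n : ℝ) := by exact_mod_cast x.pos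
  have hs : Real.sqrt n ≠ 0 := (Real.sqrt_pos.mpr hn).ne'
  have hc : cc x y ≠ 0 := (cc_pos x y).ne'
  rw [hE_mk]
  simp only [Jh, Matrix.of_apply]
  field_simp

theorem abs_hE_le (σ : Sp n) (e : Ed n) : |hE σ e| ≤ 1 := by
  induction e using Sym2.ind with
  | _ x y =>
    rw [hE_mk, abs_div, abs_mul, abs_sv, abs_sv]
    have hn : (1 : ℝ) ≤ n := by exact_mod_cast x.pos
    have h1 : (1 : ℝ) ≤ Real.sqrt n := Real.one_le_sqrt.mpr hn
    have h2 := one_le_cc x y
    have h3 : (1 : ℝ) ≤ cc x y * Real.sqrt n := by nlinarith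
    rw [abs_of_pos (by positivity), div_le_one (by positivity)]
    simpa using h3

theorem sum_hE_sq (hn : 0 < n) (σ : Sp n) : ∑ e, hE σ e ^ 2 = (n : ℝ) / 2 := by
  rw [sum_sym2]
  have hn' : (n : ℝ) ≠ 0 := by exact_mod_cast hn.ne'
  have : ∀ x y : Fin n, cc x y ^ 2 * hE σ s(x, y) ^ 2 = 1 / (n : ℝ) := by
    intro x y
    rw [hE_mk, div_pow, mul_pow, mul_pow, sv_sq, sv_sq, Real.sq_sqrt (by positivity)]
    have hc : cc x y ≠ 0 := (cc_pos x y).ne'
    field_simp
  simp only [this]
  simp
  field_simp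

/-! ### Partition function and Gibbs weights -/

theorem Ham_differentiable (σ : Sp n) : Differentiable ℝ (fun g : Pt n => Ham g σ) := by
  have : (fun g : Pt n => Ham g σ) = fun g => ∑ e, g e * hE σ e := funext fun g => Ham_eq g σ
  rw [this]
  exact Differentiable.fun_sum fun e _ => (differentiable_apply e).mul_const _

theorem Zh_pos (β : ℝ) (g : Pt n) : 0 < Zh β g :=
  Finset.sum_pos (fun _ _ => Real.exp_pos _) Finset.univ_nonempty

theorem Zh_differentiable (β : ℝ) : Differentiable ℝ (Zh (n := n) β) := by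
  unfold Zh
  exact Differentiable.fun_sum fun σ _ =>
    ((Ham_differentiable σ).const_mul β).exp

theorem gw_differentiable (β : ℝ) (σ : Sp n) : Differentiable ℝ (fun g : Pt n => gw β g σ) := by
  unfold gw
  simp only [div_eq_mul_inv]
  exact ((Ham_differentiable σ).const_mul β).exp.mul
    ((Zh_differentiable β).inv fun g => (Zh_pos β g).ne')

theorem Fh_differentiable (β : ℝ) : Differentiable ℝ (Fh (n := n) β) := by
  unfold Fh
  exact (Zh_differentiable β).log fun g => (Zh_pos β g).ne'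

/-- Derivative of the energy along a coordinate. -/
theorem Ham_hasDerivAt (e : Ed n) (g : Pt n) (σ : Sp n) :
    HasDerivAt (fun s => Ham (Function.update g e s) σ) (hE σ e) (g e) := by
  classical
  have hfun : (fun s => Ham (Function.update g e s) σ) =
      fun s => ∑ e', Function.update g e s e' * hE σ e' :=
    funext fun s => Ham_eq _ σ
  rw [hfun]
  have h : ∀ e' ∈ (Finset.univ : Finset (Ed n)),
      HasDerivAt (fun s => Function.update g e s e' * hE σ e')
        ((Pi.single e (1 : ℝ) : Pt n) e' * hE σ e') (g e) := by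
    intro e' _
    have h2 : HasDerivAt (fun s => Function.update g e s e') ((Pi.single e (1 : ℝ) : Pt n) e')
        (g e) := by
      by_cases he : e' = e
      · subst he
        simp only [Function.update_self, Pi.single_eq_same]
        exact hasDerivAt_id' _
      · simp only [Pi.single_eq_of_ne he, Function.update_of_ne he]
        exact hasDerivAt_const _ _
    exact h2.mul_const _
  have := HasDerivAt.fun_sum h
  have heq : ∑ e', (Pi.single e (1 : ℝ) : Pt n) e' * hE σ e' = hE σ e := by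
    rw [Finset.sum_eq_single e]
    · simp
    · intro b _ hb; simp [Pi.single_eq_of_ne hb]
    · simp
  rwa [heq] at this

/-- The thermal average of the coefficient of a coordinate. -/
noncomputable def avgE (β : ℝ) (g : Pt n) (e : Ed n) : ℝ := ∑ τ, gw β g τ * hE τ e

/-- Derivative of `Zh` along a coordinate. -/
theorem Zh_hasDerivAt (β : ℝ) (e : Ed n) (g : Pt n) :
    HasDerivAt (fun s => Zh β (Function.update g e s)) (β * avgE β g e * Zh β g) (g e) := by
  have h : ∀ σ ∈ (Finset.univ : Finset (Sp n)),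
      HasDerivAt (fun s => Real.exp (β * Ham (Function.update g e s) σ))
        (Real.exp (β * Ham g σ) * (β * hE σ e)) (g e) := by
    intro σ _
    have h1 := ((Ham_hasDerivAt e g σ).const_mul β).exp
    simpa [Function.update_eq_self] using h1
  have h2 : HasDerivAt (fun s => Zh β (Function.update g e s))
      (∑ σ, Real.exp (β * Ham g σ) * (β * hE σ e)) (g e) := HasDerivAt.fun_sum h
  refine h2.congr_deriv ?_
  have hZ : Zh β g ≠ 0 := (Zh_pos β g).ne'
  unfold avgE gw
  rw [Finset.mul_sum, Finset.sum_mul]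
  refine Finset.sum_congr rfl fun σ _ => ?_
  field_simp

/-- Derivative of a Gibbs weight along a coordinate. -/
theorem gw_hasDerivAt (β : ℝ) (e : Ed n) (g : Pt n) (σ : Sp n) :
    HasDerivAt (fun s => gw β (Function.update g e s) σ)
      (β * gw β g σ * (hE σ e - avgE β g e)) (g e) := by
  have h1 : HasDerivAt (fun s => Real.exp (β * Ham (Function.update g e s) σ))
      (Real.exp (β * Ham g σ) * (β * hE σ e)) (g e) := by
    have h1 := ((Ham_hasDerivAt e g σ).const_mul β).exp
    simpa [Function.update_eq_self] using h1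
  have hZ0 : Zh β (Function.update g e (g e)) ≠ 0 := (Zh_pos β _).ne'
  have h2 : HasDerivAt (fun s => gw β (Function.update g e s) σ) _ (g e) :=
    h1.div (Zh_hasDerivAt β e g) hZ0
  simp only [Function.update_eq_self] at h2
  refine h2.congr_deriv ?_
  have hZ : Zh β g ≠ 0 := (Zh_pos β g).ne'
  unfold gw
  field_simp

theorem gw_nonneg (β : ℝ) (g : Pt n) (σ : Sp n) : 0 ≤ gw β g σ :=
  div_nonneg (Real.exp_pos _).le (Zh_pos β g).le

theorem gw_sum (β : ℝ) (g : Pt n) : ∑ σ : Sp n, gw β g σ = 1 := by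
  unfold gw
  rw [← Finset.sum_div]
  exact div_self (Zh_pos β g).ne'

theorem gw_le_one (β : ℝ) (g : Pt n) (σ : Sp n) : gw β g σ ≤ 1 := by
  rw [← gw_sum β g]
  exact Finset.single_le_sum (fun τ _ => gw_nonneg β g τ) (Finset.mem_univ σ)

theorem gw_meas (β : ℝ) (σ : Sp n) : Measurable (fun g : Pt n => gw β g σ) :=
  (gw_differentiable β σ).continuous.measurable

/-- Derivative of the free energy along a coordinate. -/
theorem Fh_hasDerivAt (β : ℝ) (e : Ed n) (g : Pt n) :
    HasDerivAt (fun s => Fh β (Function.update g e s)) (β * avgE β g e) (g e) := by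
  have h : HasDerivAt (fun s => Fh β (Function.update g e s)) _ (g e) :=
    (Zh_hasDerivAt β e g).log (by rw [Function.update_eq_self]; exact (Zh_pos β g).ne')
  simp only [Function.update_eq_self] at h
  refine h.congr_deriv ?_
  have hZ : Zh β g ≠ 0 := (Zh_pos β g).ne'
  field_simp

/-! ### The class of Gibbs functions -/

/-- The algebra generated by thermal averages: every derivative of `Fh` lives there. -/
inductive GC (β : ℝ) : (Pt n → ℝ) → Prop
  | avg (h : Sp n → ℝ) : GC β (fun g => ∑ σ, gw β g σ * h σ)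
  | const (a : ℝ) : GC β (fun _ => a)
  | add {f f' : Pt n → ℝ} : GC β f → GC β f' → GC β (fun g => f g + f' g)
  | mul {f f' : Pt n → ℝ} : GC β f → GC β f' → GC β (fun g => f g * f' g)

theorem GC.differentiable {β : ℝ} {f : Pt n → ℝ} (hf : GC β f) : Differentiable ℝ f := by
  induction hf with
  | avg h => exact Differentiable.fun_sum fun σ _ => (gw_differentiable β σ).mul_const _
  | const a => exact differentiable_const a
  | add _ _ h1 h2 => exact h1.add h2
  | mul _ _ h1 h2 => exact h1.mul h2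

theorem GC.bdd {β : ℝ} {f : Pt n → ℝ} (hf : GC β f) : ∃ C : ℝ, 0 ≤ C ∧ ∀ g, |f g| ≤ C := by
  induction hf with
  | avg h =>
    refine ⟨∑ σ, |h σ|, Finset.sum_nonneg fun _ _ => abs_nonneg _, fun g => ?_⟩
    refine (Finset.abs_sum_le_sum_abs _ _).trans (Finset.sum_le_sum fun σ _ => ?_)
    rw [abs_mul, abs_of_nonneg (gw_nonneg β g σ)]
    exact mul_le_of_le_one_left (abs_nonneg _) (gw_le_one β g σ)
  | const a => exact ⟨|a|, abs_nonneg _, fun _ => le_rfl⟩
  | add _ _ h1 h2 =>
    obtain ⟨C1, h1', hC1⟩ := h1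
    obtain ⟨C2, h2', hC2⟩ := h2
    exact ⟨C1 + C2, add_nonneg h1' h2', fun g => (abs_add_le _ _).trans (add_le_add (hC1 g) (hC2 g))⟩
  | mul _ _ h1 h2 =>
    obtain ⟨C1, h1', hC1⟩ := h1
    obtain ⟨C2, h2', hC2⟩ := h2
    refine ⟨C1 * C2, mul_nonneg h1' h2', fun g => ?_⟩
    rw [abs_mul]
    exact mul_le_mul (hC1 g) (hC2 g) (abs_nonneg _) h1'

theorem hasDerivAt_path {f : Pt n → ℝ} (hf : Differentiable ℝ f) (g : Pt n) (e : Ed n) :
    HasDerivAt (fun s => f (Function.update g e s))
      (deriv (fun s => f (Function.update g e s)) (g e)) (g e) := by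
  have h1 : DifferentiableAt ℝ f (Function.update g e (g e)) := hf _
  have h2 := (hasDerivAt_update g e (g e)).differentiableAt
  exact (h1.comp (g e) h2).hasDerivAt

theorem avg_hasDerivAt (β : ℝ) (e : Ed n) (g : Pt n) (h : Sp n → ℝ) :
    HasDerivAt (fun s => ∑ σ, gw β (Function.update g e s) σ * h σ)
      (β * (∑ σ, gw β g σ * (h σ * hE σ e)) +
        ((-β) * ∑ σ, gw β g σ * h σ) * ∑ σ, gw β g σ * hE σ e) (g e) := by
  have h1 : ∀ σ ∈ (Finset.univ : Finset (Sp n)),
      HasDerivAt (fun s => gw β (Function.update g e s) σ * h σ)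
        ((β * gw β g σ * (hE σ e - avgE β g e)) * h σ) (g e) :=
    fun σ _ => (gw_hasDerivAt β e g σ).mul_const _
  have h2 : HasDerivAt (fun s => ∑ σ, gw β (Function.update g e s) σ * h σ)
      (∑ σ, (β * gw β g σ * (hE σ e - avgE β g e)) * h σ) (g e) := HasDerivAt.fun_sum h1
  refine h2.congr_deriv ?_
  have hm : ∑ σ, gw β g σ * hE σ e = avgE β g e := rfl
  rw [hm]
  have h3 : ∑ σ, (β * gw β g σ * (hE σ e - avgE β g e)) * h σ =
      β * ∑ σ, gw β g σ * (h σ * hE σ e) + (-β * avgE β g e) * ∑ σ, gw β g σ * h σ := by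
    rw [Finset.mul_sum, Finset.mul_sum, ← Finset.sum_add_distrib]
    exact Finset.sum_congr rfl fun σ _ => by ring
  rw [h3]
  ring

theorem GC.coordDeriv {β : ℝ} {f : Pt n → ℝ} (hf : GC β f) (e : Ed n) :
    GC β (fun g => deriv (fun s => f (Function.update g e s)) (g e)) := by
  induction hf with
  | avg h =>
    have : (fun g => deriv (fun s => ∑ σ, gw β (Function.update g e s) σ * h σ) (g e)) =
        fun g => (((fun _ => β) g) * (∑ σ, gw β g σ * (h σ * hE σ e))) +
          ((((fun _ => -β) g) * ∑ σ, gw β g σ * h σ) * ∑ σ, gw β g σ * hE σ e) :=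
      funext fun g => (avg_hasDerivAt β e g h).deriv
    rw [this]
    exact ((GC.const β).mul (GC.avg _)).add (((GC.const (-β)).mul (GC.avg _)).mul (GC.avg _))
  | const a =>
    simpa using GC.const 0
  | @add f f' h1 h2 ih1 ih2 =>
    have : (fun g => deriv (fun s => f (Function.update g e s) + f' (Function.update g e s)) (g e)) =
        fun g => deriv (fun s => f (Function.update g e s)) (g e) +
          deriv (fun s => f' (Function.update g e s)) (g e) := funext fun g =>
      ((hasDerivAt_path h1.differentiable g e).add (hasDerivAt_path h2.differentiable g e)).deriv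
    rw [this]
    exact ih1.add ih2
  | @mul f f' h1 h2 ih1 ih2 =>
    have : (fun g => deriv (fun s => f (Function.update g e s) * f' (Function.update g e s)) (g e)) =
        fun g => deriv (fun s => f (Function.update g e s)) (g e) * f' g +
          f g * deriv (fun s => f' (Function.update g e s)) (g e) := funext fun g => by
      have h3 : HasDerivAt (fun s => f (Function.update g e s) * f' (Function.update g e s)) _ (g e) :=
        (hasDerivAt_path h1.differentiable g e).mul (hasDerivAt_path h2.differentiable g e)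
      rw [h3.deriv, Function.update_eq_self]
    rw [this]
    exact (ih1.mul h2).add (h1.mul ih2)

theorem DF_single (β : ℝ) (e : Ed n) (g : Pt n) : DF β [e] g = β * avgE β g e :=
  (Fh_hasDerivAt β e g).deriv

theorem DF_GC (β : ℝ) : ∀ t : List (Ed n), t ≠ [] → GC β (DF β t)
  | [], h => absurd rfl h
  | [e], _ => by
    have : DF β [e] = fun g => (fun _ => β) g * ∑ τ, gw β g τ * hE τ e :=
      funext fun g => DF_single β e g
    rw [this]
    exact (GC.const β).mul (GC.avg _)
  | e :: e' :: t, _ => (DF_GC β (e' :: t) (by simp)).coordDeriv e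

theorem DF_differentiable (β : ℝ) : ∀ t : List (Ed n), Differentiable ℝ (DF β t)
  | [] => Fh_differentiable β
  | e :: t => (DF_GC β (e :: t) (by simp)).differentiable

theorem DF_meas (β : ℝ) (t : List (Ed n)) : Measurable (DF β t) :=
  (DF_differentiable β t).continuous.measurable

theorem DF_hasDerivAt (β : ℝ) (t : List (Ed n)) (e : Ed n) (g : Pt n) :
    HasDerivAt (fun s => DF β t (Function.update g e s)) (DF β (e :: t) g) (g e) :=
  hasDerivAt_path (DF_differentiable β t) g e

theorem DF_cons_eq_fderiv (β : ℝ) (t : List (Ed n)) (e : Ed n) (g : Pt n) :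
    DF β (e :: t) g = fderiv ℝ (DF β t) g (Pi.single e 1) := by
  have h1 : HasFDerivAt (DF β t) (fderiv ℝ (DF β t) g) (Function.update g e (g e)) := by
    rw [Function.update_eq_self]
    exact (DF_differentiable β t g).hasFDerivAt
  have h2 := h1.comp_hasDerivAt (g e) (hasDerivAt_update g e (g e))
  exact (DF_hasDerivAt β t e g).unique h2

theorem DF_line (hn : 0 < n) (β : ℝ) (t : List (Ed n)) (g w : Pt n) :
    HasDerivAt (fun s : ℝ => DF β t (g + s • w)) (∑ e, w e * DF β (e :: t) g) 0 := by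
  classical
  have hc : HasDerivAt (fun s : ℝ => g + s • w) w 0 := by
    simpa using ((hasDerivAt_id (0 : ℝ)).smul_const w).const_add g
  have h1 : HasFDerivAt (DF β t) (fderiv ℝ (DF β t) g) (g + (0 : ℝ) • w) := by
    simpa using (DF_differentiable β t g).hasFDerivAt
  have h2 := h1.comp_hasDerivAt (0 : ℝ) hc
  refine HasDerivAt.congr_deriv h2 ?_
  have hw : w = ∑ e, w e • (Pi.single e (1 : ℝ) : Pt n) := by
    ext e'
    simp [Finset.sum_apply, Pi.single_apply]
  conv_lhs => rw [hw, map_sum]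
  refine Finset.sum_congr rfl fun e _ => ?_
  rw [map_smul, DF_cons_eq_fderiv, smul_eq_mul]

/-- Growth of the free energy. -/
theorem Fh_growth (β : ℝ) : ∃ C : ℝ, 0 ≤ C ∧ ∀ g : Pt n, |Fh β g| ≤ C * (1 + ∑ e, |g e|) := by
  classical
  set A : ℝ := Real.log (Fintype.card (Sp n)) with hA
  have hcard : (1 : ℝ) ≤ Fintype.card (Sp n) := by
    exact_mod_cast Fintype.card_pos
  have hA0 : 0 ≤ A := Real.log_nonneg hcard
  refine ⟨A + |β|, add_nonneg hA0 (abs_nonneg _), fun g => ?_⟩
  set S : ℝ := ∑ e, |g e| with hS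
  have hS0 : 0 ≤ S := Finset.sum_nonneg fun _ _ => abs_nonneg _
  have hH : ∀ σ, |β * Ham g σ| ≤ |β| * S := by
    intro σ
    rw [abs_mul]
    refine mul_le_mul_of_nonneg_left ?_ (abs_nonneg _)
    rw [Ham_eq]
    refine (Finset.abs_sum_le_sum_abs _ _).trans (Finset.sum_le_sum fun e _ => ?_)
    rw [abs_mul]
    exact mul_le_of_le_one_right (abs_nonneg _) (abs_hE_le σ e)
  have hlow : Real.exp (-(|β| * S)) ≤ Zh β g := by
    have h1 : Real.exp (β * Ham g (fun _ => true)) ≤ Zh β g :=
      Finset.single_le_sum (f := fun σ => Real.exp (β * Ham g σ))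
        (fun _ _ => (Real.exp_pos _).le) (Finset.mem_univ _)
    refine le_trans (Real.exp_le_exp.mpr ?_) h1
    exact (neg_le_of_abs_le (hH _))
  have hup : Zh β g ≤ Fintype.card (Sp n) * Real.exp (|β| * S) := by
    unfold Zh
    calc ∑ σ, Real.exp (β * Ham g σ) ≤ ∑ _σ : Sp n, Real.exp (|β| * S) :=
          Finset.sum_le_sum fun σ _ => Real.exp_le_exp.mpr (le_of_abs_le (hH σ))
      _ = _ := by simp
  have hlog1 : -(|β| * S) ≤ Fh β g := by
    unfold Fh
    rw [Real.le_log_iff_exp_le (Zh_pos β g)]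
    exact hlow
  have hlog2 : Fh β g ≤ A + |β| * S := by
    unfold Fh
    have := Real.log_le_log (Zh_pos β g) hup
    rwa [Real.log_mul (by positivity) (Real.exp_pos _).ne', Real.log_exp] at this
  rw [abs_le]
  have hb := abs_nonneg β
  constructor <;> nlinarith

theorem PG_DF_gd (β : ℝ) (t : List (Ed n)) : PG (DF β t) := by
  obtain ⟨C, hC⟩ : ∃ C : ℝ, ∀ g : Pt n, |DF β t g| ≤ C * (1 + ∑ e, |g e|) := by
    match t with
    | [] =>
      obtain ⟨C, _, hC⟩ := Fh_growth (n := n) β
      exact ⟨C, hC⟩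
    | e :: t =>
      obtain ⟨C, hC0, hC⟩ := (DF_GC β (e :: t) (by simp)).bdd
      refine ⟨C, fun g => (hC g).trans ?_⟩
      have : 0 ≤ ∑ e, |g e| := Finset.sum_nonneg fun _ _ => abs_nonneg _
      nlinarith
  exact ⟨DF_meas β t, C, 1, by simpa using hC⟩

theorem DF_growth (β : ℝ) (t : List (Ed n)) : ∃ C : ℝ, ∀ g, |DF β t g| ≤ C * (1 + ∑ e, |g e|) := by
  match t with
  | [] =>
    obtain ⟨C, _, hC⟩ := Fh_growth (n := n) β
    exact ⟨C, hC⟩
  | e :: t =>
    obtain ⟨C, hC0, hC⟩ := (DF_GC β (e :: t) (by simp)).bdd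
    refine ⟨C, fun g => (hC g).trans ?_⟩
    have : 0 ≤ ∑ e, |g e| := Finset.sum_nonneg fun _ _ => abs_nonneg _
    nlinarith

/-- For non-empty lists, the derivatives of the free energy are bounded. -/
theorem DF_bdd (β : ℝ) (t : List (Ed n)) (ht : t ≠ []) : ∃ C : ℝ, 0 ≤ C ∧ ∀ g, |DF β t g| ≤ C :=
  (DF_GC β t ht).bdd

theorem DF_grad (hn : 0 < n) (β : ℝ) (g : Pt n) : ∑ e, (DF β [e] g) ^ 2 ≤ β ^ 2 * n / 2 := by
  have h1 : ∀ e, (DF β [e] g) ^ 2 ≤ β ^ 2 * ∑ σ, gw β g σ * hE σ e ^ 2 := by
    intro e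
    rw [DF_single, mul_pow]
    refine mul_le_mul_of_nonneg_left ?_ (sq_nonneg _)
    set m := avgE β g e with hm
    have h2 : 0 ≤ ∑ σ, gw β g σ * (hE σ e - m) ^ 2 :=
      Finset.sum_nonneg fun σ _ => mul_nonneg (gw_nonneg β g σ) (sq_nonneg _)
    have h3 : ∑ σ, gw β g σ * (hE σ e - m) ^ 2 =
        ∑ σ, gw β g σ * hE σ e ^ 2 - 2 * m * (∑ σ, gw β g σ * hE σ e) +
          m ^ 2 * ∑ σ, gw β g σ := by
      rw [Finset.mul_sum, Finset.mul_sum, ← Finset.sum_sub_distrib, ← Finset.sum_add_distrib]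
      exact Finset.sum_congr rfl fun σ _ => by ring
    rw [h3, gw_sum] at h2
    have h4 : ∑ σ, gw β g σ * hE σ e = m := rfl
    rw [h4] at h2
    nlinarith
  calc ∑ e, (DF β [e] g) ^ 2 ≤ ∑ e, β ^ 2 * ∑ σ, gw β g σ * hE σ e ^ 2 :=
        Finset.sum_le_sum fun e _ => h1 e
    _ = β ^ 2 * ∑ σ, gw β g σ * ∑ e, hE σ e ^ 2 := by
        rw [← Finset.mul_sum, Finset.sum_comm]
        congr 1
        exact Finset.sum_congr rfl fun σ _ => by rw [Finset.mul_sum]
    _ = β ^ 2 * n / 2 := by
        simp only [sum_hE_sq hn]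
        rw [← Finset.sum_mul, gw_sum]
        ring

theorem PG_Fh (β : ℝ) : PG (Fh (n := n) β) := PG_DF_gd β []

/-- Integration by parts against a monomial, with an arbitrary tail. -/
theorem DF_adj_aux (β : ℝ) : ∀ {k : ℕ} (t : Fin k → Ed n) (L : List (Ed n)),
    ∫ g, DF β L g * Ev (monoT t) g ∂gam n = ∫ g, DF β (List.ofFn t ++ L) g ∂gam n
  | 0, t, L => by
    simp [monoT, Ev_one]
  | k + 1, t, L => by
    have h1 : monoT t = X (t (Fin.last k)) * monoT (fun i : Fin k => t i.castSucc) := by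
      unfold monoT
      rw [Fin.prod_univ_castSucc, mul_comm]
    have h2 := adj_ibp (t (Fin.last k)) (G := DF β L) (G' := DF β (t (Fin.last k) :: L))
      (fun g => DF_hasDerivAt β L _ g) (PG_DF_gd β L) (PG_DF_gd β _)
      (monoT (fun i : Fin k => t i.castSucc))
    rw [h1, h2, DF_adj_aux β (fun i : Fin k => t i.castSucc) (t (Fin.last k) :: L),
      List.ofFn_succ', List.concat_eq_append, List.append_assoc]
    rfl

/-- `E[Fh Ev(∏ τ_{t_i})] = E[∂_t Fh]`. -/
theorem DF_adj (hn : 0 < n) (β : ℝ) {k : ℕ} (t : Fin k → Ed n) :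
    ∫ g, Fh β g * Ev (monoT t) g ∂gam n = ∫ g, DF β (List.ofFn t) g ∂gam n := by
  have h := DF_adj_aux β t []
  rw [List.append_nil] at h
  exact h

end Vale.Agent.Lib.P146
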