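import Vale.Agent.Lib.P146.MatAlg
import Vale.Agent.Lib.P146.GibbsD

/-! Module G2: replicas and symmetries of the coefficients. -/

set_option autoImplicit false
open MeasureTheory MvPolynomial ProbabilityTheory

namespace Vale.Agent.Lib.P146

variable {n : ℕ}

/-! ### Ev on monomials -/

private theorem gr_Ev_monomial (α : Ed n →₀ ℕ) (a : ℝ) (g : Pt n) :
    Ev (monomial α a : Rr n) g = a * ∏ e, He (α e) (g e) := by
  have h1 : (monomial α a : Rr n) = a • (basisMonomials (Ed n) ℝ) α := by
    simp [coe_basisMonomials, smul_monomial]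
  have h2 : Ev (basisMonomials (Ed n) ℝ α) = fun g => ∏ e, He (α e) (g e) := by
    unfold Ev; exact Module.Basis.constr_basis _ _ _ _
  rw [h1, map_smul, h2]; rfl

/-! ### Change of variables -/

private theorem gr_inv {φ : Pt n → Pt n} (hφ : MeasurePreserving φ (gam n) (gam n))
    {F : Pt n → ℝ} (hF : Measurable F) : ∫ g, F (φ g) ∂gam n = ∫ g, F g ∂gam n := by
  conv_rhs => rw [← hφ.map_eq]
  rw [integral_map hφ.aemeasurable hF.aestronglyMeasurable]

/-- Relabelling of the coordinates. -/
private def grSm (σ : Equiv.Perm (Fin n)) : Ed n ≃ Ed n where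
  toFun := Sym2.map σ
  invFun := Sym2.map σ.symm
  left_inv e := by
    refine Sym2.ind (fun a b => ?_) e; simp
  right_inv e := by
    refine Sym2.ind (fun a b => ?_) e; simp

private theorem gr_mp_perm (σ : Equiv.Perm (Fin n)) :
    MeasurePreserving (fun g : Pt n => fun e => g (grSm σ e)) (gam n) (gam n) := by
  have := measurePreserving_arrowCongr' (fun _ : Ed n => gaussianReal 0 1)
    (fun _ : Ed n => gaussianReal 0 1) (grSm σ).symm (MeasurableEquiv.refl ℝ)
    (fun _ => MeasurePreserving.id _)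
  unfold gam
  convert this using 1
  funext g e
  simp [MeasurableEquiv.arrowCongr', Equiv.arrowCongr', Equiv.arrowCongr]

private theorem gr_cc_perm (σ : Equiv.Perm (Fin n)) (x y : Fin n) : cc (σ x) (σ y) = cc x y := by
  simp [cc]

private theorem gr_Ham_perm (σ : Equiv.Perm (Fin n)) (g : Pt n) (τ : Sp n) :
    Ham (fun e => g (grSm σ e)) τ = Ham g (τ ∘ σ.symm) := by
  unfold Ham
  congr 1
  conv_rhs => rw [← Equiv.sum_comp σ]
  refine Finset.sum_congr rfl fun x _ => ?_
  conv_rhs => rw [← Equiv.sum_comp σ]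
  refine Finset.sum_congr rfl fun y _ => ?_
  simp [Jh, sv, gr_cc_perm, grSm]

private theorem gr_Zh_perm (β : ℝ) (σ : Equiv.Perm (Fin n)) (g : Pt n) :
    Zh β (fun e => g (grSm σ e)) = Zh β g := by
  unfold Zh
  simp_rw [gr_Ham_perm]
  exact Equiv.sum_comp (Equiv.arrowCongr σ (Equiv.refl Bool)) (fun τ => Real.exp (β * Ham g τ))

private theorem gr_Fh_perm (β : ℝ) (σ : Equiv.Perm (Fin n)) (g : Pt n) :
    Fh β (fun e => g (grSm σ e)) = Fh β g := by
  unfold Fh; rw [gr_Zh_perm]

private theorem gr_Ev_rename (σ : Equiv.Perm (Fin n)) (p : Rr n) (g : Pt n) :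
    Ev (rename (grSm σ) p) g = Ev p (fun e => g (grSm σ e)) := by
  induction p using MvPolynomial.induction_on' with
  | monomial α a =>
    rw [rename_monomial, gr_Ev_monomial, gr_Ev_monomial]
    congr 1
    rw [← Equiv.prod_comp (grSm σ)]
    refine Finset.prod_congr rfl fun e _ => ?_
    rw [Finsupp.mapDomain_apply (grSm σ).injective]
  | add p q hp hq => simp only [map_add, Pi.add_apply, hp, hq]

private theorem gr_rename_monoM (σ : Equiv.Perm (Fin n)) (M : Multiset (Pr n)) :
    rename (grSm σ) (monoM M) = monoM (mapL σ M) := by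
  unfold monoM mapL
  rw [map_multiset_prod, Multiset.map_map, Multiset.map_map]
  congr 1
  refine Multiset.map_congr rfl fun p _ => ?_
  simp [TT, rename_X, gr_cc_perm, grSm]

/-- Permutation invariance of the coefficients. -/
theorem dval_perm (hn : 0 < n) (β : ℝ) (σ : Equiv.Perm (Fin n)) (M : Multiset (Pr n)) :
    dval β (mapL σ M) = dval β M := by
  unfold dval
  have hc : Multiset.card (mapL σ M) = Multiset.card M := by simp [mapL]
  rw [hc]
  congr 1
  have := gr_inv (gr_mp_perm σ) ((PG_Fh (n := n) β).mul (PG_Ev (monoM M))).1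
  rw [← this]
  refine integral_congr_ae (Filter.Eventually.of_forall fun g => ?_)
  simp only
  rw [gr_Fh_perm, ← gr_rename_monoM, gr_Ev_rename]


/-! ### Gauge invariance -/

private theorem gr_hermite_comp (k : ℕ) :
    (Polynomial.hermite k).comp (-Polynomial.X) = (-1) ^ k * Polynomial.hermite k := by
  induction k with
  | zero => simp
  | succ k ih =>
    have hd : (Polynomial.derivative (Polynomial.hermite k)).comp (-Polynomial.X) =
        -((-1) ^ k * Polynomial.derivative (Polynomial.hermite k)) := by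
      have h := congrArg Polynomial.derivative ih
      rw [Polynomial.derivative_comp] at h
      simp only [Polynomial.derivative_neg, Polynomial.derivative_X, Polynomial.derivative_mul,
        Polynomial.derivative_pow] at h
      simp at h
      linear_combination -h
    rw [Polynomial.hermite_succ, Polynomial.sub_comp, Polynomial.mul_comp, Polynomial.X_comp, ih, hd]
    ring

private theorem gr_He_neg (k : ℕ) (t : ℝ) : He k (-t) = (-1) ^ k * He k t := by
  unfold He
  have h := congrArg (fun p => Polynomial.aeval t p) (gr_hermite_comp k)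
  simp only [Polynomial.aeval_comp, map_neg, Polynomial.aeval_X, map_mul, map_pow, map_one] at h
  exact h

/-- The sign of a coordinate under the flip of the spin `x`. -/
private noncomputable def grRho (x y : Fin n) : ℝ := if y = x then -1 else 1

private theorem gr_rho_sq (x y : Fin n) : grRho x y * grRho x y = 1 := by
  unfold grRho; split_ifs <;> norm_num

private noncomputable def grEps (x : Fin n) : Ed n → ℝ :=
  Sym2.lift ⟨fun a b => grRho x a * grRho x b, fun _ _ => mul_comm _ _⟩

private theorem gr_eps_mk (x a b : Fin n) : grEps x s(a, b) = grRho x a * grRho x b := rfl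

private theorem gr_eps_cases (x : Fin n) (e : Ed n) : grEps x e = 1 ∨ grEps x e = -1 := by
  refine Sym2.ind (fun a b => ?_) e
  rw [gr_eps_mk]
  unfold grRho
  split_ifs <;> norm_num

private theorem gr_He_eps (x : Fin n) (e : Ed n) (k : ℕ) (t : ℝ) :
    He k (grEps x e * t) = grEps x e ^ k * He k t := by
  rcases gr_eps_cases x e with h | h
  · simp [h]
  · rw [h, neg_one_mul, gr_He_neg]

private theorem gr_mp_eps (x : Fin n) :
    MeasurePreserving (fun g : Pt n => fun e => grEps x e * g e) (gam n) (gam n) := by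
  have key : ∀ e : Ed n, MeasurePreserving (fun t : ℝ => grEps x e * t)
      (gaussianReal 0 1) (gaussianReal 0 1) := by
    intro e
    rcases gr_eps_cases x e with h | h
    · have h' : (fun t : ℝ => grEps x e * t) = id := by
        funext t; simp [h]
      rw [h']
      exact MeasurePreserving.id _
    · have h' : (fun t : ℝ => grEps x e * t) = fun t => -t := by
        funext t; simp [h]
      rw [h']
      refine ⟨measurable_neg, ?_⟩
      simpa using gaussianReal_map_neg (μ := (0 : ℝ)) (v := 1)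
  unfold gam
  exact measurePreserving_pi _ _ key

/-- Flip of the spin `x`. -/
private def grFlip (x : Fin n) (τ : Sp n) : Sp n := fun y => xor (τ y) (decide (y = x))

private theorem gr_flip_invol (x : Fin n) : Function.Involutive (grFlip x) := by
  intro τ; funext y; simp [grFlip]

private theorem gr_sv_flip (x : Fin n) (τ : Sp n) (y : Fin n) :
    sv (grFlip x τ) y = grRho x y * sv τ y := by
  unfold sv grRho grFlip
  by_cases h : y = x <;> cases τ y <;> simp [h]

private theorem gr_Ham_eps (x : Fin n) (g : Pt n) (τ : Sp n) :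
    Ham (fun e => grEps x e * g e) τ = Ham g (grFlip x τ) := by
  unfold Ham
  congr 1
  refine Finset.sum_congr rfl fun a _ => Finset.sum_congr rfl fun b _ => ?_
  simp only [Jh, Matrix.of_apply, gr_sv_flip, gr_eps_mk]
  ring

private theorem gr_Zh_eps (β : ℝ) (x : Fin n) (g : Pt n) :
    Zh β (fun e => grEps x e * g e) = Zh β g := by
  unfold Zh
  simp_rw [gr_Ham_eps]
  exact Equiv.sum_comp (gr_flip_invol x).toPerm (fun τ => Real.exp (β * Ham g τ))

private theorem gr_Fh_eps (β : ℝ) (x : Fin n) (g : Pt n) :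
    Fh β (fun e => grEps x e * g e) = Fh β g := by
  unfold Fh; rw [gr_Zh_eps]

/-- The sign change as an algebra map. -/
private noncomputable def grS (x : Fin n) : Rr n →ₐ[ℝ] Rr n :=
  aeval fun e => C (grEps x e) * X e

private theorem gr_S_monomial (x : Fin n) (α : Ed n →₀ ℕ) (a : ℝ) :
    grS x (monomial α a) = monomial α (a * ∏ e, grEps x e ^ α e) := by
  have h1 : grS x (monomial α a) = C a * α.prod (fun e k => (C (grEps x e) * X e) ^ k) := by
    rw [monomial_eq, map_mul, map_finsuppProd]
    simp only [grS, aeval_C, algebraMap_eq, map_pow, aeval_X]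
  rw [h1, monomial_eq (s := α) (a := a * ∏ e, grEps x e ^ α e),
    Finsupp.prod_fintype _ _ (by simp), Finsupp.prod_fintype _ _ (by simp), map_mul, map_prod,
    mul_assoc, ← Finset.prod_mul_distrib]
  simp only [mul_pow, map_pow]

private theorem gr_Ev_eps (x : Fin n) (p : Rr n) (g : Pt n) :
    Ev p (fun e => grEps x e * g e) = Ev (grS x p) g := by
  induction p using MvPolynomial.induction_on' with
  | monomial α a =>
    rw [gr_S_monomial, gr_Ev_monomial, gr_Ev_monomial, mul_assoc, ← Finset.prod_mul_distrib]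
    congr 2
    funext e
    rw [gr_He_eps]
  | add p q hp hq => simp only [map_add, Pi.add_apply, hp, hq]

private theorem gr_S_TT (x a b : Fin n) :
    grS x (TT n a b) = C (grEps x s(a, b)) * TT n a b := by
  simp only [TT, Matrix.of_apply, map_mul, grS, aeval_C, algebraMap_eq, aeval_X]
  ring

private theorem gr_S_monoM (x : Fin n) (M : Multiset (Pr n)) :
    grS x (monoM M) = C ((-1) ^ degM M x) * monoM M := by
  induction M using Multiset.induction_on with
  | empty => simp [monoM, degM]
  | cons p M ih =>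
    have h1 : monoM (p ::ₘ M) = TT n p.1 p.2 * monoM M := by simp [monoM]
    have h2 : degM (p ::ₘ M) x =
        (if p.1 = x then 1 else 0) + (if p.2 = x then 1 else 0) + degM M x := by simp [degM]
    rw [h1, map_mul, ih, gr_S_TT, h2, pow_add, pow_add, map_mul, map_mul, gr_eps_mk]
    have h3 : grRho x p.1 * grRho x p.2 =
        (-1) ^ (if p.1 = x then 1 else 0) * (-1) ^ (if p.2 = x then 1 else 0) := by
      unfold grRho
      split_ifs <;> simp
    rw [h3, map_mul]
    ring

/-- Gauge invariance: coefficients of patterns with an odd label vanish. -/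
theorem dval_even (hn : 0 < n) (β : ℝ) (M : Multiset (Pr n)) (h : ¬ EvenM M) :
    dval β M = 0 := by
  unfold EvenM at h
  obtain ⟨x, hx⟩ := not_forall.mp h
  have hodd : Odd (degM M x) := Nat.not_even_iff_odd.mp hx
  have hint := gr_inv (gr_mp_eps x) ((PG_Fh (n := n) β).mul (PG_Ev (monoM M))).1
  have key : ∀ g : Pt n, Fh β (fun e => grEps x e * g e) * Ev (monoM M) (fun e => grEps x e * g e)
      = - (Fh β g * Ev (monoM M) g) := by
    intro g
    rw [gr_Fh_eps, gr_Ev_eps, gr_S_monoM, hodd.neg_one_pow]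
    rw [Ev_C_mul]
    ring
  simp only [key] at hint
  rw [integral_neg] at hint
  have : ∫ g, Fh β g * Ev (monoM M) g ∂gam n = 0 := by linarith
  unfold dval
  rw [this, mul_zero]


/-! ### Derivatives of the Gibbs weights -/

/-- Coefficient of the coordinate `e` in the energy. -/
private noncomputable def grE (e : Ed n) (σ : Sp n) : ℝ := Ham (Pi.single e 1 : Pt n) σ

private theorem gr_Ham_add (g h : Pt n) (σ : Sp n) : Ham (g + h) σ = Ham g σ + Ham h σ := by
  simp only [Ham, ← mul_add, ← Finset.sum_add_distrib]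
  congr 1
  refine Finset.sum_congr rfl fun x _ => Finset.sum_congr rfl fun y _ => ?_
  simp only [Jh, Matrix.of_apply, Pi.add_apply]
  ring

private theorem gr_Ham_smul (a : ℝ) (g : Pt n) (σ : Sp n) : Ham (a • g) σ = a * Ham g σ := by
  simp only [Ham, Finset.mul_sum]
  refine Finset.sum_congr rfl fun x _ => Finset.sum_congr rfl fun y _ => ?_
  simp only [Jh, Matrix.of_apply, Pi.smul_apply, smul_eq_mul]
  ring

private theorem gr_Ham_update (g : Pt n) (e : Ed n) (t : ℝ) (σ : Sp n) :
    Ham (Function.update g e t) σ = Ham g σ + (t - g e) * grE e σ := by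
  have h : Function.update g e t = g + (t - g e) • (Pi.single e 1 : Pt n) := by
    funext e'
    by_cases h : e' = e
    · subst h; simp
    · simp [h]
  rw [h, gr_Ham_add, gr_Ham_smul]
  rfl

private theorem gr_double1 (u v : Fin n) (c : ℝ) :
    ∑ x, ∑ y, (if x = u ∧ y = v then c else 0) = c := by
  simp [ite_and]

private theorem gr_double (u v : Fin n) (f : Fin n → Fin n → ℝ) :
    ∑ x, ∑ y, (if s(x, y) = s(u, v) then f x y else 0) = f u v + if u = v then 0 else f v u := by
  have h : ∀ x y, (if s(x, y) = s(u, v) then f x y else 0) =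
      (if x = u ∧ y = v then f u v else 0) +
        (if x = v ∧ y = u then (if u = v then 0 else f v u) else 0) := by
    intro x y
    by_cases h1 : x = u ∧ y = v
    · obtain ⟨rfl, rfl⟩ := h1
      by_cases h2 : x = y
      · subst h2; simp
      · simp [h2]
    · by_cases h2 : x = v ∧ y = u
      · obtain ⟨rfl, rfl⟩ := h2
        by_cases h3 : x = y
        · subst h3; simp at h1
        · have : s(x, y) = s(y, x) := Sym2.eq_swap
          simp [h3, Ne.symm h3, this]
      · have : ¬ s(x, y) = s(u, v) := by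
          rw [Sym2.eq_iff]; tauto
        simp [h1, h2, this]
  simp_rw [h, Finset.sum_add_distrib, gr_double1]

private theorem gr_grE_mk (u v : Fin n) (σ : Sp n) :
    cc u v / Real.sqrt n * grE s(u, v) σ = sv σ u * sv σ v / n := by
  have h1 : grE s(u, v) σ = (1 / 2) * ∑ x, ∑ y,
      (if s(x, y) = s(u, v) then (cc x y / Real.sqrt n) * (sv σ x * sv σ y) else 0) := by
    unfold grE Ham
    congr 1
    refine Finset.sum_congr rfl fun x _ => Finset.sum_congr rfl fun y _ => ?_
    simp only [Jh, Matrix.of_apply, Pi.single_apply]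
    split_ifs <;> ring
  have hn : Real.sqrt n * Real.sqrt n = n := Real.mul_self_sqrt (Nat.cast_nonneg n)
  have h2 : Real.sqrt 2 * Real.sqrt 2 = 2 := Real.mul_self_sqrt (by norm_num)
  rw [h1, gr_double]
  by_cases huv : u = v
  · subst huv
    have hs : sv σ u * sv σ u = 1 := by unfold sv; split_ifs <;> norm_num
    simp only [cc, if_true, add_zero, hs, mul_one, one_div]
    by_cases h0 : (n : ℝ) = 0
    · simp [h0]
    · have : Real.sqrt n ≠ 0 := by
        intro h; rw [h] at hn; simp at hn; exact h0 hn.symm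
      field_simp
      nlinarith [h2, hn]
  · have hc1 : cc u v = 1 := by simp [cc, huv]
    have hc2 : cc v u = 1 := by simp [cc, Ne.symm huv]
    simp only [huv, if_false, hc1, hc2]
    by_cases h0 : (n : ℝ) = 0
    · simp [h0]
    · have : Real.sqrt n ≠ 0 := by
        intro h; rw [h] at hn; simp at hn; exact h0 hn.symm
      field_simp
      rw [Real.sq_sqrt (Nat.cast_nonneg n)]
      ring

private theorem gr_Zh_pos (β : ℝ) (g : Pt n) : 0 < Zh β g :=
  Finset.sum_pos (fun _ _ => Real.exp_pos _) Finset.univ_nonempty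

private theorem gr_exp_deriv (β : ℝ) (g : Pt n) (e : Ed n) (σ : Sp n) :
    HasDerivAt (fun t => Real.exp (β * Ham (Function.update g e t) σ))
      (Real.exp (β * Ham g σ) * (β * grE e σ)) (g e) := by
  have h1 : HasDerivAt (fun t : ℝ => β * (Ham g σ + (t - g e) * grE e σ)) (β * grE e σ) (g e) := by
    have h0 : HasDerivAt (fun t : ℝ => (t - g e) * grE e σ) (1 * grE e σ) (g e) :=
      ((hasDerivAt_id (g e)).sub_const (g e)).mul_const (grE e σ)
    have h2 := (h0.const_add (Ham g σ)).const_mul β
    simpa using h2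
  have h3 := h1.exp
  simp only [sub_self, zero_mul, add_zero] at h3
  simpa only [gr_Ham_update] using h3

private noncomputable def grA (β : ℝ) (g : Pt n) (e : Ed n) : ℝ := ∑ τ, gw β g τ * grE e τ

private theorem gr_Zh_deriv (β : ℝ) (g : Pt n) (e : Ed n) :
    HasDerivAt (fun t => Zh β (Function.update g e t)) (Zh β g * (β * grA β g e)) (g e) := by
  have h := HasDerivAt.fun_sum (u := Finset.univ) (x := g e)
    (A := fun (σ : Sp n) t => Real.exp (β * Ham (Function.update g e t) σ))
    (A' := fun σ => Real.exp (β * Ham g σ) * (β * grE e σ)) (fun σ _ => gr_exp_deriv β g e σ)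
  have hz := (gr_Zh_pos β g).ne'
  have he : ∑ σ, Real.exp (β * Ham g σ) * (β * grE e σ) = Zh β g * (β * grA β g e) := by
    unfold grA gw
    rw [Finset.mul_sum, Finset.mul_sum]
    refine Finset.sum_congr rfl fun σ _ => ?_
    field_simp
  rw [he] at h
  exact h

private theorem gr_Fh_deriv (β : ℝ) (g : Pt n) (e : Ed n) :
    HasDerivAt (fun t => Fh β (Function.update g e t)) (β * grA β g e) (g e) := by
  have hz := (gr_Zh_pos β g)
  have h := (gr_Zh_deriv β g e).log (by simpa using hz.ne')
  simp only [Function.update_eq_self] at h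
  have he : Zh β g * (β * grA β g e) / Zh β g = β * grA β g e := by
    field_simp
  rw [he] at h
  exact h

private theorem gr_gw_deriv (β : ℝ) (g : Pt n) (e : Ed n) (σ : Sp n) :
    HasDerivAt (fun t => gw β (Function.update g e t) σ)
      (gw β g σ * (β * (grE e σ - grA β g e))) (g e) := by
  have hz := (gr_Zh_pos β g)
  have h := (gr_exp_deriv β g e σ).div (gr_Zh_deriv β g e) (by simpa using hz.ne')
  simp only [Function.update_eq_self] at h
  have he : (Real.exp (β * Ham g σ) * (β * grE e σ) * Zh β g -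
      Real.exp (β * Ham g σ) * (Zh β g * (β * grA β g e))) / Zh β g ^ 2 =
      gw β g σ * (β * (grE e σ - grA β g e)) := by
    unfold gw
    field_simp
  rw [he] at h
  exact h

private theorem gr_prod_deriv {ι : Type*} (s : Finset ι) (ω : ι → Sp n) (β : ℝ) (g : Pt n)
    (e : Ed n) :
    HasDerivAt (fun t => ∏ a ∈ s, gw β (Function.update g e t) (ω a))
      ((∏ a ∈ s, gw β g (ω a)) * (β * ∑ a ∈ s, (grE e (ω a) - grA β g e))) (g e) := by
  classical
  induction s using Finset.induction_on with
  | empty => simpa using hasDerivAt_const (g e) (1 : ℝ)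
  | insert a s ha ih =>
    simp only [Finset.prod_insert ha, Finset.sum_insert ha]
    have h := (gr_gw_deriv β g e (ω a)).fun_mul ih
    simp only [Function.update_eq_self] at h
    exact h.congr_deriv (by ring)

private theorem gr_gw_PG (β : ℝ) (σ : Sp n) : PG (fun g : Pt n => gw β g σ) := by
  refine ⟨gw_meas β σ, 1, 0, fun g => ?_⟩
  have h0 := gw_nonneg β g σ
  have h1 : gw β g σ ≤ 1 := by
    rw [← gw_sum β g]
    exact Finset.single_le_sum (f := fun τ => gw β g τ) (fun τ _ => gw_nonneg β g τ)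
      (Finset.mem_univ σ)
  rw [abs_of_nonneg h0]
  simpa using h1

private theorem gr_prod_PG {ι : Type*} (s : Finset ι) (ω : ι → Sp n) (β : ℝ) :
    PG (fun g : Pt n => ∏ a ∈ s, gw β g (ω a)) :=
  PG.finset_prod s fun a _ => gr_gw_PG β (ω a)

private theorem gr_A_PG (β : ℝ) (e : Ed n) : PG (fun g : Pt n => grA β g e) :=
  PG.finset_sum _ fun τ _ => (gr_gw_PG β τ).mul (PG.const _)


/-! ### The integration by parts step -/

private theorem gr_Ev_TT (u v : Fin n) (P : Rr n) (g : Pt n) :
    Ev (TT n u v * P) g = (cc u v / Real.sqrt n) * Ev (X s(u, v) * P) g := by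
  have : TT n u v * P = C (cc u v / Real.sqrt n) * (X s(u, v) * P) := by
    simp [TT, mul_assoc]
  rw [this, Ev_C_mul]

private theorem gr_A_mk (β : ℝ) (g : Pt n) (u v : Fin n) :
    cc u v / Real.sqrt n * grA β g s(u, v) = (∑ τ, gw β g τ * (sv τ u * sv τ v)) / n := by
  unfold grA
  rw [Finset.mul_sum, Finset.sum_div]
  refine Finset.sum_congr rfl fun τ _ => ?_
  have := gr_grE_mk u v τ
  calc cc u v / Real.sqrt n * (gw β g τ * grE s(u, v) τ)
      = gw β g τ * (cc u v / Real.sqrt n * grE s(u, v) τ) := by ring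
    _ = _ := by rw [this]; ring

private theorem gr_step {r : ℕ} (β : ℝ) (ω : Fin r → Sp n) (K : ℝ) (u v : Fin n) (P : Rr n) :
    ∫ g, (∏ a, gw β g (ω a)) * (K * Ev (TT n u v * P) g) ∂gam n =
      (β / n) * ∫ g, (∏ a, gw β g (ω a)) *
        (K * ((∑ a, sv (ω a) u * sv (ω a) v - r * ∑ τ, gw β g τ * (sv τ u * sv τ v)) * Ev P g))
        ∂gam n := by
  set e : Ed n := s(u, v) with he
  have hG : PG (fun g : Pt n => (∏ a, gw β g (ω a)) * K) :=
    (gr_prod_PG Finset.univ ω β).mul (PG.const K)
  have hG' : PG (fun g : Pt n => ((∏ a, gw β g (ω a)) *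
      (β * ∑ a, (grE e (ω a) - grA β g e))) * K) := by
    refine ((gr_prod_PG Finset.univ ω β).mul ((PG.const β).mul (PG.finset_sum _ fun a _ => ?_))).mul
      (PG.const K)
    exact (PG.const _).sub (gr_A_PG β e)
  have hd : ∀ g : Pt n, HasDerivAt (fun t => (fun g : Pt n => (∏ a, gw β g (ω a)) * K)
      (Function.update g e t)) (((∏ a, gw β g (ω a)) *
      (β * ∑ a, (grE e (ω a) - grA β g e))) * K) (g e) :=
    fun g => (gr_prod_deriv Finset.univ ω β g e).mul_const K
  have hibp := adj_ibp e hd hG hG' P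
  have h1 : ∀ g : Pt n, (∏ a, gw β g (ω a)) * (K * Ev (TT n u v * P) g) =
      (cc u v / Real.sqrt n) * (((∏ a, gw β g (ω a)) * K) * Ev (X e * P) g) := by
    intro g
    rw [gr_Ev_TT]
    ring
  simp_rw [h1]
  rw [integral_const_mul, hibp, ← integral_const_mul, ← integral_const_mul]
  refine integral_congr_ae (Filter.Eventually.of_forall fun g => ?_)
  simp only
  have h2 : cc u v / Real.sqrt n * ∑ a, (grE e (ω a) - grA β g e) =
      (∑ a, sv (ω a) u * sv (ω a) v - r * ∑ τ, gw β g τ * (sv τ u * sv τ v)) / n := by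
    rw [Finset.mul_sum, sub_div, Finset.sum_div, mul_div_assoc, ← gr_A_mk β g u v, ← he]
    have : ∀ a, cc u v / Real.sqrt n * (grE e (ω a) - grA β g e) =
        sv (ω a) u * sv (ω a) v / n - cc u v / Real.sqrt n * grA β g e := by
      intro a
      rw [mul_sub, he, gr_grE_mk]
    simp_rw [this, Finset.sum_sub_distrib]
    simp
  calc cc u v / Real.sqrt n * ((∏ a, gw β g (ω a)) * (β * ∑ a, (grE e (ω a) - grA β g e)) * K * Ev P g)
      = (∏ a, gw β g (ω a)) * (β * (cc u v / Real.sqrt n * ∑ a, (grE e (ω a) - grA β g e))) * K * Ev P g := by ring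
    _ = _ := by rw [h2]; ring

/-! ### One replica more -/

/-- The replica sum of a shape `τ`. -/
private noncomputable def grT {r : ℕ} (β : ℝ) (ed : Fin r → Pr n) (Q : Rr n) (τ : Fin r → Fin r) :
    ℝ :=
  ∑ ω : Fin r → Sp n, ∫ g, (∏ a, gw β g (ω a)) *
    ((∏ j, (sv (ω (τ j)) (ed j).1 * sv (ω (τ j)) (ed j).2)) * Ev Q g) ∂gam n

/-- A shape with one point more. -/
private def grExt {r : ℕ} (τ : Fin r → Fin r) (b : Fin (r + 1)) : Fin (r + 1) → Fin (r + 1) :=
  Fin.snoc (α := fun _ => Fin (r + 1)) (fun j => (τ j).castSucc) b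

private theorem gr_snoc_sum {r : ℕ} (F : (Fin (r + 1) → Sp n) → ℝ) :
    ∑ ω', F ω' = ∑ ω : Fin r → Sp n, ∑ σ : Sp n,
      F (Fin.snoc (α := fun _ => Sp n) ω σ) := by
  rw [← Equiv.sum_comp (Fin.snocEquiv (fun _ : Fin (r + 1) => Sp n)), Fintype.sum_prod_type_right]
  rfl

/-- Integrating out one Gibbs weight. -/
private theorem gr_out (β : ℝ) {H : Pt n → ℝ} (hH : PG H) :
    ∑ σ : Sp n, ∫ g, gw β g σ * H g ∂gam n = ∫ g, H g ∂gam n := by
  rw [← integral_finsetSum _ fun σ _ => ((gr_gw_PG β σ).mul hH).integrable]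
  refine integral_congr_ae (Filter.Eventually.of_forall fun g => ?_)
  simp only
  rw [← Finset.sum_mul, gw_sum, one_mul]

private theorem gr_T_succ {r : ℕ} (β : ℝ) (ed : Fin (r + 1) → Pr n) (Q : Rr n)
    (τ : Fin r → Fin r) :
    grT β (fun j => ed j.castSucc) (TT n (ed (Fin.last r)).1 (ed (Fin.last r)).2 * Q) τ =
      (β / n) * (∑ a : Fin r, grT β ed Q (grExt τ a.castSucc) - r * grT β ed Q (grExt τ (Fin.last r))) := by
  set u := (ed (Fin.last r)).1 with hu
  set v := (ed (Fin.last r)).2 with hv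
  -- the constant of a replica tuple
  let K : (Fin r → Sp n) → ℝ := fun ω =>
    ∏ j : Fin r, (sv (ω (τ j)) (ed j.castSucc).1 * sv (ω (τ j)) (ed j.castSucc).2)
  have hprod : ∀ g (ω : Fin r → Sp n) (σ : Sp n),
      ∏ a, gw β g ((Fin.snoc (α := fun _ => Sp n) ω σ : Fin (r + 1) → Sp n) a) =
        gw β g σ * ∏ a, gw β g (ω a) := by
    intro g ω σ
    rw [Fin.prod_univ_castSucc]
    simp only [Fin.snoc_castSucc, Fin.snoc_last]
    ring
  have hK : ∀ (ω : Fin r → Sp n) (σ : Sp n) (b : Fin (r + 1)),
      ∏ j, (sv ((Fin.snoc (α := fun _ => Sp n) ω σ : Fin (r + 1) → Sp n) (grExt τ b j)) (ed j).1 *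
        sv ((Fin.snoc (α := fun _ => Sp n) ω σ : Fin (r + 1) → Sp n) (grExt τ b j)) (ed j).2) =
      K ω * (sv ((Fin.snoc (α := fun _ => Sp n) ω σ : Fin (r + 1) → Sp n) b) u *
        sv ((Fin.snoc (α := fun _ => Sp n) ω σ : Fin (r + 1) → Sp n) b) v) := by
    intro ω σ b
    rw [Fin.prod_univ_castSucc]
    simp only [grExt, Fin.snoc_castSucc, Fin.snoc_last, K, hu, hv]
  -- the two kinds of new shapes
  have hT1 : ∀ a : Fin r, grT β ed Q (grExt τ a.castSucc) =
      ∑ ω : Fin r → Sp n, ∫ g, (∏ a, gw β g (ω a)) *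
        (K ω * ((sv (ω a) u * sv (ω a) v) * Ev Q g)) ∂gam n := by
    intro a
    unfold grT
    rw [gr_snoc_sum]
    refine Finset.sum_congr rfl fun ω _ => ?_
    have hH : PG (fun g : Pt n => (∏ a, gw β g (ω a)) *
        (K ω * ((sv (ω a) u * sv (ω a) v) * Ev Q g))) :=
      (gr_prod_PG Finset.univ ω β).mul ((PG.const _).mul ((PG.const _).mul (PG_Ev Q)))
    rw [← gr_out β hH]
    refine Finset.sum_congr rfl fun σ _ => ?_
    refine integral_congr_ae (Filter.Eventually.of_forall fun g => ?_)
    simp only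
    rw [hprod, hK]
    simp only [Fin.snoc_castSucc]
    ring
  have hT2 : grT β ed Q (grExt τ (Fin.last r)) =
      ∑ ω : Fin r → Sp n, ∑ σ : Sp n, ∫ g, (∏ a, gw β g (ω a)) *
        (K ω * ((gw β g σ * (sv σ u * sv σ v)) * Ev Q g)) ∂gam n := by
    unfold grT
    rw [gr_snoc_sum]
    refine Finset.sum_congr rfl fun ω _ => Finset.sum_congr rfl fun σ _ => ?_
    refine integral_congr_ae (Filter.Eventually.of_forall fun g => ?_)
    simp only
    rw [hprod, hK]
    simp only [Fin.snoc_last]
    ring
  have hone : ∀ ω : Fin r → Sp n, ∫ g, (∏ a, gw β g (ω a)) *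
      (K ω * ((∑ a, sv (ω a) u * sv (ω a) v - r * ∑ τ, gw β g τ * (sv τ u * sv τ v)) * Ev Q g))
      ∂gam n =
      ∑ a, ∫ g, (∏ a, gw β g (ω a)) * (K ω * ((sv (ω a) u * sv (ω a) v) * Ev Q g)) ∂gam n -
      r * ∑ σ, ∫ g, (∏ a, gw β g (ω a)) *
        (K ω * ((gw β g σ * (sv σ u * sv σ v)) * Ev Q g)) ∂gam n := by
    intro ω
    have hf : ∀ a ∈ (Finset.univ : Finset (Fin r)), PG (fun g : Pt n => (∏ a, gw β g (ω a)) *
        (K ω * ((sv (ω a) u * sv (ω a) v) * Ev Q g))) := fun a _ =>
      (gr_prod_PG Finset.univ ω β).mul ((PG.const _).mul ((PG.const _).mul (PG_Ev Q)))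
    have hh : ∀ σ ∈ (Finset.univ : Finset (Sp n)), PG (fun g : Pt n => (∏ a, gw β g (ω a)) *
        (K ω * ((gw β g σ * (sv σ u * sv σ v)) * Ev Q g))) := fun σ _ =>
      (gr_prod_PG Finset.univ ω β).mul ((PG.const _).mul
        (((gr_gw_PG β σ).mul (PG.const _)).mul (PG_Ev Q)))
    rw [← integral_finsetSum _ fun a ha => (hf a ha).integrable,
      ← integral_finsetSum _ fun σ hσ => (hh σ hσ).integrable, ← integral_const_mul,
      ← integral_sub (PG.finset_sum _ hf).integrable
        ((PG.const _).mul (PG.finset_sum _ hh)).integrable]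
    refine integral_congr_ae (Filter.Eventually.of_forall fun g => ?_)
    simp only
    rw [← Finset.mul_sum, ← Finset.mul_sum, ← Finset.sum_mul, ← Finset.mul_sum, ← Finset.mul_sum,
      ← Finset.sum_mul]
    ring
  rw [hT2]
  simp_rw [hT1]
  rw [Finset.sum_comm, Finset.mul_sum (a := (r : ℝ)), ← Finset.sum_sub_distrib, Finset.mul_sum]
  unfold grT
  refine Finset.sum_congr rfl fun ω _ => ?_
  rw [← hone ω]
  exact gr_step β ω (K ω) u v Q

/-! ### The list of shapes -/

private noncomputable def grLst {r : ℕ} (L : List (ℝ × (Fin r → Fin r))) :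
    List (ℝ × (Fin (r + 1) → Fin (r + 1))) :=
  L.flatMap fun t => (List.ofFn fun a : Fin r => (t.1, grExt t.2 a.castSucc)) ++
    [(-(r : ℝ) * t.1, grExt t.2 (Fin.last r))]

private theorem gr_Lst_sum {r : ℕ} (L : List (ℝ × (Fin r → Fin r)))
    (Ψ : (Fin (r + 1) → Fin (r + 1)) → ℝ) :
    ((grLst L).map fun t => t.1 * Ψ t.2).sum =
      (L.map fun t => t.1 * (∑ a : Fin r, Ψ (grExt t.2 a.castSucc)
        - r * Ψ (grExt t.2 (Fin.last r)))).sum := by
  induction L with
  | nil => simp [grLst]
  | cons t L ih =>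
    have h : grLst (t :: L) = ((List.ofFn fun a : Fin r => (t.1, grExt t.2 a.castSucc)) ++
        [(-(r : ℝ) * t.1, grExt t.2 (Fin.last r))]) ++ grLst L := by
      simp [grLst]
    rw [h, List.map_append, List.sum_append, ih, List.map_cons, List.sum_cons, List.map_append,
      List.sum_append, List.map_ofFn, List.sum_ofFn]
    simp only [Function.comp, List.map_cons, List.map_nil, List.sum_cons, List.sum_nil, add_zero]
    rw [mul_sub, Finset.mul_sum]
    ring

private theorem gr_Lst_abs {r : ℕ} (L : List (ℝ × (Fin r → Fin r))) :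
    ((grLst L).map fun t => |t.1|).sum = 2 * r * (L.map fun t => |t.1|).sum := by
  induction L with
  | nil => simp [grLst]
  | cons t L ih =>
    have h : grLst (t :: L) = ((List.ofFn fun a : Fin r => (t.1, grExt t.2 a.castSucc)) ++
        [(-(r : ℝ) * t.1, grExt t.2 (Fin.last r))]) ++ grLst L := by
      simp [grLst]
    rw [h, List.map_append, List.sum_append, ih, List.map_cons, List.sum_cons, List.map_append,
      List.sum_append, List.map_ofFn, List.sum_ofFn]
    simp only [Function.comp, List.map_cons, List.map_nil, List.sum_cons, List.sum_nil, add_zero,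
      Finset.sum_const, Finset.card_univ, Fintype.card_fin, nsmul_eq_mul, abs_mul, abs_neg,
      Nat.abs_cast]
    ring

private theorem gr_Cg_succ (r : ℕ) (hr : 1 ≤ r) : Cg (r + 1) = 2 * r * Cg r := by
  obtain ⟨k, rfl⟩ : ∃ k, r = k + 1 := ⟨r - 1, by omega⟩
  simp only [Cg, Nat.add_sub_cancel, Nat.factorial_succ]
  push_cast
  ring

private theorem gr_expand (r : ℕ) (hr : 1 ≤ r) :
    ∃ L : List (ℝ × (Fin r → Fin r)), (L.map fun t => |t.1|).sum ≤ Cg r ∧
      ∀ (n : ℕ) (_ : 0 < n) (β : ℝ) (ed : Fin r → Pr n) (Q : Rr n),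
        ∫ g, Fh β g * Ev ((∏ j, TT n (ed j).1 (ed j).2) * Q) g ∂gam n =
          (β / n) ^ r * (L.map fun t => t.1 * grT β ed Q t.2).sum := by
  induction r, hr using Nat.le_induction with
  | base =>
    refine ⟨[(1, id)], by simp [Cg], ?_⟩
    intro n hn β ed Q
    set u := (ed 0).1 with hu
    set v := (ed 0).2 with hv
    have h1 : ∀ g : Pt n, Fh β g * Ev ((∏ j, TT n (ed j).1 (ed j).2) * Q) g =
        (cc u v / Real.sqrt n) * (Fh β g * Ev (X s(u, v) * Q) g) := by
      intro g
      rw [Fin.prod_univ_one, gr_Ev_TT]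
      ring
    simp_rw [h1]
    rw [integral_const_mul, adj_ibp s(u, v) (fun g => gr_Fh_deriv β g s(u, v)) (PG_Fh β)
      ((PG.const β).mul (gr_A_PG β s(u, v))) Q]
    simp only [List.map_cons, List.map_nil, List.sum_cons, List.sum_nil, add_zero, one_mul, pow_one]
    unfold grT
    rw [← Equiv.sum_comp (Equiv.funUnique (Fin 1) (Sp n)).symm]
    have h2 : ∀ σ : Sp n, ∫ g, (∏ a, gw β g ((Equiv.funUnique (Fin 1) (Sp n)).symm σ a)) *
        ((∏ j, sv ((Equiv.funUnique (Fin 1) (Sp n)).symm σ (id j)) (ed j).1 *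
          sv ((Equiv.funUnique (Fin 1) (Sp n)).symm σ (id j)) (ed j).2) * Ev Q g) ∂gam n =
        ∫ g, gw β g σ * ((sv σ u * sv σ v) * Ev Q g) ∂gam n := by
      intro σ
      refine integral_congr_ae (Filter.Eventually.of_forall fun g => ?_)
      simp [hu, hv]
    simp_rw [h2]
    rw [← integral_finsetSum _ fun σ _ =>
      ((gr_gw_PG β σ).mul ((PG.const _).mul (PG_Ev Q))).integrable,
      ← integral_const_mul, ← integral_const_mul]
    refine integral_congr_ae (Filter.Eventually.of_forall fun g => ?_)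
    simp only
    have h3 := gr_A_mk β g u v
    have h4 : ∑ σ : Sp n, gw β g σ * ((sv σ u * sv σ v) * Ev Q g) =
        (∑ τ, gw β g τ * (sv τ u * sv τ v)) * Ev Q g := by
      rw [Finset.sum_mul]
      exact Finset.sum_congr rfl fun σ _ => by ring
    rw [h4]
    calc cc u v / Real.sqrt n * (β * grA β g s(u, v) * Ev Q g)
        = β * (cc u v / Real.sqrt n * grA β g s(u, v)) * Ev Q g := by ring
      _ = _ := by rw [h3]; ring
  | succ r hr ih =>
    obtain ⟨L, hL, hE⟩ := ih
    refine ⟨grLst L, ?_, ?_⟩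
    · rw [gr_Lst_abs, gr_Cg_succ r hr]
      exact mul_le_mul_of_nonneg_left hL (by positivity)
    · intro n hn β ed Q
      have hsplit : (∏ j, TT n (ed j).1 (ed j).2) * Q =
          (∏ j : Fin r, TT n (ed j.castSucc).1 (ed j.castSucc).2) *
            (TT n (ed (Fin.last r)).1 (ed (Fin.last r)).2 * Q) := by
        rw [Fin.prod_univ_castSucc, mul_assoc]
      rw [hsplit, hE n hn β (fun j => ed j.castSucc), gr_Lst_sum, pow_succ, mul_assoc]
      congr 1
      simp_rw [gr_T_succ]
      rw [← List.sum_map_mul_left]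
      congr 1
      refine List.map_congr_left fun t _ => ?_
      ring

/-- Replica expansion. -/
theorem gibbs_expand (r : ℕ) (hr : 1 ≤ r) :
    ∃ L : List (ℝ × (Fin r → Fin r)), (L.map fun t => |t.1|).sum ≤ Cg r ∧
      ∀ (n : ℕ) (_ : 0 < n) (β : ℝ) (ed : Fin r → Pr n) (Q : Rr n),
        ∫ g, Fh β g * Ev ((∏ j, TT n (ed j).1 (ed j).2) * Q) g ∂gam n =
          (β / n) ^ r * (L.map fun t => t.1 * ∑ ω : Fin r → Sp n,
            ∫ g, (∏ a, gw β g (ω a)) *
              ((∏ j, (sv (ω (t.2 j)) (ed j).1 * sv (ω (t.2 j)) (ed j).2)) * Ev Q g) ∂gam n).sum :=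
  gr_expand r hr

end Vale.Agent.Lib.P146
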