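import Vale.Agent.Lib.P146.LemW
import Vale.Agent.Lib.P146.GibbsR

/-! Module H: the free bound for chain patterns. -/

set_option autoImplicit false
open MeasureTheory MvPolynomial

namespace Vale.Agent.Lib.P146

variable {n : ℕ}

private theorem TT_pow_add_two (l : ℕ) (x y : Fin n) :
    (TT n ^ (l + 2)) x y = ∑ z : Fin n × Fin n, TT n x z.1 * (TT n ^ l) z.1 z.2 * TT n z.2 y := by
  have h : TT n ^ (l + 2) = TT n * TT n ^ l * TT n := by
    rw [pow_succ, pow_succ']
  rw [h, Fintype.sum_prod_type, Matrix.mul_apply]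
  simp_rw [Matrix.mul_apply, Finset.sum_mul]
  rw [Finset.sum_comm]

private theorem list_sum_bound' {α : Type*} (L : List (ℝ × α)) (X : ℝ × α → ℝ) (B : ℝ)
    (hB : 0 ≤ B) (hX : ∀ t ∈ L, |X t| ≤ B) :
    |(L.map fun t => t.1 * X t).sum| ≤ (L.map fun t => |t.1|).sum * B := by
  induction L with
  | nil => simp
  | cons a L ih =>
    simp only [List.map_cons, List.sum_cons]
    have h1 : |a.1 * X a| ≤ |a.1| * B := by
      rw [abs_mul]
      exact mul_le_mul_of_nonneg_left (hX a (by simp)) (abs_nonneg _)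
    have h2 := ih fun t ht => hX t (List.mem_cons_of_mem _ ht)
    calc |a.1 * X a + (L.map fun t => t.1 * X t).sum|
        ≤ |a.1 * X a| + |(L.map fun t => t.1 * X t).sum| := abs_add_le _ _
      _ ≤ |a.1| * B + (L.map fun t => |t.1|).sum * B := add_le_add h1 h2
      _ = _ := by ring

private theorem list_sum_bound {α : Type*} (L : List (ℝ × α)) (X : ℝ × α → ℝ) (B C : ℝ)
    (hL : (L.map fun t => |t.1|).sum ≤ C) (hB : 0 ≤ B) (hX : ∀ t ∈ L, |X t| ≤ B) :
    |(L.map fun t => t.1 * X t).sum| ≤ C * B :=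
  (list_sum_bound' L X B hB hX).trans (mul_le_mul_of_nonneg_right hL hB)

private theorem sum_list_swap {α γ : Type*} (s : Finset γ) (L : List α) (f : γ → α → ℝ) :
    ∑ x ∈ s, (L.map (f x)).sum = (L.map fun t => ∑ x ∈ s, f x t).sum := by
  induction L with
  | nil => simp
  | cons a L ih => simp [Finset.sum_add_distrib, ih]

private theorem sv_sq_sum {m : ℕ} (σ : Sp m) : ∑ x, (sv σ x) ^ 2 = m := by
  have : ∀ x, (sv σ x) ^ 2 = 1 := fun x => by
    unfold sv; split_ifs <;> norm_num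
  simp [this]

private theorem gw_prod_sum (β : ℝ) (g : Pt n) {r : ℕ} :
    ∑ ω : Fin r → Sp n, ∏ a, gw β g (ω a) = 1 := by
  have h := (Finset.prod_univ_sum (fun _ : Fin r => (Finset.univ : Finset (Sp n)))
    (fun _ σ => gw β g σ))
  rw [Fintype.piFinset_univ] at h
  rw [← h]
  simp [gw_sum]

section Aux

variable {V S ι : Type} [Fintype V] [DecidableEq V] [Fintype S] [DecidableEq S]
  [Fintype ι] [DecidableEq ι]

/-- The boundary edge of a chain pattern: short chains, and the two ends of long chains. -/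
private def edB (aS bS : S → V) (aI bI : ι → V) (lam : V → Fin n) (mu : ι → Fin n × Fin n) :
    S ⊕ (ι × Bool) → Pr n
  | Sum.inl s => (lam (aS s), lam (bS s))
  | Sum.inr (i, false) => (lam (aI i), (mu i).1)
  | Sum.inr (i, true) => ((mu i).2, lam (bI i))

/-- Splitting off the boundary edges. -/
private theorem expand_poly (aS bS : S → V) (aI bI : ι → V) (lI : ι → ℕ) (lam : V → Fin n) :
    (∏ s, TT n (lam (aS s)) (lam (bS s))) * ∏ i, (TT n ^ (lI i + 2)) (lam (aI i)) (lam (bI i)) =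
      ∑ mu : ι → Fin n × Fin n,
        (∏ b, TT n (edB aS bS aI bI lam mu b).1 (edB aS bS aI bI lam mu b).2) *
          ∏ i, (TT n ^ lI i) (mu i).1 (mu i).2 := by
  simp_rw [TT_pow_add_two]
  rw [Finset.prod_univ_sum, Fintype.piFinset_univ, Finset.mul_sum]
  refine Finset.sum_congr rfl fun mu _ => ?_
  rw [Fintype.prod_sum_type, Fintype.prod_prod_type]
  simp only [Fintype.prod_bool, edB, Finset.prod_mul_distrib]
  ring

/-- The spin product of the boundary edges factorises. -/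
private theorem sv_prod_split (ρ : S ⊕ (ι × Bool) → Sp n) (aS bS : S → V) (aI bI : ι → V)
    (lam : V → Fin n) (mu : ι → Fin n × Fin n) :
    ∏ b, (sv (ρ b) (edB aS bS aI bI lam mu b).1 * sv (ρ b) (edB aS bS aI bI lam mu b).2) =
      ((∏ s, (sv (ρ (Sum.inl s)) (lam (aS s)) * sv (ρ (Sum.inl s)) (lam (bS s)))) *
        ∏ i, (sv (ρ (Sum.inr (i, false))) (lam (aI i)) * sv (ρ (Sum.inr (i, true))) (lam (bI i)))) *
      ∏ i, (sv (ρ (Sum.inr (i, false))) (mu i).1 * sv (ρ (Sum.inr (i, true))) (mu i).2) := by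
  rw [Fintype.prod_sum_type, Fintype.prod_prod_type]
  simp only [Fintype.prod_bool, edB, Finset.prod_mul_distrib]
  ring

/-- The product of the forms `Xf`. -/
private theorem prod_Xf (u v : ι → Fin n → ℝ) (lI : ι → ℕ) :
    ∏ i, Xf (u i) (v i) (lI i) = C ((((n : ℝ) ^ Fintype.card ι))⁻¹) *
      ∑ mu : ι → Fin n × Fin n, C (∏ i, (u i (mu i).1 * v i (mu i).2)) *
        ∏ i, (TT n ^ lI i) (mu i).1 (mu i).2 := by
  have h1 : ∀ i, Xf (u i) (v i) (lI i) = C (1 / (n : ℝ)) *
      ∑ z : Fin n × Fin n, C (u i z.1 * v i z.2) * (TT n ^ lI i) z.1 z.2 := by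
    intro i
    rw [Xf, Fintype.sum_prod_type]
  simp_rw [h1]
  rw [Finset.prod_mul_distrib, Finset.prod_univ_sum, Fintype.piFinset_univ]
  congr 1
  · rw [Finset.prod_const, ← C_pow]
    congr 1
    simp [Finset.card_univ]
  · refine Finset.sum_congr rfl fun mu _ => ?_
    rw [Finset.prod_mul_distrib, map_prod]

/-- The main estimate, for an abstract decomposition into short and long chains. -/
private theorem free_aux (hn : 0 < n) {p K : ℕ} (hp1 : 1 ≤ p) (hKp : K ≤ p)
    (hp : 1000 * (p + 1) ^ 6 ≤ n) (β : ℝ) (hβ : 0 < β)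
    (aS bS : S → V) (aI bI : ι → V) (lI : ι → ℕ)
    (hr : 1 ≤ Fintype.card S + 2 * Fintype.card ι)
    (c : Wt →₀ ℝ) (hc : ∀ ν ∈ c.support, ∑ i, lI i + dg ν ≤ K) :
    |∫ g, Fh β g * Ev ((∑ lam : V → Fin n, (∏ s, TT n (lam (aS s)) (lam (bS s))) *
        ∏ i, (TT n ^ (lI i + 2)) (lam (aI i)) (lam (bI i))) * Sc n c) g ∂gam n| ≤
      (β / n) ^ (Fintype.card S + 2 * Fintype.card ι) * (Cg (Fintype.card S + 2 * Fintype.card ι) *
        ((n : ℝ) ^ Fintype.card V * (n : ℝ) ^ Fintype.card ι *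
        (2 * 2 ^ Fintype.card ι * (∏ i, ((lI i : ℝ) + 1)) * nrm c *
          Real.sqrt (∫ g, rhoH p g ^ (2 * K) ∂gam n)))) := by
  classical
  set r := Fintype.card S + 2 * Fintype.card ι with hrdef
  have hcard : Fintype.card (S ⊕ (ι × Bool)) = r := by
    simp [Fintype.card_sum, Fintype.card_prod, hrdef]; ring
  let ε : (S ⊕ (ι × Bool)) ≃ Fin r := Fintype.equivFinOfCardEq hcard
  obtain ⟨L, hL, hexp⟩ := gibbs_expand r hr
  have hnR : (0 : ℝ) < n := by exact_mod_cast hn
  -- the polynomials of the labels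
  let Q : (ι → Fin n × Fin n) → Rr n := fun mu => (∏ i, (TT n ^ lI i) (mu i).1 (mu i).2) * Sc n c
  let ed : (V → Fin n) → (ι → Fin n × Fin n) → Fin r → Pr n :=
    fun lam mu j => edB aS bS aI bI lam mu (ε.symm j)
  -- step 1: linearity
  have step1 : ∫ g, Fh β g * Ev ((∑ lam : V → Fin n, (∏ s, TT n (lam (aS s)) (lam (bS s))) *
        ∏ i, (TT n ^ (lI i + 2)) (lam (aI i)) (lam (bI i))) * Sc n c) g ∂gam n =
      ∑ lam : V → Fin n, ∑ mu : ι → Fin n × Fin n,
        ∫ g, Fh β g * Ev ((∏ j, TT n (ed lam mu j).1 (ed lam mu j).2) * Q mu) g ∂gam n := by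
    have hpoly : (∑ lam : V → Fin n, (∏ s, TT n (lam (aS s)) (lam (bS s))) *
        ∏ i, (TT n ^ (lI i + 2)) (lam (aI i)) (lam (bI i))) * Sc n c =
        ∑ lam : V → Fin n, ∑ mu : ι → Fin n × Fin n,
          (∏ j, TT n (ed lam mu j).1 (ed lam mu j).2) * Q mu := by
      rw [Finset.sum_mul]
      refine Finset.sum_congr rfl fun lam _ => ?_
      rw [expand_poly, Finset.sum_mul]
      refine Finset.sum_congr rfl fun mu _ => ?_
      have : ∏ j, TT n (ed lam mu j).1 (ed lam mu j).2 =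
          ∏ b, TT n (edB aS bS aI bI lam mu b).1 (edB aS bS aI bI lam mu b).2 :=
        Equiv.prod_comp ε.symm (fun b => TT n (edB aS bS aI bI lam mu b).1
          (edB aS bS aI bI lam mu b).2)
      rw [this, mul_assoc]
    rw [hpoly]
    simp_rw [Ev_sum, Finset.mul_sum]
    rw [integral_finsetSum]
    · refine Finset.sum_congr rfl fun lam _ => ?_
      rw [integral_finsetSum]
      intro mu _
      exact ((PG_Fh β).mul (PG_Ev _)).integrable
    · intro lam _
      refine integrable_finsetSum _ fun mu _ => ?_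
      exact ((PG_Fh β).mul (PG_Ev _)).integrable
  -- step 2: the replica expansion
  have step2 : ∫ g, Fh β g * Ev ((∑ lam : V → Fin n, (∏ s, TT n (lam (aS s)) (lam (bS s))) *
        ∏ i, (TT n ^ (lI i + 2)) (lam (aI i)) (lam (bI i))) * Sc n c) g ∂gam n =
      (β / n) ^ r * (L.map fun t => t.1 * ∑ lam : V → Fin n, ∑ mu : ι → Fin n × Fin n,
        ∑ ω : Fin r → Sp n, ∫ g, (∏ a, gw β g (ω a)) *
          ((∏ j, (sv (ω (t.2 j)) (ed lam mu j).1 * sv (ω (t.2 j)) (ed lam mu j).2)) *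
            Ev (Q mu) g) ∂gam n).sum := by
    rw [step1]
    simp_rw [hexp n hn β]
    simp_rw [← Finset.mul_sum]
    congr 1
    simp_rw [sum_list_swap]
    congr 1
    refine List.map_congr_left fun t _ => ?_
    simp_rw [Finset.mul_sum]
  rw [step2, abs_mul, abs_of_nonneg (pow_nonneg (div_nonneg hβ.le hnR.le) _)]
  refine mul_le_mul_of_nonneg_left ?_ (pow_nonneg (div_nonneg hβ.le hnR.le) _)
  -- the bound of one term of the list
  set W : ℝ := 2 * 2 ^ Fintype.card ι * (∏ i, ((lI i : ℝ) + 1)) * nrm c *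
          Real.sqrt (∫ g, rhoH p g ^ (2 * K) ∂gam n) with hW
  have hWnn : 0 ≤ W := by
    have : 0 ≤ nrm c := Real.sqrt_nonneg _
    have : 0 ≤ ∏ i, ((lI i : ℝ) + 1) := Finset.prod_nonneg fun i _ => by positivity
    positivity
  refine list_sum_bound L _ _ _ hL (by positivity) ?_
  intro t _
  -- replicas attached to the boundary edges
  let ρ : (Fin r → Sp n) → S ⊕ (ι × Bool) → Sp n := fun ω b => ω (t.2 (ε b))
  let A : (V → Fin n) → (Fin r → Sp n) → ℝ := fun lam ω =>
    (∏ s, (sv (ρ ω (Sum.inl s)) (lam (aS s)) * sv (ρ ω (Sum.inl s)) (lam (bS s)))) *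
      ∏ i, (sv (ρ ω (Sum.inr (i, false))) (lam (aI i)) * sv (ρ ω (Sum.inr (i, true))) (lam (bI i)))
  let B : (ι → Fin n × Fin n) → (Fin r → Sp n) → ℝ := fun mu ω =>
    ∏ i, (sv (ρ ω (Sum.inr (i, false))) (mu i).1 * sv (ρ ω (Sum.inr (i, true))) (mu i).2)
  have hsplit : ∀ lam mu ω,
      ∏ j, (sv (ω (t.2 j)) (ed lam mu j).1 * sv (ω (t.2 j)) (ed lam mu j).2) = A lam ω * B mu ω := by
    intro lam mu ω
    rw [← Equiv.prod_comp ε]
    have := sv_prod_split (ρ ω) aS bS aI bI lam mu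
    simp only [ed, Equiv.symm_apply_apply]
    exact this
  have hAabs : ∀ lam ω, |A lam ω| ≤ 1 := by
    intro lam ω
    simp only [A, abs_mul, Finset.abs_prod, abs_sv]
    simp
  -- the normalised test functions
  let Vn : ℝ := (n : ℝ) ^ Fintype.card V
  have hVn : 0 < Vn := pow_pos hnR _
  let Aω : (Fin r → Sp n) → ℝ := fun ω => Vn⁻¹ * ∑ lam : V → Fin n, A lam ω
  have hAω : ∀ ω, |Aω ω| ≤ 1 := by
    intro ω
    simp only [Aω, abs_mul, abs_inv, abs_of_pos hVn]
    have h1 : |∑ lam : V → Fin n, A lam ω| ≤ Vn := by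
      calc |∑ lam : V → Fin n, A lam ω| ≤ ∑ lam : V → Fin n, |A lam ω| :=
            Finset.abs_sum_le_sum_abs _ _
        _ ≤ ∑ _lam : V → Fin n, (1 : ℝ) := Finset.sum_le_sum fun lam _ => hAabs lam ω
        _ = Vn := by simp [Vn, Fintype.card_fun]
    rw [inv_mul_le_iff₀ hVn]
    linarith
  let G : (Fin r → Sp n) → Pt n → ℝ := fun ω g => (∏ a, gw β g (ω a)) * Aω ω
  have hGabs : ∀ ω g, |G ω g| ≤ ∏ a, gw β g (ω a) := by
    intro ω g
    have hnn : 0 ≤ ∏ a, gw β g (ω a) := Finset.prod_nonneg fun a _ => gw_nonneg β g _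
    simp only [G, abs_mul, abs_of_nonneg hnn]
    exact mul_le_of_le_one_right hnn (hAω ω)
  have hGsum : ∀ g, ∑ ω, |G ω g| ≤ 1 := by
    intro g
    calc ∑ ω, |G ω g| ≤ ∑ ω : Fin r → Sp n, ∏ a, gw β g (ω a) :=
          Finset.sum_le_sum fun ω _ => hGabs ω g
      _ = 1 := gw_prod_sum β g
  have hGmeas : ∀ ω, Measurable (G ω) := by
    intro ω
    refine Measurable.mul_const (Finset.measurable_prod _ fun a _ => gw_meas β _) _
  have hGprod : ∀ (ω : Fin r → Sp n) (g : Pt n), ∏ a, gw β g (ω a) ≤ 1 := by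
    intro ω g
    exact Finset.prod_le_one (fun a _ => gw_nonneg β g _) (fun a _ => gw_le_one β g _)
  have hGPG : ∀ ω, PG (G ω) := by
    intro ω
    refine ⟨hGmeas ω, 1, 0, fun g => ?_⟩
    simpa using (hGabs ω g).trans (hGprod ω g)
  have hprodPG : ∀ ω : Fin r → Sp n, PG (fun g : Pt n => ∏ a, gw β g (ω a)) := by
    intro ω
    refine ⟨Finset.measurable_prod _ fun a _ => gw_meas β _, 1, 0, fun g => ?_⟩
    have hnn : 0 ≤ ∏ a, gw β g (ω a) := Finset.prod_nonneg fun a _ => gw_nonneg β g _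
    simpa [abs_of_nonneg hnn] using hGprod ω g
  -- the forms
  let u : ι → (Fin r → Sp n) → Pt n → Fin n → ℝ := fun i ω _ x => sv (ρ ω (Sum.inr (i, false))) x
  let v : ι → (Fin r → Sp n) → Pt n → Fin n → ℝ := fun i ω _ x => sv (ρ ω (Sum.inr (i, true))) x
  have hWbound := lemmaW hn hp1 hKp hp K le_rfl (Finset.univ : Finset ι) lI u v G c
    (fun _ _ _ => measurable_const) (fun _ _ _ => measurable_const)
    (fun i ω _ => by simp [u, sv_sq_sum]) (fun i ω _ => by simp [v, sv_sq_sum]) hGPG hc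
  -- the Wick polynomial in terms of the labels
  have hEv : ∀ ω g, Ev ((∏ i ∈ (Finset.univ : Finset ι), Xf (u i ω g) (v i ω g) (lI i)) * Sc n c) g =
      ((n : ℝ) ^ Fintype.card ι)⁻¹ * ∑ mu : ι → Fin n × Fin n, B mu ω * Ev (Q mu) g := by
    intro ω g
    rw [prod_Xf (fun i => u i ω g) (fun i => v i ω g) lI, mul_assoc, Finset.sum_mul, Ev_C_mul]
    congr 1
    rw [Ev_sum]
    refine Finset.sum_congr rfl fun mu _ => ?_
    rw [mul_assoc, Ev_C_mul]
  -- the term of the list is the integral of the lemma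
  have hterm : ∑ lam : V → Fin n, ∑ mu : ι → Fin n × Fin n, ∑ ω : Fin r → Sp n,
        ∫ g, (∏ a, gw β g (ω a)) *
          ((∏ j, (sv (ω (t.2 j)) (ed lam mu j).1 * sv (ω (t.2 j)) (ed lam mu j).2)) *
            Ev (Q mu) g) ∂gam n =
      Vn * (n : ℝ) ^ Fintype.card ι * ∫ g, ∑ ω, G ω g *
        Ev ((∏ i ∈ (Finset.univ : Finset ι), Xf (u i ω g) (v i ω g) (lI i)) * Sc n c) g ∂gam n := by
    have hint : ∀ (lam : V → Fin n) (mu : ι → Fin n × Fin n) (ω : Fin r → Sp n),
        Integrable (fun g => (∏ a, gw β g (ω a)) *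
          ((∏ j, (sv (ω (t.2 j)) (ed lam mu j).1 * sv (ω (t.2 j)) (ed lam mu j).2)) *
            Ev (Q mu) g)) (gam n) := by
      intro lam mu ω
      exact ((hprodPG ω).mul ((PG.const _).mul (PG_Ev _))).integrable
    -- move all sums inside
    have h1 : ∑ lam : V → Fin n, ∑ mu : ι → Fin n × Fin n, ∑ ω : Fin r → Sp n,
        ∫ g, (∏ a, gw β g (ω a)) *
          ((∏ j, (sv (ω (t.2 j)) (ed lam mu j).1 * sv (ω (t.2 j)) (ed lam mu j).2)) *
            Ev (Q mu) g) ∂gam n =
        ∫ g, ∑ lam : V → Fin n, ∑ mu : ι → Fin n × Fin n, ∑ ω : Fin r → Sp n,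
          (∏ a, gw β g (ω a)) *
          ((∏ j, (sv (ω (t.2 j)) (ed lam mu j).1 * sv (ω (t.2 j)) (ed lam mu j).2)) *
            Ev (Q mu) g) ∂gam n := by
      rw [integral_finsetSum]
      · refine Finset.sum_congr rfl fun lam _ => ?_
        rw [integral_finsetSum]
        · refine Finset.sum_congr rfl fun mu _ => ?_
          rw [integral_finsetSum]
          intro ω _
          exact hint lam mu ω
        · intro mu _
          exact integrable_finsetSum _ fun ω _ => hint lam mu ω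
      · intro lam _
        exact integrable_finsetSum _ fun mu _ => integrable_finsetSum _ fun ω _ => hint lam mu ω
    rw [h1, ← integral_const_mul]
    refine integral_congr_ae (Filter.Eventually.of_forall fun g => ?_)
    simp only
    rw [Finset.mul_sum]
    have hcalc : ∀ ω : Fin r → Sp n,
        Vn * (n : ℝ) ^ Fintype.card ι * (G ω g *
          Ev ((∏ i ∈ (Finset.univ : Finset ι), Xf (u i ω g) (v i ω g) (lI i)) * Sc n c) g) =
        ∑ lam : V → Fin n, ∑ mu : ι → Fin n × Fin n, (∏ a, gw β g (ω a)) *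
          ((∏ j, (sv (ω (t.2 j)) (ed lam mu j).1 * sv (ω (t.2 j)) (ed lam mu j).2)) *
            Ev (Q mu) g) := by
      intro ω
      rw [hEv ω g]
      simp only [G, Aω]
      have hpow : (n : ℝ) ^ Fintype.card ι ≠ 0 := (pow_pos hnR _).ne'
      have hV : Vn ≠ 0 := hVn.ne'
      simp_rw [hsplit]
      calc Vn * (n : ℝ) ^ Fintype.card ι * ((∏ a, gw β g (ω a)) *
              (Vn⁻¹ * ∑ lam : V → Fin n, A lam ω) * (((n : ℝ) ^ Fintype.card ι)⁻¹ *
                ∑ mu : ι → Fin n × Fin n, B mu ω * Ev (Q mu) g))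
          = (∏ a, gw β g (ω a)) * (∑ lam : V → Fin n, A lam ω) *
              ∑ mu : ι → Fin n × Fin n, B mu ω * Ev (Q mu) g := by
            field_simp
        _ = _ := by
            rw [mul_assoc, Finset.sum_mul]
            rw [Finset.mul_sum]
            refine Finset.sum_congr rfl fun lam _ => ?_
            rw [Finset.mul_sum, Finset.mul_sum]
            refine Finset.sum_congr rfl fun mu _ => ?_
            ring
    simp_rw [hcalc]
    symm
    rw [Finset.sum_comm]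
    refine Finset.sum_congr rfl fun lam _ => ?_
    rw [Finset.sum_comm]
  rw [hterm, abs_mul, abs_of_pos (mul_pos hVn (pow_pos hnR _))]
  refine mul_le_mul_of_nonneg_left ?_ (mul_pos hVn (pow_pos hnR _)).le
  refine hWbound.trans ?_
  simp only [Finset.card_univ, hW]
  refine mul_le_mul_of_nonneg_left ?_ ?_
  · refine Real.sqrt_le_sqrt ?_
    refine integral_mono_of_nonneg ?_ ?_ ?_
    · exact Filter.Eventually.of_forall fun g => by
        have h2 : 0 ≤ rhoH p g ^ (2 * K) := by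
          rw [pow_mul]
          positivity
        exact mul_nonneg (sq_nonneg _) h2
    · exact ((PG_rhoH hp1).pow _).integrable
    · refine Filter.Eventually.of_forall fun g => ?_
      have h0 : 0 ≤ ∑ ω : Fin r → Sp n, |G ω g| := Finset.sum_nonneg fun _ _ => abs_nonneg _
      have h1 : (∑ ω, |G ω g|) ^ 2 ≤ 1 := by
        have := hGsum g
        nlinarith
      have h2 : 0 ≤ rhoH p g ^ (2 * K) := by
        rw [pow_mul]
        positivity
      calc (∑ ω, |G ω g|) ^ 2 * rhoH p g ^ (2 * K) ≤ 1 * rhoH p g ^ (2 * K) :=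
            mul_le_mul_of_nonneg_right h1 h2
        _ = rhoH p g ^ (2 * K) := one_mul _
  · have h0 : 0 ≤ nrm c := Real.sqrt_nonneg _
    have h1 : 0 ≤ ∏ i, ((lI i : ℝ) + 1) := Finset.prod_nonneg fun i _ => by positivity
    positivity

end Aux

private theorem Cg_mono {r s : ℕ} (h : r ≤ s) : Cg r ≤ Cg s := by
  unfold Cg
  have h1 : r - 1 ≤ s - 1 := Nat.sub_le_sub_right h 1
  have h2 : ((r - 1).factorial : ℝ) ≤ ((s - 1).factorial : ℝ) := by
    exact_mod_cast Nat.factorial_le h1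
  have h3 : (2 : ℝ) ^ (r - 1) ≤ 2 ^ (s - 1) := pow_le_pow_right₀ (by norm_num) h1
  exact mul_le_mul h3 h2 (by positivity) (by positivity)

private theorem Cg_nonneg (r : ℕ) : 0 ≤ Cg r := by
  unfold Cg; positivity

private theorem Fb_nonneg (β : ℝ) (K m : ℕ) : 0 ≤ Fb β K m := by
  unfold Fb
  have h1 : 0 ≤ max 1 β := le_trans zero_le_one (le_max_left _ _)
  have h2 := Cg_nonneg (2 * m)
  positivity

/-- The free bound. -/
theorem free_bound (hn : 0 < n) {p K : ℕ} (hp1 : 1 ≤ p) (hKp : K ≤ p)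
    (hp : 1000 * (p + 1) ^ 6 ≤ n) (β : ℝ) (hβ : 0 < β)
    (V : Type) [Fintype V] [DecidableEq V] (E : List (V × V × ℕ)) (hE : E ≠ [])
    (c : Wt →₀ ℝ) (hc : ∀ ν ∈ c.support, (E.map fun e => e.2.2 + 1).sum + dg ν ≤ K) :
    |∫ g, Fh β g * Ev (Pc n V E * Sc n c) g ∂gam n| ≤
      (n : ℝ) ^ ((Fintype.card V : ℤ) - (E.length : ℤ)) * Fb β K E.length * nrm c *
        Real.sqrt (∫ g, rhoH p g ^ (2 * K) ∂gam n) := by
  classical
  have hnR : (0 : ℝ) < n := by exact_mod_cast hn
  set m := E.length with hm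
  have hm1 : 1 ≤ m := List.length_pos_iff.mpr hE
  let l : Fin E.length → ℕ := fun i => E[i.1].2.2
  let a : Fin E.length → V := fun i => E[i.1].1
  let b : Fin E.length → V := fun i => E[i.1].2.1
  let S := {i : Fin E.length // l i = 0}
  let ι := {i : Fin E.length // ¬ l i = 0}
  have hS : Fintype.card S + Fintype.card ι = m := by
    have h1 : Fintype.card ι = Fintype.card (Fin E.length) - Fintype.card S :=
      Fintype.card_subtype_compl _
    have h2 : Fintype.card S ≤ Fintype.card (Fin E.length) := Fintype.card_subtype_le _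
    simp only [Fintype.card_fin] at h1 h2
    omega
  have hr : 1 ≤ Fintype.card S + 2 * Fintype.card ι := by omega
  let lI : ι → ℕ := fun i => l i.1 - 1
  -- the polynomial
  have hPc : Pc n V E = ∑ lam : V → Fin n,
      (∏ s : S, TT n (lam (a s.1)) (lam (b s.1))) *
        ∏ i : ι, (TT n ^ (lI i + 2)) (lam (a i.1)) (lam (b i.1)) := by
    unfold Pc
    refine Finset.sum_congr rfl fun lam _ => ?_
    rw [← Fin.prod_univ_fun_getElem E
      (fun e => (TT n ^ (e.2.2 + 1)) (lam e.1) (lam e.2.1))]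
    rw [← Fintype.prod_subtype_mul_prod_subtype (fun i : Fin E.length => l i = 0)]
    congr 1
    · refine Finset.prod_congr rfl fun s _ => ?_
      have h0 : E[s.1.1].2.2 = 0 := s.2
      rw [h0]
      simp [a, b]
    · refine Finset.prod_congr rfl fun i _ => ?_
      have h0 : ¬ E[i.1.1].2.2 = 0 := i.2
      have h1 : E[i.1.1].2.2 + 1 = lI i + 2 := by
        simp only [lI, l]
        omega
      rw [h1]
  -- the degree hypothesis
  have hsum : (E.map fun e => e.2.2 + 1).sum = ∑ i : Fin E.length, (l i + 1) := by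
    rw [← Fin.sum_univ_fun_getElem E (fun e => e.2.2 + 1)]
  have hlI : ∑ i : ι, lI i ≤ (E.map fun e => e.2.2 + 1).sum := by
    rw [hsum, ← Fintype.sum_subtype_add_sum_subtype (fun i : Fin E.length => ¬ l i = 0)]
    refine le_trans ?_ (Nat.le_add_right _ _)
    refine Finset.sum_le_sum fun i _ => ?_
    simp only [lI]
    omega
  have hc' : ∀ ν ∈ c.support, ∑ i : ι, lI i + dg ν ≤ K := fun ν hν =>
    le_trans (Nat.add_le_add_right hlI _) (hc ν hν)
  have haux := free_aux (n := n) (V := V) (S := S) (ι := ι) hn hp1 hKp hp β hβ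
    (fun s => a s.1) (fun s => b s.1) (fun i => a i.1) (fun i => b i.1) lI hr c hc'
  rw [← hPc] at haux
  set sq := Real.sqrt (∫ g, rhoH p g ^ (2 * K) ∂gam n) with hsq
  have hsq0 : 0 ≤ sq := Real.sqrt_nonneg _
  have hnc0 : 0 ≤ nrm c := Real.sqrt_nonneg _
  set r := Fintype.card S + 2 * Fintype.card ι with hrdef
  -- the power of n
  have hpow : (β / n) ^ r * ((n : ℝ) ^ Fintype.card V * (n : ℝ) ^ Fintype.card ι) =
      β ^ r * (n : ℝ) ^ ((Fintype.card V : ℤ) - (m : ℤ)) := by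
    have hnne : (n : ℝ) ≠ 0 := hnR.ne'
    rw [div_pow, zpow_sub₀ hnne, zpow_natCast, zpow_natCast, ← hS, hrdef]
    field_simp
    ring
  refine haux.trans ?_
  by_cases hc0 : c = 0
  · have : nrm c = 0 := by subst hc0; simp [nrm, nrm2]
    simp [this]
  -- all chain lengths are bounded
  obtain ⟨ν, hν⟩ : ∃ ν, ν ∈ c.support := by
    by_contra hcon
    push_neg at hcon
    exact hc0 (Finsupp.support_eq_empty.mp (Finset.eq_empty_of_forall_notMem hcon))
  have hbound : (E.map fun e => e.2.2 + 1).sum ≤ K := le_trans (Nat.le_add_right _ _) (hc ν hν)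
  have hli : ∀ i : ι, (lI i : ℝ) + 1 ≤ (K : ℝ) + 1 := by
    intro i
    have h1 : l i.1 + 1 ≤ ∑ j : Fin E.length, (l j + 1) :=
      Finset.single_le_sum (f := fun j => l j + 1) (fun _ _ => Nat.zero_le _) (Finset.mem_univ _)
    rw [← hsum] at h1
    have h2 : lI i ≤ K := by
      simp only [lI]
      omega
    have h3 : (lI i : ℝ) ≤ K := by exact_mod_cast h2
    linarith
  have hprod : ∏ i : ι, ((lI i : ℝ) + 1) ≤ ((K : ℝ) + 1) ^ m := by
    calc ∏ i : ι, ((lI i : ℝ) + 1) ≤ ∏ _i : ι, ((K : ℝ) + 1) :=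
          Finset.prod_le_prod (fun i _ => by positivity) (fun i _ => hli i)
      _ = ((K : ℝ) + 1) ^ Fintype.card ι := by simp [Finset.card_univ]
      _ ≤ ((K : ℝ) + 1) ^ m := pow_le_pow_right₀ (by
            have : (0 : ℝ) ≤ K := Nat.cast_nonneg _
            linarith) (by omega)
  have hprod0 : 0 ≤ ∏ i : ι, ((lI i : ℝ) + 1) := Finset.prod_nonneg fun i _ => by positivity
  have hrm : r ≤ 2 * m := by omega
  have hB1 : β ^ r ≤ (max 1 β) ^ (2 * m) :=
    calc β ^ r ≤ (max 1 β) ^ r := pow_le_pow_left₀ hβ.le (le_max_right _ _) _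
      _ ≤ (max 1 β) ^ (2 * m) := pow_le_pow_right₀ (le_max_left _ _) hrm
  have hB2 : Cg r ≤ Cg (2 * m) := Cg_mono hrm
  have hB3 : (2 : ℝ) * 2 ^ Fintype.card ι ≤ 2 ^ (m + 1) := by
    rw [pow_succ']
    have : (2 : ℝ) ^ Fintype.card ι ≤ 2 ^ m := pow_le_pow_right₀ (by norm_num) (by omega)
    linarith
  have hmain : β ^ r * Cg r * ((2 : ℝ) * 2 ^ Fintype.card ι) * ∏ i : ι, ((lI i : ℝ) + 1) ≤
      Fb β K m := by
    unfold Fb
    have hCg := Cg_nonneg r
    refine mul_le_mul (mul_le_mul (mul_le_mul hB1 hB2 hCg ?_) hB3 (by positivity) ?_) hprod hprod0 ?_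
    · exact pow_nonneg (le_trans zero_le_one (le_max_left _ _)) _
    · have h1 : 0 ≤ max 1 β := le_trans zero_le_one (le_max_left _ _)
      have h2 := Cg_nonneg (2 * m)
      positivity
    · have h1 : 0 ≤ max 1 β := le_trans zero_le_one (le_max_left _ _)
      have h2 := Cg_nonneg (2 * m)
      positivity
  have hnpow : 0 ≤ (n : ℝ) ^ ((Fintype.card V : ℤ) - (m : ℤ)) := zpow_nonneg hnR.le _
  calc (β / n) ^ r * (Cg r * ((n : ℝ) ^ Fintype.card V * (n : ℝ) ^ Fintype.card ι *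
        (2 * 2 ^ Fintype.card ι * (∏ i : ι, ((lI i : ℝ) + 1)) * nrm c * sq)))
      = ((β / n) ^ r * ((n : ℝ) ^ Fintype.card V * (n : ℝ) ^ Fintype.card ι)) *
          (Cg r * (2 * 2 ^ Fintype.card ι) * (∏ i : ι, ((lI i : ℝ) + 1)) * (nrm c * sq)) := by ring
    _ = (n : ℝ) ^ ((Fintype.card V : ℤ) - (m : ℤ)) *
          (β ^ r * Cg r * ((2 : ℝ) * 2 ^ Fintype.card ι) * ∏ i : ι, ((lI i : ℝ) + 1)) *
            (nrm c * sq) := by rw [hpow]; ring
    _ ≤ (n : ℝ) ^ ((Fintype.card V : ℤ) - (m : ℤ)) * Fb β K m * (nrm c * sq) := by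
        refine mul_le_mul_of_nonneg_right ?_ (mul_nonneg hnc0 hsq0)
        exact mul_le_mul_of_nonneg_left hmain hnpow
    _ = _ := by ring

end Vale.Agent.Lib.P146
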