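import Vale.Agent.Lib.P146.LemWD

/-! Module F, the error terms. -/

set_option autoImplicit false
open MeasureTheory MvPolynomial

namespace Vale.Agent.Lib.P146

variable {n : ℕ}

theorem Bd.const_mul' {F : Pt n → ℝ} {B k : ℝ} (hk : 0 ≤ k) (h : Bd F B) :
    Bd (fun g => k * F g) (k * B) := by
  have := h.const_mul k
  rwa [abs_of_nonneg hk] at this

/-- Polynomial identity for the error term, in terms of updated products. -/
theorem err_poly (hn : 0 < n) {Ω ι : Type} [DecidableEq ι] {I : Finset ι} {i₁ : ι} (hi₁ : i₁ ∈ I)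
    (a : ι → ℕ) (u v : ι → Ω → Pt n → Fin n → ℝ) (x : Ω → Pt n → Fin n → ℝ) (b : ℕ) (c : Wt →₀ ℝ)
    (L : ℕ) (hL : ∀ ν ∈ c.support, ∀ ℓ ∈ ν, ℓ < L) (ω : Ω) (g : Pt n) :
    ErrQ (x ω g) (v i₁ ω g) b ((∏ k ∈ I.erase i₁, Xf (u k ω g) (v k ω g) (a k)) * Sc n c) =
      C ((b : ℝ) / n) * ((∏ k ∈ I, Xf (Function.update u i₁ x k ω g) (v k ω g)
          (Function.update a i₁ (b - 1) k)) * Sc n c)
      + C (1 / (n : ℝ)) * ∑ j ∈ Finset.range (b - 1),
          ((∏ k ∈ I, Xf (Function.update u i₁ x k ω g) (v k ω g)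
            (Function.update a i₁ (b - 2 - j) k)) * Sc n (up j c))
      + C (1 / (n : ℝ)) * ∑ ℓ ∈ Finset.range L,
          ((∏ k ∈ I, Xf (Function.update u i₁ x k ω g) (v k ω g)
            (Function.update a i₁ (ℓ + b) k)) * Sc n (down ℓ c))
      + C (1 / (n : ℝ)) * ∑ i ∈ I.erase i₁, ∑ r ∈ Finset.range (a i),
          ((∏ k ∈ I, Xf (Function.update (Function.update u i₁ x) i (v i₁) k ω g)
              (Function.update v i₁ (u i) k ω g)
              (Function.update (Function.update a i₁ r) i (b + (a i - 1 - r)) k)) * Sc n c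
           + (∏ k ∈ I, Xf (Function.update u i₁ x k ω g)
              (Function.update (Function.update v i₁ (v i)) i (v i₁) k ω g)
              (Function.update (Function.update a i₁ (a i - 1 - r)) i (r + b) k)) * Sc n c) := by
  have key : ∀ (m : ℕ) (c' : Wt →₀ ℝ),
      Xf (x ω g) (v i₁ ω g) m * ((∏ k ∈ I.erase i₁, Xf (u k ω g) (v k ω g) (a k)) * Sc n c') =
      (∏ k ∈ I, Xf (Function.update u i₁ x k ω g) (v k ω g) (Function.update a i₁ m k)) * Sc n c' := by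
    intro m c'
    rw [prod_one hi₁, mul_assoc]
  have h0 := ErrQ_decomp hn (x ω g) (v i₁ ω g) b (I.erase i₁) (fun k => u k ω g)
    (fun k => v k ω g) a c L hL
  have h4 : ∑ i ∈ I.erase i₁, ∑ r ∈ Finset.range (a i),
          (Xf (x ω g) (u i ω g) r * (Xf (v i₁ ω g) (v i ω g) (b + (a i - 1 - r)) *
              ((∏ k ∈ (I.erase i₁).erase i, Xf (u k ω g) (v k ω g) (a k)) * Sc n c))
           + Xf (x ω g) (v i ω g) (a i - 1 - r) * (Xf (u i ω g) (v i₁ ω g) (r + b) *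
              ((∏ k ∈ (I.erase i₁).erase i, Xf (u k ω g) (v k ω g) (a k)) * Sc n c))) =
      ∑ i ∈ I.erase i₁, ∑ r ∈ Finset.range (a i),
          ((∏ k ∈ I, Xf (Function.update (Function.update u i₁ x) i (v i₁) k ω g)
              (Function.update v i₁ (u i) k ω g)
              (Function.update (Function.update a i₁ r) i (b + (a i - 1 - r)) k)) * Sc n c
           + (∏ k ∈ I, Xf (Function.update u i₁ x k ω g)
              (Function.update (Function.update v i₁ (v i)) i (v i₁) k ω g)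
              (Function.update (Function.update a i₁ (a i - 1 - r)) i (r + b) k)) * Sc n c) := by
    refine Finset.sum_congr rfl fun i hi => Finset.sum_congr rfl fun r _ => ?_
    rw [prod_fourA hi₁ hi, prod_fourB hi₁ hi, mul_assoc, mul_assoc, mul_assoc, mul_assoc]
  rw [h0, h4]
  simp only [key]

theorem err_phi (hn : 0 < n) {Ω ι : Type} [Fintype Ω] [DecidableEq ι] {I : Finset ι} {i₁ : ι}
    (hi₁ : i₁ ∈ I) (a : ι → ℕ) (u v : ι → Ω → Pt n → Fin n → ℝ) (x : Ω → Pt n → Fin n → ℝ) (b : ℕ)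
    (c : Wt →₀ ℝ) (L : ℕ) (hL : ∀ ν ∈ c.support, ∀ ℓ ∈ ν, ℓ < L) (Gt : Ω → Pt n → ℝ) (g : Pt n) :
    ∑ ω, Gt ω g * Ev (ErrQ (x ω g) (v i₁ ω g) b
        ((∏ k ∈ I.erase i₁, Xf (u k ω g) (v k ω g) (a k)) * Sc n c)) g =
      ((b : ℝ) / n) * FT I (Function.update a i₁ (b - 1)) (Function.update u i₁ x) v Gt c g
      + (1 / (n : ℝ)) * ∑ j ∈ Finset.range (b - 1),
          FT I (Function.update a i₁ (b - 2 - j)) (Function.update u i₁ x) v Gt (up j c) g
      + (1 / (n : ℝ)) * ∑ ℓ ∈ Finset.range L,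
          FT I (Function.update a i₁ (ℓ + b)) (Function.update u i₁ x) v Gt (down ℓ c) g
      + (1 / (n : ℝ)) * ∑ i ∈ I.erase i₁, ∑ r ∈ Finset.range (a i),
          (FT I (Function.update (Function.update a i₁ r) i (b + (a i - 1 - r)))
              (Function.update (Function.update u i₁ x) i (v i₁)) (Function.update v i₁ (u i)) Gt c g
           + FT I (Function.update (Function.update a i₁ (a i - 1 - r)) i (r + b))
              (Function.update u i₁ x) (Function.update (Function.update v i₁ (v i)) i (v i₁)) Gt c g) := by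
  simp only [err_poly hn hi₁ a u v x b c L hL, Phi_add, Phi_C, Phi_sum, FT]

/-- The bound for the error term of index `b`. -/
theorem err_bound (hn : 0 < n) {p : ℕ} (hp1 : 1 ≤ p) {Ω ι : Type} [Fintype Ω] [DecidableEq ι]
    (I : Finset ι) {i₁ : ι} (hi₁ : i₁ ∈ I) (κ : ℕ) (hκ : κ ≤ p)
    (a : ι → ℕ) (u v : ι → Ω → Pt n → Fin n → ℝ) (G : Ω → Pt n → ℝ) (c : Wt →₀ ℝ)
    (hu : ∀ i ω, GoodV (u i ω)) (hv : ∀ i ω, GoodV (v i ω)) (hG : ∀ ω, PG (G ω))
    (hc : ∀ ν ∈ c.support, ∑ i ∈ I, a i + dg ν ≤ κ) (hA : a i₁ + ∑ k ∈ I.erase i₁, a k ≤ κ)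
    (b : ℕ) (hb : b < a i₁) (hI : WClaim n p Ω I (κ - (a i₁ + 1 - b))) :
    Bd (fun g => ∑ ω, G ω g * Ev (ErrQ ((chebM (Jh g) (a i₁ - 1 - b)).mulVec (u i₁ ω g)) (v i₁ ω g) b
        ((∏ k ∈ I.erase i₁, Xf (u k ω g) (v k ω g) (a k)) * Sc n c)) g)
      (9 * (κ : ℝ) ^ 3 * (((a i₁ - 1 - b : ℕ) : ℝ) + 1) *
        (2 * 2 ^ I.card * (∏ k ∈ I.erase i₁, ((a k : ℝ) + 1)) * nrm c * AA p κ G) / n) := by
  have hn' : (0 : ℝ) < n := Nat.cast_pos.mpr hn
  have hA1 : a i₁ ≤ κ := le_trans (Nat.le_add_right _ _) hA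
  set d : ℕ := a i₁ - 1 - b with hd
  set κb : ℕ := κ - (a i₁ + 1 - b) with hκb
  set J : Finset ι := I.erase i₁ with hJ
  set Pi' : ℝ := ∏ k ∈ J, ((a k : ℝ) + 1) with hPi
  set X : ℝ := AA p κ G with hX
  set W : ℝ := 2 * 2 ^ I.card * Pi' * nrm c * X with hW
  have hPi0 : 0 ≤ Pi' := Finset.prod_nonneg fun _ _ => by positivity
  have hX0 : 0 ≤ X := AA_nonneg _ _ _
  have hW0 : 0 ≤ W := by
    have := nrm_nonneg' c
    positivity
  set R : ℝ := ((d : ℝ) + 1) * W with hR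
  have hR0 : 0 ≤ R := by positivity
  let x : Ω → Pt n → Fin n → ℝ := fun ω => uS p d (u i₁ ω)
  let Gt : Ω → Pt n → ℝ := fun ω g => G ω g * fw p d g
  have hx : ∀ ω, GoodV (x ω) := fun ω => GoodV_uS hp1 (by omega) (hu i₁ ω)
  have hGt : ∀ ω, PG (Gt ω) := fun ω => (hG ω).mul (PG_fw hp1 d)
  have hAb : AA p κb Gt ≤ ((d : ℝ) + 1) * X := by
    refine AA_scale hp1 ((d : ℝ) + 1) d κ κb (by positivity) hG hGt (fun ω g => ?_) (by omega)
    have hf := fw_pos p d g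
    simp only [Gt]
    rw [abs_mul, abs_of_pos hf, mul_comm]
    rfl
  have hAb0 : 0 ≤ AA p κb Gt := AA_nonneg _ _ _
  -- the induction hypothesis in a convenient form
  have TB : ∀ (A' : ι → ℕ) (U V : ι → Ω → Pt n → Fin n → ℝ) (c' : Wt →₀ ℝ) (P N : ℝ),
      0 ≤ P → 0 ≤ N → (∀ i ω, GoodV (U i ω)) → (∀ i ω, GoodV (V i ω)) →
      (∀ ν ∈ c'.support, ∑ i ∈ I, A' i + dg ν ≤ κb) →
      ∏ k ∈ I, ((A' k : ℝ) + 1) ≤ P * Pi' → nrm c' ≤ N * nrm c →
      Bd (FT I A' U V Gt c') (P * N * R) := by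
    intro A' U V c' P N hP hN hU hV hc' hprod hnrm
    refine ⟨PG_FT I A' U V Gt c' hU hV hGt, (hI A' U V Gt c' hU hV hGt hc').trans ?_⟩
    have h0 : 0 ≤ ∏ k ∈ I, ((A' k : ℝ) + 1) := Finset.prod_nonneg fun _ _ => by positivity
    have h1 : 0 ≤ nrm c' := nrm_nonneg' c'
    have h2 := nrm_nonneg' c
    calc 2 * 2 ^ I.card * (∏ k ∈ I, ((A' k : ℝ) + 1)) * nrm c' * AA p κb Gt
        ≤ 2 * 2 ^ I.card * (P * Pi') * (N * nrm c) * (((d : ℝ) + 1) * X) := by
          gcongr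
      _ = P * N * R := by rw [hR, hW]; ring
  have hS : ∀ ν ∈ c.support, a i₁ + ∑ k ∈ J, a k + dg ν ≤ κ := by
    intro ν hν
    have := hc ν hν
    rwa [← Finset.add_sum_erase I a hi₁] at this
  have hκ1 : (1 : ℝ) ≤ κ := by
    have : 1 ≤ κ := by omega
    exact_mod_cast this
  have hsq : Real.sqrt (2 * (κ : ℝ)) ≤ 2 * κ :=
    Real.sqrt_le_iff.mpr ⟨by linarith, by nlinarith⟩
  let U1 : ι → Ω → Pt n → Fin n → ℝ := Function.update u i₁ x
  have hU1 : ∀ i ω, GoodV (U1 i ω) := good_upd hu i₁ hx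
  have hκ0 : (0 : ℝ) ≤ κ := by linarith
  have hbκ : ((b : ℝ) + 1) ≤ κ := by
    have : b + 1 ≤ κ := by omega
    exact_mod_cast this
  -- T1
  have hT1 : Bd (fun g => ((b : ℝ) / n) * FT I (Function.update a i₁ (b - 1)) U1 v Gt c g)
      (((b : ℝ) / n) * ((b : ℝ) * 1 * R)) := by
    rcases Nat.eq_zero_or_pos b with hb0 | hb0
    · refine ⟨(PG.const _).mul (PG_FT I _ U1 v Gt c hU1 hv hGt), ?_⟩
      simp [hb0]
    · refine Bd.const_mul' (by positivity) (TB _ U1 v c _ _ (by positivity) (by norm_num) hU1 hv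
        (fun ν hν => ?_) ?_ (by simp))
      · have := hS ν hν
        rw [sum_one hi₁, ← hJ]
        omega
      · rw [prod_one_num hi₁]
        have : ((b - 1 : ℕ) : ℝ) + 1 = b := by
          have h1 : b - 1 + 1 = b := by omega
          exact_mod_cast h1
        rw [this]
  -- T2
  have hT2 : Bd (fun g => (1 / (n : ℝ)) * ∑ j ∈ Finset.range (b - 1),
        FT I (Function.update a i₁ (b - 2 - j)) U1 v Gt (up j c) g)
      ((1 / (n : ℝ)) * ∑ _j ∈ Finset.range (b - 1), ((κ : ℝ) * (2 * κ) * R)) := by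
    refine Bd.const_mul' (by positivity) (Bd.sum _ fun j hj => ?_)
    have hj' := Finset.mem_range.mp hj
    refine TB _ U1 v _ _ _ hκ0 (by positivity) hU1 hv (fun μ hμ => ?_) ?_ ?_
    · obtain ⟨ν, hν, rfl⟩ := support_up j c hμ
      have := hS ν hν
      rw [sum_one hi₁, dg_cons, ← hJ]
      omega
    · rw [prod_one_num hi₁]
      refine mul_le_mul_of_nonneg_right ?_ hPi0
      have : b - 2 - j + 1 ≤ κ := by omega
      exact_mod_cast this
    · refine (nrm_up_le j c κ fun ν hν => ?_).trans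
        (mul_le_mul_of_nonneg_right hsq (nrm_nonneg' c))
      have := hS ν hν
      omega
  -- T3
  have hL : ∀ ν ∈ c.support, ∀ ℓ ∈ ν, ℓ < κ := by
    intro ν hν ℓ hℓ
    have h1 := hS ν hν
    have h2 : dg ν = ℓ + 1 + dg (ν.erase ℓ) := by
      rw [← dg_cons, Multiset.cons_erase hℓ]
    omega
  have hT3 : Bd (fun g => (1 / (n : ℝ)) * ∑ ℓ ∈ Finset.range κ,
        FT I (Function.update a i₁ (ℓ + b)) U1 v Gt (down ℓ c) g)
      ((1 / (n : ℝ)) * ∑ _ℓ ∈ Finset.range κ, ((2 * (κ : ℝ)) * (2 * κ) * R)) := by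
    refine Bd.const_mul' (by positivity) (Bd.sum _ fun ℓ hℓ => ?_)
    have hℓ' := Finset.mem_range.mp hℓ
    refine TB _ U1 v _ _ _ (by positivity) (by positivity) hU1 hv (fun μ hμ => ?_) ?_ ?_
    · obtain ⟨ν, hν, hmem, rfl⟩ := support_down ℓ c hμ
      have h1 := hS ν hν
      have h2 : dg ν = ℓ + 1 + dg (ν.erase ℓ) := by
        rw [← dg_cons, Multiset.cons_erase hmem]
      rw [sum_one hi₁, ← hJ]
      omega
    · rw [prod_one_num hi₁]
      refine mul_le_mul_of_nonneg_right ?_ hPi0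
      have : ℓ + b + 1 ≤ 2 * κ := by omega
      exact_mod_cast this
    · refine (nrm_down_le ℓ c κ fun ν hν => ?_).trans
        (mul_le_mul_of_nonneg_right hsq (nrm_nonneg' c))
      have := hS ν hν
      omega
  -- T4
  have hT4 : Bd (fun g => (1 / (n : ℝ)) * ∑ i ∈ J, ∑ r ∈ Finset.range (a i),
        (FT I (Function.update (Function.update a i₁ r) i (b + (a i - 1 - r)))
            (Function.update U1 i (v i₁)) (Function.update v i₁ (u i)) Gt c g
         + FT I (Function.update (Function.update a i₁ (a i - 1 - r)) i (r + b))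
            U1 (Function.update (Function.update v i₁ (v i)) i (v i₁)) Gt c g))
      ((1 / (n : ℝ)) * ∑ i ∈ J, ∑ _r ∈ Finset.range (a i),
        ((κ : ℝ) * 1 * R + (κ : ℝ) * 1 * R)) := by
    refine Bd.const_mul' (by positivity) (Bd.sum _ fun i hi => Bd.sum _ fun r hr => ?_)
    have hr' := Finset.mem_range.mp hr
    have hsum := Finset.add_sum_erase J a hi
    have hprd := Finset.mul_prod_erase J (fun k => (a k : ℝ) + 1) hi
    have hE : 0 ≤ ∏ k ∈ J.erase i, ((a k : ℝ) + 1) := Finset.prod_nonneg fun _ _ => by positivity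
    refine Bd.add ?_ ?_
    · refine TB _ _ _ c _ _ hκ0 (by norm_num) (good_upd hU1 i (hv i₁)) (good_upd hv i₁ (hu i))
        (fun ν hν => ?_) ?_ (by simp)
      · have := hS ν hν
        rw [sum_two hi₁ hi, ← hJ]
        omega
      · rw [prod_two_num hi₁ hi, hPi, ← hprd]
        have h1 : (r : ℝ) + 1 ≤ (a i : ℝ) + 1 := by
          have : r ≤ a i := by omega
          have : (r : ℝ) ≤ a i := by exact_mod_cast this
          linarith
        have h2 : ((b + (a i - 1 - r) : ℕ) : ℝ) + 1 ≤ κ := by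
          have : b + (a i - 1 - r) + 1 ≤ κ := by omega
          exact_mod_cast this
        calc _ = ((r : ℝ) + 1) * (((b + (a i - 1 - r) : ℕ) : ℝ) + 1) *
              ∏ k ∈ J.erase i, ((a k : ℝ) + 1) := by ring
          _ ≤ ((a i : ℝ) + 1) * κ * ∏ k ∈ J.erase i, ((a k : ℝ) + 1) := by gcongr
          _ = _ := by ring
    · refine TB _ _ _ c _ _ hκ0 (by norm_num) hU1
        (good_upd (good_upd hv i₁ (hv i)) i (hv i₁)) (fun ν hν => ?_) ?_ (by simp)
      · have := hS ν hν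
        rw [sum_two hi₁ hi, ← hJ]
        omega
      · rw [prod_two_num hi₁ hi, hPi, ← hprd]
        have h1 : ((a i - 1 - r : ℕ) : ℝ) + 1 ≤ (a i : ℝ) + 1 := by
          have : a i - 1 - r ≤ a i := by omega
          have : ((a i - 1 - r : ℕ) : ℝ) ≤ a i := by exact_mod_cast this
          linarith
        have h2 : ((r + b : ℕ) : ℝ) + 1 ≤ κ := by
          have : r + b + 1 ≤ κ := by omega
          exact_mod_cast this
        calc _ = (((a i - 1 - r : ℕ) : ℝ) + 1) * (((r + b : ℕ) : ℝ) + 1) *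
              ∏ k ∈ J.erase i, ((a k : ℝ) + 1) := by ring
          _ ≤ ((a i : ℝ) + 1) * κ * ∏ k ∈ J.erase i, ((a k : ℝ) + 1) := by gcongr
          _ = _ := by ring
  have hcomb := ((hT1.add hT2).add hT3).add hT4
  have hrew : ∀ g, ∑ ω, G ω g * Ev (ErrQ ((chebM (Jh g) d).mulVec (u i₁ ω g)) (v i₁ ω g) b
        ((∏ k ∈ J, Xf (u k ω g) (v k ω g) (a k)) * Sc n c)) g =
      ∑ ω, Gt ω g * Ev (ErrQ (x ω g) (v i₁ ω g) b
        ((∏ k ∈ J, Xf (u k ω g) (v k ω g) (a k)) * Sc n c)) g := by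
    intro g
    refine Finset.sum_congr rfl fun ω _ => ?_
    rw [uS_scale p d (u i₁ ω) g, ErrQ_smul, Ev_C_mul]
    simp only [Gt, x]
    ring
  refine (hcomb.congr fun g => ?_).mono ?_
  · rw [hrew g]
    exact err_phi hn hi₁ a u v x b c κ hL Gt g
  · simp only [Finset.sum_const, Finset.card_range, nsmul_eq_mul, ← Finset.sum_mul]
    have hSn : ∑ k ∈ J, (a k : ℝ) ≤ κ := by
      have : ∑ k ∈ J, a k ≤ κ := by omega
      exact_mod_cast this
    have hSn0 : (0 : ℝ) ≤ ∑ k ∈ J, (a k : ℝ) := Finset.sum_nonneg fun _ _ => Nat.cast_nonneg _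
    generalize (∑ k ∈ J, (a k : ℝ)) = Sr at hSn hSn0 ⊢
    have hb1 : ((b - 1 : ℕ) : ℝ) ≤ κ := by
      have : b - 1 ≤ κ := by omega
      exact_mod_cast this
    have hb10 : (0 : ℝ) ≤ ((b - 1 : ℕ) : ℝ) := Nat.cast_nonneg _
    have hb0 : (0 : ℝ) ≤ (b : ℝ) := Nat.cast_nonneg _
    have hb2 : (b : ℝ) ≤ κ := by linarith
    have hkey : (b : ℝ) * b + ((b - 1 : ℕ) : ℝ) * (2 * ((κ : ℝ) * κ)) + 4 * (κ : ℝ) ^ 3 +
        2 * Sr * κ ≤ 9 * (κ : ℝ) ^ 3 := by
      have hkk : (κ : ℝ) * κ ≤ (κ : ℝ) ^ 3 := by nlinarith [mul_nonneg hκ0 hκ0]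
      have h1 : (b : ℝ) * b ≤ (κ : ℝ) ^ 3 :=
        (mul_le_mul hb2 hb2 hb0 hκ0).trans hkk
      have h2 : ((b - 1 : ℕ) : ℝ) * (2 * ((κ : ℝ) * κ)) ≤ 2 * (κ : ℝ) ^ 3 := by
        have := mul_le_mul_of_nonneg_right hb1 (mul_nonneg hκ0 hκ0)
        nlinarith
      have h3 : 2 * Sr * κ ≤ 2 * (κ : ℝ) ^ 3 := by
        have := mul_le_mul_of_nonneg_right hSn hκ0
        nlinarith
      linarith
    have hRn : 0 ≤ R / n := by positivity
    have e1 : ((b : ℝ) / n) * ((b : ℝ) * 1 * R) + (1 / (n : ℝ)) * (((b - 1 : ℕ) : ℝ) * ((κ : ℝ) * (2 * κ) * R))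
        + (1 / (n : ℝ)) * ((κ : ℝ) * ((2 * (κ : ℝ)) * (2 * κ) * R))
        + (1 / (n : ℝ)) * (Sr * ((κ : ℝ) * 1 * R + (κ : ℝ) * 1 * R)) =
        (R / n) * ((b : ℝ) * b + ((b - 1 : ℕ) : ℝ) * (2 * ((κ : ℝ) * κ)) + 4 * (κ : ℝ) ^ 3 +
        2 * Sr * κ) := by
      field_simp
      ring
    have e2 : 9 * (κ : ℝ) ^ 3 * ((d : ℝ) + 1) * W / n = (R / n) * (9 * (κ : ℝ) ^ 3) := by
      rw [hR]; ring
    rw [e1, e2]
    exact mul_le_mul_of_nonneg_left hkey hRn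

/-- The induction step. -/
theorem WClaim_step (hn : 0 < n) {p : ℕ} (hp1 : 1 ≤ p) (hp : 1000 * (p + 1) ^ 6 ≤ n)
    {Ω ι : Type} [Fintype Ω] [DecidableEq ι]
    (I : Finset ι) {i₁ : ι} (hi₁ : i₁ ∈ I) (κ : ℕ) (hκ : κ ≤ p)
    (hJ : ∀ κ' ≤ κ, WClaim n p Ω (I.erase i₁) κ') (hI : ∀ κ' < κ, WClaim n p Ω I κ') :
    WClaim n p Ω I κ := by
  intro a u v G c hu hv hG hc
  have hn' : (0 : ℝ) < n := Nat.cast_pos.mpr hn
  have hPi0 : 0 ≤ ∏ k ∈ I.erase i₁, ((a k : ℝ) + 1) := Finset.prod_nonneg fun _ _ => by positivity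
  have hPiI : 0 ≤ ∏ k ∈ I, ((a k : ℝ) + 1) := Finset.prod_nonneg fun _ _ => by positivity
  have hc0 := nrm_nonneg' c
  have hX0 : 0 ≤ AA p κ G := AA_nonneg _ _ _
  -- the trivial case
  by_cases hsupp : c.support = ∅
  · have hc00 : c = 0 := Finsupp.support_eq_empty.mp hsupp
    have hS0 : Sc n c = 0 := by simp [hc00, Sc]
    have hF : ∀ g, FT I a u v G c g = 0 := by
      intro g
      simp [FT, hS0]
    simp only [hF, integral_zero, abs_zero]
    positivity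
  obtain ⟨ν₀, hν₀⟩ := Finset.nonempty_iff_ne_empty.mpr hsupp
  have hA : a i₁ + ∑ k ∈ I.erase i₁, a k ≤ κ := by
    have := hc ν₀ hν₀
    rw [← Finset.add_sum_erase I a hi₁] at this
    omega
  have hA1 : a i₁ ≤ κ := le_trans (Nat.le_add_right _ _) hA
  have hAp : a i₁ ≤ p := hA1.trans hκ
  -- main term
  let G' : Ω → Pt n → ℝ := fun ω => mainG (a i₁) (u i₁ ω) (v i₁ ω) (G ω)
  have hG' : ∀ ω, PG (G' ω) := fun ω => mainG_PG hn hp1 hAp (hu i₁ ω) (hv i₁ ω) (hG ω)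
  have hAA' : AA p (κ - a i₁) G' ≤ ((a i₁ : ℝ) + 1) * AA p κ G :=
    AA_scale hp1 _ (a i₁) κ _ (by positivity) hG hG'
      (fun ω g => mainG_le hn hp1 hAp (hu i₁ ω) (hv i₁ ω) g) (by omega)
  have hmain : Bd (FT (I.erase i₁) a u v G' c)
      (2 * 2 ^ (I.erase i₁).card * (∏ k ∈ I.erase i₁, ((a k : ℝ) + 1)) * nrm c * AA p (κ - a i₁) G') := by
    refine ⟨PG_FT _ a u v G' c hu hv hG', hJ _ (by omega) a u v G' c hu hv hG' fun ν hν => ?_⟩
    have := hc ν hν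
    rw [← Finset.add_sum_erase I a hi₁] at this
    omega
  set W : ℝ := 2 * 2 ^ I.card * (∏ k ∈ I.erase i₁, ((a k : ℝ) + 1)) * nrm c * AA p κ G with hW
  have hW0 : 0 ≤ W := by positivity
  have hcard : 2 ^ I.card = 2 * (2 : ℝ) ^ (I.erase i₁).card := by
    rw [← Finset.card_erase_add_one hi₁, pow_succ]
    ring
  have hmain' : 2 * 2 ^ (I.erase i₁).card * (∏ k ∈ I.erase i₁, ((a k : ℝ) + 1)) * nrm c *
      AA p (κ - a i₁) G' ≤ ((a i₁ : ℝ) + 1) * W / 2 := by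
    calc _ ≤ 2 * 2 ^ (I.erase i₁).card * (∏ k ∈ I.erase i₁, ((a k : ℝ) + 1)) * nrm c *
          (((a i₁ : ℝ) + 1) * AA p κ G) := by gcongr
      _ = _ := by rw [hW, hcard]; ring
  -- errors
  have herr : Bd (fun g => ∑ b ∈ Finset.range (a i₁), ∑ ω, G ω g * Ev (ErrQ
        ((chebM (Jh g) (a i₁ - 1 - b)).mulVec (u i₁ ω g)) (v i₁ ω g) b
        ((∏ k ∈ I.erase i₁, Xf (u k ω g) (v k ω g) (a k)) * Sc n c)) g)
      (∑ b ∈ Finset.range (a i₁), 9 * (κ : ℝ) ^ 3 * (((a i₁ - 1 - b : ℕ) : ℝ) + 1) * W / n) := by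
    refine Bd.sum _ fun b hb => ?_
    have hb' := Finset.mem_range.mp hb
    exact err_bound hn hp1 I hi₁ κ hκ a u v G c hu hv hG hc hA b hb' (hI _ (by omega))
  have herr' : ∑ b ∈ Finset.range (a i₁), 9 * (κ : ℝ) ^ 3 * (((a i₁ - 1 - b : ℕ) : ℝ) + 1) * W / n ≤
      ((a i₁ : ℝ) + 1) * W / 2 := by
    have hκn : 18 * (κ : ℝ) ^ 4 ≤ n := by
      have h1 : κ ^ 4 ≤ (p + 1) ^ 6 :=
        (Nat.pow_le_pow_left (by omega) 4).trans (Nat.pow_le_pow_right (by omega) (by norm_num))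
      have h2 : 18 * κ ^ 4 ≤ n := by
        generalize (p + 1) ^ 6 = P at *
        omega
      exact_mod_cast h2
    have hκ0 : (0 : ℝ) ≤ κ := Nat.cast_nonneg _
    have hAκ : (a i₁ : ℝ) ≤ κ := by exact_mod_cast hA1
    have hQ : 0 ≤ 9 * (κ : ℝ) ^ 3 * ((a i₁ : ℝ) + 1) * W / n := by positivity
    calc _ ≤ ∑ _b ∈ Finset.range (a i₁), 9 * (κ : ℝ) ^ 3 * ((a i₁ : ℝ) + 1) * W / n := by
          refine Finset.sum_le_sum fun b _ => ?_
          have : ((a i₁ - 1 - b : ℕ) : ℝ) ≤ a i₁ := by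
            have : a i₁ - 1 - b ≤ a i₁ := by omega
            exact_mod_cast this
          gcongr
      _ = (a i₁ : ℝ) * (9 * (κ : ℝ) ^ 3 * ((a i₁ : ℝ) + 1) * W / n) := by
          simp [Finset.sum_const]
      _ ≤ (κ : ℝ) * (9 * (κ : ℝ) ^ 3 * ((a i₁ : ℝ) + 1) * W / n) :=
          mul_le_mul_of_nonneg_right hAκ hQ
      _ = (18 * (κ : ℝ) ^ 4 / n) * (((a i₁ : ℝ) + 1) * W / 2) := by
          field_simp
          ring
      _ ≤ 1 * (((a i₁ : ℝ) + 1) * W / 2) := by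
          refine mul_le_mul_of_nonneg_right ?_ (by positivity)
          exact (div_le_one hn').mpr hκn
      _ = _ := one_mul _
  have hfin := (hmain.sub herr).congr (F' := FT I a u v G c) (FT_decomp hn I hi₁ a u v G c)
  refine hfin.2.trans ?_
  have e : 2 * 2 ^ I.card * (∏ k ∈ I, ((a k : ℝ) + 1)) * nrm c * AA p κ G = ((a i₁ : ℝ) + 1) * W := by
    rw [hW, ← Finset.mul_prod_erase I (fun k => (a k : ℝ) + 1) hi₁]
    ring
  rw [e]
  linarith

end Vale.Agent.Lib.P146
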