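import Vale.Agent.Lib.P146.Cheb
import Vale.Agent.Lib.P146.LemWE

/-! Module F: Lemma W, the dual spectral bound for products of forms. -/

set_option autoImplicit false
open MeasureTheory MvPolynomial

namespace Vale.Agent.Lib.P146

variable {n : ℕ}

/-- Lemma W. The test functions `G ω` and the vector fields are arbitrary measurable
with the given bounds; the vector fields are frozen at `g` inside `Ev`. -/
theorem lemmaW (hn : 0 < n) {p K : ℕ} (hp1 : 1 ≤ p) (hKp : K ≤ p) (hp : 1000 * (p + 1) ^ 6 ≤ n)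
    {Ω ι : Type} [Fintype Ω] [DecidableEq ι]
    (κ : ℕ) (hκ : κ ≤ K) (I : Finset ι) (a : ι → ℕ)
    (u v : ι → Ω → Pt n → Fin n → ℝ) (G : Ω → Pt n → ℝ) (c : Wt →₀ ℝ)
    (hum : ∀ i ω x, Measurable fun g => u i ω g x)
    (hvm : ∀ i ω x, Measurable fun g => v i ω g x)
    (hun : ∀ i ω g, ∑ x, (u i ω g x) ^ 2 ≤ n)
    (hvn : ∀ i ω g, ∑ x, (v i ω g x) ^ 2 ≤ n)
    (hG : ∀ ω, PG (G ω))
    (hc : ∀ ν ∈ c.support, ∑ i ∈ I, a i + dg ν ≤ κ) :
    |∫ g, ∑ ω, G ω g * Ev ((∏ i ∈ I, Xf (u i ω g) (v i ω g) (a i)) * Sc n c) g ∂gam n| ≤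
      2 * 2 ^ I.card * (∏ i ∈ I, ((a i : ℝ) + 1)) * nrm c *
        Real.sqrt (∫ g, (∑ ω, |G ω g|) ^ 2 * rhoH p g ^ (2 * κ) ∂gam n) := by
  have hall : ∀ (m κ : ℕ) (I : Finset ι), κ + I.card = m → κ ≤ p → WClaim n p Ω I κ := by
    intro m
    induction m using Nat.strong_induction_on with
    | _ m ih =>
      intro κ I hm hκp
      rcases I.eq_empty_or_nonempty with hI | ⟨i₁, hi₁⟩
      · subst hI
        intro a u v G c _ _ hG hc
        have := lemmaW_base hn hp1 hp κ hκp G c hG (fun ν hν => by simpa using hc ν hν) a u v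
        simpa using this
      · have hcard : (I.erase i₁).card + 1 = I.card := Finset.card_erase_add_one hi₁
        refine WClaim_step hn hp1 hp I hi₁ κ hκp (fun κ' hκ' => ?_) (fun κ' hκ' => ?_)
        · exact ih (κ' + (I.erase i₁).card) (by omega) κ' _ rfl (hκ'.trans hκp)
        · exact ih (κ' + I.card) (by omega) κ' _ rfl (hκ'.le.trans hκp)
  exact hall _ κ I rfl (hκ.trans hKp) a u v G c
    (fun i ω => ⟨hum i ω, hun i ω⟩) (fun i ω => ⟨hvm i ω, hvn i ω⟩) hG hc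

end Vale.Agent.Lib.P146
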