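import Vale.Agent.Lib.P146.Defs

/-! Module I: kernel reduction of chain patterns. -/

set_option autoImplicit false
open MvPolynomial

namespace Vale.Agent.Lib.P146

/-- Closed vertex sets of a chain pattern. -/
def ClosedC {V : Type} (E : List (V × V × ℕ)) (S : Finset V) : Prop :=
  ∀ e ∈ E, e.1 ∈ S ↔ e.2.1 ∈ S

/-- No pure cycle component. -/
def NCc {V : Type} [DecidableEq V] (E : List (V × V × ℕ)) : Prop :=
  ∀ S : Finset V, S.Nonempty → ClosedC E S → ∃ v ∈ S, degC E v ≠ 2

theorem TT_symmR {n : ℕ} (x y : Fin n) : TT n x y = TT n y x := by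
  have h : cc x y = cc y x := by
    unfold cc; by_cases h : x = y
    · subst h; rfl
    · rw [if_neg h, if_neg (Ne.symm h)]
  simp only [TT, Matrix.of_apply, h, Sym2.eq_swap]

theorem TT_pow_symmR {n : ℕ} (a : ℕ) (x y : Fin n) : (TT n ^ a) x y = (TT n ^ a) y x := by
  have h : (TT n).transpose = TT n := by
    ext1 x y; simp only [Matrix.transpose_apply]; exact TT_symmR y x
  have h2 : ((TT n) ^ a).transpose = TT n ^ a := by
    rw [Matrix.transpose_pow, h]
  conv_lhs => rw [← h2]
  rfl

/-- The degree is the sum over the list. -/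
theorem degC_cons {V : Type} [DecidableEq V] (e : V × V × ℕ) (E : List (V × V × ℕ)) (v : V) :
    degC (e :: E) v = (if e.1 = v then 1 else 0) + (if e.2.1 = v then 1 else 0) + degC E v := by
  simp [degC]

theorem degC_perm {V : Type} [DecidableEq V] {E E' : List (V × V × ℕ)} (h : E.Perm E') (v : V) :
    degC E v = degC E' v := by
  unfold degC
  exact (h.map _).sum_eq

/-- Counting in a kernel. -/
theorem sum_degC {V : Type} [Fintype V] [DecidableEq V] (E : List (V × V × ℕ)) :
    ∑ v, degC E v = 2 * E.length := by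
  induction E with
  | nil => simp [degC]
  | cons e E ih =>
    simp only [degC_cons, Finset.sum_add_distrib, ih, List.length_cons]
    simp
    ring

theorem kernel_count {V : Type} [Fintype V] [DecidableEq V] (E : List (V × V × ℕ))
    (h : ∀ v, 4 ≤ degC E v) : 2 * Fintype.card V ≤ E.length := by
  have h1 : ∑ _v : V, 4 ≤ ∑ v, degC E v := Finset.sum_le_sum fun v _ => h v
  rw [sum_degC] at h1
  simp at h1
  omega

/-- Edges touching `z`. -/
def touch {V : Type} [DecidableEq V] (z : V) (e : V × V × ℕ) : Bool :=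
  decide (e.1 = z) || decide (e.2.1 = z)

theorem length_filter_touch {V : Type} [DecidableEq V] (z : V) (E : List (V × V × ℕ))
    (hNL : ∀ e ∈ E, ¬ (e.1 = z ∧ e.2.1 = z)) :
    (E.filter (touch z)).length = degC E z := by
  induction E with
  | nil => simp [degC]
  | cons e E ih =>
    have h1 := ih fun e' he' => hNL e' (List.mem_cons_of_mem _ he')
    have h2 := hNL e List.mem_cons_self
    rw [degC_cons, ← h1]
    by_cases h3 : e.1 = z <;> by_cases h4 : e.2.1 = z
    · exact absurd ⟨h3, h4⟩ h2
    · simp [List.filter_cons, touch, h3, h4]; omega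
    · simp [List.filter_cons, touch, h3, h4]; omega
    · simp [List.filter_cons, touch, h3, h4]

/-- Decomposition of a pattern at a vertex of degree two without loop. -/
theorem decomp_two {V : Type} [DecidableEq V] (z : V) (E : List (V × V × ℕ))
    (hNL : ∀ e ∈ E, ¬ (e.1 = z ∧ e.2.1 = z)) (h2 : degC E z = 2) :
    ∃ (a b : V) (k l : ℕ) (e1 e2 : V × V × ℕ) (rest : List (V × V × ℕ)),
      E.Perm (e1 :: e2 :: rest) ∧ a ≠ z ∧ b ≠ z ∧
      (e1 = (a, z, k) ∨ e1 = (z, a, k)) ∧ (e2 = (z, b, l) ∨ e2 = (b, z, l)) ∧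
      ∀ e ∈ rest, e.1 ≠ z ∧ e.2.1 ≠ z := by
  have h3 := length_filter_touch z E hNL
  rw [h2] at h3
  obtain ⟨e1, e2, h4⟩ := List.length_eq_two.mp h3
  have hp : (E.filter (touch z) ++ E.filter (fun x => !touch z x)).Perm E :=
    List.filter_append_perm _ _
  rw [h4] at hp
  have he1 : e1 ∈ E.filter (touch z) := by rw [h4]; simp
  have he2 : e2 ∈ E.filter (touch z) := by rw [h4]; simp
  rw [List.mem_filter] at he1 he2
  have key : ∀ e : V × V × ℕ, e ∈ E → touch z e = true →
      ∃ a, a ≠ z ∧ (e = (a, z, e.2.2) ∨ e = (z, a, e.2.2)) := by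
    rintro ⟨x, y, m⟩ he ht
    have hnl := hNL _ he
    simp only [touch, Bool.or_eq_true, decide_eq_true_eq] at ht hnl
    rcases ht with ht | ht
    · refine ⟨y, ?_, Or.inr ?_⟩
      · intro h; exact hnl ⟨ht, h⟩
      · subst ht; rfl
    · refine ⟨x, ?_, Or.inl ?_⟩
      · intro h; exact hnl ⟨h, ht⟩
      · subst ht; rfl
  obtain ⟨a, ha, h5⟩ := key e1 he1.1 he1.2
  obtain ⟨b, hb, h6⟩ := key e2 he2.1 he2.2
  refine ⟨a, b, e1.2.2, e2.2.2, e1, e2, E.filter (fun x => !touch z x), hp.symm, ha, hb, h5,
    h6.symm, ?_⟩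
  intro e he
  rw [List.mem_filter] at he
  have := he.2
  simp only [touch, Bool.not_eq_true', Bool.or_eq_false_iff, decide_eq_false_iff_not] at this
  exact this

theorem contrib_le {V : Type} [DecidableEq V] {e : V × V × ℕ} {E : List (V × V × ℕ)}
    (he : e ∈ E) (v : V) :
    (if e.1 = v then 1 else 0) + (if e.2.1 = v then 1 else 0) ≤ degC E v := by
  induction E with
  | nil => simp at he
  | cons e' E ih =>
    rw [degC_cons]
    rcases List.mem_cons.mp he with h | h
    · subst h; omega
    · have := ih h; omega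

/-- No loop at a vertex of degree two, by the no-pure-cycle condition. -/
theorem no_loop {V : Type} [DecidableEq V] {E : List (V × V × ℕ)} (hNC : NCc E) {z : V}
    (hz : degC E z = 2) : ∀ e ∈ E, ¬ (e.1 = z ∧ e.2.1 = z) := by
  rintro e he ⟨h1, h2⟩
  have hcl : ClosedC E {z} := by
    intro e' he'
    simp only [Finset.mem_singleton]
    by_contra hne
    have hee : e' ≠ e := by
      rintro rfl
      exact hne (by simp [h1, h2])
    have hp := List.perm_cons_erase he
    have hm : e' ∈ E.erase e := (List.mem_erase_of_ne hee).mpr he'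
    have h3 := contrib_le hm z
    have h4 := degC_perm hp z
    rw [degC_cons, h1, h2] at h4
    simp only [if_true] at h4
    have : (if e'.1 = z then 1 else 0) + (if e'.2.1 = z then 1 else 0) ≥ 1 := by
      by_cases h5 : e'.1 = z
      · simp [h5]
      · have h6 : e'.2.1 = z := by
          by_contra h6
          exact hne (iff_of_false h5 h6)
        simp [h6]
    omega
  obtain ⟨v, hv, hd⟩ := hNC {z} (Finset.singleton_nonempty z) hcl
  rw [Finset.mem_singleton] at hv
  subst hv
  exact hd hz

theorem Pc_perm {V : Type} [Fintype V] [DecidableEq V] {E E' : List (V × V × ℕ)} (h : E.Perm E')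
    (n : ℕ) : Pc n V E = Pc n V E' := by
  unfold Pc
  refine Finset.sum_congr rfl fun lam _ => ?_
  exact (h.map _).prod_eq

section Step

variable {V : Type} [DecidableEq V]

/-- Lowering to the subtype. -/
def low (z a0 : V) (ha : a0 ≠ z) (v : V) : {v // v ≠ z} :=
  if h : v ≠ z then ⟨v, h⟩ else ⟨a0, ha⟩

theorem low_val {z a0 : V} {ha : a0 ≠ z} {v : V} (h : v ≠ z) : (low z a0 ha v).1 = v := by
  simp [low, h]

theorem low_eq_iff {z a0 : V} {ha : a0 ≠ z} {v : V} (h : v ≠ z) (w : {v // v ≠ z}) :
    low z a0 ha v = w ↔ v = w.1 := by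
  rw [Subtype.ext_iff, low_val h]

/-- The edge map. -/
def lowE (z a0 : V) (ha : a0 ≠ z) (e : V × V × ℕ) : {v // v ≠ z} × {v // v ≠ z} × ℕ :=
  (low z a0 ha e.1, low z a0 ha e.2.1, e.2.2)

theorem degC_lowE {z a0 : V} {ha : a0 ≠ z} (rest : List (V × V × ℕ))
    (hr : ∀ e ∈ rest, e.1 ≠ z ∧ e.2.1 ≠ z) (w : {v // v ≠ z}) :
    degC (rest.map (lowE z a0 ha)) w = degC rest w.1 := by
  induction rest with
  | nil => simp [degC]
  | cons e rest ih =>
    rw [List.map_cons, degC_cons, degC_cons, ih fun e' he' => hr e' (List.mem_cons_of_mem _ he')]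
    have h := hr e List.mem_cons_self
    simp only [lowE, low_eq_iff h.1, low_eq_iff h.2]

end Step

/-- The contraction of a vertex of degree two. -/
theorem contract_step {V : Type} [Fintype V] [DecidableEq V] (E : List (V × V × ℕ))
    (hNC : NCc E) (z : V) (hz : degC E z = 2) :
    ∃ E' : List ({v // v ≠ z} × {v // v ≠ z} × ℕ),
      (∀ n, Pc n {v // v ≠ z} E' = Pc n V E) ∧ E'.length + 1 = E.length ∧
      ((E'.map fun e => e.2.2 + 1).sum = (E.map fun e => e.2.2 + 1).sum) ∧
      (∀ w, degC E' w = degC E w.1) ∧ NCc E' ∧ Nonempty {v // v ≠ z} := by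
  obtain ⟨a, b, k, l, e1, e2, rest, hp, ha, hb, he1, he2, hr⟩ :=
    decomp_two z E (no_loop hNC hz) hz
  let a' : {v // v ≠ z} := ⟨a, ha⟩
  let b' : {v // v ≠ z} := ⟨b, hb⟩
  refine ⟨(a', b', k + l + 1) :: rest.map (lowE z a ha), ?_, ?_, ?_, ?_, ?_, ⟨a'⟩⟩
  · intro n
    rw [Pc_perm hp n]
    unfold Pc
    have hval1 : ∀ lam : V → Fin n, (TT n ^ (e1.2.2 + 1)) (lam e1.1) (lam e1.2.1) =
        (TT n ^ (k + 1)) (lam a) (lam z) := by
      intro lam
      rcases he1 with h | h <;> rw [h]
      exact TT_pow_symmR _ _ _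
    have hval2 : ∀ lam : V → Fin n, (TT n ^ (e2.2.2 + 1)) (lam e2.1) (lam e2.2.1) =
        (TT n ^ (l + 1)) (lam z) (lam b) := by
      intro lam
      rcases he2 with h | h <;> rw [h]
      exact TT_pow_symmR _ _ _
    have hrest : ∀ (lam : V → Fin n) (lam' : {v // v ≠ z} → Fin n), (∀ w, lam' w = lam w.1) →
        ((rest.map (lowE z a ha)).map fun e => (TT n ^ (e.2.2 + 1)) (lam' e.1) (lam' e.2.1)) =
        rest.map fun e => (TT n ^ (e.2.2 + 1)) (lam e.1) (lam e.2.1) := by
      intro lam lam' hl
      rw [List.map_map]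
      refine List.map_congr_left fun e he => ?_
      have h := hr e he
      simp only [Function.comp, lowE, hl, low_val h.1, low_val h.2]
    let G : Fin n → ({v // v ≠ z} → Fin n) → Rr n := fun x lam' =>
      (TT n ^ (k + 1)) (lam' a') x * ((TT n ^ (l + 1)) x (lam' b') *
        (((rest.map (lowE z a ha)).map fun e =>
          (TT n ^ (e.2.2 + 1)) (lam' e.1) (lam' e.2.1)).prod))
    have hG : ∀ lam : V → Fin n, (((e1 :: e2 :: rest).map fun e =>
        (TT n ^ (e.2.2 + 1)) (lam e.1) (lam e.2.1)).prod) =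
        G (Equiv.funSplitAt z (Fin n) lam).1 (Equiv.funSplitAt z (Fin n) lam).2 := by
      intro lam
      have h0 : (Equiv.funSplitAt z (Fin n) lam).1 = lam z := rfl
      have h1 : ∀ w, (Equiv.funSplitAt z (Fin n) lam).2 w = lam w.1 := fun _ => rfl
      show _ = (TT n ^ (k + 1)) ((Equiv.funSplitAt z (Fin n) lam).2 a') (Equiv.funSplitAt z (Fin n) lam).1 *
        ((TT n ^ (l + 1)) (Equiv.funSplitAt z (Fin n) lam).1 ((Equiv.funSplitAt z (Fin n) lam).2 b') *
        (((rest.map (lowE z a ha)).map fun e => (TT n ^ (e.2.2 + 1))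
          ((Equiv.funSplitAt z (Fin n) lam).2 e.1) ((Equiv.funSplitAt z (Fin n) lam).2 e.2.1)).prod))
      rw [hrest lam _ h1]
      simp only [List.map_cons, List.prod_cons, hval1, hval2]
      rfl
    rw [Finset.sum_congr rfl fun lam _ => hG lam]
    rw [Equiv.sum_comp (Equiv.funSplitAt z (Fin n)) (fun p => G p.1 p.2)]
    rw [Fintype.sum_prod_type_right]
    refine Finset.sum_congr rfl fun lam' _ => ?_
    simp only [G, List.map_cons, List.prod_cons]
    have h2 : (TT n ^ (k + l + 1 + 1)) = TT n ^ (k + 1) * TT n ^ (l + 1) := by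
      rw [← pow_add]; congr 1; omega
    rw [h2, Matrix.mul_apply, Finset.sum_mul]
    refine Finset.sum_congr rfl fun x _ => ?_
    rw [mul_assoc]
  · have := hp.length_eq
    simp only [List.length_cons, List.length_map] at this ⊢
    omega
  · rw [(hp.map _).sum_eq]
    have h1 : e1.2.2 = k := by rcases he1 with h | h <;> rw [h]
    have h2 : e2.2.2 = l := by rcases he2 with h | h <;> rw [h]
    simp only [List.map_cons, List.sum_cons, List.map_map, h1, h2]
    have : (List.map ((fun e : {v // v ≠ z} × {v // v ≠ z} × ℕ => e.2.2 + 1) ∘ lowE z a ha) rest)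
        = List.map (fun e => e.2.2 + 1) rest := by
      refine List.map_congr_left fun e _ => ?_
      rfl
    rw [this]
    omega
  · intro w
    rw [degC_cons, degC_lowE rest hr, degC_perm hp, degC_cons, degC_cons]
    have hw : z ≠ w.1 := Ne.symm w.2
    have ea : (a' = w) ↔ a = w.1 := Subtype.ext_iff
    have eb : (b' = w) ↔ b = w.1 := Subtype.ext_iff
    rcases he1 with rfl | rfl <;> rcases he2 with rfl | rfl <;> simp only [ea, eb, if_neg hw] <;>
      omega
  · intro S' hS' hcl
    have hmem : ∀ v : V, v ≠ z → (v ∈ S'.image Subtype.val ↔ low z a ha v ∈ S') := by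
      intro v hv
      rw [Finset.mem_image]
      constructor
      · rintro ⟨w, hw, rfl⟩
        have : low z a ha w.1 = w := (low_eq_iff hv w).mpr rfl
        rwa [this]
      · intro h
        exact ⟨_, h, low_val hv⟩
    have hz' : z ∉ S'.image Subtype.val := by
      intro h
      obtain ⟨w, _, hw⟩ := Finset.mem_image.mp h
      exact w.2 hw
    have hlow : ∀ v (hv : v ≠ z), low z a ha v = ⟨v, hv⟩ := fun v hv => Subtype.ext (low_val hv)
    have hhead := hcl _ List.mem_cons_self
    simp only at hhead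
    have hrestcl : ∀ e ∈ rest, (low z a ha e.1 ∈ S' ↔ low z a ha e.2.1 ∈ S') := by
      intro e he
      exact hcl (lowE z a ha e) (List.mem_cons_of_mem _ (List.mem_map_of_mem he))
    have hfinal : ∀ T : Finset V, ClosedC E T → T.Nonempty → (T ⊆ insert z (S'.image Subtype.val)) →
        ∃ w ∈ S', degC ((a', b', k + l + 1) :: rest.map (lowE z a ha)) w ≠ 2 := by
      intro T hT hne hsub
      obtain ⟨v, hv, hd⟩ := hNC T hne hT
      have hvz : v ≠ z := by rintro rfl; exact hd hz
      have hv2 := hsub hv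
      rw [Finset.mem_insert] at hv2
      rcases hv2 with h | h
      · exact absurd h hvz
      · obtain ⟨w, hw, rfl⟩ := Finset.mem_image.mp h
        refine ⟨w, hw, ?_⟩
        rw [degC_cons, degC_lowE rest hr]
        have h5 := degC_perm hp w.1
        rw [degC_cons, degC_cons] at h5
        have hw' : z ≠ w.1 := Ne.symm w.2
        have ea : (a' = w) ↔ a = w.1 := Subtype.ext_iff
        have eb : (b' = w) ↔ b = w.1 := Subtype.ext_iff
        intro h6
        apply hd
        rw [h5]
        rcases he1 with rfl | rfl <;> rcases he2 with rfl | rfl <;>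
          simp only [ea, eb, if_neg hw'] at h6 ⊢ <;> omega
    obtain ⟨w0, hw0⟩ := hS'
    by_cases hA : a' ∈ S'
    · have hB : b' ∈ S' := hhead.mp hA
      refine hfinal (insert z (S'.image Subtype.val)) ?_ ⟨z, Finset.mem_insert_self _ _⟩
        (Finset.Subset.refl _)
      intro e he
      have hpm := hp.mem_iff.mp he
      have hins : ∀ v (hv : v ≠ z), (v ∈ insert z (S'.image Subtype.val) ↔ low z a ha v ∈ S') := by
        intro v hv
        rw [Finset.mem_insert, ← hmem v hv]
        simp [hv]
      have haI : a ∈ insert z (S'.image Subtype.val) := by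
        rw [hins a ha, hlow a ha]; exact hA
      have hbI : b ∈ insert z (S'.image Subtype.val) := by
        rw [hins b hb, hlow b hb]; exact hB
      have hzI : z ∈ insert z (S'.image Subtype.val) := Finset.mem_insert_self _ _
      rcases List.mem_cons.mp hpm with rfl | hpm
      · rcases he1 with rfl | rfl <;> simp only [haI, hzI]
      · rcases List.mem_cons.mp hpm with rfl | hpm
        · rcases he2 with rfl | rfl <;> simp only [hbI, hzI]
        · have h := hr e hpm
          rw [hins _ h.1, hins _ h.2]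
          exact hrestcl e hpm
    · have hB : b' ∉ S' := fun h => hA (hhead.mpr h)
      refine hfinal (S'.image Subtype.val) ?_ ⟨w0.1, Finset.mem_image_of_mem _ hw0⟩
        (Finset.subset_insert _ _)
      intro e he
      have hpm := hp.mem_iff.mp he
      have haI : a ∉ S'.image Subtype.val := by
        rw [hmem a ha, hlow a ha]; exact hA
      have hbI : b ∉ S'.image Subtype.val := by
        rw [hmem b hb, hlow b hb]; exact hB
      rcases List.mem_cons.mp hpm with rfl | hpm
      · rcases he1 with rfl | rfl <;> simp only [haI, hz']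
      · rcases List.mem_cons.mp hpm with rfl | hpm
        · rcases he2 with rfl | rfl <;> simp only [hbI, hz']
        · have h := hr e hpm
          rw [hmem _ h.1, hmem _ h.2]
          exact hrestcl e hpm

/-- Kernel reduction: contract vertices of degree two. -/
theorem reduce_aux (N : ℕ) : ∀ (V : Type) [Fintype V] [DecidableEq V] (E : List (V × V × ℕ)),
    Fintype.card V = N → NCc E → (∀ v, 2 ≤ degC E v) → (∀ v, Even (degC E v)) →
    ∃ (V' : Type) (_ : Fintype V') (_ : DecidableEq V') (E' : List (V' × V' × ℕ)),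
      (∀ n, Pc n V' E' = Pc n V E) ∧
      ((E'.length : ℤ) - (Fintype.card V' : ℤ) = (E.length : ℤ) - (Fintype.card V : ℤ)) ∧
      ((E'.map fun e => e.2.2 + 1).sum = (E.map fun e => e.2.2 + 1).sum) ∧
      (∀ v, 4 ≤ degC E' v) ∧ (Nonempty V → E' ≠ []) := by
  induction N with
  | zero =>
    intro V _ _ E hc hNC hdeg heven
    refine ⟨V, inferInstance, inferInstance, E, fun _ => rfl, rfl, rfl, ?_, ?_⟩
    · intro v
      have := Fintype.card_eq_zero_iff.mp hc
      exact (this.false v).elim
    · rintro ⟨v⟩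
      have := Fintype.card_eq_zero_iff.mp hc
      exact (this.false v).elim
  | succ N ih =>
    intro V _ _ E hc hNC hdeg heven
    by_cases hall : ∀ v, degC E v ≠ 2
    · have h4 : ∀ v, 4 ≤ degC E v := by
        intro v
        obtain ⟨m, hm⟩ := heven v
        have := hdeg v
        have := hall v
        omega
      refine ⟨V, inferInstance, inferInstance, E, fun _ => rfl, rfl, rfl, h4, ?_⟩
      rintro ⟨v⟩ rfl
      have := h4 v
      simp [degC] at this
    · push_neg at hall
      obtain ⟨z, hz⟩ := hall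
      obtain ⟨E', h1, h2, h3, h4, h5, h6⟩ := contract_step E hNC z hz
      have hcard : Fintype.card {v // v ≠ z} = N := by
        have h7 := Fintype.card_subtype_compl (fun v : V => v = z)
        simp only [Fintype.card_subtype_eq] at h7
        rw [h7, hc]; rfl
      obtain ⟨V'', i1, i2, E'', g1, g2, g3, g4, g5⟩ := ih {v // v ≠ z} E' hcard h5
        (fun w => by rw [h4]; exact hdeg _) (fun w => by rw [h4]; exact heven _)
      refine ⟨V'', i1, i2, E'', fun n => (g1 n).trans (h1 n), ?_, g3.trans h3, g4, fun _ => g5 h6⟩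
      rw [g2, hcard, hc, ← h2]
      push_cast
      ring

theorem reduce_kernel {V : Type} [Fintype V] [DecidableEq V] (E : List (V × V × ℕ))
    (hNC : NCc E) (hdeg : ∀ v, 2 ≤ degC E v) (heven : ∀ v, Even (degC E v)) :
    ∃ (V' : Type) (_ : Fintype V') (_ : DecidableEq V') (E' : List (V' × V' × ℕ)),
      (∀ n, Pc n V' E' = Pc n V E) ∧
      ((E'.length : ℤ) - (Fintype.card V' : ℤ) = (E.length : ℤ) - (Fintype.card V : ℤ)) ∧
      ((E'.map fun e => e.2.2 + 1).sum = (E.map fun e => e.2.2 + 1).sum) ∧
      (∀ v, 4 ≤ degC E' v) ∧ (Nonempty V → E' ≠ []) :=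
  reduce_aux _ V E rfl hNC hdeg heven

end Vale.Agent.Lib.P146
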