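import Vale.Agent.Lib.P146.FreeCa
import Vale.Agent.Lib.P146.LemW
import Vale.Agent.Lib.P146.GibbsR
import Vale.Agent.Lib.P146.Reduce

/-! Upgrade, module V1: the free bound with one uncut chain end at each vertex. -/

set_option autoImplicit false
open MeasureTheory MvPolynomial

namespace Vale.Agent.Lib.P146

variable {n : ℕ}

/-- The improved bound of the free-pattern estimate at excess `e`. -/
noncomputable def Fc (β : ℝ) (K e : ℕ) : ℝ :=
  (max 1 β) ^ (3 * e) * Cg (3 * e) * 2 ^ (2 * e + 1) * (1 + (K : ℝ) / (2 * e)) ^ (2 * e)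

/-- Module V1a. Abstract form of the replica expansion combined with Lemma W: a polynomial
whose spin-averaged version factorises into forms `Xf` with frozen fields. -/
theorem free_core (hn : 0 < n) {p K : ℕ} (hp1 : 1 ≤ p) (hKp : K ≤ p)
    (hp : 1000 * (p + 1) ^ 6 ≤ n) (β : ℝ) (hβ : 0 < β)
    {Λ ι : Type} [Fintype Λ] [Fintype ι] [DecidableEq ι] {r : ℕ} (hr : 1 ≤ r)
    (w : Λ → ℝ) (ed : Λ → Fin r → Pr n) (mu : Λ → ι → Fin n × Fin n) (a : ι → ℕ)
    (c : Wt →₀ ℝ) (hc : ∀ ν ∈ c.support, ∑ i, a i + dg ν ≤ K) (N : ℕ)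
    (A : (Fin r → Sp n) → ℝ) (hA : ∀ ρ, |A ρ| ≤ 1)
    (u v : (Fin r → Sp n) → ι → Fin n → ℝ)
    (hu : ∀ ρ i, ∑ x, (u ρ i x) ^ 2 ≤ n) (hv : ∀ ρ i, ∑ x, (v ρ i x) ^ 2 ≤ n)
    (hfac : ∀ ρ : Fin r → Sp n,
      ∑ l, C (w l * ∏ j, (sv (ρ j) (ed l j).1 * sv (ρ j) (ed l j).2)) *
          ∏ i, (TT n ^ a i) (mu l i).1 (mu l i).2 =
        C ((n : ℝ) ^ N * A ρ) * ∏ i, Xf (u ρ i) (v ρ i) (a i)) :
    |∫ g, Fh β g * Ev ((∑ l, C (w l) * ((∏ j, TT n (ed l j).1 (ed l j).2) *
        ∏ i, (TT n ^ a i) (mu l i).1 (mu l i).2)) * Sc n c) g ∂gam n| ≤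
      (β / n) ^ r * (Cg r * ((n : ℝ) ^ N * (2 * 2 ^ Fintype.card ι * (∏ i, ((a i : ℝ) + 1)) * nrm c *
        Real.sqrt (∫ g, rhoH p g ^ (2 * K) ∂gam n)))) :=
  free_core_proof hn hp1 hKp hp β hβ hr w ed mu a c hc N A hA u v hu hv hfac

section Chains

variable {V S ι : Type} [Fintype V] [DecidableEq V] [Fintype S] [DecidableEq S]
  [Fintype ι] [DecidableEq ι]

/-- The vertex of an end of a long chain (`false`: left end, `true`: right end). -/
def endV (aI bI : ι → V) : ι × Bool → V
  | (i, false) => aI i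
  | (i, true) => bI i

/-- An end is kept uncut when it is the one designated by its vertex. -/
def keptE (aI bI : ι → V) (des : V → Option (ι × Bool)) (h : ι × Bool) : Prop :=
  des (endV aI bI h) = some h

instance (aI bI : ι → V) (des : V → Option (ι × Bool)) (h : ι × Bool) :
    Decidable (keptE aI bI des h) := by
  unfold keptE; infer_instance

/-- The exponent left in the form of a long chain of total length `lI i + 2`. -/
def aKept (aI bI : ι → V) (des : V → Option (ι × Bool)) (lI : ι → ℕ) (i : ι) : ℕ :=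
  lI i + (if keptE aI bI des (i, false) then 1 else 0) + (if keptE aI bI des (i, true) then 1 else 0)

/-- Cut ends. -/
abbrev CutE (aI bI : ι → V) (des : V → Option (ι × Bool)) := {h : ι × Bool // ¬ keptE aI bI des h}

/-- Boundary edges: the short chains and the cut ends of the long chains. -/
abbrev Bdy (S : Type) (aI bI : ι → V) (des : V → Option (ι × Bool)) := S ⊕ CutE aI bI des

/-- The label of the form at an end. -/
def muEnd (mu : ι → Fin n × Fin n) (h : ι × Bool) : Fin n := if h.2 then (mu h.1).2 else (mu h.1).1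

/-- The delta weight tying the labels of the kept ends to the vertex labels. -/
def wKept (aI bI : ι → V) (des : V → Option (ι × Bool)) (lam : V → Fin n) (mu : ι → Fin n × Fin n) : ℝ :=
  ∏ h : ι × Bool, if keptE aI bI des h then (if lam (endV aI bI h) = muEnd mu h then 1 else 0) else 1

/-- The boundary edge. -/
def edK (aS bS : S → V) (aI bI : ι → V) (des : V → Option (ι × Bool)) (lam : V → Fin n)
    (mu : ι → Fin n × Fin n) : Bdy S aI bI des → Pr n
  | Sum.inl s => (lam (aS s), lam (bS s))
  | Sum.inr ⟨(i, false), _⟩ => (lam (aI i), (mu i).1)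
  | Sum.inr ⟨(i, true), _⟩ => ((mu i).2, lam (bI i))

/-- One chain, with the identity at a kept end written as a delta. -/
private theorem chain_one (l : ℕ) (kF kT : Prop) [Decidable kF] [Decidable kT] (x y : Fin n) :
    (TT n ^ (l + 2)) x y = ∑ z : Fin n × Fin n,
      (if kF then C (if x = z.1 then (1 : ℝ) else 0) else TT n x z.1) *
      ((TT n ^ (l + (if kF then 1 else 0) + (if kT then 1 else 0))) z.1 z.2 *
      (if kT then C (if y = z.2 then (1 : ℝ) else 0) else TT n z.2 y)) := by
  rw [Fintype.sum_prod_type]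
  by_cases hF : kF <;> by_cases hT : kT <;> simp only [hF, hT, if_true, if_false]
  · -- both kept
    rw [Finset.sum_eq_single x]
    · rw [Finset.sum_eq_single y]
      · simp
      · intro d _ hd
        have : y ≠ d := fun h => hd h.symm
        simp [this]
      · simp
    · intro c _ hc
      have : x ≠ c := fun h => hc h.symm
      simp [this]
    · simp
  · -- left kept
    rw [Finset.sum_eq_single x]
    · simp only [if_true, map_one, one_mul, add_zero]
      rw [show l + 2 = (l + 1) + 1 from rfl, pow_succ, Matrix.mul_apply]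
    · intro c _ hc
      have : x ≠ c := fun h => hc h.symm
      simp [this]
    · simp
  · -- right kept
    simp only [add_zero]
    rw [show l + 2 = 1 + (l + 1) by ring, pow_add, pow_one, Matrix.mul_apply]
    refine Finset.sum_congr rfl fun c _ => ?_
    rw [Finset.sum_eq_single y]
    · simp
    · intro d _ hd
      have : y ≠ d := fun h => hd h.symm
      simp [this]
    · simp
  · -- both cut
    simp only [add_zero]
    rw [show l + 2 = 1 + (l + 1) by ring, pow_add, pow_one, Matrix.mul_apply]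
    refine Finset.sum_congr rfl fun c _ => ?_
    rw [pow_succ, Matrix.mul_apply, Finset.mul_sum]

/-- The edge of an end of a long chain. -/
private def edgeP (aI bI : ι → V) (lam : V → Fin n) (mu : ι → Fin n × Fin n) : ι × Bool → Pr n
  | (i, false) => (lam (aI i), (mu i).1)
  | (i, true) => ((mu i).2, lam (bI i))

private theorem edK_inr (aS bS : S → V) (aI bI : ι → V) (des : V → Option (ι × Bool))
    (lam : V → Fin n) (mu : ι → Fin n × Fin n) (h : CutE aI bI des) :
    edK aS bS aI bI des lam mu (Sum.inr h) = edgeP aI bI lam mu h.1 := by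
  rcases h with ⟨⟨i, b⟩, hk⟩
  cases b <;> rfl

/-- A product over a complement subtype as an unrestricted product. -/
private theorem prod_not_subtype {α β : Type} [Fintype α] [CommMonoid β] (P : α → Prop)
    [DecidablePred P] (f : α → β) :
    ∏ h : {h // ¬ P h}, f h.1 = ∏ h, if P h then 1 else f h := by
  have h1 := Finset.prod_subtype (F := inferInstance) (Finset.univ.filter (fun h => ¬ P h))
    (p := fun h => ¬ P h) (by simp) f
  rw [← h1, Finset.prod_filter]
  refine Finset.prod_congr rfl fun h _ => ?_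
  by_cases hP : P h <;> simp [hP]

/-- Module V1b: the matrix identity `𝐓^(l+2)=L 𝐓^a R`, with `L,R` equal to `𝐓` at a cut end and
the identity at a kept end. -/
theorem chain_expand (aS bS : S → V) (aI bI : ι → V) (des : V → Option (ι × Bool)) (lI : ι → ℕ)
    (lam : V → Fin n) :
    (∏ s, TT n (lam (aS s)) (lam (bS s))) * ∏ i, (TT n ^ (lI i + 2)) (lam (aI i)) (lam (bI i)) =
      ∑ mu : ι → Fin n × Fin n, C (wKept aI bI des lam mu) *
        ((∏ b, TT n (edK aS bS aI bI des lam mu b).1 (edK aS bS aI bI des lam mu b).2) *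
          ∏ i, (TT n ^ aKept aI bI des lI i) (mu i).1 (mu i).2) := by
  classical
  have h1 : ∀ i, (TT n ^ (lI i + 2)) (lam (aI i)) (lam (bI i)) =
      ∑ z : Fin n × Fin n,
      (if keptE aI bI des (i, false) then C (if lam (aI i) = z.1 then (1 : ℝ) else 0)
        else TT n (lam (aI i)) z.1) *
      ((TT n ^ aKept aI bI des lI i) z.1 z.2 *
      (if keptE aI bI des (i, true) then C (if lam (bI i) = z.2 then (1 : ℝ) else 0)
        else TT n z.2 (lam (bI i)))) := fun i =>
    chain_one (lI i) _ _ _ _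
  simp_rw [h1]
  rw [Finset.prod_univ_sum, Fintype.piFinset_univ, Finset.mul_sum]
  refine Finset.sum_congr rfl fun mu _ => ?_
  -- the boundary part
  have h2 : ∏ b, TT n (edK aS bS aI bI des lam mu b).1 (edK aS bS aI bI des lam mu b).2 =
      (∏ s, TT n (lam (aS s)) (lam (bS s))) *
        ∏ h : ι × Bool, if keptE aI bI des h then 1 else
          TT n (edgeP aI bI lam mu h).1 (edgeP aI bI lam mu h).2 := by
    rw [Fintype.prod_sum_type]
    congr 1
    rw [← prod_not_subtype (keptE aI bI des)
      (fun h => TT n (edgeP aI bI lam mu h).1 (edgeP aI bI lam mu h).2)]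
    refine Finset.prod_congr rfl fun h _ => ?_
    rw [edK_inr]
  have h3 : C (wKept aI bI des lam mu) = ∏ h : ι × Bool,
      (C (if keptE aI bI des h then (if lam (endV aI bI h) = muEnd mu h then (1 : ℝ) else 0)
        else 1) : Rr n) := by
    rw [wKept, map_prod]
  have key : ∏ i, ((if keptE aI bI des (i, false) then
        C (if lam (aI i) = (mu i).1 then (1 : ℝ) else 0) else TT n (lam (aI i)) (mu i).1) *
      ((TT n ^ aKept aI bI des lI i) (mu i).1 (mu i).2 *
      (if keptE aI bI des (i, true) then C (if lam (bI i) = (mu i).2 then (1 : ℝ) else 0)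
        else TT n (mu i).2 (lam (bI i))))) =
      (∏ h : ι × Bool,
        (C (if keptE aI bI des h then (if lam (endV aI bI h) = muEnd mu h then (1 : ℝ) else 0)
          else 1) : Rr n)) *
        ((∏ h : ι × Bool, if keptE aI bI des h then 1 else
          TT n (edgeP aI bI lam mu h).1 (edgeP aI bI lam mu h).2) *
          ∏ i, (TT n ^ aKept aI bI des lI i) (mu i).1 (mu i).2) := by
    simp only [Fintype.prod_prod_type, Fintype.prod_bool]
    simp only [← Finset.prod_mul_distrib]
    refine Finset.prod_congr rfl fun i _ => ?_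
    by_cases hF : keptE aI bI des (i, false) <;> by_cases hT : keptE aI bI des (i, true) <;>
      simp only [hF, hT, if_true, if_false, endV, muEnd, edgeP, map_one, Bool.false_eq_true] <;>
      ring
  rw [key, h2, h3]
  ring

/-- The frozen field at a vertex: the product of the spins of all cut half-edges at `z`. -/
noncomputable def DK (aS bS : S → V) (aI bI : ι → V) (des : V → Option (ι × Bool))
    (ρ : Bdy S aI bI des → Sp n) (z : V) (x : Fin n) : ℝ :=
  (∏ s, (if aS s = z then sv (ρ (Sum.inl s)) x else 1) * (if bS s = z then sv (ρ (Sum.inl s)) x else 1)) *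
    ∏ h : CutE aI bI des, if endV aI bI h.1 = z then sv (ρ (Sum.inr h)) x else 1

/-- The field of an end of a long chain. -/
noncomputable def fieldK (aS bS : S → V) (aI bI : ι → V) (des : V → Option (ι × Bool))
    (ρ : Bdy S aI bI des → Sp n) (h : ι × Bool) (x : Fin n) : ℝ :=
  if hk : keptE aI bI des h then DK aS bS aI bI des ρ (endV aI bI h) x else sv (ρ (Sum.inr ⟨h, hk⟩)) x

/-- The scalar from the vertices without a kept end. -/
noncomputable def AK (aS bS : S → V) (aI bI : ι → V) (des : V → Option (ι × Bool))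
    (ρ : Bdy S aI bI des → Sp n) : ℝ :=
  ∏ z : {z : V // des z = none}, (1 / (n : ℝ)) * ∑ x, DK aS bS aI bI des ρ z.1 x

/-- The kept ends are in bijection with the vertices having a designated end. -/
private theorem prod_kept (aI bI : ι → V) (des : V → Option (ι × Bool))
    (hdes : ∀ z h, des z = some h → endV aI bI h = z) (F : ι × Bool → ℝ) :
    ∏ h : ι × Bool, (if keptE aI bI des h then F h else 1) =
      ∏ z, (match des z with | none => 1 | some h => F h) := by
  rw [← Finset.prod_fiberwise Finset.univ (endV aI bI)]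
  refine Finset.prod_congr rfl fun z _ => ?_
  cases hz : des z with
  | none =>
    apply Finset.prod_eq_one
    intro h hh
    have hh' : endV aI bI h = z := (Finset.mem_filter.mp hh).2
    rw [if_neg]
    unfold keptE
    rw [hh', hz]
    simp
  | some h₀ =>
    have h0z := hdes z h₀ hz
    rw [Finset.prod_eq_single h₀]
    · rw [if_pos]
      unfold keptE
      rw [h0z]
      exact hz
    · intro h hh hne
      have hh' : endV aI bI h = z := (Finset.mem_filter.mp hh).2
      rw [if_neg]
      unfold keptE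
      rw [hh', hz]
      simpa using fun e => hne e.symm
    · intro hn
      exact absurd (Finset.mem_filter.mpr ⟨Finset.mem_univ h₀, h0z⟩) hn

/-- The spin product of the boundary edges, sorted by vertices and cut ends. -/
private theorem spin_split (aS bS : S → V) (aI bI : ι → V) (des : V → Option (ι × Bool))
    (ρ : Bdy S aI bI des → Sp n) (lam : V → Fin n) (mu : ι → Fin n × Fin n) :
    ∏ b, (sv (ρ b) (edK aS bS aI bI des lam mu b).1 * sv (ρ b) (edK aS bS aI bI des lam mu b).2) =
      (∏ z, DK aS bS aI bI des ρ z (lam z)) *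
        ∏ h : CutE aI bI des, sv (ρ (Sum.inr h)) (muEnd mu h.1) := by
  have h1 : ∀ h : CutE aI bI des,
      sv (ρ (Sum.inr h)) (edK aS bS aI bI des lam mu (Sum.inr h)).1 *
        sv (ρ (Sum.inr h)) (edK aS bS aI bI des lam mu (Sum.inr h)).2 =
      sv (ρ (Sum.inr h)) (lam (endV aI bI h.1)) * sv (ρ (Sum.inr h)) (muEnd mu h.1) := by
    rintro ⟨⟨i, b⟩, hk⟩
    cases b
    · simp [edK, endV, muEnd]
    · simp [edK, endV, muEnd, mul_comm]
  have h2 : ∏ z, DK aS bS aI bI des ρ z (lam z) =
      (∏ s, (sv (ρ (Sum.inl s)) (lam (aS s)) * sv (ρ (Sum.inl s)) (lam (bS s)))) *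
        ∏ h : CutE aI bI des, sv (ρ (Sum.inr h)) (lam (endV aI bI h.1)) := by
    unfold DK
    rw [Finset.prod_mul_distrib]
    congr 1
    · rw [Finset.prod_comm]
      refine Finset.prod_congr rfl fun s _ => ?_
      rw [Finset.prod_mul_distrib]
      congr 1
      · rw [Finset.prod_ite_eq]
        simp
      · rw [Finset.prod_ite_eq]
        simp
    · rw [Finset.prod_comm]
      refine Finset.prod_congr rfl fun h _ => ?_
      rw [Finset.prod_ite_eq]
      simp
  rw [Fintype.prod_sum_type, h2, mul_assoc, ← Finset.prod_mul_distrib]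
  congr 1
  exact Finset.prod_congr rfl fun h _ => h1 h

/-- The sum over the labels of the vertices, for fixed labels of the long chains. -/
private theorem factor_mu (hn : 0 < n) (aS bS : S → V) (aI bI : ι → V)
    (des : V → Option (ι × Bool)) (hdes : ∀ z h, des z = some h → endV aI bI h = z)
    (ρ : Bdy S aI bI des → Sp n) (mu : ι → Fin n × Fin n) :
    ∑ lam : V → Fin n, wKept aI bI des lam mu *
        ∏ b, (sv (ρ b) (edK aS bS aI bI des lam mu b).1 *
          sv (ρ b) (edK aS bS aI bI des lam mu b).2) =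
      (n : ℝ) ^ Fintype.card {z : V // des z = none} * AK aS bS aI bI des ρ *
        ∏ i, (fieldK aS bS aI bI des ρ (i, false) (mu i).1 *
          fieldK aS bS aI bI des ρ (i, true) (mu i).2) := by
  classical
  have hnR : (n : ℝ) ≠ 0 := by exact_mod_cast hn.ne'
  set D := DK aS bS aI bI des ρ with hD
  set C0 := ∏ h : CutE aI bI des, sv (ρ (Sum.inr h)) (muEnd mu h.1) with hC0
  -- the delta weight by vertices
  have hw : ∀ lam : V → Fin n, wKept aI bI des lam mu =
      ∏ z, (match des z with
        | none => (1 : ℝ)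
        | some h => if lam z = muEnd mu h then 1 else 0) := by
    intro lam
    unfold wKept
    rw [prod_kept aI bI des hdes (fun h => if lam (endV aI bI h) = muEnd mu h then 1 else 0)]
    refine Finset.prod_congr rfl fun z _ => ?_
    cases hz : des z with
    | none => rfl
    | some h => simp only [hdes z h hz]
  -- the sum over `lam`
  have hL : ∑ lam : V → Fin n, wKept aI bI des lam mu *
        ∏ b, (sv (ρ b) (edK aS bS aI bI des lam mu b).1 *
          sv (ρ b) (edK aS bS aI bI des lam mu b).2) =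
      C0 * ∏ z, (match des z with
        | none => ∑ x, D z x
        | some h => D z (muEnd mu h)) := by
    have h1 : ∀ z, (match des z with
        | none => ∑ x, D z x
        | some h => D z (muEnd mu h)) =
        ∑ x, (match des z with
          | none => (1 : ℝ)
          | some h => if x = muEnd mu h then 1 else 0) * D z x := by
      intro z
      cases hz : des z with
      | none => simp
      | some h => simp
    simp_rw [h1]
    rw [Finset.prod_univ_sum, Fintype.piFinset_univ, Finset.mul_sum]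
    refine Finset.sum_congr rfl fun lam _ => ?_
    rw [spin_split, hw, Finset.prod_mul_distrib]
    ring
  -- the fields
  have hF : ∏ i, (fieldK aS bS aI bI des ρ (i, false) (mu i).1 *
        fieldK aS bS aI bI des ρ (i, true) (mu i).2) =
      (∏ z, (match des z with | none => 1 | some h => D z (muEnd mu h))) * C0 := by
    have h1 : ∏ i, (fieldK aS bS aI bI des ρ (i, false) (mu i).1 *
          fieldK aS bS aI bI des ρ (i, true) (mu i).2) =
        ∏ h : ι × Bool, fieldK aS bS aI bI des ρ h (muEnd mu h) := by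
      rw [Fintype.prod_prod_type]
      refine Finset.prod_congr rfl fun i _ => ?_
      rw [Fintype.prod_bool]
      simp [muEnd, mul_comm]
    have h2 : ∏ h : ι × Bool, fieldK aS bS aI bI des ρ h (muEnd mu h) =
        (∏ h : ι × Bool, if keptE aI bI des h then D (endV aI bI h) (muEnd mu h) else 1) *
          ∏ h : ι × Bool, if keptE aI bI des h then 1 else
            fieldK aS bS aI bI des ρ h (muEnd mu h) := by
      rw [← Finset.prod_mul_distrib]
      refine Finset.prod_congr rfl fun h _ => ?_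
      by_cases hk : keptE aI bI des h
      · simp [hk, fieldK, hD]
      · simp [hk]
    rw [h1, h2, prod_kept aI bI des hdes (fun h => D (endV aI bI h) (muEnd mu h)),
      ← prod_not_subtype (keptE aI bI des)
        (fun h => fieldK aS bS aI bI des ρ h (muEnd mu h))]
    congr 1
    · refine Finset.prod_congr rfl fun z _ => ?_
      cases hz : des z with
      | none => rfl
      | some h => simp only [hdes z h hz]
    · refine Finset.prod_congr rfl fun h _ => ?_
      have : fieldK aS bS aI bI des ρ h.1 = sv (ρ (Sum.inr h)) := by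
        funext x
        simp [fieldK, dif_neg h.2]
      rw [this]
  -- the scalar
  have hA : (n : ℝ) ^ Fintype.card {z : V // des z = none} * AK aS bS aI bI des ρ =
      ∏ z, (match des z with | none => ∑ x, D z x | some _ => 1) := by
    have h1 : ∏ z : {z : V // des z = none}, (∑ x, D z.1 x) =
        ∏ z, (match des z with | none => ∑ x, D z x | some _ => 1) := by
      have h1' := Finset.prod_subtype (F := inferInstance)
        (Finset.univ.filter (fun z : V => des z = none))
        (p := fun z => des z = none) (by simp) (fun z => ∑ x, D z x)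
      rw [← h1', Finset.prod_filter]
      refine Finset.prod_congr rfl fun z _ => ?_
      cases hz : des z with
      | none => simp
      | some h => simp
    rw [← h1]
    unfold AK
    rw [← Finset.card_univ, ← Finset.prod_const, ← Finset.prod_mul_distrib]
    refine Finset.prod_congr rfl fun z _ => ?_
    rw [hD]
    field_simp
  rw [hL, hF, hA]
  have : ∀ z, (match des z with
        | none => ∑ x, D z x
        | some h => D z (muEnd mu h)) =
      (match des z with | none => ∑ x, D z x | some _ => 1) *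
        (match des z with | none => 1 | some h => D z (muEnd mu h)) := by
    intro z
    cases des z <;> simp
  simp_rw [this]
  rw [Finset.prod_mul_distrib]
  ring

/-- The product of the forms `Xf`. -/
private theorem prod_Xf' (u v : ι → Fin n → ℝ) (lI : ι → ℕ) :
    ∏ i, Xf (u i) (v i) (lI i) = C ((((n : ℝ) ^ Fintype.card ι))⁻¹) *
      ∑ mu : ι → Fin n × Fin n, C (∏ i, (u i (mu i).1 * v i (mu i).2)) *
        ∏ i, (TT n ^ lI i) (mu i).1 (mu i).2 := by
  have h1 : ∀ i, Xf (u i) (v i) (lI i) = C (1 / (n : ℝ)) *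
      ∑ z : Fin n × Fin n, C (u i z.1 * v i z.2) * (TT n ^ lI i) z.1 z.2 := by
    intro i
    rw [Xf, Fintype.sum_prod_type]
  simp_rw [h1]
  rw [Finset.prod_mul_distrib, Finset.prod_univ_sum, Fintype.piFinset_univ]
  congr 1
  · rw [Finset.prod_const, ← C_pow]
    congr 1
    simp [Finset.card_univ]
  · refine Finset.sum_congr rfl fun mu _ => ?_
    rw [Finset.prod_mul_distrib, map_prod]

/-- Module V1b: factorisation of the spin sum over all labels. The hypothesis on `des`: the
designated end of a vertex is an end at that vertex. -/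
theorem chain_factor (hn : 0 < n) (aS bS : S → V) (aI bI : ι → V) (des : V → Option (ι × Bool))
    (hdes : ∀ z h, des z = some h → endV aI bI h = z) (lI : ι → ℕ) (ρ : Bdy S aI bI des → Sp n) :
    ∑ l : (V → Fin n) × (ι → Fin n × Fin n),
      C (wKept aI bI des l.1 l.2 * ∏ b, (sv (ρ b) (edK aS bS aI bI des l.1 l.2 b).1 *
          sv (ρ b) (edK aS bS aI bI des l.1 l.2 b).2)) *
        ∏ i, (TT n ^ aKept aI bI des lI i) (l.2 i).1 (l.2 i).2 =
      C ((n : ℝ) ^ (Fintype.card {z : V // des z = none} + Fintype.card ι) * AK aS bS aI bI des ρ) *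
        ∏ i, Xf (fieldK aS bS aI bI des ρ (i, false)) (fieldK aS bS aI bI des ρ (i, true))
          (aKept aI bI des lI i) := by
  classical
  have hnR : (n : ℝ) ≠ 0 := by exact_mod_cast hn.ne'
  rw [prod_Xf', Fintype.sum_prod_type, Finset.sum_comm, ← mul_assoc, ← C_mul, Finset.mul_sum]
  refine Finset.sum_congr rfl fun mu _ => ?_
  dsimp only
  rw [← Finset.sum_mul, ← map_sum, factor_mu hn aS bS aI bI des hdes ρ mu, ← mul_assoc, ← C_mul]
  congr 2
  rw [pow_add]
  field_simp

private theorem abs_sv_c (σ : Sp n) (x : Fin n) : |sv σ x| = 1 := by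
  unfold sv; split_ifs <;> simp

private theorem abs_ite_sv_c (P : Prop) [Decidable P] (σ : Sp n) (x : Fin n) :
    |if P then sv σ x else 1| = 1 := by
  split_ifs
  · exact abs_sv_c σ x
  · simp

private theorem abs_DK_c (aS bS : S → V) (aI bI : ι → V) (des : V → Option (ι × Bool))
    (ρ : Bdy S aI bI des → Sp n) (z : V) (x : Fin n) : |DK aS bS aI bI des ρ z x| = 1 := by
  unfold DK
  rw [abs_mul, Finset.abs_prod, Finset.abs_prod]
  have h1 : ∀ s : S, |(if aS s = z then sv (ρ (Sum.inl s)) x else 1) *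
      (if bS s = z then sv (ρ (Sum.inl s)) x else 1)| = 1 := fun s => by
    rw [abs_mul, abs_ite_sv_c, abs_ite_sv_c, one_mul]
  have h2 : ∀ h : CutE aI bI des, |if endV aI bI h.1 = z then sv (ρ (Sum.inr h)) x else 1| = 1 :=
    fun h => abs_ite_sv_c _ _ _
  rw [Finset.prod_congr rfl (fun s _ => h1 s), Finset.prod_congr rfl (fun h _ => h2 h)]
  simp

private theorem fieldK_sq_sum (aS bS : S → V) (aI bI : ι → V) (des : V → Option (ι × Bool))
    (ρ : Bdy S aI bI des → Sp n) (h : ι × Bool) :
    ∑ x, (fieldK aS bS aI bI des ρ h x) ^ 2 ≤ n := by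
  have : ∀ x, (fieldK aS bS aI bI des ρ h x) ^ 2 = 1 := fun x => by
    rw [← sq_abs]
    unfold fieldK
    split_ifs with hk
    · rw [abs_DK_c]; norm_num
    · rw [abs_sv_c]; norm_num
  simp [this]

private theorem abs_AK_c (hn : 0 < n) (aS bS : S → V) (aI bI : ι → V)
    (des : V → Option (ι × Bool)) (ρ : Bdy S aI bI des → Sp n) :
    |AK aS bS aI bI des ρ| ≤ 1 := by
  unfold AK
  rw [Finset.abs_prod]
  refine Finset.prod_le_one (fun _ _ => abs_nonneg _) fun z _ => ?_
  have hnR : (0 : ℝ) < n := by exact_mod_cast hn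
  rw [abs_mul, abs_of_pos (by positivity : (0 : ℝ) < 1 / n)]
  have h1 : |∑ x, DK aS bS aI bI des ρ z.1 x| ≤ n := by
    calc |∑ x, DK aS bS aI bI des ρ z.1 x| ≤ ∑ x, |DK aS bS aI bI des ρ z.1 x| :=
          Finset.abs_sum_le_sum_abs _ _
      _ = n := by simp [abs_DK_c]
  calc 1 / (n : ℝ) * |∑ x, DK aS bS aI bI des ρ z.1 x| ≤ 1 / (n : ℝ) * n :=
        mul_le_mul_of_nonneg_left h1 (by positivity)
    _ = 1 := by field_simp

/-- Module V1c: the estimate for short and long chains with designated uncut ends. -/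
theorem free_chains (hn : 0 < n) {p K : ℕ} (hp1 : 1 ≤ p) (hKp : K ≤ p)
    (hp : 1000 * (p + 1) ^ 6 ≤ n) (β : ℝ) (hβ : 0 < β)
    (aS bS : S → V) (aI bI : ι → V) (des : V → Option (ι × Bool))
    (hdes : ∀ z h, des z = some h → endV aI bI h = z) (lI : ι → ℕ)
    (hr : 1 ≤ Fintype.card (Bdy S aI bI des))
    (c : Wt →₀ ℝ) (hc : ∀ ν ∈ c.support, ∑ i, aKept aI bI des lI i + dg ν ≤ K) :
    |∫ g, Fh β g * Ev ((∑ lam : V → Fin n, (∏ s, TT n (lam (aS s)) (lam (bS s))) *
        ∏ i, (TT n ^ (lI i + 2)) (lam (aI i)) (lam (bI i))) * Sc n c) g ∂gam n| ≤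
      (β / n) ^ Fintype.card (Bdy S aI bI des) * (Cg (Fintype.card (Bdy S aI bI des)) *
        ((n : ℝ) ^ (Fintype.card {z : V // des z = none} + Fintype.card ι) *
        (2 * 2 ^ Fintype.card ι * (∏ i, ((aKept aI bI des lI i : ℝ) + 1)) * nrm c *
          Real.sqrt (∫ g, rhoH p g ^ (2 * K) ∂gam n)))) := by
  classical
  set r := Fintype.card (Bdy S aI bI des) with hrdef
  let ε : Bdy S aI bI des ≃ Fin r := Fintype.equivFinOfCardEq hrdef.symm
  have key := free_core hn hp1 hKp hp β hβ (Λ := (V → Fin n) × (ι → Fin n × Fin n)) (ι := ι) (r := r)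
    hr (fun l => wKept aI bI des l.1 l.2) (fun l j => edK aS bS aI bI des l.1 l.2 (ε.symm j))
    (fun l => l.2) (aKept aI bI des lI) c hc
    (Fintype.card {z : V // des z = none} + Fintype.card ι)
    (fun ρ => AK aS bS aI bI des (ρ ∘ ε)) (fun ρ => abs_AK_c hn aS bS aI bI des (ρ ∘ ε))
    (fun ρ i => fieldK aS bS aI bI des (ρ ∘ ε) (i, false))
    (fun ρ i => fieldK aS bS aI bI des (ρ ∘ ε) (i, true))
    (fun ρ i => fieldK_sq_sum aS bS aI bI des (ρ ∘ ε) (i, false))
    (fun ρ i => fieldK_sq_sum aS bS aI bI des (ρ ∘ ε) (i, true))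
    (fun ρ => by
      have hf := chain_factor hn aS bS aI bI des hdes lI (ρ ∘ ε)
      rw [← hf]
      refine Finset.sum_congr rfl fun l _ => ?_
      have hp2 : ∏ j, (sv (ρ j) (edK aS bS aI bI des l.1 l.2 (ε.symm j)).1 *
            sv (ρ j) (edK aS bS aI bI des l.1 l.2 (ε.symm j)).2) =
          ∏ b, (sv ((ρ ∘ ε) b) (edK aS bS aI bI des l.1 l.2 b).1 *
            sv ((ρ ∘ ε) b) (edK aS bS aI bI des l.1 l.2 b).2) := by
        rw [← Equiv.prod_comp ε.symm (fun b => sv ((ρ ∘ ε) b) (edK aS bS aI bI des l.1 l.2 b).1 *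
            sv ((ρ ∘ ε) b) (edK aS bS aI bI des l.1 l.2 b).2)]
        refine Finset.prod_congr rfl fun j _ => ?_
        simp [Function.comp]
      rw [hp2])
  have hpoly : (∑ lam : V → Fin n, (∏ s, TT n (lam (aS s)) (lam (bS s))) *
        ∏ i, (TT n ^ (lI i + 2)) (lam (aI i)) (lam (bI i))) =
      ∑ l : (V → Fin n) × (ι → Fin n × Fin n), C (wKept aI bI des l.1 l.2) *
        ((∏ j, TT n (edK aS bS aI bI des l.1 l.2 (ε.symm j)).1
            (edK aS bS aI bI des l.1 l.2 (ε.symm j)).2) *
          ∏ i, (TT n ^ aKept aI bI des lI i) (l.2 i).1 (l.2 i).2) := by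
    rw [Fintype.sum_prod_type]
    refine Finset.sum_congr rfl fun lam _ => ?_
    rw [chain_expand aS bS aI bI des lI lam]
    refine Finset.sum_congr rfl fun mu _ => ?_
    congr 2
    exact (Equiv.prod_comp ε.symm
      (fun b => TT n (edK aS bS aI bI des lam mu b).1 (edK aS bS aI bI des lam mu b).2)).symm
  rw [hpoly]
  exact key

end Chains

/-- Module V1c, AM-GM with padding: `∏ (1 + E i) ≤ (1 + K / M)^M` when `∑ E i ≤ K` and there are
at most `M` factors. -/
theorem prod_one_add_le {ι : Type} (s : Finset ι) (E : ι → ℕ) (K M : ℕ) (hM : 1 ≤ M)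
    (hs : s.card ≤ M) (hK : ∑ i ∈ s, E i ≤ K) :
    ∏ i ∈ s, ((E i : ℝ) + 1) ≤ (1 + (K : ℝ) / M) ^ M := by
  set a : ℝ := (K : ℝ) / M with ha_def
  have hM0 : (0 : ℝ) < M := by exact_mod_cast hM
  have ha : 0 ≤ a := by positivity
  have h1a : 0 < 1 + a := by linarith
  have hpoint : ∀ i ∈ s, (E i : ℝ) + 1 ≤ (1 + a) * Real.exp (((E i : ℝ) - a) / (1 + a)) := by
    intro i _
    have h := Real.add_one_le_exp (((E i : ℝ) - a) / (1 + a))
    have h2 : (E i : ℝ) + 1 = (1 + a) * (((E i : ℝ) - a) / (1 + a) + 1) := by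
      field_simp
      ring
    rw [h2]
    exact mul_le_mul_of_nonneg_left h h1a.le
  have hprod : ∏ i ∈ s, ((E i : ℝ) + 1) ≤ ∏ i ∈ s, ((1 + a) * Real.exp (((E i : ℝ) - a) / (1 + a))) :=
    Finset.prod_le_prod (fun i _ => by positivity) hpoint
  rw [Finset.prod_mul_distrib, Finset.prod_const, ← Real.exp_sum] at hprod
  obtain ⟨m, hm⟩ := Nat.exists_eq_add_of_le hs
  have hK' : ((∑ i ∈ s, E i : ℕ) : ℝ) ≤ K := by exact_mod_cast hK
  have hMa : (M : ℝ) * a = K := by
    rw [ha_def]; field_simp
  have hsum : ∑ i ∈ s, ((E i : ℝ) - a) / (1 + a) ≤ (m : ℝ) * (a / (1 + a)) := by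
    have h1 : ∑ i ∈ s, ((E i : ℝ) - a) / (1 + a) =
        (((∑ i ∈ s, E i : ℕ) : ℝ) - (s.card : ℝ) * a) / (1 + a) := by
      rw [← Finset.sum_div, Finset.sum_sub_distrib]
      simp
    rw [h1]
    have h5 : (m : ℝ) * (a / (1 + a)) = ((m : ℝ) * a) / (1 + a) := by ring
    rw [h5]
    apply div_le_div_of_nonneg_right _ h1a.le
    have h2 : (M : ℝ) = s.card + m := by exact_mod_cast hm
    rw [h2] at hMa
    nlinarith
  have hexp : Real.exp (a / (1 + a)) ≤ 1 + a := by
    have h := Real.add_one_le_exp (-(a / (1 + a)))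
    have h2 : -(a / (1 + a)) + 1 = (1 + a)⁻¹ := by
      field_simp
      ring
    rw [h2, Real.exp_neg] at h
    have h3 := inv_anti₀ (inv_pos.mpr h1a) h
    simpa using h3
  calc ∏ i ∈ s, ((E i : ℝ) + 1)
      ≤ (1 + a) ^ s.card * Real.exp (∑ i ∈ s, ((E i : ℝ) - a) / (1 + a)) := hprod
    _ ≤ (1 + a) ^ s.card * Real.exp ((m : ℝ) * (a / (1 + a))) := by
        apply mul_le_mul_of_nonneg_left (Real.exp_le_exp.mpr hsum) (by positivity)
    _ = (1 + a) ^ s.card * (Real.exp (a / (1 + a))) ^ m := by
        rw [Real.exp_nat_mul]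
    _ ≤ (1 + a) ^ s.card * (1 + a) ^ m := by
        apply mul_le_mul_of_nonneg_left _ (by positivity)
        exact pow_le_pow_left₀ (Real.exp_pos _).le hexp m
    _ = (1 + a) ^ M := by rw [← pow_add, hm]

/-! Module V1d -/

section Count

variable {V ι : Type} [Fintype V] [DecidableEq V] [Fintype ι] [DecidableEq ι]

theorem card_kept (aI bI : ι → V) (des : V → Option (ι × Bool))
    (hdes : ∀ z h, des z = some h → endV aI bI h = z) :
    Fintype.card {h : ι × Bool // keptE aI bI des h} = Fintype.card {z : V // des z ≠ none} := by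
  refine Fintype.card_of_bijective (f := fun h => ⟨endV aI bI h.1, ?_⟩) ⟨?_, ?_⟩
  · have := h.2
    unfold keptE at this
    rw [this]
    simp
  · rintro ⟨h, hh⟩ ⟨h', hh'⟩ e
    have e' : endV aI bI h = endV aI bI h' := congrArg Subtype.val e
    unfold keptE at hh hh'
    rw [e', hh'] at hh
    have : h = h' := by simpa using hh.symm
    exact Subtype.ext this
  · rintro ⟨z, hz⟩
    obtain ⟨h, hh⟩ := Option.ne_none_iff_exists'.mp hz
    have h2 := hdes z h hh
    refine ⟨⟨h, ?_⟩, Subtype.ext h2⟩
    unfold keptE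
    rw [h2, hh]

/-- The canonical designation: some end at the vertex, if there is one. -/
noncomputable def desOf (aI bI : ι → V) (z : V) : Option (ι × Bool) :=
  open Classical in
  if h : ∃ e, endV aI bI e = z then some h.choose else none

theorem desOf_spec (aI bI : ι → V) (z : V) (h : ι × Bool) (hh : desOf aI bI z = some h) :
    endV aI bI h = z := by
  unfold desOf at hh
  split_ifs at hh with h1
  have : h1.choose = h := by simpa using hh
  rw [← this]
  exact h1.choose_spec

theorem desOf_none (aI bI : ι → V) (z : V) (hz : desOf aI bI z = none) (h : ι × Bool) :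
    endV aI bI h ≠ z := by
  intro e
  unfold desOf at hz
  rw [dif_pos ⟨h, e⟩] at hz
  simp at hz

end Count

theorem Cg_mono' {r s : ℕ} (h : r ≤ s) : Cg r ≤ Cg s := by
  unfold Cg
  have h1 : r - 1 ≤ s - 1 := Nat.sub_le_sub_right h 1
  have h2 : ((r - 1).factorial : ℝ) ≤ ((s - 1).factorial : ℝ) := by
    exact_mod_cast Nat.factorial_le h1
  have h3 : (2 : ℝ) ^ (r - 1) ≤ 2 ^ (s - 1) := pow_le_pow_right₀ (by norm_num) h1
  exact mul_le_mul h3 h2 (by positivity) (by positivity)

theorem Cg_nonneg' (r : ℕ) : 0 ≤ Cg r := by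
  unfold Cg; positivity

section Abs

variable {V S ι : Type} [Fintype V] [DecidableEq V] [Fintype S] [DecidableEq S]
  [Fintype ι] [DecidableEq ι]

/-- Arithmetic of the parameters of a kernel with the canonical designation. -/
theorem kernel_params [Nonempty V] (aS bS : S → V) (aI bI : ι → V) (e : ℕ)
    (h4 : ∀ z, 4 ≤ ∑ s, ((if aS s = z then 1 else 0) + (if bS s = z then 1 else 0)) +
      ∑ i, ((if aI i = z then 1 else 0) + (if bI i = z then 1 else 0)))
    (hm : Fintype.card S + Fintype.card ι = e + Fintype.card V) :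
    let des : V → Option (ι × Bool) := desOf aI bI
    let r := Fintype.card (Bdy S aI bI des)
    let v2 := Fintype.card {z : V // des z = none}
    1 ≤ r ∧ r ≤ 3 * e ∧ r = v2 + Fintype.card ι + e ∧ Fintype.card ι ≤ 2 * e ∧ 1 ≤ e := by
  intro des r v2
  have hdes : ∀ z h, des z = some h → endV aI bI h = z := desOf_spec aI bI
  have hnone : ∀ z, des z = none → ∀ h, endV aI bI h ≠ z := desOf_none aI bI
  have hk1 := card_kept aI bI des hdes
  have hk2 : Fintype.card (CutE aI bI des) =
      Fintype.card (ι × Bool) - Fintype.card {h : ι × Bool // keptE aI bI des h} :=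
    Fintype.card_subtype_compl _
  have hk3 : Fintype.card {h : ι × Bool // keptE aI bI des h} ≤ Fintype.card (ι × Bool) :=
    Fintype.card_subtype_le _
  have hk4 : Fintype.card (ι × Bool) = 2 * Fintype.card ι := by
    simp [Fintype.card_prod]; ring
  have hk5 : Fintype.card {z : V // des z ≠ none} =
      Fintype.card V - Fintype.card {z : V // des z = none} :=
    Fintype.card_subtype_compl _
  have hk6 : Fintype.card {z : V // des z = none} ≤ Fintype.card V := Fintype.card_subtype_le _
  have hk7 : r = Fintype.card S + Fintype.card (CutE aI bI des) := Fintype.card_sum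
  have hdouble : ∀ {T : Type} [Fintype T] (x y : T → V),
      ∑ z : V, ∑ s : T, ((if x s = z then 1 else 0) + (if y s = z then 1 else 0)) =
        2 * Fintype.card T := by
    intro T _ x y
    rw [Finset.sum_comm]
    have : ∀ s : T, ∑ z : V, ((if x s = z then 1 else 0) + (if y s = z then 1 else 0)) = 2 := by
      intro s
      rw [Finset.sum_add_distrib]
      simp
    simp [this, Finset.card_univ, mul_comm]
  -- the kernel count
  have hkc : 2 * Fintype.card V ≤ Fintype.card S + Fintype.card ι := by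
    have h1 : ∑ _z : V, 4 ≤ ∑ z : V, (∑ s, ((if aS s = z then 1 else 0) + (if bS s = z then 1 else 0)) +
        ∑ i, ((if aI i = z then 1 else 0) + (if bI i = z then 1 else 0))) :=
      Finset.sum_le_sum fun z _ => h4 z
    rw [Finset.sum_add_distrib, hdouble aS bS, hdouble aI bI] at h1
    simp at h1
    omega
  -- the vertices without a long end only see short chains
  have hdegS : ∀ z, des z = none →
      4 ≤ ∑ s : S, ((if aS s = z then 1 else 0) + (if bS s = z then 1 else 0)) := by
    intro z hz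
    have h5 := h4 z
    have h6 : ∑ i : ι, ((if aI i = z then 1 else 0) + (if bI i = z then 1 else 0)) = 0 := by
      refine Finset.sum_eq_zero fun i _ => ?_
      have h7 := hnone z hz (i, false)
      have h8 := hnone z hz (i, true)
      simp only [endV] at h7 h8
      simp [h7, h8]
    omega
  have hV2 : 2 * v2 ≤ Fintype.card S := by
    have h1 : ∑ _z : {z : V // des z = none}, 4 ≤ ∑ z : {z : V // des z = none},
        ∑ s : S, ((if aS s = z.1 then 1 else 0) + (if bS s = z.1 then 1 else 0)) :=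
      Finset.sum_le_sum fun z _ => hdegS z.1 z.2
    have h2 : ∑ z : {z : V // des z = none},
        ∑ s : S, ((if aS s = z.1 then 1 else 0) + (if bS s = z.1 then 1 else 0)) ≤
        ∑ z : V, ∑ s : S, ((if aS s = z then 1 else 0) + (if bS s = z then 1 else 0)) :=
      le_of_le_of_eq (Nat.le_add_right _ _) (Fintype.sum_subtype_add_sum_subtype
        (fun z : V => des z = none)
        (fun z => ∑ s : S, ((if aS s = z then 1 else 0) + (if bS s = z then 1 else 0))))
    rw [hdouble aS bS] at h2
    simp at h1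
    have : Fintype.card {z : V // des z = none} = v2 := rfl
    omega
  have hVpos : 1 ≤ Fintype.card V := Fintype.card_pos
  have hv2 : Fintype.card {z : V // des z = none} = v2 := rfl
  refine ⟨by omega, by omega, by omega, by omega, by omega⟩

/-- The bound for a kernel, abstract short and long chains. -/
theorem free_kernel (hn : 0 < n) {p K : ℕ} (hp1 : 1 ≤ p) (hKp : K ≤ p)
    (hp : 1000 * (p + 1) ^ 6 ≤ n) (β : ℝ) (hβ : 0 < β) [Nonempty V]
    (aS bS : S → V) (aI bI : ι → V) (lI : ι → ℕ) (e : ℕ)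
    (h4 : ∀ z, 4 ≤ ∑ s, ((if aS s = z then 1 else 0) + (if bS s = z then 1 else 0)) +
      ∑ i, ((if aI i = z then 1 else 0) + (if bI i = z then 1 else 0)))
    (hm : Fintype.card S + Fintype.card ι = e + Fintype.card V)
    (c : Wt →₀ ℝ) (hc : ∀ ν ∈ c.support, ∑ i, (lI i + 2) + dg ν ≤ K) :
    |∫ g, Fh β g * Ev ((∑ lam : V → Fin n, (∏ s, TT n (lam (aS s)) (lam (bS s))) *
        ∏ i, (TT n ^ (lI i + 2)) (lam (aI i)) (lam (bI i))) * Sc n c) g ∂gam n| ≤
      ((n : ℝ) ^ e)⁻¹ * Fc β K e * nrm c * Real.sqrt (∫ g, rhoH p g ^ (2 * K) ∂gam n) := by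
  have hnR : (0 : ℝ) < n := by exact_mod_cast hn
  set des : V → Option (ι × Bool) := desOf aI bI with hdesdef
  have hdes : ∀ z h, des z = some h → endV aI bI h = z := desOf_spec aI bI
  obtain ⟨hr1, hr3, hre, hι, he1⟩ := kernel_params aS bS aI bI e h4 hm
  set r := Fintype.card (Bdy S aI bI des) with hrdef
  set v2 := Fintype.card {z : V // des z = none} with hv2
  set sq := Real.sqrt (∫ g, rhoH p g ^ (2 * K) ∂gam n) with hsq
  have hsq0 : 0 ≤ sq := Real.sqrt_nonneg _
  have hnc0 : 0 ≤ nrm c := Real.sqrt_nonneg _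
  by_cases hc0 : c = 0
  · have h1 : nrm c = 0 := by subst hc0; simp [nrm, nrm2]
    have h2 : Sc n c = 0 := by subst hc0; simp [Sc]
    have h3 : ∀ g, Ev ((∑ lam : V → Fin n, (∏ s, TT n (lam (aS s)) (lam (bS s))) *
        ∏ i, (TT n ^ (lI i + 2)) (lam (aI i)) (lam (bI i))) * Sc n c) g = 0 := by
      intro g
      rw [h2, mul_zero]
      have := Ev_C_mul (0 : ℝ) (0 : Rr n) g
      simpa using this
    simp [h1, h3]
  obtain ⟨ν₀, hν₀⟩ : ∃ ν, ν ∈ c.support := by
    by_contra hcon
    push Not at hcon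
    exact hc0 (Finsupp.support_eq_empty.mp (Finset.eq_empty_of_forall_notMem hcon))
  have hbound : ∑ i, (lI i + 2) ≤ K := le_trans (Nat.le_add_right _ _) (hc ν₀ hν₀)
  have haK : ∀ i : ι, aKept aI bI des lI i ≤ lI i + 2 := by
    intro i
    unfold aKept
    split_ifs <;> omega
  have hc' : ∀ ν ∈ c.support, ∑ i, aKept aI bI des lI i + dg ν ≤ K := by
    intro ν hν
    refine le_trans ?_ (hc ν hν)
    exact Nat.add_le_add_right (Finset.sum_le_sum fun i _ => haK i) _
  have haux := free_chains hn hp1 hKp hp β hβ aS bS aI bI des hdes lI hr1 c hc'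
  refine haux.trans ?_
  have hprod : ∏ i : ι, ((aKept aI bI des lI i : ℝ) + 1) ≤ (1 + (K : ℝ) / (2 * e)) ^ (2 * e) := by
    have h1 := prod_one_add_le (Finset.univ : Finset ι) (fun i => lI i + 2) K (2 * e) (by omega)
      (by simpa [Finset.card_univ] using hι) hbound
    push_cast at h1
    refine le_trans ?_ h1
    refine Finset.prod_le_prod (fun i _ => by positivity) fun i _ => ?_
    have h2 : ((aKept aI bI des lI i : ℕ) : ℝ) ≤ ((lI i + 2 : ℕ) : ℝ) := by exact_mod_cast haK i
    push_cast at h2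
    linarith
  have hprod0 : 0 ≤ ∏ i : ι, ((aKept aI bI des lI i : ℝ) + 1) :=
    Finset.prod_nonneg fun i _ => by positivity
  have hb0 : 0 ≤ max 1 β := le_trans zero_le_one (le_max_left _ _)
  have hB1 : β ^ r ≤ (max 1 β) ^ (3 * e) :=
    calc β ^ r ≤ (max 1 β) ^ r := pow_le_pow_left₀ hβ.le (le_max_right _ _) _
      _ ≤ (max 1 β) ^ (3 * e) := pow_le_pow_right₀ (le_max_left _ _) hr3
  have hB2 : Cg r ≤ Cg (3 * e) := Cg_mono' hr3
  have hB3 : (2 : ℝ) * 2 ^ Fintype.card ι ≤ 2 ^ (2 * e + 1) := by
    rw [pow_succ']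
    have : (2 : ℝ) ^ Fintype.card ι ≤ 2 ^ (2 * e) := pow_le_pow_right₀ (by norm_num) hι
    linarith
  have hmain : β ^ r * Cg r * ((2 : ℝ) * 2 ^ Fintype.card ι) *
      ∏ i : ι, ((aKept aI bI des lI i : ℝ) + 1) ≤ Fc β K e := by
    unfold Fc
    have hCg := Cg_nonneg' r
    have hCg3 := Cg_nonneg' (3 * e)
    refine mul_le_mul (mul_le_mul (mul_le_mul hB1 hB2 hCg ?_) hB3 (by positivity) ?_) hprod hprod0 ?_
    · positivity
    · positivity
    · positivity
  have hpow : (β / n) ^ r * (n : ℝ) ^ (v2 + Fintype.card ι) = β ^ r * ((n : ℝ) ^ e)⁻¹ := by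
    rw [div_pow, hre, pow_add (n : ℝ) (v2 + Fintype.card ι) e, ← hre]
    have h1 : (n : ℝ) ^ (v2 + Fintype.card ι) ≠ 0 := by positivity
    have h2 : (n : ℝ) ^ e ≠ 0 := by positivity
    field_simp
  have hinv : 0 ≤ ((n : ℝ) ^ e)⁻¹ := by positivity
  calc (β / n) ^ r * (Cg r * ((n : ℝ) ^ (v2 + Fintype.card ι) *
        (2 * 2 ^ Fintype.card ι * (∏ i : ι, ((aKept aI bI des lI i : ℝ) + 1)) * nrm c * sq)))
      = ((β / n) ^ r * (n : ℝ) ^ (v2 + Fintype.card ι)) *
          (Cg r * (2 * 2 ^ Fintype.card ι) * (∏ i : ι, ((aKept aI bI des lI i : ℝ) + 1)) * (nrm c * sq)) := by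
        ring
    _ = ((n : ℝ) ^ e)⁻¹ * (β ^ r * Cg r * ((2 : ℝ) * 2 ^ Fintype.card ι) *
          ∏ i : ι, ((aKept aI bI des lI i : ℝ) + 1)) * (nrm c * sq) := by rw [hpow]; ring
    _ ≤ ((n : ℝ) ^ e)⁻¹ * Fc β K e * (nrm c * sq) := by
        refine mul_le_mul_of_nonneg_right ?_ (mul_nonneg hnc0 hsq0)
        exact mul_le_mul_of_nonneg_left hmain hinv
    _ = _ := by ring

end Abs

theorem free_bound2 (hn : 0 < n) {p K : ℕ} (hp1 : 1 ≤ p) (hKp : K ≤ p)
    (hp : 1000 * (p + 1) ^ 6 ≤ n) (β : ℝ) (hβ : 0 < β)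
    (V : Type) [Fintype V] [DecidableEq V] [Nonempty V] (E : List (V × V × ℕ))
    (hd4 : ∀ v, 4 ≤ degC E v) (e : ℕ) (he : E.length = e + Fintype.card V)
    (c : Wt →₀ ℝ) (hc : ∀ ν ∈ c.support, (E.map fun e => e.2.2 + 1).sum + dg ν ≤ K) :
    |∫ g, Fh β g * Ev (Pc n V E * Sc n c) g ∂gam n| ≤
      ((n : ℝ) ^ e)⁻¹ * Fc β K e * nrm c * Real.sqrt (∫ g, rhoH p g ^ (2 * K) ∂gam n) := by
  classical
  let l : Fin E.length → ℕ := fun i => E[i.1].2.2
  let a : Fin E.length → V := fun i => E[i.1].1
  let b : Fin E.length → V := fun i => E[i.1].2.1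
  have hS : Fintype.card {i : Fin E.length // l i = 0} + Fintype.card {i : Fin E.length // ¬ l i = 0} = E.length := by
    have h1 : Fintype.card {i : Fin E.length // ¬ l i = 0} =
        Fintype.card (Fin E.length) - Fintype.card {i : Fin E.length // l i = 0} :=
      Fintype.card_subtype_compl _
    have h2 : Fintype.card {i : Fin E.length // l i = 0} ≤ Fintype.card (Fin E.length) :=
      Fintype.card_subtype_le _
    simp only [Fintype.card_fin] at h1 h2
    omega
  -- the polynomial
  have hPc : Pc n V E = ∑ lam : V → Fin n,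
      (∏ s : {i : Fin E.length // l i = 0}, TT n (lam (a s.1)) (lam (b s.1))) *
        ∏ i : {i : Fin E.length // ¬ l i = 0}, (TT n ^ ((l i.1 - 1) + 2)) (lam (a i.1)) (lam (b i.1)) := by
    unfold Pc
    refine Finset.sum_congr rfl fun lam _ => ?_
    rw [← Fin.prod_univ_fun_getElem E
      (fun e => (TT n ^ (e.2.2 + 1)) (lam e.1) (lam e.2.1))]
    rw [← Fintype.prod_subtype_mul_prod_subtype (fun i : Fin E.length => l i = 0)]
    congr 1
    · refine Finset.prod_congr rfl fun s _ => ?_
      have h0 : E[s.1.1].2.2 = 0 := s.2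
      rw [h0]
      simp [a, b]
    · refine Finset.prod_congr rfl fun i _ => ?_
      have h0 : ¬ E[i.1.1].2.2 = 0 := i.2
      have h1 : E[i.1.1].2.2 + 1 = (l i.1 - 1) + 2 := by
        simp only [l]
        omega
      rw [h1]
  have hsum : (E.map fun e => e.2.2 + 1).sum = ∑ i : Fin E.length, (l i + 1) := by
    rw [← Fin.sum_univ_fun_getElem E (fun e => e.2.2 + 1)]
  have hlI : ∑ i : {i : Fin E.length // ¬ l i = 0}, ((l i.1 - 1) + 2) ≤ (E.map fun e => e.2.2 + 1).sum := by
    rw [hsum, ← Fintype.sum_subtype_add_sum_subtype (fun i : Fin E.length => ¬ l i = 0)]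
    refine le_trans ?_ (Nat.le_add_right _ _)
    refine Finset.sum_le_sum fun i _ => ?_
    have h0 : ¬ l i.1 = 0 := i.2
    omega
  have h4 : ∀ z, 4 ≤ ∑ s : {i : Fin E.length // l i = 0},
        ((if a s.1 = z then 1 else 0) + (if b s.1 = z then 1 else 0)) +
      ∑ i : {i : Fin E.length // ¬ l i = 0},
        ((if a i.1 = z then 1 else 0) + (if b i.1 = z then 1 else 0)) := by
    intro z
    have h5 := hd4 z
    have hdeg : degC E z = ∑ i : Fin E.length, ((if a i = z then 1 else 0) + (if b i = z then 1 else 0)) := by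
      unfold degC
      rw [← Fin.sum_univ_fun_getElem E (fun e => (if e.1 = z then 1 else 0) + (if e.2.1 = z then 1 else 0))]
    rw [hdeg, ← Fintype.sum_subtype_add_sum_subtype (fun i : Fin E.length => l i = 0)] at h5
    exact h5
  rw [hPc]
  exact free_kernel hn hp1 hKp hp β hβ (fun s : {i : Fin E.length // l i = 0} => a s.1) (fun s => b s.1)
    (fun i : {i : Fin E.length // ¬ l i = 0} => a i.1) (fun i => b i.1) (fun i => l i.1 - 1) e h4
    (hS.trans he) c (fun ν hν => le_trans (Nat.add_le_add_right hlI _) (hc ν hν))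

end Vale.Agent.Lib.P146
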