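import Vale.Agent.Lib.P146.LemW
import Vale.Agent.Lib.P146.GibbsR

/-! Upgrade, module V1a: the abstract free bound (replica expansion combined with Lemma W). -/

set_option autoImplicit false
open MeasureTheory MvPolynomial

namespace Vale.Agent.Lib.P146

variable {n : ℕ}

private theorem fca_list_sum_bound' {α : Type*} (L : List (ℝ × α)) (X : ℝ × α → ℝ) (B : ℝ)
    (hB : 0 ≤ B) (hX : ∀ t ∈ L, |X t| ≤ B) :
    |(L.map fun t => t.1 * X t).sum| ≤ (L.map fun t => |t.1|).sum * B := by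
  induction L with
  | nil => simp
  | cons a L ih =>
    simp only [List.map_cons, List.sum_cons]
    have h1 : |a.1 * X a| ≤ |a.1| * B := by
      rw [abs_mul]
      exact mul_le_mul_of_nonneg_left (hX a (by simp)) (abs_nonneg _)
    have h2 := ih fun t ht => hX t (List.mem_cons_of_mem _ ht)
    calc |a.1 * X a + (L.map fun t => t.1 * X t).sum|
        ≤ |a.1 * X a| + |(L.map fun t => t.1 * X t).sum| := abs_add_le _ _
      _ ≤ |a.1| * B + (L.map fun t => |t.1|).sum * B := add_le_add h1 h2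
      _ = _ := by ring

private theorem fca_list_sum_bound {α : Type*} (L : List (ℝ × α)) (X : ℝ × α → ℝ) (B C : ℝ)
    (hL : (L.map fun t => |t.1|).sum ≤ C) (hB : 0 ≤ B) (hX : ∀ t ∈ L, |X t| ≤ B) :
    |(L.map fun t => t.1 * X t).sum| ≤ C * B :=
  (fca_list_sum_bound' L X B hB hX).trans (mul_le_mul_of_nonneg_right hL hB)

private theorem fca_swap {α γ : Type*} (s : Finset γ) (L : List (ℝ × α)) (w : γ → ℝ)
    (X : γ → ℝ × α → ℝ) :
    ∑ l ∈ s, w l * (L.map fun t => t.1 * X l t).sum =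
      (L.map fun t => t.1 * ∑ l ∈ s, w l * X l t).sum := by
  induction L with
  | nil => simp
  | cons a L ih =>
    simp only [List.map_cons, List.sum_cons, mul_add, Finset.sum_add_distrib, ih]
    congr 1
    rw [Finset.mul_sum]
    exact Finset.sum_congr rfl fun l _ => by ring

private theorem fca_gw_prod_sum (β : ℝ) (g : Pt n) {r : ℕ} :
    ∑ ω : Fin r → Sp n, ∏ a, gw β g (ω a) = 1 := by
  have h := (Finset.prod_univ_sum (fun _ : Fin r => (Finset.univ : Finset (Sp n)))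
    (fun _ σ => gw β g σ))
  rw [Fintype.piFinset_univ] at h
  rw [← h]
  simp [gw_sum]

/-- Module V1a. Abstract form of the replica expansion combined with Lemma W: a polynomial
whose spin-averaged version factorises into forms `Xf` with frozen fields. -/
theorem free_core_proof (hn : 0 < n) {p K : ℕ} (hp1 : 1 ≤ p) (hKp : K ≤ p)
    (hp : 1000 * (p + 1) ^ 6 ≤ n) (β : ℝ) (hβ : 0 < β)
    {Λ ι : Type} [Fintype Λ] [Fintype ι] [DecidableEq ι] {r : ℕ} (hr : 1 ≤ r)
    (w : Λ → ℝ) (ed : Λ → Fin r → Pr n) (mu : Λ → ι → Fin n × Fin n) (a : ι → ℕ)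
    (c : Wt →₀ ℝ) (hc : ∀ ν ∈ c.support, ∑ i, a i + dg ν ≤ K) (N : ℕ)
    (A : (Fin r → Sp n) → ℝ) (hA : ∀ ρ, |A ρ| ≤ 1)
    (u v : (Fin r → Sp n) → ι → Fin n → ℝ)
    (hu : ∀ ρ i, ∑ x, (u ρ i x) ^ 2 ≤ n) (hv : ∀ ρ i, ∑ x, (v ρ i x) ^ 2 ≤ n)
    (hfac : ∀ ρ : Fin r → Sp n,
      ∑ l, C (w l * ∏ j, (sv (ρ j) (ed l j).1 * sv (ρ j) (ed l j).2)) *
          ∏ i, (TT n ^ a i) (mu l i).1 (mu l i).2 =
        C ((n : ℝ) ^ N * A ρ) * ∏ i, Xf (u ρ i) (v ρ i) (a i)) :
    |∫ g, Fh β g * Ev ((∑ l, C (w l) * ((∏ j, TT n (ed l j).1 (ed l j).2) *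
        ∏ i, (TT n ^ a i) (mu l i).1 (mu l i).2)) * Sc n c) g ∂gam n| ≤
      (β / n) ^ r * (Cg r * ((n : ℝ) ^ N * (2 * 2 ^ Fintype.card ι * (∏ i, ((a i : ℝ) + 1)) * nrm c *
        Real.sqrt (∫ g, rhoH p g ^ (2 * K) ∂gam n)))) := by
  classical
  obtain ⟨L, hL, hexp⟩ := gibbs_expand r hr
  have hnR : (0 : ℝ) < n := by exact_mod_cast hn
  let Q : Λ → Rr n := fun l => (∏ i, (TT n ^ a i) (mu l i).1 (mu l i).2) * Sc n c
  -- step 1: linearity
  have step1 : ∫ g, Fh β g * Ev ((∑ l, C (w l) * ((∏ j, TT n (ed l j).1 (ed l j).2) *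
        ∏ i, (TT n ^ a i) (mu l i).1 (mu l i).2)) * Sc n c) g ∂gam n =
      ∑ l, w l * ∫ g, Fh β g * Ev ((∏ j, TT n (ed l j).1 (ed l j).2) * Q l) g ∂gam n := by
    have hpoly : (∑ l, C (w l) * ((∏ j, TT n (ed l j).1 (ed l j).2) *
        ∏ i, (TT n ^ a i) (mu l i).1 (mu l i).2)) * Sc n c =
        ∑ l, C (w l) * ((∏ j, TT n (ed l j).1 (ed l j).2) * Q l) := by
      rw [Finset.sum_mul]
      refine Finset.sum_congr rfl fun l _ => ?_
      simp only [Q]; ring
    rw [hpoly]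
    simp_rw [Ev_sum, Ev_C_mul, Finset.mul_sum]
    rw [integral_finsetSum]
    · refine Finset.sum_congr rfl fun l _ => ?_
      rw [← integral_const_mul]
      refine integral_congr_ae (Filter.Eventually.of_forall fun g => ?_)
      simp only
      ring
    · intro l _
      exact ((PG_Fh β).mul ((PG.const _).mul (PG_Ev _))).integrable
  -- step 2: the replica expansion
  have step2 : ∫ g, Fh β g * Ev ((∑ l, C (w l) * ((∏ j, TT n (ed l j).1 (ed l j).2) *
        ∏ i, (TT n ^ a i) (mu l i).1 (mu l i).2)) * Sc n c) g ∂gam n =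
      (β / n) ^ r * (L.map fun t => t.1 * ∑ l, w l * ∑ ω : Fin r → Sp n,
          ∫ g, (∏ a', gw β g (ω a')) *
            ((∏ j, (sv (ω (t.2 j)) (ed l j).1 * sv (ω (t.2 j)) (ed l j).2)) *
              Ev (Q l) g) ∂gam n).sum := by
    rw [step1]
    simp_rw [hexp n hn β]
    simp_rw [mul_left_comm (w _) ((β / n) ^ r)]
    rw [← Finset.mul_sum]
    congr 1
    exact fca_swap Finset.univ L w (fun l t => ∑ ω : Fin r → Sp n,
          ∫ g, (∏ a', gw β g (ω a')) *
            ((∏ j, (sv (ω (t.2 j)) (ed l j).1 * sv (ω (t.2 j)) (ed l j).2)) *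
              Ev (Q l) g) ∂gam n)
  rw [step2, abs_mul, abs_of_nonneg (pow_nonneg (div_nonneg hβ.le hnR.le) _)]
  refine mul_le_mul_of_nonneg_left ?_ (pow_nonneg (div_nonneg hβ.le hnR.le) _)
  set W : ℝ := 2 * 2 ^ Fintype.card ι * (∏ i, ((a i : ℝ) + 1)) * nrm c *
          Real.sqrt (∫ g, rhoH p g ^ (2 * K) ∂gam n) with hW
  have hWnn : 0 ≤ W := by
    have : 0 ≤ nrm c := Real.sqrt_nonneg _
    have : 0 ≤ ∏ i, ((a i : ℝ) + 1) := Finset.prod_nonneg fun i _ => by positivity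
    positivity
  refine fca_list_sum_bound L _ _ _ hL (by positivity) ?_
  intro t _
  -- replicas attached to the boundary edges
  let ρ : (Fin r → Sp n) → Fin r → Sp n := fun ω j => ω (t.2 j)
  let G : (Fin r → Sp n) → Pt n → ℝ := fun ω g => (∏ a', gw β g (ω a')) * A (ρ ω)
  have hGabs : ∀ ω g, |G ω g| ≤ ∏ a', gw β g (ω a') := by
    intro ω g
    have hnn : 0 ≤ ∏ a', gw β g (ω a') := Finset.prod_nonneg fun a' _ => gw_nonneg β g _
    simp only [G, abs_mul, abs_of_nonneg hnn]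
    exact mul_le_of_le_one_right hnn (hA _)
  have hGsum : ∀ g, ∑ ω, |G ω g| ≤ 1 := by
    intro g
    calc ∑ ω, |G ω g| ≤ ∑ ω : Fin r → Sp n, ∏ a', gw β g (ω a') :=
          Finset.sum_le_sum fun ω _ => hGabs ω g
      _ = 1 := fca_gw_prod_sum β g
  have hGmeas : ∀ ω, Measurable (G ω) := by
    intro ω
    exact Measurable.mul_const (Finset.measurable_prod _ fun a' _ => gw_meas β _) _
  have hGprod : ∀ (ω : Fin r → Sp n) (g : Pt n), ∏ a', gw β g (ω a') ≤ 1 := by
    intro ω g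
    exact Finset.prod_le_one (fun a' _ => gw_nonneg β g _) (fun a' _ => gw_le_one β g _)
  have hGPG : ∀ ω, PG (G ω) := by
    intro ω
    refine ⟨hGmeas ω, 1, 0, fun g => ?_⟩
    simpa using (hGabs ω g).trans (hGprod ω g)
  have hprodPG : ∀ ω : Fin r → Sp n, PG (fun g : Pt n => ∏ a', gw β g (ω a')) := by
    intro ω
    refine ⟨Finset.measurable_prod _ fun a' _ => gw_meas β _, 1, 0, fun g => ?_⟩
    have hnn : 0 ≤ ∏ a', gw β g (ω a') := Finset.prod_nonneg fun a' _ => gw_nonneg β g _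
    simpa [abs_of_nonneg hnn] using hGprod ω g
  -- the forms
  let u' : ι → (Fin r → Sp n) → Pt n → Fin n → ℝ := fun i ω _ x => u (ρ ω) i x
  let v' : ι → (Fin r → Sp n) → Pt n → Fin n → ℝ := fun i ω _ x => v (ρ ω) i x
  have hWbound := lemmaW hn hp1 hKp hp K le_rfl (Finset.univ : Finset ι) a u' v' G c
    (fun _ _ _ => measurable_const) (fun _ _ _ => measurable_const)
    (fun i ω _ => hu _ i) (fun i ω _ => hv _ i) hGPG hc
  -- the Wick polynomial in terms of the labels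
  have hEv : ∀ ω g, ∑ l, w l * ((∏ j, (sv (ρ ω j) (ed l j).1 * sv (ρ ω j) (ed l j).2)) *
        Ev (Q l) g) =
      (n : ℝ) ^ N * (A (ρ ω) * Ev ((∏ i ∈ (Finset.univ : Finset ι),
        Xf (u' i ω g) (v' i ω g) (a i)) * Sc n c) g) := by
    intro ω g
    have h := congrArg (fun P : Rr n => Ev (P * Sc n c) g) (hfac (ρ ω))
    simp only [Finset.sum_mul, Ev_sum, mul_assoc, Ev_C_mul] at h
    calc ∑ l, w l * ((∏ j, (sv (ρ ω j) (ed l j).1 * sv (ρ ω j) (ed l j).2)) * Ev (Q l) g)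
        = _ := Finset.sum_congr rfl fun l _ => by simp only [Q]
      _ = _ := h
      _ = _ := by rfl
  -- the term of the list is the integral of the lemma
  have hterm : ∑ l, w l * ∑ ω : Fin r → Sp n, ∫ g, (∏ a', gw β g (ω a')) *
        ((∏ j, (sv (ω (t.2 j)) (ed l j).1 * sv (ω (t.2 j)) (ed l j).2)) * Ev (Q l) g) ∂gam n =
      (n : ℝ) ^ N * ∫ g, ∑ ω, G ω g *
        Ev ((∏ i ∈ (Finset.univ : Finset ι), Xf (u' i ω g) (v' i ω g) (a i)) * Sc n c) g ∂gam n := by
    have hint : ∀ (l : Λ) (ω : Fin r → Sp n),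
        Integrable (fun g => (∏ a', gw β g (ω a')) *
          ((∏ j, (sv (ω (t.2 j)) (ed l j).1 * sv (ω (t.2 j)) (ed l j).2)) *
            Ev (Q l) g)) (gam n) := by
      intro l ω
      exact ((hprodPG ω).mul ((PG.const _).mul (PG_Ev _))).integrable
    have h1 : ∑ l, w l * ∑ ω : Fin r → Sp n, ∫ g, (∏ a', gw β g (ω a')) *
          ((∏ j, (sv (ω (t.2 j)) (ed l j).1 * sv (ω (t.2 j)) (ed l j).2)) * Ev (Q l) g) ∂gam n =
        ∫ g, ∑ l, w l * ∑ ω : Fin r → Sp n, (∏ a', gw β g (ω a')) *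
          ((∏ j, (sv (ω (t.2 j)) (ed l j).1 * sv (ω (t.2 j)) (ed l j).2)) *
            Ev (Q l) g) ∂gam n := by
      rw [integral_finsetSum]
      · refine Finset.sum_congr rfl fun l _ => ?_
        rw [integral_const_mul, integral_finsetSum]
        intro ω _
        exact hint l ω
      · intro l _
        exact (integrable_finsetSum _ fun ω _ => hint l ω).const_mul _
    rw [h1, ← integral_const_mul]
    refine integral_congr_ae (Filter.Eventually.of_forall fun g => ?_)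
    simp only
    simp_rw [Finset.mul_sum]
    rw [Finset.sum_comm]
    refine Finset.sum_congr rfl fun ω _ => ?_
    have h2 := hEv ω g
    calc ∑ l, w l * ((∏ a', gw β g (ω a')) *
            ((∏ j, (sv (ω (t.2 j)) (ed l j).1 * sv (ω (t.2 j)) (ed l j).2)) * Ev (Q l) g))
        = (∏ a', gw β g (ω a')) * ∑ l, w l * ((∏ j, (sv (ρ ω j) (ed l j).1 * sv (ρ ω j) (ed l j).2)) *
            Ev (Q l) g) := by
          rw [Finset.mul_sum]
          exact Finset.sum_congr rfl fun l _ => by simp only [ρ]; ring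
      _ = _ := by
          rw [h2]
          simp only [G]
          ring
  rw [hterm, abs_mul, abs_of_pos (pow_pos hnR _)]
  refine mul_le_mul_of_nonneg_left ?_ (pow_pos hnR _).le
  refine hWbound.trans ?_
  simp only [Finset.card_univ, hW]
  refine mul_le_mul_of_nonneg_left ?_ ?_
  · refine Real.sqrt_le_sqrt ?_
    refine integral_mono_of_nonneg ?_ ?_ ?_
    · exact Filter.Eventually.of_forall fun g => by
        have h2 : 0 ≤ rhoH p g ^ (2 * K) := by
          rw [pow_mul]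
          positivity
        exact mul_nonneg (sq_nonneg _) h2
    · exact ((PG_rhoH hp1).pow _).integrable
    · refine Filter.Eventually.of_forall fun g => ?_
      have h0 : 0 ≤ ∑ ω : Fin r → Sp n, |G ω g| := Finset.sum_nonneg fun _ _ => abs_nonneg _
      have h1 : (∑ ω, |G ω g|) ^ 2 ≤ 1 := by
        have := hGsum g
        nlinarith
      have h2 : 0 ≤ rhoH p g ^ (2 * K) := by
        rw [pow_mul]
        positivity
      calc (∑ ω, |G ω g|) ^ 2 * rhoH p g ^ (2 * K) ≤ 1 * rhoH p g ^ (2 * K) :=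
            mul_le_mul_of_nonneg_right h1 h2
        _ = rhoH p g ^ (2 * K) := one_mul _
  · have h0 : 0 ≤ nrm c := Real.sqrt_nonneg _
    have h1 : 0 ≤ ∏ i, ((a i : ℝ) + 1) := Finset.prod_nonneg fun i _ => by positivity
    positivity

end Vale.Agent.Lib.P146
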