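import Vale.Agent.Lib.P146.Gram_z

/-! Module D: near-orthonormality of `𝐓^a Snu ν` (Lemma R). -/

set_option autoImplicit false
open MvPolynomial

namespace Vale.Agent.Lib.P146

variable {n : ℕ}

/-- The component of `ξ` at position `a` and degree `d`. -/
noncomputable def slice (ξ : ℕ × Wt →₀ ℝ) (a d : ℕ) : Wt →₀ ℝ :=
  Finsupp.onFinset ((ξ.support.filter fun q => q.1 = a ∧ dg q.2 = d).image Prod.snd)
    (fun ν => if dg ν = d then ξ (a, ν) else 0)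
    (by
      intro ν hν
      by_cases h1 : dg ν = d
      · rw [if_pos h1] at hν
        simp only [Finset.mem_image, Finset.mem_filter, Finsupp.mem_support_iff]
        exact ⟨(a, ν), ⟨hν, rfl, h1⟩, rfl⟩
      · rw [if_neg h1] at hν
        exact absurd rfl hν)

lemma slice_sum {M : Type*} [AddCommMonoid M] (ξ : ℕ × Wt →₀ ℝ) (a d : ℕ) (F : Wt → ℝ → M)
    (hF : ∀ ν, F ν 0 = 0) :
    (slice ξ a d).sum F =
      ∑ q ∈ ξ.support.filter (fun q => q.1 = a ∧ dg q.2 = d), F q.2 (ξ q) := by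
  unfold slice
  rw [Finsupp.onFinset_sum _ hF, Finset.sum_image]
  · refine Finset.sum_congr rfl fun q hq => ?_
    obtain ⟨_, h1, h2⟩ := Finset.mem_filter.1 hq
    have hq' : (a, q.2) = q := by rw [← h1]
    rw [if_pos h2, hq']
  · intro q hq q' hq' h
    obtain ⟨_, h1, _⟩ := Finset.mem_filter.1 (Finset.mem_coe.1 hq)
    obtain ⟨_, h2, _⟩ := Finset.mem_filter.1 (Finset.mem_coe.1 hq')
    exact Prod.ext (h1.trans h2.symm) h

lemma hom_slice (ξ : ℕ × Wt →₀ ℝ) (a d : ℕ) : Hom d (slice ξ a d) := by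
  intro ν hν
  have h := Finsupp.mem_support_iff.1 hν
  unfold slice at h
  rw [Finsupp.onFinset_apply] at h
  by_contra h1
  rw [if_neg h1] at h
  exact h rfl

/-- The index set. -/
def Tset (p : ℕ) : Finset (ℕ × ℕ) :=
  (Finset.range (p + 1) ×ˢ Finset.range (p + 1)).filter fun u => u.1 + u.2 ≤ p

lemma mem_Tset {p : ℕ} {u : ℕ × ℕ} : u ∈ Tset p ↔ u.1 + u.2 ≤ p := by
  unfold Tset
  simp only [Finset.mem_filter, Finset.mem_product, Finset.mem_range]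
  constructor
  · exact fun h => h.2
  · exact fun h => ⟨⟨by omega, by omega⟩, h⟩

/-- Fibrewise summation over the slices. -/
lemma sum_fibre {M : Type*} [AddCommMonoid M] {p : ℕ} (ξ : ℕ × Wt →₀ ℝ)
    (hξ : ∀ q ∈ ξ.support, q.1 + dg q.2 ≤ p) (G : ℕ × Wt → M) :
    ∑ u ∈ Tset p, ∑ q ∈ ξ.support.filter (fun q => q.1 = u.1 ∧ dg q.2 = u.2), G q =
      ∑ q ∈ ξ.support, G q := by
  have h1 : ∀ q ∈ ξ.support, (q.1, dg q.2) ∈ Tset p := fun q hq => mem_Tset.2 (hξ q hq)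
  rw [← Finset.sum_fiberwise_of_maps_to h1]
  refine Finset.sum_congr rfl fun u _ => ?_
  refine Finset.sum_congr ?_ fun _ _ => rfl
  refine Finset.filter_congr fun q _ => ?_
  constructor
  · rintro ⟨h2, h3⟩
    exact Prod.ext h2 h3
  · intro h2
    exact ⟨congrArg Prod.fst h2, congrArg Prod.snd h2⟩

lemma nrm2_eq_sum_slice {p : ℕ} (ξ : ℕ × Wt →₀ ℝ) (hξ : ∀ q ∈ ξ.support, q.1 + dg q.2 ≤ p) :
    ∑ u ∈ Tset p, nrm (slice ξ u.1 u.2) ^ 2 = nrm ξ ^ 2 := by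
  simp only [sq_nrm_gr]
  have h : ∀ u : ℕ × ℕ, nrm2 (slice ξ u.1 u.2) =
      ∑ q ∈ ξ.support.filter (fun q => q.1 = u.1 ∧ dg q.2 = u.2), (ξ q) ^ 2 := by
    intro u
    unfold nrm2
    rw [slice_sum ξ u.1 u.2 (fun _ r => r ^ 2) (by simp)]
  simp only [h]
  rw [sum_fibre ξ hξ (fun q => (ξ q) ^ 2)]
  rfl

lemma Psi_eq_sum_slice {p : ℕ} (ξ : ℕ × Wt →₀ ℝ) (hξ : ∀ q ∈ ξ.support, q.1 + dg q.2 ≤ p)
    (x y : Fin n) :
    Psi n ξ x y = ∑ u ∈ Tset p, (TT n ^ u.1) x y * Sc n (slice ξ u.1 u.2) := by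
  have h : ∀ u : ℕ × ℕ, (TT n ^ u.1) x y * Sc n (slice ξ u.1 u.2) =
      ∑ q ∈ ξ.support.filter (fun q => q.1 = u.1 ∧ dg q.2 = u.2),
        C (ξ q) * ((TT n ^ q.1) x y * Snu n q.2) := by
    intro u
    unfold Sc
    rw [slice_sum ξ u.1 u.2 (fun ν r => C r * Snu n ν) (by simp), Finset.mul_sum]
    refine Finset.sum_congr rfl fun q hq => ?_
    obtain ⟨_, h1, _⟩ := Finset.mem_filter.1 hq
    rw [h1]
    ring
  simp only [h]
  rw [sum_fibre ξ hξ (fun q => C (ξ q) * ((TT n ^ q.1) x y * Snu n q.2))]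
  simp only [Psi, Matrix.of_apply]
  rfl

lemma Qf_eq_sum_BB {p : ℕ} (W : WForm n) (ξ ξ' : ℕ × Wt →₀ ℝ)
    (hξ : ∀ q ∈ ξ.support, q.1 + dg q.2 ≤ p) (hξ' : ∀ q ∈ ξ'.support, q.1 + dg q.2 ≤ p) :
    Qf W ξ ξ' = ∑ u ∈ Tset p, ∑ v ∈ Tset p,
      BB W u.1 v.1 (slice ξ u.1 u.2) (slice ξ' v.1 v.2) := by
  unfold Qf BB
  simp only [Psi_eq_sum_slice ξ hξ, Psi_eq_sum_slice ξ' hξ', map_sum, LinearMap.sum_apply]
  simp only [← Finset.mul_sum]
  congr 1
  rw [sum3]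
  refine Eq.trans (Finset.sum_congr rfl fun v _ => sum3 _ _) ?_
  exact Finset.sum_comm

/-- Counting the pairs of equal total degree. -/
lemma sum_deg_le {p : ℕ} (f : ℕ × ℕ → ℝ) (hf : ∀ u, 0 ≤ f u) :
    ∑ u ∈ Tset p, ∑ v ∈ Tset p, (if u.1 + u.2 = v.1 + v.2 then f u else 0) ≤
      ((p : ℝ) + 1) * ∑ u ∈ Tset p, f u := by
  classical
  rw [Finset.mul_sum]
  refine Finset.sum_le_sum fun u _ => ?_
  rw [← Finset.sum_filter, Finset.sum_const, nsmul_eq_mul]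
  refine mul_le_mul_of_nonneg_right ?_ (hf u)
  have h1 : ((Tset p).filter fun v => u.1 + u.2 = v.1 + v.2).card ≤ (Finset.range (p + 1)).card := by
    refine Finset.card_le_card_of_injOn (fun v => v.1) ?_ ?_
    · intro v hv
      have h2 := mem_Tset.1 (Finset.mem_filter.1 (Finset.mem_coe.1 hv)).1
      exact Finset.mem_coe.2 (Finset.mem_range.2 (show v.1 < p + 1 by omega))
    · intro v hv v' hv' h
      have h2 := (Finset.mem_filter.1 (Finset.mem_coe.1 hv)).2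
      have h3 := (Finset.mem_filter.1 (Finset.mem_coe.1 hv')).2
      simp only at h
      exact Prod.ext h (by omega)
  rw [Finset.card_range] at h1
  exact_mod_cast h1

lemma bd_num {D p : ℕ} (hn : 0 < n) (hp : 1000 * (p + 1) ^ 6 ≤ n) (hD : D ≤ p) :
    bdA n D ≤ 2 ∧ bdB n D ≤ bdB n p ∧ bdB n p * ((p : ℝ) + 1) ≤ 1 := by
  have hn' : (0 : ℝ) < (n : ℝ) := by exact_mod_cast hn
  have hp0 : (p : ℝ) ≥ 0 := by positivity
  have hpR : 1000 * ((p : ℝ) + 1) ^ 6 ≤ (n : ℝ) := by exact_mod_cast hp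
  have hDp : (D : ℝ) ≤ (p : ℝ) := by exact_mod_cast hD
  have hD0 : (0 : ℝ) ≤ (D : ℝ) := by positivity
  refine ⟨?_, ?_, ?_⟩
  · unfold bdA
    have h1 : 8 * (D : ℝ) ^ 5 ≤ (n : ℝ) := by
      have h2 : (D : ℝ) ^ 5 ≤ ((p : ℝ) + 1) ^ 5 := pow_le_pow_left₀ hD0 (by linarith) 5
      have h3 : ((p : ℝ) + 1) ^ 5 ≤ ((p : ℝ) + 1) ^ 6 :=
        pow_le_pow_right₀ (by linarith) (by norm_num)
      linarith
    have h4 : 8 * (D : ℝ) ^ 5 * (1 / (n : ℝ)) ≤ 1 := by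
      rw [mul_one_div, div_le_one hn']
      exact h1
    linarith
  · unfold bdB
    have h2 : (D : ℝ) ^ 3 ≤ (p : ℝ) ^ 3 := pow_le_pow_left₀ hD0 hDp 3
    have h3 : (0 : ℝ) ≤ 1 / (n : ℝ) := by positivity
    exact mul_le_mul_of_nonneg_right (by linarith) h3
  · unfold bdB
    have h1 : 8 * (p : ℝ) ^ 3 * ((p : ℝ) + 1) ≤ (n : ℝ) := by
      have h2 : 1000 * ((p : ℝ) + 1) ^ 6 - 8 * (p : ℝ) ^ 3 * ((p : ℝ) + 1) =
          1000 * (p : ℝ) ^ 6 + 6000 * (p : ℝ) ^ 5 + 14992 * (p : ℝ) ^ 4 + 19992 * (p : ℝ) ^ 3 +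
            15000 * (p : ℝ) ^ 2 + 6000 * (p : ℝ) + 1000 := by ring
      have h3 : 0 ≤ 1000 * (p : ℝ) ^ 6 + 6000 * (p : ℝ) ^ 5 + 14992 * (p : ℝ) ^ 4 +
          19992 * (p : ℝ) ^ 3 + 15000 * (p : ℝ) ^ 2 + 6000 * (p : ℝ) + 1000 := by positivity
      linarith
    have h4 : 8 * (p : ℝ) ^ 3 * (1 / (n : ℝ)) * ((p : ℝ) + 1) =
        8 * (p : ℝ) ^ 3 * ((p : ℝ) + 1) / (n : ℝ) := by ring
    rw [h4, div_le_one hn']
    exact h1

/-- Lemma R, final form. -/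
theorem gram_bound (hn : 0 < n) {p : ℕ} (hp : 1000 * (p + 1) ^ 6 ≤ n) (W : WForm n)
    (ξ ξ' : ℕ × Wt →₀ ℝ)
    (hξ : ∀ q ∈ ξ.support, q.1 + dg q.2 ≤ p) (hξ' : ∀ q ∈ ξ'.support, q.1 + dg q.2 ≤ p) :
    |Qf W ξ ξ'| ≤ 3 * nrm ξ * nrm ξ' := by
  classical
  rw [Qf_eq_sum_BB W ξ ξ' hξ hξ']
  set x : ℕ × ℕ → ℝ := fun u => nrm (slice ξ u.1 u.2) with hx
  set y : ℕ × ℕ → ℝ := fun u => nrm (slice ξ' u.1 u.2) with hy
  have hx0 : ∀ u, 0 ≤ x u := fun u => nrm_nonneg_gr _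
  have hy0 : ∀ u, 0 ≤ y u := fun u => nrm_nonneg_gr _
  have hB0 := bdB_nonneg n p
  obtain ⟨-, -, hBp⟩ := bd_num (D := p) hn hp le_rfl
  have hH := gramH_all hn W hp
  -- entrywise bound
  have h1 : ∀ u ∈ Tset p, ∀ v ∈ Tset p,
      |BB W u.1 v.1 (slice ξ u.1 u.2) (slice ξ' v.1 v.2)| ≤
        (if u = v then 2 * (x u * y v) else 0) +
          (if u.1 + u.2 = v.1 + v.2 then bdB n p * (x u * y v) else 0) := by
    intro u hu v hv
    have hu' := mem_Tset.1 hu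
    by_cases hd : u.1 + u.2 = v.1 + v.2
    · have hxy : 0 ≤ x u * y v := mul_nonneg (hx0 u) (hy0 v)
      have h2 := hH (u.1 + u.2) hu' u.1 v.1 u.2 v.2 _ _ (hom_slice ξ u.1 u.2) (hom_slice ξ' v.1 v.2)
        rfl hd.symm
      obtain ⟨hA, hB, -⟩ := bd_num (D := u.1 + u.2) hn hp hu'
      rw [if_pos hd]
      by_cases huv : u = v
      · rw [if_pos huv]
        rw [if_pos (congrArg Prod.fst huv)] at h2
        have h3 : bdA n (u.1 + u.2) * nrm (slice ξ u.1 u.2) * nrm (slice ξ' v.1 v.2) ≤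
            2 * (x u * y v) := by
          have := mul_le_mul_of_nonneg_right hA hxy
          simpa [hx, hy, mul_assoc] using this
        have h4 : 0 ≤ bdB n p * (x u * y v) := mul_nonneg hB0 hxy
        linarith
      · rw [if_neg huv, zero_add]
        have h5 : u.1 ≠ v.1 := by
          intro h6
          exact huv (Prod.ext h6 (by omega))
        rw [if_neg h5] at h2
        refine h2.trans ?_
        have := mul_le_mul_of_nonneg_right hB hxy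
        simpa [hx, hy, mul_assoc] using this
    · have h2 : BB W u.1 v.1 (slice ξ u.1 u.2) (slice ξ' v.1 v.2) = 0 :=
        BB_eq_zero hn W (hom_slice ξ u.1 u.2) (hom_slice ξ' v.1 v.2) hd
      rw [h2, abs_zero, if_neg hd, add_zero]
      split_ifs with huv
      · exact mul_nonneg (by norm_num) (mul_nonneg (hx0 u) (hy0 v))
      · exact le_rfl
  have h2 : |∑ u ∈ Tset p, ∑ v ∈ Tset p, BB W u.1 v.1 (slice ξ u.1 u.2) (slice ξ' v.1 v.2)| ≤
      ∑ u ∈ Tset p, ∑ v ∈ Tset p, ((if u = v then 2 * (x u * y v) else 0) +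
          (if u.1 + u.2 = v.1 + v.2 then bdB n p * (x u * y v) else 0)) := by
    refine (Finset.abs_sum_le_sum_abs _ _).trans (Finset.sum_le_sum fun u hu => ?_)
    exact (Finset.abs_sum_le_sum_abs _ _).trans (Finset.sum_le_sum fun v hv => h1 u hu v hv)
  refine h2.trans ?_
  -- the two pieces
  set X := nrm ξ with hX
  set Y := nrm ξ' with hY
  have hX0 : 0 ≤ X := nrm_nonneg_gr ξ
  have hY0 : 0 ≤ Y := nrm_nonneg_gr ξ'
  have hsx : ∑ u ∈ Tset p, x u ^ 2 = X ^ 2 := nrm2_eq_sum_slice ξ hξ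
  have hsy : ∑ u ∈ Tset p, y u ^ 2 = Y ^ 2 := nrm2_eq_sum_slice ξ' hξ'
  have p1 : ∑ u ∈ Tset p, ∑ v ∈ Tset p, (if u = v then 2 * (x u * y v) else 0) ≤
      2 * (X * Y) := by
    have h3 : ∀ u ∈ Tset p, ∑ v ∈ Tset p, (if u = v then 2 * (x u * y v) else 0) =
        2 * (x u * y u) := by
      intro u hu
      rw [Finset.sum_ite_eq, if_pos hu]
    rw [Finset.sum_congr rfl h3, ← Finset.mul_sum]
    have h4 := Finset.sum_mul_sq_le_sq_mul_sq (Tset p) x y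
    rw [hsx, hsy] at h4
    have h5 : (∑ u ∈ Tset p, x u * y u) ^ 2 ≤ (X * Y) ^ 2 := by
      refine h4.trans (le_of_eq ?_)
      ring
    have h6 := (abs_le_of_sq_le_sq' h5 (mul_nonneg hX0 hY0)).2
    linarith
  have p2 : ∑ u ∈ Tset p, ∑ v ∈ Tset p,
      (if u.1 + u.2 = v.1 + v.2 then bdB n p * (x u * y v) else 0) ≤
        bdB n p * (((p : ℝ) + 1) * (X * Y)) := by
    have h3 : ∑ u ∈ Tset p, ∑ v ∈ Tset p,
        (if u.1 + u.2 = v.1 + v.2 then bdB n p * (x u * y v) else 0) =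
        bdB n p * ∑ w ∈ Tset p ×ˢ Tset p, (if w.1.1 + w.1.2 = w.2.1 + w.2.2 then x w.1 else 0) *
          (if w.1.1 + w.1.2 = w.2.1 + w.2.2 then y w.2 else 0) := by
      rw [Finset.sum_product, Finset.mul_sum]
      refine Finset.sum_congr rfl fun u _ => ?_
      rw [Finset.mul_sum]
      refine Finset.sum_congr rfl fun v _ => ?_
      by_cases hd : u.1 + u.2 = v.1 + v.2
      · simp only [if_pos hd]
      · simp only [if_neg hd]; ring
    rw [h3]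
    refine mul_le_mul_of_nonneg_left ?_ hB0
    have h4 := Finset.sum_mul_sq_le_sq_mul_sq (Tset p ×ˢ Tset p)
      (fun w => if w.1.1 + w.1.2 = w.2.1 + w.2.2 then x w.1 else 0)
      (fun w => if w.1.1 + w.1.2 = w.2.1 + w.2.2 then y w.2 else 0)
    have h5 : ∑ w ∈ Tset p ×ˢ Tset p,
        (if w.1.1 + w.1.2 = w.2.1 + w.2.2 then x w.1 else 0) ^ 2 ≤ ((p : ℝ) + 1) * X ^ 2 := by
      rw [Finset.sum_product, ← hsx]
      refine le_trans (le_of_eq ?_) (sum_deg_le (fun u => x u ^ 2) (fun _ => sq_nonneg _))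
      refine Finset.sum_congr rfl fun u _ => Finset.sum_congr rfl fun v _ => ?_
      by_cases hd : u.1 + u.2 = v.1 + v.2
      · simp only [if_pos hd]
      · simp only [if_neg hd]; ring
    have h6 : ∑ w ∈ Tset p ×ˢ Tset p,
        (if w.1.1 + w.1.2 = w.2.1 + w.2.2 then y w.2 else 0) ^ 2 ≤ ((p : ℝ) + 1) * Y ^ 2 := by
      rw [Finset.sum_product_right, ← hsy]
      refine le_trans (le_of_eq ?_) (sum_deg_le (fun u => y u ^ 2) (fun _ => sq_nonneg _))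
      refine Finset.sum_congr rfl fun u _ => Finset.sum_congr rfl fun v _ => ?_
      by_cases hd : v.1 + v.2 = u.1 + u.2
      · rw [if_pos hd, if_pos hd.symm]
      · rw [if_neg hd, if_neg (Ne.symm hd)]; ring
    have hp1 : (0 : ℝ) ≤ (p : ℝ) + 1 := by positivity
    have h7 : (∑ w ∈ Tset p ×ˢ Tset p, (if w.1.1 + w.1.2 = w.2.1 + w.2.2 then x w.1 else 0) *
          (if w.1.1 + w.1.2 = w.2.1 + w.2.2 then y w.2 else 0)) ^ 2 ≤
        (((p : ℝ) + 1) * (X * Y)) ^ 2 := by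
      refine h4.trans ?_
      refine (mul_le_mul h5 h6 (Finset.sum_nonneg fun _ _ => sq_nonneg _) (by positivity)).trans
        (le_of_eq ?_)
      ring
    exact (abs_le_of_sq_le_sq' h7 (by positivity)).2
  have hsum : ∑ u ∈ Tset p, ∑ v ∈ Tset p, ((if u = v then 2 * (x u * y v) else 0) +
      (if u.1 + u.2 = v.1 + v.2 then bdB n p * (x u * y v) else 0)) =
      ∑ u ∈ Tset p, ∑ v ∈ Tset p, (if u = v then 2 * (x u * y v) else 0) +
      ∑ u ∈ Tset p, ∑ v ∈ Tset p,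
        (if u.1 + u.2 = v.1 + v.2 then bdB n p * (x u * y v) else 0) := by
    simp only [Finset.sum_add_distrib]
  rw [hsum]
  have hXY : 0 ≤ X * Y := mul_nonneg hX0 hY0
  have p3 : bdB n p * (((p : ℝ) + 1) * (X * Y)) ≤ X * Y := by
    have := mul_le_mul_of_nonneg_right hBp hXY
    nlinarith
  linarith

/-- The case `a = b = 0`. -/
theorem sc_bound (hn : 0 < n) {p : ℕ} (hp : 1000 * (p + 1) ^ 6 ≤ n) (W : WForm n)
    (c : Wt →₀ ℝ) (hc : ∀ ν ∈ c.support, dg ν ≤ p) :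
    W.B (Sc n c) (Sc n c) ≤ 3 * nrm2 c := by
  classical
  have hinj : Function.Injective (fun ν : Wt => ((0 : ℕ), ν)) := fun a b h =>
    congrArg Prod.snd h
  set ξ : ℕ × Wt →₀ ℝ := c.mapDomain (fun ν : Wt => ((0 : ℕ), ν)) with hξ
  have hsupp : ∀ q ∈ ξ.support, q.1 + dg q.2 ≤ p := by
    intro q hq
    have h1 := Finsupp.mapDomain_support hq
    obtain ⟨ν, hν, rfl⟩ := Finset.mem_image.1 h1
    simpa using hc ν hν
  have hPsi : ∀ x y, Psi n ξ x y = (TT n ^ 0) x y * Sc n c := by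
    intro x y
    simp only [Psi, Matrix.of_apply]
    rw [hξ, Finsupp.sum_mapDomain_index_inj hinj]
    unfold Sc
    rw [Finsupp.mul_sum]
    refine Finsupp.sum_congr fun ν _ => ?_
    ring
  have hnrm : nrm ξ = nrm c := by
    unfold nrm nrm2
    rw [hξ, Finsupp.sum_mapDomain_index_inj hinj]
  have h1 := gram_bound hn hp W ξ ξ hsupp hsupp
  have h2 : Qf W ξ ξ = W.B (Sc n c) (Sc n c) := by
    rw [← BB_zero_zero hn W c c]
    unfold Qf BB
    simp only [hPsi]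
  rw [h2, hnrm] at h1
  have h3 := (abs_le.1 h1).2
  rw [mul_assoc, ← sq, sq_nrm_gr] at h3
  exact h3

end Vale.Agent.Lib.P146
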