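import Vale.Agent.Lib.P146.MatAlg

/-! Module D, part 1: the bilinear form `BB` and its recursions (R1, R2, R3). -/

set_option autoImplicit false
open MvPolynomial

namespace Vale.Agent.Lib.P146

variable {n : ℕ}

/-- The form `𝔅_{a,b}(c,c') = (1/n) Σ_{x,y} W.B((𝐓^a)_xy Sc c, (𝐓^b)_xy Sc c')`. -/
noncomputable def BB (W : WForm n) (a b : ℕ) (c c' : Wt →₀ ℝ) : ℝ :=
  (1 / (n : ℝ)) * ∑ x, ∑ y, W.B ((TT n ^ a) x y * Sc n c) ((TT n ^ b) x y * Sc n c')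

theorem BB_symm (W : WForm n) (a b : ℕ) (c c' : Wt →₀ ℝ) : BB W a b c c' = BB W b a c' c := by
  unfold BB
  congr 1
  refine Finset.sum_congr rfl fun x _ => Finset.sum_congr rfl fun y _ => W.symm _ _

lemma WB_C_left (W : WForm n) (r : ℝ) (p q : Rr n) : W.B (C r * p) q = r * W.B p q := by
  rw [← MvPolynomial.smul_eq_C_mul]
  simp

lemma WB_C_right (W : WForm n) (r : ℝ) (p q : Rr n) : W.B p (C r * q) = r * W.B p q := by
  rw [← MvPolynomial.smul_eq_C_mul]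
  simp

lemma DD_comm (x z : Fin n) : DD x z = DD z x := by
  unfold DD cc
  rw [Sym2.eq_swap]
  by_cases h : x = z
  · subst h; rfl
  · rw [if_neg h, if_neg (Ne.symm h)]

lemma sqrt_inv_mul (hn : 0 < n) : (Real.sqrt n)⁻¹ * (Real.sqrt n)⁻¹ = 1 / (n : ℝ) := by
  have h : (0 : ℝ) < n := by exact_mod_cast hn
  rw [← mul_inv, Real.mul_self_sqrt h.le, one_div]

/-- The last term of the contraction. -/
lemma contract_last (hn : 0 < n) (a L : ℕ) (z y : Fin n) (c : Wt →₀ ℝ)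
    (hL : ∀ ν ∈ c.support, ∀ ℓ ∈ ν, ℓ < L) :
    C (Real.sqrt n)⁻¹ * ∑ x, (TT n ^ a) x y * DD z x (Sc n c) =
      C (1 / (n : ℝ)) * ∑ ℓ ∈ Finset.range L, (TT n ^ (a + ℓ)) z y * Sc n (down ℓ c) := by
  have h1 : ∀ x, (TT n ^ a) x y * DD z x (Sc n c) = C (Real.sqrt n)⁻¹ *
      ∑ ℓ ∈ Finset.range L, ((TT n ^ ℓ) z x * (TT n ^ a) x y) * Sc n (down ℓ c) := by
    intro x
    rw [DD_Sc hn z x c L hL, mul_left_comm, Finset.mul_sum]
    congr 1
    refine Finset.sum_congr rfl fun ℓ _ => ?_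
    ring
  simp_rw [h1]
  rw [← Finset.mul_sum, ← mul_assoc, ← C_mul, sqrt_inv_mul hn]
  congr 1
  rw [Finset.sum_comm]
  refine Finset.sum_congr rfl fun ℓ _ => ?_
  rw [← Finset.sum_mul]
  congr 1
  rw [add_comm a ℓ, pow_add, Matrix.mul_apply]

/-- Contraction for `Sc`, exponent `a + 1`. -/
theorem contract_Sc (hn : 0 < n) (a L : ℕ) (z y : Fin n) (c : Wt →₀ ℝ)
    (hL : ∀ ν ∈ c.support, ∀ ℓ ∈ ν, ℓ < L) :
    C (Real.sqrt n)⁻¹ * ∑ x, DD x z ((TT n ^ (a + 1)) x y * Sc n c) =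
      C (1 + ((a : ℝ) + 1) / n) * ((TT n ^ a) z y * Sc n c)
      + C (1 / (n : ℝ)) * ∑ j ∈ Finset.range a, (TT n ^ (a - 1 - j)) z y * Sc n (up j c)
      + C (1 / (n : ℝ)) * ∑ ℓ ∈ Finset.range L, (TT n ^ (a + 1 + ℓ)) z y * Sc n (down ℓ c) := by
  have hcomm : ∀ x, DD x z = DD z x := fun x => DD_comm x z
  simp_rw [hcomm]
  rw [DD_contract hn a z y (Sc n c)]
  simp only [Trc_mul_Sc hn]
  rw [contract_last hn (a + 1) L z y c hL]

/-- Contraction for `Sc`, exponent `0`. -/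
theorem contract_Sc_zero (hn : 0 < n) (L : ℕ) (z y : Fin n) (c : Wt →₀ ℝ)
    (hL : ∀ ν ∈ c.support, ∀ ℓ ∈ ν, ℓ < L) :
    C (Real.sqrt n)⁻¹ * ∑ x, DD x z ((TT n ^ 0) x y * Sc n c) =
      C (1 / (n : ℝ)) * ∑ ℓ ∈ Finset.range L, (TT n ^ ℓ) z y * Sc n (down ℓ c) := by
  have hcomm : ∀ x, DD x z = DD z x := fun x => DD_comm x z
  simp_rw [hcomm]
  rw [DD_contract_zero z y (Sc n c), DD_Sc hn z y c L hL, ← mul_assoc, ← C_mul, sqrt_inv_mul hn]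

/-- Integration by parts in the second slot: replaces `𝐓^{b+1}` by `𝐓^b` and contracts. -/
theorem BB_expand (hn : 0 < n) (W : WForm n) (b : ℕ) (c' : Wt →₀ ℝ)
    (P : Fin n → Fin n → Rr n) :
    ∑ x, ∑ y, W.B (P x y) ((TT n ^ (b + 1)) x y * Sc n c') =
      ∑ z, ∑ y, W.B (C (Real.sqrt n)⁻¹ * ∑ x, DD x z (P x y)) ((TT n ^ b) z y * Sc n c') := by
  have h1 : ∀ x y, W.B (P x y) ((TT n ^ (b + 1)) x y * Sc n c') =
      ∑ z, (Real.sqrt n)⁻¹ * W.B (DD x z (P x y)) ((TT n ^ b) z y * Sc n c') := by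
    intro x y
    have h2 : (TT n ^ (b + 1)) x y * Sc n c' =
        ∑ z, TT n x z * ((TT n ^ b) z y * Sc n c') := by
      rw [pow_succ', Matrix.mul_apply, Finset.sum_mul]
      refine Finset.sum_congr rfl fun z _ => ?_
      ring
    rw [h2, map_sum]
    refine Finset.sum_congr rfl fun z _ => ?_
    rw [W.symm, WForm_TT hn W, W.symm]
  simp_rw [h1]
  calc ∑ x, ∑ y, ∑ z, (Real.sqrt n)⁻¹ * W.B (DD x z (P x y)) ((TT n ^ b) z y * Sc n c')
      = ∑ z, ∑ y, ∑ x, (Real.sqrt n)⁻¹ * W.B (DD x z (P x y)) ((TT n ^ b) z y * Sc n c') := by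
        rw [Finset.sum_comm]
        refine Eq.trans (Finset.sum_congr rfl fun y _ => Finset.sum_comm) ?_
        rw [Finset.sum_comm]
    _ = _ := by
        refine Finset.sum_congr rfl fun z _ => Finset.sum_congr rfl fun y _ => ?_
        rw [WB_C_left, map_sum, LinearMap.sum_apply, Finset.mul_sum]

lemma sum3 {ι : Type*} (s : Finset ι) (F : ι → Fin n → Fin n → ℝ) :
    ∑ z, ∑ y, ∑ j ∈ s, F j z y = ∑ j ∈ s, ∑ z, ∑ y, F j z y := by
  refine Eq.trans (Finset.sum_congr rfl fun z _ => Finset.sum_comm) ?_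
  exact Finset.sum_comm

/-- (R1) for `a + 1`, `b + 1`. -/
theorem BB_succ_succ (hn : 0 < n) (W : WForm n) (a b L : ℕ) (c c' : Wt →₀ ℝ)
    (hL : ∀ ν ∈ c.support, ∀ ℓ ∈ ν, ℓ < L) :
    BB W (a + 1) (b + 1) c c' = (1 + ((a : ℝ) + 1) / n) * BB W a b c c'
      + (1 / (n : ℝ)) * ∑ j ∈ Finset.range a, BB W (a - 1 - j) b (up j c) c'
      + (1 / (n : ℝ)) * ∑ ℓ ∈ Finset.range L, BB W (a + 1 + ℓ) b (down ℓ c) c' := by
  unfold BB
  rw [BB_expand hn W b c' (fun x y => (TT n ^ (a + 1)) x y * Sc n c)]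
  simp only [contract_Sc hn a L _ _ c hL]
  have key : ∀ z y, W.B (C (1 + ((a : ℝ) + 1) / n) * ((TT n ^ a) z y * Sc n c)
      + C (1 / (n : ℝ)) * ∑ j ∈ Finset.range a, (TT n ^ (a - 1 - j)) z y * Sc n (up j c)
      + C (1 / (n : ℝ)) * ∑ ℓ ∈ Finset.range L, (TT n ^ (a + 1 + ℓ)) z y * Sc n (down ℓ c))
      ((TT n ^ b) z y * Sc n c') =
      (1 + ((a : ℝ) + 1) / n) * W.B ((TT n ^ a) z y * Sc n c) ((TT n ^ b) z y * Sc n c')
      + (1 / (n : ℝ)) * ∑ j ∈ Finset.range a,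
          W.B ((TT n ^ (a - 1 - j)) z y * Sc n (up j c)) ((TT n ^ b) z y * Sc n c')
      + (1 / (n : ℝ)) * ∑ ℓ ∈ Finset.range L,
          W.B ((TT n ^ (a + 1 + ℓ)) z y * Sc n (down ℓ c)) ((TT n ^ b) z y * Sc n c') := by
    intro z y
    rw [map_add, map_add, LinearMap.add_apply, LinearMap.add_apply, WB_C_left, WB_C_left,
      WB_C_left, map_sum, map_sum, LinearMap.sum_apply, LinearMap.sum_apply]
  simp only [key, Finset.sum_add_distrib, ← Finset.mul_sum, sum3]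
  ring

/-- (R1) for `a = 0`, `b + 1`. -/
theorem BB_zero_succ (hn : 0 < n) (W : WForm n) (b L : ℕ) (c c' : Wt →₀ ℝ)
    (hL : ∀ ν ∈ c.support, ∀ ℓ ∈ ν, ℓ < L) :
    BB W 0 (b + 1) c c' =
      (1 / (n : ℝ)) * ∑ ℓ ∈ Finset.range L, BB W ℓ b (down ℓ c) c' := by
  unfold BB
  rw [BB_expand hn W b c' (fun x y => (TT n ^ 0) x y * Sc n c)]
  simp only [contract_Sc_zero hn L _ _ c hL]
  simp only [WB_C_left, map_sum, LinearMap.sum_apply, ← Finset.mul_sum, sum3]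

/-- (R2) for `a + 1`. -/
theorem BB_succ_zero (hn : 0 < n) (W : WForm n) (a : ℕ) (c c' : Wt →₀ ℝ) :
    BB W (a + 1) 0 c c' = (1 / (n : ℝ)) * W.B (Sc n (up a c)) (Sc n c') := by
  unfold BB
  congr 1
  have h1 : ∀ x, ∑ y, W.B ((TT n ^ (a + 1)) x y * Sc n c) ((TT n ^ 0) x y * Sc n c') =
      W.B ((TT n ^ (a + 1)) x x * Sc n c) (Sc n c') := by
    intro x
    rw [Finset.sum_eq_single x]
    · simp
    · intro y _ hy
      simp [Matrix.one_apply_ne (Ne.symm hy)]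
    · simp
  simp_rw [h1]
  rw [← Trc_mul_Sc hn, Trc, Matrix.trace, Finset.sum_mul, ← LinearMap.sum_apply, ← map_sum]
  simp [Matrix.diag]

/-- (R2) for `a = 0`. -/
theorem BB_zero_zero (hn : 0 < n) (W : WForm n) (c c' : Wt →₀ ℝ) :
    BB W 0 0 c c' = W.B (Sc n c) (Sc n c') := by
  unfold BB
  have h1 : ∀ x, ∑ y, W.B ((TT n ^ 0) x y * Sc n c) ((TT n ^ 0) x y * Sc n c') =
      W.B (Sc n c) (Sc n c') := by
    intro x
    rw [Finset.sum_eq_single x]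
    · simp
    · intro y _ hy
      simp [Matrix.one_apply_ne (Ne.symm hy)]
    · simp
  simp_rw [h1]
  have h : (n : ℝ) ≠ 0 := by positivity
  simp [h]

/-- (R3). -/
theorem BB_euler (hn : 0 < n) (W : WForm n) (d L L' : ℕ) (c c' : Wt →₀ ℝ)
    (hc : ∀ ν ∈ c.support, dg ν = d)
    (hL : ∀ ν ∈ c.support, ∀ ℓ ∈ ν, ℓ < L) (hL' : ∀ ν ∈ c'.support, ∀ ℓ ∈ ν, ℓ < L') :
    (d : ℝ) * W.B (Sc n c) (Sc n c') = (1 / 2) * ∑ ℓ ∈ Finset.range L, ∑ ℓ' ∈ Finset.range L',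
      BB W ℓ ℓ' (down ℓ c) (down ℓ' c') := by
  rw [← WB_C_left, euler_Sc hn d c hc L hL, WB_C_left, map_sum, LinearMap.sum_apply]
  congr 1
  refine Finset.sum_congr rfl fun ℓ _ => ?_
  have h1 : Trc n ℓ * Sc n (down ℓ c) =
      ∑ x, ∑ y, TT n x y * ((TT n ^ ℓ) x y * Sc n (down ℓ c)) := by
    rw [Trc_eq, Finset.sum_mul]
    refine Finset.sum_congr rfl fun x _ => ?_
    rw [Finset.sum_mul]
    refine Finset.sum_congr rfl fun y _ => ?_
    ring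
  calc W.B (Trc n ℓ * Sc n (down ℓ c)) (Sc n c')
      = ∑ x, ∑ y, (Real.sqrt n)⁻¹ *
          W.B ((TT n ^ ℓ) x y * Sc n (down ℓ c)) (DD x y (Sc n c')) := by
        rw [h1]
        simp only [map_sum, LinearMap.sum_apply, WForm_TT hn W]
    _ = ∑ x, ∑ y, (1 / (n : ℝ)) * ∑ ℓ' ∈ Finset.range L',
          W.B ((TT n ^ ℓ) x y * Sc n (down ℓ c)) ((TT n ^ ℓ') x y * Sc n (down ℓ' c')) := by
        refine Finset.sum_congr rfl fun x _ => Finset.sum_congr rfl fun y _ => ?_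
        rw [DD_Sc hn x y c' L' hL', WB_C_right, map_sum, ← mul_assoc, sqrt_inv_mul hn]
    _ = _ := by
        simp only [BB, ← Finset.mul_sum, sum3]

end Vale.Agent.Lib.P146
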