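import Vale.Agent.Lib.P146.Gram_x

/-! Module D, part 2: orthogonality (R0) and the bound on `BB`. -/

set_option autoImplicit false
open MvPolynomial

namespace Vale.Agent.Lib.P146

variable {n : ℕ}

/-- Homogeneous finitely supported sequences. -/
def Hom (d : ℕ) (c : Wt →₀ ℝ) : Prop := ∀ ν ∈ c.support, dg ν = d

lemma lt_dg_of_mem_gr {ν : Wt} {ℓ : ℕ} (h : ℓ ∈ ν) : ℓ < dg ν := by
  obtain ⟨t, rfl⟩ := Multiset.exists_cons_of_mem h
  rw [dg_cons]; omega

lemma dg_erase_gr {ν : Wt} {ℓ : ℕ} (h : ℓ ∈ ν) : dg (ν.erase ℓ) + ℓ + 1 = dg ν := by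
  conv_rhs => rw [← Multiset.cons_erase h]
  rw [dg_cons]; omega

lemma Hom.lt {d : ℕ} {c : Wt →₀ ℝ} (h : Hom d c) : ∀ ν ∈ c.support, ∀ ℓ ∈ ν, ℓ < d :=
  fun ν hν _ hℓ => h ν hν ▸ lt_dg_of_mem_gr hℓ

lemma hom_up {d j : ℕ} {c : Wt →₀ ℝ} (h : Hom d c) : Hom (d + j + 1) (up j c) := by
  intro μ hμ
  obtain ⟨ν, hν, rfl⟩ := support_up j c hμ
  rw [dg_cons, h ν hν]; omega

lemma hom_down {d ℓ : ℕ} {c : Wt →₀ ℝ} (h : Hom d c) : Hom (d - ℓ - 1) (down ℓ c) := by
  intro μ hμ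
  obtain ⟨ν, hν, hm, rfl⟩ := support_down ℓ c hμ
  have h1 := dg_erase_gr hm
  have h2 := h ν hν
  omega

/-- (R0) orthogonality of different total degrees. -/
theorem BB_eq_zero_aux (hn : 0 < n) (W : WForm n) : ∀ N D D' : ℕ, D ≠ D' → D + D' ≤ N →
    ∀ (a b d d' : ℕ) (c c' : Wt →₀ ℝ), Hom d c → Hom d' c' → a + d = D → b + d' = D' →
      BB W a b c c' = 0 := by
  intro N
  induction N with
  | zero => intro D D' h hle; omega
  | succ N ih =>
    have ha : ∀ D D' : ℕ, D ≠ D' → D + D' ≤ N + 1 →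
        ∀ (a b d d' : ℕ) (c c' : Wt →₀ ℝ), Hom d c → Hom d' c' → a + d = D → b + 1 + d' = D' →
          BB W a (b + 1) c c' = 0 := by
      intro D D' hne hle a b d d' c c' hc hc' hD hD'
      cases a with
      | zero =>
        rw [BB_zero_succ hn W b d c c' hc.lt, Finset.sum_eq_zero, mul_zero]
        intro ℓ hℓ
        have hℓ' := Finset.mem_range.1 hℓ
        exact ih (D - 1) (D' - 1) (by omega) (by omega) ℓ b (d - ℓ - 1) d' _ _ (hom_down hc) hc'
          (by omega) (by omega)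
      | succ a =>
        rw [BB_succ_succ hn W a b d c c' hc.lt,
          ih (D - 1) (D' - 1) (by omega) (by omega) a b d d' c c' hc hc' (by omega) (by omega),
          Finset.sum_eq_zero, Finset.sum_eq_zero]
        · simp
        · intro ℓ hℓ
          have hℓ' := Finset.mem_range.1 hℓ
          exact ih (D - 1) (D' - 1) (by omega) (by omega) (a + 1 + ℓ) b (d - ℓ - 1) d' _ _
            (hom_down hc) hc' (by omega) (by omega)
        · intro j hj
          have hj' := Finset.mem_range.1 hj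
          exact ih (D - 1) (D' - 1) (by omega) (by omega) (a - 1 - j) b (d + j + 1) d' _ _
            (hom_up hc) hc' (by omega) (by omega)
    have hb : ∀ D D' : ℕ, D ≠ D' → D + D' ≤ N + 1 → 1 ≤ D →
        ∀ (c c' : Wt →₀ ℝ), Hom D c → Hom D' c' → W.B (Sc n c) (Sc n c') = 0 := by
      intro D D' hne hle hD c c' hc hc'
      have e := BB_euler hn W D D D' c c' hc hc.lt hc'.lt
      rw [Finset.sum_eq_zero, mul_zero] at e
      · have hD0 : (D : ℝ) ≠ 0 := by positivity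
        exact (mul_eq_zero.1 e).resolve_left hD0
      · intro ℓ hℓ
        have hℓ' := Finset.mem_range.1 hℓ
        refine Finset.sum_eq_zero fun ℓ' hℓ2 => ?_
        have hℓ2' := Finset.mem_range.1 hℓ2
        exact ih (D - 1) (D' - 1) (by omega) (by omega) ℓ ℓ' (D - ℓ - 1) (D' - ℓ' - 1) _ _
          (hom_down hc) (hom_down hc') (by omega) (by omega)
    intro D D' hne hle a b d d' c c' hc hc' hD hD'
    cases b with
    | succ b => exact ha D D' hne hle a b d d' c c' hc hc' hD (by omega)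
    | zero =>
      cases a with
      | succ a =>
        rw [BB_symm]
        exact ha D' D hne.symm (by omega) 0 a d' d c' c hc' hc (by omega) (by omega)
      | zero =>
        rw [BB_zero_zero hn]
        have hdD : d = D := by omega
        have hdD' : d' = D' := by omega
        subst hdD hdD'
        by_cases h1 : 1 ≤ d
        · exact hb d d' hne hle h1 c c' hc hc'
        · rw [W.symm]
          exact hb d' d hne.symm (by omega) (by omega) c' c hc' hc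

theorem BB_eq_zero (hn : 0 < n) (W : WForm n) {a b d d' : ℕ} {c c' : Wt →₀ ℝ}
    (hc : Hom d c) (hc' : Hom d' c') (h : a + d ≠ b + d') : BB W a b c c' = 0 :=
  BB_eq_zero_aux hn W _ _ _ h le_rfl a b d d' c c' hc hc' rfl rfl

/-! ### norm bookkeeping -/

lemma nrm2_nonneg_gr {A : Type*} (c : A →₀ ℝ) : 0 ≤ nrm2 c :=
  Finset.sum_nonneg fun _ _ => sq_nonneg _

lemma nrm_nonneg_gr {A : Type*} (c : A →₀ ℝ) : 0 ≤ nrm c := Real.sqrt_nonneg _

lemma sq_nrm_gr {A : Type*} (c : A →₀ ℝ) : nrm c ^ 2 = nrm2 c := Real.sq_sqrt (nrm2_nonneg_gr c)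

lemma nrm_up_le' (j D : ℕ) (c : Wt →₀ ℝ) (hc : ∀ ν ∈ c.support, dg ν + j + 1 ≤ D + 1) :
    nrm (up j c) ≤ (2 * ((D : ℝ) + 1)) * nrm c := by
  refine (nrm_up_le j c (D + 1) hc).trans ?_
  refine mul_le_mul_of_nonneg_right ?_ (nrm_nonneg_gr c)
  push_cast
  have : (0 : ℝ) ≤ D := by positivity
  refine Real.sqrt_le_iff.2 ⟨by linarith, by nlinarith⟩

lemma sum_down_le (d : ℕ) (c : Wt →₀ ℝ) (hc : Hom d c) :
    ∑ ℓ ∈ Finset.range d, nrm (down ℓ c) ≤ (2 * (d : ℝ)) * nrm c := by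
  have h1 : (∑ ℓ ∈ Finset.range d, nrm (down ℓ c)) ^ 2 ≤
      (d : ℝ) * ∑ ℓ ∈ Finset.range d, nrm (down ℓ c) ^ 2 := by
    have := sq_sum_le_card_mul_sum_sq (s := Finset.range d) (f := fun ℓ => nrm (down ℓ c))
    simpa using this
  have h2 : ∑ ℓ ∈ Finset.range d, nrm (down ℓ c) ^ 2 = 2 * d * nrm c ^ 2 := by
    simp only [sq_nrm_gr]
    exact sum_nrm2_down d c hc d hc.lt
  rw [h2] at h1
  have h3 : (0 : ℝ) ≤ (2 * (d : ℝ)) * nrm c := mul_nonneg (by positivity) (nrm_nonneg_gr c)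
  have h4 : (∑ ℓ ∈ Finset.range d, nrm (down ℓ c)) ^ 2 ≤ ((2 * (d : ℝ)) * nrm c) ^ 2 := by
    refine h1.trans ?_
    have h5 : (0 : ℝ) ≤ (d : ℝ) ^ 2 * nrm c ^ 2 := by positivity
    nlinarith
  exact abs_le_of_sq_le_sq' h4 h3 |>.2

lemma sum_down_mul_le (d : ℕ) (c c' : Wt →₀ ℝ) (hc : Hom d c) (hc' : Hom d c') :
    ∑ ℓ ∈ Finset.range d, nrm (down ℓ c) * nrm (down ℓ c') ≤ (2 * (d : ℝ)) * nrm c * nrm c' := by
  have h1 := Finset.sum_mul_sq_le_sq_mul_sq (Finset.range d)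
    (fun ℓ => nrm (down ℓ c)) (fun ℓ => nrm (down ℓ c'))
  have h2 : ∀ e : Wt →₀ ℝ, Hom d e →
      ∑ ℓ ∈ Finset.range d, nrm (down ℓ e) ^ 2 = 2 * d * nrm e ^ 2 := by
    intro e he
    simp only [sq_nrm_gr]
    exact sum_nrm2_down d e he d he.lt
  rw [h2 c hc, h2 c' hc'] at h1
  have h3 : (0 : ℝ) ≤ (2 * (d : ℝ)) * nrm c * nrm c' :=
    mul_nonneg (mul_nonneg (by positivity) (nrm_nonneg_gr c)) (nrm_nonneg_gr c')
  have h4 : (∑ ℓ ∈ Finset.range d, nrm (down ℓ c) * nrm (down ℓ c')) ^ 2 ≤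
      ((2 * (d : ℝ)) * nrm c * nrm c') ^ 2 := by
    refine h1.trans (le_of_eq ?_)
    ring
  exact abs_le_of_sq_le_sq' h4 h3 |>.2

lemma double_sum_le {ι : Type*} [DecidableEq ι] (s : Finset ι) (x y : ι → ℝ) (A B : ℝ)
    (hx : ∀ i, 0 ≤ x i) (hy : ∀ i, 0 ≤ y i) (hB : 0 ≤ B) :
    ∑ i ∈ s, ∑ j ∈ s, (if i = j then A else B) * x i * y j ≤
      A * ∑ i ∈ s, x i * y i + B * ((∑ i ∈ s, x i) * ∑ j ∈ s, y j) := by
  have h1 : ∀ i ∈ s, ∑ j ∈ s, (if i = j then A else B) * x i * y j ≤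
      A * (x i * y i) + B * (x i * ∑ j ∈ s, y j) := by
    intro i hi
    have h2 : ∀ j ∈ s, (if i = j then A else B) * x i * y j ≤
        (if i = j then A * (x i * y j) else 0) + B * (x i * y j) := by
      intro j _
      have : 0 ≤ B * (x i * y j) := mul_nonneg hB (mul_nonneg (hx i) (hy j))
      split_ifs with h
      · nlinarith
      · nlinarith
    refine (Finset.sum_le_sum h2).trans (le_of_eq ?_)
    rw [Finset.sum_add_distrib, Finset.sum_ite_eq s i, if_pos hi, Finset.mul_sum, Finset.mul_sum]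
  refine (Finset.sum_le_sum h1).trans (le_of_eq ?_)
  rw [Finset.sum_add_distrib, ← Finset.mul_sum, ← Finset.mul_sum, Finset.sum_mul]

end Vale.Agent.Lib.P146
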