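import Vale.Agent.Lib.P146.Gram_y

/-! Module D, part 3: the induction bounding `BB`. -/

set_option autoImplicit false
open MvPolynomial

namespace Vale.Agent.Lib.P146

variable {n : ℕ}

noncomputable def bdA (n D : ℕ) : ℝ := 1 + 8 * (D : ℝ) ^ 5 * (1 / (n : ℝ))
noncomputable def bdB (n D : ℕ) : ℝ := 8 * (D : ℝ) ^ 3 * (1 / (n : ℝ))

lemma bdA_nonneg (n D : ℕ) : 0 ≤ bdA n D := by unfold bdA; positivity
lemma bdB_nonneg (n D : ℕ) : 0 ≤ bdB n D := by unfold bdB; positivity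
lemma one_le_bdA (n D : ℕ) : 1 ≤ bdA n D := by
  unfold bdA
  have : 0 ≤ 8 * (D : ℝ) ^ 5 * (1 / (n : ℝ)) := by positivity
  linarith

/-- The induction statement. -/
def GramH (W : WForm n) (D : ℕ) : Prop :=
  ∀ (a b d d' : ℕ) (c c' : Wt →₀ ℝ), Hom d c → Hom d' c' → a + d = D → b + d' = D →
    |BB W a b c c'| ≤ (if a = b then bdA n D else bdB n D) * nrm c * nrm c'

lemma hom_zero_eq {c : Wt →₀ ℝ} (h : Hom 0 c) : c = Finsupp.single 0 (c 0) := by
  ext ν
  by_cases hν : ν = 0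
  · subst hν; simp
  · rw [Finsupp.single_eq_of_ne hν]
    by_contra hne
    have h1 := h ν (Finsupp.mem_support_iff.2 hne)
    exact hν (Multiset.eq_zero_of_forall_notMem fun ℓ hℓ => by
      have := lt_dg_of_mem_gr hℓ; omega)

lemma Snu_zero : Snu n 0 = 1 := by
  unfold Snu
  have : zz 0 = 1 := by simp [zz]
  simp [this]

lemma nrm_single {A : Type*} (a : A) (r : ℝ) : nrm (Finsupp.single a r) = |r| := by
  unfold nrm nrm2
  rw [Finsupp.sum_single_index (by simp), Real.sqrt_sq_eq_abs]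

theorem gramH_zero (hn : 0 < n) (W : WForm n) : GramH W 0 := by
  intro a b d d' c c' hc hc' ha hb
  obtain rfl : a = 0 := by omega
  obtain rfl : b = 0 := by omega
  obtain rfl : d = 0 := by omega
  obtain rfl : d' = 0 := by omega
  rw [BB_zero_zero hn, if_pos rfl]
  rw [hom_zero_eq hc, hom_zero_eq hc']
  simp only [Sc_single, Snu_zero, nrm_single]
  rw [WB_C_left, WB_C_right, W.one, abs_mul, mul_one]
  have h1 := one_le_bdA n 0
  have h2 : 0 ≤ |c 0| := abs_nonneg _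
  have h3 : 0 ≤ |c' 0| := abs_nonneg _
  have h4 : 0 ≤ |c 0| * |c' 0| := by positivity
  nlinarith

/-- The case `a = b = 0` at the next level. -/
theorem WB_step (hn : 0 < n) (W : WForm n) {D : ℕ} (H : GramH W D) (c c' : Wt →₀ ℝ)
    (hc : Hom (D + 1) c) (hc' : Hom (D + 1) c') :
    |W.B (Sc n c) (Sc n c')| ≤
      (bdA n D + 2 * ((D : ℝ) + 1) * bdB n D) * nrm c * nrm c' := by
  have e := BB_euler hn W (D + 1) (D + 1) (D + 1) c c' hc hc.lt hc'.lt
  have h1 : ∀ ℓ ∈ Finset.range (D + 1), ∀ ℓ' ∈ Finset.range (D + 1),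
      |BB W ℓ ℓ' (down ℓ c) (down ℓ' c')| ≤
        (if ℓ = ℓ' then bdA n D else bdB n D) * nrm (down ℓ c) * nrm (down ℓ' c') := by
    intro ℓ hℓ ℓ' hℓ'
    have h2 := Finset.mem_range.1 hℓ
    have h3 := Finset.mem_range.1 hℓ'
    exact H ℓ ℓ' (D + 1 - ℓ - 1) (D + 1 - ℓ' - 1) _ _ (hom_down hc) (hom_down hc')
      (by omega) (by omega)
  have h2 : |∑ ℓ ∈ Finset.range (D + 1), ∑ ℓ' ∈ Finset.range (D + 1),
      BB W ℓ ℓ' (down ℓ c) (down ℓ' c')| ≤
      ∑ ℓ ∈ Finset.range (D + 1), ∑ ℓ' ∈ Finset.range (D + 1),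
        (if ℓ = ℓ' then bdA n D else bdB n D) * nrm (down ℓ c) * nrm (down ℓ' c') := by
    refine (Finset.abs_sum_le_sum_abs _ _).trans (Finset.sum_le_sum fun ℓ hℓ => ?_)
    refine (Finset.abs_sum_le_sum_abs _ _).trans (Finset.sum_le_sum fun ℓ' hℓ' => h1 ℓ hℓ ℓ' hℓ')
  have h3 := double_sum_le (Finset.range (D + 1)) (fun ℓ => nrm (down ℓ c))
    (fun ℓ => nrm (down ℓ c')) (bdA n D) (bdB n D) (fun _ => nrm_nonneg_gr _)
    (fun _ => nrm_nonneg_gr _) (bdB_nonneg n D)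
  have h4 := sum_down_mul_le (D + 1) c c' hc hc'
  have h5 := sum_down_le (D + 1) c hc
  have h6 := sum_down_le (D + 1) c' hc'
  push_cast at h4 h5 h6
  set X := nrm c with hX
  set Y := nrm c' with hY
  have hX0 : 0 ≤ X := nrm_nonneg_gr c
  have hY0 : 0 ≤ Y := nrm_nonneg_gr c'
  have hA := bdA_nonneg n D
  have hB := bdB_nonneg n D
  have hD : (0 : ℝ) < (D : ℝ) + 1 := by positivity
  have h7 : (∑ i ∈ Finset.range (D + 1), nrm (down i c)) *
      ∑ j ∈ Finset.range (D + 1), nrm (down j c') ≤ (2 * ((D : ℝ) + 1) * X) * (2 * ((D : ℝ) + 1) * Y) :=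
    mul_le_mul h5 h6 (Finset.sum_nonneg fun _ _ => nrm_nonneg_gr _) (by positivity)
  have h8 : ((D : ℝ) + 1) * |W.B (Sc n c) (Sc n c')| ≤
      ((D : ℝ) + 1) * ((bdA n D + 2 * ((D : ℝ) + 1) * bdB n D) * X * Y) := by
    have h9 : ((D + 1 : ℕ) : ℝ) * W.B (Sc n c) (Sc n c') = ((D : ℝ) + 1) * W.B (Sc n c) (Sc n c') := by
      push_cast; ring
    rw [h9] at e
    have h10 : ((D : ℝ) + 1) * |W.B (Sc n c) (Sc n c')| =
        |((D : ℝ) + 1) * W.B (Sc n c) (Sc n c')| := by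
      rw [abs_mul, abs_of_pos hD]
    rw [h10, e, abs_mul, abs_of_pos (by norm_num : (0 : ℝ) < 1 / 2)]
    have h11 := mul_le_mul_of_nonneg_left h4 hA
    have h12 := mul_le_mul_of_nonneg_left h7 hB
    nlinarith
  exact le_of_mul_le_mul_left h8 hD

/-! numerics -/

section num
variable {m e : ℝ}

lemma num1 (hm : 0 ≤ m) (he : 0 ≤ e) (hN : 1000 * (m + 2) ^ 6 * e ≤ 1) :
    (1 + (m + 1) * e) * (1 + 8 * m ^ 5 * e) + e * (8 * m ^ 3 * e * (2 * (m + 1) ^ 2)) ≤
      1 + 8 * (m + 1) ^ 5 * e := by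
  have hP : (8 * m ^ 5 * (m + 1) + 16 * m ^ 3 * (m + 1) ^ 2) * e ≤ 1 := by
    refine le_trans (mul_le_mul_of_nonneg_right ?_ he) hN
    have h : 1000 * (m + 2) ^ 6 - (8 * m ^ 5 * (m + 1) + 16 * m ^ 3 * (m + 1) ^ 2) =
        992 * m ^ 6 + 11976 * m ^ 5 + 59968 * m ^ 4 + 159984 * m ^ 3 + 240000 * m ^ 2 +
          192000 * m + 64000 := by ring
    have h2 : 0 ≤ 992 * m ^ 6 + 11976 * m ^ 5 + 59968 * m ^ 4 + 159984 * m ^ 3 + 240000 * m ^ 2 +
          192000 * m + 64000 := by positivity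
    linarith
  have hS : 0 ≤ 40 * m ^ 4 + 80 * m ^ 3 + 80 * m ^ 2 + 39 * m + 6 := by positivity
  nlinarith [mul_nonneg he hS, mul_nonneg he (sub_nonneg.2 hP)]

lemma num2 (hm : 0 ≤ m) (he : 0 ≤ e) (hN : 1000 * (m + 2) ^ 6 * e ≤ 1) :
    (1 + (m + 1) * e) * (8 * m ^ 3 * e) +
        e * ((1 + 8 * m ^ 5 * e) * (2 * (m + 1)) + 8 * m ^ 3 * e * (2 * (m + 1) ^ 2)) ≤
      8 * (m + 1) ^ 3 * e := by
  have hP : (8 * m ^ 3 * (m + 1) + 16 * m ^ 5 * (m + 1) + 16 * m ^ 3 * (m + 1) ^ 2) * e ≤ 1 := by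
    refine le_trans (mul_le_mul_of_nonneg_right ?_ he) hN
    have h : 1000 * (m + 2) ^ 6 -
        (8 * m ^ 3 * (m + 1) + 16 * m ^ 5 * (m + 1) + 16 * m ^ 3 * (m + 1) ^ 2) =
        984 * m ^ 6 + 11968 * m ^ 5 + 59960 * m ^ 4 + 159976 * m ^ 3 + 240000 * m ^ 2 +
          192000 * m + 64000 := by ring
    have h2 : 0 ≤ 984 * m ^ 6 + 11968 * m ^ 5 + 59960 * m ^ 4 + 159976 * m ^ 3 + 240000 * m ^ 2 +
          192000 * m + 64000 := by positivity
    linarith
  have hS : 0 ≤ 24 * m ^ 2 + 22 * m + 5 := by positivity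
  nlinarith [mul_nonneg he hS, mul_nonneg he (sub_nonneg.2 hP)]

lemma num3 (hm : 0 ≤ m) (he : 0 ≤ e) :
    (1 + 8 * m ^ 5 * e) + 2 * (m + 1) * (8 * m ^ 3 * e) ≤ 1 + 8 * (m + 1) ^ 5 * e := by
  have hS : 0 ≤ 24 * m ^ 4 + 64 * m ^ 3 + 80 * m ^ 2 + 40 * m + 8 := by positivity
  nlinarith [mul_nonneg he hS]

lemma num4 (hm : 0 ≤ m) (he : 0 ≤ e) (hN : 1000 * (m + 2) ^ 6 * e ≤ 1) :
    e * ((1 + 8 * (m + 1) ^ 5 * e) * (2 * (m + 1))) ≤ 8 * (m + 1) ^ 3 * e := by
  have hP : 8 * (m + 1) ^ 5 * e ≤ 1 := by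
    refine le_trans (mul_le_mul_of_nonneg_right ?_ he) hN
    have h : 1000 * (m + 2) ^ 6 - 8 * (m + 1) ^ 5 =
        1000 * m ^ 6 + 11992 * m ^ 5 + 59960 * m ^ 4 + 159920 * m ^ 3 + 239920 * m ^ 2 +
          191960 * m + 63992 := by ring
    have h2 : 0 ≤ 1000 * m ^ 6 + 11992 * m ^ 5 + 59960 * m ^ 4 + 159920 * m ^ 3 + 239920 * m ^ 2 +
          191960 * m + 63992 := by positivity
    linarith
  have h3 : 0 ≤ e * (m + 1) := by positivity
  have h4 : 0 ≤ 4 * (m + 1) ^ 2 - 2 := by nlinarith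
  nlinarith [mul_nonneg h3 (sub_nonneg.2 hP), mul_nonneg h3 h4]

end num

/-- The recursive step for `a + 1`, `b + 1` with `b ≤ a`. -/
theorem step_succ_succ (hn : 0 < n) (W : WForm n) {D : ℕ} (H : GramH W D)
    {a b d d' : ℕ} {c c' : Wt →₀ ℝ} (hc : Hom d c) (hc' : Hom d' c') (ha : a + d = D)
    (hb : b + d' = D) (hab : b ≤ a) :
    |BB W (a + 1) (b + 1) c c'| ≤
      ((1 + ((D : ℝ) + 1) * (1 / (n : ℝ))) * (if a = b then bdA n D else bdB n D) +
        (1 / (n : ℝ)) * ((if a = b then 0 else bdA n D) * (2 * ((D : ℝ) + 1)) +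
          bdB n D * (2 * ((D : ℝ) + 1) ^ 2))) * nrm c * nrm c' := by
  rw [BB_succ_succ hn W a b d c c' hc.lt]
  have hA := bdA_nonneg n D
  have hB := bdB_nonneg n D
  set A := bdA n D with hAdef
  set B := bdB n D with hBdef
  set X := nrm c with hX
  set Y := nrm c' with hY
  have hX0 : 0 ≤ X := nrm_nonneg_gr c
  have hY0 : 0 ≤ Y := nrm_nonneg_gr c'
  have he : 0 ≤ (1 / (n : ℝ)) := by positivity
  have hmD : (0 : ℝ) ≤ (D : ℝ) := by positivity
  have haD : (a : ℝ) ≤ D := by exact_mod_cast (by omega : a ≤ D)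
  have hdD : (d : ℝ) ≤ D := by exact_mod_cast (by omega : d ≤ D)
  have ha0 : (0 : ℝ) ≤ (a : ℝ) := by positivity
  have hd0 : (0 : ℝ) ≤ (d : ℝ) := by positivity
  -- first term
  have t1 := H a b d d' c c' hc hc' ha hb
  -- second term
  have t2 : ∑ j ∈ Finset.range a, |BB W (a - 1 - j) b (up j c) c'| ≤
      ((if a = b then 0 else A) + (a : ℝ) * B) * ((2 * ((D : ℝ) + 1)) * X * Y) := by
    have h1 : ∀ j ∈ Finset.range a, |BB W (a - 1 - j) b (up j c) c'| ≤
        (if a - 1 - j = b then A else B) * ((2 * ((D : ℝ) + 1)) * X * Y) := by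
      intro j hj
      have hj' := Finset.mem_range.1 hj
      have h2 := H (a - 1 - j) b (d + j + 1) d' (up j c) c' (hom_up hc) hc' (by omega) hb
      refine h2.trans ?_
      have h3 := nrm_up_le' j D c (fun ν hν => by rw [hc ν hν]; omega)
      have h4 : 0 ≤ (if a - 1 - j = b then A else B) := by split_ifs <;> assumption
      have h5 := mul_le_mul_of_nonneg_left h3 h4
      have h6 := mul_le_mul_of_nonneg_right h5 hY0
      refine h6.trans (le_of_eq ?_)
      ring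
    refine (Finset.sum_le_sum h1).trans ?_
    rw [← Finset.sum_mul]
    refine mul_le_mul_of_nonneg_right ?_ (by positivity)
    by_cases hab' : a = b
    · rw [if_pos hab', Finset.sum_congr rfl (g := fun _ => B) (fun j hj => by
        have := Finset.mem_range.1 hj
        rw [if_neg (by omega)])]
      simp
    · rw [if_neg hab']
      have h7 : ∀ j ∈ Finset.range a, (if a - 1 - j = b then A else B) ≤
          (if j = a - 1 - b then A else 0) + B := by
        intro j hj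
        have := Finset.mem_range.1 hj
        by_cases h8 : a - 1 - j = b
        · rw [if_pos h8, if_pos (by omega)]; linarith
        · rw [if_neg h8, if_neg (by omega)]; linarith
      refine (Finset.sum_le_sum h7).trans ?_
      rw [Finset.sum_add_distrib, Finset.sum_ite_eq' , if_pos (Finset.mem_range.2 (by omega))]
      simp
  -- third term
  have t3 : ∑ ℓ ∈ Finset.range d, |BB W (a + 1 + ℓ) b (down ℓ c) c'| ≤
      B * ((2 * (d : ℝ)) * X) * Y := by
    have h1 : ∀ ℓ ∈ Finset.range d, |BB W (a + 1 + ℓ) b (down ℓ c) c'| ≤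
        B * nrm (down ℓ c) * Y := by
      intro ℓ hℓ
      have hℓ' := Finset.mem_range.1 hℓ
      have h2 := H (a + 1 + ℓ) b (d - ℓ - 1) d' (down ℓ c) c' (hom_down hc) hc' (by omega) hb
      rwa [if_neg (by omega)] at h2
    refine (Finset.sum_le_sum h1).trans ?_
    have h5 := sum_down_le d c hc
    have h6 : ∑ ℓ ∈ Finset.range d, B * nrm (down ℓ c) * Y =
        B * (∑ ℓ ∈ Finset.range d, nrm (down ℓ c)) * Y := by
      rw [Finset.mul_sum, Finset.sum_mul]
    rw [h6]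
    exact mul_le_mul_of_nonneg_right (mul_le_mul_of_nonneg_left h5 hB) hY0
  have hr : 1 + ((a : ℝ) + 1) / n = 1 + ((a : ℝ) + 1) * (1 / (n : ℝ)) := by
    rw [div_eq_mul_one_div]
  rw [hr]
  set e := (1 / (n : ℝ)) with hedef
  have hr0 : 0 ≤ 1 + ((a : ℝ) + 1) * e := by positivity
  have s1 : |(1 + ((a : ℝ) + 1) * e) * BB W a b c c' +
      e * ∑ j ∈ Finset.range a, BB W (a - 1 - j) b (up j c) c' +
      e * ∑ ℓ ∈ Finset.range d, BB W (a + 1 + ℓ) b (down ℓ c) c'| ≤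
      (1 + ((a : ℝ) + 1) * e) * |BB W a b c c'| +
      e * ∑ j ∈ Finset.range a, |BB W (a - 1 - j) b (up j c) c'| +
      e * ∑ ℓ ∈ Finset.range d, |BB W (a + 1 + ℓ) b (down ℓ c) c'| := by
    refine (abs_add_le _ _).trans (add_le_add ((abs_add_le _ _).trans (add_le_add ?_ ?_)) ?_)
    · rw [abs_mul, abs_of_nonneg hr0]
    · rw [abs_mul, abs_of_nonneg he]
      exact mul_le_mul_of_nonneg_left (Finset.abs_sum_le_sum_abs _ _) he
    · rw [abs_mul, abs_of_nonneg he]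
      exact mul_le_mul_of_nonneg_left (Finset.abs_sum_le_sum_abs _ _) he
  refine s1.trans ?_
  set T := (if a = b then A else B) with hT
  set T' := (if a = b then (0 : ℝ) else A) with hT'
  have hT0 : 0 ≤ T := by rw [hT]; split_ifs <;> assumption
  have hT'0 : 0 ≤ T' := by rw [hT']; split_ifs <;> first | assumption | exact le_rfl
  have hXY : 0 ≤ X * Y := mul_nonneg hX0 hY0
  have u1 : (1 + ((a : ℝ) + 1) * e) * |BB W a b c c'| ≤
      (1 + ((D : ℝ) + 1) * e) * (T * (X * Y)) := by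
    have h1 : |BB W a b c c'| ≤ T * (X * Y) := by rw [← mul_assoc]; exact t1
    have h2 : 1 + ((a : ℝ) + 1) * e ≤ 1 + ((D : ℝ) + 1) * e := by nlinarith
    exact mul_le_mul h2 h1 (abs_nonneg _) (by positivity)
  have u2 : e * ∑ j ∈ Finset.range a, |BB W (a - 1 - j) b (up j c) c'| ≤
      e * ((T' + (a : ℝ) * B) * ((2 * ((D : ℝ) + 1)) * X * Y)) :=
    mul_le_mul_of_nonneg_left t2 he
  have u3 : e * ∑ ℓ ∈ Finset.range d, |BB W (a + 1 + ℓ) b (down ℓ c) c'| ≤
      e * (B * ((2 * (d : ℝ)) * X) * Y) :=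
    mul_le_mul_of_nonneg_left t3 he
  have u4 : (a : ℝ) * (2 * ((D : ℝ) + 1)) + 2 * (d : ℝ) ≤ 2 * ((D : ℝ) + 1) ^ 2 := by nlinarith
  have u5 : B * ((X * Y) * ((a : ℝ) * (2 * ((D : ℝ) + 1)) + 2 * (d : ℝ))) ≤
      B * ((X * Y) * (2 * ((D : ℝ) + 1) ^ 2)) :=
    mul_le_mul_of_nonneg_left (mul_le_mul_of_nonneg_left u4 hXY) hB
  have u6 := mul_le_mul_of_nonneg_left u5 he
  calc _ ≤ (1 + ((D : ℝ) + 1) * e) * (T * (X * Y)) +
        e * ((T' + (a : ℝ) * B) * ((2 * ((D : ℝ) + 1)) * X * Y)) +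
        e * (B * ((2 * (d : ℝ)) * X) * Y) := add_le_add (add_le_add u1 u2) u3
    _ ≤ _ := by nlinarith

/-- The induction step. -/
theorem gramH_succ (hn : 0 < n) (W : WForm n) {p D : ℕ} (hp : 1000 * (p + 1) ^ 6 ≤ n)
    (hD : D + 1 ≤ p) (H : GramH W D) : GramH W (D + 1) := by
  have hn' : (0 : ℝ) < (n : ℝ) := by exact_mod_cast hn
  have he : (0 : ℝ) ≤ 1 / (n : ℝ) := by positivity
  have hm : (0 : ℝ) ≤ (D : ℝ) := by positivity
  have hN : 1000 * ((D : ℝ) + 2) ^ 6 * (1 / (n : ℝ)) ≤ 1 := by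
    have h1 : 1000 * (D + 2) ^ 6 ≤ n := by
      refine le_trans ?_ hp
      have : (D + 2) ^ 6 ≤ (p + 1) ^ 6 := Nat.pow_le_pow_left (by omega) 6
      omega
    have h2 : 1000 * ((D : ℝ) + 2) ^ 6 ≤ (n : ℝ) := by exact_mod_cast h1
    rw [mul_one_div, div_le_one hn']
    exact h2
  have hA1 : bdA n D = 1 + 8 * (D : ℝ) ^ 5 * (1 / (n : ℝ)) := rfl
  have hB1 : bdB n D = 8 * (D : ℝ) ^ 3 * (1 / (n : ℝ)) := rfl
  have hA2 : bdA n (D + 1) = 1 + 8 * ((D : ℝ) + 1) ^ 5 * (1 / (n : ℝ)) := by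
    unfold bdA; push_cast; ring
  have hB2 : bdB n (D + 1) = 8 * ((D : ℝ) + 1) ^ 3 * (1 / (n : ℝ)) := by
    unfold bdB; push_cast; ring
  have key : ∀ (a b d d' : ℕ) (c c' : Wt →₀ ℝ), Hom d c → Hom d' c' → a + d = D + 1 →
      b + d' = D + 1 → b ≤ a →
      |BB W a b c c'| ≤ (if a = b then bdA n (D + 1) else bdB n (D + 1)) * nrm c * nrm c' := by
    intro a b d d' c c' hc hc' ha hb hab
    have hXY : 0 ≤ nrm c * nrm c' := mul_nonneg (nrm_nonneg_gr c) (nrm_nonneg_gr c')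
    rcases b with _ | b
    · rcases a with _ | a
      · obtain rfl : d = D + 1 := by omega
        obtain rfl : d' = D + 1 := by omega
        rw [BB_zero_zero hn, if_pos rfl]
        refine (WB_step hn W H c c' hc hc').trans ?_
        refine mul_le_mul_of_nonneg_right (mul_le_mul_of_nonneg_right ?_ (nrm_nonneg_gr c))
          (nrm_nonneg_gr c')
        rw [hA1, hB1, hA2]
        exact num3 hm he
      · obtain rfl : d' = D + 1 := by omega
        rw [BB_succ_zero hn, if_neg (by omega)]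
        have hu : Hom (D + 1) (up a c) := by
          have h := hom_up (j := a) hc
          rwa [show d + a + 1 = D + 1 by omega] at h
        have t := WB_step hn W H (up a c) c' hu hc'
        have t' := nrm_up_le' a D c (fun ν hν => by rw [hc ν hν]; omega)
        have hA0 := bdA_nonneg n D
        have hB0 := bdB_nonneg n D
        have h3 : bdA n D + 2 * ((D : ℝ) + 1) * bdB n D ≤ bdA n (D + 1) := by
          rw [hA1, hB1, hA2]
          exact num3 hm he
        have h4 : |W.B (Sc n (up a c)) (Sc n c')| ≤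
            bdA n (D + 1) * ((2 * ((D : ℝ) + 1)) * nrm c) * nrm c' := by
          refine t.trans ?_
          have h5 : 0 ≤ nrm (up a c) := nrm_nonneg_gr _
          have h6 : 0 ≤ nrm c' := nrm_nonneg_gr _
          refine mul_le_mul_of_nonneg_right ?_ h6
          exact mul_le_mul h3 t' h5 (bdA_nonneg n (D + 1))
        rw [abs_mul, abs_of_nonneg he]
        have h7 := mul_le_mul_of_nonneg_left h4 he
        refine h7.trans ?_
        have h8 := num4 hm he hN
        rw [← hA2, ← hB2] at h8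
        have h9 := mul_le_mul_of_nonneg_right h8 hXY
        refine le_trans (le_of_eq ?_) (h9.trans (le_of_eq ?_))
        · ring
        · ring
    · rcases a with _ | a
      · omega
      · have h := step_succ_succ hn W H hc hc' (a := a) (b := b) (by omega) (by omega) (by omega)
        refine h.trans ?_
        refine mul_le_mul_of_nonneg_right (mul_le_mul_of_nonneg_right ?_ (nrm_nonneg_gr c))
          (nrm_nonneg_gr c')
        by_cases hab' : a = b
        · rw [if_pos hab', if_pos hab', if_pos (by omega), hA1, hB1, hA2]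
          have := num1 hm he hN
          nlinarith
        · rw [if_neg hab', if_neg hab', if_neg (by omega), hA1, hB1, hB2]
          exact num2 hm he hN
  intro a b d d' c c' hc hc' ha hb
  rcases le_total b a with h | h
  · exact key a b d d' c c' hc hc' ha hb h
  · rw [BB_symm]
    have h2 := key b a d' d c' c hc' hc hb ha h
    refine h2.trans (le_of_eq ?_)
    by_cases h3 : a = b
    · rw [if_pos h3, if_pos h3.symm]; ring
    · rw [if_neg h3, if_neg (Ne.symm h3)]; ring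

theorem gramH_all (hn : 0 < n) (W : WForm n) {p : ℕ} (hp : 1000 * (p + 1) ^ 6 ≤ n) :
    ∀ D, D ≤ p → GramH W D := by
  intro D
  induction D with
  | zero => intro _; exact gramH_zero hn W
  | succ D ih => intro h; exact gramH_succ hn W hp h (ih (by omega))

end Vale.Agent.Lib.P146
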