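import Vale.Agent.Lib.P146.Defs

/-! Module B1: the growth class `PG`. -/

set_option autoImplicit false
open MeasureTheory ProbabilityTheory

namespace Vale.Agent.Lib.P146

variable {n : ℕ}

private theorem base_ge_one (g : Pt n) : (1 : ℝ) ≤ 1 + ∑ e, |g e| := by
  have : 0 ≤ ∑ e, |g e| := Finset.sum_nonneg fun e _ => abs_nonneg _
  linarith

private theorem integrable_exp_abs :
    Integrable (fun t : ℝ => Real.exp |t|) (gaussianReal 0 1) := by
  have h1 := integrable_exp_mul_gaussianReal (μ := 0) (v := 1) 1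
  have h2 := integrable_exp_mul_gaussianReal (μ := 0) (v := 1) (-1)
  refine (h1.add h2).mono' ?_ ?_
  · exact (Real.measurable_exp.comp measurable_id.abs).aestronglyMeasurable
  · refine Filter.Eventually.of_forall fun t => ?_
    rw [Real.norm_eq_abs, abs_of_pos (Real.exp_pos _)]
    simp only [Pi.add_apply, one_mul, neg_mul]
    rcases abs_cases t with ⟨h, _⟩ | ⟨h, _⟩
    · rw [h]
      have := Real.exp_pos (-t)
      linarith
    · rw [h]
      have := Real.exp_pos t
      linarith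

private theorem pow_le_factorial_exp (N : ℕ) (x : ℝ) (hx : 0 ≤ x) :
    x ^ N ≤ (N.factorial : ℝ) * Real.exp x := by
  have h := Real.pow_div_factorial_le_exp x hx N
  have hf : (0 : ℝ) < N.factorial := by exact_mod_cast Nat.factorial_pos N
  rw [div_le_iff₀ hf] at h
  linarith

theorem PG.integrable {f : Pt n → ℝ} (hf : PG f) : Integrable f (gam n) := by
  obtain ⟨hm, C, N, hC⟩ := hf
  have hprod : Integrable (fun g : Pt n => ∏ e, Real.exp |g e|) (gam n) :=
    Integrable.fintype_prod (fun _ => integrable_exp_abs)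
  have hbd : Integrable (fun g : Pt n =>
      (|C| * (N.factorial : ℝ) * Real.exp 1) * ∏ e, Real.exp |g e|) (gam n) := hprod.const_mul _
  refine hbd.mono' hm.aestronglyMeasurable ?_
  refine Filter.Eventually.of_forall fun g => ?_
  rw [Real.norm_eq_abs]
  have hb := base_ge_one g
  have h1 : (1 + ∑ e, |g e|) ^ N ≤ (N.factorial : ℝ) * Real.exp (1 + ∑ e, |g e|) :=
    pow_le_factorial_exp N _ (by linarith)
  have h2 : Real.exp (1 + ∑ e, |g e|) = Real.exp 1 * ∏ e, Real.exp |g e| := by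
    rw [Real.exp_add, Real.exp_sum]
  have hpow : 0 ≤ (1 + ∑ e, |g e|) ^ N := by positivity
  calc |f g| ≤ C * (1 + ∑ e, |g e|) ^ N := hC g
    _ ≤ |C| * (1 + ∑ e, |g e|) ^ N := mul_le_mul_of_nonneg_right (le_abs_self C) hpow
    _ ≤ |C| * ((N.factorial : ℝ) * Real.exp (1 + ∑ e, |g e|)) :=
        mul_le_mul_of_nonneg_left h1 (abs_nonneg C)
    _ = _ := by rw [h2]; ring

private theorem PG.bound {f : Pt n → ℝ} (hC : ∃ (C : ℝ) (N : ℕ), ∀ g, |f g| ≤ C * (1 + ∑ e, |g e|) ^ N) :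
    ∃ (C : ℝ) (N : ℕ), 0 ≤ C ∧ ∀ g, |f g| ≤ C * (1 + ∑ e, |g e|) ^ N := by
  obtain ⟨C, N, h⟩ := hC
  refine ⟨|C|, N, abs_nonneg C, fun g => (h g).trans ?_⟩
  exact mul_le_mul_of_nonneg_right (le_abs_self C) (by have := base_ge_one g; positivity)

theorem PG.add {f h : Pt n → ℝ} (hf : PG f) (hh : PG h) : PG (fun g => f g + h g) := by
  obtain ⟨C1, N1, hC1, h1⟩ := PG.bound hf.2
  obtain ⟨C2, N2, hC2, h2⟩ := PG.bound hh.2
  refine ⟨hf.1.add hh.1, C1 + C2, N1 + N2, fun g => ?_⟩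
  have hb := base_ge_one g
  have h3 : (1 + ∑ e, |g e|) ^ N1 ≤ (1 + ∑ e, |g e|) ^ (N1 + N2) :=
    pow_le_pow_right₀ hb (Nat.le_add_right _ _)
  have h4 : (1 + ∑ e, |g e|) ^ N2 ≤ (1 + ∑ e, |g e|) ^ (N1 + N2) :=
    pow_le_pow_right₀ hb (Nat.le_add_left _ _)
  calc |f g + h g| ≤ |f g| + |h g| := abs_add_le _ _
    _ ≤ C1 * (1 + ∑ e, |g e|) ^ N1 + C2 * (1 + ∑ e, |g e|) ^ N2 := add_le_add (h1 g) (h2 g)
    _ ≤ C1 * (1 + ∑ e, |g e|) ^ (N1 + N2) + C2 * (1 + ∑ e, |g e|) ^ (N1 + N2) :=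
        add_le_add (mul_le_mul_of_nonneg_left h3 hC1) (mul_le_mul_of_nonneg_left h4 hC2)
    _ = _ := by ring

theorem PG.mul {f h : Pt n → ℝ} (hf : PG f) (hh : PG h) : PG (fun g => f g * h g) := by
  obtain ⟨C1, N1, hC1, h1⟩ := PG.bound hf.2
  obtain ⟨C2, N2, hC2, h2⟩ := PG.bound hh.2
  refine ⟨hf.1.mul hh.1, C1 * C2, N1 + N2, fun g => ?_⟩
  rw [abs_mul]
  calc |f g| * |h g| ≤ (C1 * (1 + ∑ e, |g e|) ^ N1) * (C2 * (1 + ∑ e, |g e|) ^ N2) :=
        mul_le_mul (h1 g) (h2 g) (abs_nonneg _) (by have := base_ge_one g; positivity)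
    _ = _ := by ring

theorem PG.const (a : ℝ) : PG (fun _ : Pt n => a) :=
  ⟨measurable_const, |a|, 0, fun g => by simp⟩

theorem PG.coord (e : Ed n) : PG (fun g : Pt n => g e) := by
  refine ⟨measurable_pi_apply e, 1, 1, fun g => ?_⟩
  have h := Finset.single_le_sum (f := fun e => |g e|) (fun i _ => abs_nonneg (g i))
    (Finset.mem_univ e)
  simp only [pow_one, one_mul]
  linarith

theorem PG.neg {f : Pt n → ℝ} (hf : PG f) : PG (fun g => - f g) := by
  simpa using (PG.const (-1)).mul hf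

theorem PG.sub {f h : Pt n → ℝ} (hf : PG f) (hh : PG h) : PG (fun g => f g - h g) := by
  simpa [sub_eq_add_neg] using hf.add hh.neg

theorem PG.pow {f : Pt n → ℝ} (hf : PG f) (k : ℕ) : PG (fun g => f g ^ k) := by
  induction k with
  | zero => simpa using PG.const 1
  | succ k ih => simpa [pow_succ] using ih.mul hf

theorem PG.finset_sum {ι : Type*} (s : Finset ι) {f : ι → Pt n → ℝ} (hf : ∀ i ∈ s, PG (f i)) :
    PG (fun g => ∑ i ∈ s, f i g) := by
  classical
  induction s using Finset.induction_on with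
  | empty => simpa using PG.const 0
  | insert a s ha ih =>
    simp only [Finset.sum_insert ha]
    exact (hf a (Finset.mem_insert_self _ _)).add (ih fun i hi => hf i (Finset.mem_insert_of_mem hi))

theorem PG.finset_prod {ι : Type*} (s : Finset ι) {f : ι → Pt n → ℝ} (hf : ∀ i ∈ s, PG (f i)) :
    PG (fun g => ∏ i ∈ s, f i g) := by
  classical
  induction s using Finset.induction_on with
  | empty => simpa using PG.const 1
  | insert a s ha ih =>
    simp only [Finset.prod_insert ha]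
    exact (hf a (Finset.mem_insert_self _ _)).mul (ih fun i hi => hf i (Finset.mem_insert_of_mem hi))

/-- Domination by a `PG` function. -/
theorem PG.of_le {f h : Pt n → ℝ} (hm : Measurable f) (hh : PG h) (hle : ∀ g, |f g| ≤ |h g|) :
    PG f := by
  obtain ⟨_, C, N, hC⟩ := hh
  exact ⟨hm, C, N, fun g => (hle g).trans (hC g)⟩

end Vale.Agent.Lib.P146
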