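import Vale.Agent.Lib.P146.Defs

/-! Module C: algebra of `TT`, `DD`, `Trc`, `Snu`, `up`, `down`. -/

set_option autoImplicit false
open MvPolynomial

namespace Vale.Agent.Lib.P146

variable {n : ℕ}

theorem cc_symm (x y : Fin n) : cc x y = cc y x := by
  unfold cc
  by_cases h : x = y
  · simp [h]
  · simp [h, Ne.symm h]

theorem TT_symm (x y : Fin n) : TT n x y = TT n y x := by
  simp only [TT, Matrix.of_apply, cc_symm x y, Sym2.eq_swap]

theorem TT_pow_symm (a : ℕ) (x y : Fin n) : (TT n ^ a) x y = (TT n ^ a) y x := by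
  have h : (TT n).transpose = TT n := by
    ext1 u v
    rw [Matrix.transpose_apply]
    exact TT_symm v u
  have h2 : (TT n ^ a).transpose = TT n ^ a := by rw [Matrix.transpose_pow, h]
  have := congrFun (congrFun h2 y) x
  rw [Matrix.transpose_apply] at this
  exact this

theorem DD_apply (u v : Fin n) (p : Rr n) : DD u v p = C (cc u v) * pderiv s(u, v) p := by
  simp [DD, Derivation.smul_apply, MvPolynomial.smul_eq_C_mul]

theorem cc_mul_self (x y : Fin n) : cc x y * cc x y = if x = y then 2 else 1 := by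
  unfold cc
  by_cases h : x = y
  · simp [h]
  · simp [h]

/-- (M1) -/
theorem DD_TT (u v x y : Fin n) :
    DD u v (TT n x y) = C ((Real.sqrt n)⁻¹ *
      ((if u = x ∧ v = y then 1 else 0) + (if u = y ∧ v = x then 1 else 0))) := by
  have h1 : pderiv s(u, v) (TT n x y) =
      C (cc x y / Real.sqrt n) * (if s(u, v) = s(x, y) then 1 else 0) := by
    simp only [TT, Matrix.of_apply, Derivation.leibniz, pderiv_C, smul_zero, add_zero,
      pderiv_X, smul_eq_mul, Pi.single_apply]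
    by_cases h : s(x, y) = s(u, v)
    · simp [h]
    · have h' : ¬ s(u, v) = s(x, y) := fun hh => h hh.symm
      simp [h, h']
  rw [DD_apply, h1]
  by_cases h : s(u, v) = s(x, y)
  · rw [if_pos h, mul_one, ← C_mul]
    congr 1
    have hcc : cc u v = cc x y := by
      rw [Sym2.eq_iff] at h
      rcases h with ⟨rfl, rfl⟩ | ⟨rfl, rfl⟩
      · rfl
      · exact cc_symm _ _
    rw [hcc]
    have e : cc x y * (cc x y / Real.sqrt n) = (Real.sqrt n)⁻¹ * (cc x y * cc x y) := by ring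
    rw [e, cc_mul_self]
    congr 1
    rw [Sym2.eq_iff] at h
    by_cases hxy : x = y
    · subst hxy
      have hh : u = x ∧ v = x := by
        rcases h with h | h
        · exact h
        · exact h
      simp [hh.1, hh.2]
      norm_num
    · rcases h with ⟨rfl, rfl⟩ | ⟨rfl, rfl⟩
      · simp [hxy, Ne.symm hxy]
      · simp [hxy, Ne.symm hxy]
  · have h' := h
    rw [Sym2.eq_iff] at h'
    push Not at h'
    have h2 : ¬ (u = x ∧ v = y) := fun hh => h'.1 hh.1 hh.2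
    have h3 : ¬ (u = y ∧ v = x) := fun hh => h'.2 hh.1 hh.2
    rw [if_neg h, if_neg h2, if_neg h3]
    simp

/-- (M4) -/
theorem DD_pow (u v : Fin n) (a : ℕ) (x y : Fin n) :
    DD u v ((TT n ^ (a + 1)) x y) = C (Real.sqrt n)⁻¹ * ∑ i ∈ Finset.range (a + 1),
      ((TT n ^ i) x u * (TT n ^ (a - i)) v y + (TT n ^ i) x v * (TT n ^ (a - i)) u y) := by
  induction a generalizing y with
  | zero =>
    simp only [zero_add, pow_one, Finset.sum_range_one, Nat.sub_zero, pow_zero, Matrix.one_apply]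
    rw [DD_TT, C_mul]
    congr 1
    by_cases h1 : u = x <;> by_cases h2 : v = y <;> by_cases h3 : u = y <;> by_cases h4 : v = x <;>
      simp [h1, h2, h3, h4, eq_comm]
  | succ a ih =>
    have hexp : (TT n ^ (a + 1 + 1)) x y = ∑ z, (TT n ^ (a + 1)) x z * TT n z y := by
      rw [pow_succ (TT n) (a + 1), Matrix.mul_apply]
    rw [hexp, map_sum]
    simp only [Derivation.leibniz, smul_eq_mul]
    rw [Finset.sum_add_distrib]
    rw [Finset.sum_range_succ _ (a + 1)]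
    rw [mul_add, add_comm]
    congr 1
    · -- first sum
      simp only [ih, DD_TT]
      have : ∀ z, TT n z y * (C (Real.sqrt n)⁻¹ * ∑ i ∈ Finset.range (a + 1),
          ((TT n ^ i) x u * (TT n ^ (a - i)) v z + (TT n ^ i) x v * (TT n ^ (a - i)) u z)) =
          C (Real.sqrt n)⁻¹ * ∑ i ∈ Finset.range (a + 1),
          ((TT n ^ i) x u * ((TT n ^ (a - i)) v z * TT n z y)
            + (TT n ^ i) x v * ((TT n ^ (a - i)) u z * TT n z y)) := by
        intro z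
        rw [mul_left_comm, Finset.mul_sum]
        congr 1
        apply Finset.sum_congr rfl
        intro i _
        ring
      simp only [this]
      rw [← Finset.mul_sum]
      congr 1
      rw [Finset.sum_comm]
      apply Finset.sum_congr rfl
      intro i hi
      have hi' : i ≤ a := Nat.lt_succ_iff.mp (Finset.mem_range.mp hi)
      have e1 : a + 1 - i = a - i + 1 := by omega
      rw [e1, Finset.sum_add_distrib, ← Finset.mul_sum, ← Finset.mul_sum]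
      rw [pow_succ (TT n) (a - i), Matrix.mul_apply, Matrix.mul_apply]
    · -- second sum
      simp only [DD_TT, smul_eq_mul]
      have : ∀ z, (TT n ^ (a + 1)) x z *
          C ((Real.sqrt n)⁻¹ * ((if u = z ∧ v = y then 1 else 0) + (if u = y ∧ v = z then 1 else 0))) =
          C (Real.sqrt n)⁻¹ * ((if u = z then (TT n ^ (a + 1)) x z * (if v = y then 1 else 0) else 0) +
            (if v = z then (TT n ^ (a + 1)) x z * (if u = y then 1 else 0) else 0)) := by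
        intro z
        rw [C_mul, map_add, mul_left_comm]
        congr 1
        rw [mul_add]
        congr 1
        · by_cases h1 : u = z <;> by_cases h3 : v = y <;> simp [h1, h3]
        · by_cases h1 : v = z <;> by_cases h3 : u = y <;> simp [h1, h3]
      simp only [this]
      rw [← Finset.mul_sum, Finset.sum_add_distrib]
      simp only [Finset.sum_ite_eq, Finset.mem_univ, if_true]
      have e2 : a + 1 - (a + 1) = 0 := by omega
      rw [e2]
      simp only [pow_zero, Matrix.one_apply]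


theorem C_sqrt_inv_mul_self (hn : 0 < n) :
    (C (Real.sqrt n)⁻¹ * C (Real.sqrt n)⁻¹ : Rr n) = C (1 / (n : ℝ)) := by
  rw [← C_mul]
  congr 1
  have hn' : (0 : ℝ) ≤ n := Nat.cast_nonneg n
  rw [← mul_inv, Real.mul_self_sqrt hn', one_div]

/-- Adjointness in matrix form. -/
theorem WForm_TT (hn : 0 < n) (W : WForm n) (x y : Fin n) (p q : Rr n) :
    W.B (TT n x y * p) q = (Real.sqrt n)⁻¹ * W.B p (DD x y q) := by
  have e1 : TT n x y * p = (cc x y / Real.sqrt n) • (X s(x, y) * p) := by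
    simp only [TT, Matrix.of_apply, MvPolynomial.smul_eq_C_mul]
    ring
  have e2 : DD x y q = (cc x y) • pderiv s(x, y) q := by
    simp [DD, Derivation.smul_apply]
  rw [e1, map_smul, LinearMap.smul_apply, W.adj, e2, map_smul, smul_eq_mul, smul_eq_mul]
  ring

theorem Trc_eq (ℓ : ℕ) :
    Trc n ℓ = ∑ x, ∑ y, TT n x y * (TT n ^ ℓ) x y := by
  simp only [Trc, Matrix.trace, Matrix.diag_apply]
  apply Finset.sum_congr rfl
  intro x _
  rw [pow_succ' (TT n) ℓ, Matrix.mul_apply]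
  apply Finset.sum_congr rfl
  intro y _
  rw [TT_pow_symm ℓ y x]

/-- The trace of `𝐓^i`. -/
theorem sum_pow_diag (i : ℕ) :
    ∑ z, (TT n ^ (i + 1)) z z = Trc n i := by
  simp [Trc, Matrix.trace, Matrix.diag_apply]

theorem sum_pow_diag_zero :
    ∑ z, (TT n ^ 0) z z = C (n : ℝ) := by
  simp [Matrix.one_apply]

/-- The contraction identity behind `𝐃`: for `a ≥ 1`. -/
theorem DD_contract (hn : 0 < n) (a : ℕ) (x y : Fin n) (Q : Rr n) :
    C (Real.sqrt n)⁻¹ * ∑ z, DD x z ((TT n ^ (a + 1)) z y * Q) =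
      C (1 + ((a : ℝ) + 1) / n) * ((TT n ^ a) x y * Q)
      + C (1 / (n : ℝ)) * ∑ j ∈ Finset.range a, (TT n ^ (a - 1 - j)) x y * (Trc n j * Q)
      + C (Real.sqrt n)⁻¹ * ∑ z, (TT n ^ (a + 1)) z y * DD x z Q := by
  have hL : ∀ z, DD x z ((TT n ^ (a + 1)) z y * Q) =
      (TT n ^ (a + 1)) z y * DD x z Q + Q * DD x z ((TT n ^ (a + 1)) z y) := by
    intro z
    rw [Derivation.leibniz, smul_eq_mul, smul_eq_mul]
  simp only [hL]
  rw [Finset.sum_add_distrib, mul_add, add_comm]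
  congr 1
  -- main computation
  have hsum : ∑ z, Q * DD x z ((TT n ^ (a + 1)) z y) =
      C (Real.sqrt n)⁻¹ * (Q * ∑ i ∈ Finset.range (a + 1),
        ((TT n ^ a) x y + (∑ z, (TT n ^ i) z z) * (TT n ^ (a - i)) x y)) := by
    simp only [DD_pow]
    have : ∀ z, Q * (C (Real.sqrt n)⁻¹ * ∑ i ∈ Finset.range (a + 1),
        ((TT n ^ i) z x * (TT n ^ (a - i)) z y + (TT n ^ i) z z * (TT n ^ (a - i)) x y)) =
        C (Real.sqrt n)⁻¹ * (Q * ∑ i ∈ Finset.range (a + 1),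
        ((TT n ^ i) z x * (TT n ^ (a - i)) z y + (TT n ^ i) z z * (TT n ^ (a - i)) x y)) := by
      intro z; ring
    simp only [this]
    rw [← Finset.mul_sum, ← Finset.mul_sum, Finset.sum_comm]
    congr 2
    apply Finset.sum_congr rfl
    intro i hi
    have hi' : i ≤ a := Nat.lt_succ_iff.mp (Finset.mem_range.mp hi)
    rw [Finset.sum_add_distrib, Finset.sum_mul]
    congr 1
    have e : TT n ^ a = TT n ^ i * TT n ^ (a - i) := by
      rw [← pow_add]; congr 1; omega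
    rw [e, Matrix.mul_apply]
    apply Finset.sum_congr rfl
    intro z _
    rw [TT_pow_symm i z x]
  rw [hsum, ← mul_assoc, C_sqrt_inv_mul_self hn]
  -- split the range
  rw [Finset.sum_add_distrib, Finset.sum_range_succ' (fun i => (∑ z, (TT n ^ i) z z) * (TT n ^ (a - i)) x y)]
  simp only [sum_pow_diag, sum_pow_diag_zero, Nat.sub_zero, Finset.sum_const, Finset.card_range, nsmul_eq_mul]
  have hC : (C (1 + ((a : ℝ) + 1) / n) : Rr n) = C (1 / (n : ℝ)) * (((a + 1 : ℕ) : Rr n) + C (n : ℝ)) := by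
    have hn' : (n : ℝ) ≠ 0 := by positivity
    have : (((a + 1 : ℕ) : Rr n)) = C ((a : ℝ) + 1) := by
      push_cast
      simp [map_add, MvPolynomial.C_eq_coe_nat]
    rw [this, ← map_add, ← C_mul]
    congr 1
    field_simp
    ring
  rw [hC]
  have hs : ∑ j ∈ Finset.range a, (TT n ^ (a - 1 - j)) x y * (Trc n j * Q) =
      Q * ∑ j ∈ Finset.range a, Trc n j * (TT n ^ (a - (j + 1))) x y := by
    rw [Finset.mul_sum]
    apply Finset.sum_congr rfl
    intro j hj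
    have hj' : j < a := Finset.mem_range.mp hj
    have : a - 1 - j = a - (j + 1) := by omega
    rw [this]
    ring
  rw [hs]
  ring

/-- The case `a = 0` of the contraction identity. -/
theorem DD_contract_zero (x y : Fin n) (Q : Rr n) :
    C (Real.sqrt n)⁻¹ * ∑ z, DD x z ((TT n ^ 0) z y * Q) = C (Real.sqrt n)⁻¹ * DD x y Q := by
  congr 1
  simp only [pow_zero, Matrix.one_apply, ite_mul, one_mul, zero_mul]
  rw [Finset.sum_eq_single y]
  · simp
  · intro b _ hb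
    simp [hb]
  · simp


/-! ### The normalising constants -/

theorem zz_zero : zz 0 = 1 := by
  simp [zz]

theorem zz_cons (j : ℕ) (μ : Wt) :
    zz (j ::ₘ μ) = zz μ * (2 * ((j : ℝ) + 1) * ((μ.count j : ℝ) + 1)) := by
  classical
  unfold zz
  have h1 : ∏ ℓ ∈ (j ::ₘ μ).toFinset, (((j ::ₘ μ).count ℓ).factorial : ℝ) =
      ((μ.count j : ℝ) + 1) * ∏ ℓ ∈ μ.toFinset, ((μ.count ℓ).factorial : ℝ) := by
    have hS : (j ::ₘ μ).toFinset = insert j μ.toFinset := by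
      simp [Multiset.toFinset_cons]
    have h2 : ∏ ℓ ∈ μ.toFinset, ((μ.count ℓ).factorial : ℝ) =
        ∏ ℓ ∈ insert j μ.toFinset, ((μ.count ℓ).factorial : ℝ) := by
      apply Finset.prod_subset (Finset.subset_insert _ _)
      intro ℓ _ hℓ
      have : μ.count ℓ = 0 := Multiset.count_eq_zero_of_notMem (by simpa using hℓ)
      simp [this]
    rw [h2, hS]
    rw [← Finset.mul_prod_erase _ _ (Finset.mem_insert_self j μ.toFinset)]
    rw [← Finset.mul_prod_erase (insert j μ.toFinset) (fun ℓ => ((μ.count ℓ).factorial : ℝ))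
      (Finset.mem_insert_self j μ.toFinset)]
    rw [← mul_assoc]
    congr 1
    · rw [Multiset.count_cons_self, Nat.factorial_succ]
      push_cast
      ring
    · apply Finset.prod_congr rfl
      intro ℓ hℓ
      have hne : ℓ ≠ j := (Finset.mem_erase.mp hℓ).1
      rw [Multiset.count_cons_of_ne hne]
  rw [h1]
  simp only [Multiset.bind_def, Multiset.pure_def, Multiset.cons_bind, Multiset.map_add,
    Multiset.prod_add, Multiset.map_singleton, Multiset.prod_singleton]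
  ring

theorem zz_pos (ν : Wt) : 0 < zz ν := by
  induction ν using Multiset.induction_on with
  | empty => simp [zz_zero]
  | cons j μ ih =>
    rw [zz_cons]
    positivity

theorem zz_erase {ν : Wt} {ℓ : ℕ} (h : ℓ ∈ ν) :
    zz ν = zz (ν.erase ℓ) * (2 * ((ℓ : ℝ) + 1) * (ν.count ℓ : ℝ)) := by
  have h1 : ν = ℓ ::ₘ ν.erase ℓ := (Multiset.cons_erase h).symm
  have h2 : (ν.erase ℓ).count ℓ + 1 = ν.count ℓ := by
    conv_rhs => rw [h1]
    rw [Multiset.count_cons_self]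
  conv_lhs => rw [h1]
  rw [zz_cons]
  have h3 : ((ν.erase ℓ).count ℓ : ℝ) + 1 = (ν.count ℓ : ℝ) := by exact_mod_cast h2
  rw [h3]

theorem dg_cons (j : ℕ) (ν : Wt) : dg (j ::ₘ ν) = j + 1 + dg ν := by
  simp [dg]

theorem count_mul_le_dg (j : ℕ) (ν : Wt) : (j + 1) * ν.count j ≤ dg ν := by
  induction ν using Multiset.induction_on with
  | empty => simp [dg]
  | cons i μ ih =>
    rw [dg_cons]
    by_cases h : j = i
    · subst h
      rw [Multiset.count_cons_self]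
      nlinarith
    · rw [Multiset.count_cons_of_ne h]
      omega

theorem sum_count_eq_dg (ν : Wt) (L : ℕ) (hL : ∀ ℓ ∈ ν, ℓ < L) :
    ∑ ℓ ∈ Finset.range L, (ℓ + 1) * ν.count ℓ = dg ν := by
  induction ν using Multiset.induction_on with
  | empty => simp [dg]
  | cons i μ ih =>
    have hi : i < L := hL i (Multiset.mem_cons_self i μ)
    have hμ : ∀ ℓ ∈ μ, ℓ < L := fun ℓ h => hL ℓ (Multiset.mem_cons_of_mem h)
    rw [dg_cons, ← ih hμ]
    have : ∀ ℓ, (ℓ + 1) * (i ::ₘ μ).count ℓ = (ℓ + 1) * μ.count ℓ + (if ℓ = i then i + 1 else 0) := by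
      intro ℓ
      by_cases h : ℓ = i
      · subst h
        rw [Multiset.count_cons_self]
        simp
        ring
      · rw [Multiset.count_cons_of_ne h]
        simp [h]
    simp only [this]
    rw [Finset.sum_add_distrib, Finset.sum_ite_eq' ]
    simp [Finset.mem_range.mpr hi]
    ring

theorem Snu_def (ν : Wt) : Snu n ν = C (Real.sqrt (zz ν))⁻¹ * (ν.map (Trc n)).prod := rfl

theorem Trc_mul_Snu (j : ℕ) (μ : Wt) :
    Trc n j * Snu n μ = C (Real.sqrt (2 * ((j : ℝ) + 1) * ((μ.count j : ℝ) + 1))) * Snu n (j ::ₘ μ) := by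
  rw [Snu_def, Snu_def, Multiset.map_cons, Multiset.prod_cons, zz_cons]
  have hz := zz_pos μ
  have ha : 0 < 2 * ((j : ℝ) + 1) * ((μ.count j : ℝ) + 1) := by positivity
  have e : Real.sqrt (2 * ((j : ℝ) + 1) * ((μ.count j : ℝ) + 1)) *
      (Real.sqrt (zz μ * (2 * ((j : ℝ) + 1) * ((μ.count j : ℝ) + 1))))⁻¹ = (Real.sqrt (zz μ))⁻¹ := by
    rw [Real.sqrt_mul hz.le, mul_inv, mul_comm, mul_assoc, inv_mul_cancel₀ (Real.sqrt_pos.mpr ha).ne', mul_one]
  rw [← mul_assoc (C _) (C _), ← C_mul, e]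
  ring

/-! ### Linearity of `Sc` -/

theorem Sc_apply (c : Wt →₀ ℝ) : Sc n c = ∑ ν ∈ c.support, C (c ν) * Snu n ν := rfl

theorem Sc_zero : Sc n 0 = 0 := by
  simp [Sc]

theorem Sc_add (c c' : Wt →₀ ℝ) : Sc n (c + c') = Sc n c + Sc n c' := by
  unfold Sc
  rw [Finsupp.sum_add_index']
  · intro ν; simp
  · intro ν r r'; rw [map_add, add_mul]

theorem Sc_sum {ι : Type*} (s : Finset ι) (f : ι → Wt →₀ ℝ) :
    Sc n (∑ i ∈ s, f i) = ∑ i ∈ s, Sc n (f i) := by
  classical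
  induction s using Finset.induction_on with
  | empty => simp [Sc_zero]
  | insert a s ha ih => rw [Finset.sum_insert ha, Finset.sum_insert ha, Sc_add, ih]

theorem Sc_single (ν : Wt) (r : ℝ) : Sc n (Finsupp.single ν r) = C r * Snu n ν := by
  simp [Sc]

theorem up_eq (j : ℕ) (c : Wt →₀ ℝ) : up j c = ∑ ν ∈ c.support,
    Finsupp.single (j ::ₘ ν) (c ν * Real.sqrt (2 * ((j : ℝ) + 1) * ((ν.count j : ℝ) + 1))) := rfl

theorem down_eq (ℓ : ℕ) (c : Wt →₀ ℝ) : down ℓ c = ∑ ν ∈ c.support,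
    Finsupp.single (ν.erase ℓ) (c ν * Real.sqrt (2 * ((ℓ : ℝ) + 1) * (ν.count ℓ : ℝ))) := rfl

/-- (S1) -/
theorem Trc_mul_Sc (hn : 0 < n) (j : ℕ) (c : Wt →₀ ℝ) : Trc n j * Sc n c = Sc n (up j c) := by
  rw [up_eq, Sc_sum, Sc_apply, Finset.mul_sum]
  apply Finset.sum_congr rfl
  intro ν _
  rw [Sc_single, mul_left_comm, Trc_mul_Snu, C_mul]
  ring

/-! ### Derivative of the Wick traces -/

theorem DD_Trc (x y : Fin n) (ℓ : ℕ) :
    DD x y (Trc n ℓ) = C (2 * ((ℓ : ℝ) + 1) * (Real.sqrt n)⁻¹) * (TT n ^ ℓ) x y := by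
  have h0 : Trc n ℓ = ∑ w, (TT n ^ (ℓ + 1)) w w := by
    simp [Trc, Matrix.trace, Matrix.diag_apply]
  rw [h0, map_sum]
  simp only [DD_pow]
  rw [← Finset.mul_sum, Finset.sum_comm]
  have h1 : ∀ i ∈ Finset.range (ℓ + 1), ∑ w, ((TT n ^ i) w x * (TT n ^ (ℓ - i)) y w +
      (TT n ^ i) w y * (TT n ^ (ℓ - i)) x w) = 2 * (TT n ^ ℓ) x y := by
    intro i hi
    have hi' : i ≤ ℓ := Nat.lt_succ_iff.mp (Finset.mem_range.mp hi)
    have e : TT n ^ ℓ = TT n ^ (ℓ - i) * TT n ^ i := by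
      rw [← pow_add]; congr 1; omega
    have e1 : ∑ w, (TT n ^ i) w x * (TT n ^ (ℓ - i)) y w = (TT n ^ ℓ) x y := by
      rw [TT_pow_symm ℓ x y, e, Matrix.mul_apply]
      apply Finset.sum_congr rfl
      intro w _
      ring
    have e2 : ∑ w, (TT n ^ i) w y * (TT n ^ (ℓ - i)) x w = (TT n ^ ℓ) x y := by
      rw [e, Matrix.mul_apply]
      apply Finset.sum_congr rfl
      intro w _
      ring
    rw [Finset.sum_add_distrib, e1, e2]
    ring
  rw [Finset.sum_congr rfl h1]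
  simp only [Finset.sum_const, Finset.card_range, nsmul_eq_mul]
  have e3 : (C (2 * ((ℓ : ℝ) + 1) * (Real.sqrt n)⁻¹) : Rr n) =
      C (Real.sqrt n)⁻¹ * (((ℓ + 1 : ℕ) : Rr n) * 2) := by
    have e4 : (((ℓ + 1 : ℕ) : Rr n)) = C ((ℓ : ℝ) + 1) := by
      push_cast
      simp [map_add, MvPolynomial.C_eq_coe_nat]
    have e5 : (2 : Rr n) = C (2 : ℝ) := by
      rw [show (2 : ℝ) = ((2 : ℕ) : ℝ) by norm_num, MvPolynomial.C_eq_coe_nat]; norm_num
    rw [e4, e5, ← C_mul, ← C_mul]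
    congr 1
    ring
  rw [e3]
  ring

theorem C_count_mul_prod_erase (j : ℕ) (μ : Wt) :
    (C (μ.count j : ℝ) : Rr n) * (Trc n j * ((μ.erase j).map (Trc n)).prod) =
      C (μ.count j : ℝ) * (μ.map (Trc n)).prod := by
  by_cases h : j ∈ μ
  · conv_rhs => rw [← Multiset.cons_erase h]
    rw [Multiset.map_cons, Multiset.prod_cons, Multiset.cons_erase h]
  · have : μ.count j = 0 := Multiset.count_eq_zero_of_notMem h
    simp [this]

theorem DD_prod (x y : Fin n) (ν : Wt) (L : ℕ) (hL : ∀ ℓ ∈ ν, ℓ < L) :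
    DD x y ((ν.map (Trc n)).prod) = ∑ ℓ ∈ Finset.range L,
      C (ν.count ℓ : ℝ) * (DD x y (Trc n ℓ) * ((ν.erase ℓ).map (Trc n)).prod) := by
  induction ν using Multiset.induction_on with
  | empty => simp
  | cons i μ ih =>
    have hi : i < L := hL i (Multiset.mem_cons_self i μ)
    have hμ : ∀ ℓ ∈ μ, ℓ < L := fun ℓ h => hL ℓ (Multiset.mem_cons_of_mem h)
    rw [Multiset.map_cons, Multiset.prod_cons, Derivation.leibniz, ih hμ, smul_eq_mul, smul_eq_mul]
    rw [Finset.mul_sum]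
    have hterm : ∀ ℓ ∈ Finset.range L,
        C ((i ::ₘ μ).count ℓ : ℝ) * (DD x y (Trc n ℓ) * (((i ::ₘ μ).erase ℓ).map (Trc n)).prod) =
        Trc n i * (C (μ.count ℓ : ℝ) * (DD x y (Trc n ℓ) * ((μ.erase ℓ).map (Trc n)).prod)) +
          (if ℓ = i then (μ.map (Trc n)).prod * DD x y (Trc n i) else 0) := by
      intro ℓ _
      by_cases h : ℓ = i
      · subst h
        rw [Multiset.count_cons_self, Multiset.erase_cons_head, if_pos rfl]
        have := C_count_mul_prod_erase (n := n) ℓ μ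
        have e : (C ((μ.count ℓ + 1 : ℕ) : ℝ) : Rr n) = C (μ.count ℓ : ℝ) + 1 := by
          push_cast; simp [map_add]
        rw [e]
        have e2 : Trc n ℓ * (C (μ.count ℓ : ℝ) * (DD x y (Trc n ℓ) * ((μ.erase ℓ).map (Trc n)).prod)) =
            DD x y (Trc n ℓ) * (C (μ.count ℓ : ℝ) * (Trc n ℓ * ((μ.erase ℓ).map (Trc n)).prod)) := by ring
        rw [e2, this]
        ring
      · rw [Multiset.count_cons_of_ne h, Multiset.erase_cons_tail μ (Ne.symm h), if_neg h,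
          Multiset.map_cons, Multiset.prod_cons]
        ring
    rw [Finset.sum_congr rfl hterm, Finset.sum_add_distrib, Finset.sum_ite_eq']
    simp [Finset.mem_range.mpr hi]


theorem DD_C_mul (x y : Fin n) (a : ℝ) (p : Rr n) : DD x y (C a * p) = C a * DD x y p := by
  rw [DD_apply, DD_apply, Derivation.leibniz, smul_eq_mul, smul_eq_mul, pderiv_C, mul_zero, add_zero]
  ring

theorem coef_aux {ν : Wt} {ℓ : ℕ} (hn : 0 < n) :
    (Real.sqrt (zz ν))⁻¹ * ((ν.count ℓ : ℝ) * (2 * ((ℓ : ℝ) + 1) * (Real.sqrt n)⁻¹)) =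
      (Real.sqrt n)⁻¹ * (Real.sqrt (2 * ((ℓ : ℝ) + 1) * (ν.count ℓ : ℝ)) * (Real.sqrt (zz (ν.erase ℓ)))⁻¹) := by
  by_cases h : ℓ ∈ ν
  · rw [zz_erase h]
    have hz := zz_pos (ν.erase ℓ)
    have hc : 0 < (ν.count ℓ : ℝ) := by exact_mod_cast Multiset.count_pos.mpr h
    have ha : 0 < 2 * ((ℓ : ℝ) + 1) * (ν.count ℓ : ℝ) := by positivity
    rw [Real.sqrt_mul hz.le, mul_inv]
    have hs : Real.sqrt (2 * ((ℓ : ℝ) + 1) * (ν.count ℓ : ℝ)) * Real.sqrt (2 * ((ℓ : ℝ) + 1) * (ν.count ℓ : ℝ))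
        = 2 * ((ℓ : ℝ) + 1) * (ν.count ℓ : ℝ) := Real.mul_self_sqrt ha.le
    have hsp := Real.sqrt_pos.mpr ha
    field_simp
    nlinarith [hs]
  · have : ν.count ℓ = 0 := Multiset.count_eq_zero_of_notMem h
    simp [this]

theorem DD_Snu (hn : 0 < n) (x y : Fin n) (ν : Wt) (L : ℕ) (hL : ∀ ℓ ∈ ν, ℓ < L) :
    DD x y (Snu n ν) = C (Real.sqrt n)⁻¹ * ∑ ℓ ∈ Finset.range L, (TT n ^ ℓ) x y *
      (C (Real.sqrt (2 * ((ℓ : ℝ) + 1) * (ν.count ℓ : ℝ))) * Snu n (ν.erase ℓ)) := by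
  rw [Snu_def, DD_C_mul, DD_prod x y ν L hL, Finset.mul_sum, Finset.mul_sum]
  apply Finset.sum_congr rfl
  intro ℓ _
  rw [DD_Trc, Snu_def]
  have e := coef_aux (n := n) (ν := ν) (ℓ := ℓ) hn
  calc C (Real.sqrt (zz ν))⁻¹ * (C (ν.count ℓ : ℝ) * (C (2 * ((ℓ : ℝ) + 1) * (Real.sqrt n)⁻¹) * (TT n ^ ℓ) x y *
        ((ν.erase ℓ).map (Trc n)).prod))
      = C ((Real.sqrt (zz ν))⁻¹ * ((ν.count ℓ : ℝ) * (2 * ((ℓ : ℝ) + 1) * (Real.sqrt n)⁻¹))) * ((TT n ^ ℓ) x y *
        ((ν.erase ℓ).map (Trc n)).prod) := by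
        simp only [C_mul]; ring
    _ = _ := by
        rw [e]
        simp only [C_mul]; ring

/-- (S2) -/
theorem DD_Sc (hn : 0 < n) (x y : Fin n) (c : Wt →₀ ℝ) (L : ℕ)
    (hL : ∀ ν ∈ c.support, ∀ ℓ ∈ ν, ℓ < L) :
    DD x y (Sc n c) = C (Real.sqrt n)⁻¹ * ∑ ℓ ∈ Finset.range L, (TT n ^ ℓ) x y * Sc n (down ℓ c) := by
  have h1 : ∀ ℓ, Sc n (down ℓ c) = ∑ ν ∈ c.support,
      C (c ν) * (C (Real.sqrt (2 * ((ℓ : ℝ) + 1) * (ν.count ℓ : ℝ))) * Snu n (ν.erase ℓ)) := by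
    intro ℓ
    rw [down_eq, Sc_sum]
    apply Finset.sum_congr rfl
    intro ν _
    rw [Sc_single, C_mul, mul_assoc]
  simp only [h1, Finset.mul_sum]
  rw [Sc_apply, map_sum, Finset.sum_comm]
  apply Finset.sum_congr rfl
  intro ν hν
  rw [DD_C_mul, DD_Snu hn x y ν L (hL ν hν), Finset.mul_sum, Finset.mul_sum]
  apply Finset.sum_congr rfl
  intro ℓ _
  ring

theorem Trc_mul_Snu_erase (ℓ : ℕ) (ν : Wt) :
    C (Real.sqrt (2 * ((ℓ : ℝ) + 1) * (ν.count ℓ : ℝ))) * (Trc n ℓ * Snu n (ν.erase ℓ)) =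
      C (2 * ((ℓ : ℝ) + 1) * (ν.count ℓ : ℝ)) * Snu n ν := by
  by_cases h : ℓ ∈ ν
  · have h2 : (ν.erase ℓ).count ℓ + 1 = ν.count ℓ := by
      conv_rhs => rw [← Multiset.cons_erase h]
      rw [Multiset.count_cons_self]
    have h3 : ((ν.erase ℓ).count ℓ : ℝ) + 1 = (ν.count ℓ : ℝ) := by exact_mod_cast h2
    rw [Trc_mul_Snu, h3, Multiset.cons_erase h, ← mul_assoc, ← C_mul]
    have hc : 0 ≤ (2 * ((ℓ : ℝ) + 1) * (ν.count ℓ : ℝ)) := by positivity
    rw [Real.mul_self_sqrt hc]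
  · have : ν.count ℓ = 0 := Multiset.count_eq_zero_of_notMem h
    simp [this]

/-- The number operator. -/
theorem euler_Sc (hn : 0 < n) (d : ℕ) (c : Wt →₀ ℝ) (hc : ∀ ν ∈ c.support, dg ν = d) (L : ℕ)
    (hL : ∀ ν ∈ c.support, ∀ ℓ ∈ ν, ℓ < L) :
    C (d : ℝ) * Sc n c = C (1 / 2) * ∑ ℓ ∈ Finset.range L, Trc n ℓ * Sc n (down ℓ c) := by
  have h1 : ∀ ℓ, Trc n ℓ * Sc n (down ℓ c) = ∑ ν ∈ c.support,
      C (c ν * (2 * ((ℓ : ℝ) + 1) * (ν.count ℓ : ℝ))) * Snu n ν := by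
    intro ℓ
    rw [down_eq, Sc_sum, Finset.mul_sum]
    apply Finset.sum_congr rfl
    intro ν _
    have e := Trc_mul_Snu_erase (n := n) ℓ ν
    have e1 : (C (c ν * Real.sqrt (2 * ((ℓ : ℝ) + 1) * (ν.count ℓ : ℝ))) : Rr n) =
        C (c ν) * C (Real.sqrt (2 * ((ℓ : ℝ) + 1) * (ν.count ℓ : ℝ))) := C_mul
    have e2 : (C (c ν * (2 * ((ℓ : ℝ) + 1) * (ν.count ℓ : ℝ))) : Rr n) =
        C (c ν) * C (2 * ((ℓ : ℝ) + 1) * (ν.count ℓ : ℝ)) := C_mul
    rw [Sc_single, e1, e2, mul_assoc (C (c ν)) (C (2 * ((ℓ : ℝ) + 1) * (ν.count ℓ : ℝ))), ← e]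
    ring
  simp only [h1]
  rw [Finset.sum_comm, Sc_apply, Finset.mul_sum, Finset.mul_sum]
  apply Finset.sum_congr rfl
  intro ν hν
  rw [← Finset.sum_mul, ← map_sum, ← mul_assoc, ← C_mul, ← mul_assoc, ← C_mul]
  congr 2
  rw [← Finset.mul_sum]
  have h2 : ∑ ℓ ∈ Finset.range L, (2 * ((ℓ : ℝ) + 1) * (ν.count ℓ : ℝ)) = 2 * (d : ℝ) := by
    have h3 := sum_count_eq_dg ν L (hL ν hν)
    rw [hc ν hν] at h3
    have h4 : ∑ ℓ ∈ Finset.range L, (((ℓ : ℝ) + 1) * (ν.count ℓ : ℝ)) = (d : ℝ) := by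
      rw [← h3]; push_cast; rfl
    rw [← h4, Finset.mul_sum]
    apply Finset.sum_congr rfl
    intro ℓ _
    ring
  rw [h2]
  ring

/-! Norm and support bookkeeping. -/

theorem support_up (j : ℕ) (c : Wt →₀ ℝ) {μ : Wt} (hμ : μ ∈ (up j c).support) :
    ∃ ν ∈ c.support, μ = j ::ₘ ν := by
  classical
  have h := Finsupp.support_sum (f := c) (g := fun ν r => Finsupp.single (j ::ₘ ν)
    (r * Real.sqrt (2 * ((j : ℝ) + 1) * ((ν.count j : ℝ) + 1)))) hμ
  rw [Finset.mem_biUnion] at h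
  obtain ⟨ν, hν, h2⟩ := h
  exact ⟨ν, hν, (Finsupp.mem_support_single _ _ _).mp h2 |>.1⟩

theorem support_down (ℓ : ℕ) (c : Wt →₀ ℝ) {μ : Wt} (hμ : μ ∈ (down ℓ c).support) :
    ∃ ν ∈ c.support, ℓ ∈ ν ∧ μ = ν.erase ℓ := by
  classical
  have h := Finsupp.support_sum (f := c) (g := fun ν r => Finsupp.single (ν.erase ℓ)
    (r * Real.sqrt (2 * ((ℓ : ℝ) + 1) * (ν.count ℓ : ℝ)))) hμ
  rw [Finset.mem_biUnion] at h
  obtain ⟨ν, hν, h2⟩ := h
  have h3 := (Finsupp.mem_support_single _ _ _).mp h2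
  refine ⟨ν, hν, ?_, h3.1⟩
  by_contra hn
  have : ν.count ℓ = 0 := Multiset.count_eq_zero_of_notMem hn
  apply h3.2
  simp [this]

theorem nrm2_eq {A : Type*} (c : A →₀ ℝ) : nrm2 c = ∑ a ∈ c.support, c a ^ 2 := rfl

theorem nrm2_nonneg {A : Type*} (c : A →₀ ℝ) : 0 ≤ nrm2 c :=
  Finset.sum_nonneg fun _ _ => sq_nonneg _

theorem up_apply_cons (j : ℕ) (c : Wt →₀ ℝ) (ν : Wt) :
    up j c (j ::ₘ ν) = c ν * Real.sqrt (2 * ((j : ℝ) + 1) * ((ν.count j : ℝ) + 1)) := by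
  classical
  rw [up_eq, Finsupp.finsetSum_apply]
  simp only [Finsupp.single_apply, Multiset.cons_inj_right]
  rw [Finset.sum_ite_eq' ]
  by_cases h : ν ∈ c.support
  · rw [if_pos h]
  · rw [if_neg h]
    have : c ν = 0 := Finsupp.notMem_support_iff.mp h
    simp [this]

theorem nrm2_up (j : ℕ) (c : Wt →₀ ℝ) :
    nrm2 (up j c) = c.sum fun ν r => r ^ 2 * (2 * ((j : ℝ) + 1) * ((ν.count j : ℝ) + 1)) := by
  classical
  have hsub : (up j c).support ⊆ c.support.image (fun ν => j ::ₘ ν) := by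
    intro μ hμ
    obtain ⟨ν, hν, rfl⟩ := support_up j c hμ
    exact Finset.mem_image_of_mem _ hν
  have h1 : nrm2 (up j c) = ∑ μ ∈ c.support.image (fun ν => j ::ₘ ν), up j c μ ^ 2 :=
    Finsupp.sum_of_support_subset _ hsub _ (fun _ _ => by simp)
  rw [h1, Finset.sum_image (fun a _ b _ h => (Multiset.cons_inj_right j).mp h)]
  unfold Finsupp.sum
  apply Finset.sum_congr rfl
  intro ν _
  rw [up_apply_cons, mul_pow, Real.sq_sqrt (by positivity)]

theorem down_apply_erase (ℓ : ℕ) (c : Wt →₀ ℝ) {ν : Wt} (h : ℓ ∈ ν) :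
    down ℓ c (ν.erase ℓ) = c ν * Real.sqrt (2 * ((ℓ : ℝ) + 1) * (ν.count ℓ : ℝ)) := by
  classical
  rw [down_eq, Finsupp.finsetSum_apply]
  have hterm : ∀ ν' ∈ c.support, (Finsupp.single (ν'.erase ℓ)
      (c ν' * Real.sqrt (2 * ((ℓ : ℝ) + 1) * (ν'.count ℓ : ℝ)))) (ν.erase ℓ) =
      if ν' = ν then c ν' * Real.sqrt (2 * ((ℓ : ℝ) + 1) * (ν'.count ℓ : ℝ)) else 0 := by
    intro ν' _
    rw [Finsupp.single_apply]
    by_cases hν : ν' = ν
    · subst hν; simp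
    · rw [if_neg hν]
      by_cases h' : ℓ ∈ ν'
      · have : ν'.erase ℓ ≠ ν.erase ℓ := by
          intro he
          apply hν
          rw [← Multiset.cons_erase h', ← Multiset.cons_erase h, he]
        rw [if_neg this]
      · have : ν'.count ℓ = 0 := Multiset.count_eq_zero_of_notMem h'
        simp [this]
  rw [Finset.sum_congr rfl hterm, Finset.sum_ite_eq']
  by_cases hs : ν ∈ c.support
  · rw [if_pos hs]
  · rw [if_neg hs]
    have : c ν = 0 := Finsupp.notMem_support_iff.mp hs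
    simp [this]

theorem nrm2_down (ℓ : ℕ) (c : Wt →₀ ℝ) :
    nrm2 (down ℓ c) = c.sum fun ν r => r ^ 2 * (2 * ((ℓ : ℝ) + 1) * (ν.count ℓ : ℝ)) := by
  classical
  set S := c.support.filter (fun ν => ℓ ∈ ν) with hS
  have hsub : (down ℓ c).support ⊆ S.image (fun ν => ν.erase ℓ) := by
    intro μ hμ
    obtain ⟨ν, hν, hℓ, rfl⟩ := support_down ℓ c hμ
    exact Finset.mem_image_of_mem _ (Finset.mem_filter.mpr ⟨hν, hℓ⟩)
  have h1 : nrm2 (down ℓ c) = ∑ μ ∈ S.image (fun ν => ν.erase ℓ), down ℓ c μ ^ 2 :=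
    Finsupp.sum_of_support_subset _ hsub _ (fun _ _ => by simp)
  have hinj : Set.InjOn (fun ν : Wt => ν.erase ℓ) S := by
    intro a ha b hb hab
    have ha' := (Finset.mem_filter.mp ha).2
    have hb' := (Finset.mem_filter.mp hb).2
    rw [← Multiset.cons_erase ha', ← Multiset.cons_erase hb']
    simp only at hab
    rw [hab]
  rw [h1, Finset.sum_image hinj]
  unfold Finsupp.sum
  have h2 : ∑ ν ∈ c.support, c ν ^ 2 * (2 * ((ℓ : ℝ) + 1) * (ν.count ℓ : ℝ)) =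
      ∑ ν ∈ S, c ν ^ 2 * (2 * ((ℓ : ℝ) + 1) * (ν.count ℓ : ℝ)) := by
    symm
    apply Finset.sum_subset (Finset.filter_subset _ _)
    intro ν hν hn
    have : ℓ ∉ ν := fun h => hn (Finset.mem_filter.mpr ⟨hν, h⟩)
    have h0 : ν.count ℓ = 0 := Multiset.count_eq_zero_of_notMem this
    simp [h0]
  rw [h2]
  apply Finset.sum_congr rfl
  intro ν hν
  have hℓ := (Finset.mem_filter.mp hν).2
  rw [down_apply_erase ℓ c hℓ, mul_pow, Real.sq_sqrt (by positivity)]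

theorem nrm_le_of_nrm2_le {A B : Type*} (f : A →₀ ℝ) (c : B →₀ ℝ) (k : ℝ) (hk : 0 ≤ k)
    (h : nrm2 f ≤ k * nrm2 c) : nrm f ≤ Real.sqrt k * nrm c := by
  unfold nrm
  rw [← Real.sqrt_mul hk]
  exact Real.sqrt_le_sqrt h

/-- `‖up j c‖ ≤ √(2D) ‖c‖` if all `ν` in the support have `dg ν + j + 1 ≤ D`. -/
theorem nrm_up_le (j : ℕ) (c : Wt →₀ ℝ) (D : ℕ) (hc : ∀ ν ∈ c.support, dg ν + j + 1 ≤ D) :
    nrm (up j c) ≤ Real.sqrt (2 * D) * nrm c := by
  apply nrm_le_of_nrm2_le _ _ _ (by positivity)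
  rw [nrm2_up, nrm2_eq, Finset.mul_sum]
  unfold Finsupp.sum
  apply Finset.sum_le_sum
  intro ν hν
  have h1 := count_mul_le_dg j ν
  have h2 := hc ν hν
  have h3 : ((j : ℝ) + 1) * ((ν.count j : ℝ) + 1) ≤ D := by
    have : (j + 1) * (ν.count j + 1) ≤ D := by nlinarith
    exact_mod_cast this
  nlinarith [sq_nonneg (c ν)]

/-- `‖down ℓ c‖ ≤ √(2D) ‖c‖` if all `ν` in the support have `dg ν ≤ D`. -/
theorem nrm_down_le (ℓ : ℕ) (c : Wt →₀ ℝ) (D : ℕ) (hc : ∀ ν ∈ c.support, dg ν ≤ D) :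
    nrm (down ℓ c) ≤ Real.sqrt (2 * D) * nrm c := by
  apply nrm_le_of_nrm2_le _ _ _ (by positivity)
  rw [nrm2_down, nrm2_eq, Finset.mul_sum]
  unfold Finsupp.sum
  apply Finset.sum_le_sum
  intro ν hν
  have h1 := count_mul_le_dg ℓ ν
  have h2 := hc ν hν
  have h3 : ((ℓ : ℝ) + 1) * (ν.count ℓ : ℝ) ≤ D := by
    have : (ℓ + 1) * (ν.count ℓ) ≤ D := by omega
    exact_mod_cast this
  nlinarith [sq_nonneg (c ν)]

/-- `Σ_ℓ ‖down ℓ c‖² = 2 d ‖c‖²` for `c` homogeneous of degree `d`. -/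
theorem sum_nrm2_down (d : ℕ) (c : Wt →₀ ℝ) (hc : ∀ ν ∈ c.support, dg ν = d) (L : ℕ)
    (hL : ∀ ν ∈ c.support, ∀ ℓ ∈ ν, ℓ < L) :
    ∑ ℓ ∈ Finset.range L, nrm2 (down ℓ c) = 2 * d * nrm2 c := by
  simp only [nrm2_down]
  unfold Finsupp.sum
  rw [Finset.sum_comm, nrm2_eq, Finset.mul_sum]
  apply Finset.sum_congr rfl
  intro ν hν
  have h3 := sum_count_eq_dg ν L (hL ν hν)
  rw [hc ν hν] at h3
  have h4 : ∑ ℓ ∈ Finset.range L, (((ℓ : ℝ) + 1) * (ν.count ℓ : ℝ)) = (d : ℝ) := by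
    rw [← h3]; push_cast; rfl
  rw [← Finset.mul_sum]
  have h5 : ∑ ℓ ∈ Finset.range L, (2 * ((ℓ : ℝ) + 1) * (ν.count ℓ : ℝ)) = 2 * (d : ℝ) := by
    rw [← h4, Finset.mul_sum]
    apply Finset.sum_congr rfl
    intro ℓ _
    ring
  rw [h5]
  ring

end Vale.Agent.Lib.P146
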