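import Vale.Agent.Lib.P146.GibbsD
import Vale.Agent.Lib.P146.MatAlg

/-! Module L1: free polynomials and the level sum. -/

set_option autoImplicit false
open scoped Classical
open MeasureTheory MvPolynomial

namespace Vale.Agent.Lib.P146

variable {n : ℕ}

/-! ### Elementary facts on `mapL`, `monoM` -/

theorem card_mapL (f : Fin n → Fin n) (M : Multiset (Pr n)) :
    Multiset.card (mapL f M) = Multiset.card M := by
  simp [mapL]

theorem mapL_add (f : Fin n → Fin n) (M M' : Multiset (Pr n)) :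
    mapL f (M + M') = mapL f M + mapL f M' := by
  simp [mapL]

theorem monoM_add (M M' : Multiset (Pr n)) : monoM (M + M') = monoM M * monoM M' := by
  simp [monoM]

theorem monoM_zero : monoM (0 : Multiset (Pr n)) = 1 := by
  simp [monoM]

theorem degM_ne_zero_of_mem {M : Multiset (Pr n)} {p : Pr n} (hp : p ∈ M) :
    degM M p.1 ≠ 0 ∧ degM M p.2 ≠ 0 := by
  have key : ∀ x : Fin n, (p.1 = x ∨ p.2 = x) → degM M x ≠ 0 := by
    intro x hx
    have hmem : ((if p.1 = x then 1 else 0) + (if p.2 = x then 1 else 0)) ∈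
        M.map (fun p : Pr n => (if p.1 = x then 1 else 0) + (if p.2 = x then 1 else 0)) :=
      Multiset.mem_map_of_mem (fun p : Pr n => (if p.1 = x then 1 else 0) + (if p.2 = x then 1 else 0)) hp
    have hle := Multiset.le_sum_of_mem hmem
    unfold degM
    intro h0
    rw [h0] at hle
    rcases hx with h | h
    · simp [h] at hle
    · simp [h] at hle
  exact ⟨key _ (Or.inl rfl), key _ (Or.inr rfl)⟩

theorem monoM_mapL_congr (M : Multiset (Pr n)) (f f' : Fin n → Fin n)
    (h : ∀ x, degM M x ≠ 0 → f x = f' x) : monoM (mapL f M) = monoM (mapL f' M) := by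
  unfold monoM mapL
  rw [Multiset.map_map, Multiset.map_map]
  congr 1
  apply Multiset.map_congr rfl
  intro p hp
  have := degM_ne_zero_of_mem hp
  simp [h _ this.1, h _ this.2]

/-- Averaging a product of a function of the `S`-coordinates and a function of the other
coordinates. -/
theorem sum_mul_indep {R : Type*} [CommRing R] {ι κ : Type*} [Fintype ι] [Fintype κ] [DecidableEq ι]
    [DecidableEq κ] (S : Finset ι) (A B : (ι → κ) → R)
    (hA : ∀ f f' : ι → κ, (∀ x ∈ S, f x = f' x) → A f = A f')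
    (hB : ∀ f f' : ι → κ, (∀ x, x ∉ S → f x = f' x) → B f = B f') :
    (∑ f, A f) * (∑ f, B f) = (Fintype.card (ι → κ) : R) * ∑ f, A f * B f := by
  classical
  let φ : (ι → κ) × (ι → κ) ≃ (ι → κ) × (ι → κ) :=
    { toFun := fun q => (S.piecewise q.1 q.2, S.piecewise q.2 q.1)
      invFun := fun q => (S.piecewise q.1 q.2, S.piecewise q.2 q.1)
      left_inv := by
        rintro ⟨f, g⟩
        ext x <;> by_cases hx : x ∈ S <;> simp [Finset.piecewise, hx]
      right_inv := by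
        rintro ⟨f, g⟩
        ext x <;> by_cases hx : x ∈ S <;> simp [Finset.piecewise, hx] }
  have h1 : (∑ f, A f) * (∑ f, B f) = ∑ q : (ι → κ) × (ι → κ), A q.1 * B q.2 := by
    rw [Finset.sum_mul_sum, Fintype.sum_prod_type]
  have h2 : ∀ q : (ι → κ) × (ι → κ), A q.1 * B q.2 = A (φ q).1 * B (φ q).1 := by
    rintro ⟨f, g⟩
    have e1 : A f = A (S.piecewise f g) := hA _ _ fun x hx => by simp [Finset.piecewise, hx]
    have e2 : B g = B (S.piecewise f g) := hB _ _ fun x hx => by simp [Finset.piecewise, hx]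
    simp only [φ, Equiv.coe_fn_mk]
    rw [e1, e2]
  have h3 : ∑ q : (ι → κ) × (ι → κ), A (φ q).1 * B (φ q).1
      = ∑ q : (ι → κ) × (ι → κ), A q.1 * B q.1 :=
    Equiv.sum_comp φ (fun q => A q.1 * B q.1)
  rw [h1, Finset.sum_congr rfl (fun q _ => h2 q), h3, Fintype.sum_prod_type]
  simp only [Finset.sum_const, Finset.card_univ, nsmul_eq_mul]
  rw [Finset.mul_sum]

theorem C_inv_pow_mul_natCast (hn : 0 < n) :
    (C (((n : ℝ) ^ n)⁻¹) : Rr n) * ((Fintype.card (Fin n → Fin n) : ℕ) : Rr n) = 1 := by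
  have hcard : ((Fintype.card (Fin n → Fin n) : ℕ) : Rr n) = C ((n : ℝ) ^ n) := by
    simp
  rw [hcard, ← C_mul]
  have : ((n : ℝ) ^ n)⁻¹ * (n : ℝ) ^ n = 1 := by
    apply inv_mul_cancel₀
    positivity
  rw [this, C_1]

/-- Disjoint label sets: the free average factorises. -/
theorem freeM_add (hn : 0 < n) (M M' : Multiset (Pr n))
    (h : ∀ x, degM M x = 0 ∨ degM M' x = 0) : freeM (M + M') = freeM M * freeM M' := by
  unfold freeM
  have hsplit : ∀ f : Fin n → Fin n, monoM (mapL f (M + M')) = monoM (mapL f M) * monoM (mapL f M') := by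
    intro f
    rw [mapL_add, monoM_add]
  simp only [hsplit]
  have key := sum_mul_indep (R := Rr n) (labelsM M) (fun f => monoM (mapL f M))
    (fun f => monoM (mapL f M'))
    (fun f f' hff => monoM_mapL_congr M f f' fun x hx => hff x (by simp [labelsM, hx]))
    (fun f f' hff => monoM_mapL_congr M' f f' fun x hx => hff x (by
      simp only [labelsM, Finset.mem_filter, Finset.mem_univ, true_and, not_not]
      exact (h x).resolve_right hx))
  have hinv := C_inv_pow_mul_natCast hn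
  calc C ((n:ℝ) ^ n)⁻¹ * ∑ f : Fin n → Fin n, monoM (mapL f M) * monoM (mapL f M')
      = C ((n:ℝ) ^ n)⁻¹ * ((C ((n:ℝ) ^ n)⁻¹ * ((Fintype.card (Fin n → Fin n) : ℕ) : Rr n)) *
          ∑ f : Fin n → Fin n, monoM (mapL f M) * monoM (mapL f M')) := by
        rw [hinv, one_mul]
    _ = C ((n:ℝ) ^ n)⁻¹ * (C ((n:ℝ) ^ n)⁻¹ * (((Fintype.card (Fin n → Fin n) : ℕ) : Rr n) *
          ∑ f : Fin n → Fin n, monoM (mapL f M) * monoM (mapL f M'))) := by ring
    _ = C ((n:ℝ) ^ n)⁻¹ * (C ((n:ℝ) ^ n)⁻¹ * ((∑ f : Fin n → Fin n, monoM (mapL f M)) *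
          ∑ f : Fin n → Fin n, monoM (mapL f M'))) := by rw [key]
    _ = _ := by ring

theorem freeM_zero (hn : 0 < n) : freeM (0 : Multiset (Pr n)) = 1 := by
  unfold freeM
  have h : ∀ f : Fin n → Fin n, monoM (mapL f (0 : Multiset (Pr n))) = 1 := by
    intro f
    simp [mapL, monoM]
  simp only [h, Finset.sum_const, Finset.card_univ, nsmul_eq_mul, mul_one]
  exact C_inv_pow_mul_natCast hn

/-! ### Cycles -/

theorem pow_apply_path {R : Type*} [CommRing R] (T : Matrix (Fin n) (Fin n) R) (m : ℕ) (a b : Fin n) :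
    (T ^ (m + 1)) a b = ∑ y : Fin m → Fin n,
      (∏ i : Fin m, T ((Fin.cons a y : Fin (m + 1) → Fin n) i.castSucc)
        ((Fin.cons a y : Fin (m + 1) → Fin n) i.succ)) *
        T ((Fin.cons a y : Fin (m + 1) → Fin n) (Fin.last m)) b := by
  induction m generalizing a with
  | zero => simp
  | succ m ih =>
    rw [pow_succ', Matrix.mul_apply]
    simp only [ih]
    rw [← (Fin.consEquiv (fun _ : Fin (m + 1) => Fin n)).sum_comp, Fintype.sum_prod_type]
    refine Finset.sum_congr rfl fun c _ => ?_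
    rw [Finset.mul_sum]
    refine Finset.sum_congr rfl fun y _ => ?_
    simp only [Fin.consEquiv, Equiv.coe_fn_mk]
    rw [Fin.prod_univ_succ]
    have h1 : ∀ i : Fin m, (Fin.cons a (Fin.cons c y : Fin (m + 1) → Fin n) : Fin (m + 2) → Fin n)
        i.succ.castSucc = (Fin.cons c y : Fin (m + 1) → Fin n) i.castSucc := by
      intro i
      rw [← Fin.succ_castSucc, Fin.cons_succ]
    have h2 : ∀ i : Fin m, (Fin.cons a (Fin.cons c y : Fin (m + 1) → Fin n) : Fin (m + 2) → Fin n)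
        i.succ.succ = (Fin.cons c y : Fin (m + 1) → Fin n) i.succ := by
      intro i
      rw [Fin.cons_succ]
    have h3 : (Fin.cons a (Fin.cons c y : Fin (m + 1) → Fin n) : Fin (m + 2) → Fin n)
        (Fin.last (m + 1)) = (Fin.cons c y : Fin (m + 1) → Fin n) (Fin.last m) := by
      rw [← Fin.succ_last, Fin.cons_succ]
    simp only [h1, h2, h3]
    simp only [Fin.castSucc_zero, Fin.cons_zero, Fin.cons_succ]
    ring

theorem trace_pow_cycle {R : Type*} [CommRing R] (T : Matrix (Fin n) (Fin n) R) (ℓ : ℕ) :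
    Matrix.trace (T ^ (ℓ + 1)) =
      ∑ y : Fin (ℓ + 1) → Fin n, ∏ i : Fin (ℓ + 1), T (y i) (y (i + 1)) := by
  unfold Matrix.trace
  simp only [Matrix.diag_apply]
  rw [← (Fin.consEquiv (fun _ : Fin (ℓ + 1) => Fin n)).sum_comp, Fintype.sum_prod_type]
  refine Finset.sum_congr rfl fun a _ => ?_
  rw [pow_apply_path]
  refine Finset.sum_congr rfl fun y _ => ?_
  simp only [Fin.consEquiv, Equiv.coe_fn_mk]
  rw [Fin.prod_univ_castSucc]
  simp only [Fin.coeSucc_eq_succ, Fin.last_add_one, Fin.cons_zero]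

theorem sum_comp_injective {R : Type*} [CommRing R] {m : ℕ} (x : Fin m → Fin n)
    (hx : Function.Injective x) (F : (Fin m → Fin n) → R) :
    ∑ f : Fin n → Fin n, F (f ∘ x) = ((n ^ (n - m) : ℕ) : R) * ∑ y, F y := by
  classical
  let p : Fin n → Prop := fun z => z ∈ Set.range x
  let e1 := Equiv.piEquivPiSubtypeProd p (fun _ => Fin n)
  let e2 : Fin m ≃ {z // p z} := Equiv.ofInjective x hx
  have hcomp : ∀ f : Fin n → Fin n, f ∘ x = (e1 f).1 ∘ e2 := by
    intro f
    ext i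
    rfl
  have hcard : Fintype.card ({z // ¬ p z} → Fin n) = n ^ (n - m) := by
    rw [Fintype.card_fun, Fintype.card_fin, Fintype.card_subtype_compl, Fintype.card_fin]
    have : Fintype.card {z // p z} = m := by
      rw [← Fintype.card_congr e2, Fintype.card_fin]
    rw [this]
  calc ∑ f : Fin n → Fin n, F (f ∘ x)
      = ∑ f : Fin n → Fin n, F ((e1 f).1 ∘ e2) := by simp only [hcomp]
    _ = ∑ q : ({z // p z} → Fin n) × ({z // ¬ p z} → Fin n), F (q.1 ∘ e2) :=
        Equiv.sum_comp e1 (fun q => F (q.1 ∘ e2))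
    _ = ∑ u : {z // p z} → Fin n, ∑ _v : {z // ¬ p z} → Fin n, F (u ∘ e2) := Fintype.sum_prod_type _
    _ = ∑ u : {z // p z} → Fin n, ((n ^ (n - m) : ℕ) : R) * F (u ∘ e2) := by
        simp only [Finset.sum_const, Finset.card_univ, hcard, nsmul_eq_mul]
    _ = ((n ^ (n - m) : ℕ) : R) * ∑ u : {z // p z} → Fin n, F (u ∘ e2) := by rw [Finset.mul_sum]
    _ = _ := by
        congr 1
        exact Equiv.sum_comp (e2.arrowCongr (Equiv.refl _)).symm F |>.trans rfl

theorem monoM_mapL_cycM {ℓ : ℕ} (x : Fin (ℓ + 1) → Fin n) (fl : Fin (ℓ + 1) → Bool)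
    (f : Fin n → Fin n) :
    monoM (mapL f (cycM x fl)) = ∏ i : Fin (ℓ + 1), TT n ((f ∘ x) i) ((f ∘ x) (i + 1)) := by
  unfold monoM mapL cycM
  rw [Multiset.map_map, Multiset.map_map]
  rw [Finset.prod_eq_multiset_prod]
  congr 1
  apply Multiset.map_congr rfl
  intro i _
  by_cases h : fl i
  · simp [h, TT_symm]
  · simp [h]

/-- The free average of a labelled cycle is the Wick trace. -/
theorem freeM_cyc (hn : 0 < n) {ℓ : ℕ} (x : Fin (ℓ + 1) → Fin n) (fl : Fin (ℓ + 1) → Bool)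
    (hx : Function.Injective x) :
    freeM (cycM x fl) = C (((n : ℝ) ^ (ℓ + 1))⁻¹) * Trc n ℓ := by
  unfold freeM Trc
  simp only [monoM_mapL_cycM]
  have h1 := sum_comp_injective (R := Rr n) x hx
    (fun y => ∏ i : Fin (ℓ + 1), TT n (y i) (y (i + 1)))
  simp only [Function.comp_apply] at h1 ⊢
  rw [h1, ← trace_pow_cycle]
  have hle : ℓ + 1 ≤ n := by
    have := Fintype.card_le_of_injective x hx
    simpa using this
  have hpos : (0 : ℝ) < n := by exact_mod_cast hn
  have hcast : ((n ^ (n - (ℓ + 1)) : ℕ) : Rr n) = C ((n : ℝ) ^ (n - (ℓ + 1))) := by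
    simp
  rw [hcast, ← mul_assoc, ← C_mul]
  congr 2
  have hsplit : (n : ℝ) ^ n = (n : ℝ) ^ (ℓ + 1) * (n : ℝ) ^ (n - (ℓ + 1)) := by
    rw [← pow_add]
    congr 1
    omega
  rw [hsplit]
  field_simp

theorem degM_eq_zero_of (M : Multiset (Pr n)) (y : Fin n) (h : ∀ p ∈ M, p.1 ≠ y ∧ p.2 ≠ y) :
    degM M y = 0 := by
  unfold degM
  apply Multiset.sum_eq_zero
  intro a ha
  obtain ⟨p, hp, rfl⟩ := Multiset.mem_map.1 ha
  have := h p hp
  simp [this.1, this.2]

theorem degM_cycM_eq_zero {ℓ : ℕ} (x : Fin (ℓ + 1) → Fin n) (fl : Fin (ℓ + 1) → Bool) (y : Fin n)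
    (hy : ∀ i, x i ≠ y) : degM (cycM x fl) y = 0 := by
  apply degM_eq_zero_of
  intro p hp
  unfold cycM at hp
  obtain ⟨i, _, rfl⟩ := Multiset.mem_map.1 hp
  by_cases h : fl i <;> simp [h, hy]

theorem card_cycM {ℓ : ℕ} (x : Fin (ℓ + 1) → Fin n) (fl : Fin (ℓ + 1) → Bool) :
    Multiset.card (cycM x fl) = ℓ + 1 := by
  simp [cycM]

theorem IsCyc.card_eq {M : Multiset (Pr n)} {ν : Wt} (h : IsCyc M ν) :
    Multiset.card M = dg ν := by
  induction h with
  | nil => simp [dg]
  | add x fl M ν hx hd hM ih =>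
    rw [Multiset.card_add, card_cycM, ih, dg_cons]

/-- Free average of a union of cycles. -/
theorem freeM_isCyc (hn : 0 < n) {M : Multiset (Pr n)} {ν : Wt} (h : IsCyc M ν) :
    freeM M = C (((n : ℝ) ^ dg ν)⁻¹) * (ν.map (Trc n)).prod := by
  induction h with
  | nil => simpa [dg] using freeM_zero hn
  | @add ℓ x fl M ν hx hd hM ih =>
    have hdis : ∀ y, degM (cycM x fl) y = 0 ∨ degM M y = 0 := by
      intro y
      by_cases hy : ∃ i, x i = y
      · obtain ⟨i, rfl⟩ := hy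
        exact Or.inr (hd i)
      · left
        exact degM_cycM_eq_zero x fl y fun i hi => hy ⟨i, hi⟩
    rw [freeM_add hn _ _ hdis, freeM_cyc hn x fl hx, ih, dg_cons, Multiset.map_cons,
      Multiset.prod_cons]
    have hC : (C (((n : ℝ) ^ (ℓ + 1 + dg ν))⁻¹) : Rr n) =
        C (((n : ℝ) ^ (ℓ + 1))⁻¹) * C (((n : ℝ) ^ dg ν)⁻¹) := by
      rw [← C_mul, ← mul_inv, ← pow_add]
    rw [hC]
    ring

/-! ### The free average of `dval` -/

/-- The free average of `dval` is the coefficient of the free polynomial. -/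
theorem Tav_dval (_hn : 0 < n) (β : ℝ) (M : Multiset (Pr n)) :
    Tav (dval β) M = (n : ℝ) ^ Multiset.card M * ∫ g, Fh β g * Ev (freeM M) g ∂gam n := by
  unfold Tav dval freeM
  simp only [card_mapL, Ev_C_mul, Ev_sum]
  have hint : ∀ f : Fin n → Fin n,
      Integrable (fun g => Fh β g * Ev (monoM (mapL f M)) g) (gam n) := fun f =>
    ((PG_Fh β).mul (PG_Ev _)).integrable
  have h1 : ∀ g : Pt n, Fh β g * (((n : ℝ) ^ n)⁻¹ * ∑ f : Fin n → Fin n, Ev (monoM (mapL f M)) g) =
      ((n : ℝ) ^ n)⁻¹ * ∑ f : Fin n → Fin n, Fh β g * Ev (monoM (mapL f M)) g := by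
    intro g
    rw [Finset.mul_sum, Finset.mul_sum, Finset.mul_sum]
    exact Finset.sum_congr rfl fun f _ => by ring
  simp only [h1]
  rw [integral_const_mul, integral_finsetSum _ fun f _ => hint f, ← Finset.mul_sum,
    mul_left_comm]

/-- The input `hdec` of the core. -/
theorem Tav_dval_decomp (hn : 0 < n) (β : ℝ) (M₀ Mc : Multiset (Pr n)) (ν : Wt)
    (h : IsCyc Mc ν) (hr : Reg2M Mc (labelsM M₀)) :
    Tav (dval β) (M₀ + Mc) ^ 2 = zz ν * ffv β M₀ ν ^ 2 := by
  have hdis : ∀ x, degM M₀ x = 0 ∨ degM Mc x = 0 := by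
    intro x
    by_cases hx : degM M₀ x = 0
    · exact Or.inl hx
    · exact Or.inr (hr.2 x (by simp [labelsM, hx]))
  have hz := zz_pos ν
  have hsz : 0 < Real.sqrt (zz ν) := Real.sqrt_pos.2 hz
  have hpos : (0 : ℝ) < n := by exact_mod_cast hn
  have hprod : (ν.map (Trc n)).prod = C (Real.sqrt (zz ν)) * Snu n ν := by
    unfold Snu
    rw [← mul_assoc, ← C_mul, mul_inv_cancel₀ hsz.ne', C_1, one_mul]
  have hfree : freeM (M₀ + Mc) =
      C (((n : ℝ) ^ dg ν)⁻¹ * Real.sqrt (zz ν)) * (freeM M₀ * Snu n ν) := by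
    rw [freeM_add hn _ _ hdis, freeM_isCyc hn h, hprod, C_mul]
    ring
  have hT : Tav (dval β) (M₀ + Mc) = Real.sqrt (zz ν) * ffv β M₀ ν := by
    rw [Tav_dval hn, hfree, Multiset.card_add, h.card_eq]
    unfold ffv
    simp only [Ev_C_mul]
    have h1 : ∀ g : Pt n, Fh β g * (((n : ℝ) ^ dg ν)⁻¹ * Real.sqrt (zz ν) * Ev (freeM M₀ * Snu n ν) g)
        = ((n : ℝ) ^ dg ν)⁻¹ * Real.sqrt (zz ν) * (Fh β g * Ev (freeM M₀ * Snu n ν) g) := by
      intro g; ring
    simp only [h1]
    rw [integral_const_mul, pow_add]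
    have hne : (n : ℝ) ^ dg ν ≠ 0 := by positivity
    field_simp
  rw [hT, mul_pow, Real.sq_sqrt hz.le]

/-! ### The level sum -/

theorem sum_cc_sq (e : Ed n) :
    ∑ p ∈ (Finset.univ.filter fun p : Pr n => s(p.1, p.2) = e), cc p.1 p.2 ^ 2 = 2 := by
  induction e using Sym2.ind with
  | _ x y =>
    by_cases hxy : x = y
    · subst hxy
      have : (Finset.univ.filter fun p : Pr n => s(p.1, p.2) = s(x, x)) = {(x, x)} := by
        ext ⟨a, b⟩
        simp only [Finset.mem_filter, Finset.mem_univ, true_and, Finset.mem_singleton,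
          Sym2.eq_iff, Prod.mk.injEq]
        tauto
      rw [this]
      simp [cc]
    · have : (Finset.univ.filter fun p : Pr n => s(p.1, p.2) = s(x, y)) = {(x, y), (y, x)} := by
        ext ⟨a, b⟩
        simp only [Finset.mem_filter, Finset.mem_univ, true_and, Finset.mem_insert,
          Finset.mem_singleton, Sym2.eq_iff, Prod.mk.injEq]
      rw [this, Finset.sum_pair (by simp [hxy])]
      have h2 : y ≠ x := fun h => hxy h.symm
      simp [cc, hxy, h2]
      norm_num

theorem monoM_msOf {k : ℕ} (l : Fin k → Pr n) :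
    monoM (msOf l) = C (∏ i, (cc (l i).1 (l i).2 / Real.sqrt n)) *
      monoT (fun i => s((l i).1, (l i).2)) := by
  unfold monoM msOf monoT
  rw [Multiset.map_map, map_prod, ← Finset.prod_mul_distrib, Finset.prod_eq_multiset_prod]
  rfl

theorem dval_msOf (hn : 0 < n) (β : ℝ) {k : ℕ} (l : Fin k → Pr n) :
    dval β (msOf l) ^ 2 = (n : ℝ) ^ k * (∏ i, cc (l i).1 (l i).2 ^ 2) *
      (∫ g, Fh β g * Ev (monoT (fun i => s((l i).1, (l i).2))) g ∂gam n) ^ 2 := by
  have hpos : (0 : ℝ) < n := by exact_mod_cast hn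
  have hcard : Multiset.card (msOf l) = k := by simp [msOf]
  unfold dval
  rw [hcard, monoM_msOf]
  simp only [Ev_C_mul]
  have h1 : ∀ g : Pt n, Fh β g * ((∏ i, (cc (l i).1 (l i).2 / Real.sqrt n)) *
      Ev (monoT (fun i => s((l i).1, (l i).2))) g) =
      (∏ i, (cc (l i).1 (l i).2 / Real.sqrt n)) *
        (Fh β g * Ev (monoT (fun i => s((l i).1, (l i).2))) g) := by
    intro g; ring
  simp only [h1]
  rw [integral_const_mul]
  have h2 : (∏ i, (cc (l i).1 (l i).2 / Real.sqrt n)) ^ 2 =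
      (∏ i, cc (l i).1 (l i).2 ^ 2) / (n : ℝ) ^ k := by
    rw [← Finset.prod_pow]
    have : ∀ i, (cc (l i).1 (l i).2 / Real.sqrt n) ^ 2 = cc (l i).1 (l i).2 ^ 2 / (n : ℝ) := by
      intro i
      rw [div_pow, Real.sq_sqrt hpos.le]
    simp only [this]
    rw [Finset.prod_div_distrib]
    simp
  have hne : (n : ℝ) ^ k ≠ 0 := by positivity
  rw [mul_pow, mul_pow, h2, pow_two ((n : ℝ) ^ k)]
  field_simp

theorem prod_sum_fib {ι α : Type*} [Fintype ι] [DecidableEq ι] (t : ι → Finset α) (w : α → ℝ) :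
    ∑ l ∈ Fintype.piFinset t, ∏ i, w (l i) = ∏ i, ∑ p ∈ t i, w p :=
  (Finset.prod_univ_sum t (fun _ p => w p)).symm

/-- The level sum in terms of labelled pairs. -/
theorem Wlev_eq (hn : 0 < n) (β : ℝ) (k : ℕ) :
    Wlev (n := n) β k = (((k.factorial : ℝ) * 2 ^ k * (n : ℝ) ^ k))⁻¹ *
      ∑ l : Fin k → Pr n, dval β (msOf l) ^ 2 := by
  have hpos : (0 : ℝ) < n := by exact_mod_cast hn
  unfold Wlev
  simp only [dval_msOf hn]
  set I : (Fin k → Ed n) → ℝ := fun t => ∫ g, Fh β g * Ev (monoT t) g ∂gam n with hI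
  have key : ∑ l : Fin k → Pr n, ((n : ℝ) ^ k * (∏ i, cc (l i).1 (l i).2 ^ 2) *
      (I fun i => s((l i).1, (l i).2)) ^ 2) =
      (n : ℝ) ^ k * 2 ^ k * ∑ t : Fin k → Ed n, I t ^ 2 := by
    rw [Finset.mul_sum, ← Finset.sum_fiberwise (s := Finset.univ)
      (g := fun l : Fin k → Pr n => fun i => s((l i).1, (l i).2))]
    refine Finset.sum_congr rfl fun t _ => ?_
    have hfib : (Finset.univ.filter fun l : Fin k → Pr n => (fun i => s((l i).1, (l i).2)) = t) =
        Fintype.piFinset (fun i => Finset.univ.filter fun p : Pr n => s(p.1, p.2) = t i) := by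
      ext l
      simp [Fintype.mem_piFinset, funext_iff]
    rw [hfib]
    have h3 : ∀ l ∈ Fintype.piFinset (fun i => Finset.univ.filter fun p : Pr n => s(p.1, p.2) = t i),
        (n : ℝ) ^ k * (∏ i, cc (l i).1 (l i).2 ^ 2) * (I fun i => s((l i).1, (l i).2)) ^ 2 =
        (n : ℝ) ^ k * I t ^ 2 * (∏ i, cc (l i).1 (l i).2 ^ 2) := by
      intro l hl
      have : (fun i => s((l i).1, (l i).2)) = t := by
        ext1 i
        have := (Fintype.mem_piFinset.1 hl) i
        simpa using this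
      rw [this]; ring
    have h4 : ∑ l ∈ Fintype.piFinset (fun i => Finset.univ.filter fun p : Pr n => s(p.1, p.2) = t i),
        ∏ i, cc (l i).1 (l i).2 ^ 2 =
        ∏ i, ∑ p ∈ (Finset.univ.filter fun p : Pr n => s(p.1, p.2) = t i), cc p.1 p.2 ^ 2 :=
      prod_sum_fib _ (fun p : Pr n => cc p.1 p.2 ^ 2)
    rw [Finset.sum_congr rfl h3, ← Finset.mul_sum, h4]
    simp only [sum_cc_sq]
    simp
    ring
  rw [key]
  have hf : (k.factorial : ℝ) ≠ 0 := by exact_mod_cast Nat.factorial_ne_zero k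
  have hne : (n : ℝ) ^ k ≠ 0 := by positivity
  field_simp
  rfl

end Vale.Agent.Lib.P146
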