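import Vale.Agent.Lib.P146.FreeB
import Vale.Agent.Lib.P146.Reduce
import Vale.Agent.Lib.P146.Cycles
import Vale.Agent.Lib.P146.InterfaceA

/-! Module L2: the bounds for free coefficients. -/

set_option autoImplicit false
open scoped Classical
open MeasureTheory MvPolynomial

namespace Vale.Agent.Lib.P146

variable {n : ℕ}

/-! ### Duality -/

/-- Expansion of `Sc` over a finset containing the support. -/
private theorem Sc_eq_sum (c : Wt →₀ ℝ) (s : Finset Wt) (hs : c.support ⊆ s) :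
    Sc n c = ∑ ν ∈ s, C (c ν) * Snu n ν := by
  unfold Sc
  exact Finsupp.sum_of_support_subset c hs _ (by intro i _; simp)

private theorem nrm2_eq_sum (c : Wt →₀ ℝ) (s : Finset Wt) (hs : c.support ⊆ s) :
    nrm2 c = ∑ ν ∈ s, c ν ^ 2 := by
  unfold nrm2
  exact Finsupp.sum_of_support_subset c hs _ (by intro i _; simp)

/-- Linearity of the pairing with `Fh`. -/
private theorem integral_Sc (β : ℝ) (P : Rr n) (c : Wt →₀ ℝ) (s : Finset Wt)
    (hs : c.support ⊆ s) :
    ∫ g, Fh β g * Ev (P * Sc n c) g ∂gam n =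
      ∑ ν ∈ s, c ν * ∫ g, Fh β g * Ev (P * Snu n ν) g ∂gam n := by
  have h1 : ∀ g, Fh β g * Ev (P * Sc n c) g =
      ∑ ν ∈ s, c ν * (Fh β g * Ev (P * Snu n ν) g) := by
    intro g
    rw [Sc_eq_sum c s hs, Finset.mul_sum, Ev_sum, Finset.mul_sum]
    refine Finset.sum_congr rfl fun ν _ => ?_
    have : P * (C (c ν) * Snu n ν) = C (c ν) * (P * Snu n ν) := by ring
    rw [this, Ev_C_mul]
    ring
  simp_rw [h1]
  rw [integral_finsetSum]
  · refine Finset.sum_congr rfl fun ν _ => ?_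
    rw [integral_const_mul]
  · intro ν _
    exact (((PG_Fh β).mul (PG_Ev _)).integrable).const_mul _

/-- Abstract duality: a uniform bound for all `c` supported in `s` gives the `ℓ²` bound. -/
theorem dual_bound (β : ℝ) (P : Rr n) (s : Finset Wt) (A : ℝ) (hA : 0 ≤ A)
    (H : ∀ c : Wt →₀ ℝ, c.support ⊆ s → |∫ g, Fh β g * Ev (P * Sc n c) g ∂gam n| ≤ A * nrm c) :
    ∑ ν ∈ s, (∫ g, Fh β g * Ev (P * Snu n ν) g ∂gam n) ^ 2 ≤ A ^ 2 := by
  set y : Wt → ℝ := fun ν => ∫ g, Fh β g * Ev (P * Snu n ν) g ∂gam n with hy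
  set c : Wt →₀ ℝ := Finsupp.onFinset s (fun ν => if ν ∈ s then y ν else 0)
    (by intro a ha; by_contra h; simp [h] at ha) with hc
  have hsupp : c.support ⊆ s := Finsupp.support_onFinset_subset
  have hcv : ∀ ν ∈ s, c ν = y ν := by
    intro ν hν
    simp [hc, hν]
  have hX : ∑ ν ∈ s, y ν ^ 2 = ∫ g, Fh β g * Ev (P * Sc n c) g ∂gam n := by
    rw [integral_Sc β P c s hsupp]
    refine Finset.sum_congr rfl fun ν hν => ?_
    rw [hcv ν hν]
    simp only [hy]
    ring
  have hN : nrm2 c = ∑ ν ∈ s, y ν ^ 2 := by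
    rw [nrm2_eq_sum c s hsupp]
    exact Finset.sum_congr rfl fun ν hν => by rw [hcv ν hν]
  have hX0 : 0 ≤ ∑ ν ∈ s, y ν ^ 2 := Finset.sum_nonneg fun ν _ => sq_nonneg _
  have hb := H c hsupp
  rw [← hX] at hb
  rw [abs_of_nonneg hX0] at hb
  have hn' : nrm c = Real.sqrt (∑ ν ∈ s, y ν ^ 2) := by
    unfold nrm
    rw [hN]
  rw [hn'] at hb
  set X := ∑ ν ∈ s, y ν ^ 2 with hXdef
  have hsq : Real.sqrt X ≤ A := by
    by_contra hlt
    rw [not_le] at hlt
    have hpos : 0 < Real.sqrt X := lt_of_le_of_lt hA hlt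
    have h2 : Real.sqrt X * Real.sqrt X = X := Real.mul_self_sqrt hX0
    nlinarith
  have h3 := pow_le_pow_left₀ (Real.sqrt_nonneg X) hsq 2
  rwa [Real.sq_sqrt hX0] at h3

/-! ### `freeM` as a chain pattern -/

theorem deg_ne_zero_of_mem {M : Multiset (Pr n)} {p : Pr n} (hp : p ∈ M) :
    degM M p.1 ≠ 0 ∧ degM M p.2 ≠ 0 := by
  obtain ⟨t, rfl⟩ := Multiset.exists_cons_of_mem hp
  constructor
  · simp [degM]
  · simp [degM]

theorem mem_labels_of_mem {M : Multiset (Pr n)} {p : Pr n} (hp : p ∈ M) :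
    p.1 ∈ labelsM M ∧ p.2 ∈ labelsM M := by
  have := deg_ne_zero_of_mem hp
  simp [labelsM, this.1, this.2]

/-- The chain list of an edge multiset. -/
noncomputable def chainsOf (M : Multiset (Pr n)) :
    List (↥(labelsM M) × ↥(labelsM M) × ℕ) :=
  M.toList.pmap (fun p hp =>
      ((⟨p.1, (mem_labels_of_mem hp).1⟩ : ↥(labelsM M)),
       (⟨p.2, (mem_labels_of_mem hp).2⟩ : ↥(labelsM M)), 0))
    (fun _ h => Multiset.mem_toList.mp h)

theorem chainsOf_length (M : Multiset (Pr n)) : (chainsOf M).length = Multiset.card M := by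
  simp [chainsOf]

theorem chainsOf_third (M : Multiset (Pr n)) : ∀ e ∈ chainsOf M, e.2.2 = 0 := by
  intro e he
  unfold chainsOf at he
  rw [List.mem_pmap] at he
  obtain ⟨p, hp, rfl⟩ := he
  rfl

theorem list_sum_of_zero {α : Type*} (E : List (α × α × ℕ)) (h : ∀ e ∈ E, e.2.2 = 0) :
    (E.map fun e => e.2.2 + 1).sum = E.length := by
  induction E with
  | nil => simp
  | cons a t ih =>
    have h1 : a.2.2 = 0 := h a (by simp)
    have h2 := ih fun e he => h e (List.mem_cons_of_mem _ he)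
    simp only [List.map_cons, List.sum_cons, List.length_cons, h1, h2]
    omega

theorem chainsOf_sum (M : Multiset (Pr n)) :
    ((chainsOf M).map fun e => e.2.2 + 1).sum = Multiset.card M := by
  rw [list_sum_of_zero _ (chainsOf_third M), chainsOf_length]

/-- The product over the chain list. -/
theorem chainsOf_prod (M : Multiset (Pr n)) (lam : ↥(labelsM M) → Fin n) (f : Fin n → Fin n)
    (hf : ∀ x (hx : x ∈ labelsM M), f x = lam ⟨x, hx⟩) :
    ((chainsOf M).map fun e => (TT n ^ (e.2.2 + 1)) (lam e.1) (lam e.2.1)).prod =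
      monoM (mapL f M) := by
  have hM : monoM (mapL f M) = (M.toList.map fun p => TT n (f p.1) (f p.2)).prod := by
    unfold monoM mapL
    conv_lhs => rw [← Multiset.coe_toList M]
    simp
  rw [hM]
  unfold chainsOf
  have aux : ∀ (L : List (Pr n)) (H : ∀ a ∈ L, a ∈ M),
      ((L.pmap (fun p hp =>
        ((⟨p.1, (mem_labels_of_mem hp).1⟩ : ↥(labelsM M)),
         (⟨p.2, (mem_labels_of_mem hp).2⟩ : ↥(labelsM M)), 0)) H).map
        fun e : ↥(labelsM M) × ↥(labelsM M) × ℕ =>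
          (TT n ^ (e.2.2 + 1)) (lam e.1) (lam e.2.1)).prod =
      (L.map fun p => TT n (f p.1) (f p.2)).prod := by
    intro L
    induction L with
    | nil => intro H; simp
    | cons a t ih =>
      intro H
      have ha : a ∈ M := H a (by simp)
      have := ih (fun b hb => H b (List.mem_cons_of_mem _ hb))
      simp only [List.pmap_cons, List.map_cons, List.prod_cons, this, pow_one, zero_add]
      rw [hf a.1 (mem_labels_of_mem ha).1, hf a.2 (mem_labels_of_mem ha).2]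
  exact aux _ _

/-- `freeM` is a chain pattern up to a normalisation. -/
theorem freeM_eq_Pc (hn : 0 < n) (M : Multiset (Pr n)) :
    freeM M = C (((n : ℝ) ^ (labelsM M).card)⁻¹) * Pc n ↥(labelsM M) (chainsOf M) := by
  set T := labelsM M with hT
  have hTcard : T.card ≤ n := by
    have := Finset.card_le_univ T
    simpa using this
  have key : ∑ f : Fin n → Fin n, monoM (mapL f M) =
      ((n ^ (n - T.card) : ℕ) : ℝ) • Pc n ↥T (chainsOf M) := by
    let e := Equiv.piEquivPiSubtypeProd (fun x : Fin n => x ∈ T) (fun _ => Fin n)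
    rw [← Equiv.sum_comp e.symm, Fintype.sum_prod_type]
    have h2 : ∀ (a : ∀ i : {x // x ∈ T}, Fin n) (b : ∀ i : {x // ¬ x ∈ T}, Fin n),
        monoM (mapL (e.symm (a, b)) M) =
          ((chainsOf M).map fun e' => (TT n ^ (e'.2.2 + 1)) (a e'.1) (a e'.2.1)).prod := by
      intro a b
      refine (chainsOf_prod M a _ ?_).symm
      intro x hx
      have hx' : x ∈ T := hx
      simp [e, Equiv.piEquivPiSubtypeProd, hx']
    simp_rw [h2]
    simp only [Finset.sum_const, Finset.card_univ]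
    unfold Pc
    rw [Finset.smul_sum]
    refine Finset.sum_congr rfl fun a _ => ?_
    have hcard : Fintype.card ({x // ¬ x ∈ T} → Fin n) = n ^ (n - T.card) := by
      rw [Fintype.card_fun, Fintype.card_fin]
      congr 1
      rw [Fintype.card_subtype_compl]
      simp [Fintype.card_coe]
    rw [hcard]
    rw [← Nat.cast_smul_eq_nsmul ℝ]
  unfold freeM
  rw [key, MvPolynomial.smul_eq_C_mul, ← mul_assoc, ← C_mul]
  congr 2
  have hn0 : (n : ℝ) ≠ 0 := by positivity
  push_cast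
  have : (n : ℝ) ^ n = (n : ℝ) ^ (n - T.card) * (n : ℝ) ^ T.card := by
    rw [← pow_add]; congr 1; omega
  rw [this, ← hT]
  field_simp

/-! ### Degrees -/

theorem degM_toList (M : Multiset (Pr n)) (x : Fin n) :
    degM M x = (M.toList.map fun p =>
      (if p.1 = x then 1 else 0) + (if p.2 = x then 1 else 0)).sum := by
  unfold degM
  conv_lhs => rw [← Multiset.coe_toList M]
  simp

theorem degC_chainsOf (M : Multiset (Pr n)) (v : ↥(labelsM M)) :
    degC (chainsOf M) v = degM M v.1 := by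
  rw [degM_toList]
  unfold degC chainsOf
  have aux : ∀ (L : List (Pr n)) (H : ∀ a ∈ L, a ∈ M),
      ((L.pmap (fun p hp =>
        ((⟨p.1, (mem_labels_of_mem hp).1⟩ : ↥(labelsM M)),
         (⟨p.2, (mem_labels_of_mem hp).2⟩ : ↥(labelsM M)), 0)) H).map
        fun e : ↥(labelsM M) × ↥(labelsM M) × ℕ =>
          (if e.1 = v then 1 else 0) + (if e.2.1 = v then 1 else 0)).sum =
      (L.map fun p => (if p.1 = v.1 then 1 else 0) + (if p.2 = v.1 then 1 else 0)).sum := by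
    intro L
    induction L with
    | nil => intro H; simp
    | cons a t ih =>
      intro H
      have := ih (fun b hb => H b (List.mem_cons_of_mem _ hb))
      simp only [List.pmap_cons, List.map_cons, List.sum_cons, Subtype.ext_iff] at this ⊢
      rw [this]
  exact aux _ _

theorem closedC_chainsOf (M : Multiset (Pr n)) (S : Finset ↥(labelsM M))
    (hS : ClosedC (chainsOf M) S) : ClosedM M (S.map (Function.Embedding.subtype _)) := by
  intro p hp
  have hp' : p ∈ M.toList := Multiset.mem_toList.mpr hp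
  have hmem : (((⟨p.1, (mem_labels_of_mem hp).1⟩ : ↥(labelsM M)),
      (⟨p.2, (mem_labels_of_mem hp).2⟩ : ↥(labelsM M)), 0) :
        ↥(labelsM M) × ↥(labelsM M) × ℕ) ∈ chainsOf M := by
    unfold chainsOf
    rw [List.mem_pmap]
    exact ⟨p, hp', rfl⟩
  have := hS _ hmem
  simp only [Finset.mem_map, Function.Embedding.coe_subtype]
  constructor
  · rintro ⟨a, ha, hap⟩
    have ha' : a = ⟨p.1, (mem_labels_of_mem hp).1⟩ := Subtype.ext hap
    rw [ha'] at ha
    exact ⟨_, this.mp ha, rfl⟩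
  · rintro ⟨a, ha, hap⟩
    have ha' : a = ⟨p.2, (mem_labels_of_mem hp).2⟩ := Subtype.ext hap
    rw [ha'] at ha
    exact ⟨_, this.mpr ha, rfl⟩

theorem ncc_chainsOf (M : Multiset (Pr n)) (hnc : NCM M) : NCc (chainsOf M) := by
  intro S hS hcl
  have h := hnc (S.map (Function.Embedding.subtype _)) (hS.map) (by
    intro x hx
    simp only [Finset.mem_map, Function.Embedding.coe_subtype] at hx
    obtain ⟨a, _, rfl⟩ := hx
    exact a.2) (closedC_chainsOf M S hcl)
  obtain ⟨x, hx, hd⟩ := h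
  simp only [Finset.mem_map, Function.Embedding.coe_subtype] at hx
  obtain ⟨a, ha, rfl⟩ := hx
  exact ⟨a, ha, by rw [degC_chainsOf]; exact hd⟩

/-! ### Monotonicity of `Fb` -/

private theorem Cg_mono {r r' : ℕ} (h : r ≤ r') : Cg r ≤ Cg r' := by
  unfold Cg
  have h1 : r - 1 ≤ r' - 1 := by omega
  have h2 : (2 : ℝ) ^ (r - 1) ≤ 2 ^ (r' - 1) := pow_le_pow_right₀ (by norm_num) h1
  have h3 : (((r - 1).factorial : ℕ) : ℝ) ≤ ((r' - 1).factorial : ℕ) := by
    exact_mod_cast Nat.factorial_le h1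
  have h4 : (0 : ℝ) ≤ ((r - 1).factorial : ℕ) := by positivity
  exact mul_le_mul h2 h3 h4 (by positivity)

private theorem Cg_nonneg (r : ℕ) : 0 ≤ Cg r := by
  unfold Cg; positivity

private theorem Fb_nonneg (β : ℝ) (K m : ℕ) : 0 ≤ Fb β K m := by
  unfold Fb
  have h1 : 0 ≤ max 1 β := le_trans zero_le_one (le_max_left _ _)
  have := Cg_nonneg (2 * m)
  positivity

private theorem Fb_mono (β : ℝ) (K : ℕ) {m m' : ℕ} (h : m ≤ m') : Fb β K m ≤ Fb β K m' := by
  unfold Fb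
  have hb : (1 : ℝ) ≤ max 1 β := le_max_left _ _
  have h1 : (max 1 β) ^ (2 * m) ≤ (max 1 β) ^ (2 * m') :=
    pow_le_pow_right₀ hb (by omega)
  have h2 : Cg (2 * m) ≤ Cg (2 * m') := Cg_mono (by omega)
  have h3 : (2 : ℝ) ^ (m + 1) ≤ 2 ^ (m' + 1) := pow_le_pow_right₀ (by norm_num) (by omega)
  have h4 : ((K : ℝ) + 1) ^ m ≤ ((K : ℝ) + 1) ^ m' := by
    refine pow_le_pow_right₀ ?_ h
    have : (0 : ℝ) ≤ K := by positivity
    linarith
  have p1 : 0 ≤ (max 1 β) ^ (2 * m) := by positivity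
  have p2 : 0 ≤ Cg (2 * m) := Cg_nonneg _
  have p3 : (0 : ℝ) ≤ 2 ^ (m + 1) := by positivity
  have p4 : 0 ≤ ((K : ℝ) + 1) ^ m := by positivity
  have p1' : 0 ≤ (max 1 β) ^ (2 * m') := by positivity
  have p2' : 0 ≤ Cg (2 * m') := Cg_nonneg _
  have p3' : (0 : ℝ) ≤ 2 ^ (m' + 1) := by positivity
  apply mul_le_mul (mul_le_mul (mul_le_mul h1 h2 p2 p1') h3 p3 (by positivity)) h4 p4
    (by positivity)

/-! ### The main bounds -/

/-- The free polynomial of a nonempty even pattern without pure cycles: the input `hB` of the core. -/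
theorem ffv_bound (hn : 0 < n) {p K : ℕ} (hp1 : 1 ≤ p) (hKp : K ≤ p)
    (hp : 1000 * (p + 1) ^ 6 ≤ n) (β : ℝ) (hβ : 0 < β) (M₀ : Multiset (Pr n)) (h0 : M₀ ≠ 0)
    (he : EvenM M₀) (hnc : NCM M₀) (s : Finset Wt)
    (hs : ∀ ν ∈ s, Multiset.card M₀ + dg ν ≤ K) :
    ∑ ν ∈ s, ffv β M₀ ν ^ 2 ≤
      (Fb β K (2 * excessM M₀) * Real.sqrt (∫ g, rhoH p g ^ (2 * K) ∂gam n)) ^ 2 := by
  set S := Real.sqrt (∫ g, rhoH p g ^ (2 * K) ∂gam n) with hS
  have hS0 : 0 ≤ S := Real.sqrt_nonneg _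
  have hn0 : (n : ℝ) ≠ 0 := by positivity
  have hnpos : (0 : ℝ) < n := by positivity
  -- nonempty label set
  obtain ⟨p₀, hp₀⟩ := Multiset.exists_mem_of_ne_zero h0
  have hVne : Nonempty ↥(labelsM M₀) := ⟨⟨p₀.1, (mem_labels_of_mem hp₀).1⟩⟩
  -- kernel reduction
  have hdeg : ∀ v, 2 ≤ degC (chainsOf M₀) v := by
    intro v
    rw [degC_chainsOf]
    have h1 : degM M₀ v.1 ≠ 0 := by
      have := v.2
      simpa [labelsM] using this
    obtain ⟨k, hk⟩ := he v.1
    omega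
  have heven : ∀ v, Even (degC (chainsOf M₀) v) := by
    intro v
    rw [degC_chainsOf]
    exact he v.1
  obtain ⟨V', hF, hD, E', hPc, hexc, hsum, hd4, hEne⟩ :=
    reduce_kernel (chainsOf M₀) (ncc_chainsOf M₀ hnc) hdeg heven
  have hE' : E' ≠ [] := hEne hVne
  have hkc := kernel_count E' hd4
  have hlen : (chainsOf M₀).length = Multiset.card M₀ := chainsOf_length M₀
  have hcardV : Fintype.card ↥(labelsM M₀) = (labelsM M₀).card := Fintype.card_coe _
  have hsum' : (E'.map fun e => e.2.2 + 1).sum = Multiset.card M₀ := by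
    rw [hsum, chainsOf_sum]
  rw [hlen, hcardV] at hexc
  have hexcN : (labelsM M₀).card ≤ Multiset.card M₀ := by omega
  have hexcE : E'.length = excessM M₀ + Fintype.card V' := by
    unfold excessM
    omega
  have hE2 : E'.length ≤ 2 * excessM M₀ := by
    omega
  -- duality
  have hA0 : 0 ≤ ((n : ℝ) ^ excessM M₀)⁻¹ * (Fb β K E'.length * S) :=
    mul_nonneg (by positivity) (mul_nonneg (Fb_nonneg _ _ _) hS0)
  have hdual := dual_bound β (Pc n ↥(labelsM M₀) (chainsOf M₀)) s _ hA0 (by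
    intro c hc
    have hfb := free_bound hn hp1 hKp hp β hβ V' E' hE' c (by
      intro ν hν
      rw [hsum']
      exact hs ν (hc hν))
    rw [hPc n] at hfb
    have hz : (n : ℝ) ^ ((Fintype.card V' : ℤ) - (E'.length : ℤ)) = ((n : ℝ) ^ excessM M₀)⁻¹ := by
      have : ((Fintype.card V' : ℤ) - (E'.length : ℤ)) = -((excessM M₀ : ℕ) : ℤ) := by
        omega
      rw [this, zpow_neg, zpow_natCast]
    rw [hz] at hfb
    calc _ ≤ _ := hfb
      _ = _ := by ring)
  -- transfer to ffv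
  have hffv : ∀ ν, ffv β M₀ ν = (n : ℝ) ^ excessM M₀ *
      ∫ g, Fh β g * Ev (Pc n ↥(labelsM M₀) (chainsOf M₀) * Snu n ν) g ∂gam n := by
    intro ν
    unfold ffv
    rw [freeM_eq_Pc hn M₀]
    have h1 : ∀ g, Fh β g * Ev (C (((n : ℝ) ^ (labelsM M₀).card)⁻¹) *
          Pc n ↥(labelsM M₀) (chainsOf M₀) * Snu n ν) g =
        ((n : ℝ) ^ (labelsM M₀).card)⁻¹ *
          (Fh β g * Ev (Pc n ↥(labelsM M₀) (chainsOf M₀) * Snu n ν) g) := by
      intro g
      rw [mul_assoc (C _), Ev_C_mul]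
      ring
    simp_rw [h1]
    rw [integral_const_mul, ← mul_assoc]
    congr 1
    have : Multiset.card M₀ = excessM M₀ + (labelsM M₀).card := by
      unfold excessM; omega
    rw [this, pow_add]
    field_simp
  simp_rw [hffv]
  have hsumeq : ∑ ν ∈ s, ((n : ℝ) ^ excessM M₀ *
        ∫ g, Fh β g * Ev (Pc n ↥(labelsM M₀) (chainsOf M₀) * Snu n ν) g ∂gam n) ^ 2 =
      ((n : ℝ) ^ excessM M₀) ^ 2 * ∑ ν ∈ s,
        (∫ g, Fh β g * Ev (Pc n ↥(labelsM M₀) (chainsOf M₀) * Snu n ν) g ∂gam n) ^ 2 := by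
    rw [Finset.mul_sum]
    exact Finset.sum_congr rfl fun ν _ => by ring
  rw [hsumeq]
  have hnp : (0 : ℝ) < ((n : ℝ) ^ excessM M₀) ^ 2 := by positivity
  calc ((n : ℝ) ^ excessM M₀) ^ 2 * _ ≤ ((n : ℝ) ^ excessM M₀) ^ 2 *
        (((n : ℝ) ^ excessM M₀)⁻¹ * (Fb β K E'.length * S)) ^ 2 :=
        mul_le_mul_of_nonneg_left hdual hnp.le
    _ = (Fb β K E'.length * S) ^ 2 := by
        field_simp
    _ ≤ _ := by
        exact pow_le_pow_left₀ (mul_nonneg (Fb_nonneg _ _ _) hS0)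
          (mul_le_mul_of_nonneg_right (Fb_mono β K hE2) hS0) 2

private theorem freeM_zero_ib (hn : 0 < n) : freeM (0 : Multiset (Pr n)) = 1 := by
  have hn0 : (n : ℝ) ≠ 0 := by positivity
  unfold freeM
  have h1 : ∀ f : Fin n → Fin n, monoM (mapL f (0 : Multiset (Pr n))) = 1 := by
    intro f
    simp [monoM, mapL]
  simp_rw [h1]
  simp only [Finset.sum_const, Finset.card_univ, Fintype.card_fun, Fintype.card_fin]
  rw [nsmul_eq_mul, mul_one]
  have h2 : ((n ^ n : ℕ) : Rr n) = C ((n : ℝ) ^ n) := by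
    simp
  rw [h2, ← C_mul, inv_mul_cancel₀ (by positivity), C_1]

private theorem Pc_unit (ℓ : ℕ) : Pc n Unit [((), (), ℓ)] = Trc n ℓ := by
  unfold Pc Trc Matrix.trace
  simp only [List.map_cons, List.map_nil, List.prod_cons, List.prod_nil, mul_one, Matrix.diag_apply]
  exact Fintype.sum_equiv (Equiv.funUnique Unit (Fin n)) _ _ fun lam => rfl

/-- One chosen element of a nonzero cycle type. -/
private noncomputable def ch (ν : Wt) : ℕ :=
  if h : ν ≠ 0 then (Multiset.exists_mem_of_ne_zero h).choose else 0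

private theorem ch_mem {ν : Wt} (h : ν ≠ 0) : ch ν ∈ ν := by
  unfold ch
  rw [dif_pos h]
  exact (Multiset.exists_mem_of_ne_zero h).choose_spec

/-- The input `hB0` of the core. -/
theorem ffv_zero_bound (hn : 0 < n) {p K : ℕ} (hp1 : 1 ≤ p) (hKp : K ≤ p)
    (hp : 1000 * (p + 1) ^ 6 ≤ n) (β : ℝ) (hβ : 0 < β) (s : Finset Wt)
    (hs : ∀ ν ∈ s, ν ≠ 0 ∧ dg ν ≤ K) :
    ∑ ν ∈ s, ffv β (0 : Multiset (Pr n)) ν ^ 2 ≤
      2 * K * (Fb β K 1 * Real.sqrt (∫ g, rhoH p g ^ (2 * K) ∂gam n)) ^ 2 := by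
  set S := Real.sqrt (∫ g, rhoH p g ^ (2 * K) ∂gam n) with hS
  have hS0 : 0 ≤ S := Real.sqrt_nonneg _
  set A := Fb β K 1 * S with hA
  have hA0 : 0 ≤ A := mul_nonneg (Fb_nonneg _ _ _) hS0
  -- the class bound
  have hclass : ∀ (ℓ : ℕ) (T : Finset Wt), (∀ μ ∈ T, ℓ + 1 + dg μ ≤ K) →
      ∑ μ ∈ T, (∫ g, Fh β g * Ev (Trc n ℓ * Snu n μ) g ∂gam n) ^ 2 ≤ A ^ 2 := by
    intro ℓ T hT
    refine dual_bound β (Trc n ℓ) T A hA0 ?_
    intro c hc
    have hfb := free_bound hn hp1 hKp hp β hβ Unit [((), (), ℓ)] (by simp) c (by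
      intro ν hν
      simpa using hT ν (hc hν))
    rw [Pc_unit] at hfb
    have hz : (n : ℝ) ^ ((Fintype.card Unit : ℤ) - (([((), (), ℓ)] : List (Unit × Unit × ℕ)).length : ℤ)) = 1 := by
      simp
    rw [hz, one_mul] at hfb
    have hlen : ([((), (), ℓ)] : List (Unit × Unit × ℕ)).length = 1 := rfl
    rw [hlen] at hfb
    calc _ ≤ _ := hfb
      _ = _ := by rw [hA]; ring
  -- the value of ffv
  have hffv : ∀ ν, ffv β (0 : Multiset (Pr n)) ν = ∫ g, Fh β g * Ev (Snu n ν) g ∂gam n := by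
    intro ν
    unfold ffv
    rw [freeM_zero_ib hn]
    simp
  -- one term
  have hterm : ∀ ν, ν ≠ 0 → ffv β (0 : Multiset (Pr n)) ν ^ 2 ≤
      (1 / 2) * (∫ g, Fh β g * Ev (Trc n (ch ν) * Snu n (ν.erase (ch ν))) g ∂gam n) ^ 2 := by
    intro ν hν
    have hm := ch_mem hν
    set ℓ := ch ν with hℓ
    have hcons : ℓ ::ₘ ν.erase ℓ = ν := Multiset.cons_erase hm
    have hmul := Trc_mul_Snu (n := n) ℓ (ν.erase ℓ)
    rw [hcons] at hmul
    set w := Real.sqrt (2 * ((ℓ : ℝ) + 1) * (((ν.erase ℓ).count ℓ : ℝ) + 1)) with hw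
    have hw2 : w ^ 2 = 2 * ((ℓ : ℝ) + 1) * (((ν.erase ℓ).count ℓ : ℝ) + 1) :=
      Real.sq_sqrt (by positivity)
    have hw3 : 2 ≤ w ^ 2 := by
      rw [hw2]
      have h1 : (0 : ℝ) ≤ ℓ := by positivity
      have h2 : (0 : ℝ) ≤ ((ν.erase ℓ).count ℓ : ℝ) := by positivity
      nlinarith [mul_nonneg h1 h2]
    have hint : ∫ g, Fh β g * Ev (Trc n ℓ * Snu n (ν.erase ℓ)) g ∂gam n =
        w * ffv β (0 : Multiset (Pr n)) ν := by
      rw [hffv, hmul, ← integral_const_mul]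
      refine integral_congr_ae (Filter.Eventually.of_forall fun g => ?_)
      simp only [Ev_C_mul]
      ring
    rw [hint, mul_pow]
    have := sq_nonneg (ffv β (0 : Multiset (Pr n)) ν)
    nlinarith
  -- fibres
  have hch : ∀ ν ∈ s, ch ν ∈ Finset.range K := by
    intro ν hν
    obtain ⟨h0, hd⟩ := hs ν hν
    have hm := ch_mem h0
    have hcons : ch ν ::ₘ ν.erase (ch ν) = ν := Multiset.cons_erase hm
    have h1 := dg_cons (ch ν) (ν.erase (ch ν))
    rw [hcons] at h1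
    rw [Finset.mem_range]
    omega
  have hfib : ∀ ℓ ∈ Finset.range K,
      ∑ ν ∈ s with ch ν = ℓ, ffv β (0 : Multiset (Pr n)) ν ^ 2 ≤ (1 / 2) * A ^ 2 := by
    intro ℓ _
    have hinj : Set.InjOn (fun ν : Wt => ν.erase ℓ) (s.filter fun ν => ch ν = ℓ) := by
      intro ν hν ν' hν' heq
      rw [Finset.mem_coe, Finset.mem_filter] at hν hν'
      have h1 := ch_mem (hs ν hν.1).1
      have h2 := ch_mem (hs ν' hν'.1).1
      rw [hν.2] at h1
      rw [hν'.2] at h2
      rw [← Multiset.cons_erase h1, ← Multiset.cons_erase h2]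
      exact congrArg _ heq
    have hT : ∀ μ ∈ (s.filter fun ν => ch ν = ℓ).image (fun ν : Wt => ν.erase ℓ),
        ℓ + 1 + dg μ ≤ K := by
      intro μ hμ
      rw [Finset.mem_image] at hμ
      obtain ⟨ν, hν, rfl⟩ := hμ
      rw [Finset.mem_filter] at hν
      have h1 := ch_mem (hs ν hν.1).1
      rw [hν.2] at h1
      have h2 := dg_cons ℓ (ν.erase ℓ)
      rw [Multiset.cons_erase h1] at h2
      have h3 := (hs ν hν.1).2
      omega
    have hcl := hclass ℓ _ hT
    rw [Finset.sum_image hinj] at hcl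
    calc ∑ ν ∈ s with ch ν = ℓ, ffv β (0 : Multiset (Pr n)) ν ^ 2
        ≤ ∑ ν ∈ s with ch ν = ℓ, (1 / 2) *
            (∫ g, Fh β g * Ev (Trc n ℓ * Snu n (ν.erase ℓ)) g ∂gam n) ^ 2 := by
          refine Finset.sum_le_sum fun ν hν => ?_
          rw [Finset.mem_filter] at hν
          have := hterm ν (hs ν hν.1).1
          rwa [hν.2] at this
      _ = (1 / 2) * ∑ ν ∈ s with ch ν = ℓ,
            (∫ g, Fh β g * Ev (Trc n ℓ * Snu n (ν.erase ℓ)) g ∂gam n) ^ 2 := by
          rw [Finset.mul_sum]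
      _ ≤ _ := by linarith
  rw [← Finset.sum_fiberwise_of_maps_to hch]
  calc _ ≤ ∑ _ℓ ∈ Finset.range K, (1 / 2) * A ^ 2 := Finset.sum_le_sum hfib
    _ = (K : ℝ) * ((1 / 2) * A ^ 2) := by simp
    _ ≤ 2 * K * A ^ 2 := by
      have h1 : (0 : ℝ) ≤ K := by positivity
      have h2 := sq_nonneg A
      nlinarith [mul_nonneg h1 h2]

end Vale.Agent.Lib.P146
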