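import Vale.Agent.Lib.P146.FreeC
import Vale.Agent.Lib.P146.InterfaceB

/-! Upgrade, module V2: the free coefficients with the improved bound. -/

set_option autoImplicit false
open scoped Classical
open MeasureTheory MvPolynomial

namespace Vale.Agent.Lib.P146

variable {n : ℕ}

theorem Fc_nonneg (β : ℝ) (K e : ℕ) : 0 ≤ Fc β K e := by
  unfold Fc Cg
  have h1 : 0 ≤ max 1 β := le_trans zero_le_one (le_max_left _ _)
  positivity

/-- The free polynomial of a nonempty even pattern without pure cycles, improved bound. -/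
theorem ffv_bound2 (hn : 0 < n) {p K : ℕ} (hp1 : 1 ≤ p) (hKp : K ≤ p)
    (hp : 1000 * (p + 1) ^ 6 ≤ n) (β : ℝ) (hβ : 0 < β) (M₀ : Multiset (Pr n)) (h0 : M₀ ≠ 0)
    (he : EvenM M₀) (hnc : NCM M₀) (s : Finset Wt)
    (hs : ∀ ν ∈ s, Multiset.card M₀ + dg ν ≤ K) :
    ∑ ν ∈ s, ffv β M₀ ν ^ 2 ≤
      (Fc β K (excessM M₀) * Real.sqrt (∫ g, rhoH p g ^ (2 * K) ∂gam n)) ^ 2 := by
  set S := Real.sqrt (∫ g, rhoH p g ^ (2 * K) ∂gam n) with hS
  have hS0 : 0 ≤ S := Real.sqrt_nonneg _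
  have hn0 : (n : ℝ) ≠ 0 := by positivity
  have hnpos : (0 : ℝ) < n := by positivity
  -- nonempty label set
  obtain ⟨p₀, hp₀⟩ := Multiset.exists_mem_of_ne_zero h0
  have hVne : Nonempty ↥(labelsM M₀) := ⟨⟨p₀.1, (mem_labels_of_mem hp₀).1⟩⟩
  -- kernel reduction
  have hdeg : ∀ v, 2 ≤ degC (chainsOf M₀) v := by
    intro v
    rw [degC_chainsOf]
    have h1 : degM M₀ v.1 ≠ 0 := by
      have := v.2
      simpa [labelsM] using this
    obtain ⟨k, hk⟩ := he v.1
    omega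
  have heven : ∀ v, Even (degC (chainsOf M₀) v) := by
    intro v
    rw [degC_chainsOf]
    exact he v.1
  obtain ⟨V', hF, hD, E', hPc, hexc, hsum, hd4, hEne⟩ :=
    reduce_kernel (chainsOf M₀) (ncc_chainsOf M₀ hnc) hdeg heven
  have hE' : E' ≠ [] := hEne hVne
  have hV'ne : Nonempty V' := by
    cases E' with
    | nil => exact absurd rfl hE'
    | cons a _ => exact ⟨a.1⟩
  have hlen : (chainsOf M₀).length = Multiset.card M₀ := chainsOf_length M₀
  have hcardV : Fintype.card ↥(labelsM M₀) = (labelsM M₀).card := Fintype.card_coe _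
  have hsum' : (E'.map fun e => e.2.2 + 1).sum = Multiset.card M₀ := by
    rw [hsum, chainsOf_sum]
  rw [hlen, hcardV] at hexc
  have hkc := kernel_count E' hd4
  have hexcN : (labelsM M₀).card ≤ Multiset.card M₀ := by omega
  have hexcE : E'.length = excessM M₀ + Fintype.card V' := by
    unfold excessM
    omega
  -- duality
  have hA0 : 0 ≤ ((n : ℝ) ^ excessM M₀)⁻¹ * (Fc β K (excessM M₀) * S) :=
    mul_nonneg (by positivity) (mul_nonneg (Fc_nonneg _ _ _) hS0)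
  have hdual := dual_bound β (Pc n ↥(labelsM M₀) (chainsOf M₀)) s _ hA0 (by
    intro c hc
    have hfb := free_bound2 hn hp1 hKp hp β hβ V' E' hd4 (excessM M₀) hexcE c (by
      intro ν hν
      rw [hsum']
      exact hs ν (hc hν))
    rw [hPc n] at hfb
    calc _ ≤ _ := hfb
      _ = _ := by ring)
  -- transfer to ffv
  have hffv : ∀ ν, ffv β M₀ ν = (n : ℝ) ^ excessM M₀ *
      ∫ g, Fh β g * Ev (Pc n ↥(labelsM M₀) (chainsOf M₀) * Snu n ν) g ∂gam n := by
    intro ν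
    unfold ffv
    rw [freeM_eq_Pc hn M₀]
    have h1 : ∀ g, Fh β g * Ev (C (((n : ℝ) ^ (labelsM M₀).card)⁻¹) *
          Pc n ↥(labelsM M₀) (chainsOf M₀) * Snu n ν) g =
        ((n : ℝ) ^ (labelsM M₀).card)⁻¹ *
          (Fh β g * Ev (Pc n ↥(labelsM M₀) (chainsOf M₀) * Snu n ν) g) := by
      intro g
      rw [mul_assoc (C _), Ev_C_mul]
      ring
    simp_rw [h1]
    rw [integral_const_mul, ← mul_assoc]
    congr 1
    have : Multiset.card M₀ = excessM M₀ + (labelsM M₀).card := by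
      unfold excessM; omega
    rw [this, pow_add]
    field_simp
  simp_rw [hffv]
  have hsumeq : ∑ ν ∈ s, ((n : ℝ) ^ excessM M₀ *
        ∫ g, Fh β g * Ev (Pc n ↥(labelsM M₀) (chainsOf M₀) * Snu n ν) g ∂gam n) ^ 2 =
      ((n : ℝ) ^ excessM M₀) ^ 2 * ∑ ν ∈ s,
        (∫ g, Fh β g * Ev (Pc n ↥(labelsM M₀) (chainsOf M₀) * Snu n ν) g ∂gam n) ^ 2 := by
    rw [Finset.mul_sum]
    exact Finset.sum_congr rfl fun ν _ => by ring
  rw [hsumeq]
  have hnp : (0 : ℝ) < ((n : ℝ) ^ excessM M₀) ^ 2 := by positivity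
  calc ((n : ℝ) ^ excessM M₀) ^ 2 * _ ≤ ((n : ℝ) ^ excessM M₀) ^ 2 *
        (((n : ℝ) ^ excessM M₀)⁻¹ * (Fc β K (excessM M₀) * S)) ^ 2 :=
        mul_le_mul_of_nonneg_left hdual hnp.le
    _ = (Fc β K (excessM M₀) * S) ^ 2 := by
        field_simp

end Vale.Agent.Lib.P146
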