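import Vale.Agent.Lib.P146.MatAlg

/-! Module F, algebra part: the derivation `Lam` and its values. -/

set_option autoImplicit false
open MvPolynomial

namespace Vale.Agent.Lib.P146

variable {n : ℕ}

/-- The bilinear form without prefactor. -/
noncomputable def Sf (u v : Fin n → ℝ) (a : ℕ) : Rr n :=
  ∑ x, ∑ y, C (u x * v y) * (TT n ^ a) x y

theorem Xf_eq_Sf (u v : Fin n → ℝ) (a : ℕ) : Xf u v a = C (1 / (n : ℝ)) * Sf u v a := rfl

theorem lw_DD_C_mul (x z : Fin n) (a : ℝ) (P : Rr n) : DD x z (C a * P) = C a * DD x z P := by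
  have h0 : DD x z (C a : Rr n) = 0 := by
    have := (DD x z).map_algebraMap a
    simpa [MvPolynomial.algebraMap_eq] using this
  rw [Derivation.leibniz, h0]
  simp

theorem deriv_finset_sum_apply {α : Type*} (s : Finset α) (f : α → Derivation ℝ (Rr n) (Rr n))
    (q : Rr n) : (∑ i ∈ s, f i) q = ∑ i ∈ s, f i q := by
  classical
  induction s using Finset.induction_on with
  | empty => simp
  | insert a s ha ih =>
    rw [Finset.sum_insert ha, Finset.sum_insert ha, Derivation.add_apply, ih]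

/-- The derivation contracted with `u`, `v`, `𝐓^b`. -/
noncomputable def Lam (u v : Fin n → ℝ) (b : ℕ) : Derivation ℝ (Rr n) (Rr n) :=
  ∑ x, ∑ y, ∑ z, (C (1 / (n : ℝ)) * (C (u x * v y) * (C (Real.sqrt n)⁻¹ * (TT n ^ b) z y))) • DD x z

theorem Lam_apply (u v : Fin n → ℝ) (b : ℕ) (Q : Rr n) :
    Lam u v b Q = C (1 / (n : ℝ)) * ∑ x, ∑ y, C (u x * v y) *
      (C (Real.sqrt n)⁻¹ * ∑ z, (TT n ^ b) z y * DD x z Q) := by
  simp only [Lam, deriv_finset_sum_apply, Derivation.smul_apply, smul_eq_mul, Finset.mul_sum]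
  refine Finset.sum_congr rfl fun x _ => Finset.sum_congr rfl fun y _ =>
    Finset.sum_congr rfl fun z _ => ?_
  ring

theorem Lam_mul (u v : Fin n → ℝ) (b : ℕ) (P Q : Rr n) :
    Lam u v b (P * Q) = Lam u v b P * Q + P * Lam u v b Q := by
  rw [Derivation.leibniz]
  simp only [smul_eq_mul]
  ring

theorem Lam_prod {ι : Type*} [DecidableEq ι] (u v : Fin n → ℝ) (b : ℕ) (J : Finset ι) (f : ι → Rr n) :
    Lam u v b (∏ i ∈ J, f i) = ∑ i ∈ J, Lam u v b (f i) * ∏ k ∈ J.erase i, f k := by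
  induction J using Finset.induction_on with
  | empty => simp
  | insert a s ha ih =>
    rw [Finset.prod_insert ha, Lam_mul, ih, Finset.sum_insert ha, Finset.erase_insert ha,
      Finset.mul_sum]
    congr 1
    refine Finset.sum_congr rfl fun i hi => ?_
    have hne : i ≠ a := fun h => ha (h ▸ hi)
    rw [Finset.erase_insert_of_ne hne.symm, Finset.prod_insert (by simp [ha])]
    ring

theorem Sf_pow_add (u v : Fin n → ℝ) (a b : ℕ) :
    Sf u v (a + b) = ∑ x, ∑ y, C (u x * v y) * ∑ z, (TT n ^ a) x z * (TT n ^ b) z y := by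
  simp only [Sf, pow_add, Matrix.mul_apply]

theorem core_A (u v s t : Fin n → ℝ) (b r q' : ℕ) :
    ∑ x, ∑ y, C (u x * v y) * ∑ z, (TT n ^ b) z y * ∑ p, ∑ q, C (s p * t q) *
        ((TT n ^ r) p x * (TT n ^ q') z q) =
      Sf u s r * Sf v t (b + q') := by
  rw [Sf_pow_add, Sf, Finset.sum_mul_sum]
  simp only [Finset.sum_mul, Finset.mul_sum]
  -- left: x y z p q ; right: x y q z p
  have h1 : ∀ (f : Fin n → Fin n → Fin n → Fin n → Fin n → Rr n),
      ∑ x, ∑ y, ∑ z, ∑ p, ∑ q, f x y z p q = ∑ x, ∑ y, ∑ q, ∑ z, ∑ p, f x y z p q := by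
    intro f
    refine Finset.sum_congr rfl fun x _ => Finset.sum_congr rfl fun y _ => ?_
    calc ∑ z, ∑ p, ∑ q, f x y z p q = ∑ z, ∑ q, ∑ p, f x y z p q := by
          refine Finset.sum_congr rfl fun z _ => Finset.sum_comm
      _ = ∑ q, ∑ z, ∑ p, f x y z p q := Finset.sum_comm
  rw [h1]
  refine Finset.sum_congr rfl fun x _ => Finset.sum_congr rfl fun y _ =>
    Finset.sum_congr rfl fun q _ => Finset.sum_congr rfl fun z _ => Finset.sum_congr rfl fun p _ => ?_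
  rw [TT_pow_symm r p x, TT_pow_symm b z y]
  simp only [map_mul]
  ring

theorem core_B (u v s t : Fin n → ℝ) (b r q' : ℕ) :
    ∑ x, ∑ y, C (u x * v y) * ∑ z, (TT n ^ b) z y * ∑ p, ∑ q, C (s p * t q) *
        ((TT n ^ r) p z * (TT n ^ q') x q) =
      Sf u t q' * Sf s v (r + b) := by
  rw [Sf_pow_add, Sf, Finset.sum_mul_sum]
  simp only [Finset.sum_mul, Finset.mul_sum]
  -- left: x y z p q ; right: x p y z q
  have h1 : ∀ (f : Fin n → Fin n → Fin n → Fin n → Fin n → Rr n),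
      ∑ x, ∑ y, ∑ z, ∑ p, ∑ q, f x y z p q = ∑ x, ∑ p, ∑ y, ∑ z, ∑ q, f x y z p q := by
    intro f
    refine Finset.sum_congr rfl fun x _ => ?_
    calc ∑ y, ∑ z, ∑ p, ∑ q, f x y z p q = ∑ y, ∑ p, ∑ z, ∑ q, f x y z p q := by
          refine Finset.sum_congr rfl fun y _ => Finset.sum_comm
      _ = ∑ p, ∑ y, ∑ z, ∑ q, f x y z p q := Finset.sum_comm
  rw [h1]
  refine Finset.sum_congr rfl fun x _ => Finset.sum_congr rfl fun p _ =>
    Finset.sum_congr rfl fun y _ => Finset.sum_congr rfl fun z _ => Finset.sum_congr rfl fun q _ => ?_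
  simp only [map_mul]
  ring

theorem DD_Sf_succ (x z : Fin n) (s t : Fin n → ℝ) (m : ℕ) :
    DD x z (Sf s t (m + 1)) = C (Real.sqrt n)⁻¹ * ∑ r ∈ Finset.range (m + 1), ∑ p, ∑ q,
      C (s p * t q) * ((TT n ^ r) p x * (TT n ^ (m - r)) z q + (TT n ^ r) p z * (TT n ^ (m - r)) x q) := by
  simp only [Sf, map_sum, lw_DD_C_mul, DD_pow, Finset.mul_sum]
  have h1 : ∀ (f : Fin n → Fin n → ℕ → Rr n),
      ∑ p, ∑ q, ∑ r ∈ Finset.range (m + 1), f p q r = ∑ r ∈ Finset.range (m + 1), ∑ p, ∑ q, f p q r := by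
    intro f
    calc ∑ p, ∑ q, ∑ r ∈ Finset.range (m + 1), f p q r
        = ∑ p, ∑ r ∈ Finset.range (m + 1), ∑ q, f p q r := by
          refine Finset.sum_congr rfl fun p _ => Finset.sum_comm
      _ = _ := Finset.sum_comm
  rw [h1]
  refine Finset.sum_congr rfl fun r _ => Finset.sum_congr rfl fun p _ =>
    Finset.sum_congr rfl fun q _ => ?_
  ring

theorem DD_Sf_zero (x z : Fin n) (s t : Fin n → ℝ) : DD x z (Sf s t 0) = 0 := by
  have h0 : ∀ (p q : Fin n), DD x z ((TT n ^ 0) p q) = 0 := by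
    intro p q
    have : (TT n ^ 0) p q = C (if p = q then (1 : ℝ) else 0) := by
      by_cases h : p = q <;> simp [h, Matrix.one_apply]
    rw [this]
    have := lw_DD_C_mul x z (if p = q then (1 : ℝ) else 0) 1
    simpa using this
  simp only [Sf, map_sum, lw_DD_C_mul, h0, mul_zero, Finset.sum_const_zero]

theorem lw_sqrt_inv_mul (hn : 0 < n) :
    (C (Real.sqrt n)⁻¹ * C (Real.sqrt n)⁻¹ : Rr n) = C (1 / (n : ℝ)) := by
  rw [← map_mul]
  congr 1
  have hn' : (0 : ℝ) ≤ n := Nat.cast_nonneg n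
  rw [← mul_inv, Real.mul_self_sqrt hn', one_div]

theorem sum_pull_r {κ : Type*} (R : Finset κ) (F : κ → Fin n → Fin n → Rr n) (u v : Fin n → ℝ) (b : ℕ) :
    ∑ x, ∑ y, C (u x * v y) * ∑ z, (TT n ^ b) z y * ∑ r ∈ R, F r x z =
      ∑ r ∈ R, ∑ x, ∑ y, C (u x * v y) * ∑ z, (TT n ^ b) z y * F r x z := by
  simp only [Finset.mul_sum]
  calc ∑ x, ∑ y, ∑ z, ∑ r ∈ R, C (u x * v y) * ((TT n ^ b) z y * F r x z)
      = ∑ x, ∑ y, ∑ r ∈ R, ∑ z, C (u x * v y) * ((TT n ^ b) z y * F r x z) := by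
        refine Finset.sum_congr rfl fun x _ => Finset.sum_congr rfl fun y _ => Finset.sum_comm
    _ = ∑ x, ∑ r ∈ R, ∑ y, ∑ z, C (u x * v y) * ((TT n ^ b) z y * F r x z) := by
        refine Finset.sum_congr rfl fun x _ => Finset.sum_comm
    _ = _ := Finset.sum_comm

theorem sum_pull_k {α : Type*} (S : Finset α) (k : Rr n) (A B : α → Rr n) :
    ∑ z ∈ S, A z * (k * B z) = k * ∑ z ∈ S, A z * B z := by
  rw [Finset.mul_sum]
  exact Finset.sum_congr rfl fun z _ => by ring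

theorem Lam_Xf (hn : 0 < n) (u v s t : Fin n → ℝ) (b m : ℕ) :
    Lam u v b (Xf s t m) = C (1 / (n : ℝ)) * ∑ r ∈ Finset.range m,
      (Xf u s r * Xf v t (b + (m - 1 - r)) + Xf u t (m - 1 - r) * Xf s v (r + b)) := by
  cases m with
  | zero =>
    simp [Lam_apply, Xf_eq_Sf, DD_Sf_zero]
  | succ m =>
    have hc := lw_sqrt_inv_mul (n := n) hn
    have hY : ∀ x z, DD x z (Xf s t (m + 1)) = C (1 / (n : ℝ)) * (C (Real.sqrt n)⁻¹ *
        ∑ r ∈ Finset.range (m + 1),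
          ((∑ p, ∑ q, C (s p * t q) * ((TT n ^ r) p x * (TT n ^ (m - r)) z q)) +
           (∑ p, ∑ q, C (s p * t q) * ((TT n ^ r) p z * (TT n ^ (m - r)) x q)))) := by
      intro x z
      rw [Xf_eq_Sf, lw_DD_C_mul, DD_Sf_succ]
      congr 2
      refine Finset.sum_congr rfl fun r _ => ?_
      simp only [mul_add, Finset.sum_add_distrib]
    rw [Lam_apply]
    simp only [hY]
    have hm : ∀ r, m + 1 - 1 - r = m - r := by intro r; omega
    simp only [hm, Xf_eq_Sf]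
    have hout : ∀ x y, C (u x * v y) * (C (Real.sqrt n)⁻¹ * ∑ z, (TT n ^ b) z y *
        (C (1 / (n : ℝ)) * (C (Real.sqrt n)⁻¹ * ∑ r ∈ Finset.range (m + 1),
          ((∑ p, ∑ q, C (s p * t q) * ((TT n ^ r) p x * (TT n ^ (m - r)) z q)) +
           (∑ p, ∑ q, C (s p * t q) * ((TT n ^ r) p z * (TT n ^ (m - r)) x q)))))) =
        C (1 / (n : ℝ)) * C (1 / (n : ℝ)) * (C (u x * v y) * ∑ z, (TT n ^ b) z y *
          ∑ r ∈ Finset.range (m + 1),
          ((∑ p, ∑ q, C (s p * t q) * ((TT n ^ r) p x * (TT n ^ (m - r)) z q)) +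
           (∑ p, ∑ q, C (s p * t q) * ((TT n ^ r) p z * (TT n ^ (m - r)) x q)))) := by
      intro x y
      rw [sum_pull_k, sum_pull_k]
      generalize (∑ z, (TT n ^ b) z y *
          ∑ r ∈ Finset.range (m + 1),
          ((∑ p, ∑ q, C (s p * t q) * ((TT n ^ r) p x * (TT n ^ (m - r)) z q)) +
           (∑ p, ∑ q, C (s p * t q) * ((TT n ^ r) p z * (TT n ^ (m - r)) x q)))) = S
      linear_combination (C (u x * v y) * C (1 / (n : ℝ)) * S) * hc
    simp only [hout]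
    simp only [← Finset.mul_sum]
    rw [sum_pull_r]
    have hsplit : ∀ r, (∑ x, ∑ y, C (u x * v y) * ∑ z, (TT n ^ b) z y *
          ((∑ p, ∑ q, C (s p * t q) * ((TT n ^ r) p x * (TT n ^ (m - r)) z q)) +
           (∑ p, ∑ q, C (s p * t q) * ((TT n ^ r) p z * (TT n ^ (m - r)) x q)))) =
        Sf u s r * Sf v t (b + (m - r)) + Sf u t (m - r) * Sf s v (r + b) := by
      intro r
      rw [← core_A, ← core_B]
      simp only [mul_add, Finset.sum_add_distrib]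
    simp only [hsplit]
    simp only [Finset.mul_sum]
    refine Finset.sum_congr rfl fun r _ => ?_
    ring

theorem Lam_Sc (hn : 0 < n) (u v : Fin n → ℝ) (b : ℕ) (c : Wt →₀ ℝ) (L : ℕ)
    (hL : ∀ ν ∈ c.support, ∀ ℓ ∈ ν, ℓ < L) :
    Lam u v b (Sc n c) = C (1 / (n : ℝ)) * ∑ ℓ ∈ Finset.range L,
      Xf u v (ℓ + b) * Sc n (down ℓ c) := by
  have hc := lw_sqrt_inv_mul (n := n) hn
  rw [Lam_apply]
  simp only [DD_Sc hn _ _ c L hL]
  have h0 : ∀ x y, ∑ z, (TT n ^ b) z y * ∑ ℓ ∈ Finset.range L, (TT n ^ ℓ) x z * Sc n (down ℓ c) =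
      ∑ ℓ ∈ Finset.range L, (TT n ^ (ℓ + b)) x y * Sc n (down ℓ c) := by
    intro x y
    simp only [pow_add, Matrix.mul_apply, Finset.mul_sum, Finset.sum_mul]
    rw [Finset.sum_comm]
    refine Finset.sum_congr rfl fun ℓ _ => Finset.sum_congr rfl fun z _ => ?_
    ring
  have h1 : ∀ x y, C (u x * v y) * (C (Real.sqrt n)⁻¹ * ∑ z, (TT n ^ b) z y *
      (C (Real.sqrt n)⁻¹ * ∑ ℓ ∈ Finset.range L, (TT n ^ ℓ) x z * Sc n (down ℓ c))) =
      C (1 / (n : ℝ)) * (C (u x * v y) * ∑ ℓ ∈ Finset.range L, (TT n ^ (ℓ + b)) x y * Sc n (down ℓ c)) := by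
    intro x y
    rw [sum_pull_k, h0]
    generalize (∑ ℓ ∈ Finset.range L, (TT n ^ (ℓ + b)) x y * Sc n (down ℓ c)) = S
    linear_combination (C (u x * v y) * S) * hc
  simp only [h1, ← Finset.mul_sum]
  congr 1
  congr 1
  have h2 : ∑ x, ∑ y, C (u x * v y) * ∑ ℓ ∈ Finset.range L, (TT n ^ (ℓ + b)) x y * Sc n (down ℓ c) =
      ∑ ℓ ∈ Finset.range L, ∑ x, ∑ y, C (u x * v y) * ((TT n ^ (ℓ + b)) x y * Sc n (down ℓ c)) := by
    simp only [Finset.mul_sum]
    calc _ = ∑ x, ∑ ℓ ∈ Finset.range L, ∑ y, C (u x * v y) * ((TT n ^ (ℓ + b)) x y * Sc n (down ℓ c)) := by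
          refine Finset.sum_congr rfl fun x _ => Finset.sum_comm
      _ = _ := Finset.sum_comm
  rw [h2, Finset.mul_sum]
  refine Finset.sum_congr rfl fun ℓ _ => ?_
  rw [Xf_eq_Sf, Sf]
  simp only [Finset.mul_sum, Finset.sum_mul]
  refine Finset.sum_congr rfl fun x _ => Finset.sum_congr rfl fun y _ => ?_
  ring

/-- The error matrix of the recursion. -/
noncomputable def ErrP (b : ℕ) (Q : Rr n) (x y : Fin n) : Rr n :=
  C ((b : ℝ) / n) * ((TT n ^ (b - 1)) x y * Q)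
    + C (1 / (n : ℝ)) * ∑ j ∈ Finset.range (b - 1), (TT n ^ (b - 2 - j)) x y * (Trc n j * Q)
    + C (Real.sqrt n)⁻¹ * ∑ z, (TT n ^ b) z y * DD x z Q

/-- Its contraction. -/
noncomputable def ErrQ (u v : Fin n → ℝ) (b : ℕ) (Q : Rr n) : Rr n :=
  C (1 / (n : ℝ)) * ∑ x, ∑ y, C (u x * v y) * ErrP b Q x y

theorem ErrQ_eq (u v : Fin n → ℝ) (b : ℕ) (Q : Rr n) :
    ErrQ u v b Q = C ((b : ℝ) / n) * (Xf u v (b - 1) * Q)
      + C (1 / (n : ℝ)) * ∑ j ∈ Finset.range (b - 1), Xf u v (b - 2 - j) * (Trc n j * Q)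
      + Lam u v b Q := by
  have h1 : ∀ k, Xf u v k * Q = C (1 / (n : ℝ)) * ∑ x, ∑ y, C (u x * v y) * ((TT n ^ k) x y * Q) := by
    intro k
    rw [Xf_eq_Sf, Sf, mul_assoc]
    congr 1
    simp only [Finset.sum_mul]
    refine Finset.sum_congr rfl fun x _ => Finset.sum_congr rfl fun y _ => ?_
    ring
  rw [ErrQ, Lam_apply, h1]
  simp only [ErrP, mul_add, Finset.sum_add_distrib]
  congr 1
  · congr 1
    · simp only [Finset.mul_sum]
      refine Finset.sum_congr rfl fun x _ => Finset.sum_congr rfl fun y _ => ?_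
      ring
    · have h2 : ∀ j, Xf u v (b - 2 - j) * (Trc n j * Q) =
          C (1 / (n : ℝ)) * ∑ x, ∑ y, C (u x * v y) * ((TT n ^ (b - 2 - j)) x y * (Trc n j * Q)) := by
        intro j
        rw [Xf_eq_Sf, Sf, mul_assoc]
        congr 1
        simp only [Finset.sum_mul]
        refine Finset.sum_congr rfl fun x _ => Finset.sum_congr rfl fun y _ => ?_
        ring
      simp only [h2]
      simp only [Finset.mul_sum]
      calc _ = ∑ x, ∑ j ∈ Finset.range (b - 1), ∑ y, C (1 / (n : ℝ)) * (C (u x * v y) * (C (1 / (n : ℝ)) * ((TT n ^ (b - 2 - j)) x y * (Trc n j * Q)))) := by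
            refine Finset.sum_congr rfl fun x _ => Finset.sum_comm
        _ = ∑ j ∈ Finset.range (b - 1), ∑ x, ∑ y, C (1 / (n : ℝ)) * (C (u x * v y) * (C (1 / (n : ℝ)) * ((TT n ^ (b - 2 - j)) x y * (Trc n j * Q)))) := Finset.sum_comm
        _ = _ := by
          refine Finset.sum_congr rfl fun j _ => Finset.sum_congr rfl fun x _ => Finset.sum_congr rfl fun y _ => ?_
          ring

theorem ErrQ_smul (f : ℝ) (u v : Fin n → ℝ) (b : ℕ) (Q : Rr n) :
    ErrQ (fun x => f * u x) v b Q = C f * ErrQ u v b Q := by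
  simp only [ErrQ, Finset.mul_sum]
  refine Finset.sum_congr rfl fun x _ => ?_
  simp only [← Finset.mul_sum]
  rw [mul_left_comm]
  congr 1
  simp only [Finset.mul_sum]
  refine Finset.sum_congr rfl fun y _ => ?_
  rw [mul_assoc f, map_mul, mul_assoc]

/-- The decomposition of the error term of the recursion. -/
theorem ErrQ_decomp (hn : 0 < n) {ι : Type*} [DecidableEq ι] (u v : Fin n → ℝ) (b : ℕ)
    (J : Finset ι) (s t : ι → Fin n → ℝ) (a : ι → ℕ) (c : Wt →₀ ℝ) (L : ℕ)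
    (hL : ∀ ν ∈ c.support, ∀ ℓ ∈ ν, ℓ < L) :
    ErrQ u v b ((∏ k ∈ J, Xf (s k) (t k) (a k)) * Sc n c) =
      C ((b : ℝ) / n) * (Xf u v (b - 1) * ((∏ k ∈ J, Xf (s k) (t k) (a k)) * Sc n c))
      + C (1 / (n : ℝ)) * ∑ j ∈ Finset.range (b - 1),
          (Xf u v (b - 2 - j) * ((∏ k ∈ J, Xf (s k) (t k) (a k)) * Sc n (up j c)))
      + C (1 / (n : ℝ)) * ∑ ℓ ∈ Finset.range L,
          (Xf u v (ℓ + b) * ((∏ k ∈ J, Xf (s k) (t k) (a k)) * Sc n (down ℓ c)))
      + C (1 / (n : ℝ)) * ∑ i ∈ J, ∑ r ∈ Finset.range (a i),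
          (Xf u (s i) r * (Xf v (t i) (b + (a i - 1 - r)) *
              ((∏ k ∈ J.erase i, Xf (s k) (t k) (a k)) * Sc n c))
           + Xf u (t i) (a i - 1 - r) * (Xf (s i) v (r + b) *
              ((∏ k ∈ J.erase i, Xf (s k) (t k) (a k)) * Sc n c))) := by
  rw [ErrQ_eq, Lam_mul, Lam_prod, Lam_Sc hn u v b c L hL]
  simp only [Lam_Xf hn]
  have h1 : ∀ j, Xf u v (b - 2 - j) * (Trc n j * ((∏ k ∈ J, Xf (s k) (t k) (a k)) * Sc n c)) =
      Xf u v (b - 2 - j) * ((∏ k ∈ J, Xf (s k) (t k) (a k)) * Sc n (up j c)) := by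
    intro j
    rw [← Trc_mul_Sc hn]
    ring
  simp only [h1]
  have h2 : ∀ ℓ, (∏ k ∈ J, Xf (s k) (t k) (a k)) * (Xf u v (ℓ + b) * Sc n (down ℓ c)) =
      Xf u v (ℓ + b) * ((∏ k ∈ J, Xf (s k) (t k) (a k)) * Sc n (down ℓ c)) := by
    intro ℓ; ring
  have h3 : (∑ i ∈ J, (C (1 / (n : ℝ)) * ∑ r ∈ Finset.range (a i),
        (Xf u (s i) r * Xf v (t i) (b + (a i - 1 - r)) + Xf u (t i) (a i - 1 - r) * Xf (s i) v (r + b))) *
        ∏ k ∈ J.erase i, Xf (s k) (t k) (a k)) * Sc n c =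
      C (1 / (n : ℝ)) * ∑ i ∈ J, ∑ r ∈ Finset.range (a i),
          (Xf u (s i) r * (Xf v (t i) (b + (a i - 1 - r)) *
              ((∏ k ∈ J.erase i, Xf (s k) (t k) (a k)) * Sc n c))
           + Xf u (t i) (a i - 1 - r) * (Xf (s i) v (r + b) *
              ((∏ k ∈ J.erase i, Xf (s k) (t k) (a k)) * Sc n c))) := by
    simp only [Finset.sum_mul, Finset.mul_sum]
    refine Finset.sum_congr rfl fun i _ => Finset.sum_congr rfl fun r _ => ?_
    ring
  have h4 : (∏ k ∈ J, Xf (s k) (t k) (a k)) * (C (1 / (n : ℝ)) * ∑ ℓ ∈ Finset.range L,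
        Xf u v (ℓ + b) * Sc n (down ℓ c)) = C (1 / (n : ℝ)) * ∑ ℓ ∈ Finset.range L,
          (Xf u v (ℓ + b) * ((∏ k ∈ J, Xf (s k) (t k) (a k)) * Sc n (down ℓ c))) := by
    simp only [Finset.mul_sum]
    refine Finset.sum_congr rfl fun ℓ _ => ?_
    ring
  rw [h3, h4]
  ring

end Vale.Agent.Lib.P146
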