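import Vale.Agent.Lib.P146.LemWA
import Vale.Agent.Lib.P146.Wick
import Vale.Agent.Lib.P146.ChebS

/-! Module F, pointwise part: Chebyshev inversion of the recursion. -/

set_option autoImplicit false
open MvPolynomial

namespace Vale.Agent.Lib.P146

variable {n : ℕ}

/-- The realised matrix `Ev (𝐓^a Q)` at `g`. -/
noncomputable def Emat (g : Pt n) (Q : Rr n) (a : ℕ) : Matrix (Fin n) (Fin n) ℝ :=
  Matrix.of fun x y => Ev ((TT n ^ a) x y * Q) g

/-- The realised error matrix at `g`. -/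
noncomputable def Errm (g : Pt n) (Q : Rr n) (b : ℕ) : Matrix (Fin n) (Fin n) ℝ :=
  Matrix.of fun x y => Ev (ErrP b Q x y) g

theorem Emat_zero (g : Pt n) (Q : Rr n) : Emat g Q 0 = Ev Q g • (1 : Matrix (Fin n) (Fin n) ℝ) := by
  ext x y
  by_cases h : x = y
  · subst h
    simp [Emat]
  · simp [Emat, h]

theorem Emat_succ_aux (g : Pt n) (Q : Rr n) (b : ℕ) (x y : Fin n) :
    Emat g Q (b + 1) x y = (Jh g * Emat g Q b) x y -
      Ev (C (Real.sqrt n)⁻¹ * ∑ z, DD x z ((TT n ^ b) z y * Q)) g := by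
  have h1 : (TT n ^ (b + 1)) x y * Q = ∑ z, TT n x z * ((TT n ^ b) z y * Q) := by
    rw [pow_succ', Matrix.mul_apply, Finset.sum_mul]
    exact Finset.sum_congr rfl fun z _ => by ring
  simp only [Emat, Matrix.of_apply, Matrix.mul_apply]
  rw [h1, Ev_sum, Ev_C_mul, Ev_sum]
  simp only [Ev_TT_mul, Finset.sum_sub_distrib, Finset.mul_sum]

theorem Emat_one (g : Pt n) (Q : Rr n) :
    Emat g Q 1 = Jh g * Emat g Q 0 - Errm g Q 0 := by
  ext x y
  rw [Matrix.sub_apply, Emat_succ_aux g Q 0 x y, DD_contract_zero]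
  congr 2
  have h0 : ∑ z, (TT n ^ 0) z y * DD x z Q = DD x y Q := by
    simp [Matrix.one_apply, ite_mul]
  rw [pow_zero] at h0
  simp [ErrP, Errm, h0]

theorem Emat_add_two (hn : 0 < n) (g : Pt n) (Q : Rr n) (b : ℕ) :
    Emat g Q (b + 2) = Jh g * Emat g Q (b + 1) - Emat g Q b - Errm g Q (b + 1) := by
  ext x y
  rw [Matrix.sub_apply, Matrix.sub_apply, Emat_succ_aux g Q (b + 1) x y, DD_contract hn]
  have h2 : ∀ j, b + 1 - 2 - j = b - 1 - j := by intro j; omega
  simp only [Errm, Emat, Matrix.of_apply, ErrP, h2, map_add, Pi.add_apply, Ev_C_mul]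
  push_cast
  simp only [map_add, Pi.add_apply, Ev_C_mul, add_mul, C_1, one_mul]
  ring

/-- Chebyshev inversion. -/
theorem Emat_cheb (hn : 0 < n) (g : Pt n) (Q : Rr n) (a : ℕ) :
    Emat g Q a = chebM (Jh g) a * Emat g Q 0 -
      ∑ b ∈ Finset.range a, chebM (Jh g) (a - 1 - b) * Errm g Q b := by
  induction a using Nat.twoStepInduction with
  | zero => simp [chebM]
  | one => simp [chebM, Emat_one]
  | more a h0 h1 =>
    rw [Emat_add_two hn, h1, h0, Finset.sum_range_succ _ (a + 1), Finset.sum_range_succ _ a,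
      Finset.sum_range_succ _ a]
    have h3 : ∀ b ∈ Finset.range a, chebM (Jh g) (a + 2 - 1 - b) =
        Jh g * chebM (Jh g) (a + 1 - 1 - b) - chebM (Jh g) (a - 1 - b) := by
      intro b hb
      have hb' : b < a := Finset.mem_range.mp hb
      obtain ⟨k, hk⟩ : ∃ k, a = b + 1 + k := ⟨a - (b + 1), by omega⟩
      subst hk
      have e1 : b + 1 + k + 2 - 1 - b = k + 2 := by omega
      have e2 : b + 1 + k + 1 - 1 - b = k + 1 := by omega
      have e3 : b + 1 + k - 1 - b = k := by omega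
      rw [e1, e2, e3]
      rfl
    have h4 : ∑ b ∈ Finset.range a, chebM (Jh g) (a + 2 - 1 - b) * Errm g Q b =
        Jh g * ∑ b ∈ Finset.range a, chebM (Jh g) (a + 1 - 1 - b) * Errm g Q b -
        ∑ b ∈ Finset.range a, chebM (Jh g) (a - 1 - b) * Errm g Q b := by
      rw [Finset.mul_sum, ← Finset.sum_sub_distrib]
      refine Finset.sum_congr rfl fun b hb => ?_
      rw [h3 b hb, Matrix.sub_mul, Matrix.mul_assoc]
    rw [h4]
    have e1 : a + 2 - 1 - a = 1 := by omega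
    have e2 : a + 2 - 1 - (a + 1) = 0 := by omega
    have e3 : a + 1 - 1 - a = 0 := by omega
    simp only [e1, e2, e3]
    have e4 : chebM (Jh g) (a + 2) = Jh g * chebM (Jh g) (a + 1) - chebM (Jh g) a := rfl
    have e5 : chebM (Jh g) 0 = 1 := rfl
    have e6 : chebM (Jh g) 1 = Jh g := rfl
    rw [e4, e5, e6]
    simp only [Matrix.mul_sub, Matrix.sub_mul, Matrix.mul_add, Matrix.mul_assoc, Matrix.one_mul]
    abel

/-- The expansion of a form against a polynomial. -/
theorem Xf_mul_expand (u v : Fin n → ℝ) (a : ℕ) (Q : Rr n) :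
    Xf u v a * Q = C (1 / (n : ℝ)) * ∑ x, ∑ y, C (u x * v y) * ((TT n ^ a) x y * Q) := by
  rw [Xf_eq_Sf, Sf, mul_assoc]
  congr 1
  simp only [Finset.sum_mul]
  refine Finset.sum_congr rfl fun x _ => Finset.sum_congr rfl fun y _ => ?_
  ring

theorem Ev_Xf_mul_expand (u v : Fin n → ℝ) (a : ℕ) (Q : Rr n) (g : Pt n) :
    Ev (Xf u v a * Q) g = (1 / (n : ℝ)) * ∑ x, ∑ y, (u x * v y) * Ev ((TT n ^ a) x y * Q) g := by
  rw [Xf_mul_expand, Ev_C_mul, Ev_sum]
  simp only [Ev_sum, Ev_C_mul]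

theorem Ev_ErrQ (u v : Fin n → ℝ) (b : ℕ) (Q : Rr n) (g : Pt n) :
    Ev (ErrQ u v b Q) g = (1 / (n : ℝ)) * ∑ x, ∑ y, (u x * v y) * Errm g Q b x y := by
  rw [ErrQ, Ev_C_mul, Ev_sum]
  simp only [Ev_sum, Ev_C_mul, Errm, Matrix.of_apply]

/-- The pointwise recursion for a form against a polynomial. -/
theorem Ev_Xf_mul (hn : 0 < n) (g : Pt n) (u v : Fin n → ℝ) (a : ℕ) (Q : Rr n) :
    Ev (Xf u v a * Q) g =
      (1 / (n : ℝ)) * (∑ x, ∑ y, u x * v y * chebM (Jh g) a x y) * Ev Q g -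
      ∑ b ∈ Finset.range a, Ev (ErrQ ((chebM (Jh g) (a - 1 - b)).mulVec u) v b Q) g := by
  rw [Ev_Xf_mul_expand]
  have hE : ∀ x y, Ev ((TT n ^ a) x y * Q) g = Emat g Q a x y := fun x y => rfl
  simp only [hE]
  rw [Emat_cheb hn g Q a, Emat_zero]
  simp only [Matrix.sub_apply, Matrix.mul_smul, Matrix.mul_one, Matrix.smul_apply, smul_eq_mul,
    Matrix.sum_apply, Matrix.mul_apply]
  simp only [Ev_ErrQ, ← Finset.mul_sum]
  have hK : ∀ b,
      ∑ x, ∑ y, (chebM (Jh g) (a - 1 - b)).mulVec u x * v y * Errm g Q b x y =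
      ∑ x, ∑ y, u x * v y * ∑ w, chebM (Jh g) (a - 1 - b) x w * Errm g Q b w y := by
    intro b
    have hs := chebM_symm g (a - 1 - b)
    simp only [Matrix.mulVec, dotProduct, Finset.sum_mul, Finset.mul_sum]
    calc ∑ x, ∑ y, ∑ w, chebM (Jh g) (a - 1 - b) x w * u w * v y * Errm g Q b x y
        = ∑ x, ∑ w, ∑ y, chebM (Jh g) (a - 1 - b) x w * u w * v y * Errm g Q b x y := by
          refine Finset.sum_congr rfl fun x _ => Finset.sum_comm
      _ = ∑ w, ∑ x, ∑ y, chebM (Jh g) (a - 1 - b) x w * u w * v y * Errm g Q b x y := Finset.sum_comm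
      _ = _ := by
          refine Finset.sum_congr rfl fun w _ => ?_
          rw [Finset.sum_comm]
          refine Finset.sum_congr rfl fun y _ => Finset.sum_congr rfl fun x _ => ?_
          rw [← hs.apply x w]
          ring
  simp only [hK]
  simp only [mul_sub, Finset.sum_sub_distrib, Finset.mul_sum]
  congr 1
  · simp only [Finset.sum_mul]
    refine Finset.sum_congr rfl fun x _ => Finset.sum_congr rfl fun y _ => ?_
    ring
  · calc _ = ∑ x, ∑ b ∈ Finset.range a, ∑ y, ∑ w, 1 / (n : ℝ) * (u x * v y *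
            (chebM (Jh g) (a - 1 - b) x w * Errm g Q b w y)) := by
          refine Finset.sum_congr rfl fun x _ => Finset.sum_comm
      _ = _ := Finset.sum_comm

end Vale.Agent.Lib.P146
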