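import Vale.Agent.Lib.P146.LemWB
import Vale.Agent.Lib.P146.Gram

/-! Module F, integration part: bookkeeping, Cauchy–Schwarz, the base case. -/

set_option autoImplicit false
open MeasureTheory MvPolynomial

namespace Vale.Agent.Lib.P146

variable {n : ℕ}

/-- A good vector field. -/
def GoodV (w : Pt n → Fin n → ℝ) : Prop :=
  (∀ x, Measurable fun g => w g x) ∧ ∀ g, ∑ x, (w g x) ^ 2 ≤ n

theorem GoodV.abs_le {w : Pt n → Fin n → ℝ} (h : GoodV w) (g : Pt n) (x : Fin n) :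
    |w g x| ≤ Real.sqrt n := by
  apply Real.abs_le_sqrt
  exact le_trans (Finset.single_le_sum (f := fun x => (w g x) ^ 2)
    (fun _ _ => sq_nonneg _) (Finset.mem_univ x)) (h.2 g)

theorem PG.mul_bdd {f w : Pt n → ℝ} {B : ℝ} (hf : PG f) (hm : Measurable w)
    (hB : ∀ g, |w g| ≤ B) : PG (fun g => w g * f g) := by
  refine PG.of_le (hm.mul hf.1) ((PG.const B).mul hf) fun g => ?_
  rw [abs_mul, abs_mul]
  exact mul_le_mul_of_nonneg_right (le_trans (hB g) (le_abs_self B)) (abs_nonneg _)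

theorem PG.abs {f : Pt n → ℝ} (hf : PG f) : PG (fun g => |f g|) := by
  refine PG.of_le hf.1.abs hf fun g => ?_
  rw [abs_abs]

theorem PG_forms {ι : Type*} [DecidableEq ι] (I : Finset ι) (a : ι → ℕ)
    (u v : ι → Pt n → Fin n → ℝ) (hu : ∀ i, GoodV (u i)) (hv : ∀ i, GoodV (v i)) (Q : Rr n) :
    PG fun g => Ev ((∏ i ∈ I, Xf (u i g) (v i g) (a i)) * Q) g := by
  induction I using Finset.induction_on generalizing Q with
  | empty =>
    simpa using PG_Ev Q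
  | insert i I hi ih =>
    have h1 : ∀ g, Ev ((∏ k ∈ insert i I, Xf (u k g) (v k g) (a k)) * Q) g =
        (1 / (n : ℝ)) * ∑ x, ∑ y, (u i g x * v i g y) *
          Ev ((∏ k ∈ I, Xf (u k g) (v k g) (a k)) * ((TT n ^ a i) x y * Q)) g := by
      intro g
      rw [Finset.prod_insert hi, mul_assoc, Ev_Xf_mul_expand]
      congr 1
      refine Finset.sum_congr rfl fun x _ => Finset.sum_congr rfl fun y _ => ?_
      rw [mul_left_comm]
    simp only [h1]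
    refine (PG.const _).mul (PG.finset_sum _ fun x _ => PG.finset_sum _ fun y _ => ?_)
    refine PG.mul_bdd (B := Real.sqrt n * Real.sqrt n) (ih _)
      (((hu i).1 x).mul ((hv i).1 y)) fun g => ?_
    rw [abs_mul]
    exact mul_le_mul ((hu i).abs_le g x) ((hv i).abs_le g y) (abs_nonneg _) (Real.sqrt_nonneg _)

/-- Integrable with a bound on the integral. -/
def Bd (F : Pt n → ℝ) (B : ℝ) : Prop := PG F ∧ |∫ g, F g ∂gam n| ≤ B

theorem Bd.add {F F' : Pt n → ℝ} {B B' : ℝ} (h : Bd F B) (h' : Bd F' B') :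
    Bd (fun g => F g + F' g) (B + B') := by
  refine ⟨h.1.add h'.1, ?_⟩
  rw [integral_add h.1.integrable h'.1.integrable]
  exact (abs_add_le _ _).trans (add_le_add h.2 h'.2)

theorem Bd.sub {F F' : Pt n → ℝ} {B B' : ℝ} (h : Bd F B) (h' : Bd F' B') :
    Bd (fun g => F g - F' g) (B + B') := by
  refine ⟨h.1.sub h'.1, ?_⟩
  rw [integral_sub h.1.integrable h'.1.integrable]
  exact (abs_sub _ _).trans (add_le_add h.2 h'.2)

theorem Bd.const_mul {F : Pt n → ℝ} {B : ℝ} (k : ℝ) (h : Bd F B) :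
    Bd (fun g => k * F g) (|k| * B) := by
  refine ⟨(PG.const k).mul h.1, ?_⟩
  rw [integral_const_mul, abs_mul]
  exact mul_le_mul_of_nonneg_left h.2 (abs_nonneg _)

theorem Bd.mono {F : Pt n → ℝ} {B B' : ℝ} (h : Bd F B) (hB : B ≤ B') : Bd F B' :=
  ⟨h.1, h.2.trans hB⟩

theorem Bd.congr {F F' : Pt n → ℝ} {B : ℝ} (h : Bd F B) (hF : ∀ g, F' g = F g) : Bd F' B := by
  have : F' = F := funext hF
  rw [this]; exact h

theorem Bd.sum {α : Type*} (s : Finset α) {F : α → Pt n → ℝ} {B : α → ℝ}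
    (h : ∀ i ∈ s, Bd (F i) (B i)) : Bd (fun g => ∑ i ∈ s, F i g) (∑ i ∈ s, B i) := by
  classical
  induction s using Finset.induction_on with
  | empty => exact ⟨by simpa using PG.const 0, by simp⟩
  | insert a s ha ih =>
    simp only [Finset.sum_insert ha]
    exact (h a (Finset.mem_insert_self _ _)).add (ih fun i hi => h i (Finset.mem_insert_of_mem hi))

/-- Cauchy–Schwarz for functions of polynomial growth. -/
theorem PG.cauchy {f h : Pt n → ℝ} (hf : PG f) (hh : PG h) :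
    |∫ g, f g * h g ∂gam n| ≤ Real.sqrt (∫ g, f g ^ 2 ∂gam n) * Real.sqrt (∫ g, h g ^ 2 ∂gam n) := by
  have h1 : ∀ t : ℝ, 0 ≤ (∫ g, h g ^ 2 ∂gam n) * (t * t) + (-2 * ∫ g, f g * h g ∂gam n) * t +
      ∫ g, f g ^ 2 ∂gam n := by
    intro t
    have e : (∫ g, h g ^ 2 ∂gam n) * (t * t) + (-2 * ∫ g, f g * h g ∂gam n) * t + ∫ g, f g ^ 2 ∂gam n =
        ∫ g, (f g - t * h g) ^ 2 ∂gam n := by
      have e1 : ∀ g, (f g - t * h g) ^ 2 = (t * t) * h g ^ 2 + (-2 * t) * (f g * h g) + f g ^ 2 := by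
        intro g; ring
      simp only [e1]
      rw [integral_add (((PG.const _).mul (hh.pow 2)).add ((PG.const _).mul (hf.mul hh))).integrable
        (hf.pow 2).integrable,
        integral_add ((PG.const _).mul (hh.pow 2)).integrable ((PG.const _).mul (hf.mul hh)).integrable,
        integral_const_mul, integral_const_mul]
      ring
    rw [e]
    exact integral_nonneg fun g => sq_nonneg _
  have h2 := discrim_le_zero h1
  rw [discrim] at h2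
  rw [← Real.sqrt_mul (integral_nonneg fun g => sq_nonneg _)]
  apply Real.abs_le_sqrt
  nlinarith

/-- The integrand of Lemma W. -/
noncomputable def FT {Ω ι : Type} [Fintype Ω] (I : Finset ι) (a : ι → ℕ)
    (u v : ι → Ω → Pt n → Fin n → ℝ) (G : Ω → Pt n → ℝ) (c : Wt →₀ ℝ) (g : Pt n) : ℝ :=
  ∑ ω, G ω g * Ev ((∏ i ∈ I, Xf (u i ω g) (v i ω g) (a i)) * Sc n c) g

/-- The weighted `L²` norm of the test function. -/
noncomputable def AA {Ω : Type} [Fintype Ω] (p κ : ℕ) (G : Ω → Pt n → ℝ) : ℝ :=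
  Real.sqrt (∫ g, (∑ ω, |G ω g|) ^ 2 * rhoH p g ^ (2 * κ) ∂gam n)

theorem AA_nonneg {Ω : Type} [Fintype Ω] (p κ : ℕ) (G : Ω → Pt n → ℝ) : 0 ≤ AA p κ G :=
  Real.sqrt_nonneg _

theorem PG_FT {Ω ι : Type} [Fintype Ω] [DecidableEq ι] (I : Finset ι) (a : ι → ℕ)
    (u v : ι → Ω → Pt n → Fin n → ℝ) (G : Ω → Pt n → ℝ) (c : Wt →₀ ℝ)
    (hu : ∀ i ω, GoodV (u i ω)) (hv : ∀ i ω, GoodV (v i ω)) (hG : ∀ ω, PG (G ω)) :
    PG (FT I a u v G c) := by
  refine PG.finset_sum _ fun ω _ => (hG ω).mul ?_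
  exact PG_forms I a (fun i => u i ω) (fun i => v i ω) (fun i => hu i ω) (fun i => hv i ω) _

theorem PG_AA_integrand {Ω : Type} [Fintype Ω] {p : ℕ} (hp1 : 1 ≤ p) (κ : ℕ) {G : Ω → Pt n → ℝ}
    (hG : ∀ ω, PG (G ω)) : PG fun g => (∑ ω, |G ω g|) ^ 2 * rhoH p g ^ (2 * κ) :=
  ((PG.finset_sum _ fun ω _ => (hG ω).abs).pow 2).mul ((PG_rhoH hp1).pow _)

/-- Scaling of the test function. -/
theorem AA_scale {Ω : Type} [Fintype Ω] {p : ℕ} (hp1 : 1 ≤ p) {G G' : Ω → Pt n → ℝ} (C : ℝ) (e κ κ' : ℕ)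
    (hC : 0 ≤ C) (hG : ∀ ω, PG (G ω)) (hG' : ∀ ω, PG (G' ω))
    (hle : ∀ ω g, |G' ω g| ≤ C * rhoH p g ^ e * |G ω g|) (he : e + κ' ≤ κ) :
    AA p κ' G' ≤ C * AA p κ G := by
  have h1 : ∀ g, (∑ ω, |G' ω g|) ^ 2 * rhoH p g ^ (2 * κ') ≤
      C ^ 2 * ((∑ ω, |G ω g|) ^ 2 * rhoH p g ^ (2 * κ)) := by
    intro g
    have hρ := rhoH_ge_one p g
    have hρ0 : 0 ≤ rhoH p g := by linarith
    have h2 : ∑ ω, |G' ω g| ≤ C * rhoH p g ^ e * ∑ ω, |G ω g| := by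
      rw [Finset.mul_sum]
      exact Finset.sum_le_sum fun ω _ => hle ω g
    have h3 : 0 ≤ ∑ ω, |G' ω g| := Finset.sum_nonneg fun _ _ => abs_nonneg _
    have h4 : (∑ ω, |G' ω g|) ^ 2 ≤ (C * rhoH p g ^ e * ∑ ω, |G ω g|) ^ 2 :=
      pow_le_pow_left₀ h3 h2 2
    have h5 : rhoH p g ^ (2 * e) * rhoH p g ^ (2 * κ') ≤ rhoH p g ^ (2 * κ) := by
      rw [← pow_add]
      exact pow_le_pow_right₀ hρ (by omega)
    calc (∑ ω, |G' ω g|) ^ 2 * rhoH p g ^ (2 * κ')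
        ≤ (C * rhoH p g ^ e * ∑ ω, |G ω g|) ^ 2 * rhoH p g ^ (2 * κ') :=
          mul_le_mul_of_nonneg_right h4 (pow_nonneg hρ0 _)
      _ = C ^ 2 * (∑ ω, |G ω g|) ^ 2 * (rhoH p g ^ (2 * e) * rhoH p g ^ (2 * κ')) := by
          rw [pow_mul]; ring
      _ ≤ C ^ 2 * (∑ ω, |G ω g|) ^ 2 * rhoH p g ^ (2 * κ) :=
          mul_le_mul_of_nonneg_left h5 (by positivity)
      _ = _ := by ring
  have h2 := integral_mono (PG_AA_integrand hp1 κ' hG').integrable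
    ((PG.const (C ^ 2)).mul (PG_AA_integrand hp1 κ hG)).integrable h1
  rw [integral_const_mul] at h2
  have h3 := Real.sqrt_le_sqrt h2
  rw [Real.sqrt_mul (by positivity), Real.sqrt_sq hC] at h3
  exact h3

/-- The base case of Lemma W. -/
theorem lemmaW_base (hn : 0 < n) {p : ℕ} (hp1 : 1 ≤ p) (hp : 1000 * (p + 1) ^ 6 ≤ n)
    {Ω ι : Type} [Fintype Ω] (κ : ℕ) (hκ : κ ≤ p)
    (G : Ω → Pt n → ℝ) (c : Wt →₀ ℝ) (hG : ∀ ω, PG (G ω))
    (hc : ∀ ν ∈ c.support, dg ν ≤ κ) (a : ι → ℕ) (u v : ι → Ω → Pt n → Fin n → ℝ) :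
    |∫ g, FT ∅ a u v G c g ∂gam n| ≤ 2 * nrm c * AA p κ G := by
  have hS := sc_bound hn hp (gaussWF n) c (fun ν hν => (hc ν hν).trans hκ)
  rw [gaussWF_apply] at hS
  have hPE : PG (Ev (Sc n c)) := PG_Ev _
  have hPs : PG fun g => (∑ ω, |G ω g|) * rhoH p g ^ κ :=
    (PG.finset_sum _ fun ω _ => (hG ω).abs).mul ((PG_rhoH hp1).pow _)
  have hF : ∀ g, FT ∅ a u v G c g = (∑ ω, G ω g) * Ev (Sc n c) g := by
    intro g
    simp [FT, Finset.sum_mul]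
  have hFle : ∀ g, |FT ∅ a u v G c g| ≤ ((∑ ω, |G ω g|) * rhoH p g ^ κ) * |Ev (Sc n c) g| := by
    intro g
    rw [hF, abs_mul]
    refine mul_le_mul_of_nonneg_right ?_ (abs_nonneg _)
    have h1 : |∑ ω, G ω g| ≤ ∑ ω, |G ω g| := Finset.abs_sum_le_sum_abs _ _
    have h2 : 1 ≤ rhoH p g ^ κ := one_le_pow₀ (rhoH_ge_one p g)
    have h3 : 0 ≤ ∑ ω, |G ω g| := Finset.sum_nonneg fun _ _ => abs_nonneg _
    nlinarith
  have hPF : PG (FT ∅ a u v G c) := by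
    have : FT ∅ a u v G c = fun g => (∑ ω, G ω g) * Ev (Sc n c) g := funext hF
    rw [this]
    exact (PG.finset_sum _ fun ω _ => hG ω).mul hPE
  have h1 : |∫ g, FT ∅ a u v G c g ∂gam n| ≤
      ∫ g, ((∑ ω, |G ω g|) * rhoH p g ^ κ) * |Ev (Sc n c) g| ∂gam n :=
    (abs_integral_le_integral_abs).trans
      (integral_mono hPF.abs.integrable (hPs.mul hPE.abs).integrable hFle)
  have h2 := PG.cauchy hPs hPE.abs
  have h3 : ∫ g, ((∑ ω, |G ω g|) * rhoH p g ^ κ) ^ 2 ∂gam n =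
      ∫ g, (∑ ω, |G ω g|) ^ 2 * rhoH p g ^ (2 * κ) ∂gam n := by
    congr 1
    ext g
    rw [mul_pow, pow_mul' _ 2 κ]
  have h4 : ∫ g, |Ev (Sc n c) g| ^ 2 ∂gam n ≤ 3 * nrm2 c := by
    have : ∀ g, |Ev (Sc n c) g| ^ 2 = Ev (Sc n c) g * Ev (Sc n c) g := by
      intro g; rw [sq_abs, sq]
    simp only [this]
    exact hS
  have hnrm : nrm2 c = nrm c ^ 2 := by
    rw [nrm, Real.sq_sqrt]
    exact Finset.sum_nonneg fun _ _ => sq_nonneg _
  have h5 : Real.sqrt (∫ g, |Ev (Sc n c) g| ^ 2 ∂gam n) ≤ 2 * nrm c := by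
    apply Real.sqrt_le_iff.mpr
    refine ⟨by have := Real.sqrt_nonneg (nrm2 c); rw [nrm]; positivity, ?_⟩
    rw [mul_pow, ← hnrm]
    have : 0 ≤ nrm2 c := Finset.sum_nonneg fun _ _ => sq_nonneg _
    nlinarith
  have h6 : 0 ≤ AA p κ G := AA_nonneg _ _ _
  calc _ ≤ _ := h1
    _ ≤ |∫ g, ((∑ ω, |G ω g|) * rhoH p g ^ κ) * |Ev (Sc n c) g| ∂gam n| := le_abs_self _
    _ ≤ _ := h2
    _ = AA p κ G * Real.sqrt (∫ g, |Ev (Sc n c) g| ^ 2 ∂gam n) := by rw [h3, AA]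
    _ ≤ AA p κ G * (2 * nrm c) := mul_le_mul_of_nonneg_left h5 h6
    _ = _ := by ring

end Vale.Agent.Lib.P146
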