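import Vale.Agent.Lib.P146.LemWC

/-! Module F, the main induction step: main term and error terms. -/

set_option autoImplicit false
open MeasureTheory MvPolynomial

namespace Vale.Agent.Lib.P146

variable {n : ℕ}

/-- The statement of Lemma W for fixed `I`, `κ`. -/
def WClaim (n p : ℕ) (Ω : Type) {ι : Type} [Fintype Ω] (I : Finset ι) (κ : ℕ) : Prop :=
  ∀ (a : ι → ℕ) (u v : ι → Ω → Pt n → Fin n → ℝ) (G : Ω → Pt n → ℝ) (c : Wt →₀ ℝ),
    (∀ i ω, GoodV (u i ω)) → (∀ i ω, GoodV (v i ω)) → (∀ ω, PG (G ω)) →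
    (∀ ν ∈ c.support, ∑ i ∈ I, a i + dg ν ≤ κ) →
    |∫ g, FT I a u v G c g ∂gam n| ≤
      2 * 2 ^ I.card * (∏ i ∈ I, ((a i : ℝ) + 1)) * nrm c * AA p κ G

theorem nrm_nonneg' {A : Type*} (c : A →₀ ℝ) : 0 ≤ nrm c := Real.sqrt_nonneg _

/-- Bound for the Chebyshev bilinear form. -/
theorem cheb_form_bound (hn : 0 < n) {p A : ℕ} (hp1 : 1 ≤ p) (hA : A ≤ p) (g : Pt n)
    (s t : Fin n → ℝ) (hs : ∑ x, s x ^ 2 ≤ n) (ht : ∑ x, t x ^ 2 ≤ n) :
    |(1 / (n : ℝ)) * ∑ x, ∑ y, s x * t y * chebM (Jh g) A x y| ≤ ((A : ℝ) + 1) * rhoH p g ^ A := by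
  have hn' : (0 : ℝ) < n := Nat.cast_pos.mpr hn
  have hρ : 0 ≤ rhoH p g := by linarith [rhoH_ge_one p g]
  set M : ℝ := ((A : ℝ) + 1) * rhoH p g ^ A with hM
  have hM0 : 0 ≤ M := by positivity
  have e : ∑ x, ∑ y, s x * t y * chebM (Jh g) A x y =
      ∑ x, s x * (chebM (Jh g) A).mulVec t x := by
    refine Finset.sum_congr rfl fun x _ => ?_
    simp only [Matrix.mulVec, dotProduct, Finset.mul_sum]
    refine Finset.sum_congr rfl fun y _ => ?_
    ring
  have h1 := Finset.sum_mul_sq_le_sq_mul_sq Finset.univ s ((chebM (Jh g) A).mulVec t)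
  have h2 := spectral_bound hp1 hA g t
  have h3 : (∑ x, s x * (chebM (Jh g) A).mulVec t x) ^ 2 ≤ ((n : ℝ) * M) ^ 2 := by
    calc _ ≤ _ := h1
      _ ≤ (n : ℝ) * (M ^ 2 * n) := by
        refine mul_le_mul hs (h2.trans ?_) (Finset.sum_nonneg fun _ _ => sq_nonneg _) hn'.le
        exact mul_le_mul_of_nonneg_left ht (sq_nonneg _)
      _ = _ := by ring
  have h4 := abs_le_of_sq_le_sq h3 (by positivity)
  rw [abs_mul, e, abs_of_pos (by positivity : (0 : ℝ) < 1 / n)]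
  calc _ ≤ 1 / (n : ℝ) * ((n : ℝ) * M) := mul_le_mul_of_nonneg_left h4 (by positivity)
    _ = M := by field_simp

/-- The test function of the main term. -/
noncomputable def mainG (A : ℕ) (s t : Pt n → Fin n → ℝ) (G : Pt n → ℝ) (g : Pt n) : ℝ :=
  G g * ((1 / (n : ℝ)) * ∑ x, ∑ y, s g x * t g y * chebM (Jh g) A x y)

theorem mainG_PG (hn : 0 < n) {p A : ℕ} (hp1 : 1 ≤ p) (hA : A ≤ p) {s t : Pt n → Fin n → ℝ}
    {G : Pt n → ℝ} (hs : GoodV s) (ht : GoodV t) (hG : PG G) : PG (mainG A s t G) := by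
  have hm : Measurable fun g : Pt n => (1 / (n : ℝ)) * ∑ x, ∑ y, s g x * t g y * chebM (Jh g) A x y := by
    refine Measurable.const_mul ?_ _
    refine Finset.measurable_sum _ fun x _ => Finset.measurable_sum _ fun y _ => ?_
    exact ((hs.1 x).mul (ht.1 y)).mul (PG_chebM_entry A x y).1
  refine PG.of_le (hG.1.mul hm)
    (((PG.const ((A : ℝ) + 1)).mul ((PG_rhoH hp1).pow A)).mul hG) fun g => ?_
  simp only [mainG]
  have h1 := cheb_form_bound hn hp1 hA g (s g) (t g) (hs.2 g) (ht.2 g)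
  rw [abs_mul (G g), abs_mul (((A : ℝ) + 1) * rhoH p g ^ A), mul_comm]
  exact mul_le_mul_of_nonneg_right (h1.trans (le_abs_self _)) (abs_nonneg _)

theorem mainG_le (hn : 0 < n) {p A : ℕ} (hp1 : 1 ≤ p) (hA : A ≤ p) {s t : Pt n → Fin n → ℝ}
    {G : Pt n → ℝ} (hs : GoodV s) (ht : GoodV t) (g : Pt n) :
    |mainG A s t G g| ≤ ((A : ℝ) + 1) * rhoH p g ^ A * |G g| := by
  have h1 := cheb_form_bound hn hp1 hA g (s g) (t g) (hs.2 g) (ht.2 g)
  simp only [mainG]
  rw [abs_mul, mul_comm]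
  exact mul_le_mul_of_nonneg_right h1 (abs_nonneg _)

/-- The pointwise decomposition. -/
theorem FT_decomp (hn : 0 < n) {Ω ι : Type} [Fintype Ω] [DecidableEq ι] (I : Finset ι) {i₁ : ι}
    (hi : i₁ ∈ I) (a : ι → ℕ) (u v : ι → Ω → Pt n → Fin n → ℝ) (G : Ω → Pt n → ℝ)
    (c : Wt →₀ ℝ) (g : Pt n) :
    FT I a u v G c g =
      FT (I.erase i₁) a u v (fun ω => mainG (a i₁) (u i₁ ω) (v i₁ ω) (G ω)) c g -
      ∑ b ∈ Finset.range (a i₁), ∑ ω, G ω g * Ev (ErrQ
        ((chebM (Jh g) (a i₁ - 1 - b)).mulVec (u i₁ ω g)) (v i₁ ω g) b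
        ((∏ k ∈ I.erase i₁, Xf (u k ω g) (v k ω g) (a k)) * Sc n c)) g := by
  simp only [FT]
  rw [Finset.sum_comm, ← Finset.sum_sub_distrib]
  refine Finset.sum_congr rfl fun ω _ => ?_
  rw [← Finset.mul_prod_erase I _ hi, mul_assoc, Ev_Xf_mul hn, ← Finset.mul_sum]
  simp only [mainG]
  ring

/-- The rescaling weight. -/
noncomputable def fw (p d : ℕ) (g : Pt n) : ℝ := ((d : ℝ) + 1) * rhoH p g ^ d

theorem fw_pos (p d : ℕ) (g : Pt n) : 0 < fw p d g := by
  have := rhoH_ge_one p g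
  unfold fw
  positivity

theorem PG_fw {p : ℕ} (hp1 : 1 ≤ p) (d : ℕ) : PG (fw (n := n) p d) :=
  (PG.const _).mul ((PG_rhoH hp1).pow d)

/-- The rescaled vector field `f⁻¹ U_d w`. -/
noncomputable def uS (p d : ℕ) (w : Pt n → Fin n → ℝ) (g : Pt n) (x : Fin n) : ℝ :=
  (fw p d g)⁻¹ * (chebM (Jh g) d).mulVec (w g) x

theorem GoodV_uS {p d : ℕ} (hp1 : 1 ≤ p) (hd : d ≤ p) {w : Pt n → Fin n → ℝ} (hw : GoodV w) :
    GoodV (uS p d w) := by
  constructor
  · intro x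
    refine ((PG_fw hp1 d).1.inv).mul ?_
    simp only [Matrix.mulVec, dotProduct]
    exact Finset.measurable_sum _ fun y _ => ((PG_chebM_entry d x y).1).mul (hw.1 y)
  · intro g
    have hf := fw_pos p d g
    have h1 := spectral_bound hp1 hd g (w g)
    have h2 : ∑ x, (uS p d w g x) ^ 2 = ((fw p d g) ^ 2)⁻¹ *
        ∑ x, ((chebM (Jh g) d).mulVec (w g) x) ^ 2 := by
      rw [Finset.mul_sum]
      refine Finset.sum_congr rfl fun x _ => ?_
      simp only [uS]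
      rw [mul_pow, inv_pow]
    rw [h2]
    have h3 : ∑ x, ((chebM (Jh g) d).mulVec (w g) x) ^ 2 ≤ (fw p d g) ^ 2 * n :=
      h1.trans (mul_le_mul_of_nonneg_left (hw.2 g) (sq_nonneg _))
    calc _ ≤ ((fw p d g) ^ 2)⁻¹ * ((fw p d g) ^ 2 * n) :=
          mul_le_mul_of_nonneg_left h3 (by positivity)
      _ = n := by field_simp

theorem uS_scale (p d : ℕ) (w : Pt n → Fin n → ℝ) (g : Pt n) :
    (chebM (Jh g) d).mulVec (w g) = fun x => fw p d g * uS p d w g x := by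
  ext x
  have hf := fw_pos p d g
  simp only [uS]
  field_simp

theorem good_upd {Ω ι : Type} [DecidableEq ι] {F : ι → Ω → Pt n → Fin n → ℝ}
    (hF : ∀ k ω, GoodV (F k ω)) (i : ι) {w : Ω → Pt n → Fin n → ℝ} (hw : ∀ ω, GoodV (w ω)) :
    ∀ k ω, GoodV (Function.update F i w k ω) := by
  intro k ω
  by_cases h : k = i
  · subst h; simpa using hw ω
  · rw [Function.update_of_ne h]; exact hF k ω

/-! Linear bookkeeping for `Φ_g(P) = ∑ ω, G ω * Ev (P ω) g`. -/

section Phi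
variable {Ω : Type} [Fintype Ω]

theorem Phi_add (G : Ω → ℝ) (g : Pt n) (P P' : Ω → Rr n) :
    ∑ ω, G ω * Ev (P ω + P' ω) g = ∑ ω, G ω * Ev (P ω) g + ∑ ω, G ω * Ev (P' ω) g := by
  rw [← Finset.sum_add_distrib]
  refine Finset.sum_congr rfl fun ω _ => ?_
  rw [Ev_add]; ring

theorem Phi_C (G : Ω → ℝ) (g : Pt n) (k : ℝ) (P : Ω → Rr n) :
    ∑ ω, G ω * Ev (C k * P ω) g = k * ∑ ω, G ω * Ev (P ω) g := by
  rw [Finset.mul_sum]
  refine Finset.sum_congr rfl fun ω _ => ?_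
  rw [Ev_C_mul]; ring

theorem Phi_sum {α : Type*} (S : Finset α) (G : Ω → ℝ) (g : Pt n) (P : Ω → α → Rr n) :
    ∑ ω, G ω * Ev (∑ j ∈ S, P ω j) g = ∑ j ∈ S, ∑ ω, G ω * Ev (P ω j) g := by
  rw [Finset.sum_comm]
  refine Finset.sum_congr rfl fun ω _ => ?_
  rw [Ev_sum, Finset.mul_sum]

end Phi

/-! Products of forms with updated slots. -/

section Prods
variable {Ω ι : Type} [DecidableEq ι] {I : Finset ι} {i₁ i : ι}

theorem prod_one (hi : i₁ ∈ I) (a : ι → ℕ) (u v : ι → Ω → Pt n → Fin n → ℝ)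
    (x : Ω → Pt n → Fin n → ℝ) (m : ℕ) (ω : Ω) (g : Pt n) :
    ∏ k ∈ I, Xf (Function.update u i₁ x k ω g) (v k ω g) (Function.update a i₁ m k) =
      Xf (x ω g) (v i₁ ω g) m * ∏ k ∈ I.erase i₁, Xf (u k ω g) (v k ω g) (a k) := by
  rw [← Finset.mul_prod_erase I _ hi]
  simp only [Function.update_self]
  congr 1
  refine Finset.prod_congr rfl fun k hk => ?_
  have hk' := Finset.ne_of_mem_erase hk
  rw [Function.update_of_ne hk', Function.update_of_ne hk']

theorem prod_fourA (hi₁ : i₁ ∈ I) (hi : i ∈ I.erase i₁) (a : ι → ℕ)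
    (u v : ι → Ω → Pt n → Fin n → ℝ) (x : Ω → Pt n → Fin n → ℝ) (r m : ℕ) (ω : Ω) (g : Pt n) :
    ∏ k ∈ I, Xf (Function.update (Function.update u i₁ x) i (v i₁) k ω g)
        (Function.update v i₁ (u i) k ω g)
        (Function.update (Function.update a i₁ r) i m k) =
      Xf (x ω g) (u i ω g) r * (Xf (v i₁ ω g) (v i ω g) m *
        ∏ k ∈ (I.erase i₁).erase i, Xf (u k ω g) (v k ω g) (a k)) := by
  have hne : i ≠ i₁ := Finset.ne_of_mem_erase hi
  rw [← Finset.mul_prod_erase I _ hi₁, ← Finset.mul_prod_erase (I.erase i₁) _ hi]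
  simp only [Function.update_self, Function.update_of_ne hne, Function.update_of_ne hne.symm]
  congr 2
  refine Finset.prod_congr rfl fun k hk => ?_
  have hk1 := Finset.ne_of_mem_erase hk
  have hk2 := Finset.ne_of_mem_erase (Finset.mem_of_mem_erase hk)
  simp only [Function.update_of_ne hk1, Function.update_of_ne hk2]

theorem prod_fourB (hi₁ : i₁ ∈ I) (hi : i ∈ I.erase i₁) (a : ι → ℕ)
    (u v : ι → Ω → Pt n → Fin n → ℝ) (x : Ω → Pt n → Fin n → ℝ) (r m : ℕ) (ω : Ω) (g : Pt n) :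
    ∏ k ∈ I, Xf (Function.update u i₁ x k ω g)
        (Function.update (Function.update v i₁ (v i)) i (v i₁) k ω g)
        (Function.update (Function.update a i₁ r) i m k) =
      Xf (x ω g) (v i ω g) r * (Xf (u i ω g) (v i₁ ω g) m *
        ∏ k ∈ (I.erase i₁).erase i, Xf (u k ω g) (v k ω g) (a k)) := by
  have hne : i ≠ i₁ := Finset.ne_of_mem_erase hi
  rw [← Finset.mul_prod_erase I _ hi₁, ← Finset.mul_prod_erase (I.erase i₁) _ hi]
  simp only [Function.update_self, Function.update_of_ne hne, Function.update_of_ne hne.symm]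
  congr 2
  refine Finset.prod_congr rfl fun k hk => ?_
  have hk1 := Finset.ne_of_mem_erase hk
  have hk2 := Finset.ne_of_mem_erase (Finset.mem_of_mem_erase hk)
  simp only [Function.update_of_ne hk1, Function.update_of_ne hk2]

theorem sum_one (hi : i₁ ∈ I) (a : ι → ℕ) (m : ℕ) :
    ∑ k ∈ I, Function.update a i₁ m k = m + ∑ k ∈ I.erase i₁, a k := by
  rw [← Finset.add_sum_erase I _ hi]
  simp only [Function.update_self]
  congr 1
  refine Finset.sum_congr rfl fun k hk => ?_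
  rw [Function.update_of_ne (Finset.ne_of_mem_erase hk)]

theorem prod_one_num (hi : i₁ ∈ I) (a : ι → ℕ) (m : ℕ) :
    ∏ k ∈ I, (((Function.update a i₁ m k : ℕ) : ℝ) + 1) =
      ((m : ℝ) + 1) * ∏ k ∈ I.erase i₁, ((a k : ℝ) + 1) := by
  rw [← Finset.mul_prod_erase I _ hi]
  simp only [Function.update_self]
  congr 1
  refine Finset.prod_congr rfl fun k hk => ?_
  rw [Function.update_of_ne (Finset.ne_of_mem_erase hk)]

theorem sum_two (hi₁ : i₁ ∈ I) (hi : i ∈ I.erase i₁) (a : ι → ℕ) (r m : ℕ) :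
    ∑ k ∈ I, Function.update (Function.update a i₁ r) i m k =
      r + (m + ∑ k ∈ (I.erase i₁).erase i, a k) := by
  have hne : i ≠ i₁ := Finset.ne_of_mem_erase hi
  rw [← Finset.add_sum_erase I _ hi₁, ← Finset.add_sum_erase (I.erase i₁) _ hi]
  simp only [Function.update_self, Function.update_of_ne hne.symm]
  congr 2
  refine Finset.sum_congr rfl fun k hk => ?_
  have hk1 := Finset.ne_of_mem_erase hk
  have hk2 := Finset.ne_of_mem_erase (Finset.mem_of_mem_erase hk)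
  rw [Function.update_of_ne hk1, Function.update_of_ne hk2]

theorem prod_two_num (hi₁ : i₁ ∈ I) (hi : i ∈ I.erase i₁) (a : ι → ℕ) (r m : ℕ) :
    ∏ k ∈ I, (((Function.update (Function.update a i₁ r) i m k : ℕ) : ℝ) + 1) =
      ((r : ℝ) + 1) * (((m : ℝ) + 1) * ∏ k ∈ (I.erase i₁).erase i, ((a k : ℝ) + 1)) := by
  have hne : i ≠ i₁ := Finset.ne_of_mem_erase hi
  rw [← Finset.mul_prod_erase I _ hi₁, ← Finset.mul_prod_erase (I.erase i₁) _ hi]
  simp only [Function.update_self, Function.update_of_ne hne.symm]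
  congr 2
  refine Finset.prod_congr rfl fun k hk => ?_
  have hk1 := Finset.ne_of_mem_erase hk
  have hk2 := Finset.ne_of_mem_erase (Finset.mem_of_mem_erase hk)
  rw [Function.update_of_ne hk1, Function.update_of_ne hk2]

end Prods

end Vale.Agent.Lib.P146
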