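import Vale.Agent.Lib.P146.Cheb

/-! Module F (algebra part): Chebyshev inversion for the Wick matrices. -/

set_option autoImplicit false
open MeasureTheory MvPolynomial

namespace Vale.Agent.Lib.P146

variable {n : ℕ}

/-- Error matrix polynomial of the recursion for `𝐓^{b+1} Q`. -/
noncomputable def errMat (Q : Rr n) (b : ℕ) (x y : Fin n) : Rr n :=
  C ((b : ℝ) / n) * ((TT n ^ (b - 1)) x y * Q)
  + C (1 / (n : ℝ)) * ∑ j ∈ Finset.range (b - 1), (TT n ^ (b - 2 - j)) x y * (Trc n j * Q)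
  + C (Real.sqrt n)⁻¹ * ∑ z, (TT n ^ b) z y * DD x z Q

/-- The contraction identity in uniform form. -/
theorem contract_errMat (hn : 0 < n) (Q : Rr n) (b : ℕ) (x y : Fin n) :
    C (Real.sqrt n)⁻¹ * ∑ z, DD x z ((TT n ^ b) z y * Q) =
      (if b = 0 then 0 else (TT n ^ (b - 1)) x y * Q) + errMat Q b x y := by
  cases b with
  | zero =>
    rw [DD_contract_zero]
    simp only [if_true, zero_add, errMat]
    have h : ∑ z, (TT n ^ 0) z y * DD x z Q = DD x y Q := by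
      simp [Matrix.one_apply]
    rw [h]
    simp
  | succ a =>
    rw [DD_contract hn a x y Q]
    simp only [errMat, Nat.add_sub_cancel, Nat.succ_ne_zero, if_false]
    have h1 : C (1 + ((a : ℝ) + 1) / n) * ((TT n ^ a) x y * Q) =
        (TT n ^ a) x y * Q + C (((a + 1 : ℕ) : ℝ) / n) * ((TT n ^ a) x y * Q) := by
      rw [C_add, add_mul]
      simp
    rw [h1]
    have h2 : ∀ j, a + 1 - 2 - j = a - 1 - j := by intro j; omega
    simp only [h2]
    ring

/-- The realised Wick matrices. -/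
noncomputable def EE (g : Pt n) (Q : Rr n) (a : ℕ) : Matrix (Fin n) (Fin n) ℝ :=
  Matrix.of fun x y => Ev ((TT n ^ a) x y * Q) g

/-- The realised error matrices. -/
noncomputable def ErrM (g : Pt n) (Q : Rr n) (b : ℕ) : Matrix (Fin n) (Fin n) ℝ :=
  Matrix.of fun x y => Ev (errMat Q b x y) g

theorem EE_succ_apply (hn : 0 < n) (g : Pt n) (Q : Rr n) (b : ℕ) (x y : Fin n) :
    EE g Q (b + 1) x y = (Jh g * EE g Q b) x y
      - (if b = 0 then 0 else EE g Q (b - 1) x y) - ErrM g Q b x y := by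
  have hexp : (TT n ^ (b + 1)) x y * Q = ∑ z, TT n x z * ((TT n ^ b) z y * Q) := by
    rw [pow_succ', Matrix.mul_apply, Finset.sum_mul]
    exact Finset.sum_congr rfl fun z _ => mul_assoc _ _ _
  have h1 : EE g Q (b + 1) x y = ∑ z, (Jh g x z * Ev ((TT n ^ b) z y * Q) g
      - (Real.sqrt n)⁻¹ * Ev (DD x z ((TT n ^ b) z y * Q)) g) := by
    simp only [EE, Matrix.of_apply]
    rw [hexp, Ev_sum]
    exact Finset.sum_congr rfl fun z _ => Ev_TT_mul x z _ g
  rw [h1, Finset.sum_sub_distrib]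
  have h2 : ∑ z, Jh g x z * Ev ((TT n ^ b) z y * Q) g = (Jh g * EE g Q b) x y := by
    simp [EE, Matrix.mul_apply]
  have h3 : ∑ z, (Real.sqrt n)⁻¹ * Ev (DD x z ((TT n ^ b) z y * Q)) g =
      Ev (C (Real.sqrt n)⁻¹ * ∑ z, DD x z ((TT n ^ b) z y * Q)) g := by
    rw [Ev_C_mul, Ev_sum, Finset.mul_sum]
  rw [h2, h3, contract_errMat hn, Ev_add]
  by_cases hb : b = 0
  · simp [hb, ErrM]
  · simp [hb, EE, ErrM]
    ring

theorem EE_one (hn : 0 < n) (g : Pt n) (Q : Rr n) :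
    EE g Q 1 = Jh g * EE g Q 0 - ErrM g Q 0 := by
  ext x y
  simpa using EE_succ_apply hn g Q 0 x y

theorem EE_add_two (hn : 0 < n) (g : Pt n) (Q : Rr n) (a : ℕ) :
    EE g Q (a + 2) = Jh g * EE g Q (a + 1) - EE g Q a - ErrM g Q (a + 1) := by
  ext x y
  simpa using EE_succ_apply hn g Q (a + 1) x y

/-- Chebyshev inversion. -/
theorem EE_inv (hn : 0 < n) (g : Pt n) (Q : Rr n) (a : ℕ) :
    EE g Q a = chebM (Jh g) a * EE g Q 0 -
      ∑ b ∈ Finset.range a, chebM (Jh g) (a - 1 - b) * ErrM g Q b := by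
  induction a using Nat.twoStepInduction with
  | zero => simp [chebM]
  | one => simp [chebM, EE_one hn]
  | more a ih0 ih1 =>
    rw [EE_add_two hn, ih1, ih0]
    have hc : chebM (Jh g) (a + 2) = Jh g * chebM (Jh g) (a + 1) - chebM (Jh g) a := rfl
    have hs : ∑ b ∈ Finset.range a, chebM (Jh g) (a + 2 - 1 - b) * ErrM g Q b =
        Jh g * (∑ b ∈ Finset.range a, chebM (Jh g) (a + 1 - 1 - b) * ErrM g Q b)
        - ∑ b ∈ Finset.range a, chebM (Jh g) (a - 1 - b) * ErrM g Q b := by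
      rw [Finset.mul_sum, ← Finset.sum_sub_distrib]
      refine Finset.sum_congr rfl fun b hb => ?_
      have hb' : b < a := Finset.mem_range.mp hb
      obtain ⟨d, rfl⟩ : ∃ d, a = b + d + 1 := ⟨a - b - 1, by omega⟩
      have e1 : b + d + 1 + 2 - 1 - b = d + 2 := by omega
      have e2 : b + d + 1 + 1 - 1 - b = d + 1 := by omega
      have e3 : b + d + 1 - 1 - b = d := by omega
      rw [e1, e2, e3]
      have : chebM (Jh g) (d + 2) = Jh g * chebM (Jh g) (d + 1) - chebM (Jh g) d := rfl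
      rw [this, Matrix.sub_mul, Matrix.mul_assoc]
    have s2 : ∑ b ∈ Finset.range (a + 2), chebM (Jh g) (a + 2 - 1 - b) * ErrM g Q b =
        ∑ b ∈ Finset.range a, chebM (Jh g) (a + 2 - 1 - b) * ErrM g Q b
        + Jh g * ErrM g Q a + ErrM g Q (a + 1) := by
      rw [Finset.sum_range_succ, Finset.sum_range_succ]
      have e1 : a + 2 - 1 - (a + 1) = 0 := by omega
      have e2 : a + 2 - 1 - a = 1 := by omega
      rw [e1, e2]
      have c0 : chebM (Jh g) 0 = 1 := rfl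
      have c1 : chebM (Jh g) 1 = Jh g := rfl
      rw [c0, c1, Matrix.one_mul]
    have s1 : ∑ b ∈ Finset.range (a + 1), chebM (Jh g) (a + 1 - 1 - b) * ErrM g Q b =
        ∑ b ∈ Finset.range a, chebM (Jh g) (a + 1 - 1 - b) * ErrM g Q b + ErrM g Q a := by
      rw [Finset.sum_range_succ]
      have e1 : a + 1 - 1 - a = 0 := by omega
      rw [e1]
      have c0 : chebM (Jh g) 0 = 1 := rfl
      rw [c0, Matrix.one_mul]
    rw [s2, s1, hs, hc]
    simp only [Matrix.mul_sub, Matrix.mul_add, Matrix.sub_mul, Matrix.mul_assoc]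
    abel

/-! ### Bilinear forms -/

/-- Real bilinear form. -/
noncomputable def dotq (u : Fin n → ℝ) (M : Matrix (Fin n) (Fin n) ℝ) (v : Fin n → ℝ) : ℝ :=
  ∑ x, ∑ y, u x * v y * M x y

/-- Polynomial bilinear form. -/
noncomputable def bil (x y : Fin n → ℝ) (F : Fin n → Fin n → Rr n) : Rr n :=
  ∑ p, ∑ q, C (x p * y q) * F p q

theorem Xf_eq_bil (u v : Fin n → ℝ) (a : ℕ) :
    Xf u v a = C (1 / (n : ℝ)) * bil u v (fun p q => (TT n ^ a) p q) := rfl

theorem bil_add (x y : Fin n → ℝ) (F F' : Fin n → Fin n → Rr n) :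
    bil x y (fun p q => F p q + F' p q) = bil x y F + bil x y F' := by
  simp only [bil, mul_add, Finset.sum_add_distrib]

theorem bil_C_mul (x y : Fin n → ℝ) (r : ℝ) (F : Fin n → Fin n → Rr n) :
    bil x y (fun p q => C r * F p q) = C r * bil x y F := by
  simp only [bil, Finset.mul_sum]
  refine Finset.sum_congr rfl fun p _ => Finset.sum_congr rfl fun q _ => ?_
  ring

theorem bil_mul_right (x y : Fin n → ℝ) (F : Fin n → Fin n → Rr n) (Q : Rr n) :
    bil x y (fun p q => F p q * Q) = bil x y F * Q := by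
  simp only [bil, Finset.sum_mul]
  refine Finset.sum_congr rfl fun p _ => Finset.sum_congr rfl fun q _ => ?_
  ring

theorem bil_sum {ι : Type*} (s : Finset ι) (x y : Fin n → ℝ) (F : ι → Fin n → Fin n → Rr n) :
    bil x y (fun p q => ∑ j ∈ s, F j p q) = ∑ j ∈ s, bil x y (F j) := by
  simp only [bil, Finset.mul_sum]
  symm
  calc ∑ j ∈ s, ∑ p, ∑ q, C (x p * y q) * F j p q
      = ∑ p, ∑ j ∈ s, ∑ q, C (x p * y q) * F j p q := Finset.sum_comm
    _ = ∑ p, ∑ q, ∑ j ∈ s, C (x p * y q) * F j p q :=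
        Finset.sum_congr rfl fun p _ => Finset.sum_comm

theorem bil_smul_left (ζ : ℝ) (x y : Fin n → ℝ) (F : Fin n → Fin n → Rr n) :
    bil (ζ • x) y F = C ζ * bil x y F := by
  simp only [bil, Finset.mul_sum, Pi.smul_apply, smul_eq_mul]
  refine Finset.sum_congr rfl fun p _ => Finset.sum_congr rfl fun q _ => ?_
  rw [mul_assoc ζ, C_mul, mul_assoc]

theorem Xf_smul_left (ζ : ℝ) (x y : Fin n → ℝ) (a : ℕ) :
    Xf (ζ • x) y a = C ζ * Xf x y a := by
  rw [Xf_eq_bil, Xf_eq_bil, bil_smul_left]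
  ring

/-- `Ev` of a bilinear form. -/
theorem Ev_bil (x y : Fin n → ℝ) (F : Fin n → Fin n → Rr n) (g : Pt n) :
    Ev (bil x y F) g = ∑ p, ∑ q, x p * y q * Ev (F p q) g := by
  simp only [bil]
  rw [Ev_sum]
  refine Finset.sum_congr rfl fun p _ => ?_
  rw [Ev_sum]
  refine Finset.sum_congr rfl fun q _ => ?_
  rw [Ev_C_mul]

theorem Ev_Xf_mul (u v : Fin n → ℝ) (a : ℕ) (Q : Rr n) (g : Pt n) :
    Ev (Xf u v a * Q) g = (1 / (n : ℝ)) * dotq u (EE g Q a) v := by
  rw [Xf_eq_bil, mul_assoc, Ev_C_mul, ← bil_mul_right, Ev_bil]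
  simp only [dotq, EE, Matrix.of_apply]

/-- The error polynomial. -/
noncomputable def errPoly (x y : Fin n → ℝ) (b : ℕ) (Q : Rr n) : Rr n :=
  C (1 / (n : ℝ)) * bil x y (errMat Q b)

theorem Ev_errPoly (x y : Fin n → ℝ) (b : ℕ) (Q : Rr n) (g : Pt n) :
    Ev (errPoly x y b Q) g = (1 / (n : ℝ)) * dotq x (ErrM g Q b) y := by
  rw [errPoly, Ev_C_mul, Ev_bil]
  simp only [dotq, ErrM, Matrix.of_apply]

theorem errPoly_smul_left (ζ : ℝ) (x y : Fin n → ℝ) (b : ℕ) (Q : Rr n) :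
    errPoly (ζ • x) y b Q = C ζ * errPoly x y b Q := by
  rw [errPoly, errPoly, bil_smul_left]
  ring

theorem dotq_sub (u v : Fin n → ℝ) (M N : Matrix (Fin n) (Fin n) ℝ) :
    dotq u (M - N) v = dotq u M v - dotq u N v := by
  simp only [dotq, Matrix.sub_apply, mul_sub, Finset.sum_sub_distrib]

theorem dotq_sum {ι : Type*} (s : Finset ι) (u v : Fin n → ℝ)
    (M : ι → Matrix (Fin n) (Fin n) ℝ) :
    dotq u (∑ j ∈ s, M j) v = ∑ j ∈ s, dotq u (M j) v := by
  classical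
  induction s using Finset.induction_on with
  | empty => simp [dotq]
  | insert a s ha ih =>
    rw [Finset.sum_insert ha, Finset.sum_insert ha, ← ih]
    simp only [dotq, Matrix.add_apply, mul_add, Finset.sum_add_distrib]

theorem dotq_mul (u v : Fin n → ℝ) (U M : Matrix (Fin n) (Fin n) ℝ) (hU : U.IsSymm) :
    dotq u (U * M) v = dotq (U.mulVec u) M v := by
  simp only [dotq, Matrix.mul_apply, Matrix.mulVec, dotProduct, Finset.mul_sum, Finset.sum_mul]
  calc ∑ x, ∑ y, ∑ z, u x * v y * (U x z * M z y)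
      = ∑ x, ∑ z, ∑ y, u x * v y * (U x z * M z y) :=
        Finset.sum_congr rfl fun x _ => Finset.sum_comm
    _ = ∑ z, ∑ x, ∑ y, u x * v y * (U x z * M z y) := Finset.sum_comm
    _ = ∑ z, ∑ y, ∑ x, u x * v y * (U x z * M z y) :=
        Finset.sum_congr rfl fun z _ => Finset.sum_comm
    _ = ∑ z, ∑ y, ∑ x, U z x * u x * v y * M z y := by
        refine Finset.sum_congr rfl fun z _ => Finset.sum_congr rfl fun y _ =>
          Finset.sum_congr rfl fun x _ => ?_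
        rw [hU.apply z x]
        ring

theorem EE_zero (g : Pt n) (Q : Rr n) : EE g Q 0 = Ev Q g • (1 : Matrix (Fin n) (Fin n) ℝ) := by
  ext x y
  simp only [EE, Matrix.of_apply, pow_zero, Matrix.smul_apply, Matrix.one_apply, smul_eq_mul]
  by_cases h : x = y
  · simp [h]
  · simp only [h, if_false, zero_mul, mul_zero]
    have : Ev (0 : Rr n) = 0 := map_zero _
    simp [this]

/-- The inverted form: the heart of Lemma W. -/
theorem inv_form (hn : 0 < n) (u v : Fin n → ℝ) (a : ℕ) (Q : Rr n) (g : Pt n) :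
    Ev (Xf u v a * Q) g = (1 / (n : ℝ)) * dotq u (chebM (Jh g) a) v * Ev Q g
      - ∑ b ∈ Finset.range a, Ev (errPoly ((chebM (Jh g) (a - 1 - b)).mulVec u) v b Q) g := by
  rw [Ev_Xf_mul, EE_inv hn, dotq_sub, dotq_sum, mul_sub, Finset.mul_sum]
  congr 1
  · rw [EE_zero]
    have : chebM (Jh g) a * (Ev Q g • (1 : Matrix (Fin n) (Fin n) ℝ)) =
        Ev Q g • chebM (Jh g) a := by simp
    rw [this]
    simp only [dotq, Matrix.smul_apply, smul_eq_mul, Finset.mul_sum, Finset.sum_mul]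
    refine Finset.sum_congr rfl fun x _ => Finset.sum_congr rfl fun y _ => ?_
    ring
  · refine Finset.sum_congr rfl fun b _ => ?_
    rw [dotq_mul _ _ _ _ (chebM_symm g _), Ev_errPoly]

/-! ### The derivation term -/

/-- The contracted derivation. -/
noncomputable def lam (x y : Fin n → ℝ) (b : ℕ) (Q : Rr n) : Rr n :=
  C (1 / (n : ℝ)) * bil x y (fun p q => C (Real.sqrt n)⁻¹ * ∑ z, (TT n ^ b) z q * DD p z Q)

theorem bil_TT_mul (x y : Fin n → ℝ) (a : ℕ) (Q : Rr n) :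
    bil x y (fun p q => (TT n ^ a) p q * Q) = bil x y (fun p q => (TT n ^ a) p q) * Q :=
  bil_mul_right x y (fun p q => (TT n ^ a) p q) Q

theorem errPoly_eq (x y : Fin n → ℝ) (b : ℕ) (Q : Rr n) :
    errPoly x y b Q = C ((b : ℝ) / n) * (Xf x y (b - 1) * Q)
      + C (1 / (n : ℝ)) * ∑ j ∈ Finset.range (b - 1), Xf x y (b - 2 - j) * (Trc n j * Q)
      + lam x y b Q := by
  have h1 : errMat Q b = fun p q => C ((b : ℝ) / n) * ((TT n ^ (b - 1)) p q * Q)
      + C (1 / (n : ℝ)) * ∑ j ∈ Finset.range (b - 1), (TT n ^ (b - 2 - j)) p q * (Trc n j * Q)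
      + C (Real.sqrt n)⁻¹ * ∑ z, (TT n ^ b) z q * DD p z Q := rfl
  rw [errPoly, h1, lam, bil_add, bil_add, bil_C_mul, bil_C_mul, bil_sum, bil_TT_mul,
    mul_add, mul_add]
  simp only [bil_TT_mul, Xf_eq_bil, Finset.mul_sum]
  have e1 : C (1 / (n : ℝ)) * (C ((b : ℝ) / n) * (bil x y (fun p q => (TT n ^ (b - 1)) p q) * Q)) =
      C ((b : ℝ) / n) * (C (1 / (n : ℝ)) * bil x y (fun p q => (TT n ^ (b - 1)) p q) * Q) := by ring
  rw [e1]
  have e2 : ∑ i ∈ Finset.range (b - 1),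
        C (1 / (n : ℝ)) * (C (1 / (n : ℝ)) * (bil x y (fun p q => (TT n ^ (b - 2 - i)) p q) * (Trc n i * Q))) =
      ∑ i ∈ Finset.range (b - 1),
        C (1 / (n : ℝ)) * ((C (1 / (n : ℝ)) * bil x y (fun p q => (TT n ^ (b - 2 - i)) p q)) * (Trc n i * Q)) := by
    refine Finset.sum_congr rfl fun j _ => ?_
    ring
  rw [e2]

theorem lam_mul (x y : Fin n → ℝ) (b : ℕ) (P Q : Rr n) :
    lam x y b (P * Q) = lam x y b P * Q + P * lam x y b Q := by
  have h : (fun p q => C (Real.sqrt n)⁻¹ * ∑ z, (TT n ^ b) z q * DD p z (P * Q)) =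
      fun p q => (C (Real.sqrt n)⁻¹ * ∑ z, (TT n ^ b) z q * DD p z P) * Q
        + P * (C (Real.sqrt n)⁻¹ * ∑ z, (TT n ^ b) z q * DD p z Q) := by
    funext p q
    simp only [Derivation.leibniz, smul_eq_mul]
    simp only [mul_add, Finset.mul_sum, Finset.sum_mul, Finset.sum_add_distrib]
    rw [add_comm]
    congr 1
    · refine Finset.sum_congr rfl fun z _ => ?_
      ring
    · refine Finset.sum_congr rfl fun z _ => ?_
      ring
  have h2 : (fun p q => P * (C (Real.sqrt n)⁻¹ * ∑ z, (TT n ^ b) z q * DD p z Q)) =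
      fun p q => (C (Real.sqrt n)⁻¹ * ∑ z, (TT n ^ b) z q * DD p z Q) * P := by
    funext p q; ring
  rw [lam, h, bil_add, bil_mul_right, h2, bil_mul_right, mul_add, lam, lam]
  ring

/-- Left contraction. -/
noncomputable def lv (x : Fin n → ℝ) (M : Matrix (Fin n) (Fin n) (Rr n)) (z : Fin n) : Rr n :=
  ∑ p, C (x p) * M p z

/-- Right contraction. -/
noncomputable def rv (M : Matrix (Fin n) (Fin n) (Rr n)) (y : Fin n → ℝ) (z : Fin n) : Rr n :=
  ∑ q, C (y q) * M z q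

theorem bil_mat_mul (x y : Fin n → ℝ) (M N : Matrix (Fin n) (Fin n) (Rr n)) :
    bil x y (fun p q => (M * N) p q) = ∑ z, lv x M z * rv N y z := by
  simp only [bil, lv, rv, Matrix.mul_apply, Finset.mul_sum, Finset.sum_mul]
  calc ∑ p, ∑ q, ∑ z, C (x p * y q) * (M p z * N z q)
      = ∑ p, ∑ z, ∑ q, C (x p * y q) * (M p z * N z q) :=
        Finset.sum_congr rfl fun x _ => Finset.sum_comm
    _ = ∑ z, ∑ p, ∑ q, C (x p * y q) * (M p z * N z q) := Finset.sum_comm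
    _ = _ := by
      refine Finset.sum_congr rfl fun z _ => ?_
      rw [Finset.sum_comm]
      refine Finset.sum_congr rfl fun q _ => Finset.sum_congr rfl fun p _ => ?_
      rw [C_mul]
      ring

theorem rv_TT_pow_eq_lv (a : ℕ) (y : Fin n → ℝ) (z : Fin n) :
    rv (TT n ^ a) y z = lv y (TT n ^ a) z := by
  simp only [rv, lv]
  refine Finset.sum_congr rfl fun q _ => ?_
  rw [TT_pow_symm]

theorem bil_TT_pow_symm (x y : Fin n → ℝ) (a : ℕ) :
    bil x y (fun p q => (TT n ^ a) p q) = bil y x (fun p q => (TT n ^ a) p q) := by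
  simp only [bil]
  rw [Finset.sum_comm]
  refine Finset.sum_congr rfl fun p _ => Finset.sum_congr rfl fun q _ => ?_
  rw [TT_pow_symm, mul_comm (x q) (y p)]

theorem Xf_symm (x y : Fin n → ℝ) (a : ℕ) : Xf x y a = Xf y x a := by
  rw [Xf_eq_bil, Xf_eq_bil, bil_TT_pow_symm]

/-- Alternative form of `lam`. -/
theorem lam_alt (x y : Fin n → ℝ) (b : ℕ) (Q : Rr n) :
    lam x y b Q = C (1 / (n : ℝ)) * C (Real.sqrt n)⁻¹ *
      ∑ p, ∑ z, C (x p) * rv (TT n ^ b) y z * DD p z Q := by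
  rw [lam, bil_C_mul, mul_assoc]
  refine congrArg (C (1 / (n : ℝ)) * ·) (congrArg (C (Real.sqrt n)⁻¹ * ·) ?_)
  simp only [bil, rv, Finset.mul_sum, Finset.sum_mul]
  refine Finset.sum_congr rfl fun p _ => ?_
  calc ∑ q, ∑ z, C (x p * y q) * ((TT n ^ b) z q * DD p z Q)
      = ∑ z, ∑ q, C (x p * y q) * ((TT n ^ b) z q * DD p z Q) := Finset.sum_comm
    _ = _ := by
      refine Finset.sum_congr rfl fun z _ => Finset.sum_congr rfl fun q _ => ?_
      rw [C_mul]
      ring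

theorem lam_Xf_zero (x y w r : Fin n → ℝ) (b : ℕ) : lam x y b (Xf w r 0) = 0 := by
  have h : ∀ p z, DD p z (Xf w r 0) = 0 := by
    intro p z
    have h1 : Xf w r 0 = C (1 / (n : ℝ)) * ∑ s, ∑ t, C (w s * r t) *
        (if s = t then (1 : Rr n) else 0) := by
      simp [Xf, Matrix.one_apply]
    rw [h1, DD_C_mul, map_sum]
    simp only [map_sum, DD_C_mul]
    have h2 : ∀ s t : Fin n, DD p z (if s = t then (1 : Rr n) else 0) = 0 := by
      intro s t
      split_ifs <;> simp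
    simp [h2]
  rw [lam_alt]
  simp [h]

/-- `DD` of a form. -/
theorem DD_Xf (p z : Fin n) (w r : Fin n → ℝ) (e : ℕ) :
    DD p z (Xf w r (e + 1)) = C (1 / (n : ℝ)) * (C (Real.sqrt n)⁻¹ *
      ∑ i ∈ Finset.range (e + 1),
        (lv w (TT n ^ i) p * rv (TT n ^ (e - i)) r z + lv w (TT n ^ i) z * rv (TT n ^ (e - i)) r p)) := by
  have key : ∀ i, lv w (TT n ^ i) p * rv (TT n ^ (e - i)) r z
      + lv w (TT n ^ i) z * rv (TT n ^ (e - i)) r p
      = ∑ s, ∑ t, C (w s * r t) * ((TT n ^ i) s p * (TT n ^ (e - i)) z t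
        + (TT n ^ i) s z * (TT n ^ (e - i)) p t) := by
    intro i
    simp only [lv, rv, Finset.sum_mul_sum, ← Finset.sum_add_distrib]
    refine Finset.sum_congr rfl fun s _ => Finset.sum_congr rfl fun t _ => ?_
    rw [C_mul]
    ring
  rw [Xf, DD_C_mul, map_sum]
  refine congrArg (C (1 / (n : ℝ)) * ·) ?_
  simp only [map_sum, DD_C_mul, DD_pow, key]
  simp only [Finset.mul_sum]
  calc ∑ s, ∑ t, ∑ i ∈ Finset.range (e + 1), C (w s * r t) * (C (Real.sqrt n)⁻¹ *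
        ((TT n ^ i) s p * (TT n ^ (e - i)) z t + (TT n ^ i) s z * (TT n ^ (e - i)) p t))
      = ∑ s, ∑ i ∈ Finset.range (e + 1), ∑ t, C (w s * r t) * (C (Real.sqrt n)⁻¹ *
        ((TT n ^ i) s p * (TT n ^ (e - i)) z t + (TT n ^ i) s z * (TT n ^ (e - i)) p t)) :=
        Finset.sum_congr rfl fun s _ => Finset.sum_comm
    _ = ∑ i ∈ Finset.range (e + 1), ∑ s, ∑ t, C (w s * r t) * (C (Real.sqrt n)⁻¹ *
        ((TT n ^ i) s p * (TT n ^ (e - i)) z t + (TT n ^ i) s z * (TT n ^ (e - i)) p t)) :=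
        Finset.sum_comm
    _ = _ := by
      refine Finset.sum_congr rfl fun i _ => Finset.sum_congr rfl fun s _ =>
        Finset.sum_congr rfl fun t _ => ?_
      ring

theorem sum_C_lv (x w : Fin n → ℝ) (M : Matrix (Fin n) (Fin n) (Rr n)) :
    ∑ p, C (x p) * lv w M p = bil w x (fun s p => M s p) := by
  simp only [lv, bil, Finset.mul_sum]
  rw [Finset.sum_comm]
  refine Finset.sum_congr rfl fun s _ => Finset.sum_congr rfl fun p _ => ?_
  rw [C_mul]
  ring

theorem sum_C_rv (x r : Fin n → ℝ) (M : Matrix (Fin n) (Fin n) (Rr n)) :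
    ∑ p, C (x p) * rv M r p = bil x r (fun s p => M s p) := by
  simp only [rv, bil, Finset.mul_sum]
  refine Finset.sum_congr rfl fun s _ => Finset.sum_congr rfl fun p _ => ?_
  rw [C_mul]
  ring

theorem sum_lv_rv_pow (x y : Fin n → ℝ) (i b : ℕ) :
    ∑ z, lv x (TT n ^ i) z * rv (TT n ^ b) y z = bil x y (fun p q => (TT n ^ (i + b)) p q) := by
  rw [pow_add, bil_mat_mul]

theorem C_sqrt_inv_sq (hn : 0 < n) :
    (C (Real.sqrt n)⁻¹ : Rr n) * C (Real.sqrt n)⁻¹ = C (1 / (n : ℝ)) := by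
  rw [← C_mul]
  congr 1
  have h : Real.sqrt n * Real.sqrt n = n := Real.mul_self_sqrt (Nat.cast_nonneg n)
  have h0 : Real.sqrt n ≠ 0 := by
    have : (0 : ℝ) < n := by exact_mod_cast hn
    exact (Real.sqrt_pos.mpr this).ne'
  field_simp
  nlinarith [h]

theorem sum_rv_rv_pow (y r : Fin n → ℝ) (m b : ℕ) :
    ∑ z, rv (TT n ^ b) y z * rv (TT n ^ m) r z = bil r y (fun p q => (TT n ^ (m + b)) p q) := by
  rw [← sum_lv_rv_pow]
  refine Finset.sum_congr rfl fun z _ => ?_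
  rw [rv_TT_pow_eq_lv m r z, mul_comm]

theorem sum_rv_lv_pow (y w : Fin n → ℝ) (i b : ℕ) :
    ∑ z, rv (TT n ^ b) y z * lv w (TT n ^ i) z = bil w y (fun p q => (TT n ^ (i + b)) p q) := by
  rw [← sum_lv_rv_pow]
  refine Finset.sum_congr rfl fun z _ => ?_
  rw [mul_comm]

theorem lam_Xf_aux (x y w r : Fin n → ℝ) (b e i : ℕ) :
    ∑ p, ∑ z, ((C (x p) * lv w (TT n ^ i) p) * (rv (TT n ^ b) y z * rv (TT n ^ (e - i)) r z)
        + (C (x p) * rv (TT n ^ (e - i)) r p) * (rv (TT n ^ b) y z * lv w (TT n ^ i) z)) =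
      bil w x (fun s p => (TT n ^ i) s p) * bil r y (fun p q => (TT n ^ (e - i + b)) p q)
      + bil x r (fun s p => (TT n ^ (e - i)) s p) * bil w y (fun p q => (TT n ^ (i + b)) p q) := by
  rw [← sum_C_lv x w (TT n ^ i), ← sum_C_rv x r (TT n ^ (e - i)), ← sum_rv_rv_pow y r (e - i) b,
    ← sum_rv_lv_pow y w i b, Finset.sum_mul_sum, Finset.sum_mul_sum, ← Finset.sum_add_distrib]
  refine Finset.sum_congr rfl fun p _ => ?_
  rw [Finset.sum_add_distrib]

theorem const_aux1 (hn : 0 < n) (X : Rr n) :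
    C (1 / (n : ℝ)) * C (Real.sqrt n)⁻¹ * (C (1 / (n : ℝ)) * (C (Real.sqrt n)⁻¹ * X)) =
      C (1 / (n : ℝ)) * (C (1 / (n : ℝ)) * C (1 / (n : ℝ)) * X) := by
  linear_combination (C (1 / (n : ℝ)) * C (1 / (n : ℝ)) * X) * C_sqrt_inv_sq hn

theorem const_aux2 (hn : 0 < n) (X : Rr n) :
    C (1 / (n : ℝ)) * C (Real.sqrt n)⁻¹ * (C (Real.sqrt n)⁻¹ * X) =
      C (1 / (n : ℝ)) * (C (1 / (n : ℝ)) * X) := by
  linear_combination (C (1 / (n : ℝ)) * X) * C_sqrt_inv_sq hn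

/-- The derivation of a form. -/
theorem lam_Xf (hn : 0 < n) (x y w r : Fin n → ℝ) (b e : ℕ) :
    lam x y b (Xf w r (e + 1)) = C (1 / (n : ℝ)) * ∑ i ∈ Finset.range (e + 1),
      (Xf x w i * Xf r y (b + (e - i)) + Xf w y (b + i) * Xf x r (e - i)) := by
  rw [lam_alt]
  simp only [DD_Xf]
  have h1 : ∀ p z, C (x p) * rv (TT n ^ b) y z * (C (1 / (n : ℝ)) * (C (Real.sqrt n)⁻¹ *
      ∑ i ∈ Finset.range (e + 1),
        (lv w (TT n ^ i) p * rv (TT n ^ (e - i)) r z + lv w (TT n ^ i) z * rv (TT n ^ (e - i)) r p))) =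
      C (1 / (n : ℝ)) * (C (Real.sqrt n)⁻¹ * ∑ i ∈ Finset.range (e + 1),
        ((C (x p) * lv w (TT n ^ i) p) * (rv (TT n ^ b) y z * rv (TT n ^ (e - i)) r z)
        + (C (x p) * rv (TT n ^ (e - i)) r p) * (rv (TT n ^ b) y z * lv w (TT n ^ i) z))) := by
    intro p z
    simp only [Finset.mul_sum]
    refine Finset.sum_congr rfl fun i _ => ?_
    ring
  simp only [h1, ← Finset.mul_sum]
  have h2 : ∑ p, ∑ z, ∑ i ∈ Finset.range (e + 1),
        ((C (x p) * lv w (TT n ^ i) p) * (rv (TT n ^ b) y z * rv (TT n ^ (e - i)) r z)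
        + (C (x p) * rv (TT n ^ (e - i)) r p) * (rv (TT n ^ b) y z * lv w (TT n ^ i) z)) =
      ∑ i ∈ Finset.range (e + 1),
        (bil w x (fun s p => (TT n ^ i) s p) * bil r y (fun p q => (TT n ^ (e - i + b)) p q)
        + bil x r (fun s p => (TT n ^ (e - i)) s p) * bil w y (fun p q => (TT n ^ (i + b)) p q)) := by
    calc _ = ∑ p, ∑ i ∈ Finset.range (e + 1), ∑ z,
        ((C (x p) * lv w (TT n ^ i) p) * (rv (TT n ^ b) y z * rv (TT n ^ (e - i)) r z)
        + (C (x p) * rv (TT n ^ (e - i)) r p) * (rv (TT n ^ b) y z * lv w (TT n ^ i) z)) :=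
          Finset.sum_congr rfl fun p _ => Finset.sum_comm
      _ = ∑ i ∈ Finset.range (e + 1), ∑ p, ∑ z,
        ((C (x p) * lv w (TT n ^ i) p) * (rv (TT n ^ b) y z * rv (TT n ^ (e - i)) r z)
        + (C (x p) * rv (TT n ^ (e - i)) r p) * (rv (TT n ^ b) y z * lv w (TT n ^ i) z)) :=
          Finset.sum_comm
      _ = _ := Finset.sum_congr rfl fun i _ => lam_Xf_aux x y w r b e i
  rw [h2]
  have h3 : ∀ i, Xf x w i * Xf r y (b + (e - i)) + Xf w y (b + i) * Xf x r (e - i) =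
      C (1 / (n : ℝ)) * C (1 / (n : ℝ)) *
        (bil w x (fun s p => (TT n ^ i) s p) * bil r y (fun p q => (TT n ^ (e - i + b)) p q)
        + bil x r (fun s p => (TT n ^ (e - i)) s p) * bil w y (fun p q => (TT n ^ (i + b)) p q)) := by
    intro i
    rw [Xf_symm x w i]
    simp only [Xf_eq_bil]
    rw [add_comm b (e - i), add_comm b i]
    ring
  simp only [h3, ← Finset.mul_sum]
  exact const_aux1 hn _

/-- The derivation of a combination of trace monomials. -/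
theorem lam_Sc (hn : 0 < n) (x y : Fin n → ℝ) (b L : ℕ) (c : Wt →₀ ℝ)
    (hL : ∀ ν ∈ c.support, ∀ ℓ ∈ ν, ℓ < L) :
    lam x y b (Sc n c) = C (1 / (n : ℝ)) * ∑ ℓ ∈ Finset.range L,
      Xf x y (b + ℓ) * Sc n (down ℓ c) := by
  rw [lam_alt]
  have hD : ∀ p z, DD p z (Sc n c) = C (Real.sqrt n)⁻¹ *
      ∑ ℓ ∈ Finset.range L, (TT n ^ ℓ) p z * Sc n (down ℓ c) := fun p z => DD_Sc hn p z c L hL
  simp only [hD]
  have h1 : ∀ p z, C (x p) * rv (TT n ^ b) y z * (C (Real.sqrt n)⁻¹ *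
      ∑ ℓ ∈ Finset.range L, (TT n ^ ℓ) p z * Sc n (down ℓ c)) =
      C (Real.sqrt n)⁻¹ * ∑ ℓ ∈ Finset.range L,
        (C (x p) * (TT n ^ ℓ) p z * rv (TT n ^ b) y z) * Sc n (down ℓ c) := by
    intro p z
    simp only [Finset.mul_sum]
    refine Finset.sum_congr rfl fun ℓ _ => ?_
    ring
  simp only [h1, ← Finset.mul_sum]
  have h2 : ∑ p, ∑ z, ∑ ℓ ∈ Finset.range L,
        (C (x p) * (TT n ^ ℓ) p z * rv (TT n ^ b) y z) * Sc n (down ℓ c) =
      ∑ ℓ ∈ Finset.range L, bil x y (fun p q => (TT n ^ (ℓ + b)) p q) * Sc n (down ℓ c) := by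
    calc _ = ∑ p, ∑ ℓ ∈ Finset.range L, ∑ z,
        (C (x p) * (TT n ^ ℓ) p z * rv (TT n ^ b) y z) * Sc n (down ℓ c) :=
          Finset.sum_congr rfl fun p _ => Finset.sum_comm
      _ = ∑ ℓ ∈ Finset.range L, ∑ p, ∑ z,
        (C (x p) * (TT n ^ ℓ) p z * rv (TT n ^ b) y z) * Sc n (down ℓ c) := Finset.sum_comm
      _ = _ := by
        refine Finset.sum_congr rfl fun ℓ _ => ?_
        rw [← sum_lv_rv_pow, Finset.sum_mul]
        simp only [lv, Finset.sum_mul]
        rw [Finset.sum_comm]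
  rw [h2]
  have h3 : ∀ ℓ, Xf x y (b + ℓ) * Sc n (down ℓ c) =
      C (1 / (n : ℝ)) * (bil x y (fun p q => (TT n ^ (ℓ + b)) p q) * Sc n (down ℓ c)) := by
    intro ℓ
    rw [Xf_eq_bil, add_comm b ℓ]
    ring
  simp only [h3, ← Finset.mul_sum]
  exact const_aux2 hn _

end Vale.Agent.Lib.P146
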