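import Vale.Agent.Lib.P146.LemW_alg

/-! Module F (integral part): functionals and frames. -/

set_option autoImplicit false
open MeasureTheory MvPolynomial

namespace Vale.Agent.Lib.P146

variable {n : ℕ} {Ω : Type}

/-- A frame: two vector fields and an exponent. -/
structure Frm (Ω : Type) (n : ℕ) where
  u : Ω → Pt n → Fin n → ℝ
  v : Ω → Pt n → Fin n → ℝ
  e : ℕ

/-- Measurable vector fields of squared norm at most `n`. -/
def GoodV (w : Ω → Pt n → Fin n → ℝ) : Prop :=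
  (∀ ω x, Measurable fun g => w ω g x) ∧ ∀ ω g, ∑ x, (w ω g x) ^ 2 ≤ (n : ℝ)

/-- Both fields good. -/
def GoodF (f : Frm Ω n) : Prop := GoodV f.u ∧ GoodV f.v

/-- The product of forms of a list of frames. -/
noncomputable def fp (L : List (Frm Ω n)) (ω : Ω) (g : Pt n) : Rr n :=
  (L.map fun f => Xf (f.u ω g) (f.v ω g) f.e).prod

/-- Total exponent. -/
def Eo (L : List (Frm Ω n)) : ℕ := (L.map Frm.e).sum

/-- Product of `e+1`. -/
noncomputable def Pp (L : List (Frm Ω n)) : ℝ := (L.map fun f => (f.e : ℝ) + 1).prod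

@[simp] theorem fp_nil (ω : Ω) (g : Pt n) : fp ([] : List (Frm Ω n)) ω g = 1 := rfl

theorem fp_cons (f : Frm Ω n) (L : List (Frm Ω n)) (ω : Ω) (g : Pt n) :
    fp (f :: L) ω g = Xf (f.u ω g) (f.v ω g) f.e * fp L ω g := by
  simp [fp]

theorem fp_append (L L' : List (Frm Ω n)) (ω : Ω) (g : Pt n) :
    fp (L ++ L') ω g = fp L ω g * fp L' ω g := by
  simp [fp]

@[simp] theorem Eo_nil : Eo ([] : List (Frm Ω n)) = 0 := rfl

theorem Eo_cons (f : Frm Ω n) (L : List (Frm Ω n)) : Eo (f :: L) = f.e + Eo L := by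
  simp [Eo]

theorem Eo_append (L L' : List (Frm Ω n)) : Eo (L ++ L') = Eo L + Eo L' := by
  simp [Eo]

@[simp] theorem Pp_nil : Pp ([] : List (Frm Ω n)) = 1 := rfl

theorem Pp_cons (f : Frm Ω n) (L : List (Frm Ω n)) : Pp (f :: L) = ((f.e : ℝ) + 1) * Pp L := by
  simp [Pp]

theorem Pp_append (L L' : List (Frm Ω n)) : Pp (L ++ L') = Pp L * Pp L' := by
  simp [Pp]

theorem Pp_nonneg (L : List (Frm Ω n)) : 0 ≤ Pp L := by
  induction L with
  | nil => simp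
  | cons f L ih =>
    rw [Pp_cons]
    have : (0 : ℝ) ≤ (f.e : ℝ) + 1 := by positivity
    positivity

/-! ### Growth of what we integrate -/

theorem PG_of_bdd {f : Pt n → ℝ} (hm : Measurable f) (K : ℝ) (h : ∀ g, |f g| ≤ K) : PG f :=
  ⟨hm, K, 0, by simpa using h⟩

theorem GoodV.pg {w : Ω → Pt n → Fin n → ℝ} (hw : GoodV w) (ω : Ω) (x : Fin n) :
    PG (fun g => w ω g x) := by
  refine PG_of_bdd (hw.1 ω x) (Real.sqrt n) fun g => ?_
  apply Real.abs_le_sqrt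
  calc (w ω g x) ^ 2 ≤ ∑ y, (w ω g y) ^ 2 :=
        Finset.single_le_sum (f := fun y => (w ω g y) ^ 2) (fun _ _ => sq_nonneg _)
          (Finset.mem_univ x)
    _ ≤ n := hw.2 ω g

theorem Ev_Xf_expand (u v : Fin n → ℝ) (a : ℕ) (Q : Rr n) (g : Pt n) :
    Ev (Xf u v a * Q) g = (1 / (n : ℝ)) * ∑ x, ∑ y, u x * v y * Ev ((TT n ^ a) x y * Q) g := by
  rw [Ev_Xf_mul]
  simp only [dotq, EE, Matrix.of_apply]

theorem PG_fp_Ev (L : List (Frm Ω n)) (hL : ∀ f ∈ L, GoodF f) (S : Rr n) (ω : Ω) :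
    PG (fun g => Ev (fp L ω g * S) g) := by
  induction L generalizing S with
  | nil =>
    simpa using PG_Ev S
  | cons f L ih =>
    have hf := hL f (List.mem_cons_self)
    have hL' : ∀ h ∈ L, GoodF h := fun h hh => hL h (List.mem_cons_of_mem _ hh)
    have e : (fun g => Ev (fp (f :: L) ω g * S) g) = fun g => (1 / (n : ℝ)) *
        ∑ x, ∑ y, f.u ω g x * f.v ω g y * Ev (fp L ω g * ((TT n ^ f.e) x y * S)) g := by
      funext g
      rw [fp_cons, mul_assoc, Ev_Xf_expand]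
      refine congrArg _ (Finset.sum_congr rfl fun x _ => Finset.sum_congr rfl fun y _ => ?_)
      rw [mul_left_comm ((TT n ^ f.e) x y)]
    rw [e]
    refine (PG.const _).mul (PG.finset_sum _ fun x _ => PG.finset_sum _ fun y _ => ?_)
    exact ((hf.1.pg ω x).mul (hf.2.pg ω y)).mul (ih hL' _)

/-! ### The functional -/

variable [Fintype Ω]

/-- The integrated functional. -/
noncomputable def Inte (H : Ω → Pt n → ℝ) (Φ : Ω → Pt n → Rr n) : ℝ :=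
  ∫ g, ∑ ω, H ω g * Ev (Φ ω g) g ∂gam n

omit [Fintype Ω] in
/-- Polynomial growth of the realisations. -/
def PGE (Φ : Ω → Pt n → Rr n) : Prop := ∀ ω, PG (fun g => Ev (Φ ω g) g)

theorem Inte_integrable {H : Ω → Pt n → ℝ} {Φ : Ω → Pt n → Rr n} (hH : ∀ ω, PG (H ω))
    (hΦ : PGE Φ) : Integrable (fun g => ∑ ω, H ω g * Ev (Φ ω g) g) (gam n) :=
  (PG.finset_sum _ fun ω _ => (hH ω).mul (hΦ ω)).integrable

theorem Inte_add {H : Ω → Pt n → ℝ} {Φ Ψ : Ω → Pt n → Rr n} (hH : ∀ ω, PG (H ω))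
    (hΦ : PGE Φ) (hΨ : PGE Ψ) :
    Inte H (fun ω g => Φ ω g + Ψ ω g) = Inte H Φ + Inte H Ψ := by
  unfold Inte
  rw [← integral_add (Inte_integrable hH hΦ) (Inte_integrable hH hΨ)]
  refine integral_congr_ae (Filter.Eventually.of_forall fun g => ?_)
  simp only [Ev_add, mul_add, Finset.sum_add_distrib]

theorem Inte_C_mul (H : Ω → Pt n → ℝ) (Φ : Ω → Pt n → Rr n) (r : ℝ) :
    Inte H (fun ω g => C r * Φ ω g) = r * Inte H Φ := by
  unfold Inte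
  rw [← integral_const_mul]
  refine integral_congr_ae (Filter.Eventually.of_forall fun g => ?_)
  simp only [Ev_C_mul, Finset.mul_sum]
  refine Finset.sum_congr rfl fun ω _ => ?_
  ring

theorem Inte_sum {ι : Type*} (s : Finset ι) {H : Ω → Pt n → ℝ} {Φ : ι → Ω → Pt n → Rr n}
    (hH : ∀ ω, PG (H ω)) (hΦ : ∀ i ∈ s, PGE (Φ i)) :
    Inte H (fun ω g => ∑ i ∈ s, Φ i ω g) = ∑ i ∈ s, Inte H (Φ i) := by
  unfold Inte
  rw [← integral_finsetSum s fun i hi => Inte_integrable hH (hΦ i hi)]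
  refine integral_congr_ae (Filter.Eventually.of_forall fun g => ?_)
  simp only [Ev_sum, Finset.mul_sum]
  rw [Finset.sum_comm]

omit [Fintype Ω] in
theorem PGE_add {Φ Ψ : Ω → Pt n → Rr n} (hΦ : PGE Φ) (hΨ : PGE Ψ) :
    PGE (fun ω g => Φ ω g + Ψ ω g) := fun ω => by
  simpa only [Ev_add] using (hΦ ω).add (hΨ ω)

omit [Fintype Ω] in
theorem PGE_C_mul {Φ : Ω → Pt n → Rr n} (r : ℝ) (hΦ : PGE Φ) :
    PGE (fun ω g => C r * Φ ω g) := fun ω => by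
  simpa only [Ev_C_mul] using (PG.const r).mul (hΦ ω)

omit [Fintype Ω] in
theorem PGE_sum {ι : Type*} (s : Finset ι) {Φ : ι → Ω → Pt n → Rr n}
    (hΦ : ∀ i ∈ s, PGE (Φ i)) : PGE (fun ω g => ∑ i ∈ s, Φ i ω g) := fun ω => by
  simpa only [Ev_sum] using PG.finset_sum s fun i hi => hΦ i hi ω

/-- The amplitude. -/
noncomputable def AA (p : ℕ) (G : Ω → Pt n → ℝ) (κ : ℕ) : ℝ :=
  Real.sqrt (∫ g, (∑ ω, |G ω g|) ^ 2 * rhoH p g ^ (2 * κ) ∂gam n)

theorem AA_nonneg (p : ℕ) (G : Ω → Pt n → ℝ) (κ : ℕ) : 0 ≤ AA p G κ := Real.sqrt_nonneg _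

theorem PG_abs {f : Pt n → ℝ} (hf : PG f) : PG (fun g => |f g|) :=
  PG.of_le hf.1.abs hf (fun g => by simp)

theorem PG_AA_integrand {p : ℕ} (hp : 1 ≤ p) {G : Ω → Pt n → ℝ} (hG : ∀ ω, PG (G ω)) (κ : ℕ) :
    PG (fun g => (∑ ω, |G ω g|) ^ 2 * rhoH p g ^ (2 * κ)) :=
  ((PG.finset_sum _ fun ω _ => PG_abs (hG ω)).pow 2).mul ((PG_rhoH hp).pow _)

/-- Comparison of amplitudes. -/
theorem AA_le_of {p : ℕ} (hp : 1 ≤ p) {G G' : Ω → Pt n → ℝ} (hG : ∀ ω, PG (G ω)) {κ κ' : ℕ}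
    {K : ℝ} (hK : 0 ≤ K)
    (h : ∀ g, (∑ ω, |G' ω g|) ^ 2 * rhoH p g ^ (2 * κ') ≤
      K ^ 2 * ((∑ ω, |G ω g|) ^ 2 * rhoH p g ^ (2 * κ))) :
    AA p G' κ' ≤ K * AA p G κ := by
  unfold AA
  have hint : Integrable (fun g => K ^ 2 * ((∑ ω, |G ω g|) ^ 2 * rhoH p g ^ (2 * κ))) (gam n) :=
    ((PG_AA_integrand hp hG κ).integrable).const_mul _
  have h1 : ∫ g, (∑ ω, |G' ω g|) ^ 2 * rhoH p g ^ (2 * κ') ∂gam n ≤
      K ^ 2 * ∫ g, (∑ ω, |G ω g|) ^ 2 * rhoH p g ^ (2 * κ) ∂gam n := by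
    rw [← integral_const_mul]
    refine integral_mono_of_nonneg ?_ hint (Filter.Eventually.of_forall h)
    refine Filter.Eventually.of_forall fun g => ?_
    have : 0 ≤ rhoH p g := zero_le_one.trans (rhoH_ge_one p g)
    positivity
  calc Real.sqrt (∫ g, (∑ ω, |G' ω g|) ^ 2 * rhoH p g ^ (2 * κ') ∂gam n)
      ≤ Real.sqrt (K ^ 2 * ∫ g, (∑ ω, |G ω g|) ^ 2 * rhoH p g ^ (2 * κ) ∂gam n) :=
        Real.sqrt_le_sqrt h1
    _ = _ := by
        rw [Real.sqrt_mul (sq_nonneg K), Real.sqrt_sq hK]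

/-- The statement of Lemma W, in list form. -/
def WS (p : ℕ) (Ω : Type) [Fintype Ω] (κ : ℕ) (L : List (Frm Ω n)) : Prop :=
  ∀ (G : Ω → Pt n → ℝ) (c : Wt →₀ ℝ), (∀ ω, PG (G ω)) → (∀ ν ∈ c.support, Eo L + dg ν ≤ κ) →
    |Inte G (fun ω g => fp L ω g * Sc n c)| ≤
      2 * 2 ^ L.length * Pp L * nrm c * AA p G κ

end Vale.Agent.Lib.P146
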