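import Vale.Agent.Lib.P146.LemW_int

/-! Module F (induction step): the list form of Lemma W. -/

set_option autoImplicit false
open MeasureTheory MvPolynomial

namespace Vale.Agent.Lib.P146

variable {n : ℕ} {Ω : Type} [Fintype Ω]

/-- Cauchy-Schwarz for integrals. -/
theorem abs_integral_mul_le {f h : Pt n → ℝ} (hf : PG f) (hh : PG h) :
    |∫ g, f g * h g ∂gam n| ≤
      Real.sqrt (∫ g, f g ^ 2 ∂gam n) * Real.sqrt (∫ g, h g ^ 2 ∂gam n) := by
  set A := ∫ g, f g ^ 2 ∂gam n with hA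
  set B := ∫ g, f g * h g ∂gam n with hB
  set D := ∫ g, h g ^ 2 ∂gam n with hD
  have iA : Integrable (fun g => f g ^ 2) (gam n) := (hf.pow 2).integrable
  have iB : Integrable (fun g => f g * h g) (gam n) := (hf.mul hh).integrable
  have iD : Integrable (fun g => h g ^ 2) (gam n) := (hh.pow 2).integrable
  have hpos : ∀ t : ℝ, 0 ≤ D * (t * t) + (-2 * B) * t + A := by
    intro t
    have h1 : D * (t * t) + (-2 * B) * t + A = ∫ g, (f g - t * h g) ^ 2 ∂gam n := by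
      have e : (fun g => (f g - t * h g) ^ 2) =
          fun g => (f g ^ 2 - (2 * t) * (f g * h g)) + t ^ 2 * h g ^ 2 := by
        funext g; ring
      have e2 : ∫ g, (f g - t * h g) ^ 2 ∂gam n =
          ∫ g, (f g ^ 2 - (2 * t) * (f g * h g)) + t ^ 2 * h g ^ 2 ∂gam n := by
        rw [e]
      have e3 : ∫ g, (f g ^ 2 - (2 * t) * (f g * h g)) + t ^ 2 * h g ^ 2 ∂gam n =
          (∫ g, (f g ^ 2 - (2 * t) * (f g * h g)) ∂gam n) + ∫ g, t ^ 2 * h g ^ 2 ∂gam n :=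
        integral_add (iA.sub (iB.const_mul _)) (iD.const_mul _)
      have e4 : ∫ g, (f g ^ 2 - (2 * t) * (f g * h g)) ∂gam n =
          (∫ g, f g ^ 2 ∂gam n) - ∫ g, (2 * t) * (f g * h g) ∂gam n :=
        integral_sub iA (iB.const_mul _)
      rw [e2, e3, e4, integral_const_mul, integral_const_mul]
      ring
    rw [h1]
    exact integral_nonneg fun g => sq_nonneg _
  have hdisc := discrim_le_zero hpos
  have hA0 : 0 ≤ A := integral_nonneg fun g => sq_nonneg _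
  have hD0 : 0 ≤ D := integral_nonneg fun g => sq_nonneg _
  have h2 : B ^ 2 ≤ A * D := by
    unfold discrim at hdisc
    nlinarith
  rw [← Real.sqrt_mul hA0]
  exact Real.abs_le_sqrt h2

theorem nrm_nonneg' (c : Wt →₀ ℝ) : 0 ≤ nrm c := Real.sqrt_nonneg _

theorem dg_erase {ν : Wt} {ℓ : ℕ} (h : ℓ ∈ ν) : dg ν = ℓ + 1 + dg (ν.erase ℓ) := by
  conv_lhs => rw [← Multiset.cons_erase h]
  exact dg_cons _ _

/-- The base of the induction. -/
theorem WS_nil (hn : 0 < n) {p κ : ℕ} (hκ : κ ≤ p) (hp1 : 1 ≤ p) (hp : 1000 * (p + 1) ^ 6 ≤ n) :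
    WS p Ω κ ([] : List (Frm Ω n)) := by
  intro G c hG hc
  have hsum : PG (fun g => ∑ ω, G ω g) := PG.finset_sum _ fun ω _ => hG ω
  have e1 : Inte G (fun ω g => fp ([] : List (Frm Ω n)) ω g * Sc n c) =
      ∫ g, (∑ ω, G ω g) * Ev (Sc n c) g ∂gam n := by
    unfold Inte
    refine integral_congr_ae (Filter.Eventually.of_forall fun g => ?_)
    simp [Finset.sum_mul]
  rw [e1]
  have h1 := abs_integral_mul_le hsum (PG_Ev (Sc n c))
  have h2 : Real.sqrt (∫ g, (∑ ω, G ω g) ^ 2 ∂gam n) ≤ AA p G κ := by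
    unfold AA
    apply Real.sqrt_le_sqrt
    refine integral_mono_of_nonneg (Filter.Eventually.of_forall fun g => sq_nonneg _)
      (PG_AA_integrand hp1 hG κ).integrable (Filter.Eventually.of_forall fun g => ?_)
    have hrho : 1 ≤ rhoH p g ^ (2 * κ) := one_le_pow₀ (rhoH_ge_one p g)
    have h3 : (∑ ω, G ω g) ^ 2 ≤ (∑ ω, |G ω g|) ^ 2 := by
      rw [← sq_abs]
      exact pow_le_pow_left₀ (abs_nonneg _) (Finset.abs_sum_le_sum_abs _ _) 2
    calc (∑ ω, G ω g) ^ 2 ≤ (∑ ω, |G ω g|) ^ 2 := h3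
      _ ≤ (∑ ω, |G ω g|) ^ 2 * rhoH p g ^ (2 * κ) :=
        le_mul_of_one_le_right (sq_nonneg _) hrho
  have h3 : Real.sqrt (∫ g, Ev (Sc n c) g ^ 2 ∂gam n) ≤ 2 * nrm c := by
    have hb := sc_bound hn hp (gaussWF n) c (fun ν hν => by
      have := hc ν hν
      simp only [Eo_nil, zero_add] at this
      omega)
    rw [gaussWF_apply] at hb
    have e2 : ∫ g, Ev (Sc n c) g ^ 2 ∂gam n = ∫ g, Ev (Sc n c) g * Ev (Sc n c) g ∂gam n := by
      refine integral_congr_ae (Filter.Eventually.of_forall fun g => ?_)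
      ring
    rw [e2]
    calc Real.sqrt (∫ g, Ev (Sc n c) g * Ev (Sc n c) g ∂gam n)
        ≤ Real.sqrt (3 * nrm2 c) := Real.sqrt_le_sqrt hb
      _ = Real.sqrt 3 * nrm c := by rw [Real.sqrt_mul (by norm_num)]; rfl
      _ ≤ 2 * nrm c := by
        refine mul_le_mul_of_nonneg_right ?_ (nrm_nonneg' c)
        rw [Real.sqrt_le_left (by norm_num)]
        norm_num
  calc _ ≤ Real.sqrt (∫ g, (∑ ω, G ω g) ^ 2 ∂gam n) * Real.sqrt (∫ g, Ev (Sc n c) g ^ 2 ∂gam n) := h1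
    _ ≤ AA p G κ * (2 * nrm c) :=
      mul_le_mul h2 h3 (Real.sqrt_nonneg _) (AA_nonneg _ _ _)
    _ = _ := by simp; ring

theorem sqrt_two_mul_le (κ : ℕ) : Real.sqrt (2 * (κ : ℕ)) ≤ (κ : ℝ) + 1 := by
  rw [Real.sqrt_le_left (by positivity)]
  nlinarith [sq_nonneg ((κ : ℝ) - 1), sq_nonneg (κ : ℝ)]

theorem Inte_sum_bound {ι : Type*} (s : Finset ι) {H : Ω → Pt n → ℝ} {Φ : ι → Ω → Pt n → Rr n}
    (hH : ∀ ω, PG (H ω)) (hΦ : ∀ i ∈ s, PGE (Φ i)) {M : ℝ}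
    (hM : ∀ i ∈ s, |Inte H (Φ i)| ≤ M) :
    |Inte H (fun ω g => ∑ i ∈ s, Φ i ω g)| ≤ s.card * M := by
  rw [Inte_sum s hH hΦ]
  calc _ ≤ ∑ i ∈ s, |Inte H (Φ i)| := Finset.abs_sum_le_sum_abs _ _
    _ ≤ ∑ i ∈ s, M := Finset.sum_le_sum hM
    _ = _ := by simp

omit [Fintype Ω] in
theorem PGE_fp (L : List (Frm Ω n)) (hL : ∀ f ∈ L, GoodF f) (S : Rr n) :
    PGE (fun ω g => fp L ω g * S) := fun ω => PG_fp_Ev L hL S ω

theorem lt_of_mem_dg {ν : Wt} {ℓ : ℕ} (h : ℓ ∈ ν) : ℓ < dg ν := by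
  have := dg_erase h
  omega

/-- The common form of the induction hypothesis in the error terms. -/
def IHb (p : ℕ) (Ω : Type) [Fintype Ω] (n κb N : ℕ) : Prop :=
  ∀ L1 : List (Frm Ω n), L1.length = N + 1 → (∀ f ∈ L1, GoodF f) → WS p Ω κb L1

/-- The base of the recursion on the second list. -/
theorem lam_base (hn : 0 < n) {p κ κb a b N : ℕ} (hb : b < a) (hκb : κb = κ - (a - b) - 1)
    {H : Ω → Pt n → ℝ} {x y : Ω → Pt n → Fin n → ℝ} (hH : ∀ ω, PG (H ω))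
    (hx : GoodV x) (hy : GoodV y) (IH : IHb p Ω n κb N) (c : Wt →₀ ℝ)
    (P : List (Frm Ω n)) (hlen : P.length = N) (hP : ∀ f ∈ P, GoodF f)
    (hbud : ∀ ν ∈ c.support, a + Eo P + dg ν ≤ κ) (hk : a + Eo P ≤ κ) :
    PGE (fun ω g => fp P ω g * lam (x ω g) (y ω g) b (Sc n c)) ∧
    |Inte H (fun ω g => fp P ω g * lam (x ω g) (y ω g) b (Sc n c))| ≤
      (1 / (n : ℝ)) * (((κ : ℝ) + 1) * (2 * ((κ : ℝ) + 1) ^ 2 *
        (2 * 2 ^ (N + 1) * Pp P * nrm c * AA p H κb))) := by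
  have hn' : (0 : ℝ) < n := by exact_mod_cast hn
  have hL : ∀ ν ∈ c.support, ∀ ℓ ∈ ν, ℓ < κ + 1 := by
    intro ν hν ℓ hℓ
    have := lt_of_mem_dg hℓ
    have := hbud ν hν
    omega
  have e : (fun ω g => fp P ω g * lam (x ω g) (y ω g) b (Sc n c)) = fun ω g =>
      C (1 / (n : ℝ)) * ∑ ℓ ∈ Finset.range (κ + 1),
        fp ((⟨x, y, b + ℓ⟩ : Frm Ω n) :: P) ω g * Sc n (down ℓ c) := by
    funext ω g
    rw [lam_Sc hn _ _ b (κ + 1) c hL, mul_left_comm, Finset.mul_sum]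
    refine congrArg _ (Finset.sum_congr rfl fun ℓ _ => ?_)
    rw [fp_cons]
    ring
  have hgood : ∀ ℓ, ∀ f ∈ ((⟨x, y, b + ℓ⟩ : Frm Ω n) :: P), GoodF f := by
    intro ℓ f hf
    rcases List.mem_cons.mp hf with rfl | hf
    · exact ⟨hx, hy⟩
    · exact hP f hf
  have hpge : ∀ ℓ ∈ Finset.range (κ + 1), PGE (fun ω g =>
      fp ((⟨x, y, b + ℓ⟩ : Frm Ω n) :: P) ω g * Sc n (down ℓ c)) :=
    fun ℓ _ => PGE_fp _ (hgood ℓ) _
  rw [e]
  refine ⟨PGE_C_mul _ (PGE_sum _ hpge), ?_⟩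
  rw [Inte_C_mul, abs_mul, abs_of_nonneg (by positivity : (0 : ℝ) ≤ 1 / (n : ℝ))]
  refine mul_le_mul_of_nonneg_left ?_ (by positivity)
  have hA := AA_nonneg p H κb
  have hPn := Pp_nonneg P
  have hcn := nrm_nonneg' c
  have hkey : ∀ ℓ ∈ Finset.range (κ + 1), |Inte H (fun ω g =>
      fp ((⟨x, y, b + ℓ⟩ : Frm Ω n) :: P) ω g * Sc n (down ℓ c))| ≤
      2 * ((κ : ℝ) + 1) ^ 2 * (2 * 2 ^ (N + 1) * Pp P * nrm c * AA p H κb) := by
    intro ℓ hℓ
    have hℓ' : ℓ ≤ κ := by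
      have := Finset.mem_range.mp hℓ
      omega
    have h1 := IH ((⟨x, y, b + ℓ⟩ : Frm Ω n) :: P) (by simp [hlen]) (hgood ℓ) H (down ℓ c) hH
      (by
        intro μ hμ
        obtain ⟨ν, hν, hm, rfl⟩ := support_down ℓ c hμ
        have h2 := hbud ν hν
        have h3 := dg_erase hm
        rw [Eo_cons]
        simp only
        omega)
    have hlen' : ((⟨x, y, b + ℓ⟩ : Frm Ω n) :: P).length = N + 1 := by simp [hlen]
    rw [hlen', Pp_cons] at h1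
    refine h1.trans ?_
    simp only
    have h2 : nrm (down ℓ c) ≤ ((κ : ℝ) + 1) * nrm c := by
      refine (nrm_down_le ℓ c κ (fun ν hν => ?_)).trans ?_
      · have := hbud ν hν
        omega
      · exact mul_le_mul_of_nonneg_right (sqrt_two_mul_le κ) hcn
    have h3 : ((b + ℓ : ℕ) : ℝ) + 1 ≤ 2 * ((κ : ℝ) + 1) := by
      have : b + ℓ + 1 ≤ 2 * (κ + 1) := by omega
      exact_mod_cast this
    have h5 := nrm_nonneg' (down ℓ c)
    calc 2 * 2 ^ (N + 1) * ((((b + ℓ : ℕ) : ℝ) + 1) * Pp P) * nrm (down ℓ c) * AA p H κb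
        ≤ 2 * 2 ^ (N + 1) * ((2 * ((κ : ℝ) + 1)) * Pp P) * (((κ : ℝ) + 1) * nrm c) * AA p H κb := by
          gcongr
      _ = _ := by ring
  have := Inte_sum_bound (Finset.range (κ + 1)) hH hpge hkey
  simpa using this

/-- The contribution of the derivative falling on a form. -/
theorem lam_first (hn : 0 < n) {p κ κb a b N : ℕ} (hb : b < a) (hκb : κb = κ - (a - b) - 1)
    {H : Ω → Pt n → ℝ} {x y hu hv : Ω → Pt n → Fin n → ℝ} (hH : ∀ ω, PG (H ω))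
    (hx : GoodV x) (hy : GoodV y) (hhu : GoodV hu) (hhv : GoodV hv)
    (IH : IHb p Ω n κb N) (c : Wt →₀ ℝ) (e' : ℕ)
    (L'' P : List (Frm Ω n)) (hlen : P.length + L''.length + 1 = N)
    (hP : ∀ f ∈ P, GoodF f) (hL'' : ∀ f ∈ L'', GoodF f)
    (hbud : ∀ ν ∈ c.support, a + Eo P + (e' + 1) + Eo L'' + dg ν ≤ κ)
    (hk : a + Eo P + (e' + 1) + Eo L'' ≤ κ) :
    PGE (fun ω g => fp P ω g * (lam (x ω g) (y ω g) b (Xf (hu ω g) (hv ω g) (e' + 1)) *
      (fp L'' ω g * Sc n c))) ∧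
    |Inte H (fun ω g => fp P ω g * (lam (x ω g) (y ω g) b (Xf (hu ω g) (hv ω g) (e' + 1)) *
      (fp L'' ω g * Sc n c)))| ≤
      (1 / (n : ℝ)) * (2 * ((e' : ℝ) + 1) * ((κ : ℝ) + 1)) *
        (2 * 2 ^ (N + 1) * Pp P * (((e' + 1 : ℕ) : ℝ) + 1) * Pp L'' * nrm c * AA p H κb) := by
  have hn' : (0 : ℝ) < n := by exact_mod_cast hn
  set A1 : ℕ → List (Frm Ω n) := fun i =>
    (⟨x, hu, i⟩ : Frm Ω n) :: (⟨hv, y, b + (e' - i)⟩ : Frm Ω n) :: (P ++ L'') with hA1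
  set A2 : ℕ → List (Frm Ω n) := fun i =>
    (⟨hu, y, b + i⟩ : Frm Ω n) :: (⟨x, hv, e' - i⟩ : Frm Ω n) :: (P ++ L'') with hA2
  have hPL : ∀ f ∈ P ++ L'', GoodF f := by
    intro f hf
    rcases List.mem_append.mp hf with hf | hf
    · exact hP f hf
    · exact hL'' f hf
  have hg1 : ∀ i, ∀ f ∈ A1 i, GoodF f := by
    intro i f hf
    simp only [hA1, List.mem_cons] at hf
    rcases hf with rfl | rfl | hf
    · exact ⟨hx, hhu⟩
    · exact ⟨hhv, hy⟩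
    · exact hPL f hf
  have hg2 : ∀ i, ∀ f ∈ A2 i, GoodF f := by
    intro i f hf
    simp only [hA2, List.mem_cons] at hf
    rcases hf with rfl | rfl | hf
    · exact ⟨hhu, hy⟩
    · exact ⟨hx, hhv⟩
    · exact hPL f hf
  have e : (fun ω g => fp P ω g * (lam (x ω g) (y ω g) b (Xf (hu ω g) (hv ω g) (e' + 1)) *
      (fp L'' ω g * Sc n c))) = fun ω g => C (1 / (n : ℝ)) * ∑ i ∈ Finset.range (e' + 1),
        (fp (A1 i) ω g * Sc n c + fp (A2 i) ω g * Sc n c) := by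
    funext ω g
    rw [lam_Xf hn, mul_assoc (C (1 / (n : ℝ))), mul_left_comm, Finset.sum_mul, Finset.mul_sum]
    refine congrArg _ (Finset.sum_congr rfl fun i _ => ?_)
    simp only [hA1, hA2, fp_cons, fp_append]
    ring
  have hpge : ∀ i ∈ Finset.range (e' + 1), PGE (fun ω g =>
      fp (A1 i) ω g * Sc n c + fp (A2 i) ω g * Sc n c) :=
    fun i _ => PGE_add (PGE_fp _ (hg1 i) _) (PGE_fp _ (hg2 i) _)
  rw [e]
  refine ⟨PGE_C_mul _ (PGE_sum _ hpge), ?_⟩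
  rw [Inte_C_mul, abs_mul, abs_of_nonneg (by positivity : (0 : ℝ) ≤ 1 / (n : ℝ))]
  have hA := AA_nonneg p H κb
  have hPn := Pp_nonneg P
  have hLn := Pp_nonneg L''
  have hcn := nrm_nonneg' c
  set B : ℝ := 2 * 2 ^ (N + 1) * Pp P * (((e' + 1 : ℕ) : ℝ) + 1) * Pp L'' * nrm c * AA p H κb with hB
  have hBn : 0 ≤ B := by
    rw [hB]
    positivity
  have hκ1 : (0 : ℝ) ≤ (κ : ℝ) + 1 := by positivity
  have key1 : ∀ i ∈ Finset.range (e' + 1), |Inte H (fun ω g => fp (A1 i) ω g * Sc n c)| ≤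
      ((κ : ℝ) + 1) * B := by
    intro i hi
    have hi' : i < e' + 1 := Finset.mem_range.mp hi
    have hlen' : (A1 i).length = N + 1 := by
      simp only [hA1, List.length_cons, List.length_append]
      omega
    have h1 := IH (A1 i) hlen' (hg1 i) H c hH (by
      intro ν hν
      have h2 := hbud ν hν
      simp only [hA1, Eo_cons, Eo_append]
      omega)
    rw [hlen'] at h1
    refine h1.trans ?_
    simp only [hA1, Pp_cons, Pp_append]
    have h3 : ((i : ℝ) + 1) ≤ ((e' + 1 : ℕ) : ℝ) + 1 := by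
      have : i + 1 ≤ (e' + 1) + 1 := by omega
      exact_mod_cast this
    have h4 : (((b + (e' - i) : ℕ) : ℝ) + 1) ≤ (κ : ℝ) + 1 := by
      have : (b + (e' - i)) + 1 ≤ κ + 1 := by omega
      exact_mod_cast this
    have h5 : 0 ≤ ((i : ℝ) + 1) := by positivity
    have h6 : 0 ≤ (((b + (e' - i) : ℕ) : ℝ) + 1) := by positivity
    have h7 : ((i : ℝ) + 1) * (((b + (e' - i) : ℕ) : ℝ) + 1) ≤
        (((e' + 1 : ℕ) : ℝ) + 1) * ((κ : ℝ) + 1) :=
      mul_le_mul h3 h4 h6 (by positivity)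
    have h8 : 0 ≤ 2 * 2 ^ (N + 1) * (Pp P * Pp L'') * nrm c * AA p H κb := by positivity
    calc 2 * 2 ^ (N + 1) * (((i : ℝ) + 1) * ((((b + (e' - i) : ℕ) : ℝ) + 1) * (Pp P * Pp L''))) *
          nrm c * AA p H κb
        = (((i : ℝ) + 1) * (((b + (e' - i) : ℕ) : ℝ) + 1)) *
          (2 * 2 ^ (N + 1) * (Pp P * Pp L'') * nrm c * AA p H κb) := by ring
      _ ≤ ((((e' + 1 : ℕ) : ℝ) + 1) * ((κ : ℝ) + 1)) *
          (2 * 2 ^ (N + 1) * (Pp P * Pp L'') * nrm c * AA p H κb) :=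
        mul_le_mul_of_nonneg_right h7 h8
      _ = _ := by rw [hB]; ring
  have key2 : ∀ i ∈ Finset.range (e' + 1), |Inte H (fun ω g => fp (A2 i) ω g * Sc n c)| ≤
      ((κ : ℝ) + 1) * B := by
    intro i hi
    have hi' : i < e' + 1 := Finset.mem_range.mp hi
    have hlen' : (A2 i).length = N + 1 := by
      simp only [hA2, List.length_cons, List.length_append]
      omega
    have h1 := IH (A2 i) hlen' (hg2 i) H c hH (by
      intro ν hν
      have h2 := hbud ν hν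
      simp only [hA2, Eo_cons, Eo_append]
      omega)
    rw [hlen'] at h1
    refine h1.trans ?_
    simp only [hA2, Pp_cons, Pp_append]
    have h3 : ((e' - i : ℕ) : ℝ) + 1 ≤ ((e' + 1 : ℕ) : ℝ) + 1 := by
      have : (e' - i) + 1 ≤ (e' + 1) + 1 := by omega
      exact_mod_cast this
    have h4 : (((b + i : ℕ) : ℝ) + 1) ≤ (κ : ℝ) + 1 := by
      have : (b + i) + 1 ≤ κ + 1 := by omega
      exact_mod_cast this
    have h7 : (((b + i : ℕ) : ℝ) + 1) * (((e' - i : ℕ) : ℝ) + 1) ≤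
        ((κ : ℝ) + 1) * (((e' + 1 : ℕ) : ℝ) + 1) :=
      mul_le_mul h4 h3 (by positivity) (by positivity)
    have h8 : 0 ≤ 2 * 2 ^ (N + 1) * (Pp P * Pp L'') * nrm c * AA p H κb := by positivity
    calc 2 * 2 ^ (N + 1) * ((((b + i : ℕ) : ℝ) + 1) * ((((e' - i : ℕ) : ℝ) + 1) * (Pp P * Pp L''))) *
          nrm c * AA p H κb
        = (((b + i : ℕ) : ℝ) + 1) * (((e' - i : ℕ) : ℝ) + 1) *
          (2 * 2 ^ (N + 1) * (Pp P * Pp L'') * nrm c * AA p H κb) := by ring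
      _ ≤ (((κ : ℝ) + 1) * (((e' + 1 : ℕ) : ℝ) + 1)) *
          (2 * 2 ^ (N + 1) * (Pp P * Pp L'') * nrm c * AA p H κb) :=
        mul_le_mul_of_nonneg_right h7 h8
      _ = _ := by rw [hB]; ring
  have key : ∀ i ∈ Finset.range (e' + 1), |Inte H (fun ω g =>
      fp (A1 i) ω g * Sc n c + fp (A2 i) ω g * Sc n c)| ≤ 2 * (((κ : ℝ) + 1) * B) := by
    intro i hi
    rw [Inte_add hH (PGE_fp _ (hg1 i) _) (PGE_fp _ (hg2 i) _)]
    have h1 := key1 i hi
    have h2 := key2 i hi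
    have h3 := abs_add_le (Inte H fun ω g => fp (A1 i) ω g * Sc n c)
      (Inte H fun ω g => fp (A2 i) ω g * Sc n c)
    linarith
  have hS := Inte_sum_bound (Finset.range (e' + 1)) hH hpge key
  rw [Finset.card_range] at hS
  calc 1 / (n : ℝ) * |Inte H fun ω g => ∑ i ∈ Finset.range (e' + 1),
        (fp (A1 i) ω g * Sc n c + fp (A2 i) ω g * Sc n c)|
      ≤ 1 / (n : ℝ) * (((e' + 1 : ℕ) : ℝ) * (2 * (((κ : ℝ) + 1) * B))) :=
        mul_le_mul_of_nonneg_left hS (by positivity)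
    _ = _ := by push_cast; ring

/-- The recursion on the second list. -/
theorem lam_list (hn : 0 < n) {p κ κb a b N : ℕ} (hb : b < a) (hκb : κb = κ - (a - b) - 1)
    {H : Ω → Pt n → ℝ} {x y : Ω → Pt n → Fin n → ℝ} (hH : ∀ ω, PG (H ω))
    (hx : GoodV x) (hy : GoodV y) (IH : IHb p Ω n κb N) (c : Wt →₀ ℝ)
    (L' : List (Frm Ω n)) : ∀ (P : List (Frm Ω n)), P.length + L'.length = N →
    (∀ f ∈ P, GoodF f) → (∀ f ∈ L', GoodF f) →
    (∀ ν ∈ c.support, a + Eo P + Eo L' + dg ν ≤ κ) → a + Eo P + Eo L' ≤ κ →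
    PGE (fun ω g => fp P ω g * lam (x ω g) (y ω g) b (fp L' ω g * Sc n c)) ∧
    |Inte H (fun ω g => fp P ω g * lam (x ω g) (y ω g) b (fp L' ω g * Sc n c))| ≤
      (1 / (n : ℝ)) * (2 * (Eo L' : ℝ) * ((κ : ℝ) + 1) + 2 * ((κ : ℝ) + 1) ^ 3) *
        (2 * 2 ^ (N + 1) * Pp P * Pp L' * nrm c * AA p H κb) := by
  have hn' : (0 : ℝ) < n := by exact_mod_cast hn
  induction L' with
  | nil =>
    intro P hlen hP _ hbud hk
    have := lam_base hn hb hκb hH hx hy IH c P (by simpa using hlen) hP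
      (by simpa using hbud) (by simpa using hk)
    simp only [fp_nil, one_mul, Eo_nil, Pp_nil, mul_one]
    refine ⟨this.1, this.2.trans (le_of_eq ?_)⟩
    push_cast
    ring
  | cons h L'' ih =>
    intro P hlen hP hL' hbud hk
    have hh : GoodF h := hL' h List.mem_cons_self
    have hL'' : ∀ f ∈ L'', GoodF f := fun f hf => hL' f (List.mem_cons_of_mem _ hf)
    have e : (fun ω g => fp P ω g * lam (x ω g) (y ω g) b (fp (h :: L'') ω g * Sc n c)) =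
        fun ω g => fp P ω g * (lam (x ω g) (y ω g) b (Xf (h.u ω g) (h.v ω g) h.e) *
          (fp L'' ω g * Sc n c)) +
        fp (P ++ [h]) ω g * lam (x ω g) (y ω g) b (fp L'' ω g * Sc n c) := by
      funext ω g
      rw [fp_cons, mul_assoc, lam_mul, mul_add, fp_append, fp_cons, fp_nil, mul_one, mul_assoc]
    rw [Eo_cons] at hbud hk
    simp only [List.length_cons] at hlen
    have hih := ih (P ++ [h])
      (by
        simp only [List.length_append, List.length_cons, List.length_nil]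
        omega)
      (by
        intro f hf
        rcases List.mem_append.mp hf with hf | hf
        · exact hP f hf
        · rcases List.mem_singleton.mp hf with rfl
          exact hh) hL''
      (by
        intro ν hν
        have := hbud ν hν
        rw [Eo_append, Eo_cons, Eo_nil]
        omega)
      (by
        rw [Eo_append, Eo_cons, Eo_nil]
        omega)
    have hfirst : PGE (fun ω g => fp P ω g * (lam (x ω g) (y ω g) b (Xf (h.u ω g) (h.v ω g) h.e) *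
          (fp L'' ω g * Sc n c))) ∧
        |Inte H (fun ω g => fp P ω g * (lam (x ω g) (y ω g) b (Xf (h.u ω g) (h.v ω g) h.e) *
          (fp L'' ω g * Sc n c)))| ≤
        (1 / (n : ℝ)) * (2 * (h.e : ℝ) * ((κ : ℝ) + 1)) *
          (2 * 2 ^ (N + 1) * Pp P * ((h.e : ℝ) + 1) * Pp L'' * nrm c * AA p H κb) := by
      rcases h with ⟨hu, hv, e'⟩
      cases e' with
      | zero =>
        simp only [lam_Xf_zero, zero_mul, mul_zero]
        refine ⟨fun ω => by simpa [map_zero] using PG.const (0 : ℝ), ?_⟩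
        simp [Inte]
      | succ e' =>
        have := lam_first hn hb hκb hH hx hy hh.1 hh.2 IH c e' L'' P (by omega) hP hL''
          (by simpa [add_assoc] using hbud) (by simpa [add_assoc] using hk)
        refine ⟨this.1, this.2.trans (le_of_eq ?_)⟩
        push_cast
        ring
    rw [e]
    have hPGE2 := hih.1
    refine ⟨PGE_add hfirst.1 hPGE2, ?_⟩
    rw [Inte_add hH hfirst.1 hPGE2]
    refine (abs_add_le _ _).trans ?_
    refine (add_le_add hfirst.2 hih.2).trans (le_of_eq ?_)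
    rw [Pp_append, Pp_cons, Pp_cons, Pp_nil, Eo_cons]
    push_cast
    ring

/-- First error term. -/
theorem err_T1 {p κ κb a b N : ℕ} (hn : 0 < n) (hb : b < a) (hκb : κb = κ - (a - b) - 1)
    {H : Ω → Pt n → ℝ} {x y : Ω → Pt n → Fin n → ℝ} (hH : ∀ ω, PG (H ω))
    (hx : GoodV x) (hy : GoodV y) (IH : IHb p Ω n κb N) (c : Wt →₀ ℝ)
    (L' : List (Frm Ω n)) (hlen : L'.length = N) (hL' : ∀ f ∈ L', GoodF f)
    (hbud : ∀ ν ∈ c.support, a + Eo L' + dg ν ≤ κ) (hk : a + Eo L' ≤ κ) :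
    PGE (fun ω g => C ((b : ℝ) / n) *
        (fp ((⟨x, y, b - 1⟩ : Frm Ω n) :: L') ω g * Sc n c)) ∧
      |Inte H (fun ω g => C ((b : ℝ) / n) *
        (fp ((⟨x, y, b - 1⟩ : Frm Ω n) :: L') ω g * Sc n c))| ≤
        (((κ : ℝ) + 1) ^ 3 / n) * (2 * 2 ^ (N + 1) * Pp L' * nrm c * AA p H κb) := by
  have hn' : (0 : ℝ) < n := by exact_mod_cast hn
  have hA := AA_nonneg p H κb
  have hLn := Pp_nonneg L'
  have hcn := nrm_nonneg' c
  set B : ℝ := 2 * 2 ^ (N + 1) * Pp L' * nrm c * AA p H κb with hB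
  have hBn : 0 ≤ B := by
    rw [hB]
    positivity
  have hκ1 : (1 : ℝ) ≤ (κ : ℝ) + 1 := by
    have : (0 : ℝ) ≤ κ := Nat.cast_nonneg κ
    linarith
  have hgood : ∀ e, ∀ f ∈ ((⟨x, y, e⟩ : Frm Ω n) :: L'), GoodF f := by
    intro e f hf
    rcases List.mem_cons.mp hf with rfl | hf
    · exact ⟨hx, hy⟩
    · exact hL' f hf
  refine ⟨PGE_C_mul _ (PGE_fp _ (hgood _) _), ?_⟩
  rw [Inte_C_mul, abs_mul, abs_of_nonneg (by positivity : (0 : ℝ) ≤ (b : ℝ) / n)]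
  rcases Nat.eq_zero_or_pos b with rfl | hbpos
  · simp only [Nat.cast_zero, zero_div, zero_mul]
    positivity
  · have hlen' : ((⟨x, y, b - 1⟩ : Frm Ω n) :: L').length = N + 1 := by simp [hlen]
    have h1 := IH ((⟨x, y, b - 1⟩ : Frm Ω n) :: L') hlen' (hgood _) H c hH (by
      intro ν hν
      have h2 := hbud ν hν
      rw [Eo_cons]
      simp only
      omega)
    rw [hlen', Pp_cons] at h1
    simp only at h1
    have e1 : (((b - 1 : ℕ) : ℝ) + 1) = b := by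
      have : b - 1 + 1 = b := by omega
      exact_mod_cast this
    rw [e1] at h1
    have h2 : |Inte H (fun ω g => fp ((⟨x, y, b - 1⟩ : Frm Ω n) :: L') ω g * Sc n c)| ≤
        (b : ℝ) * B := by
      refine h1.trans (le_of_eq ?_)
      rw [hB]
      ring
    have hbκ : (b : ℝ) ≤ (κ : ℝ) + 1 := by
      have : b ≤ κ + 1 := by omega
      exact_mod_cast this
    have hb0 : (0 : ℝ) ≤ b := Nat.cast_nonneg b
    have h3 : (b : ℝ) * b ≤ ((κ : ℝ) + 1) ^ 3 := by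
      have h4 : (b : ℝ) * b ≤ ((κ : ℝ) + 1) * ((κ : ℝ) + 1) := mul_le_mul hbκ hbκ hb0 (by linarith)
      have h5 : ((κ : ℝ) + 1) * ((κ : ℝ) + 1) ≤ ((κ : ℝ) + 1) ^ 3 := by
        nlinarith [mul_nonneg (by linarith : (0 : ℝ) ≤ (κ : ℝ) + 1) (by linarith : (0 : ℝ) ≤ (κ : ℝ) + 1)]
      linarith
    calc (b : ℝ) / n * _ ≤ (b : ℝ) / n * ((b : ℝ) * B) :=
          mul_le_mul_of_nonneg_left h2 (by positivity)
      _ = ((b : ℝ) * b) / n * B := by ring
      _ ≤ ((κ : ℝ) + 1) ^ 3 / n * B := by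
        refine mul_le_mul_of_nonneg_right ?_ hBn
        exact div_le_div_of_nonneg_right h3 hn'.le

/-- Second error term. -/
theorem err_T2 {p κ κb a b N : ℕ} (hn : 0 < n) (hb : b < a) (hκb : κb = κ - (a - b) - 1)
    {H : Ω → Pt n → ℝ} {x y : Ω → Pt n → Fin n → ℝ} (hH : ∀ ω, PG (H ω))
    (hx : GoodV x) (hy : GoodV y) (IH : IHb p Ω n κb N) (c : Wt →₀ ℝ)
    (L' : List (Frm Ω n)) (hlen : L'.length = N) (hL' : ∀ f ∈ L', GoodF f)
    (hbud : ∀ ν ∈ c.support, a + Eo L' + dg ν ≤ κ) (hk : a + Eo L' ≤ κ) :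
    PGE (fun ω g => C (1 / (n : ℝ)) * ∑ j ∈ Finset.range (b - 1),
        fp ((⟨x, y, b - 2 - j⟩ : Frm Ω n) :: L') ω g * Sc n (up j c)) ∧
      |Inte H (fun ω g => C (1 / (n : ℝ)) * ∑ j ∈ Finset.range (b - 1),
        fp ((⟨x, y, b - 2 - j⟩ : Frm Ω n) :: L') ω g * Sc n (up j c))| ≤
        (((κ : ℝ) + 1) ^ 3 / n) * (2 * 2 ^ (N + 1) * Pp L' * nrm c * AA p H κb) := by
  have hn' : (0 : ℝ) < n := by exact_mod_cast hn
  have hA := AA_nonneg p H κb
  have hLn := Pp_nonneg L'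
  have hcn := nrm_nonneg' c
  set B : ℝ := 2 * 2 ^ (N + 1) * Pp L' * nrm c * AA p H κb with hB
  have hBn : 0 ≤ B := by
    rw [hB]
    positivity
  have hκ1 : (1 : ℝ) ≤ (κ : ℝ) + 1 := by
    have : (0 : ℝ) ≤ κ := Nat.cast_nonneg κ
    linarith
  have hgood : ∀ e, ∀ f ∈ ((⟨x, y, e⟩ : Frm Ω n) :: L'), GoodF f := by
    intro e f hf
    rcases List.mem_cons.mp hf with rfl | hf
    · exact ⟨hx, hy⟩
    · exact hL' f hf
  have hpge : ∀ j ∈ Finset.range (b - 1), PGE (fun ω g =>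
      fp ((⟨x, y, b - 2 - j⟩ : Frm Ω n) :: L') ω g * Sc n (up j c)) :=
    fun j _ => PGE_fp _ (hgood _) _
  refine ⟨PGE_C_mul _ (PGE_sum _ hpge), ?_⟩
  rw [Inte_C_mul, abs_mul, abs_of_nonneg (by positivity : (0 : ℝ) ≤ 1 / (n : ℝ))]
  have key : ∀ j ∈ Finset.range (b - 1), |Inte H (fun ω g =>
      fp ((⟨x, y, b - 2 - j⟩ : Frm Ω n) :: L') ω g * Sc n (up j c))| ≤
      ((κ : ℝ) + 1) ^ 2 * B := by
    intro j hj
    have hj' := Finset.mem_range.mp hj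
    have hlen' : ((⟨x, y, b - 2 - j⟩ : Frm Ω n) :: L').length = N + 1 := by simp [hlen]
    have h1 := IH ((⟨x, y, b - 2 - j⟩ : Frm Ω n) :: L') hlen' (hgood _) H (up j c) hH (by
      intro μ hμ
      obtain ⟨ν, hν, rfl⟩ := support_up j c hμ
      have h2 := hbud ν hν
      rw [Eo_cons, dg_cons]
      simp only
      omega)
    rw [hlen', Pp_cons] at h1
    simp only at h1
    refine h1.trans ?_
    have h2 : nrm (up j c) ≤ ((κ : ℝ) + 1) * nrm c := by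
      refine (nrm_up_le j c κ (fun ν hν => ?_)).trans ?_
      · have := hbud ν hν
        omega
      · exact mul_le_mul_of_nonneg_right (sqrt_two_mul_le κ) hcn
    have h3 : ((b - 2 - j : ℕ) : ℝ) + 1 ≤ (κ : ℝ) + 1 := by
      have : (b - 2 - j) + 1 ≤ κ + 1 := by omega
      exact_mod_cast this
    have h5 := nrm_nonneg' (up j c)
    calc 2 * 2 ^ (N + 1) * ((((b - 2 - j : ℕ) : ℝ) + 1) * Pp L') * nrm (up j c) * AA p H κb
        ≤ 2 * 2 ^ (N + 1) * (((κ : ℝ) + 1) * Pp L') * (((κ : ℝ) + 1) * nrm c) * AA p H κb := by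
          gcongr
      _ = _ := by rw [hB]; ring
  have hS := Inte_sum_bound (Finset.range (b - 1)) hH hpge key
  rw [Finset.card_range] at hS
  have hcard : ((b - 1 : ℕ) : ℝ) ≤ (κ : ℝ) + 1 := by
    have : b - 1 ≤ κ + 1 := by omega
    exact_mod_cast this
  calc 1 / (n : ℝ) * _ ≤ 1 / (n : ℝ) * (((b - 1 : ℕ) : ℝ) * (((κ : ℝ) + 1) ^ 2 * B)) :=
        mul_le_mul_of_nonneg_left hS (by positivity)
    _ ≤ 1 / (n : ℝ) * (((κ : ℝ) + 1) * (((κ : ℝ) + 1) ^ 2 * B)) := by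
        refine mul_le_mul_of_nonneg_left ?_ (by positivity)
        exact mul_le_mul_of_nonneg_right hcard (by positivity)
    _ = _ := by ring

/-- Third error term. -/
theorem err_T3 {p κ κb a b N : ℕ} (hn : 0 < n) (hb : b < a) (hκb : κb = κ - (a - b) - 1)
    {H : Ω → Pt n → ℝ} {x y : Ω → Pt n → Fin n → ℝ} (hH : ∀ ω, PG (H ω))
    (hx : GoodV x) (hy : GoodV y) (IH : IHb p Ω n κb N) (c : Wt →₀ ℝ)
    (L' : List (Frm Ω n)) (hlen : L'.length = N) (hL' : ∀ f ∈ L', GoodF f)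
    (hbud : ∀ ν ∈ c.support, a + Eo L' + dg ν ≤ κ) (hk : a + Eo L' ≤ κ) :
    PGE (fun ω g => fp ([] : List (Frm Ω n)) ω g *
      lam (x ω g) (y ω g) b (fp L' ω g * Sc n c)) ∧
    |Inte H (fun ω g => fp ([] : List (Frm Ω n)) ω g *
      lam (x ω g) (y ω g) b (fp L' ω g * Sc n c))| ≤
      (4 * ((κ : ℝ) + 1) ^ 3 / n) * (2 * 2 ^ (N + 1) * Pp L' * nrm c * AA p H κb) := by
  have hn' : (0 : ℝ) < n := by exact_mod_cast hn
  have hA := AA_nonneg p H κb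
  have hLn := Pp_nonneg L'
  have hcn := nrm_nonneg' c
  set B : ℝ := 2 * 2 ^ (N + 1) * Pp L' * nrm c * AA p H κb with hB
  have hBn : 0 ≤ B := by
    rw [hB]
    positivity
  have hκ1 : (1 : ℝ) ≤ (κ : ℝ) + 1 := by
    have : (0 : ℝ) ≤ κ := Nat.cast_nonneg κ
    linarith
  have hT3 := lam_list hn hb hκb hH hx hy IH c L' [] (by simpa using hlen) (by simp) hL'
    (by simpa using hbud) (by simpa using hk)
  refine ⟨hT3.1, hT3.2.trans ?_⟩
  simp only [Pp_nil, mul_one]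
  have hE : (Eo L' : ℝ) ≤ (κ : ℝ) + 1 := by
    have : Eo L' ≤ κ + 1 := by omega
    exact_mod_cast this
  have hE0 : (0 : ℝ) ≤ Eo L' := Nat.cast_nonneg _
  have h1 : 2 * (Eo L' : ℝ) * ((κ : ℝ) + 1) + 2 * ((κ : ℝ) + 1) ^ 3 ≤ 4 * ((κ : ℝ) + 1) ^ 3 := by
    have h2 : (Eo L' : ℝ) * ((κ : ℝ) + 1) ≤ ((κ : ℝ) + 1) * ((κ : ℝ) + 1) :=
      mul_le_mul_of_nonneg_right hE (by linarith)
    have h3 : ((κ : ℝ) + 1) * ((κ : ℝ) + 1) ≤ ((κ : ℝ) + 1) ^ 3 := by
      nlinarith [mul_nonneg (by linarith : (0 : ℝ) ≤ (κ : ℝ) + 1) (by linarith : (0 : ℝ) ≤ (κ : ℝ) + 1)]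
    nlinarith
  have hB' : 2 * 2 ^ (N + 1) * Pp L' * nrm c * AA p H κb = B := rfl
  calc 1 / (n : ℝ) * (2 * (Eo L' : ℝ) * ((κ : ℝ) + 1) + 2 * ((κ : ℝ) + 1) ^ 3) *
        (2 * 2 ^ (N + 1) * Pp L' * nrm c * AA p H κb)
      = (2 * (Eo L' : ℝ) * ((κ : ℝ) + 1) + 2 * ((κ : ℝ) + 1) ^ 3) / n * B := by
        rw [hB']
        ring
    _ ≤ 4 * ((κ : ℝ) + 1) ^ 3 / n * B := by
        refine mul_le_mul_of_nonneg_right ?_ hBn
        exact div_le_div_of_nonneg_right h1 hn'.le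

/-- The bound for the error terms of the Chebyshev inversion. -/
theorem err_bound (hn : 0 < n) {p κ κb a b N : ℕ} (hb : b < a) (hκb : κb = κ - (a - b) - 1)
    {H : Ω → Pt n → ℝ} {x y : Ω → Pt n → Fin n → ℝ} (hH : ∀ ω, PG (H ω))
    (hx : GoodV x) (hy : GoodV y) (IH : IHb p Ω n κb N) (c : Wt →₀ ℝ)
    (L' : List (Frm Ω n)) (hlen : L'.length = N) (hL' : ∀ f ∈ L', GoodF f)
    (hbud : ∀ ν ∈ c.support, a + Eo L' + dg ν ≤ κ) (hk : a + Eo L' ≤ κ) :
    PGE (fun ω g => errPoly (x ω g) (y ω g) b (fp L' ω g * Sc n c)) ∧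
    |Inte H (fun ω g => errPoly (x ω g) (y ω g) b (fp L' ω g * Sc n c))| ≤
      (6 * ((κ : ℝ) + 1) ^ 3 / n) * (2 * 2 ^ (N + 1) * Pp L' * nrm c * AA p H κb) := by
  have e : (fun ω g => errPoly (x ω g) (y ω g) b (fp L' ω g * Sc n c)) = fun ω g =>
      (C ((b : ℝ) / n) * (fp ((⟨x, y, b - 1⟩ : Frm Ω n) :: L') ω g * Sc n c)
        + C (1 / (n : ℝ)) * ∑ j ∈ Finset.range (b - 1),
            fp ((⟨x, y, b - 2 - j⟩ : Frm Ω n) :: L') ω g * Sc n (up j c))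
        + fp ([] : List (Frm Ω n)) ω g * lam (x ω g) (y ω g) b (fp L' ω g * Sc n c) := by
    funext ω g
    rw [errPoly_eq, fp_nil, one_mul, fp_cons, mul_assoc]
    simp only [fp_cons, ← Trc_mul_Sc hn]
    congr 2
    refine congrArg _ (Finset.sum_congr rfl fun j _ => ?_)
    ring
  have hT1 := err_T1 hn hb hκb hH hx hy IH c L' hlen hL' hbud hk
  have hT2 := err_T2 hn hb hκb hH hx hy IH c L' hlen hL' hbud hk
  have hT3 := err_T3 hn hb hκb hH hx hy IH c L' hlen hL' hbud hk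
  rw [e]
  refine ⟨PGE_add (PGE_add hT1.1 hT2.1) hT3.1, ?_⟩
  rw [Inte_add hH (PGE_add hT1.1 hT2.1) hT3.1, Inte_add hH hT1.1 hT2.1]
  refine (abs_add_le _ _).trans ?_
  have h1 := abs_add_le (Inte H fun ω g => C ((b : ℝ) / n) *
      (fp ((⟨x, y, b - 1⟩ : Frm Ω n) :: L') ω g * Sc n c))
    (Inte H fun ω g => C (1 / (n : ℝ)) * ∑ j ∈ Finset.range (b - 1),
      fp ((⟨x, y, b - 2 - j⟩ : Frm Ω n) :: L') ω g * Sc n (up j c))
  have h2 := hT1.2
  have h3 := hT2.2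
  have h4 := hT3.2
  set B : ℝ := 2 * 2 ^ (N + 1) * Pp L' * nrm c * AA p H κb with hB
  have e2 : (6 * ((κ : ℝ) + 1) ^ 3 / n) * B =
      (((κ : ℝ) + 1) ^ 3 / n) * B + (((κ : ℝ) + 1) ^ 3 / n) * B +
        (4 * ((κ : ℝ) + 1) ^ 3 / n) * B := by ring
  rw [e2]
  linarith

/-! ### The induction step -/

/-- The normalising weight of a Chebyshev matrix. -/
noncomputable def zet (p d : ℕ) (g : Pt n) : ℝ := ((d : ℝ) + 1) * rhoH p g ^ d

theorem rho_pos (p : ℕ) (g : Pt n) : 0 < rhoH p g := zero_lt_one.trans_le (rhoH_ge_one p g)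

theorem zet_pos (p d : ℕ) (g : Pt n) : 0 < zet p d g := by
  unfold zet
  have := rho_pos p g
  positivity

theorem PG_zet {p : ℕ} (hp1 : 1 ≤ p) (d : ℕ) : PG (zet (n := n) p d) :=
  (PG.const _).mul ((PG_rhoH hp1).pow d)

/-- The normalised field `U_d u`. -/
noncomputable def xb (p d : ℕ) (u : Ω → Pt n → Fin n → ℝ) : Ω → Pt n → Fin n → ℝ :=
  fun ω g => (zet p d g)⁻¹ • (chebM (Jh g) d).mulVec (u ω g)

omit [Fintype Ω] in
theorem goodV_xb {p d : ℕ} (hp1 : 1 ≤ p) (hd : d ≤ p) {u : Ω → Pt n → Fin n → ℝ} (hu : GoodV u) :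
    GoodV (xb p d u) := by
  constructor
  · intro ω x
    have h1 : Measurable fun g : Pt n => (chebM (Jh g) d).mulVec (u ω g) x := by
      simp only [Matrix.mulVec, dotProduct]
      exact Finset.measurable_sum _ fun y _ => (PG_chebM_entry d x y).1.mul (hu.1 ω y)
    exact ((PG_zet hp1 d).1.inv).mul h1
  · intro ω g
    have hz := zet_pos p d g
    have h1 := spectral_bound hp1 hd g (u ω g)
    have h2 := hu.2 ω g
    have e : ∑ x, (xb p d u ω g x) ^ 2 =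
        ((zet p d g)⁻¹) ^ 2 * ∑ x, ((chebM (Jh g) d).mulVec (u ω g) x) ^ 2 := by
      rw [Finset.mul_sum]
      refine Finset.sum_congr rfl fun x _ => ?_
      simp only [xb, Pi.smul_apply, smul_eq_mul]
      ring
    rw [e]
    have h3 : ((zet p d g)⁻¹) ^ 2 * ∑ x, ((chebM (Jh g) d).mulVec (u ω g) x) ^ 2 ≤
        ((zet p d g)⁻¹) ^ 2 * ((zet p d g) ^ 2 * ∑ x, (u ω g x) ^ 2) :=
      mul_le_mul_of_nonneg_left h1 (by positivity)
    refine h3.trans ?_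
    rw [← mul_assoc, ← mul_pow, inv_mul_cancel₀ hz.ne', one_pow, one_mul]
    exact h2

/-- The quadratic form of a Chebyshev matrix. -/
theorem dotq_bound (hn : 0 < n) {p a : ℕ} (hp1 : 1 ≤ p) (ha : a ≤ p) (g : Pt n)
    {u v : Fin n → ℝ} (hu : ∑ x, (u x) ^ 2 ≤ (n : ℝ)) (hv : ∑ x, (v x) ^ 2 ≤ (n : ℝ)) :
    |(1 / (n : ℝ)) * dotq u (chebM (Jh g) a) v| ≤ zet p a g := by
  have hn' : (0 : ℝ) < n := by exact_mod_cast hn
  have hz := zet_pos p a g
  have e : dotq u (chebM (Jh g) a) v = ∑ x, u x * (chebM (Jh g) a).mulVec v x := by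
    simp only [dotq, Matrix.mulVec, dotProduct, Finset.mul_sum]
    refine Finset.sum_congr rfl fun x _ => Finset.sum_congr rfl fun y _ => ?_
    ring
  have h1 := Finset.sum_mul_sq_le_sq_mul_sq Finset.univ u ((chebM (Jh g) a).mulVec v)
  have h2 := spectral_bound hp1 ha g v
  have hsq : (dotq u (chebM (Jh g) a) v) ^ 2 ≤ ((n : ℝ) * zet p a g) ^ 2 := by
    rw [e]
    refine h1.trans ?_
    have h3 : ∑ x, ((chebM (Jh g) a).mulVec v x) ^ 2 ≤ (zet p a g) ^ 2 * (n : ℝ) :=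
      h2.trans (mul_le_mul_of_nonneg_left hv (by positivity))
    have h4 : 0 ≤ ∑ x, ((chebM (Jh g) a).mulVec v x) ^ 2 :=
      Finset.sum_nonneg fun _ _ => sq_nonneg _
    calc (∑ x, u x ^ 2) * ∑ x, ((chebM (Jh g) a).mulVec v x) ^ 2
        ≤ (n : ℝ) * ((zet p a g) ^ 2 * (n : ℝ)) := mul_le_mul hu h3 h4 hn'.le
      _ = _ := by ring
  have h5 := abs_le_of_sq_le_sq hsq (by positivity)
  rw [abs_mul, abs_of_nonneg (by positivity : (0 : ℝ) ≤ 1 / (n : ℝ))]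
  rw [one_div, inv_mul_le_iff₀ hn']
  exact h5

theorem AA_scale {p d κ κ' : ℕ} (hp1 : 1 ≤ p) {G G' : Ω → Pt n → ℝ} (hG : ∀ ω, PG (G ω))
    (hd : d + κ' ≤ κ) (K : ℝ) (hK : 0 ≤ K)
    (h : ∀ ω g, |G' ω g| ≤ K * rhoH p g ^ d * |G ω g|) :
    AA p G' κ' ≤ K * AA p G κ := by
  refine AA_le_of hp1 hG hK fun g => ?_
  have hρ := rho_pos p g
  have hρ1 := rhoH_ge_one p g
  have hs0 : 0 ≤ ∑ ω, |G ω g| := Finset.sum_nonneg fun _ _ => abs_nonneg _
  have hs1 : 0 ≤ ∑ ω, |G' ω g| := Finset.sum_nonneg fun _ _ => abs_nonneg _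
  have h1 : ∑ ω, |G' ω g| ≤ K * rhoH p g ^ d * ∑ ω, |G ω g| := by
    rw [Finset.mul_sum]
    exact Finset.sum_le_sum fun ω _ => h ω g
  have h2 : (∑ ω, |G' ω g|) ^ 2 ≤ (K * rhoH p g ^ d * ∑ ω, |G ω g|) ^ 2 :=
    pow_le_pow_left₀ hs1 h1 2
  have h3 : rhoH p g ^ (2 * (d + κ')) ≤ rhoH p g ^ (2 * κ) :=
    pow_le_pow_right₀ hρ1 (by omega)
  calc (∑ ω, |G' ω g|) ^ 2 * rhoH p g ^ (2 * κ')
      ≤ (K * rhoH p g ^ d * ∑ ω, |G ω g|) ^ 2 * rhoH p g ^ (2 * κ') :=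
        mul_le_mul_of_nonneg_right h2 (by positivity)
    _ = K ^ 2 * ((∑ ω, |G ω g|) ^ 2 * rhoH p g ^ (2 * (d + κ'))) := by
        rw [mul_add 2 d κ', pow_add, mul_pow, mul_pow, ← pow_mul, mul_comm d 2]
        ring
    _ ≤ _ := by
        refine mul_le_mul_of_nonneg_left ?_ (by positivity)
        exact mul_le_mul_of_nonneg_left h3 (by positivity)

/-- Pointwise form of the Chebyshev inversion. -/
theorem Ev_step (hn : 0 < n) (p a : ℕ) (u v : Fin n → ℝ) (Q : Rr n) (g : Pt n) :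
    Ev (Xf u v a * Q) g = (1 / (n : ℝ)) * dotq u (chebM (Jh g) a) v * Ev Q g
      - ∑ b ∈ Finset.range a, zet p (a - 1 - b) g *
          Ev (errPoly ((zet p (a - 1 - b) g)⁻¹ • (chebM (Jh g) (a - 1 - b)).mulVec u) v b Q) g := by
  rw [inv_form hn]
  congr 1
  refine Finset.sum_congr rfl fun b _ => ?_
  rw [errPoly_smul_left, Ev_C_mul, ← mul_assoc, mul_inv_cancel₀ (zet_pos p _ g).ne', one_mul]

/-- The list form of the step identity. -/
theorem Inte_step (hn : 0 < n) {p : ℕ} (hp1 : 1 ≤ p) (f : Frm Ω n) (hf : GoodF f)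
    {G : Ω → Pt n → ℝ} (hG : ∀ ω, PG (G ω)) {Q : Ω → Pt n → Rr n} (hQ : PGE Q)
    (hE : ∀ b ∈ Finset.range f.e,
      PGE (fun ω g => errPoly (xb p (f.e - 1 - b) f.u ω g) (f.v ω g) b (Q ω g))) :
    Inte G (fun ω g => Xf (f.u ω g) (f.v ω g) f.e * Q ω g) =
      Inte (fun ω g => G ω g * ((1 / (n : ℝ)) * dotq (f.u ω g) (chebM (Jh g) f.e) (f.v ω g))) Q
      - ∑ b ∈ Finset.range f.e, Inte (fun ω g => G ω g * zet p (f.e - 1 - b) g)
          (fun ω g => errPoly (xb p (f.e - 1 - b) f.u ω g) (f.v ω g) b (Q ω g)) := by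
  have hGm : ∀ ω, PG (fun g => G ω g * ((1 / (n : ℝ)) *
      dotq (f.u ω g) (chebM (Jh g) f.e) (f.v ω g))) := by
    intro ω
    refine (hG ω).mul ((PG.const _).mul ?_)
    unfold dotq
    exact PG.finset_sum _ fun x _ => PG.finset_sum _ fun y _ =>
      ((hf.1.pg ω x).mul (hf.2.pg ω y)).mul (PG_chebM_entry _ x y)
  have hGb : ∀ b, ∀ ω, PG (fun g => G ω g * zet p (f.e - 1 - b) g) :=
    fun b ω => (hG ω).mul (PG_zet hp1 _)
  unfold Inte
  rw [← integral_finsetSum _ fun b hb => Inte_integrable (hGb b) (hE b hb),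
    ← integral_sub (Inte_integrable hGm hQ)
      (integrable_finsetSum _ fun b hb => Inte_integrable (hGb b) (hE b hb))]
  refine integral_congr_ae (Filter.Eventually.of_forall fun g => ?_)
  simp only
  rw [Finset.sum_comm, ← Finset.sum_sub_distrib]
  refine Finset.sum_congr rfl fun ω _ => ?_
  rw [Ev_step hn p, mul_sub, Finset.mul_sum]
  congr 1
  · ring
  · refine Finset.sum_congr rfl fun b _ => ?_
    simp only [xb]
    ring

theorem num_small {κ p : ℕ} (hκ : κ ≤ p) (hp : 1000 * (p + 1) ^ 6 ≤ n) :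
    12 * ((κ : ℝ) + 1) ^ 4 ≤ n := by
  have h1 : (κ + 1) ^ 4 ≤ (p + 1) ^ 6 :=
    (Nat.pow_le_pow_left (by omega) 4).trans (Nat.pow_le_pow_right (by omega) (by norm_num))
  have h2 : 12 * (κ + 1) ^ 4 ≤ n := by omega
  exact_mod_cast h2

/-- The bound for one error term in the induction step. -/
theorem err_step (hn : 0 < n) {p κ a b N : ℕ} (hp1 : 1 ≤ p) (hκ : κ ≤ p)
    (f : Frm Ω n) (L' : List (Frm Ω n)) (hlen : L'.length = N) (hf : GoodF f)
    (hL' : ∀ h ∈ L', GoodF h)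
    (hIH : ∀ κ' (L1 : List (Frm Ω n)), κ' + L1.length < κ + L'.length + 1 → κ' ≤ p →
      (∀ h ∈ L1, GoodF h) → WS p Ω κ' L1)
    {G : Ω → Pt n → ℝ} (hG : ∀ ω, PG (G ω)) (c : Wt →₀ ℝ)
    (hbud : ∀ ν ∈ c.support, a + Eo L' + dg ν ≤ κ) (hk : a + Eo L' ≤ κ) (hb : b < a) :
    PGE (fun ω g => errPoly (xb p (a - 1 - b) f.u ω g) (f.v ω g) b (fp L' ω g * Sc n c)) ∧
    |Inte (fun ω g => G ω g * zet p (a - 1 - b) g)
      (fun ω g => errPoly (xb p (a - 1 - b) f.u ω g) (f.v ω g) b (fp L' ω g * Sc n c))| ≤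
      (6 * ((κ : ℝ) + 1) ^ 3 / n) * ((a : ℝ) * (2 * 2 ^ (N + 1) * Pp L' * nrm c * AA p G κ)) := by
  have hn' : (0 : ℝ) < n := by exact_mod_cast hn
  have hd : a - 1 - b ≤ p := by omega
  have hx := goodV_xb hp1 hd hf.1
  have hIHb : IHb p Ω n (κ - (a - b) - 1) N := fun L1 hl hg =>
    hIH _ L1 (by omega) (by omega) hg
  have h0 := err_bound hn hb rfl (fun ω => (hG ω).mul (PG_zet hp1 (a - 1 - b))) hx hf.2 hIHb c L'
    hlen hL' hbud hk
  refine ⟨h0.1, h0.2.trans ?_⟩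
  have hAA : AA p (fun ω g => G ω g * zet p (a - 1 - b) g) (κ - (a - b) - 1) ≤
      (((a - 1 - b : ℕ) : ℝ) + 1) * AA p G κ := by
    refine AA_scale hp1 hG (d := a - 1 - b) (by omega) _ (by positivity) fun ω g => ?_
    rw [abs_mul, abs_of_pos (zet_pos p _ g), zet, mul_comm]
  have hdle : ((a - 1 - b : ℕ) : ℝ) + 1 ≤ a := by
    have : (a - 1 - b) + 1 ≤ a := by omega
    exact_mod_cast this
  have hA := AA_nonneg p G κ
  have hLn := Pp_nonneg L'
  have hcn := nrm_nonneg' c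
  have hAA' : AA p (fun ω g => G ω g * zet p (a - 1 - b) g) (κ - (a - b) - 1) ≤
      (a : ℝ) * AA p G κ := hAA.trans (mul_le_mul_of_nonneg_right hdle hA)
  calc (6 * ((κ : ℝ) + 1) ^ 3 / n) * (2 * 2 ^ (N + 1) * Pp L' * nrm c *
        AA p (fun ω g => G ω g * zet p (a - 1 - b) g) (κ - (a - b) - 1))
      ≤ (6 * ((κ : ℝ) + 1) ^ 3 / n) * (2 * 2 ^ (N + 1) * Pp L' * nrm c * ((a : ℝ) * AA p G κ)) := by
        gcongr
    _ = _ := by ring

/-- The induction step. -/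
theorem WS_cons (hn : 0 < n) {p κ : ℕ} (hp1 : 1 ≤ p) (hκ : κ ≤ p) (hp : 1000 * (p + 1) ^ 6 ≤ n)
    (f : Frm Ω n) (L' : List (Frm Ω n)) (hf : GoodF f) (hL' : ∀ h ∈ L', GoodF h)
    (hIH : ∀ κ' (L1 : List (Frm Ω n)), κ' + L1.length < κ + L'.length + 1 → κ' ≤ p →
      (∀ h ∈ L1, GoodF h) → WS p Ω κ' L1) :
    WS p Ω κ (f :: L') := by
  intro G c hG hc
  have hn' : (0 : ℝ) < n := by exact_mod_cast hn
  have hA := AA_nonneg p G κ
  have hLn := Pp_nonneg L'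
  have hcn := nrm_nonneg' c
  obtain ⟨a, ha⟩ : ∃ a, f.e = a := ⟨_, rfl⟩
  obtain ⟨N, hlen⟩ : ∃ N, L'.length = N := ⟨_, rfl⟩
  have hatarget : 2 * 2 ^ (f :: L').length * Pp (f :: L') * nrm c * AA p G κ =
      ((a : ℝ) + 1) * (2 * 2 ^ (N + 1) * Pp L' * nrm c * AA p G κ) := by
    rw [Pp_cons, ha]
    simp only [List.length_cons, hlen]
    ring
  rw [hatarget]
  set W : ℝ := 2 * 2 ^ (N + 1) * Pp L' * nrm c * AA p G κ with hW
  have hWn : 0 ≤ W := by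
    rw [hW]
    positivity
  by_cases hc0 : c = 0
  · subst hc0
    have : Inte G (fun ω g => fp (f :: L') ω g * Sc n 0) = 0 := by simp [Inte, Sc_zero]
    rw [this, abs_zero]
    positivity
  obtain ⟨ν₀, hν₀⟩ := Finsupp.support_nonempty_iff.mpr hc0
  have hbud : ∀ ν ∈ c.support, a + Eo L' + dg ν ≤ κ := fun ν hν => by
    have := hc ν hν
    rw [Eo_cons, ha] at this
    exact this
  have hk : a + Eo L' ≤ κ := by
    have := hbud ν₀ hν₀
    omega
  have herr : ∀ b ∈ Finset.range a, _ := fun b hb =>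
    err_step hn hp1 hκ f L' hlen hf hL' hIH hG c hbud hk (Finset.mem_range.mp hb)
  have hQ : PGE (fun ω g => fp L' ω g * Sc n c) := PGE_fp L' hL' _
  have hstep := Inte_step hn hp1 f hf hG hQ (by
    rw [ha]
    exact fun b hb => (herr b hb).1)
  have e0 : (fun ω g => fp (f :: L') ω g * Sc n c) = fun ω g =>
      Xf (f.u ω g) (f.v ω g) f.e * (fp L' ω g * Sc n c) := by
    funext ω g
    rw [fp_cons, mul_assoc]
  rw [e0, hstep, ha]
  -- the main term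
  have hGm : ∀ ω, PG (fun g => G ω g * ((1 / (n : ℝ)) *
      dotq (f.u ω g) (chebM (Jh g) a) (f.v ω g))) := by
    intro ω
    refine (hG ω).mul ((PG.const _).mul ?_)
    unfold dotq
    exact PG.finset_sum _ fun x _ => PG.finset_sum _ fun y _ =>
      ((hf.1.pg ω x).mul (hf.2.pg ω y)).mul (PG_chebM_entry _ x y)
  have hmain0 := hIH (κ - a) L' (by omega) (by omega) hL' _ c hGm (by
    intro ν hν
    have := hbud ν hν
    omega)
  rw [hlen] at hmain0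
  have hAAm : AA p (fun ω g => G ω g * ((1 / (n : ℝ)) *
      dotq (f.u ω g) (chebM (Jh g) a) (f.v ω g))) (κ - a) ≤ ((a : ℝ) + 1) * AA p G κ := by
    refine AA_scale hp1 hG (d := a) (by omega) _ (by positivity) fun ω g => ?_
    have hb := dotq_bound hn hp1 (by omega : a ≤ p) g (hf.1.2 ω g) (hf.2.2 ω g)
    rw [abs_mul, mul_comm]
    exact mul_le_mul_of_nonneg_right hb (abs_nonneg _)
  have hmain : |Inte (fun ω g => G ω g * ((1 / (n : ℝ)) *
      dotq (f.u ω g) (chebM (Jh g) a) (f.v ω g))) fun ω g => fp L' ω g * Sc n c| ≤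
      ((a : ℝ) + 1) * W / 2 := by
    refine hmain0.trans ?_
    calc 2 * 2 ^ N * Pp L' * nrm c * _
        ≤ 2 * 2 ^ N * Pp L' * nrm c * (((a : ℝ) + 1) * AA p G κ) :=
          mul_le_mul_of_nonneg_left hAAm (by positivity)
      _ = _ := by
          rw [hW]
          ring
  -- the errors
  have hsum : |∑ b ∈ Finset.range a, Inte (fun ω g => G ω g * zet p (a - 1 - b) g)
      (fun ω g => errPoly (xb p (a - 1 - b) f.u ω g) (f.v ω g) b (fp L' ω g * Sc n c))| ≤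
      (a : ℝ) * ((6 * ((κ : ℝ) + 1) ^ 3 / n) * ((a : ℝ) * W)) := by
    refine (Finset.abs_sum_le_sum_abs _ _).trans ?_
    calc _ ≤ ∑ b ∈ Finset.range a, ((6 * ((κ : ℝ) + 1) ^ 3 / n) * ((a : ℝ) * W)) :=
          Finset.sum_le_sum fun b hb => (herr b hb).2
      _ = _ := by simp
  have hsmall := num_small hκ hp
  have hafr : (a : ℝ) * a ≤ ((κ : ℝ) + 1) * ((a : ℝ) + 1) := by
    have h1 : (a : ℝ) ≤ (κ : ℝ) + 1 := by
      have : a ≤ κ + 1 := by omega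
      exact_mod_cast this
    have h2 : (0 : ℝ) ≤ a := Nat.cast_nonneg a
    exact mul_le_mul h1 (by linarith) h2 (by positivity)
  have hfrac : (a : ℝ) * ((6 * ((κ : ℝ) + 1) ^ 3 / n) * (a : ℝ)) ≤ ((a : ℝ) + 1) / 2 := by
    have e : (a : ℝ) * ((6 * ((κ : ℝ) + 1) ^ 3 / n) * (a : ℝ)) =
        (6 * ((κ : ℝ) + 1) ^ 3 * ((a : ℝ) * a)) / n := by ring
    rw [e, div_le_iff₀ hn']
    have h1 : 6 * ((κ : ℝ) + 1) ^ 3 * ((a : ℝ) * a) ≤
        6 * ((κ : ℝ) + 1) ^ 3 * (((κ : ℝ) + 1) * ((a : ℝ) + 1)) :=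
      mul_le_mul_of_nonneg_left hafr (by positivity)
    have h2 : (0 : ℝ) ≤ (a : ℝ) + 1 := by positivity
    have h3 : 6 * ((κ : ℝ) + 1) ^ 3 * (((κ : ℝ) + 1) * ((a : ℝ) + 1)) =
        (12 * ((κ : ℝ) + 1) ^ 4) * (((a : ℝ) + 1) / 2) := by ring
    have h4 : (12 * ((κ : ℝ) + 1) ^ 4) * (((a : ℝ) + 1) / 2) ≤ (n : ℝ) * (((a : ℝ) + 1) / 2) :=
      mul_le_mul_of_nonneg_right hsmall (by positivity)
    calc _ ≤ _ := h1
      _ = _ := h3
      _ ≤ _ := h4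
      _ = _ := by ring
  have hfin : (a : ℝ) * ((6 * ((κ : ℝ) + 1) ^ 3 / n) * ((a : ℝ) * W)) ≤ ((a : ℝ) + 1) / 2 * W := by
    calc _ = ((a : ℝ) * ((6 * ((κ : ℝ) + 1) ^ 3 / n) * (a : ℝ))) * W := by ring
      _ ≤ _ := mul_le_mul_of_nonneg_right hfrac hWn
  refine (abs_sub _ _).trans ?_
  have e1 : ((a : ℝ) + 1) * W = ((a : ℝ) + 1) * W / 2 + ((a : ℝ) + 1) / 2 * W := by ring
  rw [e1]
  exact add_le_add hmain (hsum.trans hfin)

/-- Lemma W in list form. -/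
theorem WS_all (hn : 0 < n) {p : ℕ} (hp1 : 1 ≤ p) (hp : 1000 * (p + 1) ^ 6 ≤ n) :
    ∀ (M κ : ℕ) (L : List (Frm Ω n)), κ + L.length = M → κ ≤ p → (∀ f ∈ L, GoodF f) →
      WS p Ω κ L := by
  intro M
  induction M using Nat.strong_induction_on with
  | _ M ih =>
    intro κ L hM hκ hL
    cases L with
    | nil => exact WS_nil hn hκ hp1 hp
    | cons f L' =>
      refine WS_cons hn hp1 hκ hp f L' (hL f List.mem_cons_self)
        (fun h hh => hL h (List.mem_cons_of_mem _ hh)) ?_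
      intro κ' L1 hlt hκ' hg
      exact ih (κ' + L1.length) (by
        simp only [List.length_cons] at hM
        omega) κ' L1 rfl hκ' hg

end Vale.Agent.Lib.P146
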