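import Vale.Agent.Lib.P146.SchurD

/-! Module J1: exact coefficients from free averages, by a weighted Schur test. -/

set_option autoImplicit false
open scoped Classical

namespace Vale.Agent.Lib.P146

variable {n : ℕ}

namespace SchurX

/-- A tuple of pairs as a map on half-edges. -/
def lx {k : ℕ} (l : Fin k → Pr n) : Fin k × Bool → Fin n :=
  fun p => if p.2 then (l p.1).1 else (l p.1).2

/-- A map on half-edges as a tuple of pairs. -/
def xl {k : ℕ} (x : Fin k × Bool → Fin n) : Fin k → Pr n := fun i => (x (i, true), x (i, false))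

/-- Tuples of pairs are maps on half-edges. -/
def lxE (k : ℕ) : (Fin k → Pr n) ≃ (Fin k × Bool → Fin n) where
  toFun := lx
  invFun := xl
  left_inv := by
    intro l
    funext i
    simp [lx, xl]
  right_inv := by
    intro x
    funext ⟨i, b⟩
    cases b <;> simp [lx, xl]

theorem degM_msOf {k : ℕ} (l : Fin k → Pr n) (y : Fin n) : degM (msOf l) y = fib (lx l) y := by
  unfold degM msOf fib
  rw [Multiset.map_map, Finset.card_filter, Fintype.sum_prod_type]
  change (Finset.univ.val.map _).sum = _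
  rw [← Finset.sum_eq_multiset_sum]
  refine Finset.sum_congr rfl fun i _ => ?_
  rw [Fintype.sum_bool]
  simp [lx]

theorem EvenM_iff {k : ℕ} (l : Fin k → Pr n) : EvenM (msOf l) ↔ EvF (lx l) := by
  unfold EvenM EvF
  simp only [degM_msOf]

theorem varpi_msOf {k : ℕ} (l : Fin k → Pr n) : varpi (msOf l) = pw (lx l) := by
  unfold varpi pw
  simp only [degM_msOf]

theorem mapL_msOf {k : ℕ} (f : Fin n → Fin n) (x : Fin k × Bool → Fin n) :
    mapL f (msOf (xl x)) = msOf (xl (f ∘ x)) := by
  unfold mapL msOf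
  rw [Multiset.map_map]
  rfl

theorem xl_lx {k : ℕ} (l : Fin k → Pr n) : xl (lx l) = l := (lxE k).left_inv l

end SchurX

open SchurX

/-- If `dv` is invariant under relabelling then, on even patterns, the weighted `ℓ²` norm of `dv`
is at most four times the one of its free average. -/
theorem schur_free (hn : 0 < n) {k : ℕ} (hk : 1000 * k ^ 3 ≤ n) (dv : Multiset (Pr n) → ℝ)
    (hdv : ∀ (σ : Equiv.Perm (Fin n)) M, dv (mapL σ M) = dv M) :
    ∑ l : Fin k → Pr n, (if EvenM (msOf l) then varpi (msOf l) * dv (msOf l) ^ 2 else 0) ≤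
      16 * ∑ l : Fin k → Pr n, (if EvenM (msOf l) then varpi (msOf l) * Tav dv (msOf l) ^ 2 else 0) := by
  set g : (Fin k × Bool → Fin n) → ℝ := fun x => dv (msOf (xl x)) with hgdef
  have hg : ∀ (σ : Equiv.Perm (Fin n)) x, g (σ ∘ x) = g x := by
    intro σ x
    simp only [hgdef]
    rw [← mapL_msOf, hdv]
  have hH : Fintype.card (Fin k × Bool) = 2 * k := by
    simp [Fintype.card_prod, mul_comm]
  have key := schur_abs hn hH hk g hg
  have e1 : ∑ l : Fin k → Pr n, (if EvenM (msOf l) then varpi (msOf l) * dv (msOf l) ^ 2 else 0) =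
      ∑ x : Fin k × Bool → Fin n, (if EvF x then pw x * g x ^ 2 else 0) := by
    rw [← Equiv.sum_comp (lxE k) (fun x => if EvF x then pw x * g x ^ 2 else 0)]
    refine Finset.sum_congr rfl fun l _ => ?_
    change _ = if EvF (lx l) then pw (lx l) * g (lx l) ^ 2 else 0
    simp only [hgdef, xl_lx, EvenM_iff, varpi_msOf]
  have e2 : ∑ l : Fin k → Pr n,
      (if EvenM (msOf l) then varpi (msOf l) * Tav dv (msOf l) ^ 2 else 0) =
      ∑ x : Fin k × Bool → Fin n, (if EvF x then pw x * Tg g x ^ 2 else 0) := by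
    rw [← Equiv.sum_comp (lxE k) (fun x => if EvF x then pw x * Tg g x ^ 2 else 0)]
    refine Finset.sum_congr rfl fun l _ => ?_
    change _ = if EvF (lx l) then pw (lx l) * Tg g (lx l) ^ 2 else 0
    have hT : Tav dv (msOf l) = Tg g (lx l) := by
      unfold Tav Tg
      congr 1
      refine Finset.sum_congr rfl fun f _ => ?_
      simp only [hgdef]
      rw [← mapL_msOf, xl_lx]
    simp only [hT, EvenM_iff, varpi_msOf]
  rw [e1, e2]
  exact le_trans (le_of_eq (sum_inst_congr _ _ _)) (le_trans key
    (mul_le_mul_of_nonneg_left (le_of_eq (sum_inst_congr _ _ _)) (by norm_num)))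

theorem varpi_ge_one (M : Multiset (Pr n)) (h : EvenM M) : 1 ≤ varpi M := by
  unfold varpi
  have : (1 : ℝ) = ∏ _x : Fin n, (1 : ℝ) := by simp
  rw [this]
  exact Finset.prod_le_prod (fun _ _ => zero_le_one) fun x _ => wt1_ge_one (h x)

end Vale.Agent.Lib.P146
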