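import Vale.Agent.Lib.P146.Defs

set_option autoImplicit false
open Finset
open scoped Classical

namespace Vale.Agent.Lib.P146.SchurX

variable {n : ℕ} {H : Type} [Fintype H]

/-- Size of a fibre. -/
noncomputable def fib (x : H → Fin n) (l : Fin n) : ℕ := (univ.filter fun h => x h = l).card

/-- Number of values. -/
noncomputable def vv (x : H → Fin n) : ℕ := (univ.image x).card

/-- The weight. -/
noncomputable def pw (x : H → Fin n) : ℝ := ∏ l, wt1 (fib x l)

/-- All fibres even. -/
def EvF (x : H → Fin n) : Prop := ∀ l, Even (fib x l)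

/-- The kernel of `x` refines the one of `y`. -/
def Finer (x y : H → Fin n) : Prop := ∀ h h', x h = x h' → y h = y h'

theorem wt1_zero : wt1 0 = 1 := by simp [wt1]

theorem wt1_of_ne {m : ℕ} (h : m ≠ 0) : wt1 m = (m.factorial : ℝ) / 2 := by simp [wt1, h]

theorem wt1_pos (m : ℕ) : 0 < wt1 m := by
  unfold wt1
  split_ifs
  · exact one_pos
  · have : (0 : ℝ) < m.factorial := by exact_mod_cast Nat.factorial_pos m
    positivity

theorem wt1_ge_one {m : ℕ} (hm : Even m) : 1 ≤ wt1 m := by
  by_cases h0 : m = 0
  · simp [h0, wt1_zero]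
  · rw [wt1_of_ne h0]
    have h2 : 2 ≤ m := by
      obtain ⟨r, hr⟩ := hm
      omega
    have h3 : 2 ≤ m.factorial := by
      calc 2 = Nat.factorial 2 := rfl
        _ ≤ m.factorial := Nat.factorial_le h2
    have h4 : (2 : ℝ) ≤ m.factorial := by exact_mod_cast h3
    linarith

theorem pw_pos (x : H → Fin n) : 0 < pw x := Finset.prod_pos fun _ _ => wt1_pos _

theorem pw_ge_one {x : H → Fin n} (h : EvF x) : 1 ≤ pw x := by
  unfold pw
  have : (1 : ℝ) = ∏ _l : Fin n, (1 : ℝ) := by simp
  rw [this]
  exact Finset.prod_le_prod (fun _ _ => zero_le_one) fun l _ => wt1_ge_one (h l)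

theorem sum_fib (x : H → Fin n) : ∑ l, fib x l = Fintype.card H := by
  unfold fib
  rw [← Finset.card_univ]
  exact (Finset.card_eq_sum_card_fiberwise (fun h _ => Finset.mem_univ (x h))).symm

theorem fib_pos_of_mem {x : H → Fin n} (h : H) : 0 < fib x (x h) :=
  Finset.card_pos.2 ⟨h, by simp⟩

/-- At most half as many values as half-edges. -/
theorem two_vv_le {x : H → Fin n} (hx : EvF x) : 2 * vv x ≤ Fintype.card H := by
  rw [← sum_fib x]
  unfold vv
  calc 2 * (univ.image x).card = ∑ _l ∈ univ.image x, 2 := by simp [mul_comm]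
    _ ≤ ∑ l ∈ univ.image x, fib x l := by
        refine Finset.sum_le_sum fun l hl => ?_
        obtain ⟨h, -, rfl⟩ := Finset.mem_image.1 hl
        have h1 := fib_pos_of_mem (x := x) h
        obtain ⟨r, hr⟩ := hx (x h)
        omega
    _ ≤ ∑ l, fib x l := Finset.sum_le_sum_of_subset_of_nonneg (Finset.subset_univ _)
        fun _ _ _ => Nat.zero_le _

/-! ### Restriction to the complement of a block -/

/-- Restriction. -/
def res (B : Finset H) (x : H → Fin n) : {h // h ∉ B} → Fin n := fun h => x h.1

theorem fib_res (B : Finset H) (x : H → Fin n) (l : Fin n) :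
    fib (res B x) l = ((univ.filter fun h => x h = l) \ B).card := by
  unfold fib res
  refine Finset.card_bij (fun h _ => h.1) ?_ ?_ ?_
  · intro h hh
    simp only [mem_filter, mem_univ, true_and] at hh
    simp [hh, h.2]
  · intro a _ b _ hab
    exact Subtype.ext hab
  · intro h hh
    simp only [mem_sdiff, mem_filter, mem_univ, true_and] at hh
    exact ⟨⟨h, hh.2⟩, by simp [hh.1], rfl⟩

/-- The block of a point. -/
noncomputable def block (x : H → Fin n) (a0 : H) : Finset H := univ.filter fun h => x h = x a0

theorem fib_block (x : H → Fin n) (a0 : H) : fib x (x a0) = (block x a0).card := rfl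

theorem fib_res_block_ne (x : H → Fin n) (a0 : H) {l : Fin n} (hl : l ≠ x a0) :
    fib (res (block x a0) x) l = fib x l := by
  rw [fib_res]
  congr 1
  ext h
  simp only [mem_sdiff, mem_filter, mem_univ, true_and, block, fib]
  constructor
  · exact fun h1 => h1.1
  · intro h1
    exact ⟨h1, fun h2 => hl (h1 ▸ h2)⟩

theorem fib_res_block_same (x : H → Fin n) (a0 : H) :
    fib (res (block x a0) x) (x a0) = 0 := by
  rw [fib_res]
  simp [block]

theorem pw_block (x : H → Fin n) (a0 : H) :
    pw x = wt1 (block x a0).card * pw (res (block x a0) x) := by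
  unfold pw
  rw [← Finset.mul_prod_erase univ _ (Finset.mem_univ (x a0)),
    ← Finset.mul_prod_erase univ (fun l => wt1 (fib (res (block x a0) x) l)) (Finset.mem_univ (x a0))]
  rw [fib_res_block_same, wt1_zero, one_mul, fib_block]
  congr 1
  refine Finset.prod_congr rfl fun l hl => ?_
  rw [fib_res_block_ne x a0 (Finset.ne_of_mem_erase hl)]

theorem vv_block (x : H → Fin n) (a0 : H) : vv x = vv (res (block x a0) x) + 1 := by
  unfold vv
  have h : univ.image x = insert (x a0) (univ.image (res (block x a0) x)) := by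
    ext l
    simp only [mem_image, mem_univ, true_and, mem_insert]
    constructor
    · rintro ⟨h, rfl⟩
      by_cases hb : x h = x a0
      · exact Or.inl hb
      · exact Or.inr ⟨⟨h, by simpa [block] using hb⟩, rfl⟩
    · rintro (rfl | ⟨h, rfl⟩)
      · exact ⟨a0, rfl⟩
      · exact ⟨h.1, rfl⟩
  have hn : x a0 ∉ univ.image (res (block x a0) x) := by
    simp only [mem_image, mem_univ, true_and, not_exists]
    intro h hc
    have hc' : x h.1 = x a0 := hc
    exact h.2 (by simp [block, hc'])
  rw [h, Finset.card_insert_of_notMem hn]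

theorem EvF_res {x : H → Fin n} {a0 : H} (hx : EvF x) : EvF (res (block x a0) x) := by
  intro l
  by_cases hl : l = x a0
  · rw [hl, fib_res_block_same]; exact Even.zero
  · rw [fib_res_block_ne x a0 hl]; exact hx l

theorem Finer_res {x y : H → Fin n} (B : Finset H) (h : Finer x y) : Finer (res B x) (res B y) :=
  fun a b hab => h a.1 b.1 hab

end Vale.Agent.Lib.P146.SchurX
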