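import Vale.Agent.Lib.P146.SchurA

set_option autoImplicit false
open Finset
open scoped Classical

namespace Vale.Agent.Lib.P146.SchurX

variable {n : ℕ}

/-! ### The count of sub-blocks -/

theorem wt1_nonneg (m : ℕ) : 0 ≤ wt1 m := (wt1_pos m).le

/-- One term of the count. -/
theorem count_term (t i : ℕ) (hi : i < t) :
    (t.choose i : ℝ) * (wt1 (i + 1) * wt1 (t - i)) ≤ ((t + 1).factorial : ℝ) / 4 := by
  have h0 : t - i ≠ 0 := by omega
  rw [wt1_of_ne (Nat.succ_ne_zero i), wt1_of_ne h0]
  have h1 : t.choose i * i.factorial * (t - i).factorial = t.factorial :=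
    Nat.choose_mul_factorial_mul_factorial hi.le
  have h2 : (t.choose i : ℝ) * i.factorial * (t - i).factorial = t.factorial := by
    exact_mod_cast h1
  have h3 : ((i + 1).factorial : ℝ) = (i + 1) * i.factorial := by
    rw [Nat.factorial_succ]; push_cast; ring
  have h4 : ((t + 1).factorial : ℝ) = (t + 1) * t.factorial := by
    rw [Nat.factorial_succ]; push_cast; ring
  rw [h3, h4]
  have h5 : (t.choose i : ℝ) * (((i : ℝ) + 1) * i.factorial / 2 * ((t - i).factorial / 2)) =
      ((i : ℝ) + 1) * ((t.choose i : ℝ) * i.factorial * (t - i).factorial) / 4 := by ring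
  rw [h5, h2]
  have h6 : (i : ℝ) + 1 ≤ t + 1 := by
    have : (i : ℝ) ≤ t := by exact_mod_cast hi.le
    linarith
  have h7 : (0 : ℝ) ≤ t.factorial := by positivity
  have := mul_le_mul_of_nonneg_right h6 h7
  linarith

/-- The count of sub-blocks. -/
theorem count_blocks {H : Type} (Hc : Finset H) (a0 : H) (ha0 : a0 ∈ Hc) :
    ∑ B ∈ (Hc.powerset.filter fun B => a0 ∈ B ∧ Even B.card).erase Hc,
        wt1 B.card * wt1 (Hc.card - B.card) ≤ wt1 Hc.card * Hc.card / 2 := by
  set R := Hc.erase a0 with hR
  set t := R.card with ht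
  have hcard : Hc.card = t + 1 := by
    rw [ht, hR, Finset.card_erase_of_mem ha0]
    have := Finset.card_pos.2 ⟨a0, ha0⟩
    omega
  set f : ℕ → ℝ := fun i => if i < t then wt1 (i + 1) * wt1 (t - i) else 0 with hf
  have hf0 : ∀ i, 0 ≤ f i := by
    intro i
    simp only [hf]
    split_ifs
    · exact mul_nonneg (wt1_nonneg _) (wt1_nonneg _)
    · exact le_rfl
  have step1 : ∑ B ∈ (Hc.powerset.filter fun B => a0 ∈ B ∧ Even B.card).erase Hc,
        wt1 B.card * wt1 (Hc.card - B.card) ≤ ∑ B' ∈ R.powerset, f B'.card := by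
    have himg : ∀ B ∈ (Hc.powerset.filter fun B => a0 ∈ B ∧ Even B.card).erase Hc,
        B.erase a0 ∈ R.powerset ∧
        wt1 B.card * wt1 (Hc.card - B.card) = f (B.erase a0).card := by
      intro B hB
      rw [Finset.mem_erase, Finset.mem_filter, Finset.mem_powerset] at hB
      obtain ⟨hne, hsub, hmem, -⟩ := hB
      have hc1 : (B.erase a0).card + 1 = B.card := by
        rw [Finset.card_erase_of_mem hmem]
        have := Finset.card_pos.2 ⟨a0, hmem⟩
        omega
      have hlt : (B.erase a0).card < t := by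
        have hss : B ⊂ Hc := Finset.ssubset_iff_subset_ne.2 ⟨hsub, hne⟩
        have := Finset.card_lt_card hss
        omega
      refine ⟨Finset.mem_powerset.2 (Finset.erase_subset_erase _ hsub), ?_⟩
      simp only [hf, if_pos hlt]
      rw [hc1]
      congr 2
      omega
    have hinj : Set.InjOn (fun B : Finset H => B.erase a0)
        ((Hc.powerset.filter fun B => a0 ∈ B ∧ Even B.card).erase Hc : Finset (Finset H)) := by
      intro B1 h1 B2 h2 h12
      simp only [Finset.coe_erase, Finset.coe_filter, Set.mem_sdiff, Set.mem_ofPred_eq,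
        Finset.mem_powerset] at h1 h2
      have hh : ∀ B : Finset H, a0 ∈ B → insert a0 (B.erase a0) = B := fun B hB =>
        Finset.insert_erase hB
      have h12' : B1.erase a0 = B2.erase a0 := h12
      rw [← hh B1 h1.1.2.1, ← hh B2 h2.1.2.1, h12']
    calc ∑ B ∈ (Hc.powerset.filter fun B => a0 ∈ B ∧ Even B.card).erase Hc,
          wt1 B.card * wt1 (Hc.card - B.card)
        = ∑ B ∈ (Hc.powerset.filter fun B => a0 ∈ B ∧ Even B.card).erase Hc,
            f (B.erase a0).card := Finset.sum_congr rfl fun B hB => (himg B hB).2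
      _ = ∑ B' ∈ ((Hc.powerset.filter fun B => a0 ∈ B ∧ Even B.card).erase Hc).image
            (fun B : Finset H => B.erase a0), f B'.card := (Finset.sum_image (f := fun B' => f B'.card) hinj).symm
      _ ≤ ∑ B' ∈ R.powerset, f B'.card := by
          refine Finset.sum_le_sum_of_subset_of_nonneg ?_ fun _ _ _ => hf0 _
          intro B' hB'
          obtain ⟨B, hB, rfl⟩ := Finset.mem_image.1 hB'
          exact (himg B hB).1
  refine step1.trans ?_
  rw [Finset.sum_powerset_apply_card f (x := R), ← ht]
  have hterm : ∀ i ∈ Finset.range (t + 1), (t.choose i) • f i ≤ ((t + 1).factorial : ℝ) / 4 := by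
    intro i _
    rw [nsmul_eq_mul]
    simp only [hf]
    split_ifs with hi
    · exact count_term t i hi
    · simp only [mul_zero]; positivity
  have hsum := Finset.sum_le_card_nsmul _ _ _ hterm
  rw [Finset.card_range, nsmul_eq_mul] at hsum
  refine hsum.trans ?_
  rw [hcard, wt1_of_ne (Nat.succ_ne_zero t)]
  apply le_of_eq
  push_cast
  ring

/-! ### Peeling the block of a point -/

variable {H : Type} [Fintype H]

/-- Peeling the block of `a0`. -/
theorem peel {a : ℝ} (ha : 0 ≤ a) (a0 : H) (C : (H → Fin n) → Prop)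
    (C' : (B : Finset H) → ({h // h ∉ B} → Fin n) → Prop) (BB : Finset (Finset H))
    (hC : ∀ x, C x → block x a0 ∈ BB ∧ C' (block x a0) (res (block x a0) x)) :
    ∑ x : H → Fin n, (if C x then pw x * a ^ vv x else 0) ≤
      ∑ B ∈ BB, ((n : ℝ) * a) * wt1 B.card *
        ∑ x' : {h // h ∉ B} → Fin n, (if C' B x' then pw x' * a ^ vv x' else 0) := by
  have hnn : ∀ {K : Type} [Fintype K] (x : K → Fin n), 0 ≤ pw x * a ^ vv x := fun x =>
    mul_nonneg (pw_pos x).le (pow_nonneg ha _)
  rw [← Finset.sum_filter]
  have hmaps : ∀ x ∈ univ.filter C, block x a0 ∈ BB := fun x hx =>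
    (hC x (Finset.mem_filter.1 hx).2).1
  rw [← Finset.sum_fiberwise_of_maps_to hmaps]
  refine Finset.sum_le_sum fun B _ => ?_
  -- the fibre over `B`
  set S := (univ.filter C).filter fun x => block x a0 = B with hS
  set φ : (H → Fin n) → Fin n × ({h // h ∉ B} → Fin n) := fun x => (x a0, res B x) with hφ
  have hinj : Set.InjOn φ (S : Set (H → Fin n)) := by
    intro x1 h1 x2 h2 h12
    have hb1 : block x1 a0 = B := (Finset.mem_filter.1 h1).2
    have hb2 : block x2 a0 = B := (Finset.mem_filter.1 h2).2
    have h3 : x1 a0 = x2 a0 := congrArg Prod.fst h12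
    have h4 : res B x1 = res B x2 := congrArg Prod.snd h12
    funext h
    by_cases hh : h ∈ B
    · have e1 : x1 h = x1 a0 := by
        rw [← hb1] at hh
        simpa [block] using hh
      have e2 : x2 h = x2 a0 := by
        rw [← hb2] at hh
        simpa [block] using hh
      rw [e1, e2, h3]
    · exact congrFun h4 ⟨h, hh⟩
  have hval : ∀ x ∈ S, pw x * a ^ vv x =
      (a * wt1 B.card) * (if C' B (φ x).2 then pw (φ x).2 * a ^ vv (φ x).2 else 0) := by
    intro x hx
    have hb : block x a0 = B := (Finset.mem_filter.1 hx).2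
    have hc : C x := (Finset.mem_filter.1 (Finset.mem_filter.1 hx).1).2
    have hc' := (hC x hc).2
    rw [hb] at hc'
    have hφ2 : (φ x).2 = res B x := rfl
    rw [hφ2, if_pos hc', pw_block x a0, vv_block x a0, hb, pow_succ]
    ring
  calc ∑ x ∈ S, pw x * a ^ vv x
      = ∑ x ∈ S, (a * wt1 B.card) * (if C' B (φ x).2 then pw (φ x).2 * a ^ vv (φ x).2 else 0) :=
        Finset.sum_congr rfl hval
    _ = ∑ p ∈ S.image φ, (a * wt1 B.card) * (if C' B p.2 then pw p.2 * a ^ vv p.2 else 0) :=
        (Finset.sum_image
          (f := fun p => (a * wt1 B.card) * (if C' B p.2 then pw p.2 * a ^ vv p.2 else 0)) hinj).symm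
    _ ≤ ∑ p : Fin n × ({h // h ∉ B} → Fin n),
          (a * wt1 B.card) * (if C' B p.2 then pw p.2 * a ^ vv p.2 else 0) := by
        refine Finset.sum_le_sum_of_subset_of_nonneg (Finset.subset_univ _) fun p _ _ => ?_
        refine mul_nonneg (mul_nonneg ha (wt1_nonneg _)) ?_
        split_ifs
        · exact hnn _
        · exact le_rfl
    _ = ((n : ℝ) * a) * wt1 B.card *
        ∑ x' : {h // h ∉ B} → Fin n, (if C' B x' then pw x' * a ^ vv x' else 0) := by
        rw [Fintype.sum_prod_type]
        simp only [Finset.sum_const, Finset.card_univ, Fintype.card_fin, nsmul_eq_mul]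
        rw [← Finset.mul_sum]
        ring


/-! ### Lemma W -/

/-- The product controlling the merges. -/
noncomputable def Pp {K : Type} [Fintype K] (s : ℝ) (x : K → Fin n) : ℝ :=
  ∏ l, (1 + (fib x l : ℝ) * s)

/-- The condition of the sums. -/
def CA {K : Type} [Fintype K] (y x : K → Fin n) : Prop := EvF x ∧ Finer x y

/-- The condition of the sums with strictly more values. -/
def CB {K : Type} [Fintype K] (y x : K → Fin n) : Prop := EvF x ∧ Finer x y ∧ vv y < vv x

/-- The condition of the sums, strictly more values under a side condition. -/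
def CD {K : Type} [Fintype K] (P : Prop) (y x : K → Fin n) : Prop := CA y x ∧ (P → vv y < vv x)

theorem Pp_pos {K : Type} [Fintype K] {s : ℝ} (hs : 0 < s) (x : K → Fin n) : 0 < Pp s x :=
  Finset.prod_pos fun _ _ => by positivity

theorem fib_res_sub (y : H → Fin n) (a0 : H) {B : Finset H} (hB : B ⊆ block y a0) (l : Fin n) :
    fib (res B y) l = if l = y a0 then (block y a0).card - B.card else fib y l := by
  rw [fib_res]
  split_ifs with hl
  · subst hl
    exact Finset.card_sdiff_of_subset hB
  · unfold fib
    congr 1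
    apply Finset.sdiff_eq_self_of_disjoint
    rw [Finset.disjoint_left]
    intro h hh hb
    have h1 := hB hb
    simp only [block, mem_filter, mem_univ, true_and] at h1
    simp only [mem_filter, mem_univ, true_and] at hh
    exact hl (hh.symm.trans h1)

theorem pw_split {K : Type} [Fintype K] (z : K → Fin n) (c : Fin n) :
    pw z = wt1 (fib z c) * ∏ l ∈ univ.erase c, wt1 (fib z l) :=
  (Finset.mul_prod_erase univ (fun l => wt1 (fib z l)) (Finset.mem_univ c)).symm

theorem Pp_split {K : Type} [Fintype K] (s : ℝ) (z : K → Fin n) (c : Fin n) :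
    Pp s z = (1 + (fib z c : ℝ) * s) * ∏ l ∈ univ.erase c, (1 + (fib z l : ℝ) * s) :=
  (Finset.mul_prod_erase univ (fun l => (1 + (fib z l : ℝ) * s)) (Finset.mem_univ c)).symm

theorem vv_res_strict (y : H → Fin n) (a0 : H) {B : Finset H} (hB : B ⊂ block y a0)
    : vv (res B y) = vv y := by
  unfold vv
  congr 1
  ext l
  simp only [mem_image, mem_univ, true_and]
  constructor
  · rintro ⟨h, rfl⟩
    exact ⟨h.1, rfl⟩
  · rintro ⟨h, rfl⟩
    by_cases hh : h ∈ B
    · obtain ⟨h1, h2, h3⟩ := Finset.exists_of_ssubset hB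
      have h4 : y h1 = y a0 := by simpa [block] using h2
      have h5 : y h = y a0 := by simpa [block] using hB.1 hh
      exact ⟨⟨h1, h3⟩, h4.trans h5.symm⟩
    · exact ⟨⟨h, hh⟩, rfl⟩

/-- The blocks that can occur. -/
noncomputable def BBs (y : H → Fin n) (a0 : H) : Finset (Finset H) :=
  (block y a0).powerset.filter fun B => a0 ∈ B ∧ Even B.card

theorem mem_block_self (y : H → Fin n) (a0 : H) : a0 ∈ block y a0 := by simp [block]

theorem block_mem_BBs {y : H → Fin n} (hy : EvF y) (a0 : H) : block y a0 ∈ BBs y a0 := by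
  simp only [BBs, mem_filter, mem_powerset]
  exact ⟨subset_rfl, mem_block_self y a0, by rw [← fib_block]; exact hy _⟩

theorem block_x_mem_BBs {x y : H → Fin n} (hx : EvF x) (hxy : Finer x y) (a0 : H) :
    block x a0 ∈ BBs y a0 := by
  simp only [BBs, mem_filter, mem_powerset]
  refine ⟨?_, mem_block_self x a0, by rw [← fib_block]; exact hx _⟩
  intro h hh
  have h1 : x h = x a0 := by simpa [block] using hh
  simpa [block] using hxy h a0 h1

theorem EvF_res_sub {y : H → Fin n} (hy : EvF y) (a0 : H) {B : Finset H} (hB : B ∈ BBs y a0) :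
    EvF (res B y) := by
  simp only [BBs, mem_filter, mem_powerset] at hB
  intro l
  rw [fib_res_sub y a0 hB.1 l]
  split_ifs with hl
  · have h1 : Even (block y a0).card := by rw [← fib_block]; exact hy _
    exact h1.tsub hB.2.2
  · exact hy l

theorem fib_res_le (y : H → Fin n) (B : Finset H) (l : Fin n) : fib (res B y) l ≤ fib y l := by
  rw [fib_res]
  exact Finset.card_le_card Finset.sdiff_subset

/-- Combining the estimates for the blocks. -/
theorem combine_blocks {s a : ℝ} (ha : 0 ≤ a) (hs : 0 < s) (hna : (n : ℝ) * a ≤ s) (a0 : H)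
    (y : H → Fin n) (hy : EvF y) (hys : ∀ l, (fib y l : ℝ) * s ≤ 1) (U : Finset H → ℝ)
    (hU : ∀ B, 0 ≤ U B) (W P' E' : ℝ) (hP' : 0 ≤ P') (hE' : 0 ≤ E') (v' : ℕ)
    (hv : vv y = v' + 1)
    (h1 : U (block y a0) ≤ W * E' * s ^ v')
    (h2 : ∀ B ∈ (BBs y a0).erase (block y a0),
      U B ≤ (1 + (((block y a0).card - B.card : ℕ) : ℝ) * s) * P' *
        (wt1 ((block y a0).card - B.card) * E') * s ^ vv y) :
    ∑ B ∈ BBs y a0, ((n : ℝ) * a) * wt1 B.card * U B ≤
      wt1 (block y a0).card * (W + (block y a0).card * s * P') * E' * s ^ vv y := by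
  set Hc := block y a0 with hHc
  set m := Hc.card with hm
  have hnn : (n : ℝ) * a ≥ 0 := mul_nonneg (Nat.cast_nonneg _) ha
  have hterm : ∀ B, ((n : ℝ) * a) * wt1 B.card * U B ≤ s * wt1 B.card * U B := by
    intro B
    have := mul_le_mul_of_nonneg_right hna (mul_nonneg (wt1_nonneg B.card) (hU B))
    nlinarith
  rw [← Finset.add_sum_erase _ _ (block_mem_BBs hy a0)]
  have t1 : ((n : ℝ) * a) * wt1 Hc.card * U Hc ≤ wt1 m * W * E' * s ^ vv y := by
    refine (hterm Hc).trans ?_
    have := mul_le_mul_of_nonneg_left h1 (mul_nonneg hs.le (wt1_nonneg m))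
    rw [hv, pow_succ]
    calc s * wt1 Hc.card * U Hc ≤ s * wt1 m * (W * E' * s ^ v') := this
      _ = wt1 m * W * E' * (s ^ v' * s) := by ring
  have hcount := count_blocks Hc a0 (mem_block_self y a0)
  have t2 : ∑ B ∈ (BBs y a0).erase Hc, ((n : ℝ) * a) * wt1 B.card * U B ≤
      ∑ B ∈ (BBs y a0).erase Hc, (2 * s * P' * E' * s ^ vv y) *
        (wt1 B.card * wt1 (m - B.card)) := by
    refine Finset.sum_le_sum fun B hB => ?_
    refine (hterm B).trans ?_
    have h3 := h2 B hB
    have h4 : (((m - B.card : ℕ) : ℝ)) * s ≤ 1 := by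
      have h5 : ((m - B.card : ℕ) : ℝ) ≤ m := by exact_mod_cast Nat.sub_le _ _
      have h6 : (m : ℝ) * s ≤ 1 := hys (y a0)
      have := mul_le_mul_of_nonneg_right h5 hs.le
      linarith
    have hsv : 0 ≤ s ^ vv y := by positivity
    have h7 : U B ≤ 2 * P' * (wt1 (m - B.card) * E') * s ^ vv y := by
      refine h3.trans ?_
      refine mul_le_mul_of_nonneg_right ?_ hsv
      refine mul_le_mul_of_nonneg_right ?_ (mul_nonneg (wt1_nonneg _) hE')
      refine mul_le_mul_of_nonneg_right ?_ hP'
      linarith
    have := mul_le_mul_of_nonneg_left h7 (mul_nonneg hs.le (wt1_nonneg B.card))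
    calc s * wt1 B.card * U B ≤ s * wt1 B.card * (2 * P' * (wt1 (m - B.card) * E') * s ^ vv y) := this
      _ = 2 * s * P' * E' * s ^ vv y * (wt1 B.card * wt1 (m - B.card)) := by ring
  rw [← Finset.mul_sum] at t2
  have hcnt : ∑ B ∈ (BBs y a0).erase Hc, wt1 B.card * wt1 (m - B.card) ≤ wt1 m * m / 2 := hcount
  have hc0 : 0 ≤ 2 * s * P' * E' * s ^ vv y := by positivity
  have t3 := mul_le_mul_of_nonneg_left hcnt hc0
  have e1 : 2 * s * P' * E' * s ^ vv y * (wt1 m * m / 2) = wt1 m * (m * s * P') * E' * s ^ vv y := by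
    ring
  have : wt1 m * (W + m * s * P') * E' * s ^ vv y =
      wt1 m * W * E' * s ^ vv y + wt1 m * (m * s * P') * E' * s ^ vv y := by ring
  rw [this]
  linarith

/-- The products of the block decomposition of `res B y`. -/
theorem prod_erase_res {β : Type} [CommMonoid β] (y : H → Fin n) (a0 : H) {B : Finset H}
    (hB : B ⊆ block y a0) (φ : ℕ → β) :
    ∏ l ∈ univ.erase (y a0), φ (fib (res B y) l) = ∏ l ∈ univ.erase (y a0), φ (fib y l) := by
  refine Finset.prod_congr rfl fun l hl => ?_
  rw [fib_res_sub y a0 hB l, if_neg (Finset.ne_of_mem_erase hl)]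

/-- A sum does not depend on the finiteness instance of the index type. -/
theorem sum_inst_congr {α : Type*} (i j : Fintype α) (f : α → ℝ) :
    @Finset.sum α ℝ _ (@Finset.univ α i) f = @Finset.sum α ℝ _ (@Finset.univ α j) f := by
  rw [Subsingleton.elim i j]

/-- **Lemma W**: sums over refinements of a given even map. -/
theorem lemW {a s : ℝ} (ha : 0 < a) (hs : 0 < s) (hna : (n : ℝ) * a ≤ s) :
    ∀ (N : ℕ) (K : Type) [Fintype K], Fintype.card K = N → ∀ y : K → Fin n, EvF y →
      (∀ l, (fib y l : ℝ) * s ≤ 1) →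
      (∑ x : K → Fin n, (if CA y x then pw x * a ^ vv x else 0)) ≤ Pp s y * pw y * s ^ vv y ∧
      (∑ x : K → Fin n, (if CB y x then pw x * a ^ vv x else 0)) ≤
        (Pp s y - 1) * pw y * s ^ vv y := by
  intro N
  induction N using Nat.strong_induction_on with
  | _ N IH =>
    intro K _ hcard y hy hys
    by_cases hemp : IsEmpty K
    · -- base case
      have hfib : ∀ (x : K → Fin n) l, fib x l = 0 := by
        intro x l
        unfold fib
        rw [Finset.card_eq_zero, Finset.filter_eq_empty_iff]
        intro h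
        exact (hemp.false h).elim
      have hpw : ∀ x : K → Fin n, pw x = 1 := by
        intro x
        unfold pw
        simp [hfib, wt1_zero]
      have hvv : ∀ x : K → Fin n, vv x = 0 := by
        intro x
        unfold vv
        rw [Finset.card_eq_zero, Finset.image_eq_empty, Finset.univ_eq_empty]
      have hPp : Pp s y = 1 := by
        unfold Pp
        simp [hfib]
      have hCA : ∀ x : K → Fin n, CA y x := by
        intro x
        exact ⟨fun l => by rw [hfib]; exact Even.zero, fun h => (hemp.false h).elim⟩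
      have hCB : ∀ x : K → Fin n, ¬ CB y x := by
        intro x hx
        have := hx.2.2
        rw [hvv, hvv] at this
        exact lt_irrefl _ this
      let _ : Unique (K → Fin n) := Pi.uniqueOfIsEmpty _
      simp only [hCA, hCB, if_true, if_false, hpw, hvv, hPp, Finset.sum_const_zero]
      simp
    · -- inductive step
      obtain ⟨a0⟩ := not_isEmpty_iff.1 hemp
      have hlt : ∀ B ∈ BBs y a0, Fintype.card {h // h ∉ B} < N := by
        intro B hB
        simp only [BBs, mem_filter, mem_powerset] at hB
        rw [← hcard]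
        exact Fintype.card_subtype_lt (x := a0) (by simpa using hB.2.1)
      have hys' : ∀ B : Finset K, ∀ l, (fib (res B y) l : ℝ) * s ≤ 1 := by
        intro B l
        have h1 : (fib (res B y) l : ℝ) ≤ fib y l := by exact_mod_cast fib_res_le y B l
        have := mul_le_mul_of_nonneg_right h1 hs.le
        exact this.trans (hys l)
      have IHB : ∀ B ∈ BBs y a0,
          (∑ x' : {h // h ∉ B} → Fin n, (if CA (res B y) x' then pw x' * a ^ vv x' else 0)) ≤
            Pp s (res B y) * pw (res B y) * s ^ vv (res B y) ∧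
          (∑ x' : {h // h ∉ B} → Fin n, (if CB (res B y) x' then pw x' * a ^ vv x' else 0)) ≤
            (Pp s (res B y) - 1) * pw (res B y) * s ^ vv (res B y) := by
        intro B hB
        have := IH _ (hlt B hB) {h // h ∉ B} rfl (res B y) (EvF_res_sub hy a0 hB) (hys' B)
        exact ⟨le_trans (le_of_eq (sum_inst_congr _ _ _)) this.1,
          le_trans (le_of_eq (sum_inst_congr _ _ _)) this.2⟩
      set Hc := block y a0 with hHc
      set m := Hc.card with hm
      set E' : ℝ := ∏ l ∈ univ.erase (y a0), wt1 (fib y l) with hE'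
      set P' : ℝ := ∏ l ∈ univ.erase (y a0), (1 + (fib y l : ℝ) * s) with hP'
      have hE0 : 0 ≤ E' := Finset.prod_nonneg fun _ _ => wt1_nonneg _
      have hP0 : 0 ≤ P' := Finset.prod_nonneg fun _ _ => by positivity
      have hpwy : pw y = wt1 m * E' := pw_split y (y a0)
      have hPy : Pp s y = (1 + (m : ℝ) * s) * P' := Pp_split s y (y a0)
      -- description of the restrictions
      have hBsub : ∀ B ∈ BBs y a0, B ⊆ Hc := by
        intro B hB
        simp only [BBs, mem_filter, mem_powerset] at hB
        exact hB.1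
      have hfibc : ∀ B ∈ BBs y a0, fib (res B y) (y a0) = m - B.card := by
        intro B hB
        rw [fib_res_sub y a0 (hBsub B hB), if_pos rfl]
      have hpwB : ∀ B ∈ BBs y a0, pw (res B y) = wt1 (m - B.card) * E' := by
        intro B hB
        rw [pw_split (res B y) (y a0), hfibc B hB, prod_erase_res y a0 (hBsub B hB) wt1]
      have hPpB : ∀ B ∈ BBs y a0, Pp s (res B y) = (1 + ((m - B.card : ℕ) : ℝ) * s) * P' := by
        intro B hB
        rw [Pp_split s (res B y) (y a0), hfibc B hB,
          prod_erase_res (β := ℝ) y a0 (hBsub B hB) (fun j => 1 + (j : ℝ) * s)]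
      have hHcB : Hc ∈ BBs y a0 := block_mem_BBs hy a0
      have hmm : m - Hc.card = 0 := by omega
      have hvHc : vv y = vv (res Hc y) + 1 := vv_block y a0
      have hA : ∀ B ∈ (BBs y a0).erase Hc,
          (∑ x' : {h // h ∉ B} → Fin n, (if CA (res B y) x' then pw x' * a ^ vv x' else 0)) ≤
            (1 + ((m - B.card : ℕ) : ℝ) * s) * P' * (wt1 (m - B.card) * E') * s ^ vv y := by
        intro B hB
        have hB1 := Finset.mem_of_mem_erase hB
        have hB2 := Finset.ne_of_mem_erase hB
        have hss : B ⊂ Hc := Finset.ssubset_iff_subset_ne.2 ⟨hBsub B hB1, hB2⟩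
        have := (IHB B hB1).1
        rwa [hPpB B hB1, hpwB B hB1, vv_res_strict y a0 hss] at this
      constructor
      · -- the full sum
        have hC : ∀ x : K → Fin n, CA y x → block x a0 ∈ BBs y a0 ∧
            CA (res (block x a0) y) (res (block x a0) x) := fun x hx =>
          ⟨block_x_mem_BBs hx.1 hx.2 a0, EvF_res hx.1, Finer_res _ hx.2⟩
        have h0 := peel ha.le a0 (fun x => CA y x) (fun B x' => CA (res B y) x') (BBs y a0) hC
        refine h0.trans ?_
        have h1 := combine_blocks ha.le hs hna a0 y hy hys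
          (fun B => ∑ x' : {h // h ∉ B} → Fin n,
            (if CA (res B y) x' then pw x' * a ^ vv x' else 0))
          (fun B => Finset.sum_nonneg fun x' _ => by
            split_ifs
            · exact mul_nonneg (pw_pos x').le (pow_nonneg ha.le _)
            · exact le_rfl)
          P' P' E' hP0 hE0 (vv (res Hc y)) hvHc ?_ hA
        · refine h1.trans (le_of_eq ?_)
          rw [hPy, hpwy]
          ring
        · have := (IHB Hc hHcB).1
          rw [hPpB Hc hHcB, hpwB Hc hHcB, hmm] at this
          simpa [wt1_zero] using this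
      · -- the strict sum
        have hC : ∀ x : K → Fin n, CB y x → block x a0 ∈ BBs y a0 ∧
            CD (block x a0 = Hc) (res (block x a0) y) (res (block x a0) x) := by
          intro x hx
          refine ⟨block_x_mem_BBs hx.1 hx.2.1 a0, ⟨EvF_res hx.1, Finer_res _ hx.2.1⟩, ?_⟩
          intro hb
          have h1 := hx.2.2
          have h2 := vv_block x a0
          rw [hb] at h2 ⊢
          omega
        have h0 := peel ha.le a0 (fun x => CB y x)
          (fun B x' => CD (B = Hc) (res B y) x') (BBs y a0) hC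
        refine h0.trans ?_
        have h1 := combine_blocks ha.le hs hna a0 y hy hys
          (fun B => ∑ x' : {h // h ∉ B} → Fin n,
            (if CD (B = Hc) (res B y) x' then pw x' * a ^ vv x' else 0))
          (fun B => Finset.sum_nonneg fun x' _ => by
            split_ifs
            · exact mul_nonneg (pw_pos x').le (pow_nonneg ha.le _)
            · exact le_rfl)
          (P' - 1) P' E' hP0 hE0 (vv (res Hc y)) hvHc ?_ ?_
        · refine h1.trans (le_of_eq ?_)
          rw [hPy, hpwy]
          ring
        · have := (IHB Hc hHcB).2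
          rw [hPpB Hc hHcB, hpwB Hc hHcB, hmm] at this
          have h3 : (∑ x' : {h // h ∉ Hc} → Fin n,
              (if CD (Hc = Hc) (res Hc y) x' then pw x' * a ^ vv x' else 0)) =
              ∑ x' : {h // h ∉ Hc} → Fin n,
                (if CB (res Hc y) x' then pw x' * a ^ vv x' else 0) := by
            refine Finset.sum_congr rfl fun x' _ => ?_
            refine if_congr ?_ rfl rfl
            constructor
            · rintro ⟨⟨h1, h2⟩, h3⟩
              exact ⟨h1, h2, h3 rfl⟩
            · rintro ⟨h1, h2, h3⟩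
              exact ⟨⟨h1, h2⟩, fun _ => h3⟩
          refine h3.le.trans (this.trans (le_of_eq ?_))
          simp [wt1_zero]
        · intro B hB
          have hB2 := Finset.ne_of_mem_erase hB
          refine le_trans (le_of_eq ?_) (hA B hB)
          refine Finset.sum_congr rfl fun x' _ => ?_
          refine if_congr ?_ rfl rfl
          constructor
          · exact fun h => h.1
          · exact fun h => ⟨h, fun h' => (hB2 h').elim⟩

end Vale.Agent.Lib.P146.SchurX
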