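import Vale.Agent.Lib.P146.SchurB

set_option autoImplicit false
open Finset
open scoped Classical

namespace Vale.Agent.Lib.P146.SchurX

variable {n : ℕ}

/-! ### Exposure: collisions of a random map -/

/-- Number of collisions of `f` on `S`. -/
noncomputable def col (S : Finset (Fin n)) (f : Fin n → Fin n) : ℕ := S.card - (S.image f).card

/-- Weight of a number of collisions. -/
noncomputable def hh (θ : ℝ) (t : ℕ) : ℝ := if t = 0 then 0 else θ ^ t

theorem hh_nonneg {θ : ℝ} (hθ : 0 ≤ θ) (t : ℕ) : 0 ≤ hh θ t := by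
  unfold hh
  split_ifs
  · exact le_rfl
  · positivity

/-- Averaging over one coordinate. -/
theorem sum_update (a : Fin n) (F : (Fin n → Fin n) → ℝ) :
    ∑ f, ∑ c, F (Function.update f a c) = (n : ℝ) * ∑ f, F f := by
  have inv : Function.Involutive
      (fun p : (Fin n → Fin n) × Fin n => (Function.update p.1 a p.2, p.1 a)) := by
    rintro ⟨f, c⟩
    simp
  calc ∑ f, ∑ c, F (Function.update f a c)
      = ∑ p : (Fin n → Fin n) × Fin n, F (Function.update p.1 a p.2) :=
        (Fintype.sum_prod_type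
          (fun p : (Fin n → Fin n) × Fin n => F (Function.update p.1 a p.2))).symm
    _ = ∑ p : (Fin n → Fin n) × Fin n, F p.1 :=
        Equiv.sum_comp (Function.Involutive.toPerm _ inv)
          (fun p : (Fin n → Fin n) × Fin n => F p.1)
    _ = ∑ f, ∑ _c : Fin n, F f := Fintype.sum_prod_type (fun p : (Fin n → Fin n) × Fin n => F p.1)
    _ = (n : ℝ) * ∑ f, F f := by
        simp only [Finset.sum_const, Finset.card_univ, Fintype.card_fin, nsmul_eq_mul]
        rw [Finset.mul_sum]

theorem Y_step {θ : ℝ} (hθ : 0 ≤ θ) {S : Finset (Fin n)} {a : Fin n} (ha : a ∉ S)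
    (f : Fin n → Fin n) (c : Fin n) :
    1 + hh θ (col (insert a S) (Function.update f a c)) ≤
      (1 + hh θ (col S f)) * (if c ∈ S.image f then 1 + θ else 1) := by
  have himg : (insert a S).image (Function.update f a c) = insert c (S.image f) := by
    rw [Finset.image_insert, Function.update_self]
    congr 1
    refine Finset.image_congr ?_
    intro b hb
    have hne : b ≠ a := fun h => ha (h ▸ hb)
    simp [Function.update_of_ne hne]
  have hle : (S.image f).card ≤ S.card := Finset.card_image_le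
  have hcard : (insert a S).card = S.card + 1 := Finset.card_insert_of_notMem ha
  unfold col
  rw [himg, hcard]
  split_ifs with hc
  · rw [Finset.insert_eq_of_mem hc]
    have : S.card + 1 - (S.image f).card = (S.card - (S.image f).card) + 1 := by omega
    rw [this]
    set t := S.card - (S.image f).card
    unfold hh
    simp only [Nat.succ_ne_zero, if_false]
    split_ifs with ht
    · rw [ht]
      simp
    · have h1 : 0 ≤ θ ^ t := by positivity
      rw [pow_succ]
      nlinarith [mul_nonneg h1 hθ]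
  · rw [Finset.card_insert_of_notMem hc]
    have : S.card + 1 - ((S.image f).card + 1) = S.card - (S.image f).card := by omega
    rw [this, mul_one]

theorem sum_ite_mem_aux {θ : ℝ} (Q : Finset (Fin n)) :
    ∑ c : Fin n, (if c ∈ Q then 1 + θ else 1) = (n : ℝ) + Q.card * θ := by
  have : ∀ c : Fin n, (if c ∈ Q then 1 + θ else 1) = 1 + (if c ∈ Q then θ else 0) := by
    intro c
    split_ifs <;> simp
  simp only [this, Finset.sum_add_distrib, Finset.sum_const, Finset.card_univ, Fintype.card_fin,
    nsmul_eq_mul, mul_one]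
  congr 1
  rw [Finset.sum_ite_mem]
  simp

theorem Y_sum_step (hn : 0 < n) {θ : ℝ} (hθ : 0 ≤ θ) {S : Finset (Fin n)} {a : Fin n} (ha : a ∉ S) :
    ∑ f : Fin n → Fin n, (1 + hh θ (col (insert a S) f)) ≤
      (1 + θ * S.card / n) * ∑ f : Fin n → Fin n, (1 + hh θ (col S f)) := by
  have hn' : (0 : ℝ) < n := by exact_mod_cast hn
  have h1 := sum_update a (fun f => 1 + hh θ (col (insert a S) f))
  have hY : ∀ f : Fin n → Fin n, 0 ≤ 1 + hh θ (col S f) := fun f => by
    have := hh_nonneg hθ (col S f)
    linarith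
  have h2 : ∑ f : Fin n → Fin n, ∑ c, (1 + hh θ (col (insert a S) (Function.update f a c))) ≤
      ∑ f : Fin n → Fin n, (1 + hh θ (col S f)) * ((n : ℝ) + θ * S.card) := by
    refine Finset.sum_le_sum fun f _ => ?_
    calc ∑ c, (1 + hh θ (col (insert a S) (Function.update f a c)))
        ≤ ∑ c, (1 + hh θ (col S f)) * (if c ∈ S.image f then 1 + θ else 1) :=
          Finset.sum_le_sum fun c _ => Y_step hθ ha f c
      _ = (1 + hh θ (col S f)) * ((n : ℝ) + (S.image f).card * θ) := by
          rw [← Finset.mul_sum, sum_ite_mem_aux]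
      _ ≤ (1 + hh θ (col S f)) * ((n : ℝ) + θ * S.card) := by
          refine mul_le_mul_of_nonneg_left ?_ (hY f)
          have h3 : ((S.image f).card : ℝ) ≤ S.card := by exact_mod_cast Finset.card_image_le
          nlinarith
  rw [h1, ← Finset.sum_mul] at h2
  have h4 : (1 + θ * S.card / n) = ((n : ℝ) + θ * S.card) / n := by
    field_simp
  rw [h4, div_mul_eq_mul_div, le_div_iff₀ hn']
  linarith

theorem Y_sum (hn : 0 < n) {θ : ℝ} (hθ : 0 ≤ θ) (S : Finset (Fin n)) :
    ∑ f : Fin n → Fin n, (1 + hh θ (col S f)) ≤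
      (n : ℝ) ^ n * Real.exp (θ * (S.card : ℝ) ^ 2 / n) := by
  have hn' : (0 : ℝ) < n := by exact_mod_cast hn
  induction S using Finset.induction_on with
  | empty =>
    simp [col, hh]
  | insert a S ha IH =>
    refine (Y_sum_step hn hθ ha).trans ?_
    have h1 : 1 + θ * S.card / n ≤ Real.exp (θ * S.card / n) := by
      have := Real.add_one_le_exp (θ * S.card / n)
      linarith
    have h2 : 0 ≤ 1 + θ * (S.card : ℝ) / n := by positivity
    calc (1 + θ * S.card / n) * ∑ f : Fin n → Fin n, (1 + hh θ (col S f))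
        ≤ Real.exp (θ * S.card / n) * ((n : ℝ) ^ n * Real.exp (θ * (S.card : ℝ) ^ 2 / n)) :=
          mul_le_mul h1 IH (Finset.sum_nonneg fun f _ => by
            have := hh_nonneg hθ (col S f)
            linarith) (Real.exp_pos _).le
      _ = (n : ℝ) ^ n * Real.exp (θ * S.card / n + θ * (S.card : ℝ) ^ 2 / n) := by
          rw [Real.exp_add]; ring
      _ ≤ (n : ℝ) ^ n * Real.exp (θ * ((insert a S).card : ℝ) ^ 2 / n) := by
          refine mul_le_mul_of_nonneg_left ?_ (by positivity)
          apply Real.exp_le_exp.2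
          rw [Finset.card_insert_of_notMem ha]
          push_cast
          rw [← add_div]
          refine div_le_div_of_nonneg_right ?_ hn'.le
          have h3 : (0 : ℝ) ≤ S.card := Nat.cast_nonneg _
          nlinarith [mul_nonneg hθ h3]

theorem exp_small : Real.exp (1 / 25) ≤ 25 / 24 := by
  have h1 := Real.add_one_le_exp (-(1 / 25 : ℝ))
  have h2 : Real.exp (1 / 25) * Real.exp (-(1 / 25)) = 1 := by
    rw [← Real.exp_add]; simp
  have h3 := Real.exp_pos (1 / 25 : ℝ)
  nlinarith

theorem exp_small' : Real.exp (1 / 10) ≤ 10 / 9 := by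
  have h1 := Real.add_one_le_exp (-(1 / 10 : ℝ))
  have h2 : Real.exp (1 / 10) * Real.exp (-(1 / 10)) = 1 := by
    rw [← Real.exp_add]; simp
  have h3 := Real.exp_pos (1 / 10 : ℝ)
  nlinarith

/-- The expectation of the collision weight is at most `1/24`. -/
theorem hh_sum (hn : 0 < n) {θ : ℝ} (hθ : 0 ≤ θ) {k : ℕ} (hk : 25 * θ * (k : ℝ) ^ 2 ≤ n)
    {S : Finset (Fin n)} (hS : S.card ≤ k) :
    ∑ f : Fin n → Fin n, hh θ (col S f) ≤ (n : ℝ) ^ n * (1 / 24) := by
  have hn' : (0 : ℝ) < n := by exact_mod_cast hn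
  have h1 := Y_sum hn hθ S
  have hz : θ * (S.card : ℝ) ^ 2 / n ≤ 1 / 25 := by
    rw [div_le_iff₀ hn']
    have h3 : (S.card : ℝ) ≤ k := by exact_mod_cast hS
    have h4 : (S.card : ℝ) ^ 2 ≤ (k : ℝ) ^ 2 := by
      have : (0 : ℝ) ≤ S.card := Nat.cast_nonneg _
      nlinarith
    have := mul_le_mul_of_nonneg_left h4 hθ
    nlinarith
  have h2 : Real.exp (θ * (S.card : ℝ) ^ 2 / n) ≤ 25 / 24 :=
    (Real.exp_le_exp.2 hz).trans exp_small
  have h3 : ∑ f : Fin n → Fin n, (1 + hh θ (col S f)) =
      (n : ℝ) ^ n + ∑ f : Fin n → Fin n, hh θ (col S f) := by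
    rw [Finset.sum_add_distrib]
    simp
  have h4 : (0 : ℝ) ≤ (n : ℝ) ^ n := by positivity
  have h5 := mul_le_mul_of_nonneg_left h2 h4
  rw [h3] at h1
  linarith

end Vale.Agent.Lib.P146.SchurX
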