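import Vale.Agent.Lib.P146.SchurC

set_option autoImplicit false
open Finset
open scoped Classical

namespace Vale.Agent.Lib.P146.SchurX

variable {n : ℕ} {H : Type} [Fintype H]

/-! ### Composition with a random map -/

theorem vv_comp_le (f : Fin n → Fin n) (x : H → Fin n) : vv (f ∘ x) ≤ vv x := by
  unfold vv
  rw [← Finset.image_image]
  exact Finset.card_image_le

theorem col_image (f : Fin n → Fin n) (x : H → Fin n) :
    col (univ.image x) f = vv x - vv (f ∘ x) := by
  unfold col vv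
  rw [Finset.image_image]

theorem EvF_comp {x : H → Fin n} (hx : EvF x) (f : Fin n → Fin n) : EvF (f ∘ x) := by
  intro l
  have h1 : fib (f ∘ x) l = ∑ m ∈ univ.filter (fun m => f m = l), fib x m := by
    unfold fib
    have hm : Set.MapsTo x ((univ.filter fun h => (f ∘ x) h = l : Finset H) : Set H)
        ((univ.filter fun m => f m = l : Finset (Fin n)) : Set (Fin n)) := by
      intro h hh
      simpa using hh
    rw [Finset.card_eq_sum_card_fiberwise hm]
    refine Finset.sum_congr rfl fun m hm' => ?_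
    have hfm : f m = l := (Finset.mem_filter.1 hm').2
    congr 1
    ext h
    simp only [mem_filter, mem_univ, true_and, Function.comp]
    constructor
    · exact fun h1 => h1.2
    · intro h1
      exact ⟨by rw [h1, hfm], h1⟩
  rw [h1]
  exact Finset.even_sum _ fun m _ => hx m

theorem Finer_comp (f : Fin n → Fin n) (x : H → Fin n) : Finer x (f ∘ x) :=
  fun h h' e => by simp only [Function.comp, e]

theorem exists_perm_of_injOn {S : Finset (Fin n)} {f : Fin n → Fin n} (hf : Set.InjOn f S) :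
    ∃ σ : Equiv.Perm (Fin n), ∀ a ∈ S, σ a = f a := by
  obtain ⟨e, he⟩ := Finset.exists_equiv_extend_of_card_eq (t := (univ : Finset (Fin n)))
    (by simp) (Finset.subset_univ (S.image f)) hf
  refine ⟨e.trans (Equiv.subtypeUnivEquiv (fun _ => Finset.mem_univ _)), fun a ha => ?_⟩
  simpa using he a ha

/-- Without a collision a map acts as a permutation. -/
theorem g_good {g : (H → Fin n) → ℝ} (hg : ∀ (σ : Equiv.Perm (Fin n)) x, g (σ ∘ x) = g x)
    {x : H → Fin n} {f : Fin n → Fin n} (hf : ¬ vv (f ∘ x) < vv x) : g (f ∘ x) = g x := by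
  have h1 : vv (f ∘ x) = vv x := le_antisymm (vv_comp_le f x) (not_lt.1 hf)
  have h2 : ((univ.image x).image f).card = (univ.image x).card := by
    rw [Finset.image_image]
    exact h1
  obtain ⟨σ, hσ⟩ := exists_perm_of_injOn (Finset.card_image_iff.1 h2)
  have h3 : f ∘ x = σ ∘ x := by
    funext h
    exact (hσ (x h) (Finset.mem_image_of_mem x (Finset.mem_univ h))).symm
  rw [h3, hg]

/-- The free average. -/
noncomputable def Tg (g : (H → Fin n) → ℝ) (x : H → Fin n) : ℝ :=
  ((n : ℝ) ^ n)⁻¹ * ∑ f : Fin n → Fin n, g (f ∘ x)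

/-- The part of the free average coming from merging maps. -/
noncomputable def Ng (g : (H → Fin n) → ℝ) (x : H → Fin n) : ℝ :=
  ((n : ℝ) ^ n)⁻¹ * ∑ f : Fin n → Fin n, (if vv (f ∘ x) < vv x then g (f ∘ x) else 0)

/-- The probability of a merge. -/
noncomputable def bb (x : H → Fin n) : ℝ :=
  ((n : ℝ) ^ n)⁻¹ * ∑ f : Fin n → Fin n, (if vv (f ∘ x) < vv x then (1 : ℝ) else 0)

/-- The weighted square sum of the merging part. -/
noncomputable def Rg (θ : ℝ) (g : (H → Fin n) → ℝ) (x : H → Fin n) : ℝ :=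
  ((n : ℝ) ^ n)⁻¹ * ∑ f : Fin n → Fin n,
    (if vv (f ∘ x) < vv x then (θ ^ (vv x - vv (f ∘ x)))⁻¹ * g (f ∘ x) ^ 2 else 0)

theorem nn_pos (hn : 0 < n) : (0 : ℝ) < (n : ℝ) ^ n := by
  have : (0 : ℝ) < n := by exact_mod_cast hn
  positivity

theorem sum_one_fun : ∑ _f : Fin n → Fin n, (1 : ℝ) = (n : ℝ) ^ n := by
  simp

theorem T_decomp (hn : 0 < n) {g : (H → Fin n) → ℝ}
    (hg : ∀ (σ : Equiv.Perm (Fin n)) x, g (σ ∘ x) = g x) (x : H → Fin n) :
    Tg g x = (1 - bb x) * g x + Ng g x := by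
  have h1 : ∀ f : Fin n → Fin n, g (f ∘ x) =
      (if vv (f ∘ x) < vv x then g (f ∘ x) else 0) +
        (1 - (if vv (f ∘ x) < vv x then (1 : ℝ) else 0)) * g x := by
    intro f
    split_ifs with h
    · ring
    · rw [g_good hg h]; ring
  unfold Tg Ng bb
  have h2 : ∑ f : Fin n → Fin n, g (f ∘ x) =
      ∑ f : Fin n → Fin n, (if vv (f ∘ x) < vv x then g (f ∘ x) else 0) +
        ((n : ℝ) ^ n - ∑ f : Fin n → Fin n, (if vv (f ∘ x) < vv x then (1 : ℝ) else 0)) * g x := by
    conv_lhs => rw [Finset.sum_congr rfl fun f _ => h1 f]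
    rw [Finset.sum_add_distrib, ← Finset.sum_mul, Finset.sum_sub_distrib, sum_one_fun]
  rw [h2]
  have h3 := nn_pos hn
  field_simp
  ring

/-- The collision weight in terms of values. -/
theorem hh_col (θ : ℝ) (f : Fin n → Fin n) (x : H → Fin n) :
    hh θ (col (univ.image x) f) =
      if vv (f ∘ x) < vv x then θ ^ (vv x - vv (f ∘ x)) else 0 := by
  rw [col_image]
  unfold hh
  have := vv_comp_le f x
  by_cases h : vv (f ∘ x) < vv x
  · rw [if_neg (by omega), if_pos h]
  · rw [if_pos (by omega), if_neg h]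

theorem vv_le_of_even {k : ℕ} (hH : Fintype.card H = 2 * k) {x : H → Fin n} (hx : EvF x) :
    vv x ≤ k := by
  have := two_vv_le hx
  omega

theorem bb_nonneg (x : H → Fin n) : 0 ≤ bb x := by
  unfold bb
  refine mul_nonneg (by positivity) (Finset.sum_nonneg fun f _ => ?_)
  split_ifs <;> norm_num

/-- Merges are rare. -/
theorem bb_le (hn : 0 < n) {θ : ℝ} (hθ : 1 ≤ θ) {k : ℕ} (hk : 25 * θ * (k : ℝ) ^ 2 ≤ n)
    (hH : Fintype.card H = 2 * k) {x : H → Fin n} (hx : EvF x) : bb x ≤ 1 / 2 := by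
  have h0 : (0 : ℝ) ≤ θ := by linarith
  have h1 := hh_sum hn h0 hk (S := univ.image x) (vv_le_of_even hH hx)
  have h2 : ∑ f : Fin n → Fin n, (if vv (f ∘ x) < vv x then (1 : ℝ) else 0) ≤
      ∑ f : Fin n → Fin n, hh θ (col (univ.image x) f) := by
    refine Finset.sum_le_sum fun f _ => ?_
    rw [hh_col]
    split_ifs
    · exact one_le_pow₀ hθ
    · exact le_rfl
  have h3 := nn_pos hn
  unfold bb
  rw [inv_mul_le_iff₀ h3]
  linarith

/-- Cauchy-Schwarz for the merging part. -/
theorem Ng_sq (hn : 0 < n) {θ : ℝ} (hθ : 1 ≤ θ) {k : ℕ} (hk : 25 * θ * (k : ℝ) ^ 2 ≤ n)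
    (hH : Fintype.card H = 2 * k) {x : H → Fin n} (hx : EvF x) (g : (H → Fin n) → ℝ) :
    Ng g x ^ 2 ≤ (1 / 24) * Rg θ g x := by
  have h0 : (0 : ℝ) < θ := by linarith
  have h1 := hh_sum hn h0.le hk (S := univ.image x) (vv_le_of_even hH hx)
  set v : (Fin n → Fin n) → ℝ := fun f =>
    (if vv (f ∘ x) < vv x then (θ ^ (vv x - vv (f ∘ x)))⁻¹ * g (f ∘ x) ^ 2 else 0) with hv
  have hv0 : ∀ f, 0 ≤ v f := by
    intro f
    simp only [hv]
    split_ifs
    · positivity
    · exact le_rfl
  have hCS := Finset.sum_sq_le_sum_mul_sum_of_sq_le_mul (univ : Finset (Fin n → Fin n))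
    (r := fun f => if vv (f ∘ x) < vv x then g (f ∘ x) else 0)
    (f := fun f => hh θ (col (univ.image x) f)) (g := v)
    (fun f _ => hh_nonneg h0.le _) (fun f _ => hv0 f) (by
      intro f _
      simp only [hv]
      rw [hh_col]
      split_ifs with hb
      · have : θ ^ (vv x - vv (f ∘ x)) ≠ 0 := by positivity
        apply le_of_eq
        field_simp
      · simp)
  have h3 := nn_pos hn
  have hsv : 0 ≤ ∑ f, v f := Finset.sum_nonneg fun f _ => hv0 f
  have h4 : (∑ f : Fin n → Fin n, (if vv (f ∘ x) < vv x then g (f ∘ x) else 0)) ^ 2 ≤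
      ((n : ℝ) ^ n * (1 / 24)) * ∑ f, v f :=
    hCS.trans (mul_le_mul_of_nonneg_right h1 hsv)
  have hR : Rg θ g x = ((n : ℝ) ^ n)⁻¹ * ∑ f, v f := rfl
  rw [hR]
  unfold Ng
  rw [mul_pow]
  have h5 : ((n : ℝ) ^ n)⁻¹ ^ 2 * (∑ f : Fin n → Fin n,
      (if vv (f ∘ x) < vv x then g (f ∘ x) else 0)) ^ 2 ≤
      ((n : ℝ) ^ n)⁻¹ ^ 2 * (((n : ℝ) ^ n * (1 / 24)) * ∑ f, v f) :=
    mul_le_mul_of_nonneg_left h4 (by positivity)
  refine h5.trans (le_of_eq ?_)
  field_simp

/-! ### Counting the maps with a given composition -/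

theorem card_comp_eq (x y : H → Fin n) :
    (univ.filter fun f : Fin n → Fin n => f ∘ x = y).card ≤ n ^ (n - vv x) := by
  set S := univ.image x with hS
  have hcard : Fintype.card ({a // a ∉ S} → Fin n) = n ^ (n - vv x) := by
    rw [Fintype.card_fun, Fintype.card_fin, Fintype.card_subtype]
    have : (univ.filter fun a => a ∉ S) = Sᶜ := by
      ext a
      simp
    rw [this, Finset.card_compl, Fintype.card_fin]
    rfl
  rw [← hcard, ← Finset.card_univ]
  refine Finset.card_le_card_of_injOn (fun f a => f a.1) (fun _ _ => Finset.mem_univ _) ?_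
  intro f1 h1 f2 h2 h12
  have e1 : f1 ∘ x = y := (Finset.mem_filter.1 (Finset.mem_coe.1 h1)).2
  have e2 : f2 ∘ x = y := (Finset.mem_filter.1 (Finset.mem_coe.1 h2)).2
  funext a
  by_cases ha : a ∈ S
  · obtain ⟨h, -, rfl⟩ := Finset.mem_image.1 ha
    have := congrFun (e1.trans e2.symm) h
    exact this
  · exact congrFun h12 ⟨a, ha⟩

theorem vv_le_n (x : H → Fin n) : vv x ≤ n := by
  unfold vv
  calc (univ.image x).card ≤ (univ : Finset (Fin n)).card := Finset.card_le_card (Finset.subset_univ _)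
    _ = n := by simp

/-! ### The bound for refinements -/

theorem fib_le_card (y : H → Fin n) (l : Fin n) : fib y l ≤ Fintype.card H := by
  unfold fib
  rw [← Finset.card_univ]
  exact Finset.card_filter_le _ _

theorem Pp_le {s : ℝ} (hs : 0 < s) (hc : (Fintype.card H : ℝ) * s ≤ 1 / 10) (y : H → Fin n) :
    Pp s y - 1 ≤ 1 / 9 := by
  have h1 : Pp s y ≤ ∏ l, Real.exp ((fib y l : ℝ) * s) := by
    refine Finset.prod_le_prod (fun l _ => by positivity) fun l _ => ?_
    have := Real.add_one_le_exp ((fib y l : ℝ) * s)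
    linarith
  rw [← Real.exp_sum, ← Finset.sum_mul] at h1
  have h2 : ∑ l, (fib y l : ℝ) = Fintype.card H := by exact_mod_cast sum_fib y
  rw [h2] at h1
  have h3 := (Real.exp_le_exp.2 hc).trans exp_small'
  linarith

/-- The kernel bound for a fixed target `y`. -/
theorem kernel_bound (hn : 0 < n) {θ : ℝ} (hθ : 1 ≤ θ) (hc : (Fintype.card H : ℝ) ≤ θ / 10)
    (y : H → Fin n) :
    ∑ x : H → Fin n, ∑ f : Fin n → Fin n,
      (if f ∘ x = y then
        (if EvF x ∧ vv (f ∘ x) < vv x then
          pw x * (((n : ℝ) ^ n)⁻¹ * (θ ^ (vv x - vv (f ∘ x)))⁻¹) else 0) else 0) ≤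
      (if EvF y then (1 / 9) * pw y else 0) := by
  have h0 : (0 : ℝ) < θ := by linarith
  have hn' : (0 : ℝ) < n := by exact_mod_cast hn
  have hnn := nn_pos hn
  by_cases hy : EvF y
  · rw [if_pos hy]
    set s : ℝ := θ⁻¹ with hs
    set a : ℝ := (θ * n)⁻¹ with ha
    have hs0 : 0 < s := by positivity
    have ha0 : 0 < a := by positivity
    have hna : (n : ℝ) * a ≤ s := by
      apply le_of_eq
      rw [hs, ha]
      field_simp
    have hcs : (Fintype.card H : ℝ) * s ≤ 1 / 10 := by
      rw [hs, ← div_eq_mul_inv, div_le_iff₀ h0]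
      linarith
    have hfs : ∀ l, (fib y l : ℝ) * s ≤ 1 := by
      intro l
      have h1 : (fib y l : ℝ) ≤ Fintype.card H := by exact_mod_cast fib_le_card y l
      have := mul_le_mul_of_nonneg_right h1 hs0.le
      linarith
    have hW := (lemW ha0 hs0 hna _ H rfl y hy hfs).2
    have hx : ∀ x : H → Fin n, ∑ f : Fin n → Fin n,
        (if f ∘ x = y then
          (if EvF x ∧ vv (f ∘ x) < vv x then
            pw x * (((n : ℝ) ^ n)⁻¹ * (θ ^ (vv x - vv (f ∘ x)))⁻¹) else 0) else 0) ≤
        θ ^ vv y * (if CB y x then pw x * a ^ vv x else 0) := by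
      intro x
      by_cases hCB : CB y x
      · rw [if_pos hCB]
        have hvy := hCB.2.2
        have hvn := vv_le_n x
        set c0 : ℝ := pw x * (((n : ℝ) ^ n)⁻¹ * (θ ^ (vv x - vv y))⁻¹) with hc0
        have hc0nn : 0 ≤ c0 := by
          have := pw_pos x
          positivity
        have hterm : ∀ f : Fin n → Fin n,
            (if f ∘ x = y then
              (if EvF x ∧ vv (f ∘ x) < vv x then
                pw x * (((n : ℝ) ^ n)⁻¹ * (θ ^ (vv x - vv (f ∘ x)))⁻¹) else 0) else 0) ≤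
            if f ∘ x = y then c0 else 0 := by
          intro f
          split_ifs with h1 h2
          · rw [h1]
          · exact hc0nn
          · exact le_rfl
        calc ∑ f : Fin n → Fin n,
            (if f ∘ x = y then
              (if EvF x ∧ vv (f ∘ x) < vv x then
                pw x * (((n : ℝ) ^ n)⁻¹ * (θ ^ (vv x - vv (f ∘ x)))⁻¹) else 0) else 0)
            ≤ ∑ f : Fin n → Fin n, (if f ∘ x = y then c0 else 0) :=
              Finset.sum_le_sum fun f _ => hterm f
          _ = ((univ.filter fun f : Fin n → Fin n => f ∘ x = y).card : ℝ) * c0 := by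
              rw [← Finset.sum_filter, Finset.sum_const, nsmul_eq_mul]
          _ ≤ (((n ^ (n - vv x) : ℕ)) : ℝ) * c0 :=
              mul_le_mul_of_nonneg_right (by exact_mod_cast card_comp_eq x y) hc0nn
          _ = θ ^ vv y * (pw x * a ^ vv x) := by
              rw [hc0, ha]
              have e1 : (n : ℝ) ^ n = (n : ℝ) ^ (n - vv x) * (n : ℝ) ^ vv x := by
                rw [← pow_add]
                congr 1
                omega
              have e2 : θ ^ vv x = θ ^ (vv x - vv y) * θ ^ vv y := by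
                rw [← pow_add]
                congr 1
                omega
              rw [inv_pow, mul_pow, e1, e2]
              push_cast
              field_simp
      · rw [if_neg hCB, mul_zero]
        refine le_of_eq (Finset.sum_eq_zero fun f _ => ?_)
        split_ifs with h1 h2
        · exfalso
          apply hCB
          subst h1
          exact ⟨h2.1, Finer_comp f x, h2.2⟩
        · rfl
        · rfl
    refine (Finset.sum_le_sum fun x _ => hx x).trans ?_
    rw [← Finset.mul_sum]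
    have hthetas : θ ^ vv y * s ^ vv y = 1 := by
      rw [← mul_pow, hs, mul_inv_cancel₀ h0.ne', one_pow]
    have hθv : 0 ≤ θ ^ vv y := by positivity
    calc θ ^ vv y * ∑ x : H → Fin n, (if CB y x then pw x * a ^ vv x else 0)
        ≤ θ ^ vv y * ((Pp s y - 1) * pw y * s ^ vv y) := mul_le_mul_of_nonneg_left hW hθv
      _ = (θ ^ vv y * s ^ vv y) * ((Pp s y - 1) * pw y) := by ring
      _ = (Pp s y - 1) * pw y := by rw [hthetas, one_mul]
      _ ≤ 1 / 9 * pw y := mul_le_mul_of_nonneg_right (Pp_le hs0 hcs y) (pw_pos y).le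
  · rw [if_neg hy]
    refine le_of_eq (Finset.sum_eq_zero fun x _ => Finset.sum_eq_zero fun f _ => ?_)
    split_ifs with h1 h2
    · exfalso
      apply hy
      rw [← h1]
      exact EvF_comp h2.1 f
    · rfl
    · rfl

/-- The swap of the sums. -/
theorem swap_sum (hn : 0 < n) {θ : ℝ} (hθ : 1 ≤ θ) (hc : (Fintype.card H : ℝ) ≤ θ / 10)
    (g : (H → Fin n) → ℝ) :
    ∑ x : H → Fin n, (if EvF x then pw x * Rg θ g x else 0) ≤
      (1 / 9) * ∑ y : H → Fin n, (if EvF y then pw y * g y ^ 2 else 0) := by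
  set W : (H → Fin n) → (Fin n → Fin n) → ℝ := fun x f =>
    if EvF x ∧ vv (f ∘ x) < vv x then
      pw x * (((n : ℝ) ^ n)⁻¹ * (θ ^ (vv x - vv (f ∘ x)))⁻¹) else 0 with hW
  have h1 : ∀ x : H → Fin n, (if EvF x then pw x * Rg θ g x else 0) =
      ∑ f : Fin n → Fin n, ∑ y : H → Fin n, (if f ∘ x = y then W x f * g y ^ 2 else 0) := by
    intro x
    have : ∀ f : Fin n → Fin n,
        ∑ y : H → Fin n, (if f ∘ x = y then W x f * g y ^ 2 else 0) = W x f * g (f ∘ x) ^ 2 := by
      intro f
      rw [Finset.sum_ite_eq]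
      simp
    rw [Finset.sum_congr rfl (fun f _ => this f)]
    by_cases hx : EvF x
    · rw [if_pos hx]
      unfold Rg
      rw [Finset.mul_sum, Finset.mul_sum]
      refine Finset.sum_congr rfl fun f _ => ?_
      simp only [hW, hx, true_and]
      split_ifs <;> ring
    · rw [if_neg hx]
      symm
      refine Finset.sum_eq_zero fun f _ => ?_
      simp [hW, hx]
  simp only [h1]
  have h2 : ∑ x : H → Fin n, ∑ f : Fin n → Fin n, ∑ y : H → Fin n,
        (if f ∘ x = y then W x f * g y ^ 2 else 0) =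
      ∑ y : H → Fin n, (∑ x : H → Fin n, ∑ f : Fin n → Fin n,
        (if f ∘ x = y then W x f else 0)) * g y ^ 2 := by
    calc ∑ x : H → Fin n, ∑ f : Fin n → Fin n, ∑ y : H → Fin n,
          (if f ∘ x = y then W x f * g y ^ 2 else 0)
        = ∑ x : H → Fin n, ∑ y : H → Fin n, ∑ f : Fin n → Fin n,
          (if f ∘ x = y then W x f * g y ^ 2 else 0) :=
            Finset.sum_congr rfl fun x _ => Finset.sum_comm
      _ = ∑ y : H → Fin n, ∑ x : H → Fin n, ∑ f : Fin n → Fin n,
          (if f ∘ x = y then W x f * g y ^ 2 else 0) := Finset.sum_comm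
      _ = _ := by
          refine Finset.sum_congr rfl fun y _ => ?_
          rw [Finset.sum_mul]
          refine Finset.sum_congr rfl fun x _ => ?_
          rw [Finset.sum_mul]
          refine Finset.sum_congr rfl fun f _ => ?_
          split_ifs <;> ring
  rw [h2, Finset.mul_sum]
  refine Finset.sum_le_sum fun y _ => ?_
  have h3 := kernel_bound hn hθ hc y
  have h4 : 0 ≤ g y ^ 2 := sq_nonneg _
  have h5 := mul_le_mul_of_nonneg_right h3 h4
  refine h5.trans (le_of_eq ?_)
  split_ifs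
  · ring
  · simp

/-- **The abstract Schur bound.** -/
theorem schur_abs (hn : 0 < n) {k : ℕ} (hH : Fintype.card H = 2 * k) (hk : 1000 * k ^ 3 ≤ n)
    (g : (H → Fin n) → ℝ) (hg : ∀ (σ : Equiv.Perm (Fin n)) x, g (σ ∘ x) = g x) :
    ∑ x : H → Fin n, (if EvF x then pw x * g x ^ 2 else 0) ≤
      16 * ∑ x : H → Fin n, (if EvF x then pw x * Tg g x ^ 2 else 0) := by
  set θ : ℝ := 20 * ((k : ℝ) + 1) with hθdef
  have hθ : 1 ≤ θ := by
    have : (0 : ℝ) ≤ k := Nat.cast_nonneg _
    rw [hθdef]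
    linarith
  have hc : (Fintype.card H : ℝ) ≤ θ / 10 := by
    rw [hH, hθdef]
    push_cast
    linarith
  have hk' : 25 * θ * (k : ℝ) ^ 2 ≤ n := by
    have h1 : 500 * (k + 1) * k ^ 2 ≤ 1000 * k ^ 3 := by
      rcases Nat.eq_zero_or_pos k with h | h
      · subst h; simp
      · have : k + 1 ≤ 2 * k := by omega
        calc 500 * (k + 1) * k ^ 2 ≤ 500 * (2 * k) * k ^ 2 := by gcongr
          _ = 1000 * k ^ 3 := by ring
    have h2 : 500 * (k + 1) * k ^ 2 ≤ n := h1.trans hk
    have h3 : (500 : ℝ) * ((k : ℝ) + 1) * (k : ℝ) ^ 2 ≤ n := by exact_mod_cast h2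
    rw [hθdef]
    linarith
  have hpt : ∀ x : H → Fin n, EvF x → g x ^ 2 ≤ 8 * Tg g x ^ 2 + 8 * Ng g x ^ 2 := by
    intro x hx
    have h1 := T_decomp hn hg x
    have h2 := bb_le hn hθ hk' hH hx
    have h3 := bb_nonneg x
    set p := 1 - bb x with hp
    have hp1 : 1 / 2 ≤ p := by rw [hp]; linarith
    have h4 : p * g x = Tg g x - Ng g x := by rw [h1]; ring
    have h5 : g x ^ 2 ≤ 4 * (p * g x) ^ 2 := by
      have : (1 : ℝ) ≤ 4 * p ^ 2 := by nlinarith
      have h6 := mul_le_mul_of_nonneg_right this (sq_nonneg (g x))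
      calc g x ^ 2 = 1 * g x ^ 2 := by ring
        _ ≤ 4 * p ^ 2 * g x ^ 2 := h6
        _ = 4 * (p * g x) ^ 2 := by ring
    rw [h4] at h5
    nlinarith [sq_nonneg (Tg g x + Ng g x)]
  set G := ∑ x : H → Fin n, (if EvF x then pw x * g x ^ 2 else 0) with hG
  set TT' := ∑ x : H → Fin n, (if EvF x then pw x * Tg g x ^ 2 else 0) with hTT
  have hTT0 : 0 ≤ TT' := Finset.sum_nonneg fun x _ => by
    split_ifs
    · exact mul_nonneg (pw_pos x).le (sq_nonneg _)
    · exact le_rfl
  have hN : ∑ x : H → Fin n, (if EvF x then pw x * Ng g x ^ 2 else 0) ≤ (1 / 24) * ((1 / 9) * G) := by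
    have h1 := swap_sum hn hθ hc g
    have h2 : ∑ x : H → Fin n, (if EvF x then pw x * Ng g x ^ 2 else 0) ≤
        (1 / 24) * ∑ x : H → Fin n, (if EvF x then pw x * Rg θ g x else 0) := by
      rw [Finset.mul_sum]
      refine Finset.sum_le_sum fun x _ => ?_
      split_ifs with hx
      · have := mul_le_mul_of_nonneg_left (Ng_sq hn hθ hk' hH hx g) (pw_pos x).le
        calc pw x * Ng g x ^ 2 ≤ pw x * (1 / 24 * Rg θ g x) := this
          _ = 1 / 24 * (pw x * Rg θ g x) := by ring
      · simp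
    refine h2.trans ?_
    exact mul_le_mul_of_nonneg_left h1 (by norm_num)
  have hmain : G ≤ 8 * TT' + 8 * ∑ x : H → Fin n, (if EvF x then pw x * Ng g x ^ 2 else 0) := by
    rw [hG, hTT, Finset.mul_sum, Finset.mul_sum, ← Finset.sum_add_distrib]
    refine Finset.sum_le_sum fun x _ => ?_
    split_ifs with hx
    · have := mul_le_mul_of_nonneg_left (hpt x hx) (pw_pos x).le
      calc pw x * g x ^ 2 ≤ pw x * (8 * Tg g x ^ 2 + 8 * Ng g x ^ 2) := this
        _ = 8 * (pw x * Tg g x ^ 2) + 8 * (pw x * Ng g x ^ 2) := by ring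
    · simp
  linarith

end Vale.Agent.Lib.P146.SchurX
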