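import Vale.Agent.Lib.P146.Defs

/-! Module J1, part a: the refinement sum (estimate S2) and the collision sum (estimate S1),
for abstract half-edge sets. -/

set_option autoImplicit false
open scoped Classical
open Finset

namespace Vale.Agent.Lib.P146

variable {n : ℕ}

/-! ### The weight `wt1` -/

theorem wt1_zero : wt1 0 = 1 := by simp [wt1]

theorem wt1_succ (m : ℕ) : wt1 (m + 1) = ((m + 1).factorial : ℝ) / 2 := by simp [wt1]

theorem wt1_pos (m : ℕ) : 0 < wt1 m := by
  cases m with
  | zero => simp [wt1]
  | succ m =>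
    rw [wt1_succ]
    have : (0 : ℝ) < ((m + 1).factorial : ℝ) := by exact_mod_cast Nat.factorial_pos _
    linarith

/-! ### Fibres -/

/-- Fibre size. -/
noncomputable def fb {H : Type} [Fintype H] (x : H → Fin n) (c : Fin n) : ℕ :=
  (univ.filter fun h => x h = c).card

/-- The weight of a half-edge assignment. -/
noncomputable def pw {H : Type} [Fintype H] (x : H → Fin n) : ℝ := ∏ c, wt1 (fb x c)

/-- The number of labels used. -/
noncomputable def vv {H : Type} [Fintype H] (x : H → Fin n) : ℕ := (univ.image x).card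

/-- `x` refines `y`. -/
def Ref {H : Type} (x y : H → Fin n) : Prop := ∀ h h', x h = x h' → y h = y h'

/-- The factor of the refinement bound. -/
noncomputable def psi (θ : ℝ) (m : ℕ) : ℝ := if m = 0 then 1 else wt1 m * θ⁻¹ * (1 + m / θ)

theorem psi_zero (θ : ℝ) : psi θ 0 = 1 := by simp [psi]

theorem psi_pos {θ : ℝ} (hθ : 0 < θ) (m : ℕ) : 0 < psi θ m := by
  unfold psi
  split_ifs with h
  · exact one_pos
  · have := wt1_pos m
    positivity

theorem pw_pos {H : Type} [Fintype H] (x : H → Fin n) : 0 < pw x :=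
  Finset.prod_pos fun _ _ => wt1_pos _

theorem choose_wt1_le (M i : ℕ) (hi : i < M) :
    (M.choose i : ℝ) * (wt1 (i + 1) * wt1 (M - i)) ≤ wt1 (M + 1) / 2 := by
  obtain ⟨r, hr⟩ : ∃ r, M - i = r + 1 := ⟨M - i - 1, by omega⟩
  have hM : M = i + (r + 1) := by omega
  rw [hr, wt1_succ, wt1_succ, wt1_succ]
  have h1 : (M.choose i : ℝ) * (i.factorial : ℝ) * ((r + 1).factorial : ℝ) = (M.factorial : ℝ) := by
    have := Nat.choose_mul_factorial_mul_factorial (n := M) (k := i) hi.le
    rw [hr] at this
    exact_mod_cast this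
  have h2 : ((i + 1).factorial : ℝ) = ((i : ℝ) + 1) * (i.factorial : ℝ) := by
    rw [Nat.factorial_succ]; push_cast; ring
  have h3 : ((M + 1).factorial : ℝ) = ((M : ℝ) + 1) * (M.factorial : ℝ) := by
    rw [Nat.factorial_succ]; push_cast; ring
  rw [h2, h3]
  have h4 : (M.choose i : ℝ) * (((i : ℝ) + 1) * (i.factorial : ℝ) / 2 * (((r + 1).factorial : ℝ) / 2)) =
      ((i : ℝ) + 1) * (M.factorial : ℝ) / 4 := by
    rw [← h1]; ring
  rw [h4]
  have h5 : (0 : ℝ) ≤ (M.factorial : ℝ) := by positivity
  have h6 : (i : ℝ) ≤ M := by exact_mod_cast hi.le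
  nlinarith

/-- The recursion inequality for a single fibre. -/
theorem fibre_ineq {θ : ℝ} (hθ : 0 < θ) (M : ℕ) (hM : (M : ℝ) + 1 ≤ θ) :
    ∑ i ∈ range (M + 1), (M.choose i : ℝ) * (wt1 (i + 1) * θ⁻¹ * psi θ (M - i)) ≤ psi θ (M + 1) := by
  rw [Finset.sum_range_succ]
  have hw := wt1_pos (M + 1)
  have hθi : 0 < θ⁻¹ := inv_pos.2 hθ
  have hterm : ∀ i ∈ range M, (M.choose i : ℝ) * (wt1 (i + 1) * θ⁻¹ * psi θ (M - i)) ≤
      wt1 (M + 1) * θ⁻¹ * θ⁻¹ := by
    intro i hi
    have hi' : i < M := Finset.mem_range.1 hi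
    have hne : M - i ≠ 0 := by omega
    have hr : ((M - i : ℕ) : ℝ) / θ ≤ 1 := by
      rw [div_le_one hθ]
      have : ((M - i : ℕ) : ℝ) ≤ M := by exact_mod_cast Nat.sub_le _ _
      linarith
    have hr0 : (0 : ℝ) ≤ ((M - i : ℕ) : ℝ) / θ := by positivity
    simp only [psi, hne, if_false]
    have hc := choose_wt1_le M i hi'
    have hq : 0 < wt1 (M - i) := wt1_pos _
    calc (M.choose i : ℝ) * (wt1 (i + 1) * θ⁻¹ * (wt1 (M - i) * θ⁻¹ * (1 + ((M - i : ℕ) : ℝ) / θ)))
        = ((M.choose i : ℝ) * (wt1 (i + 1) * wt1 (M - i))) * (θ⁻¹ * θ⁻¹) * (1 + ((M - i : ℕ) : ℝ) / θ) := by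
          ring
      _ ≤ (wt1 (M + 1) / 2) * (θ⁻¹ * θ⁻¹) * 2 := by
          apply mul_le_mul _ (by linarith) (by linarith) (by positivity)
          exact mul_le_mul_of_nonneg_right hc (by positivity)
      _ = wt1 (M + 1) * θ⁻¹ * θ⁻¹ := by ring
  have hsum := Finset.sum_le_sum hterm
  rw [Finset.sum_const, Finset.card_range, nsmul_eq_mul] at hsum
  simp only [Nat.choose_self, Nat.sub_self, psi_zero, Nat.cast_one, one_mul, mul_one]
  have hpsi : psi θ (M + 1) = wt1 (M + 1) * θ⁻¹ * (1 + ((M : ℝ) + 1) / θ) := by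
    simp [psi]
  rw [hpsi]
  have hexp : wt1 (M + 1) * θ⁻¹ * (1 + ((M : ℝ) + 1) / θ) =
      wt1 (M + 1) * θ⁻¹ + (M : ℝ) * (wt1 (M + 1) * θ⁻¹ * θ⁻¹) + wt1 (M + 1) * θ⁻¹ * θ⁻¹ := by
    field_simp
    ring
  rw [hexp]
  have : 0 ≤ wt1 (M + 1) * θ⁻¹ * θ⁻¹ := by positivity
  linarith

/-! ### Peeling one block -/

section Peel

variable {H : Type} [Fintype H]

theorem card_sub_filter (W : Finset H) (P : H → Prop) [DecidablePred P] :
    (univ.filter fun h' : {h // h ∉ W} => P h'.1).card = (univ.filter fun h => h ∉ W ∧ P h).card := by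
  rw [← Finset.card_map (Function.Embedding.subtype _)]
  congr 1
  ext h
  simp only [Finset.mem_map, Finset.mem_filter, Finset.mem_univ, true_and,
    Function.Embedding.coe_subtype, Subtype.exists, exists_and_right, exists_eq_right]
  constructor
  · rintro ⟨hW, hP⟩; exact ⟨hW, hP⟩
  · rintro ⟨hW, hP⟩; exact ⟨hW, hP⟩

/-- Fibres of the restriction to the complement of a block of `x`. -/
theorem fb_restrict_block (x : H → Fin n) (c₀ c : Fin n) :
    fb (fun h' : {h // h ∉ univ.filter fun h => x h = c₀} => x h'.1) c =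
      if c = c₀ then 0 else fb x c := by
  unfold fb
  refine (card_sub_filter (univ.filter fun h => x h = c₀) (fun h => x h = c)).trans ?_
  split_ifs with h
  · subst h
    rw [Finset.card_eq_zero, Finset.filter_eq_empty_iff]
    intro a _
    simp
  · congr 1
    ext a
    simp only [Finset.mem_filter, Finset.mem_univ, true_and, not_and, not_not]
    constructor
    · exact fun h' => h'.2
    · intro h'
      refine ⟨fun hc => ?_, h'⟩
      exact absurd (h'.symm.trans hc) h

/-- Fibres of the restriction of `y` to the complement of a set inside a fibre of `y`. -/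
theorem fb_restrict_sub (y : H → Fin n) (W : Finset H) (b₀ : Fin n)
    (hW : ∀ h ∈ W, y h = b₀) (c : Fin n) :
    fb (fun h' : {h // h ∉ W} => y h'.1) c = if c = b₀ then fb y b₀ - W.card else fb y c := by
  unfold fb
  refine (card_sub_filter W (fun h => y h = c)).trans ?_
  split_ifs with h
  · subst h
    have hsub : W ⊆ univ.filter fun h => y h = c := by
      intro a ha
      simp [hW a ha]
    rw [← Finset.card_sdiff_of_subset hsub]
    congr 1
    ext a
    simp only [Finset.mem_filter, Finset.mem_univ, true_and, Finset.mem_sdiff]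
    tauto
  · congr 1
    ext a
    simp only [Finset.mem_filter, Finset.mem_univ, true_and, and_iff_right_iff_imp]
    intro ha haW
    exact h (ha.symm.trans (hW a haW))

theorem pw_restrict_block (x : H → Fin n) (c₀ : Fin n) :
    pw x = wt1 (univ.filter fun h => x h = c₀).card *
      pw (fun h' : {h // h ∉ univ.filter fun h => x h = c₀} => x h'.1) := by
  unfold pw
  rw [← Finset.mul_prod_erase univ _ (Finset.mem_univ c₀),
    ← Finset.mul_prod_erase univ (fun c => wt1 (fb (fun h' : {h // h ∉ univ.filter fun h => x h = c₀} => x h'.1) c)) (Finset.mem_univ c₀)]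
  rw [fb_restrict_block, if_pos rfl, wt1_zero, one_mul]
  congr 1
  apply Finset.prod_congr rfl
  intro c hc
  rw [fb_restrict_block, if_neg (Finset.ne_of_mem_erase hc)]

theorem vv_restrict_block (x : H → Fin n) (h₀ : H) :
    vv x = vv (fun h' : {h // h ∉ univ.filter fun h => x h = x h₀} => x h'.1) + 1 := by
  unfold vv
  have : univ.image x = insert (x h₀)
      (univ.image (fun h' : {h // h ∉ univ.filter fun h => x h = x h₀} => x h'.1)) := by
    ext c
    simp only [Finset.mem_image, Finset.mem_univ, true_and, Finset.mem_insert, Subtype.exists,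
      Finset.mem_filter, exists_prop]
    constructor
    · rintro ⟨a, rfl⟩
      by_cases h : x a = x h₀
      · left; exact h
      · right; exact ⟨a, h, rfl⟩
    · rintro (h | ⟨a, _, ha⟩)
      · exact ⟨h₀, h.symm⟩
      · exact ⟨a, ha⟩
  rw [this, Finset.card_insert_of_notMem]
  simp only [Finset.mem_image, Finset.mem_univ, true_and, Subtype.exists, Finset.mem_filter,
    exists_prop, not_exists, not_and]
  intro a ha
  exact ha

/-- The sum over refinements. -/
noncomputable def refSum {H : Type} [Fintype H] (θ : ℝ) (y : H → Fin n) : ℝ :=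
  ∑ x : H → Fin n, if Ref x y then pw x * ((θ * n)⁻¹) ^ vv x else 0

theorem refSum_nonneg {θ : ℝ} (hθ : 0 < θ) (y : H → Fin n) : 0 ≤ refSum θ y := by
  apply Finset.sum_nonneg
  intro x _
  split_ifs
  · have := pw_pos x
    positivity
  · exact le_rfl

/-- The contribution of the assignments `x` whose block through `h₀` is a given `W`. -/
theorem peel_fixed {θ : ℝ} (hθ : 0 < θ) (hn : 0 < n) (y : H → Fin n) (h₀ : H) (W : Finset H) :
    ∑ x : H → Fin n, (if Ref x y ∧ (univ.filter fun h => x h = x h₀) = W then
        pw x * ((θ * n)⁻¹) ^ vv x else 0) ≤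
      wt1 W.card * θ⁻¹ * refSum θ (fun h' : {h // h ∉ W} => y h'.1) := by
  have hn' : (0 : ℝ) < n := by exact_mod_cast hn
  set R := refSum θ (fun h' : {h // h ∉ W} => y h'.1) with hR
  set g : ({h // h ∉ W} → Fin n) → ℝ := fun x' =>
    if Ref x' (fun h' : {h // h ∉ W} => y h'.1) then pw x' * ((θ * n)⁻¹) ^ vv x' else 0 with hg
  have hg0 : ∀ x', 0 ≤ g x' := by
    intro x'
    simp only [hg]
    split_ifs
    · have := pw_pos x'
      positivity
    · exact le_rfl
  -- the injection
  set e : (H → Fin n) → Fin n × ({h // h ∉ W} → Fin n) := fun x => (x h₀, fun h' => x h'.1) with he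
  set s : Finset (H → Fin n) := univ.filter fun x => (univ.filter fun h => x h = x h₀) = W with hs
  have hinj : Set.InjOn e (s : Set (H → Fin n)) := by
    intro x hx x' hx' hxx'
    simp only [hs, Finset.coe_filter, Finset.mem_univ, true_and, Set.mem_ofPred_eq] at hx hx'
    have h1 : x h₀ = x' h₀ := congrArg Prod.fst hxx'
    have h2 : ∀ h' : {h // h ∉ W}, x h'.1 = x' h'.1 := fun h' => congrFun (congrArg Prod.snd hxx') h'
    funext a
    by_cases ha : a ∈ W
    · have ha1 : x a = x h₀ := by
        rw [← hx] at ha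
        simpa using ha
      have ha2 : x' a = x' h₀ := by
        rw [← hx'] at ha
        simpa using ha
      rw [ha1, ha2, h1]
    · exact h2 ⟨a, ha⟩
  -- termwise comparison
  have hterm : ∀ x ∈ s, (if Ref x y then pw x * ((θ * n)⁻¹) ^ vv x else 0) ≤
      wt1 W.card * (θ * n)⁻¹ * g (e x).2 := by
    intro x hx
    have hxW : (univ.filter fun h => x h = x h₀) = W := by
      simpa [hs] using hx
    split_ifs with hr
    · subst hxW
      have hr' : Ref (e x).2 (fun h' : {h // h ∉ univ.filter fun h => x h = x h₀} => y h'.1) := by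
        intro a b hab
        exact hr a.1 b.1 hab
      simp only [hg, if_pos hr']
      rw [pw_restrict_block x (x h₀), vv_restrict_block x h₀, pow_succ]
      simp only [he]
      apply le_of_eq
      ring
    · have := wt1_pos W.card
      have := hg0 (e x).2
      positivity
  have hstep1 : ∑ x : H → Fin n, (if Ref x y ∧ (univ.filter fun h => x h = x h₀) = W then
        pw x * ((θ * n)⁻¹) ^ vv x else 0) =
      ∑ x ∈ s, (if Ref x y then pw x * ((θ * n)⁻¹) ^ vv x else 0) := by
    rw [hs, Finset.sum_filter]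
    apply Finset.sum_congr rfl
    intro x _
    by_cases h1 : Ref x y <;> by_cases h2 : (univ.filter fun h => x h = x h₀) = W <;> simp [h1, h2]
  rw [hstep1]
  calc ∑ x ∈ s, (if Ref x y then pw x * ((θ * n)⁻¹) ^ vv x else 0)
      ≤ ∑ x ∈ s, wt1 W.card * (θ * n)⁻¹ * g (e x).2 := Finset.sum_le_sum hterm
    _ = ∑ z ∈ s.image e, wt1 W.card * (θ * n)⁻¹ * g z.2 := by
        rw [Finset.sum_image hinj]
    _ ≤ ∑ z : Fin n × ({h // h ∉ W} → Fin n), wt1 W.card * (θ * n)⁻¹ * g z.2 := by
        apply Finset.sum_le_sum_of_subset_of_nonneg (Finset.subset_univ _)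
        intro z _ _
        have := wt1_pos W.card
        have := hg0 z.2
        positivity
    _ = (n : ℝ) * (wt1 W.card * (θ * n)⁻¹ * R) := by
        rw [Fintype.sum_prod_type]
        simp only [Finset.sum_const, Finset.card_univ, Fintype.card_fin, nsmul_eq_mul]
        congr 1
        rw [← Finset.mul_sum]
        congr 1
        simp only [hR, refSum, hg]
        congr!
    _ = wt1 W.card * θ⁻¹ * R := by
        field_simp

end Peel

/-- The refinement sum is bounded by a product over the fibres. -/
theorem refSum_le {θ : ℝ} (hθ : 0 < θ) (hn : 0 < n) :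
    ∀ (m : ℕ) (H : Type) [Fintype H] (y : H → Fin n),
      Fintype.card H = m → (m : ℝ) ≤ θ → refSum θ y ≤ ∏ c, psi θ (fb y c) := by
  intro m
  induction m using Nat.strong_induction_on with
  | _ m ih =>
    intro H _ y hm hθm
    by_cases hH : IsEmpty H
    · have hfb : ∀ (x : H → Fin n) c, fb x c = 0 := by
        intro x c
        simp [fb, Finset.univ_eq_empty]
      have hvv : ∀ x : H → Fin n, vv x = 0 := by
        intro x
        simp [vv, Finset.univ_eq_empty]
      have hpw : ∀ x : H → Fin n, pw x = 1 := by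
        intro x
        simp [pw, hfb, wt1_zero]
      have hr : ∀ x : H → Fin n, Ref x y := by
        intro x a
        exact (hH.false a).elim
      simp only [refSum, hr, if_true, hvv, hpw, hfb, psi_zero, pow_zero, mul_one,
        Finset.prod_const_one]
      simp
    · obtain ⟨h₀⟩ := not_isEmpty_iff.1 hH
      set b₀ := y h₀ with hb₀
      set F : Finset H := univ.filter fun h => y h = b₀ with hF
      have hh₀F : h₀ ∈ F := by simp [hF, hb₀]
      set F' := F.erase h₀ with hF'
      have hF'card : fb y b₀ = F'.card + 1 := by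
        rw [hF', Finset.card_erase_of_mem hh₀F]
        have : 0 < F.card := Finset.card_pos.2 ⟨h₀, hh₀F⟩
        have h2 : fb y b₀ = F.card := rfl
        omega
      have hh₀F' : h₀ ∉ F' := by simp [hF']
      set P : ℝ := ∏ c ∈ univ.erase b₀, psi θ (fb y c) with hP
      have hPpos : 0 ≤ P := Finset.prod_nonneg fun c _ => (psi_pos hθ _).le
      -- decomposition according to the block through `h₀`
      have hle : refSum θ y ≤ ∑ U ∈ F'.powerset, ∑ x : H → Fin n,
          (if Ref x y ∧ (univ.filter fun h => x h = x h₀) = insert h₀ U then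
            pw x * ((θ * n)⁻¹) ^ vv x else 0) := by
        rw [Finset.sum_comm]
        apply Finset.sum_le_sum
        intro x _
        have hnn : ∀ U ∈ F'.powerset, (0 : ℝ) ≤
            (if Ref x y ∧ (univ.filter fun h => x h = x h₀) = insert h₀ U then
              pw x * ((θ * n)⁻¹) ^ vv x else 0) := by
          intro U _
          split_ifs
          · have := pw_pos x
            positivity
          · exact le_rfl
        by_cases hr : Ref x y
        · set W := univ.filter fun h => x h = x h₀ with hW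
          have hh₀W : h₀ ∈ W := by simp [hW]
          have hU : W.erase h₀ ∈ F'.powerset := by
            rw [Finset.mem_powerset]
            intro a ha
            have ha1 := Finset.ne_of_mem_erase ha
            have ha2 := Finset.mem_of_mem_erase ha
            rw [hF', Finset.mem_erase]
            refine ⟨ha1, ?_⟩
            simp only [hW, Finset.mem_filter, Finset.mem_univ, true_and] at ha2
            simp only [hF, Finset.mem_filter, Finset.mem_univ, true_and]
            exact hr _ _ ha2
          have := Finset.single_le_sum hnn hU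
          rw [Finset.insert_erase hh₀W] at this
          simpa [hr] using this
        · simp only [hr, if_false]
          apply Finset.sum_nonneg
          intro U hU
          simp only [hr, false_and, if_false]
          exact le_rfl
      -- each block
      have hblock : ∀ U ∈ F'.powerset, ∑ x : H → Fin n,
          (if Ref x y ∧ (univ.filter fun h => x h = x h₀) = insert h₀ U then
            pw x * ((θ * n)⁻¹) ^ vv x else 0) ≤
          wt1 (U.card + 1) * θ⁻¹ * psi θ (F'.card - U.card) * P := by
        intro U hU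
        have hUF' : U ⊆ F' := Finset.mem_powerset.1 hU
        have hh₀U : h₀ ∉ U := fun h => hh₀F' (hUF' h)
        set W := insert h₀ U with hW
        have hWcard : W.card = U.card + 1 := Finset.card_insert_of_notMem hh₀U
        have hWF : ∀ h ∈ W, y h = b₀ := by
          intro h hh
          rcases Finset.mem_insert.1 hh with rfl | hh
          · rfl
          · have := Finset.mem_of_mem_erase (hUF' hh)
            simpa [hF] using this
        have hcard : Fintype.card {h // h ∉ W} = m - W.card := by
          rw [Fintype.card_subtype_compl]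
          simp [hm]
        have hWm : W.card ≤ m := by
          rw [← hm]; exact Finset.card_le_univ _
        have hWpos : 0 < W.card := by omega
        have hih := ih (m - W.card) (by omega) {h // h ∉ W} (fun h' => y h'.1) hcard (by
          have : ((m - W.card : ℕ) : ℝ) ≤ m := by exact_mod_cast Nat.sub_le _ _
          linarith)
        have hprod : ∏ c, psi θ (fb (fun h' : {h // h ∉ W} => y h'.1) c) =
            psi θ (F'.card - U.card) * P := by
          rw [← Finset.mul_prod_erase univ _ (Finset.mem_univ b₀), fb_restrict_sub y W b₀ hWF,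
            if_pos rfl, hF'card, hWcard, Nat.add_sub_add_right]
          congr 1
          apply Finset.prod_congr rfl
          intro c hc
          rw [fb_restrict_sub y W b₀ hWF, if_neg (Finset.ne_of_mem_erase hc)]
        rw [hprod] at hih
        have hw := wt1_pos W.card
        calc _ ≤ wt1 W.card * θ⁻¹ * refSum θ (fun h' : {h // h ∉ W} => y h'.1) :=
              peel_fixed hθ hn y h₀ W
          _ ≤ wt1 W.card * θ⁻¹ * (psi θ (F'.card - U.card) * P) :=
              mul_le_mul_of_nonneg_left hih (by positivity)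
          _ = _ := by rw [hWcard]; ring
      calc refSum θ y ≤ _ := hle
        _ ≤ ∑ U ∈ F'.powerset, wt1 (U.card + 1) * θ⁻¹ * psi θ (F'.card - U.card) * P :=
            Finset.sum_le_sum hblock
        _ = (∑ i ∈ range (F'.card + 1),
              (F'.card.choose i : ℝ) * (wt1 (i + 1) * θ⁻¹ * psi θ (F'.card - i))) * P := by
            rw [← Finset.sum_mul,
              Finset.sum_powerset_apply_card (fun i => wt1 (i + 1) * θ⁻¹ * psi θ (F'.card - i))]
            simp only [nsmul_eq_mul]
        _ ≤ psi θ (F'.card + 1) * P := by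
            apply mul_le_mul_of_nonneg_right _ hPpos
            apply fibre_ineq hθ
            have h1 : fb y b₀ ≤ m := by
              rw [← hm]; exact Finset.card_le_univ _
            have h2 : ((F'.card + 1 : ℕ) : ℝ) ≤ m := by
              rw [← hF'card]; exact_mod_cast h1
            push_cast at h2
            linarith
        _ = ∏ c, psi θ (fb y c) := by
            rw [← Finset.mul_prod_erase univ _ (Finset.mem_univ b₀), hF'card]

theorem sum_fb {H : Type} [Fintype H] (y : H → Fin n) : ∑ c, fb y c = Fintype.card H := by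
  have := Finset.card_eq_sum_card_fiberwise (f := y) (s := (univ : Finset H)) (t := univ)
    (fun _ _ => Finset.mem_coe.2 (Finset.mem_univ _))
  rw [Finset.card_univ] at this
  exact this.symm

/-- Estimate (S2). -/
theorem refSum_final {θ : ℝ} (hθ : 0 < θ) (hn : 0 < n) {H : Type} [Fintype H] (y : H → Fin n)
    (hH : (Fintype.card H : ℝ) ≤ θ) :
    refSum θ y ≤ pw y * (θ⁻¹) ^ vv y * Real.exp ((Fintype.card H : ℝ) / θ) := by
  refine (refSum_le hθ hn _ H y rfl hH).trans ?_
  have hterm : ∀ c ∈ (univ : Finset (Fin n)), psi θ (fb y c) ≤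
      wt1 (fb y c) * (if c ∈ univ.image y then θ⁻¹ else 1) * Real.exp ((fb y c : ℝ) / θ) := by
    intro c _
    have hθi : 0 < θ⁻¹ := inv_pos.2 hθ
    by_cases hc : c ∈ univ.image y
    · have hne : fb y c ≠ 0 := by
        obtain ⟨a, -, ha⟩ := Finset.mem_image.1 hc
        rw [fb, Finset.card_ne_zero]
        exact ⟨a, by simp [ha]⟩
      simp only [psi, hne, if_false, hc, if_true]
      have hw := wt1_pos (fb y c)
      have := Real.add_one_le_exp ((fb y c : ℝ) / θ)
      apply mul_le_mul_of_nonneg_left _ (by positivity)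
      linarith
    · have h0 : fb y c = 0 := by
        rw [fb, Finset.card_eq_zero, Finset.filter_eq_empty_iff]
        intro a _ ha
        exact hc (Finset.mem_image.2 ⟨a, Finset.mem_univ _, ha⟩)
      simp [h0, hc, psi_zero, wt1_zero]
  refine (Finset.prod_le_prod (fun c _ => (psi_pos hθ _).le) hterm).trans (le_of_eq ?_)
  rw [Finset.prod_mul_distrib, Finset.prod_mul_distrib, ← Real.exp_sum]
  congr 1
  · congr 1
    rw [Finset.prod_ite_mem, Finset.univ_inter, Finset.prod_const]
    rfl
  · congr 1
    rw [← Finset.sum_div]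
    have := sum_fb y
    congr 1
    exact_mod_cast this

/-! ### Collisions: estimate (S1) -/

/-- The collision weight. -/
noncomputable def cS (θ : ℝ) (S : Finset (Fin n)) (f : Fin n → Fin n) : ℝ :=
  if Set.InjOn f (S : Set (Fin n)) then 0 else θ ^ (S.card - (S.image f).card)

theorem cS_nonneg {θ : ℝ} (hθ : 0 ≤ θ) (S : Finset (Fin n)) (f : Fin n → Fin n) : 0 ≤ cS θ S f := by
  unfold cS
  split_ifs
  · exact le_rfl
  · positivity

theorem pow_le_cS_add_one {θ : ℝ} (hθ : 0 ≤ θ) (S : Finset (Fin n)) (f : Fin n → Fin n) :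
    θ ^ (S.card - (S.image f).card) ≤ cS θ S f + 1 := by
  unfold cS
  split_ifs with h
  · rw [Finset.card_image_of_injOn h]
    simp
  · linarith

theorem sum_update_eq (a : Fin n) (G : (Fin n → Fin n) → ℝ) :
    ∑ f : Fin n → Fin n, ∑ e : Fin n, G (Function.update f a e) = (n : ℝ) * ∑ f, G f := by
  let φ : Equiv.Perm ((Fin n → Fin n) × Fin n) :=
    Function.Involutive.toPerm (fun p => (Function.update p.1 a p.2, p.1 a)) (by
      intro p
      ext <;> simp)
  calc ∑ f : Fin n → Fin n, ∑ e : Fin n, G (Function.update f a e)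
      = ∑ p : (Fin n → Fin n) × Fin n, G (φ p).1 := by
        rw [Fintype.sum_prod_type]
        rfl
    _ = ∑ p : (Fin n → Fin n) × Fin n, G p.1 := Equiv.sum_comp φ (fun p => G p.1)
    _ = (n : ℝ) * ∑ f, G f := by
        rw [Fintype.sum_prod_type]
        simp [Finset.mul_sum]

theorem image_update_insert (S : Finset (Fin n)) (a : Fin n) (ha : a ∉ S) (f : Fin n → Fin n)
    (e : Fin n) : (insert a S).image (Function.update f a e) = insert e (S.image f) := by
  rw [Finset.image_insert, Function.update_self]
  congr 1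
  apply Finset.image_congr
  intro b hb
  have : b ≠ a := fun h => ha (h ▸ hb)
  simp [Function.update_of_ne this]

theorem injOn_update_insert (S : Finset (Fin n)) (a : Fin n) (ha : a ∉ S) (f : Fin n → Fin n)
    (e : Fin n) : Set.InjOn (Function.update f a e) ((insert a S : Finset (Fin n)) : Set (Fin n)) ↔
      Set.InjOn f (S : Set (Fin n)) ∧ e ∉ S.image f := by
  have hEq : Set.EqOn (Function.update f a e) f (S : Set (Fin n)) := by
    intro b hb
    have : b ≠ a := fun h => ha (h ▸ hb)
    simp [Function.update_of_ne this]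
  rw [Finset.coe_insert, Set.injOn_insert (by simpa using ha), hEq.injOn_iff, Function.update_self,
    hEq.image_eq]
  simp

theorem cS_update_notMem {θ : ℝ} (S : Finset (Fin n)) (a : Fin n) (ha : a ∉ S) (f : Fin n → Fin n)
    (e : Fin n) (he : e ∉ S.image f) :
    cS θ (insert a S) (Function.update f a e) = cS θ S f := by
  unfold cS
  rw [image_update_insert S a ha f e, Finset.card_insert_of_notMem ha,
    Finset.card_insert_of_notMem he, Nat.add_sub_add_right]
  simp only [injOn_update_insert S a ha f e, he, not_false_eq_true, and_true]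

theorem cS_update_mem {θ : ℝ} (hθ : 0 ≤ θ) (S : Finset (Fin n)) (a : Fin n) (ha : a ∉ S)
    (f : Fin n → Fin n) (e : Fin n) (he : e ∈ S.image f) :
    cS θ (insert a S) (Function.update f a e) ≤ θ * (cS θ S f + 1) := by
  unfold cS
  have hinj : ¬ Set.InjOn (Function.update f a e) ((insert a S : Finset (Fin n)) : Set (Fin n)) := by
    rw [injOn_update_insert S a ha f e]
    tauto
  rw [if_neg hinj, image_update_insert S a ha f e, Finset.insert_eq_of_mem he,
    Finset.card_insert_of_notMem ha]
  have hle : (S.image f).card ≤ S.card := Finset.card_image_le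
  have h2 : S.card + 1 - (S.image f).card = (S.card - (S.image f).card) + 1 := by omega
  rw [h2, pow_succ, mul_comm]
  apply mul_le_mul_of_nonneg_left _ hθ
  exact pow_le_cS_add_one hθ S f

theorem sum_e_cS {θ : ℝ} (hθ : 0 ≤ θ) (S : Finset (Fin n)) (a : Fin n) (ha : a ∉ S)
    (f : Fin n → Fin n) :
    ∑ e : Fin n, cS θ (insert a S) (Function.update f a e) ≤
      ((n : ℝ) + S.card * θ) * cS θ S f + S.card * θ := by
  have hc := cS_nonneg hθ S f
  have hterm : ∀ e ∈ (univ : Finset (Fin n)), cS θ (insert a S) (Function.update f a e) ≤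
      cS θ S f + (if e ∈ S.image f then θ * (cS θ S f + 1) else 0) := by
    intro e _
    by_cases he : e ∈ S.image f
    · simp only [he, if_true]
      have := cS_update_mem hθ S a ha f e he
      linarith
    · simp only [he, if_false, add_zero]
      exact le_of_eq (cS_update_notMem S a ha f e he)
  refine (Finset.sum_le_sum hterm).trans ?_
  rw [Finset.sum_add_distrib, Finset.sum_const, Finset.card_univ, Fintype.card_fin, nsmul_eq_mul,
    Finset.sum_ite_mem, Finset.univ_inter, Finset.sum_const, nsmul_eq_mul]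
  have hle : ((S.image f).card : ℝ) ≤ S.card := by exact_mod_cast Finset.card_image_le
  have : ((S.image f).card : ℝ) * (θ * (cS θ S f + 1)) ≤ (S.card : ℝ) * (θ * (cS θ S f + 1)) :=
    mul_le_mul_of_nonneg_right hle (by positivity)
  nlinarith

/-- The master bound of (S1). -/
theorem cS_master {θ : ℝ} (hθ : 0 ≤ θ) (hn : 0 < n) (K : ℕ) (S : Finset (Fin n)) (hS : S.card ≤ K) :
    (n : ℝ) ^ n + ∑ f : Fin n → Fin n, cS θ S f ≤
      (n : ℝ) ^ n * (1 + K * θ / n) ^ S.card := by
  have hn' : (0 : ℝ) < n := by exact_mod_cast hn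
  induction S using Finset.induction_on with
  | empty =>
    have : ∀ f : Fin n → Fin n, cS θ ∅ f = 0 := by
      intro f
      simp [cS]
    simp [this]
  | insert a S ha ih =>
    rw [Finset.card_insert_of_notMem ha] at hS ⊢
    have ih' := ih (by omega)
    set Q := ∑ f : Fin n → Fin n, cS θ S f with hQ
    set Q' := ∑ f : Fin n → Fin n, cS θ (insert a S) f with hQ'
    have h1 : (n : ℝ) * Q' ≤ ((n : ℝ) + S.card * θ) * Q + (n : ℝ) ^ n * (S.card * θ) := by
      rw [hQ', ← sum_update_eq a]
      refine (Finset.sum_le_sum fun f _ => sum_e_cS hθ S a ha f).trans (le_of_eq ?_)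
      rw [Finset.sum_add_distrib, ← Finset.mul_sum, Finset.sum_const, Finset.card_univ,
        Fintype.card_fun]
      simp
      exact Or.inl rfl
    have hQnn : 0 ≤ Q := Finset.sum_nonneg fun f _ => cS_nonneg hθ S f
    have hNpos : (0 : ℝ) < (n : ℝ) ^ n := by positivity
    have hScard : (S.card : ℝ) ≤ K := by
      have : S.card ≤ K := by omega
      exact_mod_cast this
    have h2 : (n : ℝ) * ((n : ℝ) ^ n + Q') ≤ ((n : ℝ) + K * θ) * ((n : ℝ) ^ n + Q) := by
      have : (S.card : ℝ) * θ ≤ K * θ := mul_le_mul_of_nonneg_right hScard hθ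
      nlinarith
    have h3 : (n : ℝ) ^ n + Q' ≤ (1 + K * θ / n) * ((n : ℝ) ^ n + Q) := by
      have : (1 + K * θ / n) = ((n : ℝ) + K * θ) / n := by field_simp
      rw [this, div_mul_eq_mul_div, le_div_iff₀ hn']
      linarith
    have h4 : 0 ≤ 1 + (K : ℝ) * θ / n := by positivity
    calc (n : ℝ) ^ n + Q' ≤ (1 + K * θ / n) * ((n : ℝ) ^ n + Q) := h3
      _ ≤ (1 + K * θ / n) * ((n : ℝ) ^ n * (1 + K * θ / n) ^ S.card) :=
          mul_le_mul_of_nonneg_left ih' h4
      _ = (n : ℝ) ^ n * (1 + K * θ / n) ^ (S.card + 1) := by ring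

/-- Estimate (S1) with the constants of the main argument. -/
theorem cS_final {k : ℕ} (hn : 0 < n) (hk : 1000 * k ^ 3 ≤ n) (S : Finset (Fin n)) (hS : S.card ≤ k) :
    ∑ f : Fin n → Fin n, cS (4 * ((k : ℝ) + 1)) S f ≤ (1 / 100) * (n : ℝ) ^ n := by
  have hn' : (0 : ℝ) < n := by exact_mod_cast hn
  set θ : ℝ := 4 * ((k : ℝ) + 1) with hθ
  have hθ0 : 0 ≤ θ := by positivity
  have hm := cS_master hθ0 hn k S hS
  have hNpos : (0 : ℝ) < (n : ℝ) ^ n := by positivity
  have hkR : 1000 * (k : ℝ) ^ 3 ≤ n := by exact_mod_cast hk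
  set q : ℝ := (k : ℝ) * θ / n with hq
  have hq0 : 0 ≤ q := by positivity
  have h1 : (1 + q) ^ S.card ≤ Real.exp ((k : ℝ) * q) := by
    calc (1 + q) ^ S.card ≤ (1 + q) ^ k := pow_le_pow_right₀ (by linarith) hS
      _ ≤ (Real.exp q) ^ k := by
          apply pow_le_pow_left₀ (by linarith)
          have := Real.add_one_le_exp q
          linarith
      _ = Real.exp ((k : ℝ) * q) := by
          rw [← Real.exp_nat_mul]
  have hkq : (k : ℝ) * q ≤ 1 / 125 := by
    rw [hq, hθ]
    have : (k : ℝ) * ((k : ℝ) * (4 * ((k : ℝ) + 1)) / n) = (4 * (k : ℝ) ^ 2 * ((k : ℝ) + 1)) / n := by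
      ring
    rw [this, div_le_iff₀ hn']
    rcases Nat.eq_zero_or_pos k with h0 | hpos
    · subst h0
      simp
    · have hk1 : (1 : ℝ) ≤ k := by exact_mod_cast hpos
      have : (k : ℝ) ^ 2 ≤ (k : ℝ) ^ 3 := by
        have : (0 : ℝ) ≤ (k : ℝ) ^ 2 := by positivity
        nlinarith
      nlinarith
  have h2 : Real.exp ((k : ℝ) * q) ≤ 1 + 1 / 100 := by
    have hx : Real.exp ((k : ℝ) * q) ≤ Real.exp (1 / 125) := Real.exp_le_exp.2 hkq
    refine hx.trans ?_
    have h3 : (1 : ℝ) - 1 / 125 ≤ Real.exp (-(1 / 125)) := Real.one_sub_le_exp_neg _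
    have h4 : Real.exp (1 / 125) * Real.exp (-(1 / 125)) = 1 := by
      rw [← Real.exp_add]; simp
    have h5 : 0 < Real.exp (1 / 125 : ℝ) := Real.exp_pos _
    nlinarith
  have h6 : (n : ℝ) ^ n * (1 + q) ^ S.card ≤ (n : ℝ) ^ n * (1 + 1 / 100) :=
    mul_le_mul_of_nonneg_left (h1.trans h2) hNpos.le
  linarith

end Vale.Agent.Lib.P146
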