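import Vale.Agent.Lib.P146.Schur_a

/-! Module J1, part b: the weighted Schur test for abstract half-edge sets. -/

set_option autoImplicit false
open scoped Classical
open Finset

namespace Vale.Agent.Lib.P146

variable {n : ℕ} {H : Type} [Fintype H]

/-- All fibres even. -/
def EvF (x : H → Fin n) : Prop := ∀ c, Even (fb x c)

theorem EvF_comp (f : Fin n → Fin n) (x : H → Fin n) (h : EvF x) : EvF (f ∘ x) := by
  intro c
  have h1 := Finset.card_eq_sum_card_fiberwise (f := x)
    (s := univ.filter fun a => (f ∘ x) a = c) (t := univ)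
    (fun _ _ => Finset.mem_coe.2 (Finset.mem_univ _))
  unfold fb
  rw [h1]
  apply Finset.even_sum
  intro c' _
  by_cases hc' : f c' = c
  · have : (filter (fun a => x a = c') (filter (fun a => (f ∘ x) a = c) univ)) =
        filter (fun a => x a = c') univ := by
      ext a
      simp only [Finset.mem_filter, Finset.mem_univ, true_and, Function.comp]
      constructor
      · exact fun h => h.2
      · intro h'
        exact ⟨by rw [h', hc'], h'⟩
    rw [this]
    exact h c'
  · have : (filter (fun a => x a = c') (filter (fun a => (f ∘ x) a = c) univ)) = ∅ := by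
      ext a
      simp only [Finset.mem_filter, Finset.mem_univ, true_and, Function.comp, Finset.notMem_empty,
        iff_false, not_and]
      intro h' h''
      exact hc' (h'' ▸ h')
    rw [this]
    simp

theorem two_vv_le (x : H → Fin n) (h : EvF x) : 2 * vv x ≤ Fintype.card H := by
  rw [← sum_fb x, vv, Finset.card_eq_sum_ones, Finset.mul_sum]
  refine (Finset.sum_le_sum ?_).trans (Finset.sum_le_sum_of_subset (Finset.subset_univ (univ.image x)))
  intro c hc
  obtain ⟨a, -, ha⟩ := Finset.mem_image.1 hc
  have hne : fb x c ≠ 0 := by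
    rw [fb, Finset.card_ne_zero]
    exact ⟨a, by simp [ha]⟩
  obtain ⟨r, hr⟩ := h c
  omega

theorem ref_comp (f : Fin n → Fin n) (x : H → Fin n) : Ref x (f ∘ x) := by
  intro a b hab
  simp [hab]

theorem image_comp_univ (f : Fin n → Fin n) (x : H → Fin n) :
    (univ.image x).image f = univ.image (f ∘ x) := by
  rw [Finset.image_image]

theorem card_comp_le (x y : H → Fin n) :
    ((univ.filter fun f : Fin n → Fin n => f ∘ x = y).card : ℝ) * (n : ℝ) ^ vv x ≤ (n : ℝ) ^ n := by
  set S := univ.image x with hS
  let pre : Fin n → Fin n := fun a =>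
    if ha : ∃ h, x h = a then y (Classical.choose ha) else a
  let t : Fin n → Finset (Fin n) := fun a => if a ∈ S then {pre a} else univ
  have hsub : (univ.filter fun f : Fin n → Fin n => f ∘ x = y) ⊆ Fintype.piFinset t := by
    intro f hf
    have hf' : f ∘ x = y := by simpa using hf
    rw [Fintype.mem_piFinset]
    intro a
    by_cases ha : a ∈ S
    · simp only [t, ha, if_true, Finset.mem_singleton]
      have hex : ∃ h, x h = a := by
        obtain ⟨b, -, hb⟩ := Finset.mem_image.1 ha
        exact ⟨b, hb⟩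
      simp only [pre, hex, dif_pos]
      rw [← hf']
      simp [Classical.choose_spec hex]
    · simp [t, ha]
  have hcard : (Fintype.piFinset t).card = n ^ (n - S.card) := by
    rw [Fintype.card_piFinset]
    have : ∀ a, (t a).card = if a ∈ S then 1 else n := by
      intro a
      by_cases ha : a ∈ S <;> simp [t, ha]
    simp only [this]
    rw [Finset.prod_ite]
    simp only [Finset.prod_const_one, one_mul, Finset.prod_const]
    congr 1
    have : (univ.filter fun a => a ∉ S) = Sᶜ := by
      ext a; simp
    rw [this, Finset.card_compl, Fintype.card_fin]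
  have hle := Finset.card_le_card hsub
  rw [hcard] at hle
  have hS' : S.card ≤ n := by
    simpa using Finset.card_le_univ S
  have hfin : (univ.filter fun f : Fin n → Fin n => f ∘ x = y).card * n ^ vv x ≤ n ^ n := by
    calc _ ≤ n ^ (n - S.card) * n ^ S.card := Nat.mul_le_mul_right _ hle
      _ = n ^ n := by rw [← pow_add, Nat.sub_add_cancel hS']
  exact_mod_cast hfin

theorem exists_perm_ext (f : Fin n → Fin n) (S : Finset (Fin n))
    (h : Set.InjOn f (S : Set (Fin n))) : ∃ σ : Equiv.Perm (Fin n), ∀ a ∈ S, σ a = f a := by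
  obtain ⟨g, hg⟩ := Finset.exists_equiv_extend_of_card_eq (α := Fin n) (β := Fin n)
    (t := univ) (by simp) (s := S) (f := f) (Finset.subset_univ _) h
  exact ⟨g.trans (Equiv.subtypeUnivEquiv (fun _ => Finset.mem_univ _)), fun a ha => by
    simpa using hg a ha⟩

theorem cs_bad {θ : ℝ} (hθ : 0 < θ) (S : Finset (Fin n)) (G : (Fin n → Fin n) → ℝ) :
    (∑ f, if Set.InjOn f (S : Set (Fin n)) then 0 else G f) ^ 2 ≤
      (∑ f, cS θ S f) *
        ∑ f, if Set.InjOn f (S : Set (Fin n)) then 0 else
          (θ⁻¹) ^ (S.card - (S.image f).card) * G f ^ 2 := by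
  apply Finset.sum_sq_le_sum_mul_sum_of_sq_le_mul
  · intro f _
    exact cS_nonneg hθ.le S f
  · intro f _
    split_ifs
    · exact le_rfl
    · positivity
  · intro f _
    unfold cS
    split_ifs
    · simp
    · rw [← mul_assoc, ← mul_pow, mul_inv_cancel₀ hθ.ne']
      simp

/-- The exchange of sums and the refinement estimate. -/
theorem double_sum {k : ℕ} (hcard : Fintype.card H = 2 * k) (hn : 0 < n)
    (d : (H → Fin n) → ℝ) :
    ∑ x : H → Fin n, (if EvF x then pw x *
        ∑ f : Fin n → Fin n, (if Set.InjOn f ((univ.image x : Finset (Fin n)) : Set (Fin n)) then 0 else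
          ((4 * ((k : ℝ) + 1))⁻¹) ^ ((univ.image x).card - ((univ.image x).image f).card) *
            d (f ∘ x) ^ 2) else 0) ≤
      2 * (n : ℝ) ^ n * ∑ y : H → Fin n, (if EvF y then pw y * d y ^ 2 else 0) := by
  have hn' : (0 : ℝ) < n := by exact_mod_cast hn
  set θ : ℝ := 4 * ((k : ℝ) + 1) with hθdef
  have hθ : 0 < θ := by positivity
  have hθi : 0 < θ⁻¹ := inv_pos.2 hθ
  have hN : (0 : ℝ) < (n : ℝ) ^ n := by positivity
  -- the kernel
  set A : (H → Fin n) → (H → Fin n) → ℝ := fun x y =>
    if EvF x then pw x * ((θ⁻¹) ^ vv x * θ ^ vv y * d y ^ 2) else 0 with hA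
  have hA0 : ∀ x y, 0 ≤ A x y := by
    intro x y
    simp only [hA]
    split_ifs
    · have := pw_pos x
      positivity
    · exact le_rfl
  set c : (H → Fin n) → (H → Fin n) → ℝ := fun x y =>
    ((univ.filter fun f : Fin n → Fin n => f ∘ x = y).card : ℝ) with hc
  have hc0 : ∀ x y, 0 ≤ c x y := fun x y => Nat.cast_nonneg _
  -- step 1: for fixed `x`
  have hx : ∀ x : H → Fin n, (if EvF x then pw x *
        ∑ f : Fin n → Fin n, (if Set.InjOn f ((univ.image x : Finset (Fin n)) : Set (Fin n)) then 0 else
          (θ⁻¹) ^ ((univ.image x).card - ((univ.image x).image f).card) *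
            d (f ∘ x) ^ 2) else 0) ≤ ∑ y, c x y * A x y := by
    intro x
    have hfib : ∑ y, c x y * A x y = ∑ f : Fin n → Fin n, A x (f ∘ x) := by
      rw [← Finset.sum_fiberwise (s := (univ : Finset (Fin n → Fin n))) (g := fun f => f ∘ x)
        (f := fun f => A x (f ∘ x))]
      apply Finset.sum_congr rfl
      intro y _
      have : ∀ f ∈ (univ.filter fun f : Fin n → Fin n => f ∘ x = y), A x (f ∘ x) = A x y := by
        intro f hf
        have : f ∘ x = y := by simpa using hf
        rw [this]
      rw [Finset.sum_congr rfl this, Finset.sum_const, nsmul_eq_mul]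
    rw [hfib]
    by_cases hev : EvF x
    · simp only [hev, if_true, hA]
      rw [Finset.mul_sum]
      apply Finset.sum_le_sum
      intro f _
      have hp := pw_pos x
      apply mul_le_mul_of_nonneg_left _ hp.le
      split_ifs
      · positivity
      · apply mul_le_mul_of_nonneg_right _ (sq_nonneg _)
        have hle : vv (f ∘ x) ≤ vv x := by
          unfold vv
          rw [← image_comp_univ]
          exact Finset.card_image_le
        have : (univ.image x).card - ((univ.image x).image f).card = vv x - vv (f ∘ x) := by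
          unfold vv
          rw [image_comp_univ]
        rw [this]
        obtain ⟨r, hr⟩ : ∃ r, vv x = vv (f ∘ x) + r := ⟨vv x - vv (f ∘ x), by omega⟩
        rw [hr, Nat.add_sub_cancel_left, pow_add]
        have h1 : (θ⁻¹) ^ vv (f ∘ x) * θ ^ vv (f ∘ x) = 1 := by
          rw [← mul_pow, inv_mul_cancel₀ hθ.ne']
          simp
        calc (θ⁻¹) ^ r = ((θ⁻¹) ^ vv (f ∘ x) * θ ^ vv (f ∘ x)) * (θ⁻¹) ^ r := by rw [h1, one_mul]
          _ = _ := by ring_nf
          _ ≤ _ := le_rfl
    · simp only [hev, if_false]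
      exact Finset.sum_nonneg fun f _ => hA0 x _
  refine (Finset.sum_le_sum fun x _ => hx x).trans ?_
  rw [Finset.sum_comm, Finset.mul_sum]
  apply Finset.sum_le_sum
  intro y _
  by_cases hev : EvF y
  · simp only [hev, if_true]
    have hterm : ∀ x : H → Fin n, c x y * A x y ≤
        ((n : ℝ) ^ n * (θ ^ vv y * d y ^ 2)) *
          (if Ref x y then pw x * ((θ * n)⁻¹) ^ vv x else 0) := by
      intro x
      by_cases hr : Ref x y
      · simp only [hr, if_true]
        have h1 := card_comp_le x y
        have hpx := pw_pos x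
        have hnv : (0 : ℝ) < (n : ℝ) ^ vv x := by positivity
        have h2 : c x y ≤ (n : ℝ) ^ n * ((n : ℝ)⁻¹) ^ vv x := by
          have : ((n : ℝ)⁻¹) ^ vv x = ((n : ℝ) ^ vv x)⁻¹ := inv_pow _ _
          rw [this, ← div_eq_mul_inv, le_div_iff₀ hnv]
          exact h1
        have h3 : A x y ≤ pw x * ((θ⁻¹) ^ vv x * θ ^ vv y * d y ^ 2) := by
          simp only [hA]
          split_ifs
          · exact le_rfl
          · positivity
        have h4 : ((θ * n)⁻¹) ^ vv x = (θ⁻¹) ^ vv x * ((n : ℝ)⁻¹) ^ vv x := by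
          rw [mul_inv, mul_pow]
        rw [h4]
        calc c x y * A x y ≤ ((n : ℝ) ^ n * ((n : ℝ)⁻¹) ^ vv x) *
              (pw x * ((θ⁻¹) ^ vv x * θ ^ vv y * d y ^ 2)) :=
              mul_le_mul h2 h3 (hA0 x y) (by positivity)
          _ = _ := by ring
      · have : c x y = 0 := by
          simp only [hc]
          rw [Nat.cast_eq_zero, Finset.card_eq_zero, Finset.filter_eq_empty_iff]
          intro f _ hf
          exact hr (hf ▸ ref_comp f x)
        simp only [this, hr, if_false, zero_mul, mul_zero, le_refl]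
    refine (Finset.sum_le_sum fun x _ => hterm x).trans ?_
    rw [← Finset.mul_sum]
    have hfin := refSum_final hθ hn y (by
      rw [hcard, hθdef]
      push_cast
      have : (0 : ℝ) ≤ k := Nat.cast_nonneg _
      linarith)
    have hexp : Real.exp ((Fintype.card H : ℝ) / θ) ≤ 2 := by
      have h1 : (Fintype.card H : ℝ) / θ ≤ 1 / 2 := by
        rw [hcard, hθdef, div_le_iff₀ (by positivity)]
        push_cast
        have : (0 : ℝ) ≤ k := Nat.cast_nonneg _
        linarith
      refine (Real.exp_le_exp.2 h1).trans ?_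
      have h3 : (1 : ℝ) - 1 / 2 ≤ Real.exp (-(1 / 2)) := Real.one_sub_le_exp_neg _
      have h4 : Real.exp (1 / 2) * Real.exp (-(1 / 2)) = 1 := by
        rw [← Real.exp_add]; simp
      have h5 : 0 < Real.exp (1 / 2 : ℝ) := Real.exp_pos _
      nlinarith
    have hpy := pw_pos y
    have hmul : ((θ⁻¹) ^ vv y) * θ ^ vv y = 1 := by
      rw [← mul_pow, inv_mul_cancel₀ hθ.ne']
      simp
    have hfin2 : refSum θ y * θ ^ vv y ≤ 2 * pw y := by
      calc refSum θ y * θ ^ vv y ≤ (pw y * (θ⁻¹) ^ vv y * Real.exp ((Fintype.card H : ℝ) / θ)) * θ ^ vv y :=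
            mul_le_mul_of_nonneg_right hfin (by positivity)
        _ = pw y * Real.exp ((Fintype.card H : ℝ) / θ) * ((θ⁻¹) ^ vv y * θ ^ vv y) := by ring
        _ = pw y * Real.exp ((Fintype.card H : ℝ) / θ) := by rw [hmul, mul_one]
        _ ≤ 2 * pw y := by nlinarith
    have hd2 : 0 ≤ (n : ℝ) ^ n * d y ^ 2 := by positivity
    calc (n : ℝ) ^ n * (θ ^ vv y * d y ^ 2) * (∑ x : H → Fin n, if Ref x y then pw x * ((θ * n)⁻¹) ^ vv x else 0)
        = ((n : ℝ) ^ n * d y ^ 2) * (refSum θ y * θ ^ vv y) := by
          rw [refSum]; ring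
      _ ≤ ((n : ℝ) ^ n * d y ^ 2) * (2 * pw y) := mul_le_mul_of_nonneg_left hfin2 hd2
      _ = 2 * (n : ℝ) ^ n * (pw y * d y ^ 2) := by ring
  · simp only [hev, if_false, mul_zero]
    apply le_of_eq
    apply Finset.sum_eq_zero
    intro x _
    by_cases hx : EvF x
    · have : c x y = 0 := by
        simp only [hc]
        rw [Nat.cast_eq_zero, Finset.card_eq_zero, Finset.filter_eq_empty_iff]
        intro f _ hf
        exact hev (hf ▸ EvF_comp f x hx)
      simp [this]
    · simp [hA, hx]

/-- The weighted Schur test. -/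
theorem schur_abstract {k : ℕ} (hcard : Fintype.card H = 2 * k) (hn : 0 < n)
    (hk : 1000 * k ^ 3 ≤ n) (d : (H → Fin n) → ℝ)
    (hd : ∀ (σ : Equiv.Perm (Fin n)) x, d (σ ∘ x) = d x) :
    ∑ x : H → Fin n, (if EvF x then pw x * d x ^ 2 else 0) ≤
      16 * ∑ x : H → Fin n, (if EvF x then
        pw x * (((n : ℝ) ^ n)⁻¹ * ∑ f : Fin n → Fin n, d (f ∘ x)) ^ 2 else 0) := by
  have hn' : (0 : ℝ) < n := by exact_mod_cast hn
  set θ : ℝ := 4 * ((k : ℝ) + 1) with hθdef
  have hθ : 0 < θ := by positivity
  have hθ1 : 1 ≤ θ := by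
    have : (0 : ℝ) ≤ k := Nat.cast_nonneg _
    rw [hθdef]; linarith
  set N : ℝ := (n : ℝ) ^ n with hN
  have hNpos : 0 < N := by positivity
  set T : (H → Fin n) → ℝ := fun x => N⁻¹ * ∑ f : Fin n → Fin n, d (f ∘ x) with hT
  set W : (H → Fin n) → ℝ := fun x =>
    ∑ f : Fin n → Fin n, (if Set.InjOn f ((univ.image x : Finset (Fin n)) : Set (Fin n)) then 0 else
      (θ⁻¹) ^ ((univ.image x).card - ((univ.image x).image f).card) * d (f ∘ x) ^ 2) with hW
  -- the pointwise inequality
  have hpt : ∀ x : H → Fin n, EvF x → (47 / 50) * d x ^ 2 ≤ 2 * T x ^ 2 + W x / (50 * N) + (0 : ℝ) := by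
    intro x hev
    set S := univ.image x with hS
    have hScard : S.card ≤ k := by
      have := two_vv_le x hev
      rw [hcard] at this
      change 2 * S.card ≤ 2 * k at this
      omega
    have hA := cS_final hn hk S hScard
    set P₀ : ℝ := ∑ f : Fin n → Fin n, (if Set.InjOn f (S : Set (Fin n)) then 1 else 0) with hP₀
    set B : ℝ := ∑ f : Fin n → Fin n, (if Set.InjOn f (S : Set (Fin n)) then 0 else d (f ∘ x)) with hB
    have hsplit : ∑ f : Fin n → Fin n, d (f ∘ x) = P₀ * d x + B := by
      rw [hP₀, hB, Finset.sum_mul, ← Finset.sum_add_distrib]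
      apply Finset.sum_congr rfl
      intro f _
      by_cases hf : Set.InjOn f (S : Set (Fin n))
      · simp only [hf, if_true, one_mul, add_zero]
        obtain ⟨σ, hσ⟩ := exists_perm_ext f S hf
        have : f ∘ x = σ ∘ x := by
          funext h
          simp only [Function.comp]
          rw [hσ (x h) (Finset.mem_image_of_mem _ (Finset.mem_univ _))]
        rw [this, hd]
      · simp [hf]
    have hP₀lb : (99 / 100) * N ≤ P₀ := by
      have h1 : P₀ + ∑ f : Fin n → Fin n, (if Set.InjOn f (S : Set (Fin n)) then 0 else 1) = N := by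
        rw [hP₀, ← Finset.sum_add_distrib]
        have : ∀ f : Fin n → Fin n, ((if Set.InjOn f (S : Set (Fin n)) then (1 : ℝ) else 0) +
            (if Set.InjOn f (S : Set (Fin n)) then 0 else 1)) = 1 := by
          intro f
          split_ifs <;> simp
        simp only [this, Finset.sum_const, Finset.card_univ, Fintype.card_fun, Fintype.card_fin]
        simp [hN]
      have h2 : ∑ f : Fin n → Fin n, (if Set.InjOn f (S : Set (Fin n)) then (0 : ℝ) else 1) ≤
          ∑ f : Fin n → Fin n, cS θ S f := by
        apply Finset.sum_le_sum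
        intro f _
        unfold cS
        split_ifs
        · exact le_rfl
        · exact one_le_pow₀ hθ1
      linarith
    have hP₀pos : 0 ≤ P₀ := by
      have : 0 < (99 / 100) * N := by positivity
      linarith
    have hBsq : B ^ 2 ≤ (1 / 100) * N * W x := by
      have h1 := cs_bad hθ S (fun f => d (f ∘ x))
      have hW0 : 0 ≤ W x := by
        apply Finset.sum_nonneg
        intro f _
        split_ifs
        · exact le_rfl
        · positivity
      exact h1.trans (mul_le_mul_of_nonneg_right hA hW0)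
    have hTx : N * T x = P₀ * d x + B := by
      simp only [hT]
      rw [← mul_assoc, mul_inv_cancel₀ hNpos.ne', one_mul, hsplit]
    have hmain : (P₀ * d x) ^ 2 ≤ 2 * (N * T x) ^ 2 + 2 * B ^ 2 := by
      have : P₀ * d x = N * T x - B := by linarith
      rw [this]
      nlinarith [sq_nonneg (N * T x + B)]
    have hP2 : ((99 / 100) * N) ^ 2 * d x ^ 2 ≤ (P₀ * d x) ^ 2 := by
      rw [mul_pow P₀]
      apply mul_le_mul_of_nonneg_right _ (sq_nonneg _)
      exact pow_le_pow_left₀ (by positivity) hP₀lb 2
    have hfin : (9801 / 10000) * N ^ 2 * d x ^ 2 ≤ 2 * N ^ 2 * T x ^ 2 + (1 / 50) * N * W x := by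
      have : ((99 / 100) * N) ^ 2 = (9801 / 10000) * N ^ 2 := by ring
      rw [this] at hP2
      have h3 : (N * T x) ^ 2 = N ^ 2 * T x ^ 2 := by ring
      rw [h3] at hmain
      linarith
    have hdiv : W x / (50 * N) = W x * N / (50 * N ^ 2) := by
      field_simp
    have hN2 : 0 < N ^ 2 := by positivity
    rw [add_zero]
    have key : (47 / 50) * d x ^ 2 ≤ 2 * T x ^ 2 + (1 / 50) * W x / N := by
      have h5 : (1 / 50) * W x / N = ((1 / 50) * N * W x) / N ^ 2 := by
        field_simp
      rw [h5]
      have h6 : 2 * T x ^ 2 = (2 * N ^ 2 * T x ^ 2) / N ^ 2 := by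
        field_simp
      rw [h6, ← add_div, le_div_iff₀ hN2]
      have : 0 ≤ d x ^ 2 * N ^ 2 := by positivity
      nlinarith
    have h7 : W x / (50 * N) = (1 / 50) * W x / N := by
      field_simp
    rw [h7]
    exact key
  -- summing up
  set D : ℝ := ∑ x : H → Fin n, (if EvF x then pw x * d x ^ 2 else 0) with hD
  set TT' : ℝ := ∑ x : H → Fin n, (if EvF x then pw x * T x ^ 2 else 0) with hTT'
  have hTT0 : 0 ≤ TT' := by
    apply Finset.sum_nonneg
    intro x _
    split_ifs
    · have := pw_pos x
      positivity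
    · exact le_rfl
  have hD0 : 0 ≤ D := by
    apply Finset.sum_nonneg
    intro x _
    split_ifs
    · have := pw_pos x
      positivity
    · exact le_rfl
  have hds := double_sum hcard hn d
  change ∑ x : H → Fin n, (if EvF x then pw x * W x else 0) ≤ 2 * N * D at hds
  have hsum : (47 / 50) * D ≤ 2 * TT' + (∑ x : H → Fin n, (if EvF x then pw x * W x else 0)) / (50 * N) := by
    rw [hD, hTT', Finset.mul_sum, Finset.mul_sum, Finset.sum_div, ← Finset.sum_add_distrib]
    apply Finset.sum_le_sum
    intro x _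
    by_cases hev : EvF x
    · simp only [hev, if_true]
      have h1 := hpt x hev
      have hp := pw_pos x
      have h2 := mul_le_mul_of_nonneg_left h1 hp.le
      have h3 : pw x * W x / (50 * N) = pw x * (W x / (50 * N)) := by ring
      rw [h3]
      nlinarith
    · simp [hev]
  have hlast : (∑ x : H → Fin n, (if EvF x then pw x * W x else 0)) / (50 * N) ≤ D / 25 := by
    rw [div_le_iff₀ (by positivity)]
    have : D / 25 * (50 * N) = 2 * N * D := by ring
    rw [this]
    exact hds
  linarith

end Vale.Agent.Lib.P146
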